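import Vale.Agent.P202.Defs2

/-! Definitions for the mixed characteristic case. -/

namespace Vale.Agent.P202

open IsLocalRing

noncomputable section

/-- `φ` is a lift of Frobenius, `φ x = x ^ p + p * δ x`, and `p` is a non-zero-divisor -/
structure IsDelta (p : ℕ) {A : Type*} [CommRing A] (φ : A →+* A) (δ : A → A) : Prop where
  reg : ∀ x : A, (p : A) * x = 0 → x = 0
  eq : ∀ x, φ x = x ^ p + p * δ x

/-- a local ring with uniformizer `p`, a lift of Frobenius and an infinite perfect residue field -/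
structure PBase (p : ℕ) (V : Type*) [CommRing V] [IsLocalRing V] : Prop where
  max : maximalIdeal V = Ideal.span {(p : V)}
  delta : ∃ (φ : V →+* V) (δ : V → V), IsDelta p φ δ
  perf : ∀ a : V, ∃ b : V, a - b ^ p ∈ maximalIdeal V
  inf : Infinite (ResidueField V)

/-- every system of parameters of length `D` is a regular sequence -/
def IsCM (P : Type*) [CommRing P] [IsLocalRing P] (D : ℕ) : Prop :=
  ∀ l : List P, l.length = D → (∀ a ∈ l, a ∈ maximalIdeal P) → Prim (Ideal.ofList l) → RegSeq ⊥ l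

/-- the number of monomials of degree less than `N` in `d` variables -/
def mcs (d N : ℕ) : ℕ := ∑ k ∈ Finset.range N, d.multichoose k

section
variable {R : Type*} [CommRing R] {M : Type*} [AddCommGroup M] [Module R M]

/-- the ideal generated by powers -/
def pw {ι : Type*} (y : ι → R) (a : ι → ℕ) : Ideal R := Ideal.span (Set.range fun t => y t ^ a t)

/-- the colengths of `T` are bounded by those of a free module of rank `N` -/
def NG (T : Submodule R M) (N : ℕ) : Prop := ∀ c : Ideal R, rl (c • T) T ≤ N * rl c (⊤ : Ideal R)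

/-- the colon property of a permutable regular sequence on `N` -/
def ColOn {ι : Type*} (y : ι → R) (N : Submodule R M) : Prop :=
  ∀ (S : Set ι) (j : ι), j ∉ S → ∀ (m l : ℕ), ∀ v ∈ N,
    y j ^ m • v ∈
      (Ideal.span ((fun t => y t ^ m) '' S) ⊔ Ideal.span (Set.range y) ^ (l + m)) • N →
    v ∈ (Ideal.span ((fun t => y t ^ m) '' S) ⊔ Ideal.span (Set.range y) ^ l) • N

/-- the deep subcomplex with levels `κ` -/
def dp (D : M →ₗ[R] M) (V : ℤ → ℤ → Submodule R M) (κ : ℤ → ℤ) : ℤ → Submodule R M :=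
  bnd D (fun n => V (κ n) n) (fun n => V (κ n) n)

/-- levels in arithmetic progression -/
def lv (c G n0 : ℤ) (n : ℤ) : ℤ := c + G * (n - n0 + 2)

/-- a filtered approximate complex in which deep approximate cycles are approximate boundaries
up to `h ^ c` -/
structure FiltSys (D : M →ₗ[R] M) (h : R) (b : Ideal R) (V : ℤ → ℤ → Submodule R M)
    (k0 n0 n1 : ℤ) (L N c : ℕ) : Prop where
  mono : ∀ k k' n, k0 ≤ k → k ≤ k' → V k' n ≤ V k n
  bot : ∀ k n, n < n0 ∨ n1 < n → V k n = ⊥
  st : ∀ k n, ∀ x ∈ V k n, D x ∈ V k (n + 1)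
  dd : ∀ k n, k0 ≤ k → ∀ x ∈ V k n, D (D x) ∈ V (k + L) (n + 1 + 1)
  deep : ∀ k n, k0 ≤ k → ∀ r ∈ b, ∀ x ∈ V k n, r • x ∈ V (k + L) n
  rg : ∀ k l n, k0 ≤ k → k ≤ l → l ≤ k + L → ∀ z ∈ V (k + N) n, D z ∈ V (l + N) (n + 1) →
    ∃ w ∈ V k (n - 1), h ^ c • z - D w ∈ V l n

/-- an approximate matrix complex -/
structure Apx {s : ℕ} (y : Fin (s + 1) → R) (h : R) {J : Type*} [Fintype J] [DecidableEq J]
    (i : J → ℕ) (g : Matrix J J R) (L M : ℕ) : Prop where
  deg : Deg i g
  le : ∀ a, i a ≤ s + 1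
  sq : Ent (g * g) (Ideal.span (Set.range y) ^ L)
  null : ∀ t, Null i g (Ideal.span (Set.range y) ^ L) (h * y t ^ M)

end

/-- the untwisted filtration -/
def VV (P : Type*) [CommRing P] {Λ : Type*} [CommRing Λ] [Algebra P Λ] {σ : Type} [Fintype σ]
    (θ : σ → Λ) (u : Λˣ) {J : Type*} (i : J → ℕ) (b : σ → ℤ) (k : ℤ) :
    ℤ → Submodule P (J → Λ) :=
  pf i fun _ => UU P θ u k b

/-- splitting data for a system of parameters of a Cohen-Macaulay ring -/
structure CMS {P : Type*} [CommRing P] [IsLocalRing P] {s : ℕ} (y : Fin (s + 1) → P)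
    (Λ : Type*) [CommRing Λ] [Algebra P Λ] (θ : Fin s → Λ) (u : Λˣ) : Prop where
  split : SplitData ⊥ y Λ θ u
  cm : IsCM P (s + 1)
  mem : ∀ t, y t ∈ maximalIdeal P
  prim : Prim (Ideal.span (Set.range y))

/-- `P ⧸ d` and `Q ⧸ D` agree up to `h` -/
structure ApAlg {P Q : Type*} [CommRing P] [CommRing Q] [Algebra P Q] (h : P) (d : Ideal P)
    (D : Ideal Q) : Prop where
  surj : ∀ a : Q, ∃ u : P, h • a - algebraMap P Q u ∈ D
  inj : ∀ u : P, algebraMap P Q u ∈ D → u ∈ d

/-- `R` is birational to the generically separable hypersurface `T[X] ⧸ F` -/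
structure HypData {T R : Type*} [CommRing T] [CommRing R] [Algebra T R] (x : R)
    (F : Polynomial T) (g0 g1 : T) : Prop where
  monic : F.Monic
  root : Polynomial.aeval x F = 0
  sep : ∃ A B : Polynomial T, A * F + B * Polynomial.derivative F = Polynomial.C g0
  inj : ∀ f : Polynomial T, Polynomial.aeval x f = 0 → F ∣ f
  cond : ∀ r : R, ∃ f : Polynomial T, Polynomial.aeval x f = g1 • r
  ne0 : g0 ≠ 0
  ne1 : g1 ≠ 0

end

end Vale.Agent.P202
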