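import Vale.Agent.P202.Len
import Vale.Agent.P202.Defs3

/-! Modules killed by a power of an element; counting monomials. -/

namespace Vale.Agent.P202

open IsLocalRing

section
variable {R : Type*} [CommRing R] {M : Type*} [AddCommGroup M] [Module R M]
  {M' : Type*} [AddCommGroup M'] [Module R M']

theorem sm_mem {O T : Submodule R M} {h : R} {x : M} :
    x ∈ O ⊔ Ideal.span {h} • T ↔ ∃ y ∈ T, x - h • y ∈ O := by
  rw [Submodule.ideal_span_singleton_smul]
  constructor
  · intro hx
    obtain ⟨z, hz, w, hw, rfl⟩ := Submodule.mem_sup.1 hx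
    obtain ⟨y, hy, rfl⟩ := (Submodule.mem_smul_pointwise_iff_exists _ _ _).1 hw
    exact ⟨y, hy, by simpa using hz⟩
  · rintro ⟨y, hy, e⟩
    rw [← sub_add_cancel x (h • y)]
    exact add_mem (Submodule.mem_sup_left e)
      (Submodule.mem_sup_right (Submodule.smul_mem_pointwise_smul _ _ _ hy))

theorem sm_ker (O X : Submodule R M) (g : R) (hfin : rl O X ≠ ⊤) :
    rl (O ⊔ Ideal.span {g} • X) X = rl O (X ⊓ O.comap (LinearMap.lsmul R M g)) := by
  have l0 : Ideal.span {g} • X ≤ X := Submodule.smul_le_right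
  have lO : O ≤ O.comap (LinearMap.lsmul R M g) := fun x hx => O.smul_mem g hx
  have e1 : rl O X = rl (O.comap (LinearMap.lsmul R M g)) X + rl (O ⊔ Ideal.span {g} • X) X := by
    rw [← rl_sup_right O X, rl_add (B := O ⊔ Ideal.span {g} • X) le_sup_left
      (sup_le_sup_left l0 _), ← rl_sup_right (O ⊔ _) X, sup_assoc, sup_eq_right.2 l0]
    congr 1
    refine rl_eq_of_map (LinearMap.lsmul R M g) (fun x hx => Submodule.mem_sup_left
      (sm_mem.2 ⟨x, hx, by simp⟩)) (fun y hy => sm_mem.1 hy) fun x _ => Iff.rfl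
  have e2 : rl O X = rl (O.comap (LinearMap.lsmul R M g)) X +
      rl O (X ⊓ O.comap (LinearMap.lsmul R M g)) := by
    rw [← rl_inf_left O X, rl_add (B := X ⊓ O.comap (LinearMap.lsmul R M g))
      (le_inf inf_le_right (inf_le_left.trans lO)) inf_le_left, add_comm, inf_comm X, rl_inf_left,
      ← rl_inf_left O (_ ⊓ X), ← inf_assoc, inf_eq_left.2 lO]
  exact ENat.add_right_injective_of_ne_top (ne_top_of_le_ne_top hfin (rl_mono lO le_rfl))
    (e1.symm.trans e2)

theorem sm_pow (O T : Submodule R M) (h : R) (j : ℕ) :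
    rl (O ⊔ Ideal.span {h ^ j} • T) T ≤ j * rl (O ⊔ Ideal.span {h} • T) T := by
  induction j with
  | zero => exact (rl_of_le fun x hx => sm_mem.2 ⟨x, hx, by simp⟩).le.trans zero_le
  | succ j ih =>
    refine (rl_le_add _ (O ⊔ Ideal.span {h ^ j} • T) _).trans ?_
    rw [Nat.cast_succ, add_mul, one_mul, add_comm]
    refine add_le_add ih (rl_le_of_surj (LinearMap.lsmul R M (h ^ j)) (fun x _ hx => ?_)
      fun y hy => ?_)
    · obtain ⟨y, hy, e⟩ := sm_mem.1 hx
      refine sm_mem.2 ⟨y, hy, ?_⟩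
      have := O.smul_mem (h ^ j) e
      rwa [smul_sub, smul_smul, ← pow_succ] at this
    · obtain ⟨x, hx, e⟩ := sm_mem.1 hy
      exact ⟨x, hx, Submodule.mem_sup_left e⟩

/-- a subquotient killed by `h ^ C` of a module of finite length is small -/
theorem rl_le_of_kill {A B O T : Submodule R M} (h : R) (C : ℕ) (hOA : O ≤ A) (hBT : B ≤ T)
    (hfin : rl O T ≠ ⊤) (hk : ∀ x ∈ B, h ^ C • x ∈ A) :
    rl A B ≤ C * rl (O ⊔ Ideal.span {h} • T) T := by
  refine le_trans ?_ (sm_pow O T h C)
  rw [sm_ker O T _ hfin]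
  refine le_trans ?_ (rl_mono le_rfl (inf_le_inf_right _ hBT))
  rw [← sm_ker O B _ (ne_top_of_le_ne_top hfin (rl_mono le_rfl hBT))]
  refine rl_mono (fun x hx => ?_) le_rfl
  obtain ⟨y, hy, e⟩ := sm_mem.1 hx
  simpa using add_mem (hOA e) (hk y hy)

theorem NG.rl_le {T O : Submodule R M} {N : ℕ} (hT : NG T N) {b : Ideal R} (hO : b • T ≤ O) :
    rl O T ≤ N * rl b (⊤ : Ideal R) := by
  exact (rl_mono hO le_rfl).trans (hT b)

theorem NG.small {A B O T : Submodule R M} {N : ℕ} (hT : NG T N) {b : Ideal R}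
    (hb : rl b (⊤ : Ideal R) ≠ ⊤) (hO : b • T ≤ O) (h : R) (C : ℕ) (hOA : O ≤ A) (hBT : B ≤ T)
    (hk : ∀ x ∈ B, h ^ C • x ∈ A) :
    rl A B ≤ C * N * rl (b ⊔ Ideal.span {h}) (⊤ : Ideal R) := by
  refine (rl_le_of_kill h C hOA hBT (ne_top_of_le_ne_top
    (WithTop.mul_ne_top (ENat.natCast_ne_top N) hb) (hT.rl_le hO)) hk).trans ?_
  rw [mul_assoc]
  exact mul_le_mul_right (hT.rl_le (by rw [Submodule.sup_smul]; exact sup_le_sup_right hO _)) _

theorem NG.mono {T : Submodule R M} {N N' : ℕ} (hT : NG T N) (h : N ≤ N') : NG T N' := by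
  exact fun c => (hT c).trans (mul_le_mul_left (Nat.cast_le.2 h) _)

theorem ng_span {ι : Type*} [Fintype ι] (v : ι → M) :
    NG (Submodule.span R (Set.range v)) (Fintype.card ι) := by
  intro c
  have := rl_pi (fun _ : ι => c) fun _ => (⊤ : Ideal R)
  rw [Finset.sum_const, nsmul_eq_mul, Finset.card_univ] at this
  rw [← this]
  refine rl_le_of_surj (Fintype.linearCombination R v) (fun x _ hx => ?_) fun y hy => ?_
  · rw [Fintype.linearCombination_apply]
    exact sum_mem fun i _ => Submodule.smul_mem_smul (hx i trivial) (Submodule.subset_span ⟨i, rfl⟩)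
  · obtain ⟨x, rfl⟩ := (Submodule.mem_span_range_iff_exists_fun R).1 hy
    exact ⟨x, fun _ _ => trivial, by simp [Fintype.linearCombination_apply]⟩

theorem ng_bot : NG (⊥ : Submodule R M) 0 := by
  exact fun c => (rl_of_le bot_le).le.trans zero_le

theorem NG.map {T : Submodule R M} {N : ℕ} (hT : NG T N) (f : M →ₗ[R] M') : NG (T.map f) N := by
  refine fun c => le_trans (rl_le_of_surj f (fun x _ hx => ?_) ?_) (hT c)
  · rw [← Submodule.map_smul'']
    exact Submodule.mem_map_of_mem hx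
  · rintro _ ⟨x, hx, rfl⟩
    exact ⟨x, hx, by simp⟩

theorem ng_pi {ι : Type*} [Fintype ι] (T : ι → Submodule R M) (N : ι → ℕ)
    (h : ∀ a, NG (T a) (N a)) : NG (Submodule.pi Set.univ T) (∑ a, N a) := by
  classical
  intro c
  refine (rl_mono (A' := Submodule.pi Set.univ fun a => c • T a) (fun x hx => ?_) le_rfl).trans ?_
  · rw [← Finset.univ_sum_single x]
    refine sum_mem fun a _ => ?_
    have := Submodule.mem_map_of_mem (f := LinearMap.single R (fun _ : ι => M) a) (hx a trivial)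
    rw [Submodule.map_smul''] at this
    refine Submodule.smul_mono le_rfl ?_ this
    rintro _ ⟨y, hy, rfl⟩ b _
    by_cases e : b = a
    · subst e; simpa using hy
    · simp [e]
  · rw [rl_pi, Nat.cast_sum, Finset.sum_mul]
    exact Finset.sum_le_sum fun a _ => h a c

theorem rl_sup_pow_le (b : Ideal R) (h : R) (j : ℕ) :
    rl (b ⊔ Ideal.span {h ^ j}) (⊤ : Ideal R) ≤ j * rl (b ⊔ Ideal.span {h}) (⊤ : Ideal R) := by
  simpa only [smul_eq_mul, Ideal.mul_top] using sm_pow (M := R) b ⊤ h j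

end

section
variable (P : Type*) [CommRing P] {Q : Type*} [CommRing Q] [Algebra P Q]

theorem sm_mem_sup {q : Ideal Q} {a x : Q} : x ∈ q ⊔ Ideal.span {a} ↔ ∃ y, x - a * y ∈ q := by
  simpa only [smul_eq_mul, Ideal.mul_top, Submodule.mem_top, true_and] using
    sm_mem (O := q) (T := ⊤) (h := a) (x := x)

theorem sm_prod_single {d : ℕ} (z : Fin d → Q) (α : Fin d → ℕ) (t : Fin d) (m : ℕ) :
    ∏ t', z t' ^ (α + Pi.single t m : Fin d → ℕ) t' = (∏ t', z t' ^ α t') * z t ^ m := by
  simp only [Pi.add_apply, pow_add, Finset.prod_mul_distrib]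
  simp [Pi.single_apply, pow_ite]

theorem sm_pow_le {d : ℕ} (z : Fin d → Q) (n : ℕ) {I : Ideal Q}
    (h : ∀ α : Fin d → ℕ, ∑ t, α t = n → ∏ t, z t ^ α t ∈ I) :
    Ideal.span (Set.range z) ^ n ≤ I := by
  induction n generalizing I with
  | zero => rw [(Ideal.eq_top_iff_one I).2 (by simpa using h 0 (by simp))]; exact le_top
  | succ n ih =>
    rw [pow_succ]
    refine (Ideal.mul_mono_left (ih (I := Ideal.span {x | ∃ α : Fin d → ℕ, ∑ t, α t = n ∧
      x = ∏ t, z t ^ α t}) fun α hα => Ideal.subset_span ⟨α, hα, rfl⟩)).trans ?_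
    rw [Ideal.span_mul_span, Ideal.span_le]
    rintro _ ⟨_, ⟨α, hα, rfl⟩, _, ⟨t, rfl⟩, rfl⟩
    have := h (α + Pi.single t 1) (by simp [Finset.sum_add_distrib, hα])
    rwa [sm_prod_single, pow_one] at this

theorem sm_prod_mem {d : ℕ} {z : Fin d → Q} {b : Ideal Q} (hz : ∀ t, z t ∈ b) (α : Fin d → ℕ) :
    ∏ t, z t ^ α t ∈ b ^ ∑ t, α t := by
  have := Ideal.prod_mem_prod (s := Finset.univ) (I := fun t => b ^ α t)
    (x := fun t => z t ^ α t) fun t _ => Ideal.pow_mem_pow (hz t) _
  rwa [Finset.prod_pow_eq_pow_sum] at this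

theorem sm_mem_pw {d : ℕ} (z : Fin d → Q) (α a : Fin d → ℕ) (t : Fin d) (h : a t ≤ α t) :
    ∏ t, z t ^ α t ∈ pw z a :=
  Ideal.mem_of_dvd _ ((pow_dvd_pow _ h).trans (Finset.dvd_prod_of_mem (fun t => z t ^ α t)
    (Finset.mem_univ t))) (Ideal.subset_span ⟨t, rfl⟩)

/-- exponents of degree less than `n` -/
def smU (d n : ℕ) : Finset (Fin d → ℕ) :=
  (Finset.range n).biUnion fun k => Finset.piAntidiag Finset.univ k

theorem mem_smU {d n : ℕ} {α : Fin d → ℕ} : α ∈ smU d n ↔ ∑ t, α t < n := by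
  simp [smU]

theorem card_smU (d n : ℕ) : (smU d n).card = mcs d n := by
  rw [smU, Finset.card_biUnion]
  · refine Finset.sum_congr rfl fun k _ => ?_
    have := Finset.card_finsuppAntidiag_nat_eq_multichoose (s := (Finset.univ : Finset (Fin d))) k
    simpa [Finset.finsuppAntidiag] using this
  · intro a _ b _ hab
    refine Finset.disjoint_left.2 fun x h1 h2 => hab ?_
    rw [← (Finset.mem_piAntidiag.1 h1).1, (Finset.mem_piAntidiag.1 h2).1]

theorem smU_subset (d n : ℕ) : smU d n ⊆ Fintype.piFinset fun _ => Finset.range n := fun α hα =>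
  Fintype.mem_piFinset.2 fun t => Finset.mem_range.2 ((Finset.single_le_sum
    (fun _ _ => Nat.zero_le _) (Finset.mem_univ t)).trans_lt (mem_smU.1 hα))

/-- adjoining an upward closed set of monomials -/
theorem rl_mon_le (c : Ideal Q) {d : ℕ} (z : Fin d → Q) (U : Finset (Fin d → ℕ))
    (hU : ∀ α ∈ U, ∀ t, α + Pi.single t 1 ∈ U ∨ ∏ t', z t' ^ (α + Pi.single t 1 : Fin d → ℕ) t' ∈ c) :
    rl (c.restrictScalars P)
        ((c ⊔ Ideal.span ((fun α : Fin d → ℕ => ∏ t, z t ^ α t) '' U)).restrictScalars P) ≤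
      U.card * rl ((c ⊔ Ideal.span (Set.range z)).restrictScalars P) ⊤ := by
  classical
  induction U using Finset.induction_on_min_value (fun α : Fin d → ℕ => ∑ t, α t) with
  | empty => simp [rl_self]
  | insert α U hα hmin ih =>
    have key : ∀ β ∈ insert α U, ∀ t, β + Pi.single t 1 ∈ U ∨
        ∏ t', z t' ^ (β + Pi.single t 1 : Fin d → ℕ) t' ∈ c := fun β hβ t =>
      (hU β hβ t).imp_left fun h => (Finset.mem_insert.1 h).resolve_left fun e => by
        have h1 : ∑ t, α t = ∑ t, β t + 1 := by rw [← e]; simp [Finset.sum_add_distrib]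
        rcases Finset.mem_insert.1 hβ with rfl | hβ
        · omega
        · have := hmin β hβ
          omega
    refine (rl_le_add _ ((c ⊔ Ideal.span
      ((fun α : Fin d → ℕ => ∏ t, z t ^ α t) '' U)).restrictScalars P) _).trans ?_
    rw [Finset.card_insert_of_notMem hα, Nat.cast_succ, add_mul, one_mul]
    refine add_le_add (ih fun β hβ => key β (Finset.mem_insert_of_mem hβ))
      (rl_le_of_surj (LinearMap.mulLeft P (∏ t, z t ^ α t)) (fun x _ hx => ?_) fun y hy => ?_)
    · have : c ⊔ Ideal.span (Set.range z) ≤ (c ⊔ Ideal.span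
          ((fun α : Fin d → ℕ => ∏ t, z t ^ α t) '' U)).colon {∏ t, z t ^ α t} := by
        refine sup_le (fun y hy => Submodule.mem_colon_singleton.2
          (Ideal.mem_sup_left (c.mul_mem_right _ hy))) (Ideal.span_le.2 ?_)
        rintro _ ⟨t, rfl⟩
        refine Submodule.mem_colon_singleton.2 ?_
        rw [smul_eq_mul, mul_comm, ← pow_one (z t), ← sm_prod_single]
        rcases key α (Finset.mem_insert_self _ _) t with h | h
        · exact Ideal.mem_sup_right (Ideal.subset_span ⟨_, h, rfl⟩)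
        · exact Ideal.mem_sup_left h
      have := Submodule.mem_colon_singleton.1 (this hx)
      rwa [smul_eq_mul, mul_comm] at this
    · rw [Submodule.restrictScalars_mem, Finset.coe_insert, Set.image_insert_eq, Ideal.span_insert,
        sup_comm (Ideal.span {_}), ← sup_assoc] at hy
      obtain ⟨x, hx⟩ := sm_mem_sup.1 hy
      exact ⟨x, trivial, hx⟩

theorem sm_rl_le {c c' : Ideal Q} (hc : c ≤ c') {d : ℕ} (z : Fin d → Q) (U : Finset (Fin d → ℕ))
    (hU : ∀ α : Fin d → ℕ, α ∈ U ∨ ∏ t', z t' ^ α t' ∈ c') :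
    rl (c'.restrictScalars P) ⊤ ≤
      U.card * rl ((c ⊔ Ideal.span (Set.range z)).restrictScalars P) ⊤ := by
  refine le_trans (rl_mono le_rfl fun x _ => ?_) ((rl_mon_le P c' z U fun α _ t => hU _).trans
    (mul_le_mul_right (rl_mono (Submodule.restrictScalars_mono P (sup_le_sup_right hc _)) le_rfl) _))
  rw [Submodule.restrictScalars_mem, ← mul_one x]
  refine Ideal.mul_mem_left _ _ ?_
  rcases hU 0 with h | h
  · exact Ideal.mem_sup_right (Ideal.subset_span ⟨0, h, by simp⟩)
  · exact Ideal.mem_sup_left (by simpa using h)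

theorem rl_pw_le (c : Ideal Q) {d : ℕ} (z : Fin d → Q) (n : ℕ) :
    rl ((c ⊔ pw z fun _ => n).restrictScalars P) ⊤ ≤
      (n ^ d : ℕ) * rl ((c ⊔ Ideal.span (Set.range z)).restrictScalars P) ⊤ := by
  have := sm_rl_le P (c' := c ⊔ pw z fun _ => n) le_sup_left z
    (Fintype.piFinset fun _ => Finset.range n) fun α => by
      rw [or_iff_not_imp_left, Fintype.mem_piFinset, not_forall]
      rintro ⟨t, ht⟩
      exact Ideal.mem_sup_right (sm_mem_pw z α _ t (by simpa using ht))
  simpa using this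

theorem rl_pow_le (c : Ideal Q) {d : ℕ} (z : Fin d → Q) (n : ℕ) :
    rl ((c ⊔ Ideal.span (Set.range z) ^ n).restrictScalars P) ⊤ ≤
      (mcs d n : ℕ) * rl ((c ⊔ Ideal.span (Set.range z)).restrictScalars P) ⊤ := by
  rw [← card_smU]
  refine sm_rl_le P le_sup_left z _ fun α => ?_
  rw [or_iff_not_imp_left, mem_smU, not_lt]
  exact fun h => Ideal.mem_sup_right (Ideal.pow_le_pow_right h
    (sm_prod_mem (fun t => Ideal.subset_span (Set.mem_range_self t)) α))

theorem mcs_le (d : ℕ) {n : ℕ} (hn : 1 ≤ n) : mcs d n ≤ n ^ d := by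
  rw [← card_smU]
  simpa using Finset.card_le_card (smU_subset d n)

theorem rl_pw_pow_le (c : Ideal Q) {d : ℕ} (z : Fin d → Q) {n : ℕ} (hn : 1 ≤ n) :
    rl ((c ⊔ pw z fun _ => n).restrictScalars P) ⊤ ≤
      rl ((c ⊔ Ideal.span (Set.range z) ^ n).restrictScalars P) ⊤ +
      (n ^ d - mcs d n : ℕ) * rl ((c ⊔ Ideal.span (Set.range z)).restrictScalars P) ⊤ := by
  classical
  have e : ((Fintype.piFinset fun _ => Finset.range n) \ smU d n).card = n ^ d - mcs d n := by
    rw [Finset.card_sdiff_of_subset (smU_subset d n), card_smU]; simp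
  have key : ∀ α : Fin d → ℕ, n ≤ ∑ t, α t →
      α ∈ (Fintype.piFinset fun _ => Finset.range n) \ smU d n ∨
        ∏ t', z t' ^ α t' ∈ c ⊔ pw z fun _ => n := fun α h => by
    rw [or_iff_not_imp_left, Finset.mem_sdiff, mem_smU, Fintype.mem_piFinset, not_and', not_forall]
    intro h'
    obtain ⟨t, ht⟩ := h' (not_lt.2 h)
    exact Ideal.mem_sup_right (sm_mem_pw z α _ t (by simpa using ht))
  have h1 := rl_mon_le P (c ⊔ pw z fun _ => n) z
    ((Fintype.piFinset fun _ => Finset.range n) \ smU d n) fun α hα t => key _ (by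
      have := (Finset.mem_sdiff.1 hα).2
      rw [mem_smU, not_lt] at this
      simp [Finset.sum_add_distrib]; omega)
  rw [e] at h1
  refine (rl_le_add _ _ _).trans ((add_comm _ _).trans_le (add_le_add (rl_mono ?_ le_rfl)
    (h1.trans (mul_le_mul_right (rl_mono
      (Submodule.restrictScalars_mono P (sup_le_sup_right le_sup_left _)) le_rfl) _))))
  refine fun x hx => (sup_le (le_sup_left.trans le_sup_left) (sm_pow_le z n fun α hα => ?_) :
    c ⊔ _ ≤ _) hx
  rcases key α hα.ge with h | h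
  · exact Ideal.mem_sup_right (Ideal.subset_span ⟨α, h, rfl⟩)
  · exact Ideal.mem_sup_left h

/-- one step of an approximately regular sequence -/
theorem rl_colon_step (b : Ideal Q) (w : Q) (a C μ : ℕ) (h : P) (e : Ideal P)
    (hNG : NG (⊤ : Submodule P Q) μ) (he : e.map (algebraMap P Q) ≤ b ⊔ Ideal.span {w})
    (hfin : rl e (⊤ : Ideal P) ≠ ⊤)
    (hreg : ∀ u, w ^ a * u ∈ b → h ^ C • u ∈ b ⊔ Ideal.span {w}) :
    rl ((b ⊔ Ideal.span {w ^ a}).restrictScalars P) ⊤ +
        rl ((b ⊔ Ideal.span {w}).restrictScalars P) ⊤ ≤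
      rl ((b ⊔ Ideal.span {w ^ (a + 1)}).restrictScalars P) ⊤ +
        C * μ * rl (e ⊔ Ideal.span {h}) (⊤ : Ideal P) := by
  have l : b ⊔ Ideal.span {w ^ (a + 1)} ≤ b ⊔ Ideal.span {w ^ a} := sup_le_sup_left
    (Ideal.span_singleton_le_span_singleton.2 (pow_dvd_pow _ (Nat.le_succ a))) _
  let K := ((b ⊔ Ideal.span {w ^ (a + 1)}).restrictScalars P).comap (LinearMap.mulLeft P (w ^ a))
  have h1 : rl K ⊤ ≤ rl ((b ⊔ Ideal.span {w ^ (a + 1)}).restrictScalars P)
      ((b ⊔ Ideal.span {w ^ a}).restrictScalars P) :=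
    rl_le_of_inj (LinearMap.mulLeft P (w ^ a)) (fun x _ => Submodule.mem_sup_left
      (Ideal.mem_sup_right (Ideal.mul_mem_right _ _ (Ideal.mem_span_singleton_self _))))
      fun x _ hx => hx
  have h2 := hNG.small hfin (A := (b ⊔ Ideal.span {w}).restrictScalars P) (B := K)
    (O := (b ⊔ Ideal.span {w}).restrictScalars P) (Submodule.smul_le.2 fun r hr x _ => by
      rw [Submodule.restrictScalars_mem, Algebra.smul_def]
      exact Ideal.mul_mem_right _ _ (he (Ideal.mem_map_of_mem _ hr))) h C le_rfl le_top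
    fun x hx => by
      obtain ⟨y, hy⟩ := sm_mem_sup.1 hx
      have := hreg (x - w * y) (by
        convert hy using 1
        rw [LinearMap.mulLeft_apply]; ring)
      rw [Submodule.restrictScalars_mem, ← sub_add_cancel x (w * y), smul_add, ← mul_smul_comm]
      exact add_mem this (Ideal.mem_sup_right
        (Ideal.mul_mem_right _ _ (Ideal.mem_span_singleton_self _)))
  rw [rl_add (A := (b ⊔ Ideal.span {w ^ (a + 1)}).restrictScalars P)
    (B := (b ⊔ Ideal.span {w ^ a}).restrictScalars P) (fun x hx => l hx) le_top,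
    add_comm _ (rl ((b ⊔ Ideal.span {w ^ a}).restrictScalars P) ⊤), add_assoc]
  exact add_le_add le_rfl ((rl_le_add _ K _).trans ((add_comm _ _).trans_le (add_le_add h1 h2)))

end

theorem count_box {d : ℕ} (lam : (Fin d → ℕ) → ℝ) (η : ℝ) (hη : 0 ≤ η) {n : ℕ} (hn : 1 ≤ n)
    (h : ∀ a : Fin d → ℕ, (∀ t, 1 ≤ a t ∧ a t ≤ n) → ∀ t, a t < n →
      lam a + lam (Function.update a t 1) ≤ lam (Function.update a t (a t + 1)) + η) :
    (n : ℝ) ^ d * lam (fun _ => 1) ≤ lam (fun _ => n) + d * (n : ℝ) ^ d * η := by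
  classical
  have one : ∀ a : Fin d → ℕ, (∀ t, 1 ≤ a t ∧ a t ≤ n) → ∀ t, ∀ j, j < n →
      ((j + 1 : ℕ) : ℝ) * lam (Function.update a t 1) ≤
        lam (Function.update a t (j + 1)) + (j + 1 : ℕ) * η := by
    intro a ha t j
    induction j with
    | zero => intro _; simpa using hη
    | succ j ih =>
      intro hj
      have h1 := h (Function.update a t (j + 1)) (fun t' => by
        by_cases e : t' = t
        · subst e; simp; omega
        · simpa [e] using ha t') t (by simpa using hj)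
      have h2 := ih (by omega)
      simp only [Function.update_idem, Function.update_self] at h1
      push_cast at h2 ⊢
      linarith
  have key : ∀ S : Finset (Fin d), (n : ℝ) ^ S.card * lam (fun _ => 1) ≤
      lam (fun t => if t ∈ S then n else 1) + S.card * (n : ℝ) ^ S.card * η := by
    intro S
    induction S using Finset.induction_on with
    | empty => simp
    | insert t S ht ih =>
      have h1 := one (fun t => if t ∈ S then n else 1) (fun t => by split_ifs <;> omega) t (n - 1)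
        (by omega)
      have e1 : Function.update (fun t => if t ∈ S then n else 1) t 1 =
          fun t => if t ∈ S then n else 1 := Function.update_eq_self_iff.2 (by simp [ht])
      have e2 : Function.update (fun t => if t ∈ S then n else 1) t n =
          fun t' => if t' ∈ insert t S then n else 1 := by
        funext t'
        by_cases e : t' = t
        · subst e; simp
        · simp [e]
      rw [Nat.sub_add_cancel hn, e1, e2] at h1
      have n1 : (1 : ℝ) ≤ n := by exact_mod_cast hn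
      have h2 := mul_le_mul_of_nonneg_left ih (zero_le_one.trans n1)
      have h3 := mul_le_mul_of_nonneg_right (le_self_pow₀ n1 (Nat.succ_ne_zero S.card)) hη
      rw [Finset.card_insert_of_notMem ht]
      rw [Nat.succ_eq_add_one] at h3
      push_cast
      rw [pow_succ] at h3 ⊢
      nlinarith
  simpa using key Finset.univ

/-- pigeonhole for roots -/
theorem pow_le_pow_root {R : Type*} [CommRing R] {D : ℕ} (ζ : Fin D → R) (m n N : ℕ)
    (hm : 1 ≤ m) (h : m * (n + D) ≤ N) :
    Ideal.span (Set.range ζ) ^ N ≤ Ideal.span (Set.range fun t => ζ t ^ m) ^ n := by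
  refine sm_pow_le ζ N fun α hα => ?_
  have e : ∏ t, ζ t ^ α t = (∏ t, (ζ t ^ m) ^ (α t / m)) * ∏ t, ζ t ^ (α t % m) := by
    rw [← Finset.prod_mul_distrib]
    exact Finset.prod_congr rfl fun t _ => by rw [← pow_mul, ← pow_add, Nat.div_add_mod]
  rw [e]
  refine Ideal.mul_mem_right _ _ (Ideal.pow_le_pow_right ?_
    (sm_prod_mem (z := fun t => ζ t ^ m) (fun t => Ideal.subset_span (Set.mem_range_self t))
      fun t => α t / m))
  have h1 : ∑ t, α t ≤ ∑ t, m * (α t / m + 1) :=
    Finset.sum_le_sum fun t _ => (Nat.lt_mul_div_succ _ hm).le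
  rw [← Finset.mul_sum, Finset.sum_add_distrib, hα] at h1
  simpa using Nat.le_of_mul_le_mul_left (h.trans h1) hm

theorem span_range_pow {R : Type*} [CommRing R] {ι : Type*} (x : ι → R) (m : ℕ) :
    Ideal.span (Set.range x) ^ m =
      Ideal.span (Set.range fun α : Fin m → ι => ∏ j, x (α j)) := by
  refine le_antisymm ?_ (Ideal.span_le.2 ?_)
  · induction m with
    | zero => simp
    | succ m ih =>
      rw [pow_succ']
      refine (Ideal.mul_mono_right ih).trans ?_
      rw [Ideal.span_mul_span, Ideal.span_le]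
      rintro _ ⟨_, ⟨i, rfl⟩, _, ⟨α, rfl⟩, rfl⟩
      exact Ideal.subset_span ⟨Fin.cons i α, by simp [Fin.prod_univ_succ]⟩
  · rintro _ ⟨α, rfl⟩
    simpa using Ideal.prod_mem_prod (s := Finset.univ) (I := fun _ => Ideal.span (Set.range x))
      (x := fun j => x (α j)) fun j _ => Ideal.subset_span ⟨_, rfl⟩

end Vale.Agent.P202
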