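import Vale.Agent.P202.Cx
import Vale.Agent.P202.Small

/-! Euler characteristics modulo a deep subcomplex. -/

namespace Vale.Agent.P202

variable {R : Type*} [CommRing R] {M : Type*} [AddCommGroup M] [Module R M]
  {M' : Type*} [AddCommGroup M'] [Module R M'] {D : M →ₗ[R] M} {h : R} {b : Ideal R}
  {V V' : ℤ → ℤ → Submodule R M} {k0 n0 n1 : ℤ} {L N c : ℕ}

theorem deep_mem {κ : ℤ → ℤ} {n : ℤ} {x : M} :
    x ∈ dp D V κ n ↔ ∃ y ∈ V (κ (n - 1)) (n - 1), x - D y ∈ V (κ n) n := cx_mem_bnd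

theorem deep_mem' {κ : ℤ → ℤ} {n : ℤ} {x : M} :
    x ∈ dp D V κ (n + 1) ↔ ∃ y ∈ V (κ n) n, x - D y ∈ V (κ (n + 1)) (n + 1) := by
  rw [deep_mem, add_sub_cancel_right]

theorem deep_le_dp {κ : ℤ → ℤ} {n : ℤ} : V (κ n) n ≤ dp D V κ n := le_sup_right

theorem deep_lv (c0 G : ℤ) (hG : 0 ≤ G) {n : ℤ} (h0 : n0 ≤ n) (h1 : n ≤ n1) :
    ∃ t T : ℤ, 0 ≤ t ∧ t ≤ T ∧ G * (n1 - n0 + 3) = T + 3 * G ∧ ∀ c : ℤ,
      lv c G n0 n = c + t + 2 * G ∧ lv c G n0 (n + 1) = c + t + 3 * G ∧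
      lv c G n0 (n - 1) = c + t + G ∧ lv c G n0 (n - 1 - 1) = c + t ∧ c0 = c0 :=
  ⟨G * (n - n0), G * (n1 - n0), mul_nonneg hG (by omega),
    mul_le_mul_of_nonneg_left (by omega) hG, by ring, fun c => by
      unfold lv; exact ⟨by ring, by ring, by ring, by ring, rfl⟩⟩

theorem FiltSys.le_of (hV : FiltSys D h b V k0 n0 n1 L N c) {k k' n : ℤ} {A : Submodule R M}
    (hk : n0 ≤ n → n ≤ n1 → V k n ≤ A) (e : k' = k) : V k' n ≤ A := by
  subst e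
  by_cases hn : n < n0 ∨ n1 < n
  · rw [hV.bot _ _ hn]; exact bot_le
  · exact hk (by omega) (by omega)

theorem FiltSys.lv_le (hV : FiltSys D h b V k0 n0 n1 L N c) {k c0 G : ℤ} (hk : k0 ≤ k)
    (hc : k ≤ c0) (hG : 0 ≤ G) (n : ℤ) : V (lv c0 G n0 n) n ≤ V k n :=
  hV.le_of (fun h0 h1 => by
    obtain ⟨t, T, a1, a2, a3, a4⟩ := deep_lv c0 G hG h0 h1
    exact hV.mono _ _ _ hk (by have := a4 c0; omega)) rfl

theorem FiltSys.le_lv (hV : FiltSys D h b V k0 n0 n1 L N c) {k c0 G : ℤ} (hc : k0 ≤ c0)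
    (hG : 0 ≤ G) (hL : c0 + G * (n1 - n0 + 3) ≤ k) (n : ℤ) : V k n ≤ V (lv c0 G n0 n) n :=
  hV.le_of (fun h0 h1 => by
    obtain ⟨t, T, a1, a2, a3, a4⟩ := deep_lv c0 G hG h0 h1
    exact hV.mono _ _ _ (by have := a4 c0; omega) (by have := a4 c0; omega)) rfl

theorem FiltSys.st' (hV : FiltSys D h b V k0 n0 n1 L N c) {k n : ℤ} {x : M}
    (hx : x ∈ V k (n - 1)) : D x ∈ V k n := by simpa using hV.st _ _ x hx

theorem FiltSys.fin (hV : FiltSys D h b V k0 n0 n1 L N c) (k : ℤ) (A : ℤ → Submodule R M) :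
    {n | ¬ V k n ≤ A n}.Finite :=
  (Set.finite_Icc n0 n1).subset fun n hn => by
    by_contra hc
    exact hn (hV.le_of (fun h0 h1 => absurd ⟨h0, h1⟩ hc) rfl)

theorem FiltSys.smul_le (hV : FiltSys D h b V k0 n0 n1 L N c) {k : ℤ} (hk : k0 ≤ k) (n : ℤ) :
    b • V k n ≤ V (k + L) n :=
  Submodule.smul_le.2 fun r hr x hx => hV.deep k n hk r hr x hx

theorem FiltSys.hfin' (hV : FiltSys D h b V k0 n0 n1 L N c) (hb : rl b (⊤ : Ideal R) ≠ ⊤) {Ng : ℕ}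
    {k : ℤ} (hNG : ∀ n, NG (V k n) Ng) (hk : k0 ≤ k) {A A' : ℤ → Submodule R M}
    (hA : ∀ n, A n ≤ V k n) (hA' : ∀ n, V (k + L) n ≤ A' n) : HFin D A A' := fun n =>
  ne_top_of_le_ne_top (WithTop.mul_ne_top (ENat.natCast_ne_top Ng) hb)
    ((hh_le_rl n).trans ((rl_mono (hA' n) (hA n)).trans ((hNG n).rl_le (hV.smul_le hk n))))

theorem deep_cast {a : ℕ∞} {C Ng : ℕ} (hb : rl b (⊤ : Ideal R) ≠ ⊤)
    (ha : a ≤ C * Ng * rl (b ⊔ Ideal.span {h}) (⊤ : Ideal R)) :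
    (a.toNat : ℝ) ≤ C * Ng * cl (b ⊔ Ideal.span {h}) := by
  have h1 : rl (b ⊔ Ideal.span {h}) (⊤ : Ideal R) ≠ ⊤ :=
    ne_top_of_le_ne_top hb (rl_mono le_sup_left le_rfl)
  unfold cl
  obtain ⟨m, hm⟩ := ENat.ne_top_iff_exists.1 h1
  rw [← hm] at ha ⊢
  have := ENat.toNat_le_of_le_natCast (m := a) (n := C * Ng * m) (by exact_mod_cast ha)
  rw [ENat.toNat_natCast]
  exact_mod_cast this

theorem deep_card (hn : n0 ≤ n1) : ((Finset.Icc n0 n1).card : ℝ) = (n1 : ℝ) - n0 + 1 := by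
  have : (((Finset.Icc n0 n1).card : ℤ) : ℝ) = ((n1 + 1 - n0 : ℤ) : ℝ) := by
    rw [Int.card_Icc_of_le _ _ (by omega)]
  push_cast at this
  linarith

theorem deep_chi_eq {A A' : ℤ → Submodule R M} (s : Finset ℤ) (hs : ∀ n, n ∉ s → hh D A A' n = 0) :
    (chi D A A' : ℝ) = ∑ n ∈ s, (((n.negOnePow : ℤˣ) : ℤ) : ℝ) * ((hh D A A' n).toNat : ℝ) := by
  have e : chi D A A' = ∑ n ∈ s, ((n.negOnePow : ℤˣ) : ℤ) * ((hh D A A' n).toNat : ℤ) := by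
    refine finsum_eq_sum_of_support_subset _ fun n hn => ?_
    by_contra hc
    exact hn (by simp [hs n hc])
  rw [e]
  push_cast
  rfl

theorem deep_sign (n : ℤ) {x : ℝ} (hx : 0 ≤ x) : |(((n.negOnePow : ℤˣ) : ℤ) : ℝ) * x| = x := by
  rcases Int.units_eq_one_or n.negOnePow with h1 | h1 <;> rw [h1] <;> simp [abs_of_nonneg hx]

theorem deep_map_bnd {D' : M' →ₗ[R] M'} (Φ : M →ₗ[R] M') (hD : ∀ x, D' (Φ x) = Φ (D x))
    (A B : ℤ → Submodule R M) (n : ℤ) :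
    bnd D' (fun n => (A n).map Φ) (fun n => (B n).map Φ) n = (bnd D A B n).map Φ := by
  have : D' ∘ₗ Φ = Φ ∘ₗ D := LinearMap.ext hD
  simp only [bnd, Submodule.map_sup, ← Submodule.map_comp, this]

theorem deep_mem_map {Φ : M →ₗ[R] M'} {T X : Submodule R M} (hΦ : ∀ x ∈ T, Φ x = 0 → x = 0)
    (hX : X ≤ T) {x : M} (hx : x ∈ T) : Φ x ∈ X.map Φ ↔ x ∈ X := by
  refine ⟨fun ⟨y, hy, e⟩ => ?_, fun hx => ⟨x, hx, rfl⟩⟩
  have := hΦ (x - y) (sub_mem hx (hX hy)) (by rw [map_sub, e, sub_self])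
  rw [sub_eq_zero.1 this]; exact hy

theorem abs_chi_le {A A' : ℤ → Submodule R M} (s : Finset ℤ) (hs : ∀ n, n ∉ s → hh D A A' n = 0)
    (C : ℝ) (hC : ∀ n ∈ s, ((hh D A A' n).toNat : ℝ) ≤ C) : |(chi D A A' : ℝ)| ≤ s.card * C := by
  rw [deep_chi_eq s hs]
  refine (Finset.abs_sum_le_sum_abs _ _).trans ?_
  rw [← nsmul_eq_mul, ← Finset.sum_const]
  exact Finset.sum_le_sum fun n hn => by rw [deep_sign n (Nat.cast_nonneg _)]; exact hC n hn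

theorem chi_le_zero_add {A A' : ℤ → Submodule R M} (s : Finset ℤ)
    (hs : ∀ n, n ∉ s → n ≠ 0 → hh D A A' n = 0) (C : ℝ)
    (hC : ∀ n ∈ s, n ≠ 0 → ((hh D A A' n).toNat : ℝ) ≤ C) (hC0 : 0 ≤ C) :
    (chi D A A' : ℝ) ≤ (hh D A A' 0).toNat + s.card * C := by
  rw [deep_chi_eq (insert 0 (s.erase 0)) fun n hn => by
    rw [Finset.mem_insert, Finset.mem_erase] at hn
    push Not at hn
    exact hs n (hn.2 hn.1) hn.1, Finset.sum_insert (Finset.notMem_erase _ _)]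
  simp only [Int.negOnePow_zero, Units.val_one, Int.cast_one, one_mul]
  gcongr
  calc _ ≤ ∑ n ∈ s.erase 0, C := Finset.sum_le_sum fun n hn => by
        rw [Finset.mem_erase] at hn
        exact (le_abs_self _).trans ((deep_sign n (Nat.cast_nonneg _)).trans_le (hC n hn.2 hn.1))
    _ = (s.erase 0).card * C := by rw [Finset.sum_const, nsmul_eq_mul]
    _ ≤ _ := by gcongr; exact Finset.erase_subset _ _

theorem FiltSys.isPair (hV : FiltSys D h b V k0 n0 n1 L N c) {k k' : ℤ} (hk : k0 ≤ k)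
    (hkk : k ≤ k') (hL : k' ≤ k + L) : IsPair D (V k) (V k') := by
  exact ⟨fun n => hV.mono _ _ n hk hkk, hV.st k, hV.st k',
    fun n x hx => hV.mono _ _ _ (hk.trans hkk) hL (hV.dd k n hk x hx), hV.fin k _⟩

theorem FiltSys.isPair_dp (hV : FiltSys D h b V k0 n0 n1 L N c) {k c0 G : ℤ} (hk : k0 ≤ k)
    (hc : k ≤ c0) (hG : 0 ≤ G) (hL : c0 + G * (n1 - n0 + 3) ≤ k + L) :
    IsPair D (V k) (dp D V (lv c0 G n0)) := by
  have hdd : ∀ n, ∀ x ∈ V k n, D (D x) ∈ V (lv c0 G n0 (n + 1 + 1)) (n + 1 + 1) := fun n x hx =>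
    hV.le_lv (hk.trans hc) hG hL _ (hV.dd k n hk x hx)
  refine ⟨fun n x hx => ?_, hV.st k, fun n x hx => ?_, fun n x hx => deep_le_dp (hdd n x hx),
    hV.fin k _⟩
  · obtain ⟨y, hy, hxy⟩ := deep_mem.1 hx
    have := add_mem (hV.lv_le hk hc hG _ hxy) (hV.st' (hV.lv_le hk hc hG _ hy))
    rwa [sub_add_cancel] at this
  · obtain ⟨y, hy, hxy⟩ := deep_mem.1 hx
    refine deep_mem'.2 ⟨x - D y, hxy, ?_⟩
    have := hdd _ y (hV.lv_le hk hc hG _ hy)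
    rw [sub_add_cancel] at this
    rwa [map_sub, sub_sub_cancel]

theorem FiltSys.hfin (hV : FiltSys D h b V k0 n0 n1 L N c) (hb : rl b (⊤ : Ideal R) ≠ ⊤) {Ng : ℕ}
    {k c0 G : ℤ} (hNG : ∀ n, NG (V k n) Ng) (hk : k0 ≤ k) (hc : k ≤ c0) (hG : 0 ≤ G)
    (hL : c0 + G * (n1 - n0 + 3) ≤ k + L) {A A' : ℤ → Submodule R M} (hA : ∀ n, A n ≤ V k n)
    (hA' : ∀ n, dp D V (lv c0 G n0) n ≤ A' n) : HFin D A A' := by
  exact hV.hfin' hb hNG hk hA fun n =>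
    (hV.le_lv (hk.trans hc) hG hL n).trans (deep_le_dp.trans (hA' n))

theorem FiltSys.map (hV : FiltSys D h b V k0 n0 n1 L N c) {D' : M' →ₗ[R] M'} (Φ : M →ₗ[R] M')
    (hΦ : Function.Injective Φ) (hD : ∀ x, D' (Φ x) = Φ (D x)) :
    FiltSys D' h b (fun k n => (V k n).map Φ) k0 n0 n1 L N c := by
  refine ⟨fun k k' n h1 h2 => Submodule.map_mono (hV.mono k k' n h1 h2), fun k n hn => ?_, ?_, ?_,
    ?_, ?_⟩
  · rw [hV.bot k n hn, Submodule.map_bot]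
  · rintro k n _ ⟨x, hx, rfl⟩
    exact ⟨D x, hV.st k n x hx, (hD x).symm⟩
  · rintro k n hk _ ⟨x, hx, rfl⟩
    exact ⟨D (D x), hV.dd k n hk x hx, by rw [hD, hD]⟩
  · rintro k n hk r hr _ ⟨x, hx, rfl⟩
    exact ⟨r • x, hV.deep k n hk r hr x hx, map_smul _ _ _⟩
  · rintro k l n h1 h2 h3 _ ⟨z, hz, rfl⟩ ⟨y, hy, e⟩
    rw [hD] at e
    obtain ⟨w, hw, hw'⟩ := hV.rg k l n h1 h2 h3 z hz (hΦ e ▸ hy)
    exact ⟨Φ w, ⟨w, hw, rfl⟩, _, hw', by rw [map_sub, map_smul, hD]⟩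

/-- transport along a map which is injective on a stable submodule -/
theorem chi_dp_map {D' : M' →ₗ[R] M'} (Φ : M →ₗ[R] M') (hD : ∀ x, D' (Φ x) = Φ (D x))
    (T : Submodule R M) (hT : ∀ x ∈ T, D x ∈ T) (hΦ : ∀ x ∈ T, Φ x = 0 → x = 0)
    (A : ℤ → Submodule R M) (κ : ℤ → ℤ) (hA : ∀ n, A n ≤ T) (hV : ∀ n, V (κ n) n ≤ T) :
    chi D' (fun n => (A n).map Φ) (dp D' (fun k n => (V k n).map Φ) κ) = chi D A (dp D V κ) := by
  have e : dp D' (fun k n => (V k n).map Φ) κ = fun n => (dp D V κ n).map Φ :=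
    funext fun n => deep_map_bnd Φ hD (fun n => V (κ n) n) (fun n => V (κ n) n) n
  have hb : ∀ (X Y : ℤ → Submodule R M), (∀ n, X n ≤ T) → (∀ n, Y n ≤ T) → ∀ n, bnd D X Y n ≤ T :=
    fun X Y hX hY n => sup_le (by rintro _ ⟨x, hx, rfl⟩; exact hT x (hX _ hx)) (hY n)
  have hd : ∀ n, dp D V κ n ≤ T := hb _ _ hV hV
  rw [e]
  refine chi_congr fun n => ?_
  rw [hh, hh, deep_map_bnd Φ hD]
  refine rl_eq_of_map Φ (fun x hx => Submodule.mem_sup_left ⟨⟨x, hx.1, rfl⟩, ?_⟩) ?_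
    fun x hx => deep_mem_map hΦ (hb _ _ hA hd n) (hA n hx.1)
  · exact ⟨D x, hx.2, (hD x).symm⟩
  · rintro _ ⟨⟨x, hx, rfl⟩, hx'⟩
    refine ⟨x, ⟨hx, ?_⟩, by rw [sub_self]; exact zero_mem _⟩
    have h2 : D' (Φ x) ∈ (dp D V κ (n + 1)).map Φ := hx'
    rw [hD] at h2
    exact (deep_mem_map hΦ (hd _) (hT x (hA n hx))).1 h2

/-- approximate additivity for a strict subsystem -/
theorem FiltSys.chi_al (hV : FiltSys D h b V k0 n0 n1 L N c) (hV' : FiltSys D h b V' k0 n0 n1 L N c)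
    (hle : ∀ k n, k0 ≤ k → V' k n ≤ V k n)
    (hstrict : ∀ k n, k0 ≤ k → V' k0 n ⊓ V k n ≤ V' k n) (hb : rl b (⊤ : Ideal R) ≠ ⊤) {Ng : ℕ}
    (hNG : ∀ n, NG (V k0 n) Ng) (hNG' : ∀ n, NG (V' k0 n) Ng) {c0 c1 G : ℤ} (h0 : k0 ≤ c0)
    (h1 : c0 ≤ c1) (hG : 2 * (N : ℤ) ≤ G) (hL : c1 + G * (n1 - n0 + 3) + N ≤ k0 + L)
    (hn : n0 ≤ n1) :
    |(chi D (V k0) (dp D V (lv c0 G n0)) : ℝ) -
        chi D (V k0) (fun n => V' k0 n ⊔ dp D V (lv c0 G n0) n) -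
        chi D (V' k0) (dp D V' (lv c1 G n0))| ≤
      ((n1 : ℝ) - n0 + 1) * (2 * c * Ng * cl (b ⊔ Ideal.span {h})) := by
  have hG0 : 0 ≤ G := by omega
  have p1 := hV.isPair_dp le_rfl h0 hG0 (by omega)
  have p2 := hV'.isPair_dp le_rfl (h0.trans h1) hG0 (by omega)
  have hκ : ∀ n, V' (lv c1 G n0 n) n ≤ V (lv c0 G n0 n) n := fun n =>
    hV'.le_of (fun a0 a1 => by
      obtain ⟨t, T, a1, a2, a3, a4⟩ := deep_lv c0 G hG0 a0 a1
      have := a4 c0; have := a4 c1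
      exact (hle _ _ (by omega)).trans (hV.mono _ _ _ (by omega) (by omega))) rfl
  have hDD : ∀ n, dp D V' (lv c1 G n0) n ≤ dp D V (lv c0 G n0) n := fun n =>
    sup_le_sup (Submodule.map_mono (hκ _)) (hκ n)
  have hB1 : ∀ n, V' k0 n ⊔ dp D V (lv c0 G n0) n ≤ V k0 n := fun n =>
    sup_le (hle _ _ le_rfl) (p1.le n)
  have hBst : ∀ n, ∀ x ∈ V' k0 n ⊔ dp D V (lv c0 G n0) n,
      D x ∈ V' k0 (n + 1) ⊔ dp D V (lv c0 G n0) (n + 1) := by
    intro n x hx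
    obtain ⟨a, ha, a', ha', rfl⟩ := Submodule.mem_sup.1 hx
    rw [map_add]
    exact Submodule.add_mem_sup (hV'.st _ _ a ha) (p1.st' _ _ ha')
  have hC1 : ∀ n, dp D V' (lv c1 G n0) n ≤ V' k0 n ⊓ dp D V (lv c0 G n0) n := fun n =>
    le_inf (p2.le n) (hDD n)
  have hCst : ∀ n, ∀ x ∈ V' k0 n ⊓ dp D V (lv c0 G n0) n,
      D x ∈ V' k0 (n + 1) ⊓ dp D V (lv c0 G n0) (n + 1) := fun n x hx =>
    ⟨hV'.st _ _ x hx.1, p1.st' _ _ hx.2⟩
  have q1 := p1.upper (L' := fun n => V' k0 n ⊔ dp D V (lv c0 G n0) n) (fun n => le_sup_right)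
    hB1 hBst
  have q2 := p1.lower (L' := fun n => V' k0 n ⊔ dp D V (lv c0 G n0) n) (fun n => le_sup_right)
    hB1 hBst
  have q3 := p2.upper (L' := fun n => V' k0 n ⊓ dp D V (lv c0 G n0) n) hC1
    (fun n => inf_le_left) hCst
  have q4 := p2.lower (L' := fun n => V' k0 n ⊓ dp D V (lv c0 G n0) n) hC1
    (fun n => inf_le_left) hCst
  have e1 := chi_add q1 q2 p1
    (hV.hfin hb hNG le_rfl h0 hG0 (by omega) (fun n => le_rfl) fun n => le_sup_right)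
    (hV.hfin hb hNG le_rfl h0 hG0 (by omega) hB1 fun n => le_rfl)
  have e2 := chi_add q3 q4 p2
    (hV'.hfin hb hNG' le_rfl (h0.trans h1) hG0 (by omega) (fun n => le_rfl) hC1)
    (hV'.hfin hb hNG' le_rfl (h0.trans h1) hG0 (by omega) (fun n => inf_le_left) fun n => le_rfl)
  have e3 : chi D (fun n => V' k0 n ⊔ dp D V (lv c0 G n0) n) (dp D V (lv c0 G n0)) =
      chi D (V' k0) (fun n => V' k0 n ⊓ dp D V (lv c0 G n0) n) := by
    refine chi_congr fun n => ?_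
    have := hh_transport (K := fun n => V' k0 n ⊔ dp D V (lv c0 G n0) n)
      (K' := dp D V (lv c0 G n0)) (δ' := D) q3 LinearMap.id 0 1
      (fun n x hx => by rw [add_zero]; exact Submodule.mem_sup_left hx)
      (fun n x hx => by rw [add_zero]; exact ⟨fun a => ⟨hx, a⟩, fun a => a.2⟩)
      (fun n y hy => by
        rw [add_zero] at hy ⊢
        obtain ⟨a, ha, a', ha', rfl⟩ := Submodule.mem_sup.1 hy
        exact ⟨a, ha, by simpa using ha'⟩)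
      (fun n x _ => by simp) p1.st' n
    rwa [add_zero] at this
  rw [e1, e2, e3]
  push_cast
  rw [show ∀ x y z : ℝ, x + y - y - (z + x) = -z from fun x y z => by ring, abs_neg,
    ← deep_card hn]
  refine abs_chi_le _ (fun n hn' => hh_of_le (inf_le_left.trans
    (hV'.le_of (fun a0 a1 => absurd (Finset.mem_Icc.2 ⟨a0, a1⟩) hn') rfl))) _ fun n hn' => ?_
  rw [Finset.mem_Icc] at hn'
  have := deep_cast (h := h) (C := 2 * c) hb ((hNG' n).small hb (hV'.smul_le le_rfl n) h (2 * c)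
    (A := bnd D (fun n => V' k0 n ⊓ dp D V (lv c0 G n0) n) (dp D V' (lv c1 G n0)) n)
    (B := cyc D (fun n => V' k0 n ⊓ dp D V (lv c0 G n0) n) (dp D V' (lv c1 G n0)) n)
    ((hV'.le_lv (h0.trans h1) hG0 (by omega) n).trans (deep_le_dp.trans le_sup_right))
    (inf_le_left.trans inf_le_left) ?_)
  · exact_mod_cast this
  intro z hz
  obtain ⟨t, T, a1, a2, a3, a4⟩ := deep_lv c0 G hG0 hn'.1 hn'.2
  obtain ⟨b1, b2, b3, b4, -⟩ := a4 c0
  obtain ⟨d1, d2, d3, d4, -⟩ := a4 c1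
  obtain ⟨x, hx, hx'⟩ := deep_mem'.1 hz.2
  have hz1 : z - x ∈ V' k0 n ⊓ dp D V (lv c0 G n0) n := sub_mem hz.1 (hC1 n (deep_le_dp hx))
  rw [← map_sub] at hx'
  obtain ⟨w', hw', hv'⟩ := deep_mem.1 hz1.2
  have hz2 : z - x ∈ V' (lv c0 G n0 (n - 1)) n := by
    refine hstrict _ _ (by omega) ⟨hz1.1, ?_⟩
    have := add_mem (hV.mono (lv c0 G n0 (n - 1)) _ _ (by omega) (by omega) hv') (hV.st' hw')
    rwa [sub_add_cancel] at this
  obtain ⟨w, hw, hv⟩ := hV'.rg (lv c0 G n0 (n - 1) - N) (lv c1 G n0 (n + 1) - N) n (by omega)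
    (by omega) (by omega) (z - x) (by rwa [sub_add_cancel]) (by rwa [sub_add_cancel])
  have hv2 : h ^ c • (z - x) - D w ∈ V' (lv c1 G n0 n) n :=
    hV'.mono _ _ _ (by omega) (by omega) hv
  obtain ⟨w2, hw2, hv3⟩ := hV.rg (lv c0 G n0 (n - 1) - 2 * N) (lv c0 G n0 n - N) (n - 1) (by omega)
    (by omega) (by omega) (w - h ^ c • w') (sub_mem
      (hV.mono _ _ _ (by omega) (by omega) (hle _ _ (by omega) hw))
      (hV.mono _ _ _ (by omega) (by omega) (Submodule.smul_mem _ _ hw'))) (by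
        rw [sub_add_cancel, sub_add_cancel]
        have e : D (w - h ^ c • w') = h ^ c • (z - x - D w') - (h ^ c • (z - x) - D w) := by
          rw [map_sub, map_smul, smul_sub (h ^ c) (z - x)]; abel
        rw [e]
        exact sub_mem (Submodule.smul_mem _ _ hv') (hκ n hv2))
  refine cx_mem_bnd.2 ⟨h ^ c • w, ⟨Submodule.smul_mem _ _
    (hV'.mono _ _ _ le_rfl (by omega) hw), ?_⟩, ?_⟩
  · refine deep_mem.2 ⟨w2, hV.mono _ _ _ (by omega) (by omega) hw2, ?_⟩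
    have e : h ^ c • w - D w2 = h ^ c • (w - h ^ c • w') - D w2 + h ^ c • h ^ c • w' := by
      rw [smul_sub]; abel
    rw [e]
    exact add_mem (hV.mono _ _ _ (by omega) (by omega) hv3)
      (Submodule.smul_mem _ _ (Submodule.smul_mem _ _ hw'))
  · have e : h ^ (2 * c) • z - D (h ^ c • w) =
        h ^ c • (h ^ c • (z - x) - D w) + h ^ (2 * c) • x := by
      rw [two_mul, pow_add, mul_smul, mul_smul, map_smul, smul_sub, smul_sub, smul_sub]; abel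
    rw [e]
    exact deep_le_dp (add_mem (Submodule.smul_mem _ _ hv2) (Submodule.smul_mem _ _ hx))

/-- if the quotient system is acyclic the middle term vanishes -/
theorem FiltSys.chi_mid_zero (hV : FiltSys D h b V k0 n0 n1 L N c) {A : ℤ → Submodule R M}
    {c0 G : ℤ} (h0 : k0 ≤ c0) (hG : 0 ≤ G) (hL : c0 + G * (n1 - n0 + 3) ≤ k0 + L)
    (hac : ∀ k n, k0 ≤ k → k ≤ k0 + L → hh D (V k0) (fun n => A n ⊔ V k n) n = 0) :
    chi D (V k0) (fun n => A n ⊔ dp D V (lv c0 G n0) n) = 0 := by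
  refine chi_of_acyclic fun n => ?_
  by_cases hn : n < n0 ∨ n1 < n
  · exact hh_of_le (by rw [hV.bot _ _ hn]; exact bot_le)
  obtain ⟨t, T, a1, a2, a3, a4⟩ := deep_lv (n0 := n0) (n1 := n1) (n := n) c0 G hG (by omega)
    (by omega)
  obtain ⟨b1, b2, b3, b4, -⟩ := a4 c0
  refine hh_eq_zero_iff.2 fun x hx hd => ?_
  obtain ⟨a, ha, a', ha', e⟩ := Submodule.mem_sup.1 hd
  obtain ⟨y, hy, hy'⟩ := deep_mem'.1 ha'
  obtain ⟨y', h1, h2⟩ := hh_eq_zero_iff.1 (hac (lv c0 G n0 n) n (by omega) (by omega)) (x - y)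
    (sub_mem hx (hV.lv_le le_rfl h0 hG n hy)) (by
      rw [map_sub, ← e, add_sub_assoc]
      exact Submodule.add_mem_sup ha (hV.mono _ _ _ (by omega) (by omega) hy'))
  refine ⟨y', h1, ?_⟩
  have e2 : x - D y' = x - y - D y' + y := by abel
  rw [e2]
  have h3 : A n ⊔ V (lv c0 G n0 n) n ≤ A n ⊔ dp D V (lv c0 G n0) n :=
    sup_le le_sup_left (deep_le_dp.trans le_sup_right)
  exact add_mem (h3 h2) (Submodule.mem_sup_right (deep_le_dp hy))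

/-- the twisted system modulo the deep part of the untwisted system -/
theorem FiltSys.chi_twist {X Y : ℤ → ℤ → Submodule R M}
    (hY : FiltSys D h b Y (-(N : ℤ)) n0 n1 L N c) (hX : FiltSys D h b X 0 n0 n1 L N c) {S : ℕ}
    (hXY : ∀ k n, 0 ≤ k → X k n ≤ Y k n) (hYX : ∀ k n, 0 ≤ k → Y (k + S) n ≤ X k n)
    (hpos : ∀ n, 0 < n → hh D (Y 0) (Y N) n = 0)
    (hneg : ∀ n, n < -1 → hh D (Y (-(N : ℤ))) (Y 0) n = 0) (hb : rl b (⊤ : Ideal R) ≠ ⊤) {Ng : ℕ}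
    (hNG : ∀ n, NG (Y 0 n) Ng) {c0 G : ℤ} (h0 : 0 ≤ c0) (hG : (N : ℤ) + S ≤ G)
    (hL : c0 + G * (n1 - n0 + 3) + S + N ≤ L) (hn : n0 ≤ n1) :
    -(((n1 : ℝ) - n0 + 1) * (c * Ng * cl (b ⊔ Ideal.span {h}))) ≤
      chi D (Y 0) (X 0) + chi D (X 0) (dp D X (lv c0 G n0)) := by
  have hG0 : 0 ≤ G := by omega
  have hT : 0 ≤ G * (n1 - n0 + 3) := mul_nonneg hG0 (by omega)
  have p1 := hX.isPair_dp le_rfl h0 hG0 (by omega)
  have hYX' : ∀ k k' n : ℤ, 0 ≤ k → k + S ≤ k' → Y k' n ≤ X k n := fun k k' n a a' =>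
    (hY.mono _ _ _ (by omega) a').trans (hYX k n a)
  have hO : ∀ n, Y (0 + L) n ≤ dp D X (lv c0 G n0) n := fun n =>
    (hYX' (L - S) _ n (by omega) (by omega)).trans
      ((hX.le_lv h0 hG0 (by omega) n).trans deep_le_dp)
  have p2 : IsPair D (Y 0) (dp D X (lv c0 G n0)) :=
    ⟨fun n => (p1.le n).trans (hXY 0 n le_rfl), hY.st 0, p1.st',
      fun n x hx => hO _ (hY.dd 0 n (by omega) x hx), hY.fin 0 _⟩
  have e1 := chi_add (p2.upper p1.le (fun n => hXY 0 n le_rfl) p1.st) p1 p2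
    (hY.hfin' hb hNG (by omega) (fun n => le_rfl) fun n => (hO n).trans (p1.le n))
    (hY.hfin' hb hNG (by omega) (fun n => hXY 0 n le_rfl) hO)
  have e2 : (chi D (Y 0) (X 0) : ℝ) + chi D (X 0) (dp D X (lv c0 G n0)) =
      chi D (Y 0) (dp D X (lv c0 G n0)) := by rw [e1]; push_cast; ring
  rw [e2, ← deep_card hn]
  refine neg_sum_le_chi _ (fun n hn' _ => hh_of_le
    (hY.le_of (fun a0 a1 => absurd (Finset.mem_Icc.2 ⟨a0, a1⟩) hn') rfl)) _ (fun n hn' hn0 => ?_)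
    (by unfold cl; positivity)
  rw [Finset.mem_Icc] at hn'
  refine deep_cast (h := h) hb ((hNG n).small hb (hY.smul_le (by omega) n) h c
    (A := bnd D (Y 0) (dp D X (lv c0 G n0)) n) (B := cyc D (Y 0) (dp D X (lv c0 G n0)) n)
    ((hO n).trans le_sup_right) inf_le_left ?_)
  intro z hz
  obtain ⟨t, T, a1, a2, a3, a4⟩ := deep_lv c0 G hG0 hn'.1 hn'.2
  obtain ⟨b1, b2, b3, b4, -⟩ := a4 c0
  obtain ⟨x, hx, hx'⟩ := deep_mem'.1 hz.2
  have hz1 : z - x ∈ Y 0 n := sub_mem hz.1 (p2.le n (deep_le_dp hx))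
  rw [← map_sub] at hx'
  have hx2 := hXY _ _ (by omega) hx'
  suffices ∃ w ∈ Y 0 (n - 1), h ^ c • (z - x) - D w ∈ X (lv c0 G n0 n) n by
    obtain ⟨w, hw, hv⟩ := this
    refine cx_mem_bnd.2 ⟨w, hw, deep_le_dp ?_⟩
    have e : h ^ c • z - D w = h ^ c • (z - x) - D w + h ^ c • x := by rw [smul_sub]; abel
    rw [e]
    exact add_mem hv (Submodule.smul_mem _ _ hx)
  generalize z - x = z1 at hz1 hx2
  rcases lt_or_gt_of_ne hn0 with hlt | hgt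
  · obtain ⟨w, hw, hv⟩ := hY.rg (-(N : ℤ)) (lv c0 G n0 (n + 1) - N) n le_rfl (by omega) (by omega)
      z1 (by rwa [neg_add_cancel]) (by rwa [sub_add_cancel])
    obtain ⟨w', h1, h2⟩ := hh_eq_zero_iff.1 (hneg (n - 1) (by omega)) w hw (by
      rw [sub_add_cancel]
      have := sub_mem (Submodule.smul_mem _ (h ^ c) hz1) (hY.mono 0 _ _ (by omega) (by omega) hv)
      rwa [sub_sub_cancel] at this)
    refine ⟨_, h2, ?_⟩
    have h3 := hY.dd _ _ le_rfl w' h1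
    rw [sub_add_cancel, sub_add_cancel] at h3
    have e : h ^ c • z1 - D (w - D w') = h ^ c • z1 - D w + D (D w') := by rw [map_sub]; abel
    rw [e]
    exact add_mem (hYX' _ _ _ (by omega) (by omega) hv) (hYX' _ _ _ (by omega) (by omega) h3)
  · obtain ⟨w, hw, hz'⟩ := hh_eq_zero_iff.1 (hpos n hgt) z1 hz1
      (hY.mono _ _ _ (by omega) (by omega) hx2)
    have h3 := hY.dd 0 _ (by omega) w hw
    rw [sub_add_cancel] at h3
    obtain ⟨w2, hw2, hv⟩ := hY.rg 0 (lv c0 G n0 (n + 1) - N) n (by omega) (by omega) (by omega)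
      (z1 - D w) (by rwa [zero_add]) (by
        rw [sub_add_cancel, map_sub]
        exact sub_mem hx2 (hY.mono _ _ _ (by omega) (by omega) h3))
    refine ⟨h ^ c • w + w2, add_mem (Submodule.smul_mem _ _ hw) hw2, ?_⟩
    have e : h ^ c • z1 - D (h ^ c • w + w2) = h ^ c • (z1 - D w) - D w2 := by
      rw [map_add, map_smul, smul_sub]; abel
    rw [e]
    exact hYX' _ _ _ (by omega) (by omega) hv

end Vale.Agent.P202
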