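import Vale.Agent.P202.Mat
import Vale.Agent.P202.Deep

/-! Approximate acyclicity. -/

namespace Vale.Agent.P202

variable {P : Type*} [CommRing P] {s : ℕ} {y : Fin (s + 1) → P} {r : P} {J : Type} [Fintype J]
  [DecidableEq J] {i : J → ℕ} {g : Matrix J J P} {L M : ℕ} {E : Type*} [AddCommGroup E]
  [Module P E]

omit [Fintype J] [DecidableEq J] in
theorem ac_pf_mono {A B : Submodule P E} (h : A ≤ B) (n : ℤ) :
    pf i (fun _ => A) n ≤ pf i (fun _ => B) n := fun _ hv =>
  mem_pf.2 fun a => ⟨fun e => h ((mem_pf.1 hv a).1 e), (mem_pf.1 hv a).2⟩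

omit [Fintype J] [DecidableEq J] in
theorem ac_split {T : Submodule P E} {c : P} {b : Ideal P} {n : ℤ} {u : J → E}
    (hu : u ∈ pf i (fun _ => (Ideal.span {c} ⊔ b) • T) n) :
    ∃ w ∈ pf i (fun _ => T) n, u - c • w ∈ pf i (fun _ => b • T) n := by
  have : ∀ a, ∃ x : E, ((n + i a = 0 → x ∈ T) ∧ (n + i a ≠ 0 → x = 0)) ∧
      (n + i a = 0 → u a - c • x ∈ b • T) ∧ (n + i a ≠ 0 → u a - c • x = 0) := by
    intro a
    by_cases e : n + i a = 0
    · have h1 := (mem_pf.1 hu a).1 e
      rw [Submodule.sup_smul, Submodule.ideal_span_singleton_smul] at h1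
      obtain ⟨_, h2, x', h3, h4⟩ := Submodule.mem_sup.1 h1
      obtain ⟨x, hx, rfl⟩ := (Submodule.mem_smul_pointwise_iff_exists _ _ _).1 h2
      exact ⟨x, ⟨fun _ => hx, fun h => absurd e h⟩, fun _ => by rw [← h4]; simpa using h3,
        fun h => absurd e h⟩
    · exact ⟨0, ⟨fun h => absurd h e, fun _ => rfl⟩, fun h => absurd h e,
        fun _ => by simpa using (mem_pf.1 hu a).2 e⟩
  choose w h1 h2 using this
  exact ⟨w, mem_pf.2 h1, mem_pf.2 h2⟩

omit [DecidableEq J] in
theorem ac_st (hd : Deg i g) {A : Submodule P E} {n : ℤ} {v : J → E}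
    (hv : v ∈ pf i (fun _ => A) (n - 1)) : act g v ∈ pf i (fun _ => A) n :=
  mat_act_mem (fun a b hab => by rw [← hd a b hab]; push_cast; ring)
    (fun _ _ _ hx => A.smul_mem _ hx) hv

theorem ac_null {q : Ideal P} (hd : Deg i g) {c : P} (hn : Null i g q c) (T : Submodule P E)
    (n : ℤ) {z : J → E} (hz : z ∈ pf i (fun _ => T) n) {A : Submodule P E} (hq : q • T ≤ A)
    (hz' : act g z ∈ pf i (fun _ => A) (n + 1)) :
    ∃ w ∈ pf i (fun _ => T) (n - 1), c • z - act g w ∈ pf i (fun _ => A) n :=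
  cx_mem_bnd.1 (mat_null_smul hd hn hq n ⟨hz, hz'⟩)

omit [DecidableEq J] in
theorem ac_dd {q : Ideal P} (hd : Deg i g) (hsq : Ent (g * g) q) {T : Submodule P E} {n : ℤ}
    {v : J → E} (hv : v ∈ pf i (fun _ => T) (n - 1 - 1)) :
    act g (act g v) ∈ pf i (fun _ => q • T) n := by
  have := (isPair_pf hd hsq (A := T) (A' := q • T) Submodule.smul_le_right le_rfl).dd _ v hv
  rwa [sub_add_cancel, sub_add_cancel] at this

theorem Apx.ac_aux (hA : Apx y r i g L M) {T : Submodule P E} (hT : ColOn y T) (d : ℕ) :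
    ∀ (S : Finset (Fin (s + 1))), S.card + d = s + 1 → ∀ (l : ℕ), l + d * M ≤ L → ∀ n : ℤ,
      (S.card : ℤ) < -n → ∀ z ∈ pf i (fun _ => T) n,
      act g z ∈ pf i (fun _ => (Ideal.span ((fun t => y t ^ M) '' S) ⊔
        Ideal.span (Set.range y) ^ (l + d * M)) • T) (n + 1) →
      ∃ w ∈ pf i (fun _ => T) (n - 1), r ^ d • z - act g w ∈
        pf i (fun _ => (Ideal.span ((fun t => y t ^ M) '' S) ⊔
          Ideal.span (Set.range y) ^ l) • T) n := by
  induction d with
  | zero =>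
    intro S hS l _ n hn z hz _
    have : z = 0 := funext fun a => (mem_pf.1 hz a).2 (by have := hA.le a; omega)
    exact ⟨0, zero_mem _, by rw [this]; simp⟩
  | succ d ih =>
    intro S hS l hl n hn z hz hz'
    obtain ⟨j, -, hj⟩ := Finset.exists_mem_notMem_of_card_lt_card (s := S) (t := Finset.univ)
      (by rw [Finset.card_univ, Fintype.card_fin]; omega)
    set a := Ideal.span ((fun t => y t ^ M) '' (S : Set (Fin (s + 1)))) with ha
    set I := Ideal.span (Set.range y) with hI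
    have e1 : Ideal.span ((fun t => y t ^ M) '' ((insert j S : Finset _) : Set (Fin (s + 1)))) =
        Ideal.span {y j ^ M} ⊔ a := by
      rw [Finset.coe_insert, Set.image_insert_eq, Ideal.span_insert]
    have e2 : l + M + d * M = l + (d + 1) * M := by ring
    have hle : ∀ {k k' : ℕ}, k ≤ k' → (a ⊔ I ^ k') • T ≤ (a ⊔ I ^ k) • T := fun h =>
      Submodule.smul_mono_left (sup_le_sup_left (Ideal.pow_le_pow_right h) _)
    have hle' : ∀ {k : ℕ}, k ≤ L → I ^ L • T ≤ (a ⊔ I ^ k) • T := fun h =>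
      (Submodule.smul_mono_left le_sup_right).trans (hle h)
    obtain ⟨w, hw, hw'⟩ := ac_null hA.deg (hA.null j) T n hz (hle' hl) hz'
    obtain ⟨v, hv, hv'⟩ := ih (insert j S) (by rw [Finset.card_insert_of_notMem hj]; omega)
      (l + M) (by omega) (n - 1) (by rw [Finset.card_insert_of_notMem hj]; push_cast; omega) w hw
      (by
        rw [sub_add_cancel, e1, e2, ← sub_sub_cancel ((r * y j ^ M) • z) (act g w)]
        refine sub_mem (mem_pf.2 fun b => ⟨fun e => ?_, fun e => ?_⟩) (ac_pf_mono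
          (Submodule.smul_mono_left (sup_le_sup_right le_sup_right _)) _ hw')
        · exact Submodule.smul_mem_smul (Ideal.mem_sup_left (Ideal.mem_sup_left
            (Ideal.mul_mem_left _ _ (Ideal.mem_span_singleton_self _)))) ((mem_pf.1 hz b).1 e)
        · rw [Pi.smul_apply, (mem_pf.1 hz b).2 e, smul_zero])
    rw [e1, sup_assoc] at hv'
    obtain ⟨w', h1, h2⟩ := ac_split hv'
    refine ⟨w', h1, ?_⟩
    have h3 : r ^ (d + 1) • z - act g w' ∈ pf i (fun _ => T) n :=
      sub_mem (Submodule.smul_mem _ _ hz) (ac_st hA.deg h1)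
    have h4 : y j ^ M • (r ^ (d + 1) • z - act g w') ∈ pf i (fun _ => (a ⊔ I ^ (l + M)) • T) n := by
      have e : y j ^ M • (r ^ (d + 1) • z - act g w') =
          r ^ d • ((r * y j ^ M) • z - act g w) + act g (act g v) +
            act g (r ^ d • w - act g v - y j ^ M • w') := by
        rw [map_sub, map_sub, map_smul, map_smul, smul_sub, smul_sub, smul_smul, smul_smul,
          show y j ^ M * r ^ (d + 1) = r ^ d * (r * y j ^ M) by ring]
        abel
      rw [e]
      exact add_mem (add_mem (Submodule.smul_mem _ _ (ac_pf_mono (hle (by nlinarith)) _ hw'))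
        (ac_pf_mono (hle' (by nlinarith)) _ (ac_dd hA.deg hA.sq hv))) (ac_st hA.deg h2)
    exact mem_pf.2 fun b => ⟨fun e => hT S j (by simpa using hj) M l _ ((mem_pf.1 h3 b).1 e)
      ((mem_pf.1 h4 b).1 e), (mem_pf.1 h3 b).2⟩

omit [DecidableEq J] in
theorem ac_row {T : Submodule P E} (c : J → P) {x : E}
    (hx : x ∈ Ideal.span (Set.range c) • T) : ∃ t : J → E, (∀ b, t b ∈ T) ∧ ∑ b, c b • t b = x := by
  refine Submodule.smul_induction_on hx (fun a ha x hx => ?_) ?_
  · obtain ⟨k, rfl⟩ := Ideal.mem_span_range_iff_exists_fun.1 ha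
    refine ⟨fun b => k b • x, fun b => T.smul_mem _ hx, ?_⟩
    rw [Finset.sum_smul]
    exact Finset.sum_congr rfl fun b _ => by rw [smul_smul, mul_comm]
  · rintro _ _ ⟨t, h1, rfl⟩ ⟨t', h2, rfl⟩
    exact ⟨t + t', fun b => add_mem (h1 b) (h2 b), by simp [Finset.sum_add_distrib]⟩

theorem Apx.ac (hA : Apx y r i g L M) {T : Submodule P E} (hT : ColOn y T) (l : ℕ)
    (hL : l + (s + 1) * M ≤ L) {n : ℤ} (hn : n < 0) {z : J → E} (hz : z ∈ pf i (fun _ => T) n)
    (hz' : act g z ∈ pf i (fun _ => Ideal.span (Set.range y) ^ (l + (s + 1) * M) • T) (n + 1)) :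
    ∃ w ∈ pf i (fun _ => T) (n - 1),
      r ^ (s + 1) • z - act g w ∈ pf i (fun _ => Ideal.span (Set.range y) ^ l • T) n := by
  have := hA.ac_aux hT (s + 1) ∅ (by simp) l hL n (by simpa using hn) z hz (by simpa using hz')
  simpa using this

theorem Apx.chi_dp_le (hA : Apx y r i g L M) {a0 : J} (ha0 : ∀ a, i a = 0 ↔ a = a0)
    {T : Submodule P E} (hT : ColOn y T) {Ng : ℕ} (hNG : NG T Ng)
    (hb : rl (Ideal.span (Set.range y) ^ L) (⊤ : Ideal P) ≠ ⊤) (c0 G : ℕ) (hG : (s + 1) * M ≤ G)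
    (hL : c0 + G * (2 * s + 4) ≤ L) (V : ℤ → ℤ → Submodule P (J → E))
    (hV : ∀ k : ℕ, V k = pf i fun _ => Ideal.span (Set.range y) ^ k • T)
    (hV' : ∀ k n, n < -((s : ℤ) + 1) → V k n = ⊥) :
    (chi (act g) (V 0) (dp (act g) V (lv c0 G (-((s : ℤ) + 1)))) : ℝ) ≤
      (rl ((Ideal.span (Set.range (g a0)) ⊔ Ideal.span (Set.range y) ^ L) • T) T).toNat +
        (s + 1) * ((s + 1) * (Fintype.card J * Ng) *
          cl (Ideal.span (Set.range y) ^ L ⊔ Ideal.span {r})) := by
  set I := Ideal.span (Set.range y) with hI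
  have hV0 : V 0 = pf i fun _ => T := by simpa using hV 0
  have hlv : ∀ n : ℤ, -((s : ℤ) + 1) ≤ n → n ≤ 0 → ∃ k : ℕ, lv c0 G (-((s : ℤ) + 1)) n = k ∧
      lv c0 G (-((s : ℤ) + 1)) (n + 1) = (k + G : ℕ) ∧ k + G ≤ L := by
    intro n h0 h1
    obtain ⟨m, hm⟩ := Int.le.dest h0
    have hm' : m ≤ s + 1 := by omega
    refine ⟨c0 + G * (m + 2), ?_, ?_, ?_⟩
    · unfold lv; rw [← hm]; push_cast; ring
    · unfold lv; rw [← hm]; push_cast; ring
    · nlinarith
  have hO : ∀ n : ℤ, -((s : ℤ) + 1) ≤ n → n ≤ 0 → pf i (fun _ => I ^ L • T) n ≤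
      dp (act g) V (lv c0 G (-((s : ℤ) + 1))) n := by
    intro n h0 h1
    obtain ⟨k, e1, -, e3⟩ := hlv n h0 h1
    refine le_trans ?_ deep_le_dp
    rw [e1, hV]
    exact ac_pf_mono (Submodule.smul_mono_left (Ideal.pow_le_pow_right (by omega))) n
  have hcard : ((Finset.Icc (-((s : ℤ) + 1)) (-1)).card : ℝ) = s + 1 := by
    rw [deep_card (by omega)]; push_cast; ring
  rw [← hcard]
  refine (chi_le_zero_add (Finset.Icc (-((s : ℤ) + 1)) (-1)) (fun n hn hn0 => hh_of_le ?_) _
    (fun n hn _ => ?_) (by unfold cl; positivity)).trans (add_le_add_left ?_ _)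
  · rw [Finset.mem_Icc] at hn
    by_cases h1 : n < -((s : ℤ) + 1)
    · rw [hV' _ _ h1]; exact bot_le
    · intro x hx
      rw [hV0] at hx
      have : x = 0 := funext fun a => (mem_pf.1 hx a).2 (by omega)
      rw [this]; exact zero_mem _
  · rw [Finset.mem_Icc] at hn
    have hNG' : NG (pf i (fun _ => T) n) (Fintype.card J * Ng) := by
      have := ng_pi (fun a : J => conc T (n + i a)) (fun _ => Ng) fun a => by
        unfold conc
        split_ifs
        exacts [hNG, ng_bot.mono (Nat.zero_le _)]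
      rw [Finset.sum_const, Finset.card_univ, smul_eq_mul] at this
      exact this
    have := deep_cast (h := r) (C := s + 1) hb (hNG'.small hb (O := pf i (fun _ => I ^ L • T) n)
      (Submodule.smul_le.2 fun c hc x hx => mem_pf.2 fun a =>
        ⟨fun e => Submodule.smul_mem_smul hc ((mem_pf.1 hx a).1 e),
          fun e => by rw [Pi.smul_apply, (mem_pf.1 hx a).2 e, smul_zero]⟩) r (s + 1)
      (A := bnd (act g) (V 0) (dp (act g) V (lv c0 G (-((s : ℤ) + 1)))) n)
      (B := cyc (act g) (V 0) (dp (act g) V (lv c0 G (-((s : ℤ) + 1)))) n)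
      ((hO n hn.1 (by omega)).trans le_sup_right) (inf_le_left.trans (by rw [hV0])) ?_)
    · rw [hcard]; exact_mod_cast this
    intro z hz
    obtain ⟨k, e1, e2, e3⟩ := hlv n hn.1 (by omega)
    obtain ⟨x, hx, hx'⟩ := deep_mem'.1 hz.2
    have hx2 := hx
    rw [e1, hV] at hx2
    rw [e2, hV, ← map_sub] at hx'
    have hz1 := hz.1
    rw [hV0] at hz1
    obtain ⟨w, hw, hw'⟩ := hA.ac hT k (by omega) (n := n) (by omega)
      (sub_mem hz1 (ac_pf_mono Submodule.smul_le_right n hx2))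
      (ac_pf_mono (Submodule.smul_mono_left (Ideal.pow_le_pow_right (by omega))) _ hx')
    refine cx_mem_bnd.2 ⟨w, by rw [hV0]; exact hw, deep_le_dp ?_⟩
    have e : r ^ (s + 1) • z - act g w = r ^ (s + 1) • (z - x) - act g w + r ^ (s + 1) • x := by
      rw [smul_sub]; abel
    rw [e, e1, hV]
    exact add_mem hw' (Submodule.smul_mem _ _ hx2)
  · refine Nat.cast_le.2 (ENat.toNat_le_toNat ?_ (ne_top_of_le_ne_top
      (WithTop.mul_ne_top (ENat.natCast_ne_top Ng) hb)
      (hNG.rl_le (Submodule.smul_mono_left le_sup_right))))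
    have h00 : (0 : ℤ) + i a0 = 0 := by rw [(ha0 a0).2 rfl]; rfl
    refine rl_le_of_inj (LinearMap.proj a0) (fun x hx => Submodule.mem_sup_left ?_) fun x hx h => ?_
    · have := hx.1
      rw [hV0] at this
      exact (mem_pf.1 this a0).1 h00
    · have hx1 := hx.1
      rw [hV0] at hx1
      rw [Submodule.sup_smul] at h
      obtain ⟨_, h1, e, he, h2⟩ := Submodule.mem_sup.1 h
      obtain ⟨t, ht, rfl⟩ := ac_row _ h1
      have hw : (fun b => if i b = 1 then t b else 0) ∈ pf i (fun _ => T) (0 - 1) :=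
        mem_pf.2 fun b => ⟨fun _ => by split_ifs; exacts [ht b, zero_mem _],
          fun hb => if_neg (by omega)⟩
      refine cx_mem_bnd.2 ⟨_, by rw [hV0]; exact hw, hO 0 (by omega) le_rfl
        (mem_pf.2 fun a => ⟨fun ha => ?_, (mem_pf.1 (sub_mem hx1 (ac_st hA.deg hw)) a).2⟩)⟩
      obtain rfl : a = a0 := (ha0 a).1 (by omega)
      have e3 : act g (fun b => if i b = 1 then t b else 0) a = ∑ b, g a b • t b := by
        rw [act_apply]
        refine Finset.sum_congr rfl fun b _ => ?_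
        by_cases hg : g a b = 0
        · simp [hg]
        · rw [if_pos (by have := hA.deg a b hg; omega)]
      have h3 : ∑ b, g a b • t b + e = x a := h2
      rw [Pi.sub_apply, e3, ← h3, add_sub_cancel_left]
      exact he

end Vale.Agent.P202
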