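import Vale.Agent.P202.Defs

/-! The splitting algebra. -/

namespace Vale.Agent.P202

universe u

open Polynomial in
theorem Split_gen (s : ℕ) : ∀ (A : Type u) [CommRing A] [Nontrivial A] (f : A[X]), f.Monic →
    f.natDegree = s → ∃ (Λ : Type u) (_ : CommRing Λ) (_ : Algebra A Λ) (θ : Fin s → Λ),
      f.map (algebraMap A Λ) = ∏ j, (X + C (θ j)) ∧
      LinearIndepOn A (fun c : Fin s →₀ ℕ => ∏ j, θ j ^ c j) {c | ∀ j, c j ≤ j} ∧
      ∀ (B : Type u) [CommRing B] [Algebra A B] (β : Fin s → B),
        f.map (algebraMap A B) = ∏ j, (X + C (β j)) → ∃ τ : Λ →ₐ[A] B, ∀ j, τ (θ j) = β j := by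
  induction s with
  | zero =>
    intro A _ _ f hf hd
    have h1 : f = 1 := hf.natDegree_eq_zero.1 hd
    refine ⟨A, inferInstance, inferInstance, Fin.elim0, by simp [h1], ?_,
      fun B _ _ β _ => ⟨Algebra.ofId A B, fun j => j.elim0⟩⟩
    haveI : Unique ({c | ∀ j, c j ≤ j} : Set (Fin 0 →₀ ℕ)) :=
      ⟨⟨⟨0, fun j => j.elim0⟩⟩, fun c => Subtype.ext (Finsupp.ext fun j => j.elim0)⟩
    unfold LinearIndepOn
    rw [Fintype.linearIndependent_iff]
    intro g hg i
    rw [Fintype.sum_unique, Subsingleton.elim default i] at hg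
    simpa using hg
  | succ s ih =>
    intro A _ _ f hf hd
    let pb := AdjoinRoot.powerBasis' hf
    have hdim : pb.dim = s + 1 := hd
    haveI : Nontrivial (AdjoinRoot f) := by
      refine nontrivial_of_ne (AdjoinRoot.mk f 1) 0 (AdjoinRoot.mk_ne_zero_of_natDegree_lt hf
        one_ne_zero ?_)
      rw [hd]; simp
    let ρ := AdjoinRoot.root f
    let f1 : (AdjoinRoot f)[X] := f.map (AdjoinRoot.of f) /ₘ (X - C ρ)
    have hf1 : (X - C ρ) * f1 = f.map (AdjoinRoot.of f) :=
      mul_divByMonic_eq_iff_isRoot.2 (AdjoinRoot.isRoot_root f)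
    have hm1 : f1.Monic := (monic_X_sub_C ρ).of_mul_monic_left (hf1 ▸ hf.map _)
    have hd1 : f1.natDegree = s := by
      have h1 := congrArg natDegree hf1
      rw [(monic_X_sub_C ρ).natDegree_mul hm1, natDegree_X_sub_C, hf.natDegree_map, hd] at h1
      omega
    obtain ⟨Λ, iΛ, aΛ, θ, h1, h2, h3⟩ := ih (AdjoinRoot f) f1 hm1 hd1
    letI : Algebra A Λ := ((algebraMap (AdjoinRoot f) Λ).comp (AdjoinRoot.of f)).toAlgebra
    haveI : IsScalarTower A (AdjoinRoot f) Λ := IsScalarTower.of_algebraMap_eq' rfl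
    refine ⟨Λ, iΛ, inferInstance, Fin.snoc θ (algebraMap (AdjoinRoot f) Λ (-ρ)), ?_, ?_, ?_⟩
    · rw [Fin.prod_univ_castSucc]
      simp only [Fin.snoc_castSucc, Fin.snoc_last]
      rw [← h1, IsScalarTower.algebraMap_eq A (AdjoinRoot f) Λ, ← Polynomial.map_map,
        AdjoinRoot.algebraMap_eq, ← hf1, Polynomial.map_mul, mul_comm]
      simp [sub_eq_add_neg]
    · have l1 : LinearIndependent A fun i : Fin pb.dim => (-ρ) ^ (i : ℕ) := by
        have := pb.basis.linearIndependent.units_smul fun i => (-1) ^ (i : ℕ)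
        convert this using 1
        funext i
        rw [Pi.smul_apply', PowerBasis.coe_basis, neg_pow, Units.smul_def, Algebra.smul_def]
        simp [pb, ρ]
      have l2 := linearIndependent_smul l1 h2
      let g : ({c | ∀ j, c j ≤ j} : Set (Fin (s + 1) →₀ ℕ)) →
          Fin pb.dim × ({c | ∀ j, c j ≤ j} : Set (Fin s →₀ ℕ)) := fun c =>
        (⟨c.1 (Fin.last s), by rw [hdim]; exact Nat.lt_succ_of_le (c.2 (Fin.last s))⟩,
          ⟨Finsupp.equivFunOnFinite.symm fun j => c.1 j.castSucc, fun j => c.2 j.castSucc⟩)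
      have hg : Function.Injective g := by
        intro c c' h
        apply Subtype.ext
        ext j
        induction j using Fin.lastCases with
        | last => exact congrArg (fun z => (z.1 : ℕ)) h
        | cast j => exact congrArg (fun z => z.2.1 j) h
      unfold LinearIndepOn
      convert l2.comp g hg using 1
      funext c
      beta_reduce
      rw [Fin.prod_univ_castSucc]
      simp only [Fin.snoc_castSucc, Fin.snoc_last, Function.comp_apply, Algebra.smul_def, map_pow]
      rw [mul_comm]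
      rfl
    · intro B _ _ β hβ
      rw [Fin.prod_univ_castSucc] at hβ
      have hr : f.eval₂ (algebraMap A B) (-β (Fin.last s)) = 0 := by
        rw [← eval_map, hβ]; simp
      let l := AdjoinRoot.lift (algebraMap A B) _ hr
      letI : Algebra (AdjoinRoot f) B := l.toAlgebra
      have hl : l.comp (AdjoinRoot.of f) = algebraMap A B := AdjoinRoot.lift_comp_of hr
      have hlρ : l ρ = -β (Fin.last s) := AdjoinRoot.lift_root hr
      have h4 : f1.map (algebraMap (AdjoinRoot f) B) = ∏ j : Fin s, (X + C (β j.castSucc)) := by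
        refine (monic_X_add_C (β (Fin.last s))).isRegular.left ?_
        have h5 := congrArg (Polynomial.map l) hf1
        rw [Polynomial.map_map, hl, hβ, Polynomial.map_mul, Polynomial.map_sub, map_X, map_C,
          hlρ] at h5
        dsimp only
        rw [mul_comm _ (∏ j : Fin s, _), ← h5]
        simp
        rfl
      obtain ⟨τ, hτ⟩ := h3 B _ h4
      refine ⟨⟨τ.toRingHom, fun r => ?_⟩, fun j => ?_⟩
      · exact (τ.commutes (AdjoinRoot.of f r)).trans (RingHom.congr_fun hl r)
      · induction j using Fin.lastCases with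
        | last =>
          rw [Fin.snoc_last]
          refine (τ.commutes (-ρ)).trans ?_
          change l (-ρ) = _
          rw [map_neg, hlρ, neg_neg]
        | cast j => rw [Fin.snoc_castSucc]; exact hτ j

open Polynomial in
theorem Split_reflect {Λ ι : Type*} [CommRing Λ] (θ : ι → Λ) (T : Finset ι) :
    (∏ j ∈ T, (X + C (θ j))).natDegree ≤ T.card ∧
      reflect T.card (∏ j ∈ T, (X + C (θ j))) = ∏ j ∈ T, (1 + C (θ j) * X) := by
  classical
  induction T using Finset.induction_on with
  | empty => simp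
  | insert a T ha ih =>
    have h1 : (X + C (θ a)).natDegree ≤ 1 := by compute_degree
    rw [Finset.prod_insert ha, Finset.prod_insert ha, Finset.card_insert_of_notMem ha, add_comm _ 1]
    refine ⟨natDegree_mul_le.trans (add_le_add h1 ih.1), ?_⟩
    rw [reflect_mul _ _ h1 ih.1, ih.2, reflect_add, reflect_one_X, reflect_C, pow_one]

theorem exists_splitData {P : Type u} [CommRing P] (q : Ideal P) {s : ℕ} (x : Fin (s + 1) → P)
    (hreg : RegMod q (x 0)) :
    ∃ (Λ : Type u) (_ : CommRing Λ) (_ : Algebra P Λ) (θ : Fin s → Λ) (u : Λˣ),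
      SplitData q x Λ θ u := by
  classical
  by_cases hq : q = ⊤
  · refine ⟨PUnit, inferInstance, inferInstance, fun _ => 0, 1, Subsingleton.elim _ _,
      fun _ _ => Subsingleton.elim _ _, fun _ => Subsingleton.elim _ _, fun _ _ _ _ => ?_,
      fun _ => ⟨AlgHom.id _ _, fun _ => rfl⟩⟩
    rw [hq]; trivial
  let A := Localization.Away (Ideal.Quotient.mk q (x 0))
  let φ : P →+* A := (algebraMap (P ⧸ q) A).comp (Ideal.Quotient.mk q)
  have hinj : Function.Injective (algebraMap (P ⧸ q) A) := by
    refine IsLocalization.injective A (M := Submonoid.powers (Ideal.Quotient.mk q (x 0))) ?_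
    rw [Submonoid.powers_le, mem_nonZeroDivisors_iff_left]
    intro b hb
    obtain ⟨b, rfl⟩ := Ideal.Quotient.mk_surjective b
    rw [← map_mul, Ideal.Quotient.eq_zero_iff_mem] at hb
    exact Ideal.Quotient.eq_zero_iff_mem.2 (hreg b hb)
  have hφ : ∀ a, φ a = 0 ↔ a ∈ q := fun a => by
    rw [RingHom.comp_apply, map_eq_zero_iff _ hinj, Ideal.Quotient.eq_zero_iff_mem]
  haveI : Nontrivial A := nontrivial_of_ne 1 0 fun h =>
    hq ((Ideal.eq_top_iff_one q).2 ((hφ 1).1 (by rw [map_one, h])))
  obtain ⟨v, hv⟩ : IsUnit (φ (x 0)) :=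
    IsLocalization.Away.algebraMap_isUnit (Ideal.Quotient.mk q (x 0))
  let f : Polynomial A := ∑ i : Fin (s + 1), Polynomial.monomial (s - i) (↑v⁻¹ * φ (x i))
  have hc : ∀ i : Fin (s + 1), f.coeff (s - i) = ↑v⁻¹ * φ (x i) := by
    intro i
    rw [Polynomial.finsetSum_coeff, Finset.sum_eq_single i]
    · rw [Polynomial.coeff_monomial, if_pos rfl]
    · intro j _ hj
      rw [Polynomial.coeff_monomial, if_neg]
      intro h
      apply hj
      apply Fin.ext
      have := i.2
      have := j.2
      omega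
    · simp
  have hc0 : f.coeff s = 1 := by
    have := hc 0
    rwa [← hv, Units.inv_mul] at this
  have hle : f.natDegree ≤ s := Polynomial.natDegree_sum_le_of_forall_le _ _ fun i _ =>
    (Polynomial.natDegree_monomial_le _).trans (Nat.sub_le _ _)
  obtain ⟨Λ, iΛ, aΛ, θ, h1, h2, h3⟩ := Split_gen s A f
    (Polynomial.monic_of_natDegree_le_of_coeff_eq_one s hle hc0)
    (Polynomial.natDegree_eq_of_le_of_coeff_ne_zero hle (by rw [hc0]; exact one_ne_zero))
  letI : Algebra P Λ := ((algebraMap A Λ).comp φ).toAlgebra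
  have halg : ∀ a, algebraMap P Λ a = algebraMap A Λ (φ a) := fun _ => rfl
  refine ⟨Λ, iΛ, inferInstance, θ, Units.map (algebraMap A Λ).toMonoidHom v, ?_, fun a ha => ?_,
    fun i => ?_, fun F hF h0 c => ?_, fun e => ?_⟩
  · rw [halg, ← hv]; rfl
  · rw [halg, (hφ a).2 ha, map_zero]
  · have h4 := (Split_reflect θ Finset.univ).2
    rw [Finset.card_univ, Fintype.card_fin] at h4
    rw [← h4, Polynomial.coeff_reflect, Polynomial.revAt_le (Nat.le_of_lt_succ i.2), ← h1,
      Polynomial.coeff_map, hc, halg]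
    change _ = algebraMap A Λ v * _
    rw [← map_mul, Units.mul_inv_cancel_left]
  · by_cases hc : F.coeff c = 0
    · rw [hc]; exact q.zero_mem
    refine (hφ _).1 (linearIndepOn_iff'.1 h2 F.support (fun c => φ (F.coeff c)) ?_ ?_ c
      (MvPolynomial.mem_support_iff.2 hc))
    · intro c hc j
      exact Int.ofNat_le.1 (hF c (MvPolynomial.mem_support_iff.1 hc) j).2
    · rw [← h0, MvPolynomial.aeval_def, MvPolynomial.eval₂_eq']
      exact Finset.sum_congr rfl fun c _ => Algebra.smul_def _ _
  · obtain ⟨τ, hτ⟩ := h3 Λ (fun j => θ (e j)) (by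
      rw [h1]; exact (Equiv.prod_comp e fun j => Polynomial.X + Polynomial.C (θ j)).symm)
    exact ⟨⟨τ.toRingHom, fun r => τ.commutes (φ r)⟩, hτ⟩

end Vale.Agent.P202
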