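import Vale.Agent.P202.MainA
import Vale.Agent.P202.Split

/-! The main lemma. -/

namespace Vale.Agent.P202

open IsLocalRing

section Aux
variable {R : Type*} [CommRing R] {M : Type*} [AddCommGroup M] [Module R M] {J : Type*}
  [Fintype J] {g : Matrix J J R} {i : J → ℕ}

theorem main_tot_tot {δ : M →ₗ[R] M} (hd : Deg i g) (hsq : ∀ a c (x : M), (g * g) a c • x = 0)
    (hδ : ∀ x, δ (δ x) = 0) (v : J → M) : tot g i δ (tot g i δ v) = 0 := by
  funext a
  rw [tot_apply]
  simp only [tot_apply, map_add, map_sum, map_smul, hδ, smul_zero, add_zero, smul_add,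
    Finset.sum_add_distrib, Finset.smul_sum, Pi.zero_apply]
  have h1 : ∑ b, ∑ c, g a b • g b c • v c = 0 := by
    rw [Finset.sum_comm]
    refine Finset.sum_eq_zero fun c _ => ?_
    have := hsq a c (v c)
    rw [Matrix.mul_apply, Finset.sum_smul] at this
    simpa [mul_smul] using this
  rw [h1, zero_add, ← Finset.sum_add_distrib]
  refine Finset.sum_eq_zero fun b _ => ?_
  by_cases hb : g a b = 0
  · simp [hb]
  · rw [← hd a b hb, smul_smul, smul_smul, ← add_smul]
    have : g a b * (-1) ^ (i a + 1) + (-1) ^ i a * g a b = 0 := by ring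
    rw [this, zero_smul]

theorem main_totOk_tw {σ : Type} [DecidableEq σ] {t : σ → Module.End R M} {m : ℕ} {l : List σ}
    {b : σ → ℤ} {A A' : J → (σ → ℤ) → Submodule R M}
    (hc : ∀ i j x, t i (t j x) = t j (t i x)) (hd : Deg i g)
    (hsq : ∀ a c (x : M), (g * g) a c • x = 0) (hA : ∀ a, TwOk t m l (A a))
    (hA' : ∀ a, TwOk t m l (A' a)) (hle : ∀ a e, A' a (b + sh m l e) ≤ A a (b + sh m l e))
    (he : ∀ a a' c, ∀ x ∈ A a' c, g a a' • x ∈ A a c)
    (he' : ∀ a a' c, ∀ x ∈ A' a' c, g a a' • x ∈ A' a c) :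
    TotOk g i (dd t l) (fun a => tw m l (A a) b) (fun a => tw m l (A' a) b) where
  deg := hd
  pair a := isPair_tw hc (hA a) (hA' a) (hle a)
  ent a a' n x hx := by
    rw [mem_tw] at hx ⊢
    intro e
    exact ⟨fun h => he _ _ _ _ ((hx e).1 h), fun h => by simp [(hx e).2 h]⟩
  ent' a a' n x hx := by
    rw [mem_tw] at hx ⊢
    intro e
    exact ⟨fun h => he' _ _ _ _ ((hx e).1 h), fun h => by simp [(hx e).2 h]⟩
  sq a c n x _ := by
    have : (g * g) a c • x = 0 := funext fun e => hsq a c (x e)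
    rw [this]; exact zero_mem _

theorem main_twOk_bot {σ : Type} [DecidableEq σ] (t : σ → Module.End R M) (m : ℕ) (l : List σ) :
    TwOk t m l (fun _ => ⊥) := by
  intro j _ b
  exact ⟨le_rfl, fun x hx => by simp [(Submodule.mem_bot R).1 hx]⟩

omit [Fintype J] in
theorem main_prof_bot : prof i (fun (_ : J) (_ : ℤ) => (⊥ : Submodule R M)) = fun _ => ⊥ := by
  funext n
  ext v
  rw [mem_prof]
  simp [funext_iff]

omit [Fintype J] in
theorem main_prof_mono {V V' : J → ℤ → Submodule R M} (h : ∀ a n, V' a n ≤ V a n) (n : ℤ) :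
    prof i V' n ≤ prof i V n := by
  intro v hv
  rw [mem_prof] at hv ⊢
  exact fun a => h _ _ (hv a)

end Aux

theorem main_div {X C B N : ℝ} {s : ℕ} (hB : 0 ≤ B) (hC : 0 ≤ C) (hN : N ≤ B + 1)
    (h : X * (B + 1) ≤ N * (C * (B + 1) ^ s)) : X ≤ C * (B + 1) ^ s := by
  have h1 : 0 < B + 1 := by linarith
  have h2 : 0 ≤ C * (B + 1) ^ s := by positivity
  have : X * (B + 1) ≤ (C * (B + 1) ^ s) * (B + 1) := by nlinarith
  exact le_of_mul_le_mul_right this h1

theorem main_toNat_le {ι : Type*} [Fintype ι] {x : ℕ∞} {y : ι → ℕ∞} (h : x ≤ ∑ a, y a)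
    (hy : ∀ a, y a ≠ ⊤) {C : ℝ} (hC : ∀ a, ((y a).toNat : ℝ) ≤ C) :
    (x.toNat : ℝ) ≤ Fintype.card ι * C := by
  have h1 : ∑ a, y a ≠ ⊤ := by
    rw [← lt_top_iff_ne_top, ENat.sum_lt_top]; exact fun a _ => lt_top_iff_ne_top.2 (hy a)
  have h2 : x.toNat ≤ ∑ a, (y a).toNat := by
    rw [← ENat.toNat_sum fun a _ => hy a]; exact ENat.toNat_le_toNat h h1
  calc (x.toNat : ℝ) ≤ ∑ a, ((y a).toNat : ℝ) := by exact_mod_cast h2
    _ ≤ ∑ _a : ι, C := Finset.sum_le_sum fun a _ => hC a
    _ = _ := by simp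

theorem main_card_le {s : ℕ} (p : Fin s → Prop) [DecidablePred p] (k : ℕ)
    (h : ∀ j, p j → (j : ℕ) < k) : (Finset.univ.filter p).card ≤ k := by
  calc (Finset.univ.filter p).card ≤ (Finset.range k).card :=
        Finset.card_le_card_of_injOn (fun j => (j : ℕ))
          (fun j hj => by simpa using h j (by simpa using hj)) (fun a _ b _ hab => Fin.ext hab)
    _ = k := Finset.card_range k

theorem main_le_card {s : ℕ} (p : Fin s → Prop) [DecidablePred p] (k : ℕ) (hk : k ≤ s)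
    (h : ∀ j : Fin s, (j : ℕ) < k → p j) : k ≤ (Finset.univ.filter p).card := by
  calc k = (Finset.univ : Finset (Fin k)).card := by simp
    _ ≤ _ := Finset.card_le_card_of_injOn (fun j => Fin.castLE hk j)
          (fun j _ => by simpa using h _ j.2) (fun a _ b _ hab => Fin.castLE_injective hk hab)

variable {P : Type*} [CommRing P] {Λ : Type*} [CommRing Λ] [Algebra P Λ] {q : Ideal P} {s : ℕ}
  {x : Fin (s + 1) → P} {θ : Fin s → Λ} {u : Λˣ} {J : Type} [Fintype J] [DecidableEq J]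
  {i : J → ℕ} {g : Matrix J J P}

omit [DecidableEq J] in
theorem main_kill (h : SplitData q x Λ θ u) (hsq : Ent (g * g) q) (a c : J) (y : Λ) :
    (g * g) a c • y = 0 := by
  rw [Algebra.smul_def, h.kill _ (hsq a c), zero_mul]

omit [Fintype J] [DecidableEq J] in
theorem main_ent (h : SplitData q x Λ θ u) {n : ℕ} (hd : Deg i g)
    (he : Ent g (q ⊔ Ideal.span (Set.range x) ^ n)) (k : ℤ) (a a' : J) (c : Fin s → ℤ) :
    ∀ y ∈ UU P θ u (k - (i a' : ℤ) * n) c, g a a' • y ∈ UU P θ u (k - (i a : ℤ) * n) c := by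
  intro y hy
  by_cases h0 : g a a' = 0
  · simp [h0]
  · have := h.smul_UU (he a a') hy
    rw [← hd a a' h0] at this
    convert this using 2
    push_cast; ring

omit [DecidableEq J] in
/-- the Euler characteristic of the untwisted complex -/
theorem main_W (h : SplitData q x Λ θ u) (hd : Deg i g) (hsq : Ent (g * g) q) (m : ℕ) (l : List (Fin s)) (a : Fin s → ℤ)
    (hs : ∀ j ∈ l, ∀ c, a ≤ c → SurjAt (tt P θ m) m (mon P θ) j c)
    (hv : ∀ j ∈ l, ∀ c, a ≤ c → SvAt (tt P θ m) m (mon P θ) j c) (n : ℤ) :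
    hh (tot g i (dd (tt P θ m) l)) (prof i fun _ => tw m l (mon P θ) a) (fun _ => ⊥) n =
      hh (act g) (pf i fun _ => mon P θ a) (pf i fun _ => ⊥) n := by
  have hk := main_kill h hsq
  have hk' : ∀ a c (y : Ix l → Λ), (g * g) a c • y = 0 := fun a c y => funext fun e => hk a c _
  obtain ⟨hp, hac⟩ := aug_acyclic (tt_comm θ m) (twOk_mon θ m l) hs hv
  have T1 : TotOk g i (dd (tt P θ m) l) (fun _ => tw m l (mon P θ) a)
      (fun _ => conc ((mon P θ a).map (aug (tt P θ m) l))) :=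
    ⟨hd, fun _ => hp, fun _ _ _ _ hy => Submodule.smul_mem _ _ hy,
      fun _ _ _ _ hy => Submodule.smul_mem _ _ hy, fun a c _ y _ => by rw [hk']; exact zero_mem _⟩
  have hp2 : IsPair (dd (tt P θ m) l) (conc ((mon P θ a).map (aug (tt P θ m) l)))
      (fun _ => ⊥) := by
    refine ⟨fun _ => bot_le, hp.st', fun n y hy => ?_, fun n y _ => ?_, ?_⟩
    · simp [(Submodule.mem_bot P).1 hy]
    · rw [dd_dd (tt_comm θ m)]; exact zero_mem _
    · refine (Set.finite_singleton 0).subset fun n hn => ?_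
      by_contra h0
      exact hn (by simp [conc, show n ≠ 0 from h0])
  have T2 : TotOk g i (dd (tt P θ m) l) (fun _ => conc ((mon P θ a).map (aug (tt P θ m) l)))
      (fun _ _ => ⊥) :=
    ⟨hd, fun _ => hp2, fun _ _ _ _ hy => Submodule.smul_mem _ _ hy,
      fun _ _ _ _ hy => Submodule.smul_mem _ _ hy, fun a c _ y _ => by rw [hk']; exact zero_mem _⟩
  have T3 : TotOk g i (dd (tt P θ m) l) (fun _ => tw m l (mon P θ) a) (fun _ _ => ⊥) := by
    have := main_totOk_tw (b := a) (A := fun _ => mon P θ) (A' := fun _ _ => ⊥) (tt_comm θ m) hd hk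
      (fun _ => twOk_mon θ m l) (fun _ => main_twOk_bot _ m l) (fun _ _ => bot_le)
      (fun _ _ _ _ hy => Submodule.smul_mem _ _ hy) (fun _ _ _ _ hy => Submodule.smul_mem _ _ hy)
    simpa only [tw_bot] using this
  have e1 := hh_eq_of_quot_acyclic T1.isPair T2.isPair T3.isPair
    (fun n => le_antisymm ((T1.hh_le n).trans (by simp [hac])) zero_le) n
  have hq : q • mon P θ a ≤ ⊥ := by
    refine Submodule.smul_le.2 fun r hr y _ => ?_
    rw [Algebra.smul_def, h.kill _ hr, zero_mul]; exact zero_mem _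
  have T0 := totOk_conc (A := mon P θ a) (A' := ⊥) hd hsq bot_le hq
  have e2 := T0.transport T2 (aug (tt P θ m) l) (fun _ n y hy => ?_) (fun _ n y hy => ?_)
    (fun _ n y hy => ?_) (fun y => ?_) n
  · rw [main_prof_bot] at e1 e2
    rw [e1, e2, tot_zero]; rfl
  · unfold conc at hy ⊢
    split_ifs at hy ⊢
    · exact Submodule.mem_map_of_mem hy
    · simp [(Submodule.mem_bot P).1 hy]
  · have : conc (⊥ : Submodule P Λ) n = ⊥ := by simp [conc]
    rw [this, Submodule.mem_bot, Submodule.mem_bot]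
    exact map_eq_zero_iff _ (aug_injective l)
  · unfold conc at hy ⊢
    split_ifs at hy ⊢
    · obtain ⟨z, hz, rfl⟩ := hy
      exact ⟨z, hz, by simp⟩
    · exact ⟨0, zero_mem _, by simpa using hy⟩
  · simp [dd_aug (tt_comm θ m)]

omit [DecidableEq J] in
theorem main_totOk_YY (h : SplitData q x Λ θ u) {n : ℕ} (hd : Deg i g) (hi : ∀ a, i a ≤ s + 1)
    (he : Ent g (q ⊔ Ideal.span (Set.range x) ^ n)) (hsq : Ent (g * g) q) (m : ℕ)
    (l : List (Fin s)) (hl : ∀ j, j ∈ l) (a : Fin s → ℤ) {k k' : ℤ} (hk : k ≤ k')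
    (hb : ∀ j, (s : ℤ) + (s + 1) * n ≤ a j + m + k) :
    TotOk g i (dd (tt P θ m) l) (fun c => tw m l (UU P θ u (k - (i c : ℤ) * n)) a)
      (fun c => tw m l (UU P θ u (k' - (i c : ℤ) * n)) a) := by
  refine main_totOk_tw (tt_comm θ m) hd (main_kill h hsq) (fun _ => twOk_UU _ m l)
    (fun _ => twOk_UU _ m l) (fun c e => h.UU_le (by omega) fun j => ?_) (main_ent h hd he k)
    (main_ent h hd he k')
  have h1 := sh_ge (m := m) e (hl j)
  have h2 := hb j
  have h3 : (i c : ℤ) * n ≤ (s + 1) * n := by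
    have : (i c : ℤ) ≤ s + 1 := by exact_mod_cast hi c
    exact mul_le_mul_of_nonneg_right this (by positivity)
  simp only [Pi.add_apply]
  omega

omit [DecidableEq J] in
theorem main_totOk_YY_bot (h : SplitData q x Λ θ u) {n : ℕ} (hd : Deg i g)
    (he : Ent g (q ⊔ Ideal.span (Set.range x) ^ n)) (hsq : Ent (g * g) q) (m : ℕ)
    (l : List (Fin s)) (a : Fin s → ℤ) (k : ℤ) :
    IsPair (tot g i (dd (tt P θ m) l)) (YY P θ u i n m l a k) (fun _ => ⊥) := by
  have := main_totOk_tw (b := a) (A' := fun _ _ => ⊥) (tt_comm θ m) hd (main_kill h hsq)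
    (fun c => twOk_UU (u := u) (k - (i c : ℤ) * n) m l) (fun _ => main_twOk_bot _ m l)
    (fun _ _ => bot_le) (main_ent h hd he k) (fun _ _ _ _ hy => Submodule.smul_mem _ _ hy)
  have h2 := this.isPair
  simp only [tw_bot] at h2
  rw [main_prof_bot] at h2
  exact h2

omit [DecidableEq J] in
/-- the cohomology of the twisted complex outside degree zero is small -/
theorem main_Y (h : SplitData q x Λ θ u) {ρ : ℕ} {C : ℝ}
    (hp : PieceEst P θ (q ⊔ Ideal.span (Set.range x)) ρ C) {n : ℕ} (hd : Deg i g)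
    (hi : ∀ a, i a ≤ s + 1) (he : Ent g (q ⊔ Ideal.span (Set.range x) ^ n))
    (hsq : Ent (g * g) q) (m N B : ℕ) (l : List (Fin s)) (hnd : l.Nodup) (hl : ∀ j, j ∈ l)
    (a : Fin s → ℤ)
    (ha : ∀ j : Fin s, (((j : ℕ) : ℤ) + 1) * n ≤ a j ∧ a j ≤ (((j : ℕ) : ℤ) + 2) * n)
    (hm : s + (s + 1) * n + N ≤ m) (hB : (s + 1) * n + 2 * m + N ≤ B)
    (hg : ∀ k n' : ℤ, -(N : ℤ) ≤ k → ∀ z ∈ YY P θ u i n m l a (k + N) n',
      tot g i (dd (tt P θ m) l) z = 0 →
        ∃ w ∈ YY P θ u i n m l a k (n' - 1), z = tot g i (dd (tt P θ m) l) w) :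
    -((2 * s + 2) * (Fintype.card J * (C * ((B : ℝ) + 1) ^ s))) ≤
      (chi (tot g i (dd (tt P θ m) l)) (YY P θ u i n m l a 0) (fun _ => ⊥) : ℝ) := by
  have hk' : ∀ a c (y : Ix l → Λ), (g * g) a c • y = 0 :=
    fun a c y => funext fun e => main_kill h hsq a c _
  have hDD := main_tot_tot (δ := dd (tt P θ m) l) hd hk' (dd_dd (tt_comm θ m) l)
  have ha0 : ∀ j, 0 ≤ a j := fun j => le_trans (by positivity) (ha j).1
  have ha1 : ∀ j, a j ≤ (s + 1) * n := fun j => (ha j).2.trans (by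
    have : ((j : ℕ) : ℤ) + 2 ≤ s + 1 := by have := j.2; omega
    exact mul_le_mul_of_nonneg_right this (by positivity))
  have hm' : (s : ℤ) + (s + 1) * n + N ≤ m := by exact_mod_cast hm
  have hB' : ((s : ℤ) + 1) * n + 2 * m + N ≤ B := by exact_mod_cast hB
  have hin : ∀ c, 0 ≤ (i c : ℤ) * n ∧ (i c : ℤ) * n ≤ (s + 1) * n := fun c =>
    ⟨by positivity, mul_le_mul_of_nonneg_right (by exact_mod_cast hi c) (by positivity)⟩
  have hNB : (N : ℝ) ≤ (B : ℝ) + 1 := by
    have : N ≤ B + 1 := by omega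
    exact_mod_cast this
  have hC0 : 0 ≤ C * ((B : ℝ) + 1) ^ s := by have := hp.nonneg; positivity
  -- bound for a window
  have key : ∀ k n' : ℤ, -(N : ℤ) ≤ k → k ≤ 0 →
      (∀ c (r : ℕ), r < N → n' + i c ≠
        ((Finset.univ.filter fun j => a j + (k - (i c : ℤ) * n) + r < 0).card : ℤ)) →
      hh (tot g i (dd (tt P θ m) l)) (YY P θ u i n m l a k) (YY P θ u i n m l a (k + N)) n' ≠ ⊤ ∧
      ((hh (tot g i (dd (tt P θ m) l)) (YY P θ u i n m l a k)
        (YY P θ u i n m l a (k + N)) n').toNat : ℝ) ≤ Fintype.card J * (C * ((B : ℝ) + 1) ^ s) := by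
    intro k n' hk1 hk2 hcnt
    have T := main_totOk_YY h hd hi he hsq m l hl a (k := k) (k' := k + N) (by omega)
      (fun j => by have := ha0 j; omega)
    have hw := fun c => h.window hp l hnd hl B m N (k - (i c : ℤ) * n) a (fun j => by
      have := ha0 j; have := ha1 j; have := hin c; omega)
    have e : ∀ c, k + N - (i c : ℤ) * n = k - (i c : ℤ) * n + N := fun c => by ring
    have hle : hh (tot g i (dd (tt P θ m) l)) (YY P θ u i n m l a k)
        (YY P θ u i n m l a (k + N)) n' ≤ ∑ c, hh (dd (tt P θ m) l)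
          (tw m l (UU P θ u (k - (i c : ℤ) * n)) a) (tw m l (UU P θ u (k - (i c : ℤ) * n + N)) a)
            (n' + i c) := by
      refine (T.hh_le n').trans (le_of_eq (Finset.sum_congr rfl fun c _ => ?_))
      rw [e]
    have hfin := fun c => (hw c).2.1 (n' + i c)
    refine ⟨ne_top_of_le_ne_top ?_ hle, ?_⟩
    · rw [← lt_top_iff_ne_top, ENat.sum_lt_top]; exact fun c _ => lt_top_iff_ne_top.2 (hfin c)
    · refine main_toNat_le hle hfin fun c => ?_
      exact main_div (by positivity) hp.nonneg hNB ((hw c).2.2.1 _ (hcnt c))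
  have hlen : l.length = s := by
    have := List.toFinset_card_of_nodup hnd
    rw [← this, show l.toFinset = Finset.univ from Finset.eq_univ_of_forall (by simpa using hl)]
    simp
  have := neg_sum_le_chi (δ := tot g i (dd (tt P θ m) l)) (L := YY P θ u i n m l a 0)
    (L' := fun _ => ⊥) (Finset.Icc (-((s : ℤ) + 1)) s) (fun n' hn' _ => ?_)
    (Fintype.card J * (C * ((B : ℝ) + 1) ^ s)) (fun n' _ hn0 => ?_) (by positivity)
  · refine le_trans (le_of_eq ?_) this
    have : (Finset.Icc (-((s : ℤ) + 1)) s).card = 2 * s + 2 := by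
      rw [Int.card_Icc]; omega
    rw [this]; push_cast; ring
  · refine hh_of_le fun v hv => ?_
    rw [YY, mem_prof] at hv
    rw [Submodule.mem_bot]
    funext c
    have h1 := hv c
    rw [tw_eq_bot (by
      have : (i c : ℤ) ≤ s + 1 := by exact_mod_cast hi c
      rw [Finset.mem_Icc] at hn'; rw [hlen]; omega)] at h1
    exact h1
  · rcases lt_or_gt_of_ne hn0 with hneg | hpos
    · obtain ⟨k1, k2⟩ := key (-N) (n' - 1) le_rfl (by omega) (fun c r hr => by
        have := main_le_card (fun j : Fin s => a j + (-(N : ℤ) - (i c : ℤ) * n) + r < 0) (i c - 1)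
          (by have := hi c; omega) (fun j hj => by
            have h1 := (ha j).2
            have h2 : (((j : ℕ) : ℤ) + 2) * n ≤ (i c : ℤ) * n :=
              mul_le_mul_of_nonneg_right (by omega) (by positivity)
            omega)
        omega)
      rw [neg_add_cancel] at k1 k2
      have h3 := hh_bot_le_quot' (δ := tot g i (dd (tt P θ m) l)) (L := YY P θ u i n m l a (-N))
        (L' := YY P θ u i n m l a 0) (n := n') (fun z hz => hg (-N) n' le_rfl z (by
          rwa [neg_add_cancel])) hDD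
      refine le_trans ?_ k2
      exact_mod_cast ENat.toNat_le_toNat h3 k1
    · obtain ⟨k1, k2⟩ := key 0 n' (by omega) le_rfl (fun c r hr => by
        have := main_card_le (fun j : Fin s => a j + (0 - (i c : ℤ) * n) + r < 0) (i c)
          (fun j hj => by
            have h1 := (ha j).1
            by_contra h2
            have h3 : (i c : ℤ) * n ≤ (((j : ℕ) : ℤ) + 1) * n :=
              mul_le_mul_of_nonneg_right (by omega) (by positivity)
            omega)
        omega)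
      have h3 := hh_bot_le_quot (δ := tot g i (dd (tt P θ m) l)) (L := YY P θ u i n m l a 0)
        (L' := YY P θ u i n m l a (0 + N)) (n := n') (fun z hz => hg 0 n' (by omega) z hz)
        (fun y hy => by
          have := (main_totOk_YY_bot h hd he hsq m l a 0).st _ y hy
          rwa [sub_add_cancel] at this) hDD
      refine le_trans ?_ k2
      exact_mod_cast ENat.toNat_le_toNat h3 k1

omit [DecidableEq J] in
/-- comparing the twisted and the untwisted complex -/
theorem main_YW (h : SplitData q x Λ θ u) {ρ : ℕ} {C : ℝ}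
    (hp : PieceEst P θ (q ⊔ Ideal.span (Set.range x)) ρ C) {n : ℕ} (hd : Deg i g)
    (hi : ∀ a, i a ≤ s + 1) (he : Ent g (q ⊔ Ideal.span (Set.range x) ^ n))
    (hsq : Ent (g * g) q) (m B : ℕ) (l : List (Fin s)) (hnd : l.Nodup) (hl : ∀ j, j ∈ l)
    (a : Fin s → ℤ) (ha : ∀ j : Fin s, 0 ≤ a j ∧ a j ≤ (s + 1) * n)
    (hm : s + (s + 1) * n ≤ m) (hB : (s + 1) * n + 2 * m ≤ B) :
    IsPair (tot g i (dd (tt P θ m) l)) (YY P θ u i n m l a 0)
      (prof i fun _ => tw m l (mon P θ) a) ∧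
    HFin (tot g i (dd (tt P θ m) l)) (YY P θ u i n m l a 0) (prof i fun _ => tw m l (mon P θ) a) ∧
    |(chi (tot g i (dd (tt P θ m) l)) (YY P θ u i n m l a 0)
        (prof i fun _ => tw m l (mon P θ) a) : ℝ) -
      ρ * ∑ c, (-1 : ℝ) ^ i c * ∑ r ∈ Finset.range (i c * n), ∏ j, ((a j : ℝ) - r)| ≤
      Fintype.card J * (C * ((B : ℝ) + 1) ^ s) := by
  have hm' : (s : ℤ) + (s + 1) * n ≤ m := by exact_mod_cast hm
  have hB' : ((s : ℤ) + 1) * n + 2 * m ≤ B := by exact_mod_cast hB
  have hin : ∀ c, 0 ≤ (i c : ℤ) * n ∧ (i c : ℤ) * n ≤ (s + 1) * n := fun c =>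
    ⟨by positivity, mul_le_mul_of_nonneg_right (by exact_mod_cast hi c) (by positivity)⟩
  have hw := fun c => h.window hp l hnd hl B m (i c * n) (0 - (i c : ℤ) * n) a (fun j => by
    have := ha j; have := hin c; push_cast; omega)
  have e : ∀ c, 0 - (i c : ℤ) * n + ((i c * n : ℕ) : ℤ) = 0 := fun c => by push_cast; ring
  simp only [e, UU_zero] at hw
  have T : TotOk g i (dd (tt P θ m) l) (fun c => tw m l (UU P θ u (0 - (i c : ℤ) * n)) a)
      (fun _ => tw m l (mon P θ) a) := by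
    refine main_totOk_tw (A' := fun _ => mon P θ) (tt_comm θ m) hd (main_kill h hsq)
      (fun _ => twOk_UU _ m l) (fun _ => twOk_mon θ m l) (fun c e => ?_) (main_ent h hd he 0)
      (fun _ _ _ _ hy => Submodule.smul_mem _ _ hy)
    rw [← UU_zero (u := u)]
    refine h.UU_le (by have := hin c; omega) fun j => ?_
    have h1 := sh_ge (m := m) e (hl j)
    have := ha j
    have := hin c
    simp only [Pi.add_apply]
    omega
  refine ⟨T.isPair, fun n' => ne_top_of_le_ne_top ?_ (T.hh_le n'), ?_⟩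
  · rw [← lt_top_iff_ne_top, ENat.sum_lt_top]
    exact fun c _ => lt_top_iff_ne_top.2 ((hw c).2.1 _)
  · have h1 := T.chi_eq fun c => (hw c).2.1
    have h2 : chi (tot g i (dd (tt P θ m) l)) (YY P θ u i n m l a 0)
        (prof i fun _ => tw m l (mon P θ) a) = _ := h1
    rw [h2, Finset.mul_sum]
    push_cast
    rw [← Finset.sum_sub_distrib]
    refine (Finset.abs_sum_le_sum_abs _ _).trans ?_
    refine (Finset.sum_le_sum (g := fun _ => C * ((B : ℝ) + 1) ^ s) fun c _ => ?_).trans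
      (by simp)
    have hNB : ((i c * n : ℕ) : ℝ) ≤ (B : ℝ) + 1 := by
      have h3 : i c * n ≤ (s + 1) * n := Nat.mul_le_mul_right _ (hi c)
      have : i c * n ≤ B + 1 := by omega
      exact_mod_cast this
    have h3 := main_div (by positivity) hp.nonneg hNB (hw c).2.2.2
    have h4 : ∑ r ∈ Finset.range (i c * n), ∏ j, ((a j : ℝ) + ((0 - (i c : ℤ) * n : ℤ) : ℝ) + r + 1)
        = ∑ r ∈ Finset.range (i c * n), ∏ j, ((a j : ℝ) - r) := by
      rw [← Finset.sum_range_reflect]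
      refine Finset.sum_congr rfl fun r hr => Finset.prod_congr rfl fun j _ => ?_
      rw [Finset.mem_range] at hr
      rw [Nat.sub_sub, Nat.cast_sub (by omega)]
      push_cast; ring
    rw [h4] at h3
    rw [mul_left_comm, ← mul_sub, abs_mul, abs_pow, abs_neg, abs_one, one_pow, one_mul]
    convert h3 using 3

theorem main_sign_sum {J : Type*} [Fintype J] (i : J → ℕ) (h0 : ∑ a, (-1 : ℤ) ^ i a = 0)
    (S : J → ℝ) (X C : ℝ) (hS : ∀ a, i a ≠ 0 → |S a - X| ≤ C) (hS0 : ∀ a, i a = 0 → S a = 0)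
    (hC : 0 ≤ C) :
    ∑ a, (-1 : ℝ) ^ i a * S a ≤
      -(((Finset.univ.filter fun a => i a = 0).card : ℝ) * X) + Fintype.card J * C := by
  have h1 : ∑ a, (-1 : ℝ) ^ i a = 0 := by exact_mod_cast h0
  have h2 : ∀ a, (-1 : ℝ) ^ i a * S a ≤
      (-1 : ℝ) ^ i a * X - (if i a = 0 then X else 0) + C := by
    intro a
    by_cases h : i a = 0
    · simp [h, hS0 a h, hC]
    · have h3 : (-1 : ℝ) ^ i a * (S a - X) ≤ C := by
        refine (le_abs_self _).trans ?_
        rw [abs_mul, abs_pow, abs_neg, abs_one, one_pow, one_mul]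
        exact hS a h
      rw [if_neg h]; linarith
  refine (Finset.sum_le_sum fun a _ => h2 a).trans (le_of_eq ?_)
  rw [Finset.sum_add_distrib, Finset.sum_sub_distrib, ← Finset.sum_mul, h1, Finset.sum_ite]
  simp

theorem main_lemma {P : Type*} [CommRing P] [IsLocalRing P] [IsNoetherianRing P] {q : Ideal P}
    (hq : q ≠ ⊤) {s : ℕ} (x : Fin (s + 1) → P) (hx : Prim (q ⊔ Ideal.span (Set.range x)))
    (hreg : RegMod q (x 0)) {e : ℝ}
    (he : Lim (s + 1) (fun N => cl (q ⊔ Ideal.span (Set.range x) ^ N)) e)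
    {J : Type} [Fintype J] [DecidableEq J] (i : J → ℕ) (hi : ∀ a, i a ≤ s + 1) (c : ℕ) :
    ∃ (C : ℝ) (n0 : ℕ), ∀ n : ℕ, n0 ≤ n → ∀ g : Matrix J J P, Deg i g →
      Ent g (q ⊔ Ideal.span (Set.range x) ^ n) → Ent (g * g) q →
      (∀ t, Null i g q (x t ^ (c * n))) →
      ((Finset.univ.filter fun a => i a = 0).card : ℝ) * e * (n : ℝ) ^ (s + 1) - C * (n : ℝ) ^ s ≤
        (chiI i g q : ℝ) := by
  obtain ⟨Λ, _, _, θ, u, h⟩ := exists_splitData q x hreg
  obtain ⟨ρ, Cp, hp⟩ := exists_pieceEst θ hx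
  have hρ := h.rho_eq hx hp he
  obtain ⟨βa, hanc⟩ := h.anchor hx
  obtain ⟨βg, hgh⟩ := h.ghost_YY
  obtain ⟨b0, hsv⟩ := mon_sv (P := P) θ
  obtain ⟨Cw, hwin⟩ := exists_windows s
  set K : ℕ := c * (s + 1) ^ (2 * s + 2) with hK
  set E : ℕ := 3 * (s + 1) + 3 * K + 2 * (βg + s) + 1 with hE
  set C1 : ℝ := Fintype.card J * (Cp * (E : ℝ) ^ s) with hC1
  have hC1' : 0 ≤ C1 := by have := hp.nonneg; positivity
  refine ⟨((2 * s + 2) * C1 + C1 + ρ * (Fintype.card J * |Cw|)) / s.factorial, βa + b0 + 1,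
    fun n hn g hd hent hsq hnull => ?_⟩
  obtain ⟨a, ha, hsum⟩ := hwin n (by omega)
  set N : ℕ := c * n * (s + 1) ^ (2 * s + 2) with hN
  have hNK : N = K * n := by rw [hN, hK]; ring
  set m : ℕ := βg + s + (s + 1) * n + N with hm
  set B : ℕ := (s + 1) * n + 2 * m + N with hB
  set l := List.finRange s with hl
  have hnd : l.Nodup := List.nodup_finRange s
  have hmem : ∀ j, j ∈ l := List.mem_finRange
  have han : ∀ j, (n : ℤ) ≤ a j := fun j => le_trans (by
    have : (0 : ℤ) ≤ ((j : ℕ) : ℤ) * n := by positivity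
    linarith) (ha j).1
  have ha' : ∀ j, 0 ≤ a j ∧ a j ≤ (s + 1) * n := fun j => ⟨le_trans (by positivity) (han j),
    (ha j).2.trans (by
      have : ((j : ℕ) : ℤ) + 2 ≤ s + 1 := by have := j.2; omega
      exact mul_le_mul_of_nonneg_right this (by positivity))⟩
  have hBE : ((B : ℝ) + 1) ^ s ≤ (E : ℝ) ^ s * (n : ℝ) ^ s := by
    rw [← mul_pow]
    refine pow_le_pow_left₀ (by positivity) ?_ s
    have h1 : (2 * (βg + s) + 1) * 1 ≤ (2 * (βg + s) + 1) * n := Nat.mul_le_mul_left _ (by omega)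
    have : B + 1 ≤ E * n := by
      rw [hB, hm, hNK, hE]; nlinarith
    exact_mod_cast this
  have hCB : Fintype.card J * (Cp * ((B : ℝ) + 1) ^ s) ≤ C1 * (n : ℝ) ^ s := by
    rw [hC1, mul_assoc, mul_assoc]
    exact mul_le_mul_of_nonneg_left (mul_le_mul_of_nonneg_left hBE hp.nonneg) (by positivity)
  have hn' : ∀ t, ∃ c, Null i g q (x t ^ c) := fun t => ⟨_, hnull t⟩
  have heul : ∑ a, (-1 : ℤ) ^ i a = 0 := by
    refine euler_zero hd hsq (hnull 0) ?_
    rintro ⟨k, hk⟩
    rw [← pow_mul] at hk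
    generalize c * n * k = r at hk
    induction r with
    | zero => exact hq ((Ideal.eq_top_iff_one _).2 (by simpa using hk))
    | succ r ih => exact ih (hreg _ (by rwa [pow_succ'] at hk))
  have hY := main_Y h hp hd hi hent hsq m N B l hnd hmem a ha (by omega) le_rfl
    (fun k n' hk => hgh i g n (c * n) m l hmem hnd hd hi hent hsq hnull a k n' (fun j => by
      have := (ha' j).1
      have : (m : ℤ) = βg + s + (s + 1) * n + N := by rw [hm]; push_cast; ring
      omega))
  obtain ⟨p1, f1, c1⟩ := main_YW h hp hd hi hent hsq m B l hnd hmem a ha' (by omega) (by omega)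
  have hW := main_W h hd hsq m l a
    (fun j _ b hb y hy => mon_surj (le_trans (by have := (ha' j).1; omega) (hb j)) m hy)
    (fun j _ b hb y hy hy' => hsv b (fun k => le_trans (by have := han k; omega) (hb k)) j m y hy
      hy')
  have hqb : q • mon P θ a ≤ ⊥ := by
    refine Submodule.smul_le.2 fun r hr y _ => ?_
    rw [Algebra.smul_def, h.kill _ hr, zero_mul]; exact zero_mem _
  have p3 := main_totOk_YY_bot h hd hent hsq m l a 0
  have p2 := p3.lower (fun _ => bot_le) p1.le p1.st'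
  have f2 : HFin (tot g i (dd (tt P θ m) l)) (prof i fun _ => tw m l (mon P θ) a) (fun _ => ⊥) :=
    fun n' => by
      rw [hW]; exact hfin_pf_of_null hd x hx hn' (mon_fg a) hqb n'
  have c2 := chi_add p1 p2 p3 f1 f2
  rw [chi_congr hW, hanc i g hd hsq hn' heul a (fun j => by have := han j; omega)] at c2
  have c3 := main_sign_sum i heul
    (fun c => ∑ r ∈ Finset.range (i c * n), ∏ j, ((a j : ℝ) - r))
    (s.factorial * (n : ℝ) ^ (s + 1)) (|Cw| * (n : ℝ) ^ s)
    (fun c hc => (hsum (i c) (by omega) (hi c)).trans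
      (mul_le_mul_of_nonneg_right (le_abs_self _) (by positivity)))
    (fun c hc => by simp [hc]) (by positivity)
  have c4 := mul_le_mul_of_nonneg_left c3 (Nat.cast_nonneg (α := ℝ) ρ)
  have c5 := (abs_le.1 c1).2
  have c6 : (chi (tot g i (dd (tt P θ m) l)) (YY P θ u i n m l a 0) (fun _ => ⊥) : ℝ) =
      s.factorial * (chiI i g q : ℝ) + chi (tot g i (dd (tt P θ m) l)) (YY P θ u i n m l a 0)
        (prof i fun _ => tw m l (mon P θ) a) := by exact_mod_cast c2
  have hf : (0 : ℝ) < s.factorial := by exact_mod_cast s.factorial_pos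
  have c7 := mul_le_mul_of_nonneg_left hCB (show (0 : ℝ) ≤ 2 * s + 2 by positivity)
  rw [← hρ]
  refine le_of_mul_le_mul_left ?_ hf
  rw [mul_sub, ← mul_assoc (s.factorial : ℝ) (_ / _), mul_div_cancel₀ _ hf.ne']
  nlinarith

end Vale.Agent.P202
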