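import Vale.Agent.P202.AncA
import Vale.Agent.P202.Main

/-! Comparing the tower with its augmentation. -/

namespace Vale.Agent.P202

open IsLocalRing

variable {P : Type*} [CommRing P] [IsLocalRing P] [IsNoetherianRing P] {Λ : Type*} [CommRing Λ]
  [Algebra P Λ] {s : ℕ} {y : Fin (s + 1) → P} {θ : Fin s → Λ} {u : Λˣ} {J : Type} [Fintype J]
  [DecidableEq J] {i : J → ℕ} {g : Matrix J J P} {r : P} {L M : ℕ}

theorem augr_idx {R : Type*} [CommRing R] {E : Type*} [AddCommGroup E] [Module R E] {σ : Type}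
    (t : σ → Module.End R E) (l : List σ) : ∃ e : Ix l, dg l e = 0 ∧ ∀ x, aug t l x e = x := by
  induction l with
  | nil => exact ⟨(), rfl, fun _ => rfl⟩
  | cons j l ih =>
    obtain ⟨e, h1, h2⟩ := ih
    refine ⟨((0 : Fin 3), e), by simp [dg, h1], fun x => ?_⟩
    rw [aug_cons]
    exact h2 x

theorem augr_prof_sup {R : Type*} [CommRing R] {E : Type*} [AddCommGroup E] [Module R E]
    {K : Type*} {d : K → ℕ} (X Y : K → ℤ → Submodule R E) (n : ℤ) :
    prof d X n ⊔ prof d Y n = prof d (fun a n => X a n ⊔ Y a n) n := by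
  refine le_antisymm (sup_le (fun v hv => mem_prof.2 fun a => Submodule.mem_sup_left
    (mem_prof.1 hv a)) fun v hv => mem_prof.2 fun a => Submodule.mem_sup_right (mem_prof.1 hv a))
    fun v hv => ?_
  choose x hx z hz e using fun a => Submodule.mem_sup.1 (mem_prof.1 hv a)
  exact Submodule.mem_sup.2 ⟨x, mem_prof.2 hx, z, mem_prof.2 hz, funext e⟩

theorem CMS.aug_strict (h : CMS y Λ θ u) (m : ℕ) (l : List (Fin s)) {a : Fin s → ℤ}
    (ha : ∀ j, (s : ℤ) ≤ a j) {k : ℤ} (hk : 0 ≤ k) {z : Λ} (hz : z ∈ UU P θ u 0 a)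
    (hz' : aug (tt P θ m) l z ∈ tw m l (UU P θ u k) a 0) : z ∈ UU P θ u k a := by
  obtain ⟨e, h1, h2⟩ := augr_idx (tt P θ m) l
  have h3 := (mem_tw.1 hz' e).1 (by rw [h1]; rfl)
  rw [h2] at h3
  exact h.strict (k := 0) (fun j => by have := ha j; omega)
    (le_add_of_nonneg_right fun j => sh_nonneg e j) hk ⟨hz, h3⟩

theorem CMS.aug_ac (h : CMS y Λ θ u) (m : ℕ) (l : List (Fin s)) {a : Fin s → ℤ}
    (ha : ∀ j, (s : ℤ) ≤ a j) {k : ℤ} (hk : 0 ≤ k) :
    IsPair (dd (tt P θ m) l) (tw m l (UU P θ u k) a)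
      (conc ((UU P θ u k a).map (aug (tt P θ m) l))) ∧
    ∀ n, hh (dd (tt P θ m) l) (tw m l (UU P θ u k) a)
      (conc ((UU P θ u k a).map (aug (tt P θ m) l))) n = 0 :=
  aug_acyclic (tt_comm θ m) (twOk_UU k m l)
    (fun j _ c hc _ hx => MainA_surj (by have := ha j; have : a j ≤ c j := hc j; omega) m hx)
    fun j _ c hc _ hx hx' =>
      h.anca_sv (fun t => by have := ha t; have : a t ≤ c t := hc t; omega) j m hx hx'

omit [IsNoetherianRing P] in
theorem CMS.tw_le (h : CMS y Λ θ u) (m : ℕ) (l : List (Fin s)) {a : Fin s → ℤ}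
    (ha : ∀ j, (s : ℤ) ≤ a j) {k k' : ℤ} (hk : 0 ≤ k) (hkk : k ≤ k') (n : ℤ) :
    tw m l (UU P θ u k') a n ≤ tw m l (UU P θ u k) a n :=
  tw_mono (fun e => h.split.UU_le hkk fun j => by
    have := ha j; have := sh_nonneg (m := m) e j; rw [Pi.add_apply]; omega) n

/-- the tower modulo the augmentation is acyclic on every window -/
theorem CMS.aug_window (h : CMS y Λ θ u) (m : ℕ) {l : List (Fin s)} (hl : ∀ j, j ∈ l)
    {a : Fin s → ℤ} (ha : ∀ j, (s : ℤ) ≤ a j) {k : ℤ} (hk : 0 ≤ k) :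
    IsPair (dd (tt P θ m) l) (tw m l (UU P θ u 0) a)
      (fun n => conc ((UU P θ u 0 a).map (aug (tt P θ m) l)) n ⊔ tw m l (UU P θ u k) a n) ∧
    ∀ n, hh (dd (tt P θ m) l) (tw m l (UU P θ u 0) a)
      (fun n => conc ((UU P θ u 0 a).map (aug (tt P θ m) l)) n ⊔ tw m l (UU P θ u k) a n) n = 0 := by
  obtain ⟨p3, a3⟩ := h.aug_ac m l ha le_rfl
  obtain ⟨p4, a4⟩ := h.aug_ac m l ha hk
  have h1 : ∀ n, conc ((UU P θ u 0 a).map (aug (tt P θ m) l)) n ⊔ tw m l (UU P θ u k) a n ≤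
      tw m l (UU P θ u 0) a n := fun n => sup_le (p3.le n) (h.tw_le m l ha le_rfl hk n)
  have h2 : ∀ n, ∀ x ∈ conc ((UU P θ u 0 a).map (aug (tt P θ m) l)) n ⊔ tw m l (UU P θ u k) a n,
      dd (tt P θ m) l x ∈ conc ((UU P θ u 0 a).map (aug (tt P θ m) l)) (n + 1) ⊔
        tw m l (UU P θ u k) a (n + 1) := by
    intro n x hx
    obtain ⟨b, hb, b', hb', rfl⟩ := Submodule.mem_sup.1 hx
    rw [map_add]
    exact Submodule.add_mem_sup (p3.st' n b hb) (p4.st n b' hb')
  have p1 := p3.upper (L' := fun n => conc ((UU P θ u 0 a).map (aug (tt P θ m) l)) n ⊔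
    tw m l (UU P θ u k) a n) (fun n => le_sup_left) h1 h2
  have p2 := p3.lower (L' := fun n => conc ((UU P θ u 0 a).map (aug (tt P θ m) l)) n ⊔
    tw m l (UU P θ u k) a n) (fun n => le_sup_left) h1 h2
  refine ⟨p1, fun n => le_antisymm ((hh_quot_le p1 p2 p3 n).trans ?_) zero_le⟩
  have := hh_transport (δ' := dd (tt P θ m) l)
    (K := fun n => conc ((UU P θ u 0 a).map (aug (tt P θ m) l)) n ⊔ tw m l (UU P θ u k) a n)
    (K' := conc ((UU P θ u 0 a).map (aug (tt P θ m) l))) p4 LinearMap.id 0 1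
    (fun n x hx => by rw [add_zero]; exact Submodule.mem_sup_right hx) (fun n x hx => ?_)
    (fun n z hz => by
      rw [add_zero] at hz ⊢
      obtain ⟨b, hb, b', hb', rfl⟩ := Submodule.mem_sup.1 hz
      exact ⟨b', hb', by simpa using hb⟩)
    (fun n x _ => by simp) p3.st' (n + 1)
  · rw [add_zero] at this
    rw [this, a3, a4, add_zero]
  · rw [add_zero, LinearMap.id_apply]
    unfold conc
    split_ifs with h0
    · subst h0
      refine ⟨?_, fun hx' => Submodule.map_mono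
        (h.split.UU_le hk fun j => by have := ha j; omega) hx'⟩
      rintro ⟨z, hz, rfl⟩
      exact ⟨z, h.aug_strict m l ha hk hz hx, rfl⟩
    · rfl

theorem CMS.aug_apx (h : CMS y Λ θ u) (hA : Apx y r i g L M) (m : ℕ) {l : List (Fin s)}
    (hl : ∀ j, j ∈ l) (hnd : l.Nodup) {a : Fin s → ℤ} {B : ℕ}
    (ha : ∀ j, (s : ℤ) ≤ a j ∧ a j + 2 * m ≤ B) {c0 G : ℕ}
    (hG : 2 * (M * (s + 1) ^ (2 * s + 2)) ≤ G)
    (hL : c0 + G * (2 * s + 4) + M * (s + 1) ^ (2 * s + 2) ≤ L) :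
    |(chi (tot g i (dd (tt P θ m) l)) (YY P θ u i 0 m l a 0)
        (dp (tot g i (dd (tt P θ m) l)) (YY P θ u i 0 m l a) (lv c0 G (-((s : ℤ) + 1)))) : ℝ) -
      fV θ u i g c0 G a| ≤ 3 ^ s * eV y r J L B := by
  have ha1 : ∀ j, (s : ℤ) ≤ a j := fun j => (ha j).1
  have hY : ∀ k : ℤ, YY P θ u i 0 m l a k = prof i fun _ => tw m l (UU P θ u k) a := fun k => by
    simp [YY]
  have hD : ∀ x : J → Λ, tot g i (dd (tt P θ m) l) ((aug (tt P θ m) l).compLeft J x) =
      (aug (tt P θ m) l).compLeft J (act g x) := fun x => by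
    rw [← anca_act]
    funext c
    rw [tot_apply, act_apply, LinearMap.compLeft_apply, Function.comp_apply,
      dd_aug (tt_comm θ m), smul_zero, add_zero]
  have hinj : Function.Injective ((aug (tt P θ m) l).compLeft J) := fun x x' e =>
    funext fun c => aug_injective l (congrFun e c)
  have F := h.filtSys_YY hA (ν := 0) (L' := L) (fun _ _ => by simp) (by omega) m hl hnd a 0
    fun j => by have := ha j; omega
  have F' := (h.filtSys_VV hA a 0 fun j => by have := ha j; omega).map _ hinj hD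
  have hL' : (c0 : ℤ) + G * ((s : ℤ) - -((s : ℤ) + 1) + 3) +
      (M * (s + 1) ^ (2 * s + 2) : ℕ) ≤ 0 + L := by
    rw [show (s : ℤ) - -((s : ℤ) + 1) + 3 = ((2 * s + 4 : ℕ) : ℤ) by push_cast; ring, zero_add]
    exact_mod_cast hL
  have h1 := F.chi_al F' (fun k n _ => ?_) (fun k n hk => ?_) (h.anca_fin L)
    (ng_YY B 0 m hnd fun j => by have := ha j; omega)
    (fun n => ((ng_VV B (fun j => by have := ha j; omega) n).map _).mono
      (Nat.mul_le_mul_left _ (Nat.le_mul_of_pos_left _ (by positivity))))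
    (c0 := c0) (c1 := c0) (G := G) (by omega) le_rfl (by omega) hL' (by omega)
  · rw [F.chi_mid_zero (by omega) (by omega) (by omega) fun k n hk hkL => ?_,
      chi_dp_map _ hD ⊤ (fun _ _ => trivial) (fun x _ e => (map_eq_zero_iff _ hinj).1 e) _ _
        (fun _ => le_top) fun _ => le_top] at h1
    · rw [Int.cast_zero, sub_zero] at h1
      refine h1.trans_eq ?_
      unfold eV
      push_cast
      ring
    · obtain ⟨q1, q2⟩ := h.aug_window m hl ha1 hk
      have T : TotOk g i (dd (tt P θ m) l) (fun _ => tw m l (UU P θ u 0) a) (fun _ n =>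
          conc ((UU P θ u 0 a).map (aug (tt P θ m) l)) n ⊔ tw m l (UU P θ u k) a n) :=
        ⟨hA.deg, fun _ => q1, fun _ _ _ x hx => Submodule.smul_mem _ _ hx,
          fun _ _ _ x hx => Submodule.smul_mem _ _ hx, fun b c n x hx =>
            Submodule.mem_sup_right (h.tw_le m l ha1 hk hkL n (mem_tw.2 fun e =>
              ⟨fun e' => h.split.smul_UU (Ideal.mem_sup_right (hA.sq b c)) ((mem_tw.1 hx e).1 e'),
                fun e' => by rw [Pi.smul_apply, (mem_tw.1 hx e).2 e', smul_zero]⟩))⟩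
      have h2 := T.hh_le n
      simp only [q2, Finset.sum_const_zero] at h2
      have e : (fun n => (VV P θ u i a 0 n).map ((aug (tt P θ m) l).compLeft J) ⊔
          YY P θ u i 0 m l a k n) = prof i fun _ n =>
          conc ((UU P θ u 0 a).map (aug (tt P θ m) l)) n ⊔ tw m l (UU P θ u k) a n := by
        funext n
        rw [VV, anca_map, hY, pf, augr_prof_sup]
      rw [e, hY]
      exact le_antisymm h2 zero_le
  · rintro _ ⟨v, hv, rfl⟩
    rw [hY]
    refine mem_prof.2 fun c => ?_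
    rw [LinearMap.compLeft_apply, Function.comp_apply]
    by_cases e : n + i c = 0
    · rw [e]; exact aug_mem (twOk_UU k m l) ((mem_pf.1 hv c).1 e)
    · rw [(mem_pf.1 hv c).2 e, map_zero]; exact zero_mem _
  · rintro _ ⟨⟨v, hv, rfl⟩, hv'⟩
    rw [hY] at hv'
    refine ⟨v, mem_pf.2 fun c => ⟨fun e => h.aug_strict m l ha1 hk ((mem_pf.1 hv c).1 e) ?_,
      (mem_pf.1 hv c).2⟩, rfl⟩
    have := mem_prof.1 hv' c
    rwa [e] at this

end Vale.Agent.P202
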