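import Vale.Agent.P202.RGY
import Vale.Agent.P202.Main

/-! Exact computations with the twisted complex. -/

namespace Vale.Agent.P202

open IsLocalRing

variable {P : Type*} [CommRing P] [IsLocalRing P] [IsNoetherianRing P] {Λ : Type*} [CommRing Λ]
  [Algebra P Λ] {s : ℕ} {y : Fin (s + 1) → P} {θ : Fin s → Λ} {u : Λˣ} {J : Type} [Fintype J]
  [DecidableEq J] {i : J → ℕ} {g : Matrix J J P} {r : P} {L M : ℕ}

omit [IsNoetherianRing P] [DecidableEq J] [Fintype J] in
theorem CMS.YY_le (h : CMS y Λ θ u) (hi : ∀ a, i a ≤ s + 1) (n m : ℕ) {l : List (Fin s)}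
    (hl : ∀ j, j ∈ l) {a : Fin s → ℤ} (ha : ∀ j, 0 ≤ a j) (hm : s + (s + 1) * n ≤ m) {k : ℤ}
    (hk : 0 ≤ k) (n' : ℤ) :
    YY P θ u i 0 m l a k n' ≤ YY P θ u i n m l a k n' ∧
      YY P θ u i n m l a (k + ((s + 1) * n : ℕ)) n' ≤ YY P θ u i 0 m l a k n' := by
  have hm' : (s : ℤ) + (s + 1) * n ≤ m := by exact_mod_cast hm
  have hin : ∀ c, 0 ≤ (i c : ℤ) * n ∧ (i c : ℤ) * n ≤ (s + 1) * n := fun c =>
    ⟨by positivity, mul_le_mul_of_nonneg_right (by exact_mod_cast hi c) (by positivity)⟩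
  refine ⟨fun v hv => MainA_mem.2 fun c e => ⟨fun he => h.split.UU_le ?_ (fun j => ?_)
    ((MainA_mem.1 hv c e).1 he), (MainA_mem.1 hv c e).2⟩,
    fun v hv => MainA_mem.2 fun c e => ⟨fun he => h.split.UU_le ?_ (fun j => ?_)
    ((MainA_mem.1 hv c e).1 he), (MainA_mem.1 hv c e).2⟩⟩
  all_goals have := hin c
  · push_cast; omega
  · have := sh_ge (m := m) e (hl j); have := ha j; rw [Pi.add_apply]; omega
  · push_cast; omega
  · have := sh_ge (m := m) e (hl j); have := ha j; rw [Pi.add_apply]; push_cast; omega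

omit [IsNoetherianRing P] in
theorem CMS.totOk (h : CMS y Λ θ u) (hA : Apx y r i g L M) {ν ν' : ℕ}
    (he : Ent g (Ideal.span (Set.range y) ^ ν)) (he' : Ent g (Ideal.span (Set.range y) ^ ν'))
    (m : ℕ) (l : List (Fin s)) (a : Fin s → ℤ) (k k' : ℤ)
    (hle : ∀ c, k - (i c : ℤ) * ν ≤ k' - (i c : ℤ) * ν')
    (adm : ∀ c e j, (s : ℤ) ≤ (a + sh m l e) j + (k - (i c : ℤ) * ν))
    (hsq : ∀ c c', i c' = i c + 2 → k' - (i c : ℤ) * ν' ≤ k - (i c' : ℤ) * ν + L) :
    TotOk g i (dd (tt P θ m) l) (fun c => tw m l (UU P θ u (k - (i c : ℤ) * ν)) a)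
      (fun c => tw m l (UU P θ u (k' - (i c : ℤ) * ν')) a) where
  deg := hA.deg
  pair c := isPair_tw (tt_comm θ m) (twOk_UU _ m l) (twOk_UU _ m l) fun e =>
    h.split.UU_le (hle c) (adm c e)
  ent c c' n x hx := by
    rw [mem_tw] at hx ⊢
    exact fun e => ⟨fun h' => main_ent h.split hA.deg (by rwa [bot_sup_eq]) _ _ _ _ _ ((hx e).1 h'),
      fun h' => by simp [(hx e).2 h']⟩
  ent' c c' n x hx := by
    rw [mem_tw] at hx ⊢
    exact fun e => ⟨fun h' => main_ent h.split hA.deg (by rwa [bot_sup_eq]) _ _ _ _ _ ((hx e).1 h'),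
      fun h' => by simp [(hx e).2 h']⟩
  sq c c' n x hx := by
    by_cases h0 : (g * g) c c' = 0
    · rw [h0, zero_smul]; exact zero_mem _
    obtain ⟨d, -, h1⟩ := Finset.exists_ne_zero_of_sum_ne_zero h0
    have h2 := hA.deg c d (left_ne_zero_of_mul h1)
    have h3 := hA.deg d c' (right_ne_zero_of_mul h1)
    rw [mem_tw] at hx ⊢
    exact fun e => ⟨fun h' => h.split.UU_le (hsq c c' (by omega))
      (fun j => by have := adm c e j; have := hle c; omega)
      (h.split.smul_UU (Ideal.mem_sup_right (hA.sq c c')) ((hx e).1 h')),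
      fun h' => by simp [(hx e).2 h']⟩

theorem yr_bound {s : ℕ} (a : Fin s → ℤ) (c : ℕ) : ∃ B : ℕ, ∀ j, a j + c ≤ B :=
  ⟨∑ j, (a j).toNat + c, fun j => by
    have := Finset.single_le_sum (f := fun j => (a j).toNat) (fun _ _ => Nat.zero_le _)
      (Finset.mem_univ j)
    omega⟩

theorem CMS.chi_YX (h : CMS y Λ θ u) (hA : Apx y r i g L M) {n : ℕ}
    (hent : Ent g (Ideal.span (Set.range y) ^ n)) (m : ℕ) {l : List (Fin s)} (hl : ∀ j, j ∈ l)
    (hnd : l.Nodup) {a : Fin s → ℤ} (ha : ∀ j, 0 ≤ a j) (hm : s + (s + 1) * n ≤ m)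
    (hL : (s + 1) * n ≤ L) :
    (chi (tot g i (dd (tt P θ m) l)) (YY P θ u i n m l a 0) (YY P θ u i 0 m l a 0) : ℝ) =
      cl (Ideal.span (Set.range y)) *
        ∑ c, (-1 : ℝ) ^ i c * ∑ r ∈ Finset.range (i c * n), ∏ j, ((a j : ℝ) - r) := by
  have hm' : (s : ℤ) + (s + 1) * n ≤ m := by exact_mod_cast hm
  have hL' : ((s : ℤ) + 1) * n ≤ L := by exact_mod_cast hL
  have hin : ∀ c, 0 ≤ (i c : ℤ) * n ∧ (i c : ℤ) * n ≤ (s + 1) * n := fun c =>
    ⟨by positivity, mul_le_mul_of_nonneg_right (by exact_mod_cast hA.le c) (by positivity)⟩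
  obtain ⟨B, hB⟩ := yr_bound a (2 * m)
  have hw := fun c => h.split.window h.pieceEst l hnd hl B m (i c * n) (0 - (i c : ℤ) * n) a
    (fun j => by have := ha j; have := hin c; have := hB j; push_cast at *; omega)
  have e : ∀ c, 0 - (i c : ℤ) * n + ((i c * n : ℕ) : ℤ) = 0 - (i c : ℤ) * (0 : ℕ) := fun c => by
    push_cast; ring
  simp only [e] at hw
  have T := h.totOk hA hent (ν' := 0) (fun _ _ => by simp) m l a 0 0
    (fun c => by have := hin c; push_cast; omega)
    (fun c e j => by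
      have := sh_ge (m := m) e (hl j); have := ha j; have := hin c; rw [Pi.add_apply]; omega)
    (fun c c' _ => by have := hin c'; push_cast; omega)
  have h2 : chi (tot g i (dd (tt P θ m) l)) (YY P θ u i n m l a 0) (YY P θ u i 0 m l a 0) = _ :=
    T.chi_eq fun c => (hw c).2.1
  rw [h2, Finset.mul_sum]
  push_cast
  refine Finset.sum_congr rfl fun c _ => ?_
  have h3 := (hw c).2.2.2
  rw [zero_mul, mul_zero] at h3
  have h5 := sub_eq_zero.1 (abs_nonpos_iff.1 (nonpos_of_mul_nonpos_left h3 (by positivity)))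
  have h4 : ∑ r ∈ Finset.range (i c * n), ∏ j, ((a j : ℝ) + ((0 - (i c : ℤ) * n : ℤ) : ℝ) + r + 1)
      = ∑ r ∈ Finset.range (i c * n), ∏ j, ((a j : ℝ) - r) := by
    rw [← Finset.sum_range_reflect]
    refine Finset.sum_congr rfl fun r hr => Finset.prod_congr rfl fun j _ => ?_
    rw [Finset.mem_range] at hr
    rw [Nat.sub_sub, Nat.cast_sub (by omega)]
    push_cast; ring
  rw [h4] at h5
  rw [mul_left_comm, cl, ← h5]
  simp

theorem CMS.hh_window (h : CMS y Λ θ u) (hA : Apx y r i g L M) {n : ℕ}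
    (hent : Ent g (Ideal.span (Set.range y) ^ n)) (m N : ℕ) {l : List (Fin s)} (hl : ∀ j, j ∈ l)
    (hnd : l.Nodup) {a : Fin s → ℤ}
    (ha : ∀ j : Fin s, (((j : ℕ) : ℤ) + 1) * n ≤ a j ∧ a j ≤ (((j : ℕ) : ℤ) + 2) * n)
    (hm : s + (s + 1) * n + N ≤ m) (hL : N + 2 * n ≤ L) :
    (∀ n', 0 < n' →
      hh (tot g i (dd (tt P θ m) l)) (YY P θ u i n m l a 0) (YY P θ u i n m l a N) n' = 0) ∧
    ∀ n', n' < -1 →
      hh (tot g i (dd (tt P θ m) l)) (YY P θ u i n m l a (-(N : ℤ))) (YY P θ u i n m l a 0) n' = 0 := by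
  have hi := hA.le
  have ha0 : ∀ j, 0 ≤ a j := fun j => le_trans (by positivity) (ha j).1
  have hm' : (s : ℤ) + (s + 1) * n + N ≤ m := by exact_mod_cast hm
  have hL' : (N : ℤ) + 2 * n ≤ L := by exact_mod_cast hL
  have hin : ∀ c, 0 ≤ (i c : ℤ) * n ∧ (i c : ℤ) * n ≤ (s + 1) * n := fun c =>
    ⟨by positivity, mul_le_mul_of_nonneg_right (by exact_mod_cast hi c) (by positivity)⟩
  obtain ⟨B, hB⟩ := yr_bound a (2 * m + N)
  have key : ∀ k n' : ℤ, -(N : ℤ) ≤ k → k ≤ 0 →
      (∀ c (r : ℕ), r < N → n' + i c ≠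
        ((Finset.univ.filter fun j => a j + (k - (i c : ℤ) * n) + r < 0).card : ℤ)) →
      hh (tot g i (dd (tt P θ m) l)) (YY P θ u i n m l a k) (YY P θ u i n m l a (k + N)) n' = 0 := by
    intro k n' hk1 hk2 hcnt
    have T := h.totOk hA hent hent m l a k (k + N) (fun c => by omega)
      (fun c e j => by
        have := sh_ge (m := m) e (hl j); have := ha0 j; have := hin c; rw [Pi.add_apply]; omega)
      (fun c c' e => by rw [e]; push_cast; rw [add_mul]; omega)
    have hw := fun c => h.split.window h.pieceEst l hnd hl B m N (k - (i c : ℤ) * n) a (fun j => by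
      have := ha0 j; have := hB j; have := hin c; push_cast at *; omega)
    refine le_antisymm ((T.hh_le n').trans (Finset.sum_eq_zero fun c _ => ?_).le) zero_le
    have h3 := (hw c).2.2.1 _ (hcnt c)
    rw [zero_mul, mul_zero] at h3
    have h4 := nonpos_of_mul_nonpos_left h3 (by positivity)
    rw [add_sub_right_comm]
    exact (ENat.toNat_eq_zero.1 (by exact_mod_cast le_antisymm h4 (by positivity))).resolve_right
      ((hw c).2.1 _)
  refine ⟨fun n' hpos => ?_, fun n' hneg => ?_⟩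
  · simpa using key 0 n' (by omega) le_rfl (fun c r hr => by
      have := main_card_le (fun j : Fin s => a j + (0 - (i c : ℤ) * n) + r < 0) (i c)
        (fun j hj => by
          have h1 := (ha j).1
          by_contra h2
          have h3 : (i c : ℤ) * n ≤ (((j : ℕ) : ℤ) + 1) * n :=
            mul_le_mul_of_nonneg_right (by omega) (by positivity)
          omega)
      omega)
  · simpa using key (-N) n' le_rfl (by omega) (fun c r hr => by
      have := main_le_card (fun j : Fin s => a j + (-(N : ℤ) - (i c : ℤ) * n) + r < 0) (i c - 1)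
        (by have := hi c; omega) (fun j hj => by
          have h1 := (ha j).2
          have h2 : (((j : ℕ) : ℤ) + 2) * n ≤ (i c : ℤ) * n :=
            mul_le_mul_of_nonneg_right (by omega) (by positivity)
          omega)
      omega)

end Vale.Agent.P202
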