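import Vale.Agent.P202.AncR
import Vale.Agent.P202.AugR
import Vale.Agent.P202.YR

/-! The approximate main lemma. -/

namespace Vale.Agent.P202

open IsLocalRing

universe u

theorem aml_reg {P : Type*} [CommRing P] [IsLocalRing P] {s : ℕ} {y : Fin (s + 1) → P}
    (hcm : IsCM P (s + 1)) (hy : ∀ t, y t ∈ maximalIdeal P)
    (hp : Prim (Ideal.span (Set.range y))) : RegMod ⊥ (y 0) := by
  have h := hcm (List.ofFn y) (by simp) (fun a ha => by
    obtain ⟨t, rfl⟩ := List.mem_ofFn.1 ha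
    exact hy t) (hp.mono (Ideal.span_mono (by
      rintro _ ⟨t, rfl⟩
      exact List.mem_ofFn.2 ⟨t, rfl⟩)))
  rw [List.ofFn_succ] at h
  exact h.1

theorem aml (s : ℕ) (J : Type) [Fintype J] [DecidableEq J] :
    ∃ C1 : ℝ, ∀ n M : ℕ, s ≤ n → 1 ≤ n → ∃ (L0 : ℕ) (C2 : ℝ), 0 ≤ C2 ∧ ∀ L, L0 ≤ L →
      ∀ (i : J → ℕ) (a0 : J), (∀ a, i a = 0 ↔ a = a0) → ∑ a, (-1 : ℤ) ^ i a = 0 →
      ∀ (P : Type u) [CommRing P] [IsLocalRing P] [IsNoetherianRing P] (y : Fin (s + 1) → P)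
        (r : P) (g : Matrix J J P), IsCM P (s + 1) → (∀ t, y t ∈ maximalIdeal P) →
        Prim (Ideal.span (Set.range y)) → Apx y r i g L M → Ent g (Ideal.span (Set.range y) ^ n) →
        cl (Ideal.span (Set.range y)) * ((n : ℝ) ^ (s + 1) - C1 * (n : ℝ) ^ s) ≤
          cl (Ideal.span (Set.range (g a0)) ⊔ Ideal.span (Set.range y) ^ L) +
            C2 * cl (Ideal.span (Set.range y) ^ L ⊔ Ideal.span {r}) := by
  obtain ⟨Cw, hwin⟩ := exists_windows s
  refine ⟨Fintype.card J * |Cw| / s.factorial, fun n M hsn hn => ?_⟩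
  obtain ⟨a, ha, hsum⟩ := hwin n hn
  have han : ∀ j, (n : ℤ) ≤ a j := fun j => le_trans (by
    have : (0 : ℤ) ≤ ((j : ℕ) : ℤ) * n := by positivity
    linarith) (ha j).1
  have ha1 : ∀ j, a j ≤ (s + 1) * n := fun j => (ha j).2.trans (by
    have : ((j : ℕ) : ℤ) + 2 ≤ s + 1 := by have := j.2; omega
    exact mul_le_mul_of_nonneg_right this (by positivity))
  have has : ∀ j, (s : ℤ) ≤ a j := fun j => le_trans (by exact_mod_cast hsn) (han j)
  have ha0 : ∀ j, 0 ≤ a j := fun j => le_trans (by positivity) (han j)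
  obtain ⟨Ca, hCa, hanc⟩ := anchor_apx.{u, u} a has
  obtain ⟨N, hN⟩ : ∃ N, N = M * (s + 1) ^ (2 * s + 2) := ⟨_, rfl⟩
  obtain ⟨S, hS⟩ : ∃ S, S = (s + 1) * n := ⟨_, rfl⟩
  obtain ⟨m, hm⟩ : ∃ m, m = s + S + N := ⟨_, rfl⟩
  obtain ⟨B, hB⟩ : ∃ B, B = S + 2 * m := ⟨_, rfl⟩
  obtain ⟨G, hG⟩ : ∃ G, G = 2 * N + S := ⟨_, rfl⟩
  obtain ⟨H, hH⟩ : ∃ H, H = G * (2 * s + 4) := ⟨_, rfl⟩
  have hS' : (S : ℤ) = (s + 1) * n := by rw [hS]; push_cast; ring
  have hf : (0 : ℝ) < s.factorial := by exact_mod_cast s.factorial_pos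
  refine ⟨2 * n + s + 1 + H + S + N,
    ((2 * s + 2) * (((s + 1) ^ (2 * s + 2) : ℕ) * (Fintype.card J * (3 ^ s * (B + 1) ^ s) : ℕ)) +
      3 ^ s * ((2 * s + 2) * (2 * ((s : ℝ) + 1) ^ (2 * s + 2) *
        (Fintype.card J * ((B : ℝ) + 1) ^ s))) + Ca * Fintype.card J) / s.factorial,
    by positivity, fun L hL i a0 ha0' heul P _ _ _ y r g hcm hy hp hA hent => ?_⟩
  obtain ⟨Λ, _, _, θ, u, hsp⟩ := exists_splitData ⊥ y (aml_reg hcm hy hp)
  have h : CMS y Λ θ u := ⟨hsp, hcm, hy, hp⟩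
  set l := List.finRange s with hl
  have hnd : l.Nodup := List.nodup_finRange s
  have hmem : ∀ j, j ∈ l := List.mem_finRange
  have hY := h.filtSys_YY hA hent (L' := L - 2 * n) (by omega) m hmem hnd a (-(N : ℤ)) (fun j => by
    have := ha0 j; omega)
  have hX := h.filtSys_YY hA (ν := 0) (fun _ _ => by simp) (L' := L - 2 * n) (by omega) m hmem hnd
    a 0 (fun j => by have := ha0 j; simp only [Nat.cast_zero, mul_zero]; omega)
  rw [← hN] at hX hY
  have hw := h.hh_window hA hent m N hmem hnd ha (by omega) (by omega)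
  have hb : rl (Ideal.span (Set.range y) ^ L) (⊤ : Ideal P) ≠ ⊤ := by
    have := Prim.sup_pow (q := ⊥) (W := Ideal.span (Set.range y)) (by rwa [bot_sup_eq]) L
    rw [bot_sup_eq] at this
    exact rl_ne_top_of_prim this
  have c1 := hY.chi_twist hX (S := S)
    (fun k n' hk => (h.YY_le hA.le n m hmem ha0 (by omega) hk n').1)
    (fun k n' hk => hS ▸ (h.YY_le hA.le n m hmem ha0 (by omega) hk n').2) hw.1 hw.2 hb
    (fun n' => ng_YY B n m hnd (fun j => by have := ha1 j; omega) n') (c0 := ((0 : ℕ) : ℤ))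
    (G := (G : ℤ)) (by simp) (by omega) (by
      have : (G : ℤ) * (s - -((s : ℤ) + 1) + 3) = H := by rw [hH]; push_cast; ring
      rw [this]; omega) (by omega)
  have c2 := h.chi_YX hA hent m hmem hnd ha0 (by omega) (by omega)
  have c3 := main_sign_sum i heul
    (fun c => ∑ r ∈ Finset.range (i c * n), ∏ j, ((a j : ℝ) - r))
    (s.factorial * (n : ℝ) ^ (s + 1)) (|Cw| * (n : ℝ) ^ s)
    (fun c hc => (hsum (i c) (by omega) (hA.le c)).trans
      (mul_le_mul_of_nonneg_right (le_abs_self _) (by positivity)))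
    (fun c hc => by simp [hc]) (by positivity)
  have hcard : (Finset.univ.filter fun a => i a = 0).card = 1 := by
    rw [Finset.card_eq_one]
    exact ⟨a0, by ext a; simp [ha0']⟩
  rw [hcard] at c3
  have c4 := mul_le_mul_of_nonneg_left c3
    (show 0 ≤ cl (Ideal.span (Set.range y)) from Nat.cast_nonneg _)
  have c5 := (abs_le.1 (h.aug_apx hA m hmem hnd (B := B) (c0 := 0) (G := G)
    (fun j => ⟨has j, by have := ha1 j; omega⟩) (by omega) (by omega))).2
  have c6 := hanc P Λ y θ u J i g r L M a0 0 G h hA heul ha0' (by omega) (by omega)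
  rw [eV] at c5
  rw [c2] at c1
  refine le_of_mul_le_mul_left ?_ hf
  rw [mul_add, ← mul_assoc (s.factorial : ℝ) (_ / _), mul_div_cancel₀ _ hf.ne']
  have e1 : (s.factorial : ℝ) * (cl (Ideal.span (Set.range y)) * ((n : ℝ) ^ (s + 1) -
      Fintype.card J * |Cw| / s.factorial * (n : ℝ) ^ s)) = cl (Ideal.span (Set.range y)) *
      (s.factorial * (n : ℝ) ^ (s + 1) - Fintype.card J * (|Cw| * (n : ℝ) ^ s)) := by
    field_simp
  rw [e1]
  push_cast at c1 c4 c5 c6 ⊢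
  linarith

end Vale.Agent.P202
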