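import Vale.Agent.P202.RGY
import Vale.Agent.P202.Deep

/-! The three approximate relations for the untwisted Euler characteristic. -/

namespace Vale.Agent.P202

open IsLocalRing

variable {P : Type*} [CommRing P] [IsLocalRing P] [IsNoetherianRing P] {Λ : Type*} [CommRing Λ]
  [Algebra P Λ] {s : ℕ} {y : Fin (s + 1) → P} {θ : Fin s → Λ} {u : Λˣ} {J : Type} [Fintype J]
  [DecidableEq J] {i : J → ℕ} {g : Matrix J J P} {r : P} {L M : ℕ}

/-- the untwisted Euler characteristic modulo the deep part -/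
noncomputable def fV (θ : Fin s → Λ) (u : Λˣ) (i : J → ℕ) (g : Matrix J J P) (c0 G : ℕ)
    (b : Fin s → ℤ) : ℝ :=
  chi (act g) (VV P θ u i b 0) (dp (act g) (VV P θ u i b) (lv c0 G (-((s : ℤ) + 1))))

/-- the error term -/
noncomputable def eV (y : Fin (s + 1) → P) (r : P) (J : Type) [Fintype J] (L B : ℕ) : ℝ :=
  (2 * s + 2) * (2 * ((s : ℝ) + 1) ^ (2 * s + 2) * (Fintype.card J * ((B : ℝ) + 1) ^ s) *
    cl (Ideal.span (Set.range y) ^ L ⊔ Ideal.span {r}))

section Aux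
variable {R : Type*} [CommRing R] {E : Type*} [AddCommGroup E] [Module R E]
  {E' : Type*} [AddCommGroup E'] [Module R E'] {K : Type*} {d : K → ℕ}

theorem anca_mono {A B : Submodule R E} (h : A ≤ B) (n : ℤ) :
    pf d (fun _ => A) n ≤ pf d (fun _ => B) n := fun _ hv =>
  mem_pf.2 fun a => ⟨fun e => h ((mem_pf.1 hv a).1 e), (mem_pf.1 hv a).2⟩

theorem anca_mem {φ : E →ₗ[R] E'} {A : Submodule R E} {B : Submodule R E'}
    (h : ∀ x ∈ A, φ x ∈ B) {n : ℤ} {v : K → E} (hv : v ∈ pf d (fun _ => A) n) :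
    φ.compLeft K v ∈ pf d (fun _ => B) n :=
  mem_pf.2 fun a => ⟨fun e => h _ ((mem_pf.1 hv a).1 e), fun e => by
    rw [LinearMap.compLeft_apply, Function.comp_apply, (mem_pf.1 hv a).2 e, map_zero]⟩

theorem anca_map (φ : E →ₗ[R] E') (A : Submodule R E) (n : ℤ) :
    (pf d (fun _ => A) n).map (φ.compLeft K) = pf d (fun _ => A.map φ) n := by
  refine le_antisymm ?_ fun w hw => ?_
  · rintro _ ⟨v, hv, rfl⟩
    exact anca_mem (fun x hx => Submodule.mem_map_of_mem hx) hv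
  · have : ∀ a, ∃ x : E, ((n + d a = 0 → x ∈ A) ∧ (n + d a ≠ 0 → x = 0)) ∧ φ x = w a := by
      intro a
      by_cases e : n + d a = 0
      · obtain ⟨x, hx, hx'⟩ := (mem_pf.1 hw a).1 e
        exact ⟨x, ⟨fun _ => hx, fun h => absurd e h⟩, hx'⟩
      · exact ⟨0, ⟨fun h => absurd h e, fun _ => rfl⟩, by rw [map_zero, (mem_pf.1 hw a).2 e]⟩
    choose v h1 h2 using this
    exact ⟨v, mem_pf.2 h1, funext h2⟩

theorem anca_split {φ : E →ₗ[R] E} {A B : Submodule R E} {n : ℤ} {w : K → E}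
    (hw : w ∈ pf d (fun _ => B) n)
    (h : ∀ a, n + d a = 0 → ∀ x ∈ B, ∃ y1 ∈ A, ∃ y2 ∈ A, x = φ y1 - y2) :
    ∃ w1 ∈ pf d (fun _ => A) n, ∃ w2 ∈ pf d (fun _ => A) n, w = φ.compLeft K w1 - w2 := by
  have : ∀ a, ∃ y1 y2 : E, ((n + d a = 0 → y1 ∈ A) ∧ (n + d a ≠ 0 → y1 = 0)) ∧
      ((n + d a = 0 → y2 ∈ A) ∧ (n + d a ≠ 0 → y2 = 0)) ∧ w a = φ y1 - y2 := by
    intro a
    by_cases e : n + d a = 0
    · obtain ⟨y1, h1, y2, h2, h3⟩ := h a e _ ((mem_pf.1 hw a).1 e)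
      exact ⟨y1, y2, ⟨fun _ => h1, fun h => absurd e h⟩, ⟨fun _ => h2, fun h => absurd e h⟩, h3⟩
    · exact ⟨0, 0, ⟨fun h => absurd h e, fun _ => rfl⟩, ⟨fun h => absurd h e, fun _ => rfl⟩,
        by rw [map_zero, (mem_pf.1 hw a).2 e, sub_zero]⟩
  choose w1 w2 h1 h2 h3 using this
  exact ⟨w1, mem_pf.2 h1, w2, mem_pf.2 h2, funext h3⟩

theorem anca_act [Fintype K] (G : Matrix K K R) (φ : E →ₗ[R] E') (v : K → E) :
    act G (φ.compLeft K v) = φ.compLeft K (act G v) := by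
  funext a
  simp only [act_apply, LinearMap.compLeft_apply, Function.comp_apply, map_sum, map_smul]

end Aux

theorem CMS.anca_fin (h : CMS y Λ θ u) (L : ℕ) :
    rl (Ideal.span (Set.range y) ^ L) (⊤ : Ideal P) ≠ ⊤ := by
  obtain ⟨c, hc⟩ := h.prim
  exact rl_ne_top_of_prim ⟨c * L, by rw [pow_mul]; exact Ideal.pow_right_mono hc L⟩

theorem CMS.anca_sv (h : CMS y Λ θ u) {b : Fin s → ℤ} {k : ℤ} (hb : ∀ j, (s : ℤ) ≤ b j + k)
    (j : Fin s) (m : ℕ) {x : Λ} (hx : x ∈ UU P θ u k (b + Pi.single j (m : ℤ)))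
    (hx' : θ j ^ m * x ∈ UU P θ u k (b + Pi.single j (m : ℤ))) : x ∈ UU P θ u k b := by
  rw [mem_UU] at hx hx' ⊢
  rw [add_right_comm] at hx hx'
  rw [mul_left_comm] at hx'
  exact h.sv hb j m _ hx hx'

theorem CMS.anca_al (h : CMS y Λ θ u) (hA : Apx y r i g L M) {c0 c1 G : ℕ} (h1 : c0 ≤ c1)
    (hG : 2 * (M * (s + 1) ^ (2 * s + 2)) ≤ G)
    (hL : c1 + G * (2 * s + 4) + M * (s + 1) ^ (2 * s + 2) ≤ L) {B : ℕ} {b b' : Fin s → ℤ}
    (hb : ∀ j, (s : ℤ) ≤ b j) (hbb : b ≤ b') (hb' : ∀ j, b' j ≤ B) :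
    |fV θ u i g c0 G b' - chi (act g) (VV P θ u i b' 0) (fun n => VV P θ u i b 0 n ⊔
      dp (act g) (VV P θ u i b') (lv c0 G (-((s : ℤ) + 1))) n) - fV θ u i g c1 G b| ≤
      eV y r J L B := by
  have := FiltSys.chi_al (h.filtSys_VV hA b' 0 fun j => by
      have := hb j; have : b j ≤ b' j := hbb j; omega)
    (h.filtSys_VV hA b 0 fun j => by have := hb j; omega)
    (fun k n _ => anca_mono (MainA_mono hbb) n)
    (fun k n hk x hx => mem_pf.2 fun a => ⟨fun e => h.strict (k := 0)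
      (fun j => by have := hb j; omega) hbb hk ⟨(mem_pf.1 hx.1 a).1 e, (mem_pf.1 hx.2 a).1 e⟩,
      (mem_pf.1 hx.1 a).2⟩) (h.anca_fin L)
    (ng_VV B fun j => by have := hb' j; omega)
    (ng_VV B fun j => by have := hb' j; have : b j ≤ b' j := hbb j; omega) (c0 := c0) (c1 := c1) (G := G)
    (by omega) (by omega) (by omega)
    (by
      rw [show (s : ℤ) - -((s : ℤ) + 1) + 3 = ((2 * s + 4 : ℕ) : ℤ) by push_cast; ring, zero_add]
      exact_mod_cast hL) (by omega)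
  refine this.trans_eq ?_
  unfold eV
  push_cast
  ring

theorem CMS.anca_mid (h : CMS y Λ θ u) (hA : Apx y r i g L M) {c0 G : ℕ}
    (hL : c0 + G * (2 * s + 4) ≤ L) {b : Fin s → ℤ} (hb : ∀ j, (s : ℤ) ≤ b j) (j : Fin s) :
    chi (act g) (VV P θ u i (b + Pi.single j 2) 0) (fun n => VV P θ u i (b + Pi.single j 1) 0 n ⊔
      dp (act g) (VV P θ u i (b + Pi.single j 2)) (lv c0 G (-((s : ℤ) + 1))) n) =
    chi (act g) (VV P θ u i (b + Pi.single j 1) 0) (fun n => VV P θ u i b 0 n ⊔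
      dp (act g) (VV P θ u i (b + Pi.single j 1)) (lv c0 G (-((s : ℤ) + 1))) n) := by
  have e2 : b + Pi.single j 2 = b + Pi.single j 1 + Pi.single j 1 := by
    rw [add_assoc, ← Pi.single_add]; rfl
  have hle : ∀ b : Fin s → ℤ, b ≤ b + Pi.single j 1 := fun b =>
    le_add_of_nonneg_right (Pi.single_nonneg.2 (by norm_num))
  have hL' : (c0 : ℤ) + G * ((s : ℤ) - -((s : ℤ) + 1) + 3) ≤ 0 + L := by
    rw [show (s : ℤ) - -((s : ℤ) + 1) + 3 = ((2 * s + 4 : ℕ) : ℤ) by push_cast; ring, zero_add]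
    exact_mod_cast hL
  have hb1 : ∀ t, (s : ℤ) ≤ (b + Pi.single j 1 : Fin s → ℤ) t := fun t => (hb t).trans (hle b t)
  have hb2 : ∀ t, (s : ℤ) ≤ (b + Pi.single j 2 : Fin s → ℤ) t := fun t => by
    rw [e2]; exact (hb1 t).trans (hle _ t)
  have F0 := h.filtSys_VV hA b 0 fun t => by have := hb t; omega
  have F1 := h.filtSys_VV hA (b + Pi.single j 1) 0 fun t => by have := hb1 t; omega
  have F2 := h.filtSys_VV hA (b + Pi.single j 2) 0 fun t => by have := hb2 t; omega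
  have p1 := F1.isPair_dp (c0 := c0) (G := G) le_rfl (by omega) (by omega) hL'
  have p2 := F2.isPair_dp (c0 := c0) (G := G) le_rfl (by omega) (by omega) hL'
  have hst : ∀ {X Y : ℤ → Submodule P (J → Λ)}, (∀ n, ∀ x ∈ X n, act g x ∈ X (n + 1)) →
      (∀ n, ∀ x ∈ Y n, act g x ∈ Y (n + 1)) → ∀ n, ∀ x ∈ X n ⊔ Y n,
        act g x ∈ X (n + 1) ⊔ Y (n + 1) := by
    intro X Y hX hY n x hx
    obtain ⟨a, ha, a', ha', rfl⟩ := Submodule.mem_sup.1 hx
    rw [map_add]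
    exact Submodule.add_mem_sup (hX n a ha) (hY n a' ha')
  have q1 := p1.upper (L' := fun n => VV P θ u i b 0 n ⊔
      dp (act g) (VV P θ u i (b + Pi.single j 1)) (lv c0 G (-((s : ℤ) + 1))) n)
    (fun n => le_sup_right) (fun n => sup_le (anca_mono (MainA_mono (hle b)) n) (p1.le n))
    (hst (F0.st 0) p1.st')
  set φ : Λ →ₗ[P] Λ := LinearMap.mulLeft P (θ j ^ 1) with hφ
  have hmul : ∀ (c : Fin s → ℤ) (k n : ℤ), ∀ x ∈ VV P θ u i c k n,
      φ.compLeft J x ∈ VV P θ u i (c + Pi.single j 1) k n := fun c k n x hx =>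
    anca_mem (fun z hz => MainA_pow hz j 1) hx
  have hsp : ∀ (k n : ℤ), (-((s : ℤ) + 1) ≤ n → 0 ≤ k) →
      ∀ w ∈ VV P θ u i (b + Pi.single j 2) k n, ∃ w1 ∈ VV P θ u i (b + Pi.single j 1) k n,
        ∃ w2 ∈ VV P θ u i (b + Pi.single j 1) k n, w = φ.compLeft J w1 - w2 := by
    intro k n hk w hw
    refine anca_split hw fun a e x hx => ?_
    have h1 := hk (by have := hA.le a; omega)
    obtain ⟨y1, k1, y2, k2, k3⟩ := MainA_surj (b := b) (j := j) (k := k)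
      (by have := hb j; omega) 1 (y := x) (by simpa using hx)
    exact ⟨y1, by simpa using k1, y2, by simpa using k2, k3⟩
  have hlv : ∀ n, -((s : ℤ) + 1) ≤ n → 0 ≤ lv c0 G (-((s : ℤ) + 1)) n := fun n hn => by
    unfold lv
    have : (0 : ℤ) ≤ G * (n - -((s : ℤ) + 1) + 2) := mul_nonneg (by omega) (by omega)
    omega
  refine chi_congr fun n => ?_
  have := hh_transport (δ' := act g) (K := VV P θ u i (b + Pi.single j 2) 0)
    (K' := fun n => VV P θ u i (b + Pi.single j 1) 0 n ⊔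
      dp (act g) (VV P θ u i (b + Pi.single j 2)) (lv c0 G (-((s : ℤ) + 1))) n) q1
    (φ.compLeft J) 0 1 (fun n x hx => by rw [add_zero, e2]; exact hmul _ _ _ x hx)
    (fun n x hx => ?_) (fun n z hz => ?_) (fun n x _ => by simp [anca_act])
    (hst (F1.st 0) p2.st') n
  · rwa [add_zero] at this
  · rw [add_zero]
    constructor
    · intro hx'
      obtain ⟨x0, hx0, z, hz, e⟩ := Submodule.mem_sup.1 hx'
      obtain ⟨w, hw, hv⟩ := deep_mem.1 hz
      obtain ⟨w1, k1, w2, k2, rfl⟩ := hsp _ _ (hlv _) w hw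
      obtain ⟨v1, k3, v2, k4, ev⟩ := hsp _ _ (hlv _) _ hv
      have k5 : act g w1 + v1 ∈
          dp (act g) (VV P θ u i (b + Pi.single j 1)) (lv c0 G (-((s : ℤ) + 1))) n :=
        deep_mem.2 ⟨w1, k1, by rwa [add_sub_cancel_left]⟩
      have k6 : act g w2 + v2 ∈
          dp (act g) (VV P θ u i (b + Pi.single j 1)) (lv c0 G (-((s : ℤ) + 1))) n :=
        deep_mem.2 ⟨w2, k2, by rwa [add_sub_cancel_left]⟩
      have k7 : x - (act g w1 + v1) ∈ VV P θ u i (b + Pi.single j 1) 0 n := sub_mem hx (p1.le n k5)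
      have k8 : φ.compLeft J (x - (act g w1 + v1)) ∈ VV P θ u i (b + Pi.single j 1) 0 n := by
        have e3 : φ.compLeft J (x - (act g w1 + v1)) = x0 - (act g w2 + v2) := by
          rw [map_sub, map_add, ← e, ← anca_act, eq_add_of_sub_eq ev, map_sub]
          abel
        rw [e3]
        exact sub_mem hx0 (p1.le n k6)
      have k9 : x - (act g w1 + v1) ∈ VV P θ u i b 0 n := mem_pf.2 fun a => ⟨fun e' =>
        h.anca_sv (fun t => by have := hb t; omega) j 1 ((mem_pf.1 k7 a).1 e')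
          ((mem_pf.1 k8 a).1 e'), (mem_pf.1 k7 a).2⟩
      rw [← sub_add_cancel x (act g w1 + v1)]
      exact Submodule.add_mem_sup k9 k5
    · intro hx'
      obtain ⟨x0, hx0, z, hz, rfl⟩ := Submodule.mem_sup.1 hx'
      obtain ⟨w, hw, hv⟩ := deep_mem.1 hz
      rw [map_add]
      refine Submodule.add_mem_sup (hmul _ _ _ x0 hx0) (deep_mem.2 ⟨φ.compLeft J w, ?_, ?_⟩)
      · rw [e2]; exact hmul _ _ _ w hw
      · rw [anca_act, ← map_sub, e2]; exact hmul _ _ _ _ hv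
  · rw [add_zero] at hz ⊢
    obtain ⟨w1, k1, w2, k2, rfl⟩ := hsp 0 n (fun _ => le_rfl) z hz
    exact ⟨w1, k1, Submodule.mem_sup_left (by rw [sub_sub_cancel_left]; exact neg_mem k2)⟩

theorem CMS.fV_aff (h : CMS y Λ θ u) (hA : Apx y r i g L M) {c0 G : ℕ}
    (hG : 2 * (M * (s + 1) ^ (2 * s + 2)) ≤ G)
    (hL : c0 + G * (2 * s + 4) + M * (s + 1) ^ (2 * s + 2) ≤ L) {B : ℕ} {b : Fin s → ℤ}
    (hb : ∀ j, (s : ℤ) ≤ b j ∧ b j + 2 ≤ B) (j : Fin s) :
    |fV θ u i g c0 G (b + Pi.single j 2) - 2 * fV θ u i g c0 G (b + Pi.single j 1) +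
      fV θ u i g c0 G b| ≤ 2 * eV y r J L B := by
  have hle : ∀ c : ℤ, 0 ≤ c → c ≤ 2 → ∀ t, b t ≤ (b + Pi.single j c : Fin s → ℤ) t ∧
      (b + Pi.single j c : Fin s → ℤ) t ≤ B := by
    intro c h0 h2 t
    have := hb t
    simp only [Pi.add_apply, Pi.single_apply]
    split_ifs <;> omega
  have h1 := h.anca_al hA le_rfl hG hL (B := B) (b := b) (b' := b + Pi.single j 1)
    (fun t => (hb t).1) (fun t => (hle 1 (by norm_num) (by norm_num) t).1)
    fun t => (hle 1 (by norm_num) (by norm_num) t).2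
  have h2 := h.anca_al hA le_rfl hG hL (B := B) (b := b + Pi.single j 1) (b' := b + Pi.single j 2)
    (fun t => (hb t).1.trans (hle 1 (by norm_num) (by norm_num) t).1) (fun t => by
      simp only [Pi.add_apply, Pi.single_apply]
      split_ifs <;> omega)
    fun t => (hle 2 (by norm_num) (by norm_num) t).2
  rw [h.anca_mid hA (by omega) (fun t => (hb t).1) j] at h2
  rw [abs_le] at h1 h2 ⊢
  constructor <;> linarith [h1.1, h1.2, h2.1, h2.2]

omit [IsNoetherianRing P] [DecidableEq J] in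
theorem CMS.fV_sym (h : CMS y Λ θ u) (c0 G : ℕ) (b : Fin s → ℤ) (e : Equiv.Perm (Fin s)) :
    fV θ u i g c0 G (b ∘ e) = fV θ u i g c0 G b := by
  obtain ⟨τ, hτ⟩ := h.split.perm e
  obtain ⟨τ', hτ'⟩ := h.split.perm e.symm
  have hu : ∀ (ρ : Λ →ₐ[P] Λ) (k : ℤ), ρ ((u ^ k : Λˣ) : Λ) = ((u ^ k : Λˣ) : Λ) := by
    intro ρ k
    have h1 : Units.map (ρ : Λ →* Λ) u = u := Units.ext (by
      rw [Units.coe_map, h.split.unit]; exact ρ.commutes _)
    have h2 := congrArg Units.val (map_zpow (Units.map (ρ : Λ →* Λ)) u k)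
    rw [h1] at h2
    exact h2
  have hm : ∀ k : ℤ, (UU P θ u k (b ∘ e)).map τ.toLinearMap = UU P θ u k b := by
    intro k
    have h1 : τ.toLinearMap ∘ₗ LinearMap.mulLeft P ((u ^ k : Λˣ) : Λ) =
        LinearMap.mulLeft P ((u ^ k : Λˣ) : Λ) ∘ₗ τ.toLinearMap := by
      ext x; simp [hu]
    rw [UU, UU, ← mon_map_perm e τ hτ (b + fun _ => k), ← Submodule.map_comp, h1,
      Submodule.map_comp]
    rfl
  have hT : ∀ (k n : ℤ), VV P θ u i (b ∘ e) k n ≤ Submodule.pi Set.univ fun _ : J =>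
      LinearMap.eqLocus (τ'.comp τ).toLinearMap LinearMap.id := by
    intro k n x hx a _
    by_cases h0 : n + i a = 0
    · obtain ⟨z, hz, ez⟩ := (mem_pf.1 hx a).1 h0
      rw [← ez]
      change (τ'.comp τ) (_ * z) = _ * z
      rw [map_mul, hu, anchor_fix (τ := τ'.comp τ) (fun j => by simp [hτ, hτ']) hz]
    · rw [(mem_pf.1 hx a).2 h0]; exact zero_mem _
  have := chi_dp_map (V := VV P θ u i (b ∘ e)) (D := act g) (D' := act g)
    (τ.toLinearMap.compLeft J) (anca_act g _) (Submodule.pi Set.univ fun _ : J =>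
      LinearMap.eqLocus (τ'.comp τ).toLinearMap LinearMap.id) (fun x hx a _ => by
      rw [act_apply]
      exact sum_mem fun c _ => Submodule.smul_mem _ _ (hx c trivial))
    (fun x hx h0 => funext fun a => by
      have h1 : τ' (τ (x a)) = x a := hx a trivial
      have h2 : τ (x a) = 0 := congrFun h0 a
      rw [← h1, h2, map_zero]; rfl)
    (VV P θ u i (b ∘ e) 0) (lv c0 G (-((s : ℤ) + 1))) (hT 0) fun n => hT _ n
  simp only [VV, anca_map, hm] at this
  unfold fV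
  exact_mod_cast this.symm

omit [IsLocalRing P] [IsNoetherianRing P] [DecidableEq J] in
theorem fV_shift (c0 G k : ℕ) (b : Fin s → ℤ) :
    fV θ u i g c0 G (b + fun _ => (k : ℤ)) =
      chi (act g) (VV P θ u i b k) (dp (act g) (VV P θ u i b) (lv (c0 + k) G (-((s : ℤ) + 1)))) := by
  have hm : ∀ k' : ℤ, (UU P θ u k' (b + fun _ => (k : ℤ))).map
      (LinearMap.mulLeft P ((u ^ (k : ℤ) : Λˣ) : Λ)) = UU P θ u (k' + k) b := by
    intro k'
    rw [UU, UU, ← Submodule.map_comp, ← LinearMap.mulLeft_mul, ← Units.val_mul, ← zpow_add,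
      add_comm (k : ℤ) k', add_assoc]
    congr 3
    funext _
    exact add_comm _ _
  have := chi_dp_map (V := VV P θ u i (b + fun _ => (k : ℤ))) (D := act g) (D' := act g)
    ((LinearMap.mulLeft P ((u ^ (k : ℤ) : Λˣ) : Λ)).compLeft J) (anca_act g _) ⊤
    (fun _ _ => trivial) (fun x _ h0 => funext fun a =>
      (map_eq_zero_iff _ (anchor_mul_inj (P := P) (u ^ (k : ℤ)))).1 (congrFun h0 a))
    (VV P θ u i (b + fun _ => (k : ℤ)) 0) (lv c0 G (-((s : ℤ) + 1))) (fun _ => le_top)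
    fun _ => le_top
  simp only [VV, anca_map, hm, zero_add] at this
  have e : ∀ n, lv (c0 + k) G (-((s : ℤ) + 1)) n = lv c0 G (-((s : ℤ) + 1)) n + k := fun n => by
    unfold lv; ring
  unfold fV
  simp only [dp, e, VV] at this ⊢
  exact_mod_cast this.symm

theorem CMS.fV_diag (h : CMS y Λ θ u) (hA : Apx y r i g L M) (heul : ∑ a, (-1 : ℤ) ^ i a = 0)
    {c0 G : ℕ} (hG : 2 * (M * (s + 1) ^ (2 * s + 2)) ≤ G)
    (hL : c0 + 1 + G * (2 * s + 4) + M * (s + 1) ^ (2 * s + 2) ≤ L) {B : ℕ} {b : Fin s → ℤ}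
    (hb : ∀ j, (s : ℤ) ≤ b j ∧ b j ≤ B) :
    |fV θ u i g c0 G (b + fun _ => 1) - fV θ u i g c0 G b| ≤ eV y r J L B := by
  have h1 := h.anca_al hA (c0 := c0) (c1 := c0 + 1) (by omega) hG hL (B := B) (b := b) (b' := b)
    (fun t => (hb t).1) le_rfl fun t => (hb t).2
  rw [chi_of_acyclic fun n => hh_of_le le_sup_left] at h1
  have h2 := fV_shift (θ := θ) (u := u) (i := i) (g := g) c0 G 1 b
  have F := h.filtSys_VV hA b 0 fun t => by have := hb t; omega
  have hL' : ((c0 + 1 : ℕ) : ℤ) + G * ((s : ℤ) - -((s : ℤ) + 1) + 3) ≤ 0 + L := by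
    rw [show (s : ℤ) - -((s : ℤ) + 1) + 3 = ((2 * s + 4 : ℕ) : ℤ) by push_cast; ring, zero_add]
    exact_mod_cast (show c0 + 1 + G * (2 * s + 4) ≤ L by omega)
  have hq : Ideal.span (Set.range y) ^ L • UU P θ u 0 b ≤ UU P θ u 1 b :=
    Submodule.smul_le.2 fun a ha x hx => h.split.UU_le (by omega)
      (fun t => by have := hb t; omega) (h.split.smul_UU (Ideal.mem_sup_right ha) hx)
  obtain ⟨f1, e1⟩ := chi_pf_of_finite hA.deg hA.sq
    (h.split.UU_le (k := 0) (k' := 1) (by omega) fun t => by have := hb t; omega) hq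
    (ne_top_of_le_ne_top (WithTop.mul_ne_top (ENat.natCast_ne_top _) (h.anca_fin L))
      ((ng_UU B fun t => by have := hb t; omega).rl_le hq))
  have e2 := chi_add (F.isPair (k := 0) (k' := 1) le_rfl (by omega) (by omega))
    (F.isPair_dp (k := 1) (c0 := (c0 + 1 : ℕ)) (G := G) (by omega) (by omega) (by omega) (by omega))
    (F.isPair_dp (k := 0) (c0 := (c0 + 1 : ℕ)) (G := G) (by omega) (by omega) (by omega) hL') f1
    (F.hfin (h.anca_fin L) (k := 0) (ng_VV B fun t => by have := hb t; omega) le_rfl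
      (c0 := (c0 + 1 : ℕ)) (G := G) (by omega) (by omega) hL'
      (fun n => F.mono _ _ n le_rfl (by omega)) fun n => le_rfl)
  rw [heul, zero_mul] at e1
  have e3 : fV θ u i g (c0 + 1) G b = fV θ u i g c0 G (b + fun _ => 1) := by
    rw [Nat.cast_one] at h2
    rw [h2, fV, e2]
    erw [e1]
    push_cast
    ring
  rw [e3] at h1
  rw [abs_sub_comm]
  simpa using h1

end Vale.Agent.P202
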