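import Vale.Agent.P202.Sym

/-! A robust form of the symmetry lemma. -/

namespace Vale.Agent.P202

section SymRA
open MvPolynomial

variable {σ : Type} [Fintype σ] [DecidableEq σ]

/-- the polynomials killed by a functional -/
def symKerR (φ : MvPolynomial σ ℤ →ₗ[ℤ] ℝ) : Ideal (MvPolynomial σ ℤ) where
  carrier := {p | ∀ q, φ (p * q) = 0}
  add_mem' := by
    intro a b ha hb q
    rw [add_mul, map_add, ha q, hb q, add_zero]
  zero_mem' := by intro q; simp
  smul_mem' := by
    intro c p hp q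
    have := hp (c * q)
    rw [smul_eq_mul, mul_comm c p, mul_assoc]
    exact this

omit [Fintype σ] [DecidableEq σ] in
theorem symR_mem_of_monomial (φ : MvPolynomial σ ℤ →ₗ[ℤ] ℝ) (p : MvPolynomial σ ℤ)
    (h : ∀ c, φ (p * monomial c 1) = 0) : p ∈ symKerR φ := by
  intro q
  induction q using MvPolynomial.induction_on' with
  | monomial c a =>
    have : (monomial c a : MvPolynomial σ ℤ) = a • monomial c 1 := by
      rw [smul_monomial, smul_eq_mul, mul_one]
    rw [this, mul_smul_comm, map_smul, h c, smul_zero]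
  | add p1 p2 h1 h2 => rw [mul_add, map_add, h1, h2, add_zero]

omit [Fintype σ] [DecidableEq σ] in
theorem symR_mem_of_one (φ : MvPolynomial σ ℤ →ₗ[ℤ] ℝ) (p : MvPolynomial σ ℤ) (h0 : φ p = 0)
    (h : ∀ j, p * (X j - 1) ∈ symKerR φ) : p ∈ symKerR φ := by
  intro q
  induction q using MvPolynomial.induction_on with
  | C a =>
    rw [mul_comm, ← smul_eq_C_mul, map_smul, h0, smul_zero]
  | add p1 p2 h1 h2 => rw [mul_add, map_add, h1, h2, add_zero]
  | mul_X q j hq =>
    have : p * (q * X j) = p * q + p * (X j - 1) * q := by ring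
    rw [this, map_add, hq, h j q, add_zero]

theorem symR_main (φ : MvPolynomial σ ℤ →ₗ[ℤ] ℝ)
    (h1 : ∀ j, (X j - 1) * (X j - 1) ∈ symKerR φ) (h2 : ∀ (e : Equiv.Perm σ) p, φ (rename e p) = φ p)
    (h3 : ∏ j, X j - 1 ∈ symKerR φ) (S : Finset σ) :
    ∀ i, (∏ j ∈ S, (X j - 1)) * (X i - 1) ∈ symKerR φ := by
  have hin : ∀ (S : Finset σ) i, i ∈ S → (∏ j ∈ S, (X j - 1)) * (X i - 1) ∈ symKerR φ := by
    intro S i hi
    rw [← Finset.prod_erase_mul S _ hi, mul_assoc]
    exact Ideal.mul_mem_left _ _ (h1 i)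
  induction S using WellFoundedGT.induction with
  | ind S ih =>
    have H : ∀ i j, (∏ j ∈ S, (X j - 1)) * (X i - 1) * (X j - 1) ∈ symKerR φ := by
      intro i j
      by_cases hi : i ∈ S
      · exact Ideal.mul_mem_right _ _ (hin S i hi)
      · have := ih (insert i S) (Finset.ssubset_insert hi) j
        rwa [Finset.prod_insert hi, mul_comm (X i - 1)] at this
    intro i
    by_cases hi : i ∈ S
    · exact hin S i hi
    refine symR_mem_of_one φ _ ?_ (H i)
    have a1 := sym_prod_sub (symKerR φ) _ H Finset.univ 1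
    have a2 := (Ideal.mul_mem_left _ (∏ j ∈ S, (X j - 1)) h3) 1
    rw [mul_one] at a1 a2
    rw [mul_sub, map_sub, a2, zero_sub, neg_eq_zero, Finset.mul_sum, map_sum] at a1
    have a3 : ∀ j, φ ((∏ j ∈ S, (X j - 1)) * (X j - 1)) =
        if j ∈ S then 0 else φ ((∏ j ∈ S, (X j - 1)) * (X i - 1)) := by
      intro j
      split_ifs with hj
      · simpa using hin S j hj 1
      · rw [← h2 (Equiv.swap i j)]
        congr 1
        simp only [map_mul, map_prod, map_sub, rename_X, map_one, Equiv.swap_apply_right]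
        congr 1
        refine Finset.prod_congr rfl fun k hk => ?_
        rw [Equiv.swap_apply_of_ne_of_ne]
        · rintro rfl; exact hi hk
        · rintro rfl; exact hj hk
    rw [Finset.sum_congr rfl fun j _ => a3 j, Finset.sum_ite, Finset.sum_const_zero, zero_add, Finset.sum_const, nsmul_eq_mul,
      mul_eq_zero] at a1
    refine a1.resolve_left ?_
    have : 0 < (Finset.univ.filter fun j => j ∉ S).card :=
      Finset.card_pos.2 ⟨i, by simpa using hi⟩
    exact_mod_cast this.ne'

end SymRA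

open MvPolynomial in
/-- a symmetric multi-affine function which is invariant along the diagonal is constant -/
theorem const_of_sym_real {σ : Type} [Fintype σ] [DecidableEq σ] (f : (σ → ℤ) → ℝ) (β : ℤ)
    (haff : ∀ b, (∀ i, β ≤ b i) → ∀ j,
      f (b + Pi.single j 2) - f (b + Pi.single j 1) = f (b + Pi.single j 1) - f b)
    (hsym : ∀ b, (∀ i, β ≤ b i) → ∀ e : Equiv.Perm σ, f (b ∘ e) = f b)
    (hdiag : ∀ b, (∀ i, β ≤ b i) → f (b + fun _ => 1) = f b)
    (b b' : σ → ℤ) (hb : ∀ i, β ≤ b i) (hb' : ∀ i, β ≤ b' i) : f b = f b' := by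
  let w : (σ →₀ ℕ) → σ → ℤ := fun c i => β + c i
  have hw : ∀ c i, β ≤ w c i := fun c i => by simp [w]
  let φ : MvPolynomial σ ℤ →ₗ[ℤ] ℝ := (basisMonomials σ ℤ).constr ℤ fun c => f (w c)
  have hφ : ∀ c, φ (monomial c 1) = f (w c) := fun c => by
    have := (basisMonomials σ ℤ).constr_basis ℤ (fun c => f (w c)) c
    rwa [coe_basisMonomials] at this
  have hX : ∀ j c, (X j : MvPolynomial σ ℤ) * monomial c 1 =
      monomial (c + Finsupp.single j 1) 1 := by
    intro j c
    rw [X, monomial_mul, add_comm, one_mul]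
  have hw1 : ∀ j c, w (c + Finsupp.single j 1) = w c + Pi.single j 1 := by
    intro j c
    funext i
    by_cases h : i = j
    · subst h; simp [w, add_assoc]
    · simp [w, h]
  have h1 : ∀ j, (X j - 1) * (X j - 1) ∈ symKerR φ := by
    intro j
    refine symR_mem_of_monomial φ _ fun c => ?_
    have e : (X j - 1) * (X j - 1) * (monomial c 1 : MvPolynomial σ ℤ) =
        X j * (X j * monomial c 1) - X j * monomial c 1 - (X j * monomial c 1 - monomial c 1) := by
      ring
    rw [e, hX, hX]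
    simp only [map_sub, hφ, hw1]
    have e2 : w c + Pi.single j 1 + Pi.single j 1 = w c + Pi.single j 2 := by
      rw [add_assoc, ← Pi.single_add]; norm_num
    rw [e2, haff _ (hw c) j, sub_self]
  have h2 : ∀ (e : Equiv.Perm σ) p, φ (rename e p) = φ p := by
    intro e p
    induction p using MvPolynomial.induction_on' with
    | monomial c a =>
      have : (monomial c a : MvPolynomial σ ℤ) = a • monomial c 1 := by
        rw [smul_monomial, smul_eq_mul, mul_one]
      rw [this, map_smul, map_smul, map_smul, rename_monomial, hφ, hφ,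
        ← hsym _ (hw _) e]
      congr 2
      funext i
      simp [w]
    | add p1 p2 a1 a2 => rw [map_add, map_add, map_add, a1, a2]
  have h3 : ∏ j, X j - 1 ∈ symKerR φ := by
    refine symR_mem_of_monomial φ _ fun c => ?_
    have e : (∏ j, X j : MvPolynomial σ ℤ) =
        monomial (Finsupp.equivFunOnFinite.symm fun _ => 1) 1 := by
      rw [monomial_eq, Finsupp.prod_fintype _ _ (by simp)]
      simp
    rw [sub_mul, one_mul, e, monomial_mul, one_mul, map_sub, hφ, hφ, ← hdiag _ (hw c), sub_eq_zero]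
    congr 1
    funext i
    simp [w]
    ring
  have key : ∀ i, (X i - 1 : MvPolynomial σ ℤ) ∈ symKerR φ := by
    intro i
    simpa using symR_main φ h1 h2 h3 ∅ i
  have step : ∀ j c, f (w (c + Finsupp.single j 1)) = f (w c) := by
    intro j c
    have := key j (monomial c 1)
    rwa [sub_mul, one_mul, hX, map_sub, hφ, hφ, sub_eq_zero] at this
  have all : ∀ c, f (w c) = f (w 0) := by
    intro c
    induction c using Finsupp.induction with
    | zero => rfl
    | single_add j n c _ _ ih =>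
      rw [← ih]
      clear * - step
      induction n with
      | zero => simp
      | succ n ihn =>
        rw [← ihn, ← step j (Finsupp.single j n + c), Finsupp.single_add]
        congr 2
        abel
  have eb : ∀ b : σ → ℤ, (∀ i, β ≤ b i) →
      b = w (Finsupp.equivFunOnFinite.symm fun i => (b i - β).toNat) := by
    intro b hb
    funext i
    have := hb i
    simp only [w, Finsupp.coe_equivFunOnFinite_symm]
    omega
  rw [eb b hb, eb b' hb']
  exact (all _).trans (all _).symm

theorem sym_robust {σ : Type} [Fintype σ] [DecidableEq σ] (β : ℤ) (b b' : σ → ℤ)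
    (hb : ∀ i, β ≤ b i) (hb' : ∀ i, β ≤ b' i) :
    ∃ (B : ℕ) (C : ℝ), 0 ≤ C ∧ ∀ (f : (σ → ℤ) → ℝ) (η : ℝ), 0 ≤ η →
      (∀ c : σ → ℤ, (∀ i, β ≤ c i ∧ c i ≤ B) →
        (∀ j, |f (c + Pi.single j 2) - 2 * f (c + Pi.single j 1) + f c| ≤ η) ∧
        (∀ e : Equiv.Perm σ, |f (c ∘ e) - f c| ≤ η) ∧ |f (c + fun _ => 1) - f c| ≤ η) →
      |f b - f b'| ≤ C * η := by
  let s : (σ → ℤ) → ((σ → ℤ) →₀ ℝ) := fun c => Finsupp.single c 1
  let D : Set ((σ → ℤ) →₀ ℝ) := {v | ∃ c : σ → ℤ, (∀ i, β ≤ c i) ∧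
    ((∃ j, v = s (c + Pi.single j 2) - (2 : ℝ) • s (c + Pi.single j 1) + s c) ∨
      (∃ e : Equiv.Perm σ, v = s (c ∘ e) - s c) ∨ v = s (c + fun _ => 1) - s c)}
  have hmem : s b - s b' ∈ Submodule.span ℝ D := by
    by_contra hn
    obtain ⟨φ, hφ, hφ0⟩ := Submodule.exists_dual_map_eq_bot_of_notMem hn inferInstance
    have hz : ∀ v ∈ D, φ v = 0 := fun v hv => by
      have : φ v ∈ (Submodule.span ℝ D).map φ := Submodule.mem_map_of_mem (Submodule.subset_span hv)
      rwa [hφ0, Submodule.mem_bot] at this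
    refine hφ ?_
    rw [map_sub, sub_eq_zero]
    refine const_of_sym_real (fun c => φ (s c)) β ?_ ?_ ?_ b b' hb hb'
    · intro c hc j
      have := hz _ ⟨c, hc, Or.inl ⟨j, rfl⟩⟩
      rw [map_add, map_sub, map_smul, smul_eq_mul] at this
      linarith
    · intro c hc e
      have := hz _ ⟨c, hc, Or.inr (Or.inl ⟨e, rfl⟩)⟩
      rwa [map_sub, sub_eq_zero] at this
    · intro c hc
      have := hz _ ⟨c, hc, Or.inr (Or.inr rfl)⟩
      rwa [map_sub, sub_eq_zero] at this
  have hs : ∀ (f : (σ → ℤ) → ℝ) c, Finsupp.linearCombination ℝ f (s c) = f c := fun f c => by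
    simp [s]
  have key : ∀ v ∈ Submodule.span ℝ D, ∃ (B : ℕ) (C : ℝ), 0 ≤ C ∧
      ∀ (f : (σ → ℤ) → ℝ) (η : ℝ), 0 ≤ η →
      (∀ c : σ → ℤ, (∀ i, β ≤ c i ∧ c i ≤ B) →
        (∀ j, |f (c + Pi.single j 2) - 2 * f (c + Pi.single j 1) + f c| ≤ η) ∧
        (∀ e : Equiv.Perm σ, |f (c ∘ e) - f c| ≤ η) ∧ |f (c + fun _ => 1) - f c| ≤ η) →
      |Finsupp.linearCombination ℝ f v| ≤ C * η := by
    intro v hv
    induction hv using Submodule.span_induction with
    | mem v hv =>
      obtain ⟨c, hc, h⟩ := hv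
      refine ⟨Finset.univ.sup fun i => (c i).toNat, 1, zero_le_one, fun f η _ H => ?_⟩
      have hc' := H c fun i => ⟨hc i, by
        have : (c i).toNat ≤ Finset.univ.sup fun i => (c i).toNat :=
          Finset.le_sup (f := fun i => (c i).toNat) (Finset.mem_univ i)
        omega⟩
      rw [one_mul]
      rcases h with ⟨j, rfl⟩ | ⟨e, rfl⟩ | rfl
      · rw [map_add, map_sub, map_smul, hs, hs, hs, smul_eq_mul]
        exact hc'.1 j
      · rw [map_sub, hs, hs]
        exact hc'.2.1 e
      · rw [map_sub, hs, hs]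
        exact hc'.2.2
    | zero => exact ⟨0, 0, le_rfl, fun f η _ _ => by simp⟩
    | add v w _ _ hv hw =>
      obtain ⟨B1, C1, h1, H1⟩ := hv
      obtain ⟨B2, C2, h2, H2⟩ := hw
      refine ⟨max B1 B2, C1 + C2, add_nonneg h1 h2, fun f η hη H => ?_⟩
      rw [map_add, add_mul]
      refine (abs_add_le _ _).trans (add_le_add (H1 f η hη fun c hc => H c fun i => ⟨(hc i).1, ?_⟩)
        (H2 f η hη fun c hc => H c fun i => ⟨(hc i).1, ?_⟩))
      · have := (hc i).2
        have := le_max_left B1 B2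
        omega
      · have := (hc i).2
        have := le_max_right B1 B2
        omega
    | smul a v _ hv =>
      obtain ⟨B1, C1, h1, H1⟩ := hv
      refine ⟨B1, |a| * C1, mul_nonneg (abs_nonneg _) h1, fun f η hη H => ?_⟩
      rw [map_smul, smul_eq_mul, abs_mul, mul_assoc]
      exact mul_le_mul_of_nonneg_left (H1 f η hη H) (abs_nonneg _)
  obtain ⟨B, C, hC, H⟩ := key _ hmem
  refine ⟨B, C, hC, fun f η hη h => ?_⟩
  have := H f η hη h
  rwa [map_sub, hs, hs] at this

end Vale.Agent.P202
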