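import Vale.Agent.P202.AncA
import Vale.Agent.P202.AC
import Vale.Agent.P202.SymR

/-! The approximate anchor. -/

namespace Vale.Agent.P202

open IsLocalRing

universe u w

theorem CMS.fV_stair {P : Type*} [CommRing P] [IsLocalRing P] [IsNoetherianRing P] {Λ : Type*}
    [CommRing Λ] [Algebra P Λ] {s : ℕ} {y : Fin (s + 1) → P} {θ : Fin s → Λ} {u : Λˣ} {J : Type}
    [Fintype J] [DecidableEq J] {i : J → ℕ} {g : Matrix J J P} {r : P} {L M : ℕ}
    (h : CMS y Λ θ u) (hA : Apx y r i g L M) (heul : ∑ a, (-1 : ℤ) ^ i a = 0) {a0 : J}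
    (ha0 : ∀ a, i a = 0 ↔ a = a0) {c0 G : ℕ} (hG : (s + 1) * M ≤ G)
    (hL : c0 + s + G * (2 * s + 4) ≤ L) :
    fV θ u i g c0 G ((fun j : Fin s => ((j : ℕ) : ℤ)) + fun _ => (s : ℤ)) ≤
      s.factorial * cl (Ideal.span (Set.range (g a0)) ⊔ Ideal.span (Set.range y) ^ L) +
        (s + 1) * ((s + 1) * (Fintype.card J * s.factorial) *
          cl (Ideal.span (Set.range y) ^ L ⊔ Ideal.span {r})) := by
  have hV : ∀ k : ℕ, VV P θ u i (fun j : Fin s => ((j : ℕ) : ℤ)) k = pf i fun _ =>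
      Ideal.span (Set.range y) ^ k • mon P θ (fun j : Fin s => ((j : ℕ) : ℤ)) := fun k => by
    rw [VV, h.UU_stair (fun _ => le_rfl) k]
  have F := h.filtSys_VV hA (fun j : Fin s => ((j : ℕ) : ℤ)) s fun j => by omega
  obtain ⟨ι, _, v, hc, hv, hv'⟩ := h.split.stair
  have hNG : NG (mon P θ (fun j : Fin s => ((j : ℕ) : ℤ))) s.factorial := by
    rw [hv, ← hc]; exact ng_span v
  have hT : ColOn y (mon P θ (fun j : Fin s => ((j : ℕ) : ℤ))) := by
    rw [hv]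
    exact (h.cm.colOn h.mem h.prim).free v fun c hc' a => (hv' c).1 hc' a
  have h1 := hA.chi_dp_le ha0 hT hNG (h.anca_fin L) (c0 + s) G hG hL _ hV
    fun k n hn => F.bot k n (Or.inl hn)
  have h2 : rl ((Ideal.span (Set.range (g a0)) ⊔ Ideal.span (Set.range y) ^ L) •
      mon P θ (fun j : Fin s => ((j : ℕ) : ℤ))) (mon P θ (fun j : Fin s => ((j : ℕ) : ℤ))) =
      s.factorial * rl (Ideal.span (Set.range (g a0)) ⊔ Ideal.span (Set.range y) ^ L)
        (⊤ : Ideal P) := by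
    rw [hv, rl_smul_free v hv', hc, bot_sup_eq]
  rw [h2, ENat.toNat_mul, ENat.toNat_natCast, Nat.cast_mul, Nat.cast_add c0 s] at h1
  refine le_of_eq_of_le ?_ h1
  rw [fV_shift]
  have hL' : (c0 : ℤ) + s + G * ((s : ℤ) - -((s : ℤ) + 1) + 3) ≤ L := by
    rw [show (s : ℤ) - -((s : ℤ) + 1) + 3 = ((2 * s + 4 : ℕ) : ℤ) by push_cast; ring]
    exact_mod_cast hL
  have hle : ∀ {k k' : ℕ}, k ≤ k' →
      Ideal.span (Set.range y) ^ k' • mon P θ (fun j : Fin s => ((j : ℕ) : ℤ)) ≤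
      Ideal.span (Set.range y) ^ k • mon P θ (fun j : Fin s => ((j : ℕ) : ℤ)) := fun hk =>
    Submodule.smul_mono_left (Ideal.pow_le_pow_right hk)
  have hq : ∀ {k : ℕ}, k ≤ L → Ideal.span (Set.range y) ^ L • (Ideal.span (Set.range y) ^ 0 •
      mon P θ (fun j : Fin s => ((j : ℕ) : ℤ))) ≤
      Ideal.span (Set.range y) ^ k • mon P θ (fun j : Fin s => ((j : ℕ) : ℤ)) := fun hk =>
    (smul_mono_right _ Submodule.smul_le_right).trans (hle hk)
  have hsL : s ≤ L := by omega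
  have p1 := isPair_pf hA.deg hA.sq (hle (Nat.zero_le s)) (hq hsL)
  have p0 := isPair_pf hA.deg hA.sq (hle (Nat.zero_le L)) (hq le_rfl)
  obtain ⟨f1, e1⟩ := chi_pf_of_finite hA.deg hA.sq (hle (Nat.zero_le s)) (hq hsL)
    (ne_top_of_le_ne_top (WithTop.mul_ne_top (ENat.natCast_ne_top _) (h.anca_fin L))
      ((rl_mono (hle hsL) Submodule.smul_le_right).trans (hNG.rl_le le_rfl)))
  rw [← hV, ← hV] at p0 p1 f1 e1
  rw [Nat.cast_zero] at p0 p1 f1 e1
  have p2 := F.isPair_dp (k := s) (c0 := c0 + s) (G := G) le_rfl (by omega) (by omega) (by omega)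
  have p3 : IsPair (act g) (VV P θ u i (fun j : Fin s => ((j : ℕ) : ℤ)) 0)
      (dp (act g) (VV P θ u i (fun j : Fin s => ((j : ℕ) : ℤ)))
        (lv (c0 + s) G (-((s : ℤ) + 1)))) :=
    ⟨fun n => (p2.le n).trans (p1.le n), p1.st, p2.st', fun n x hx =>
      deep_le_dp (F.le_lv (by omega) (by omega) hL' _ (p0.dd n x hx)), F.fin 0 _⟩
  rw [chi_add p1 p2 p3 f1 (F.hfin (h.anca_fin L) (k := s)
    (ng_VV (2 * s) fun j => by have := j.2; omega) le_rfl (c0 := c0 + s) (G := G) (by omega)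
    (by omega) (by omega) (fun n => le_rfl) fun n => le_rfl), e1, heul, zero_mul, add_zero]

theorem anchor_apx {s : ℕ} (a : Fin s → ℤ) (ha : ∀ j, (s : ℤ) ≤ a j) :
    ∃ C : ℝ, 0 ≤ C ∧ ∀ (P : Type u) [CommRing P] [IsLocalRing P] [IsNoetherianRing P] (Λ : Type w)
      [CommRing Λ] [Algebra P Λ] (y : Fin (s + 1) → P) (θ : Fin s → Λ) (u : Λˣ) (J : Type)
      [Fintype J] [DecidableEq J] (i : J → ℕ) (g : Matrix J J P) (r : P) (L M : ℕ) (a0 : J)
      (c0 G : ℕ), CMS y Λ θ u → Apx y r i g L M → ∑ a, (-1 : ℤ) ^ i a = 0 →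
      (∀ a, i a = 0 ↔ a = a0) → 2 * (M * (s + 1) ^ (2 * s + 2)) ≤ G →
      c0 + s + 1 + G * (2 * s + 4) + M * (s + 1) ^ (2 * s + 2) ≤ L →
      fV θ u i g c0 G a ≤
        s.factorial * cl (Ideal.span (Set.range (g a0)) ⊔ Ideal.span (Set.range y) ^ L) +
          C * Fintype.card J * cl (Ideal.span (Set.range y) ^ L ⊔ Ideal.span {r}) := by
  obtain ⟨B, C, hC, H⟩ := sym_robust (s : ℤ) a
    ((fun j : Fin s => ((j : ℕ) : ℤ)) + fun _ => (s : ℤ)) ha fun j => by simp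
  refine ⟨C * (2 * ((2 * s + 2) * (2 * ((s : ℝ) + 1) ^ (2 * s + 2) *
    (((B + 2 : ℕ) : ℝ) + 1) ^ s))) + (s + 1) * ((s + 1) * s.factorial), by positivity, ?_⟩
  intro P _ _ _ Λ _ _ y θ u J _ _ i g r L M a0 c0 G h hA heul ha0 hG hL
  have he : 0 ≤ eV y r J L (B + 2) := by unfold eV cl; positivity
  have h1 := H (fV θ u i g c0 G) (2 * eV y r J L (B + 2)) (by positivity) fun c hc =>
    ⟨fun j => h.fV_aff hA hG (by omega) (fun t => by have := hc t; omega) j,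
      fun e => by rw [h.fV_sym, sub_self, abs_zero]; positivity,
      (h.fV_diag hA heul hG (B := B + 2) (by omega) fun t => by have := hc t; omega).trans
        (by linarith)⟩
  have h2 := h.fV_stair hA heul ha0 (c0 := c0) (G := G) (by
    have : s + 1 ≤ (s + 1) ^ (2 * s + 2) := Nat.le_self_pow (by omega) _
    nlinarith) (by omega)
  have h3 := (abs_le.1 h1).2
  unfold eV at h3
  linarith

end Vale.Agent.P202
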