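import Vale.Agent.P202.Defs

/-! Asymptotics of numerical functions. -/

namespace Vale.Agent.P202

open Filter Topology

variable {d : ℕ} {a b : ℕ → ℝ} {e e' : ℝ}

theorem Lim.unique (h : Lim d a e) (h' : Lim d a e') : e = e' := by
  exact tendsto_nhds_unique h h'

theorem Lim.congr' (h : Lim d a e) (hab : ∀ᶠ N in atTop, a N = b N) : Lim d b e := by
  refine Tendsto.congr' ?_ h
  filter_upwards [hab] with N hN
  rw [hN]

theorem Lim.add (h : Lim d a e) (h' : Lim d b e') : Lim d (fun N => a N + b N) (e + e') := by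
  refine Tendsto.congr (fun N => ?_) (Tendsto.add h h')
  ring

theorem Lim.const_mul (c : ℝ) (h : Lim d a e) : Lim d (fun N => c * a N) (c * e) := by
  refine Tendsto.congr (fun N => ?_) (Tendsto.const_mul c h)
  ring

theorem lim_zero : Lim d (fun _ => 0) 0 := by
  simp [Lim]

theorem Lim.sum {ι : Type*} (s : Finset ι) {f : ι → ℕ → ℝ} {c : ι → ℝ}
    (h : ∀ i ∈ s, Lim d (f i) (c i)) : Lim d (fun N => ∑ i ∈ s, f i N) (∑ i ∈ s, c i) := by
  refine Tendsto.congr (fun N => ?_) (tendsto_finset_sum s h)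
  rw [Finset.mul_sum, Finset.sum_div]

theorem Lim.list_sum {ι : Type*} (l : List ι) {f : ι → ℕ → ℝ} {c : ι → ℝ}
    (h : ∀ i ∈ l, Lim d (f i) (c i)) :
    Lim d (fun N => (l.map fun i => f i N).sum) (l.map c).sum := by
  induction l with
  | nil => simpa using lim_zero
  | cons x l ih =>
    simpa using (h x (by simp)).add (ih fun i hi => h i (by simp [hi]))

theorem asym_mono {x y : ℝ} (N : ℕ) (h : x ≤ y) :
    (d.factorial : ℝ) * x / (N : ℝ) ^ d ≤ (d.factorial : ℝ) * y / (N : ℝ) ^ d := by
  gcongr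

theorem Lim.le (h : Lim d a e) (h' : Lim d b e') (hab : ∀ᶠ N in atTop, a N ≤ b N) : e ≤ e' := by
  refine le_of_tendsto_of_tendsto h h' ?_
  filter_upwards [hab] with N hN using asym_mono N hN

theorem Lim.squeeze {c : ℕ → ℝ} (h : Lim d a e) (h' : Lim d b e)
    (h1 : ∀ᶠ N in atTop, a N ≤ c N) (h2 : ∀ᶠ N in atTop, c N ≤ b N) : Lim d c e := by
  have := h.unique h
  refine tendsto_of_tendsto_of_tendsto_of_le_of_le' h h' ?_ ?_
  · filter_upwards [h1] with N hN using asym_mono N hN
  · filter_upwards [h2] with N hN using asym_mono N hN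

theorem asym_ratio (q c : ℝ) : Tendsto (fun N : ℕ => (q * N + c) / (N : ℝ)) atTop (𝓝 q) := by
  have h : Tendsto (fun N : ℕ => q + c / (N : ℝ)) atTop (𝓝 (q + 0)) :=
    tendsto_const_nhds.add (tendsto_const_div_atTop_nhds_zero_nat c)
  rw [add_zero] at h
  refine h.congr' ?_
  filter_upwards [eventually_gt_atTop 0] with N hN
  have : (N : ℝ) ≠ 0 := by positivity
  field_simp

theorem Lim.scale (h : Lim d a e) {q : ℕ} (hq : q ≠ 0) (c : ℕ) :
    Lim d (fun N => a (q * N + c)) ((q : ℝ) ^ d * e) := by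
  have h1 : Tendsto (fun N : ℕ => q * N + c) atTop atTop :=
    tendsto_atTop_mono (fun N => (Nat.le_mul_of_pos_left N (Nat.pos_of_ne_zero hq)).trans
      (Nat.le_add_right _ _)) tendsto_id
  have h2 := ((asym_ratio q c).pow d).mul (h.comp h1)
  refine h2.congr' ?_
  filter_upwards [eventually_gt_atTop 0] with N hN
  have h3 : (N : ℝ) ≠ 0 := by positivity
  have h4 : (q : ℝ) * N + c ≠ 0 := by
    have : (0 : ℝ) < q := by exact_mod_cast Nat.pos_of_ne_zero hq
    positivity
  simp only [Function.comp]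
  push_cast
  rw [div_pow]
  field_simp

theorem Lim.shift (h : Lim d a e) (c : ℕ) : Lim d (fun N => a (N + c)) e := by
  simpa using h.scale one_ne_zero c

theorem Lim.unshift (c : ℕ) (h : Lim d (fun N => a (N + c)) e) : Lim d a e := by
  have h1 := ((asym_ratio 1 (-c)).pow d).mul (h.comp (tendsto_sub_atTop_nat c))
  simp only [one_pow, one_mul] at h1
  refine h1.congr' ?_
  filter_upwards [eventually_gt_atTop c] with N hN
  have h3 : (N : ℝ) ≠ 0 := by
    have : 0 < N := by omega
    positivity
  have h4 : (N : ℝ) - c ≠ 0 := by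
    have : (c : ℝ) < N := by exact_mod_cast hN
    linarith
  simp only [Function.comp]
  rw [Nat.sub_add_cancel hN.le, Nat.cast_sub hN.le, ← sub_eq_add_neg, div_pow]
  field_simp

theorem Lim.shift_sub (h : Lim d a e) (c : ℕ) : Lim d (fun N => a (N - c)) e := by
  exact Lim.unshift c (by simpa using h)

theorem Lim.of_lt (h : Lim d a e) {d' : ℕ} (hd : d < d') : Lim d' a 0 := by
  obtain ⟨k, rfl⟩ := Nat.exists_eq_add_of_lt hd
  have h1 : Tendsto (fun N : ℕ => (((d + k + 1).factorial : ℝ) / d.factorial) *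
      (1 / (N : ℝ)) ^ (k + 1)) atTop (𝓝 ((((d + k + 1).factorial : ℝ) / d.factorial) * 0 ^ (k + 1))) :=
    (tendsto_one_div_atTop_nhds_zero_nat.pow _).const_mul _
  have h2 := h1.mul h
  simp only [ne_eq, Nat.add_eq_zero_iff, one_ne_zero, and_false, not_false_eq_true, zero_pow,
    mul_zero, zero_mul] at h2
  refine h2.congr' ?_
  filter_upwards [eventually_gt_atTop 0] with N hN
  have h3 : (N : ℝ) ≠ 0 := by positivity
  have h4 : (d.factorial : ℝ) ≠ 0 := by positivity
  rw [div_pow]
  field_simp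
  ring

theorem lim_zero_of_bound (C : ℝ) (h : ∀ᶠ N : ℕ in atTop, |a N| * ((N : ℝ) + 1) ≤ C * ((N : ℝ) + 1) ^ d) :
    Lim d a 0 := by
  have h1 : Tendsto (fun N : ℕ => (d.factorial : ℝ) * C * ((1 * N + 1) / (N : ℝ)) ^ d *
      (1 / ((N : ℝ) + 1))) atTop (𝓝 ((d.factorial : ℝ) * C * 1 ^ d * 0)) :=
    (((asym_ratio 1 1).pow d).const_mul _).mul tendsto_one_div_add_atTop_nhds_zero_nat
  rw [mul_zero] at h1
  refine squeeze_zero_norm' ?_ h1
  filter_upwards [h, eventually_gt_atTop 0] with N hN hN0
  have h3 : (0 : ℝ) < N := by positivity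
  rw [Real.norm_eq_abs, abs_div, abs_mul, abs_of_pos (by positivity : (0 : ℝ) < d.factorial),
    abs_of_pos (by positivity : (0 : ℝ) < (N : ℝ) ^ d)]
  have h4 : |a N| ≤ C * ((N : ℝ) + 1) ^ d / ((N : ℝ) + 1) := by
    rw [le_div_iff₀ (by positivity)]; exact hN
  refine (asym_mono N h4).trans (le_of_eq ?_)
  rw [div_pow]
  field_simp

theorem lim_pow : Lim d (fun N => (N : ℝ) ^ d) (d.factorial : ℝ) := by
  refine tendsto_const_nhds.congr' ?_
  filter_upwards [eventually_gt_atTop 0] with N hN
  have h3 : (N : ℝ) ≠ 0 := by positivity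
  field_simp

theorem lim_choose (c : ℕ) : Lim d (fun N => ((N + c).choose d : ℝ)) 1 := by
  refine Lim.shift (a := fun N => (N.choose d : ℝ)) ?_ c
  have h := isEquivalent_choose d
  rw [Asymptotics.isEquivalent_iff_tendsto_one] at h
  · refine h.congr fun N => ?_
    have h4 : (d.factorial : ℝ) ≠ 0 := by positivity
    simp only [Pi.div_apply]
    rw [div_div_eq_mul_div, mul_comm]
  · filter_upwards [eventually_gt_atTop 0] with N hN
    positivity

/-- the number of monomials of degree `N` in `d + 1` variables -/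
theorem lim_multichoose : Lim d (fun N => ((d + 1).multichoose N : ℝ)) 1 := by
  refine (lim_choose d).congr' (Eventually.of_forall fun N => ?_)
  rw [Nat.multichoose_eq, show d + 1 + N - 1 = N + d by omega, Nat.choose_symm_add]

theorem asym_sum_zero (h : Lim d a 0) : Lim (d + 1) (fun N => ∑ i ∈ Finset.range N, a i) 0 := by
  have h1 : a =o[atTop] fun N : ℕ => (N : ℝ) ^ d := by
    rw [Asymptotics.isLittleO_iff_tendsto']
    · have := h.const_mul (1 / (d.factorial : ℝ))
      rw [mul_zero] at this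
      refine Tendsto.congr (fun N => ?_) this
      have h4 : (d.factorial : ℝ) ≠ 0 := by positivity
      field_simp
    · filter_upwards [eventually_gt_atTop 0] with N hN h0
      exact absurd h0 (by positivity)
  have h2 : Tendsto (fun N : ℕ => ∑ i ∈ Finset.range N, (i : ℝ) ^ d) atTop atTop := by
    refine tendsto_atTop_mono' _ ?_ (tendsto_atTop_add_const_right _ (-1) tendsto_natCast_atTop_atTop)
    filter_upwards [eventually_gt_atTop 0] with N hN
    obtain ⟨N, rfl⟩ := Nat.exists_eq_add_of_lt hN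
    rw [zero_add, Finset.sum_range_succ']
    have : (N : ℝ) ≤ ∑ k ∈ Finset.range N, ((k + 1 : ℕ) : ℝ) ^ d := by
      calc (N : ℝ) = ∑ _k ∈ Finset.range N, (1 : ℝ) := by simp
        _ ≤ _ := Finset.sum_le_sum fun k _ => one_le_pow₀ (by push_cast; linarith [k.cast_nonneg (α := ℝ)])
    have h5 : (0 : ℝ) ≤ ((0 : ℕ) : ℝ) ^ d := by positivity
    push_cast at this h5 ⊢
    linarith
  have h3 := h1.sum_range (fun i => by positivity) h2
  have h4 : (fun N : ℕ => ∑ i ∈ Finset.range N, (i : ℝ) ^ d) =O[atTop]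
      fun N : ℕ => (N : ℝ) ^ (d + 1) := by
    refine Asymptotics.IsBigO.of_bound 1 (Eventually.of_forall fun N => ?_)
    rw [Real.norm_of_nonneg (by positivity), Real.norm_of_nonneg (by positivity), one_mul]
    calc ∑ i ∈ Finset.range N, (i : ℝ) ^ d ≤ ∑ _i ∈ Finset.range N, (N : ℝ) ^ d :=
          Finset.sum_le_sum fun i hi => by
            have : (i : ℝ) ≤ N := by exact_mod_cast (Finset.mem_range.1 hi).le
            gcongr
      _ = _ := by simp [pow_succ']
  have h5 := (h3.trans_isBigO h4).tendsto_div_nhds_zero.const_mul ((d + 1).factorial : ℝ)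
  rw [mul_zero] at h5
  exact h5.congr fun N => by ring

theorem asym_sum_range (h : Lim d a e) :
    Lim (d + 1) (fun N => ∑ i ∈ Finset.range N, a i) e := by
  have h1 : Lim d (fun N => a N + (-e) * ((N + 0).choose d : ℝ)) 0 := by
    simpa using h.add ((lim_choose 0).const_mul (-e))
  have h2 := (asym_sum_zero h1).add ((lim_choose (d := d + 1) 0).const_mul e)
  simp only [zero_add, mul_one] at h2
  refine h2.congr' (Eventually.of_forall fun N => ?_)
  have h3 : ∑ i ∈ Finset.range N, (i.choose d : ℝ) = (N.choose (d + 1) : ℝ) := by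
    induction N with
    | zero => simp
    | succ N ih => rw [Finset.sum_range_succ, ih, Nat.choose_succ_succ]; push_cast; ring
  simp only [add_zero, Finset.sum_add_distrib, ← Finset.mul_sum, h3]
  ring

theorem Lim.of_diff (h : Lim d (fun N => a (N + 1) - a N) e) : Lim (d + 1) a e := by
  have h1 := asym_sum_range h
  have h2 : Lim (d + 1) (fun _ => a 0) 0 := by
    have : Lim 0 (fun _ => a 0) (a 0) := by simp [Lim]
    exact this.of_lt (Nat.succ_pos d)
  have h3 := h1.add h2
  rw [add_zero] at h3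
  refine h3.congr' (Eventually.of_forall fun N => ?_)
  simp only [Finset.sum_range_sub]
  ring

theorem Lim.sum_range (h : Lim d a e) : Lim (d + 1) (fun N => ∑ i ∈ Finset.range N, a i) e := by
  exact asym_sum_range h

theorem lim_of_bdiff {F : ℤ → ℝ} (N0 : ℤ) (h : ∀ N, N0 ≤ N → bdiff d F N = e) :
    Lim d (fun N : ℕ => F N) e := by
  have key : ∀ k j, j + k = d → Lim k (fun N : ℕ => bdiff j F N) e := by
    intro k
    induction k with
    | zero =>
      intro j hj
      obtain rfl : j = d := hj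
      refine tendsto_const_nhds.congr' ?_
      filter_upwards [eventually_ge_atTop N0.toNat] with N hN
      rw [h N (by omega)]; simp
    | succ k ih =>
      intro j hj
      refine Lim.of_diff ?_
      have := (ih (j + 1) (by omega)).shift 1
      simpa [bdiff] using this
  exact key d 0 (by simp)

end Vale.Agent.P202
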