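import Vale.Agent.P202.Len

/-! Prime filtrations, systems of parameters. -/

namespace Vale.Agent.P202

open IsLocalRing

variable {A B C : Type*} [CommRing A] [CommRing B] [CommRing C]

/-- prime filtrations -/
theorem exists_prime_list [IsNoetherianRing A] (a : Ideal A) :
    ∃ l : List (Ideal A), (∀ p ∈ l, p.IsPrime ∧ a ≤ p) ∧
      ∀ F : Ideal A → ℝ, (∀ b, a ≤ b → ∀ r, F b ≤ F (b.colon {r}) + F (b ⊔ Ideal.span {r})) →
        F ⊤ ≤ 0 → F a ≤ (l.map F).sum := by
  induction a using WellFoundedGT.induction with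
  | ind a ih =>
    by_cases hp : a.IsPrime
    · exact ⟨[a], by simpa using hp, fun F _ _ => by simp⟩
    rcases Ideal.not_isPrime_iff.1 hp with rfl | ⟨r, hr, s, hs, hrs⟩
    · exact ⟨[], by simp, fun F _ h => by simpa using h⟩
    have h1 : a < a.colon {r} := by
      refine lt_of_le_of_ne (fun x hx => ?_) fun e => hs ?_
      · rw [Submodule.mem_colon_singleton]; exact a.mul_mem_right _ hx
      · rw [e, Submodule.mem_colon_singleton, smul_eq_mul, mul_comm]; exact hrs
    have h2 : a < a ⊔ Ideal.span {r} := by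
      refine lt_of_le_of_ne le_sup_left fun e => hr ?_
      rw [e]; exact Ideal.mem_sup_right (Ideal.mem_span_singleton_self r)
    obtain ⟨l1, p1, q1⟩ := ih _ h1
    obtain ⟨l2, p2, q2⟩ := ih _ h2
    refine ⟨l1 ++ l2, fun p hp => ?_, fun F hF h0 => ?_⟩
    · rcases List.mem_append.1 hp with hp | hp
      · exact ⟨(p1 p hp).1, h1.le.trans (p1 p hp).2⟩
      · exact ⟨(p2 p hp).1, h2.le.trans (p2 p hp).2⟩
    · rw [List.map_append, List.sum_append]
      exact (hF a le_rfl r).trans (add_le_add (q1 F (fun b hb => hF b (h1.le.trans hb)) h0)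
        (q2 F (fun b hb => hF b (h2.le.trans hb)) h0))

theorem colc_prim_iff [IsLocalRing A] [IsNoetherianRing A] {I : Ideal A} :
    Prim I ↔ maximalIdeal A ≤ I.radical :=
  ⟨fun ⟨c, hc⟩ _ hx => ⟨c, hc (Ideal.pow_mem_pow hx c)⟩,
    fun h => Ideal.exists_pow_le_of_le_radical_of_fg h (IsNoetherian.noetherian _)⟩

theorem colc_gen_mono {W : Ideal A} {d d' : ℕ} (h : Gen W d) (hd : d ≤ d') : Gen W d' := by
  obtain ⟨w, rfl⟩ := h
  refine ⟨fun j => if h : (j : ℕ) < d then w ⟨j, h⟩ else 0, le_antisymm ?_ ?_⟩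
  · refine Ideal.span_mono ?_
    rintro _ ⟨j, rfl⟩
    exact ⟨⟨j, j.2.trans_le hd⟩, by simp⟩
  · rw [Ideal.span_le]
    rintro _ ⟨j, rfl⟩
    beta_reduce
    split_ifs with h
    · exact Ideal.subset_span ⟨_, rfl⟩
    · exact zero_mem _

theorem colc_min [IsLocalRing A] [IsNoetherianRing A] {I W : Ideal A} [IsLocalRing (A ⧸ I)]
    (hWm : W ≤ maximalIdeal A) :
    Prim (I ⊔ W) ↔ maximalIdeal (A ⧸ I) ∈ (W.map (Ideal.Quotient.mk I)).minimalPrimes := by
  have hs : Function.Surjective (Ideal.Quotient.mk I) := Ideal.Quotient.mk_surjective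
  have hm : (maximalIdeal A).map (Ideal.Quotient.mk I) = maximalIdeal (A ⧸ I) :=
    map_maximalIdeal_of_surjective _ hs
  constructor
  · rintro ⟨c, hc⟩
    refine ⟨⟨inferInstance, hm ▸ Ideal.map_mono hWm⟩, fun Q hQ _ => ?_⟩
    have := hQ.1
    rw [← hm, Ideal.map_le_iff_le_comap]
    refine Ideal.IsPrime.le_of_pow_le (n := c) (hc.trans (sup_le ?_ ?_))
    · intro x hx
      rw [Ideal.mem_comap, Ideal.Quotient.eq_zero_iff_mem.2 hx]; exact zero_mem _
    · exact Ideal.map_le_iff_le_comap.1 hQ.2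
  · intro h
    rw [colc_prim_iff, Ideal.radical_eq_sInf, le_sInf_iff]
    rintro P ⟨hP, hPp⟩
    have hI : I ≤ P := le_sup_left.trans hP
    have hQ : (P.map (Ideal.Quotient.mk I)).IsPrime :=
      Ideal.map_isPrime_of_surjective hs (by simpa using hI)
    have h1 := h.2 ⟨hQ, Ideal.map_mono (le_sup_right.trans hP)⟩ (le_maximalIdeal hQ.ne_top)
    rw [← hm, Ideal.map_le_iff_le_comap, Ideal.comap_map_of_surjective _ hs] at h1
    refine h1.trans (sup_le le_rfl ?_)
    rw [← RingHom.ker_eq_comap_bot, Ideal.mk_ker]; exact hI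

/-- existence of systems of parameters -/
theorem exists_sop [IsNoetherianRing A] [IsLocalRing A] (I : Ideal A) {d : ℕ}
    (hd : ringKrullDim (A ⧸ I) ≤ d) :
    ∃ W : Ideal A, Gen W d ∧ W ≤ maximalIdeal A ∧ Prim (I ⊔ W) := by
  classical
  by_cases hI : I = ⊤
  · exact ⟨⊥, ⟨fun _ => 0, (Ideal.span_eq_bot.2 (by rintro _ ⟨j, rfl⟩; rfl)).symm⟩, bot_le, 0, by simp [hI]⟩
  have := Ideal.Quotient.nontrivial_iff.2 hI
  have hs : Function.Surjective (Ideal.Quotient.mk I) := Ideal.Quotient.mk_surjective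
  have : IsLocalRing (A ⧸ I) := IsLocalRing.of_surjective' _ hs
  obtain ⟨s, hs1, hs2⟩ := Ideal.exists_finset_card_eq_height_of_isNoetherianRing
    (maximalIdeal (A ⧸ I))
  have hc : s.card ≤ d := by
    rw [← maximalIdeal_height_eq_ringKrullDim, ← hs2] at hd
    exact_mod_cast hd
  have hm : (maximalIdeal A).map (Ideal.Quotient.mk I) = maximalIdeal (A ⧸ I) :=
    map_maximalIdeal_of_surjective _ hs
  have : ∀ j : Fin s.card, ∃ y ∈ maximalIdeal A,
      Ideal.Quotient.mk I y = (s.equivFin.symm j : A ⧸ I) := fun j =>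
    (Ideal.mem_map_iff_of_surjective _ hs).1
      (hm ▸ hs1.1.2 (Ideal.subset_span (s.equivFin.symm j).2))
  choose w hw1 hw2 using this
  have hWm : Ideal.span (Set.range w) ≤ maximalIdeal A := by
    rw [Ideal.span_le]; rintro _ ⟨j, rfl⟩; exact hw1 j
  refine ⟨Ideal.span (Set.range w), colc_gen_mono ⟨w, rfl⟩ hc, hWm, (colc_min hWm).2 ?_⟩
  suffices e : (Ideal.span (Set.range w)).map (Ideal.Quotient.mk I) = Ideal.span s by
    rw [e]; exact hs1
  rw [Ideal.map_span]
  congr 1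
  ext x
  constructor
  · rintro ⟨_, ⟨j, rfl⟩, rfl⟩
    rw [hw2]; exact (s.equivFin.symm j).2
  · intro hx
    exact ⟨_, ⟨s.equivFin ⟨x, hx⟩, rfl⟩, by simp [hw2]⟩

theorem dim_le_of_sop [IsNoetherianRing A] [IsLocalRing A] {I W : Ideal A} {d : ℕ}
    (hW : Gen W d) (hWm : W ≤ maximalIdeal A) (h : Prim (I ⊔ W)) :
    ringKrullDim (A ⧸ I) ≤ d := by
  classical
  by_cases hI : I = ⊤
  · have : Subsingleton (A ⧸ I) := Ideal.Quotient.subsingleton_iff.2 hI
    rw [ringKrullDim_eq_bot_of_subsingleton]; exact bot_le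
  have := Ideal.Quotient.nontrivial_iff.2 hI
  have hs : Function.Surjective (Ideal.Quotient.mk I) := Ideal.Quotient.mk_surjective
  have : IsLocalRing (A ⧸ I) := IsLocalRing.of_surjective' _ hs
  have h1 := (colc_min hWm).1 h
  obtain ⟨w, rfl⟩ := hW
  rw [Ideal.map_span, ← Set.range_comp] at h1
  have h2 := Ideal.height_le_card_of_mem_minimalPrimes_span (Set.finite_range _) h1
  have h3 : (Set.range (Ideal.Quotient.mk I ∘ w)).ncard ≤ d := by
    rw [← Set.image_univ]
    exact (Set.ncard_image_le Set.finite_univ).trans (by simp [Set.ncard_univ])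
  rw [← maximalIdeal_height_eq_ringKrullDim]
  exact_mod_cast h2.trans (by exact_mod_cast h3)

/-- a strictly larger prime needs fewer parameters -/
theorem exists_sop_of_lt [IsNoetherianRing A] [IsLocalRing A] {p p' W : Ideal A} [p.IsPrime]
    (hp' : p' ≠ ⊤) (hlt : p < p') {d : ℕ} (hW : Gen W (d + 1)) (hWm : W ≤ maximalIdeal A)
    (h : Prim (p ⊔ W)) : ∃ W' : Ideal A, Gen W' d ∧ W' ≤ maximalIdeal A ∧ Prim (p' ⊔ W') := by
  refine exists_sop p' ?_
  have h1 := dim_le_of_sop hW hWm h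
  obtain ⟨r, hr', hr⟩ := SetLike.exists_of_lt hlt
  have h2 := ringKrullDim_succ_le_of_surjective (Ideal.Quotient.factor hlt.le)
    (Ideal.Quotient.factor_surjective hlt.le) (r := Ideal.Quotient.mk p r)
    (mem_nonZeroDivisors_of_ne_zero (by rwa [Ne, Ideal.Quotient.eq_zero_iff_mem]))
    (by simpa [Ideal.Quotient.eq_zero_iff_mem] using hr')
  have h3 := h2.trans h1
  generalize ringKrullDim (A ⧸ p') = x at h3
  induction x with
  | bot => exact bot_le
  | coe x =>
    have h4 : x + 1 ≤ (d : ℕ∞) + 1 := by exact_mod_cast h3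
    exact_mod_cast (ENat.add_le_add_iff_right ENat.one_ne_top).1 h4

theorem Gen.map {W : Ideal A} {d : ℕ} (h : Gen W d) (f : A →+* B) : Gen (W.map f) d := by
  obtain ⟨w, rfl⟩ := h
  exact ⟨f ∘ w, by rw [Ideal.map_span, Set.range_comp]⟩

theorem Gen.sup {W W' : Ideal A} {d d' : ℕ} (h : Gen W d) (h' : Gen W' d') :
    Gen (W ⊔ W') (d + d') := by
  obtain ⟨w, rfl⟩ := h
  obtain ⟨w', rfl⟩ := h'
  refine ⟨Fin.append w w', ?_⟩
  rw [← Ideal.span_union]
  congr 1
  ext x
  constructor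
  · rintro (⟨j, rfl⟩ | ⟨j, rfl⟩)
    · exact ⟨Fin.castAdd d' j, by simp⟩
    · exact ⟨Fin.natAdd d j, by simp⟩
  · rintro ⟨j, rfl⟩
    induction j using Fin.addCases with
    | left j => exact Or.inl ⟨j, by simp⟩
    | right j => exact Or.inr ⟨j, by simp⟩

theorem gen_ofList (l : List A) : Gen (Ideal.ofList l) l.length := by
  refine ⟨l.get, ?_⟩
  rw [Ideal.ofList]
  congr 1
  ext x
  simp [List.mem_iff_get]

theorem Gen.mono {W : Ideal A} {d d' : ℕ} (h : Gen W d) (hd : d ≤ d') : Gen W d' := by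
  exact colc_gen_mono h hd

theorem Prim.mono [IsLocalRing A] {I I' : Ideal A} (h : Prim I) (hI : I ≤ I') : Prim I' := by
  obtain ⟨c, hc⟩ := h
  exact ⟨c, hc.trans hI⟩

theorem Prim.sup_pow [IsLocalRing A] {q W : Ideal A} (h : Prim (q ⊔ W)) (N : ℕ) :
    Prim (q ⊔ W ^ N) := by
  obtain ⟨c, hc⟩ := h
  refine ⟨c * N, ?_⟩
  rw [pow_mul]
  refine (Ideal.pow_right_mono hc N).trans ?_
  induction N with
  | zero => simp
  | succ N ih =>
    rw [pow_succ, pow_succ]
    refine (Ideal.mul_mono_left ih).trans ?_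
    rw [Ideal.sup_mul, Ideal.mul_sup (W ^ N)]
    refine sup_le (le_sup_of_le_left Ideal.mul_le_left) (sup_le ?_ le_sup_right)
    exact le_sup_of_le_left Ideal.mul_le_right

theorem prim_iff_radical [IsLocalRing A] [IsNoetherianRing A] {I : Ideal A} :
    Prim I ↔ maximalIdeal A ≤ I.radical := by
  exact colc_prim_iff

end Vale.Agent.P202
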