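import Vale.Agent.P202.Mat
import Vale.Agent.P202.Asym

/-! Koszul complexes and multiplicities. -/

namespace Vale.Agent.P202

open IsLocalRing

variable {R : Type*} [CommRing R]

theorem kos_deg2 (y : R) : Deg (fun x : Fin 2 => (x : ℕ)) !![0, y; 0, 0] := by
  intro a b h
  fin_cases a <;> fin_cases b <;> simp_all

theorem kos_sq2 (y : R) : !![0, y; 0, 0] * !![0, y; 0, 0] = (0 : Matrix (Fin 2) (Fin 2) R) := by
  ext a b
  fin_cases a <;> fin_cases b <;> simp [Matrix.mul_apply, Fin.sum_univ_two]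

theorem kos_null2 (y : R) : Null (fun x : Fin 2 => (x : ℕ)) !![0, y; 0, 0] ⊥ y := by
  refine ⟨!![0, 0; 1, 0], fun a b h => ?_, fun a b => ?_⟩
  · fin_cases a <;> fin_cases b <;> simp_all
  · fin_cases a <;> fin_cases b <;> simp [Matrix.mul_apply, Fin.sum_univ_two]

theorem kos_ent_zero {J : Type*} (q : Ideal R) : Ent (0 : Matrix J J R) q := fun _ _ => q.zero_mem

theorem kos_span_cons {d : ℕ} (y : R) (z : Fin d → R) :
    Ideal.span (Set.range (Fin.cons y z : Fin (d + 1) → R)) =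
      Ideal.span {y} ⊔ Ideal.span (Set.range z) := by
  rw [Fin.range_cons, Ideal.span_insert]

theorem IsKos.cons {d : ℕ} {z : Fin d → R} {K : Type} [Fintype K] [DecidableEq K] {k : K → ℕ}
    {κ : Matrix K K R} (h : IsKos z k κ) (y : R) :
    IsKos (Fin.cons y z : Fin (d + 1) → R) (fun x : K × Fin 2 => k x.1 + (x.2 : ℕ))
      (tens k κ !![0, y; 0, 0]) := by
  refine ⟨deg_tens h.deg (kos_deg2 y), ?_, ?_, ?_, ?_, ?_, ?_⟩
  · have h1 := sq_tens (q := ⊥) (g := !![0, y; 0, 0]) h.deg (by rw [h.sq]; exact kos_ent_zero _)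
      (by rw [kos_sq2]; exact kos_ent_zero _)
    ext a b
    exact (Ideal.mem_bot.1 (h1 a b))
  · rw [kos_span_cons]
    refine ent_tens (fun a b => Ideal.mem_sup_right (h.ent a b)) fun a b => ?_
    have hy : y ∈ Ideal.span {y} ⊔ Ideal.span (Set.range z) :=
      Ideal.mem_sup_left (Ideal.mem_span_singleton_self y)
    fin_cases a <;> fin_cases b <;> simp [hy]
  · rintro ⟨a, x⟩
    have := h.le a
    have := x.2
    simp only
    omega
  · obtain ⟨a0, ha0⟩ := h.zero
    refine ⟨(a0, 0), ?_⟩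
    rintro ⟨a, x⟩
    simp only [Nat.add_eq_zero_iff, ha0, Prod.mk.injEq, Fin.ext_iff, Fin.val_zero]
  · intro t
    refine Fin.cases ?_ (fun t => ?_) t
    · exact null_tens_right (i := fun x : Fin 2 => (x : ℕ)) h.deg (kos_null2 y)
    · exact null_tens_left (i := fun x : Fin 2 => (x : ℕ)) (h.null t)
  · intro F N
    show _ = bdiff d F N - bdiff d F (N - 1)
    rw [← h.euler, ← h.euler, Fintype.sum_prod_type, ← Finset.sum_sub_distrib]
    refine Finset.sum_congr rfl fun a _ => ?_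
    rw [Fin.sum_univ_two]
    simp only [Fin.val_zero, Fin.val_one, add_zero, pow_succ, Nat.cast_add, Nat.cast_one]
    rw [show N - ((k a : ℤ) + 1) = N - 1 - k a by ring]
    ring

theorem exists_isKos {d : ℕ} (z : Fin d → R) :
    ∃ (K : Type) (_ : Fintype K) (_ : DecidableEq K) (k : K → ℕ) (κ : Matrix K K R),
      IsKos z k κ := by
  induction d with
  | zero =>
    refine ⟨Unit, inferInstance, inferInstance, fun _ => 0, 0, fun a b h => absurd rfl h, by simp,
      kos_ent_zero _, fun _ => le_rfl, ⟨(), fun _ => by simp⟩, fun t => t.elim0, fun F N => ?_⟩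
    simp [bdiff]
  | succ d ih =>
    obtain ⟨K, _, _, k, κ, h⟩ := ih (Fin.tail z)
    have := h.cons (z 0)
    rw [Fin.cons_self_tail] at this
    exact ⟨_, _, _, _, _, this⟩

theorem kos_sup_pow (I Z : Ideal R) (m : ℕ) : (I ⊔ Z) ^ m ≤ I ⊔ Z ^ m := by
  induction m with
  | zero => simp
  | succ m ih =>
    rw [pow_succ, pow_succ]
    refine (Ideal.mul_mono_left ih).trans ?_
    rw [Ideal.sup_mul, Ideal.mul_sup, Ideal.mul_sup]
    exact sup_le (sup_le (Ideal.mul_le_left.trans le_sup_left)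
      (Ideal.mul_le_left.trans le_sup_left))
      (sup_le (Ideal.mul_le_right.trans le_sup_left) le_sup_right)

theorem kos_act {K : Type*} [Fintype K] (κ : Matrix K K R) (v : K → R) :
    act κ v = κ.mulVec v := by
  funext a
  rw [act_apply]; rfl

theorem kos_mem_smul_top {K : Type*} [Fintype K] [DecidableEq K] (I : Ideal R) (v : K → R) :
    v ∈ I • (⊤ : Submodule R (K → R)) ↔ ∀ a, v a ∈ I := by
  constructor
  · intro h
    refine Submodule.smul_induction_on h (fun r hr w _ a => I.mul_mem_right _ hr)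
      fun x y hx hy a => I.add_mem (hx a) (hy a)
  · intro h
    rw [← Finset.univ_sum_single v]
    refine Submodule.sum_mem _ fun a _ => ?_
    have : (Pi.single a (v a) : K → R) = v a • Pi.single a 1 := by
      rw [← Pi.single_smul, smul_eq_mul, mul_one]
    rw [this]
    exact Submodule.smul_mem_smul (h a) trivial

theorem kos_mulVec_mem {K : Type*} [Fintype K] {I : Ideal R} (h : Matrix K K R) {v : K → R}
    (hv : ∀ a, v a ∈ I) (a : K) : h.mulVec v a ∈ I :=
  I.sum_mem fun b _ => I.mul_mem_left _ (hv b)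

/-- deep cycles are boundaries of deep chains -/
theorem IsKos.deep [IsNoetherianRing R] {d : ℕ} {z : Fin d → R} {K : Type} [Fintype K]
    [DecidableEq K] {k : K → ℕ} {κ : Matrix K K R} (h : IsKos z k κ) (I : Ideal R) :
    ∃ c : ℕ, ∀ m, c ≤ m → ∀ x : K → R, (∀ a, x a ∈ Ideal.span (Set.range z) ^ (m + 1)) →
      (∀ a, κ.mulVec x a ∈ I) →
      ∃ y : K → R, (∀ a, y a ∈ Ideal.span (Set.range z) ^ m) ∧ ∀ a, x a - κ.mulVec y a ∈ I := by
  set Z := Ideal.span (Set.range z) with hZ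
  let C : Submodule R (K → R) := (I • ⊤ : Submodule R (K → R)).comap κ.mulVecLin
  obtain ⟨c, hc⟩ := Ideal.exists_pow_inf_eq_pow_smul Z C
  refine ⟨c, fun m hm x hx hκx => ?_⟩
  have hx1 : x ∈ Z ^ (m + 1) • (⊤ : Submodule R (K → R)) ⊓ C :=
    ⟨(kos_mem_smul_top _ _).2 hx, (kos_mem_smul_top _ _).2 hκx⟩
  rw [hc _ (by omega), show m + 1 - c = 1 + (m - c) by omega, pow_add, pow_one, mul_smul,
    ← hc _ hm] at hx1
  let B : Submodule R (K → R) :=
    (Z ^ m • ⊤ : Submodule R (K → R)).map κ.mulVecLin ⊔ (I • ⊤ : Submodule R (K → R))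
  have hB : Z • (Z ^ m • (⊤ : Submodule R (K → R)) ⊓ C) ≤ B := by
    refine Submodule.smul_le.2 fun r hr w hw => ?_
    have h1 : Z ≤ B.comap (LinearMap.toSpanSingleton R (K → R) w) := by
      refine Ideal.span_le.2 ?_
      rintro _ ⟨t, rfl⟩
      obtain ⟨H, -, hH⟩ := h.null t
      have h2 : κ * H + H * κ = z t • (1 : Matrix K K R) := by
        rw [← sub_eq_zero]; ext a b; exact Ideal.mem_bot.1 (hH a b)
      have h3 : z t • w = κ.mulVec (H.mulVec w) + H.mulVec (κ.mulVec w) := by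
        rw [Matrix.mulVec_mulVec, Matrix.mulVec_mulVec, ← Matrix.add_mulVec, h2,
          Matrix.smul_mulVec, Matrix.one_mulVec]
      show z t • w ∈ B
      rw [h3]
      refine Submodule.add_mem_sup ⟨H.mulVec w, (kos_mem_smul_top _ _).2
        (kos_mulVec_mem H ((kos_mem_smul_top _ _).1 hw.1)), rfl⟩ ((kos_mem_smul_top _ _).2
        (kos_mulVec_mem H ((kos_mem_smul_top _ _).1 hw.2)))
    exact h1 hr
  obtain ⟨_, ⟨y, hy, rfl⟩, u, hu, hyu⟩ := Submodule.mem_sup.1 (hB hx1)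
  refine ⟨y, (kos_mem_smul_top _ _).1 hy, fun a => ?_⟩
  have := (kos_mem_smul_top _ _).1 hu a
  rw [← hyu]
  simpa using this

theorem IsKos.acyclic [IsNoetherianRing R] {d : ℕ} {z : Fin d → R} {K : Type} [Fintype K]
    [DecidableEq K] {k : K → ℕ} {κ : Matrix K K R} (h : IsKos z k κ) (I : Ideal R) :
    ∃ c : ℕ, ∀ N, c ≤ N → ∀ n, hh (act κ : (K → R) →ₗ[R] (K → R))
      (pf k fun a => I ⊔ Ideal.span (Set.range z) ^ (N - k a)) (pf k fun _ => I) n = 0 := by
  obtain ⟨c, hc⟩ := h.deep I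
  refine ⟨c + d + 1, fun N hN n => hh_eq_zero_iff.2 fun x hx hκx => ?_⟩
  set Z := Ideal.span (Set.range z) with hZ
  rw [mem_pf] at hx hκx
  by_cases hn : ∃ a0, n + k a0 = 0
  swap
  · refine ⟨0, Submodule.zero_mem _, ?_⟩
    rw [map_zero, sub_zero, mem_pf]
    exact fun a => ⟨fun h1 => absurd ⟨a, h1⟩ hn, (hx a).2⟩
  obtain ⟨a0, ha0⟩ := hn
  have hle := h.le a0
  have h1 : ∀ a, ∃ u ∈ I, ∃ v ∈ Z ^ (N - k a0 - 1 + 1), u + v = x a := by
    intro a
    by_cases ha : n + k a = 0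
    · have h2 : N - k a0 - 1 + 1 = N - k a := by omega
      rw [h2]; exact Submodule.mem_sup.1 ((hx a).1 ha)
    · exact ⟨0, I.zero_mem, 0, Ideal.zero_mem _, by rw [(hx a).2 ha, add_zero]⟩
  choose u hu v hv huv using h1
  have hκ' : ∀ a, κ.mulVec x a ∈ I := by
    intro a
    rw [← kos_act]
    by_cases ha : n + 1 + k a = 0
    · exact (hκx a).1 ha
    · rw [(hκx a).2 ha]; exact I.zero_mem
  have hv' : ∀ a, κ.mulVec v a ∈ I := by
    intro a
    have : v = x - u := by funext b; simp [← huv b]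
    rw [this, Matrix.mulVec_sub]
    exact I.sub_mem (hκ' a) (kos_mulVec_mem κ hu a)
  obtain ⟨y, hy, hvy⟩ := hc (N - k a0 - 1) (by omega) v hv hv'
  refine ⟨fun a => if n - 1 + k a = 0 then y a else 0, mem_pf.2 fun a => ⟨fun ha => ?_,
    fun ha => if_neg ha⟩, mem_pf.2 fun a => ⟨fun ha => ?_, fun ha => ?_⟩⟩
  · rw [if_pos ha, show N - k a = N - k a0 - 1 by omega]
    exact Ideal.mem_sup_right (hy a)
  · have h2 : act κ (fun a => if n - 1 + k a = 0 then y a else 0) a = κ.mulVec y a := by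
      rw [act_apply]
      refine Finset.sum_congr rfl fun b _ => ?_
      by_cases hb : κ a b = 0
      · simp [hb]
      · have := h.deg a b hb
        rw [if_pos (by omega)]; rfl
    rw [Pi.sub_apply, h2, ← huv a, add_sub_assoc]
    exact I.add_mem (hu a) (hvy a)
  · rw [Pi.sub_apply, (hx a).2 ha, act_apply, zero_sub, neg_eq_zero]
    refine Finset.sum_eq_zero fun b _ => ?_
    by_cases hb : κ a b = 0
    · simp [hb]
    · have := h.deg a b hb
      rw [if_neg (by omega), smul_zero]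

theorem kos_prim_pow [IsLocalRing R] {I Z : Ideal R} (h : Prim (I ⊔ Z)) (m : ℕ) :
    Prim (I ⊔ Z ^ m) := by
  obtain ⟨c, hc⟩ := h
  exact ⟨c * m, by rw [pow_mul]; exact (Ideal.pow_right_mono hc m).trans (kos_sup_pow _ _ _)⟩

theorem IsKos.totOk {d : ℕ} {z : Fin d → R} {K : Type} [Fintype K] [DecidableEq K] {k : K → ℕ}
    {κ : Matrix K K R} (h : IsKos z k κ) (I : Ideal R) {N : ℕ} (hN : d ≤ N) :
    TotOk κ k (0 : R →ₗ[R] R) (fun _ => conc ⊤)
      (fun a => conc (I ⊔ Ideal.span (Set.range z) ^ (N - k a))) := by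
  refine ⟨h.deg, fun a => isPair_conc le_top, fun a b n x hx => Submodule.smul_mem _ _ hx,
    fun a b n x hx => ?_, fun a c n x _ => by rw [h.sq]; simp⟩
  by_cases hab : κ a b = 0
  · simp [hab]
  have h1 := h.deg a b hab
  have h2 := h.le b
  unfold conc at hx ⊢
  split_ifs at hx ⊢ with hn
  · obtain ⟨u, hu, v, hv, rfl⟩ := Submodule.mem_sup.1 hx
    rw [smul_add, show N - k a = N - k b + 1 by omega, pow_succ']
    exact Submodule.add_mem_sup (I.smul_mem _ hu) (Ideal.mul_mem_mul (h.ent a b) hv)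
  · exact Submodule.smul_mem _ _ hx

variable [IsLocalRing R] [IsNoetherianRing R]

/-- the Euler characteristic of the Koszul complex is the multiplicity -/
theorem IsKos.lim {d : ℕ} {z : Fin d → R} {K : Type} [Fintype K] [DecidableEq K] {k : K → ℕ}
    {κ : Matrix K K R} (h : IsKos z k κ) {I : Ideal R}
    (hI' : Prim (I ⊔ Ideal.span (Set.range z))) :
    (∀ n, hI k κ I n ≠ ⊤) ∧
      Lim d (fun N => cl (I ⊔ Ideal.span (Set.range z) ^ N)) (chiI k κ I) := by
  have hqI : I • (⊤ : Ideal R) ≤ I := Submodule.smul_le.2 fun r hr x _ => I.mul_mem_right _ hr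
  refine ⟨hfin_pf_of_null h.deg z hI' (fun t => ⟨1, by
    rw [pow_one]; exact (h.null t).mono bot_le⟩) (IsNoetherian.noetherian _) hqI, ?_⟩
  obtain ⟨c, hc⟩ := h.acyclic I
  set Z := Ideal.span (Set.range z) with hZ
  have key := lim_of_bdiff (d := d) (e := chiI k κ I) (F := fun N : ℤ => cl (I ⊔ Z ^ N.toNat))
    ((c + d : ℕ) : ℤ) fun N hN => by
      obtain ⟨N, rfl⟩ := Int.eq_ofNat_of_zero_le ((Int.natCast_nonneg _).trans hN)
      have hN' : c + d ≤ N := by exact_mod_cast hN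
      have ht := h.totOk I (N := N) (by omega)
      have h1 := ht.isPair
      have hfin : ∀ a, rl (I ⊔ Z ^ (N - k a)) (⊤ : Ideal R) ≠ ⊤ := fun a =>
        rl_ne_top_of_prim (kos_prim_pow hI' _)
      have hf : ∀ a, HFin (0 : R →ₗ[R] R) (conc ⊤) (conc (I ⊔ Z ^ (N - k a))) := by
        intro a n
        rw [hh_conc]
        split_ifs
        · exact hfin a
        · exact ENat.zero_ne_top
      have h2 := ht.chi_eq hf
      have h4 : HFin (tot κ k (0 : R →ₗ[R] R)) (prof k fun _ => conc ⊤)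
          (prof k fun a => conc (I ⊔ Z ^ (N - k a))) := fun n =>
        ne_top_of_le_ne_top (ENat.sum_ne_top.2 fun a _ => hf a _) (ht.hh_le n)
      rw [tot_zero] at h1 h2 h4
      have h3 : IsPair (act κ : (K → R) →ₗ[R] (K → R)) (pf k fun _ => ⊤) (pf k fun _ => I) :=
        isPair_pf (q := I) h.deg (by rw [h.sq]; exact kos_ent_zero _) le_top hqI
      have h5 : IsPair (act κ : (K → R) →ₗ[R] (K → R)) (pf k fun a => I ⊔ Z ^ (N - k a))
          (pf k fun _ => I) :=
        h3.lower (fun n v hv => mem_pf.2 fun a => ⟨fun ha =>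
          Ideal.mem_sup_left ((mem_pf.1 hv a).1 ha), (mem_pf.1 hv a).2⟩) h1.le h1.st'
      have h6 : chiI k κ I = _ := chi_add h1 h5 h3 h4 fun n =>
        (hc N (by omega) n).trans_ne ENat.zero_ne_top
      have h7 := h6.trans (congrArg₂ (· + ·) (chi_of_acyclic (hc N (by omega))) h2)
      rw [← h.euler, h7, zero_add]
      push_cast
      refine Finset.sum_congr rfl fun a _ => ?_
      rw [chi_conc, show ((N : ℤ) - k a).toNat = N - k a by omega]
      simp [cl, hZ]
  simpa using key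

theorem exists_lim {d : ℕ} {W : Ideal R} (hW : Gen W d) {I : Ideal R} (h : Prim (I ⊔ W)) :
    ∃ e : ℝ, Lim d (fun N => cl (I ⊔ W ^ N)) e := by
  obtain ⟨w, rfl⟩ := hW
  obtain ⟨K, _, _, k, κ, hk⟩ := exists_isKos w
  exact ⟨_, (hk.lim h).2⟩

omit [IsLocalRing R] [IsNoetherianRing R] in
theorem kos_isRes {q : Ideal R} {y : R} (hy : RegMod q y) :
    IsRes (fun x : Fin 2 => (x : ℕ)) !![0, y; 0, 0] 0 q (q ⊔ Ideal.span {y}) := by
  refine ⟨kos_deg2 y, by rw [kos_sq2]; exact kos_ent_zero _, fun a => by simp, le_sup_left,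
    fun b => ?_, fun n => hh_eq_zero_iff.2 fun x hx hgx => ?_⟩
  · have hy : y ∈ q ⊔ Ideal.span {y} := Ideal.mem_sup_right (Ideal.mem_span_singleton_self y)
    fin_cases b <;> simp [hy]
  rw [mem_pf] at hx hgx
  have e0 : ∀ v : Fin 2 → R, act !![0, y; 0, 0] v 0 = y * v 1 := by
    intro v; rw [act_apply]; simp [Fin.sum_univ_two]
  have e1 : ∀ v : Fin 2 → R, act !![0, y; 0, 0] v 1 = 0 := by
    intro v; rw [act_apply]; simp [Fin.sum_univ_two]
  have hx0 := hx 0
  have hx1 := hx 1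
  have hg0 := hgx 0
  simp only [Fin.val_zero, Fin.val_one, Nat.cast_zero, Nat.cast_one, add_zero, if_pos] at hx0 hx1 hg0
  by_cases hn : n = 0
  · obtain ⟨u, hu, v, hv, huv⟩ := Submodule.mem_sup.1 (hx0.1 hn)
    obtain ⟨b, rfl⟩ := Ideal.mem_span_singleton'.1 hv
    refine ⟨![0, b], mem_pf.2 (Fin.forall_fin_two.2 ⟨?_, ?_⟩),
      mem_pf.2 (Fin.forall_fin_two.2 ⟨?_, ?_⟩)⟩
    · simp
    · simp [hn]
    · refine ⟨fun _ => ?_, fun h1 => absurd (by simp [hn]) h1⟩
      rw [Pi.sub_apply, e0, ← huv]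
      simpa [mul_comm] using hu
    · rw [Pi.sub_apply, e1, hx1.2 (by omega)]
      simp
  · refine ⟨0, Submodule.zero_mem _, ?_⟩
    rw [map_zero, sub_zero]
    refine mem_pf.2 (Fin.forall_fin_two.2 ⟨?_, ?_⟩)
    · rw [hx0.2 hn]; simp
    · simp only [Fin.val_one, Nat.cast_one]
      refine ⟨fun h1 => hy _ ?_, hx1.2⟩
      rw [← e0]; exact hg0.1 h1

theorem kos_lim_reg {d : ℕ} {W : Ideal R} (hW : Gen W d) {q : Ideal R} {y : R}
    (hy : RegMod q y) (h : Prim (q ⊔ Ideal.span {y} ⊔ W)) {e : ℝ}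
    (he : Lim d (fun N => cl (q ⊔ Ideal.span {y} ⊔ W ^ N)) e) :
    Lim (d + 1) (fun N => cl (q ⊔ (Ideal.span {y} ⊔ W) ^ N)) e := by
  obtain ⟨w, rfl⟩ := hW
  obtain ⟨K, _, _, k, κ, hk⟩ := exists_isKos w
  have h1 := he.unique (hk.lim h).2
  have h2 := ((hk.cons y).lim (I := q) (by rwa [kos_span_cons, ← sup_assoc])).2
  rw [kos_span_cons] at h2
  have h3 : chiI (fun x : K × Fin 2 => k x.1 + (x.2 : ℕ)) (tens k κ !![0, y; 0, 0]) q =
      chiI k κ (q ⊔ Ideal.span {y}) :=
    chi_congr fun n => hI_tens_res (kos_isRes hy) hk.deg hk.sq n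
  rwa [h3, ← h1] at h2

omit [IsLocalRing R] [IsNoetherianRing R] in
theorem kos_gen {d : ℕ} {W : Ideal R} (hW : Gen W d) (Y : List R) :
    Gen (Ideal.ofList Y ⊔ W) (d + Y.length) := by
  induction Y with
  | nil => simpa using hW
  | cons y l ih =>
    obtain ⟨w, hw⟩ := ih
    exact ⟨(Fin.cons y w : Fin (d + l.length + 1) → R), by
      rw [kos_span_cons, Ideal.ofList_cons, sup_assoc, hw]⟩

/-- cutting by a regular sequence -/
theorem lim_regSeq {d : ℕ} {W : Ideal R} (hW : Gen W d) (Y : List R) {q : Ideal R}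
    (hY : RegSeq q Y) (h : Prim (q ⊔ Ideal.ofList Y ⊔ W)) {e : ℝ}
    (he : Lim d (fun N => cl (q ⊔ Ideal.ofList Y ⊔ W ^ N)) e) :
    Lim (d + Y.length) (fun N => cl (q ⊔ (Ideal.ofList Y ⊔ W) ^ N)) e := by
  induction Y generalizing q with
  | nil => simpa using he
  | cons y l ih =>
    simp only [Ideal.ofList_cons, ← sup_assoc] at h he
    have h1 := ih hY.2 h he
    have h2 := kos_lim_reg (kos_gen hW l) hY.1 (by rwa [← sup_assoc]) h1
    simpa only [Ideal.ofList_cons, sup_assoc, List.length_cons, ← add_assoc] using h2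

theorem cl_mono {I I' : Ideal R} (hI : Prim I) (h : I ≤ I') : cl I' ≤ cl I := by
  unfold cl
  exact_mod_cast ENat.toNat_le_toNat (rl_mono h le_rfl) (rl_ne_top_of_prim hI)

/-- a quotient with fewer parameters has multiplicity zero -/
theorem lim_zero_of_small {u d : ℕ} (hud : u < d) {W q : Ideal R} (hW : Gen W u)
    (hWm : W ≤ maximalIdeal R) (h : Prim (q ⊔ W)) (b : ℕ → Ideal R) (c : ℕ)
    (hb : ∀ N, maximalIdeal R ^ (c * N + c) ≤ q ⊔ b N) : Lim d (fun N => cl (q ⊔ b N)) 0 := by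
  obtain ⟨e, he⟩ := exists_lim hW h
  have h1 := (he.scale (q := c + 1) (by omega) c).of_lt hud
  refine Lim.squeeze lim_zero h1 (Filter.Eventually.of_forall fun N => Nat.cast_nonneg _)
    (Filter.Eventually.of_forall fun N => cl_mono (kos_prim_pow h _) (sup_le le_sup_left ?_))
  refine (Ideal.pow_right_mono hWm _).trans ((Ideal.pow_le_pow_right ?_).trans (hb N))
  nlinarith

omit [IsNoetherianRing R] in
theorem IsRed.prim {q W b : Ideal R} (h : IsRed q W b) (hb : Prim (q ⊔ b)) : Prim (q ⊔ W) := by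
  obtain ⟨-, r, hr⟩ := h
  obtain ⟨c, hc⟩ := kos_prim_pow hb (r + 1)
  exact ⟨c, hc.trans (sup_le le_sup_left (hr.trans (sup_le_sup_left Ideal.mul_le_left _)))⟩

omit [IsLocalRing R] [IsNoetherianRing R] in
theorem IsRed.pow_le {q W b : Ideal R} (h : IsRed q W b) :
    ∃ r : ℕ, ∀ N, b ^ (N + r) ≤ q ⊔ W ^ N := by
  obtain ⟨-, r, hr⟩ := h
  have key : ∀ N, b ^ (N + r) ≤ q ⊔ W ^ N * b ^ r := by
    intro N
    induction N with
    | zero => simp
    | succ N ih =>
      rw [show N + 1 + r = N + r + 1 by ring, pow_succ]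
      refine (Ideal.mul_mono_left ih).trans ?_
      rw [Ideal.sup_mul, mul_assoc, ← pow_succ]
      refine sup_le (Ideal.mul_le_left.trans le_sup_left) ((Ideal.mul_mono_right hr).trans ?_)
      rw [Ideal.mul_sup, ← mul_assoc, ← pow_succ]
      exact sup_le_sup_right Ideal.mul_le_right _
  exact ⟨r, fun N => (key N).trans (sup_le_sup_left Ideal.mul_le_left _)⟩

/-- a reduction has the same multiplicity -/
theorem lim_red_iff {d : ℕ} {q W b : Ideal R} (h : IsRed q W b) (hb : Prim (q ⊔ b)) {e : ℝ} :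
    Lim d (fun N => cl (q ⊔ W ^ N)) e ↔ Lim d (fun N => cl (q ⊔ b ^ N)) e := by
  obtain ⟨r, hr⟩ := h.pow_le
  have h1 : ∀ N, cl (q ⊔ b ^ N) ≤ cl (q ⊔ W ^ N) := fun N =>
    cl_mono (kos_prim_pow (h.prim hb) N) (sup_le_sup_left (Ideal.pow_right_mono h.1 N) _)
  have h2 : ∀ N, cl (q ⊔ W ^ N) ≤ cl (q ⊔ b ^ (N + r)) := fun N =>
    cl_mono (kos_prim_pow hb _) (sup_le le_sup_left (hr N))
  constructor
  · intro he
    refine Lim.squeeze (he.shift_sub r) he ?_ (Filter.Eventually.of_forall h1)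
    filter_upwards [Filter.eventually_ge_atTop r] with N hN
    have := h2 (N - r)
    rwa [Nat.sub_add_cancel hN] at this
  · intro he
    exact Lim.squeeze he (he.shift r) (Filter.Eventually.of_forall h1)
      (Filter.Eventually.of_forall h2)

end Vale.Agent.P202
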