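import Vale.Agent.P202.Defs

/-! The modules spanned by monomials of bounded multidegree. -/

namespace Vale.Agent.P202

variable {P : Type*} [CommRing P] {Λ : Type*} [CommRing Λ] [Algebra P Λ]

section
variable {σ : Type} [Fintype σ] [DecidableEq σ] {θ : σ → Λ}

omit [DecidableEq σ] in
theorem mon_mono {b b' : σ → ℤ} (h : b ≤ b') : mon P θ b ≤ mon P θ b' := by
  refine Submodule.span_mono ?_
  rintro _ ⟨c, hc, rfl⟩
  exact ⟨c, fun j => (hc j).trans (h j), rfl⟩

omit [DecidableEq σ] in
theorem mon_mul {b b' : σ → ℤ} {y y' : Λ} (h : y ∈ mon P θ b) (h' : y' ∈ mon P θ b') :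
    y * y' ∈ mon P θ (b + b') := by
  have h1 := Submodule.mul_mem_mul h h'
  rw [mon, mon, Submodule.span_mul_span] at h1
  refine Submodule.span_mono ?_ h1
  rintro _ ⟨_, ⟨c, hc, rfl⟩, _, ⟨c', hc', rfl⟩, rfl⟩
  refine ⟨c + c', fun j => ?_, ?_⟩
  · simpa using add_le_add (hc j) (hc' j)
  · simp [pow_add, Finset.prod_mul_distrib]

theorem pow_mul_mem_mon {b : σ → ℤ} {y : Λ} (h : y ∈ mon P θ b) (j : σ) (m : ℕ) :
    θ j ^ m * y ∈ mon P θ (b + Pi.single j (m : ℤ)) := by
  rw [add_comm]
  refine mon_mul ?_ h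
  refine Submodule.subset_span ⟨Pi.single j m, fun i => ?_, ?_⟩
  · by_cases e : i = j
    · subst e; simp
    · simp [e]
  · rw [Finset.prod_eq_single j]
    · simp
    · intro i _ e; simp [e]
    · simp

omit [DecidableEq σ] in
theorem mon_fg (b : σ → ℤ) : (mon P θ b).FG := by
  refine Submodule.fg_span (((Set.Finite.pi' fun j => Set.finite_Iic (b j).toNat).image
    fun c : σ → ℕ => ∏ j, θ j ^ c j).subset ?_)
  rintro _ ⟨c, hc, rfl⟩
  exact ⟨c, fun j => by have := hc j; rw [Set.mem_Iic]; omega, rfl⟩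

omit [DecidableEq σ] in
theorem mon_eq_map_box (b : σ → ℤ) :
    mon P θ b = (box P P 0 b).map (MvPolynomial.aeval θ).toLinearMap := by
  classical
  refine le_antisymm (Submodule.span_le.2 ?_) ?_
  · rintro _ ⟨c, hc, rfl⟩
    refine ⟨MvPolynomial.monomial (Finsupp.equivFunOnFinite.symm c) 1, fun d hd j => ?_, ?_⟩
    · rw [MvPolynomial.coeff_monomial] at hd
      split_ifs at hd with e
      · subst e
        exact ⟨Int.natCast_nonneg _, hc j⟩
      · exact absurd rfl hd
    · simp [MvPolynomial.aeval_monomial, Finsupp.prod_fintype]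
  · rintro _ ⟨F, hF, rfl⟩
    rw [AlgHom.toLinearMap_apply, MvPolynomial.aeval_def, MvPolynomial.eval₂_eq']
    refine Submodule.sum_mem _ fun c hc => ?_
    rw [← Algebra.smul_def]
    exact Submodule.smul_mem _ _ (Submodule.subset_span
      ⟨c, fun j => (hF c (MvPolynomial.mem_support_iff.1 hc) j).2, rfl⟩)

/-- splitting off a power of one variable -/
theorem Mono_split (θ : σ → Λ) {b : σ → ℤ} (c : σ → ℕ) (hc : ∀ i, (c i : ℤ) ≤ b i) (j : σ)
    (m : ℕ) (hm : m ≤ c j) :
    ∃ z ∈ mon P θ (b - Pi.single j (m : ℤ)), ∏ i, θ i ^ c i = θ j ^ m * z := by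
  refine ⟨_, Submodule.subset_span ⟨Function.update c j (c j - m), fun i => ?_, rfl⟩, ?_⟩
  · have := hc i
    by_cases e : i = j
    · subst e; simp; omega
    · simpa [e] using this
  · rw [← Finset.mul_prod_erase _ _ (Finset.mem_univ j),
      ← Finset.mul_prod_erase _ _ (Finset.mem_univ j), Function.update_self, ← mul_assoc,
      ← pow_add, Nat.add_sub_cancel' hm]
    congr 1
    exact Finset.prod_congr rfl fun i hi => by
      rw [Function.update_of_ne (Finset.ne_of_mem_erase hi)]

theorem mon_surj {b : σ → ℤ} {j : σ} (hb : -1 ≤ b j) (m : ℕ) {y : Λ}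
    (hy : y ∈ mon P θ (b + Pi.single j (2 * (m : ℤ)))) :
    ∃ y1 ∈ mon P θ (b + Pi.single j (m : ℤ)), ∃ y2 ∈ mon P θ (b + Pi.single j (m : ℤ)),
      y = θ j ^ m * y1 - y2 := by
  induction hy using Submodule.span_induction with
  | mem x hx =>
    obtain ⟨c, hc, rfl⟩ := hx
    by_cases h : (c j : ℤ) ≤ b j + m
    · refine ⟨0, Submodule.zero_mem _, -∏ j, θ j ^ c j, Submodule.neg_mem _
        (Submodule.subset_span ⟨c, fun i => ?_, rfl⟩), by simp⟩
      by_cases e : i = j
      · subst e; simpa using h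
      · simpa [e] using hc i
    · obtain ⟨z, hz, e⟩ := Mono_split (P := P) θ c hc j m (by omega)
      refine ⟨z, mon_mono (fun i => ?_) hz, 0, Submodule.zero_mem _, by simp [e]⟩
      by_cases e : i = j
      · subst e; simp; omega
      · simp [e]
  | zero => exact ⟨0, Submodule.zero_mem _, 0, Submodule.zero_mem _, by simp⟩
  | add x y _ _ hx hy =>
    obtain ⟨a, ha, a', ha', rfl⟩ := hx
    obtain ⟨c, hc, c', hc', rfl⟩ := hy
    exact ⟨a + c, add_mem ha hc, a' + c', add_mem ha' hc', by ring⟩
  | smul r x _ hx =>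
    obtain ⟨a, ha, a', ha', rfl⟩ := hx
    exact ⟨r • a, Submodule.smul_mem _ _ ha, r • a', Submodule.smul_mem _ _ ha', by
      rw [smul_sub, mul_smul_comm]⟩

/-- the multigraded Rees-type algebra -/
def Mono_T (P : Type*) [CommRing P] [Algebra P Λ] (θ : σ → Λ) :
    Subalgebra P (MvPolynomial σ Λ) where
  carrier := {f | ∀ d : σ →₀ ℕ, f.coeff d ∈ mon P θ fun i => (d i : ℤ)}
  mul_mem' := by
    intro f g hf hg d
    rw [MvPolynomial.coeff_mul]
    refine Submodule.sum_mem _ fun p hp => ?_
    rw [← Finset.HasAntidiagonal.mem_antidiagonal.1 hp]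
    exact mon_mono (fun i => by simp) (mon_mul (hf p.1) (hg p.2))
  add_mem' := by
    intro f g hf hg d
    rw [MvPolynomial.coeff_add]
    exact add_mem (hf d) (hg d)
  algebraMap_mem' := by
    intro r d
    rw [MvPolynomial.algebraMap_apply, MvPolynomial.coeff_C]
    split_ifs
    · rw [Algebra.algebraMap_eq_smul_one]
      exact Submodule.smul_mem _ _ (Submodule.subset_span ⟨0, fun i => by simp, by simp⟩)
    · exact Submodule.zero_mem _

theorem Mono_monomial_mem {d : σ →₀ ℕ} {y : Λ} (hy : y ∈ mon P θ fun i => (d i : ℤ)) :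
    MvPolynomial.monomial d y ∈ Mono_T P θ := by
  intro d'
  rw [MvPolynomial.coeff_monomial]
  split_ifs with e
  · exact e ▸ hy
  · exact Submodule.zero_mem _

theorem Mono_T_fg (θ : σ → Λ) : (Mono_T P θ).FG := by
  let S : Set (MvPolynomial σ Λ) := Set.range MvPolynomial.X ∪
    Set.range fun i => MvPolynomial.C (θ i) * MvPolynomial.X i
  refine Subalgebra.fg_def.2 ⟨S, (Set.finite_range _).union (Set.finite_range _),
    le_antisymm (Algebra.adjoin_le ?_) fun f hf => ?_⟩
  · rintro _ (⟨i, rfl⟩ | ⟨i, rfl⟩)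
    · exact Mono_monomial_mem (Submodule.subset_span ⟨0, fun i => by simp, by simp⟩)
    · have h1 := pow_mul_mem_mon (P := P) (θ := θ) (b := 0) (y := 1)
        (Submodule.subset_span ⟨0, fun i => by simp, by simp⟩) i 1
      dsimp only
      rw [MvPolynomial.C_mul_X_eq_monomial]
      refine Mono_monomial_mem (mon_mono (fun l => ?_) (by simpa using h1))
      by_cases e : l = i
      · subst e; simp
      · simp [e]
  · rw [f.as_sum]
    refine Subalgebra.sum_mem _ fun d _ => ?_
    have h1 := hf d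
    generalize f.coeff d = y at h1
    induction h1 using Submodule.span_induction with
    | mem y hy =>
      obtain ⟨c, hc, rfl⟩ := hy
      have e : MvPolynomial.monomial d (∏ j, θ j ^ c j) = ∏ j,
          ((MvPolynomial.C (θ j) * MvPolynomial.X j) ^ c j * MvPolynomial.X j ^ (d j - c j)) := by
        rw [MvPolynomial.monomial_eq, Finsupp.prod_fintype _ _ (by simp), map_prod,
          ← Finset.prod_mul_distrib]
        refine Finset.prod_congr rfl fun j _ => ?_
        rw [mul_pow, mul_assoc, ← pow_add, Nat.add_sub_cancel' (Int.ofNat_le.1 (hc j)), map_pow]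
      rw [e]
      refine Subalgebra.prod_mem _ fun j _ => Subalgebra.mul_mem _
        (Subalgebra.pow_mem _ (Algebra.subset_adjoin ?_) _)
        (Subalgebra.pow_mem _ (Algebra.subset_adjoin ?_) _)
      · exact Or.inr ⟨j, rfl⟩
      · exact Or.inl ⟨j, rfl⟩
    | zero => simp
    | add a b _ _ ha hb => rw [map_add]; exact add_mem ha hb
    | smul r a _ ha =>
      rw [← MvPolynomial.smul_monomial]
      exact Subalgebra.smul_mem _ ha r

theorem Mono_up {d : σ → ℤ} {w : Λ} {j : σ} {m M : ℕ} (hm : m ≤ M)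
    (h : θ j ^ m * w ∈ mon P θ (d + Pi.single j ((m : ℤ) - 1))) :
    θ j ^ M * w ∈ mon P θ (d + Pi.single j ((M : ℤ) - 1)) := by
  obtain ⟨k, rfl⟩ := Nat.exists_eq_add_of_le hm
  have h1 := pow_mul_mem_mon h j k
  rw [← mul_assoc, ← pow_add, add_comm k m] at h1
  refine mon_mono (fun i => ?_) h1
  by_cases e : i = j
  · subst e; simp; omega
  · simp [e]

theorem Mono_prod {d1 d2 : σ → ℤ} {z w : Λ} {j : σ} {M : ℕ} (hM : (M : ℤ) ≤ d1 j)
    (hz : z ∈ mon P θ d1) (hw : w ∈ mon P θ d2)
    (h : θ j ^ M * w ∈ mon P θ (d2 + Pi.single j ((M : ℤ) - 1))) :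
    z * w ∈ mon P θ (d1 + d2 - Pi.single j 1) := by
  induction hz using Submodule.span_induction with
  | mem z hz =>
    obtain ⟨c, hc, rfl⟩ := hz
    by_cases hcj : (c j : ℤ) < d1 j
    · have h1 : ∏ i, θ i ^ c i ∈ mon P θ (d1 - Pi.single j 1) := by
        refine Submodule.subset_span ⟨c, fun i => ?_, rfl⟩
        by_cases e : i = j
        · subst e; simp; omega
        · simpa [e] using hc i
      exact mon_mono (fun i => by simp; omega) (mon_mul h1 hw)
    · obtain ⟨z, hz, e⟩ := Mono_split (P := P) θ c hc j M (by omega)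
      rw [e, mul_comm _ z, mul_assoc]
      refine mon_mono (fun i => ?_) (mon_mul hz h)
      by_cases e : i = j
      · subst e; simp; omega
      · simp [e]
  | zero => simp
  | add a b _ _ ha hb => rw [add_mul]; exact add_mem ha hb
  | smul r a _ ha => rw [smul_mul_assoc]; exact Submodule.smul_mem _ _ ha

theorem Mono_key [IsNoetherianRing P] (θ : σ → Λ) (j : σ) :
    ∃ n0 : ℕ, ∀ d : σ →₀ ℕ, n0 ≤ d j → ∀ (m : ℕ) (y : Λ), y ∈ mon P θ (fun i => (d i : ℤ)) →
      θ j ^ m * y ∈ mon P θ ((fun i => (d i : ℤ)) + Pi.single j ((m : ℤ) - 1)) →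
        y ∈ mon P θ ((fun i => (d i : ℤ)) - Pi.single j 1) := by
  haveI := isNoetherianRing_of_fg (Mono_T_fg (P := P) θ)
  let N : Ideal (Mono_T P θ) :=
    { carrier := {f | ∃ m : ℕ, ∀ d : σ →₀ ℕ, θ j ^ m * f.1.coeff d ∈
        mon P θ ((fun i => (d i : ℤ)) + Pi.single j ((m : ℤ) - 1))}
      add_mem' := by
        rintro f g ⟨m, hf⟩ ⟨m', hg⟩
        refine ⟨max m m', fun d => ?_⟩
        rw [Subalgebra.coe_add, MvPolynomial.coeff_add, mul_add]
        exact add_mem (Mono_up (le_max_left _ _) (hf d)) (Mono_up (le_max_right _ _) (hg d))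
      zero_mem' := ⟨0, fun d => by simp⟩
      smul_mem' := by
        rintro g f ⟨m, hf⟩
        refine ⟨m, fun d => ?_⟩
        rw [smul_eq_mul, Subalgebra.coe_mul, MvPolynomial.coeff_mul, Finset.mul_sum]
        refine Submodule.sum_mem _ fun p hp => ?_
        rw [← Finset.HasAntidiagonal.mem_antidiagonal.1 hp, mul_left_comm]
        exact mon_mono (fun i => by simp [add_assoc]) (mon_mul (g.2 p.1) (hf p.2)) }
  obtain ⟨n, v, hv⟩ := Submodule.fg_iff_exists_fin_generating_family.1 (IsNoetherian.noetherian N)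
  have hvN : ∀ k, v k ∈ N := fun k => hv ▸ Submodule.subset_span ⟨k, rfl⟩
  choose mk hmk using hvN
  let M := Finset.univ.sup mk
  let D := Finset.univ.sup fun k => (v k).1.degreeOf j
  refine ⟨M + D, fun d hd m y hy hy' => ?_⟩
  have hf : (⟨_, Mono_monomial_mem hy⟩ : Mono_T P θ) ∈ N := by
    refine ⟨m, fun d' => ?_⟩
    dsimp only
    rw [MvPolynomial.coeff_monomial]
    split_ifs with e
    · exact e ▸ hy'
    · simp
  rw [← hv] at hf
  obtain ⟨g, hg⟩ := (Submodule.mem_span_range_iff_exists_fun _).1 hf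
  have h1 : y = ∑ k, ((g k).1 * (v k).1).coeff d := by
    have := congrArg (fun f : Mono_T P θ => f.1.coeff d) hg
    simp only [MvPolynomial.coeff_monomial, if_true, smul_eq_mul] at this
    rw [← this, AddSubmonoidClass.coe_finsetSum, MvPolynomial.coeff_sum]
    rfl
  rw [h1]
  refine Submodule.sum_mem _ fun k _ => ?_
  rw [MvPolynomial.coeff_mul]
  refine Submodule.sum_mem _ fun p hp => ?_
  have hp' := Finset.HasAntidiagonal.mem_antidiagonal.1 hp
  by_cases h0 : (v k).1.coeff p.2 = 0
  · rw [h0, mul_zero]; exact Submodule.zero_mem _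
  have h2 : p.2 j ≤ D := (MvPolynomial.monomial_le_degreeOf j
    (MvPolynomial.mem_support_iff.2 h0)).trans
    (Finset.le_sup (f := fun k => (v k).1.degreeOf j) (Finset.mem_univ k))
  have h3 : p.1 j + p.2 j = d j := by rw [← hp']; rfl
  have h4 := Mono_prod (j := j) (M := M) (by omega) ((g k).2 p.1) ((v k).2 p.2)
    (Mono_up (Finset.le_sup (f := mk) (Finset.mem_univ k)) (hmk k p.2))
  rw [← hp']
  exact mon_mono (fun i => by simp) h4

/-- uniform vanishing of the first local cohomology in large multidegrees -/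
theorem mon_sv [IsNoetherianRing P] (θ : σ → Λ) :
    ∃ b0 : ℕ, ∀ (b : σ → ℤ), (∀ i, (b0 : ℤ) ≤ b i) → ∀ (j : σ) (m : ℕ) (y : Λ),
      y ∈ mon P θ (b + Pi.single j (m : ℤ)) → θ j ^ m * y ∈ mon P θ (b + Pi.single j (m : ℤ)) →
        y ∈ mon P θ b := by
  choose n0 hn0 using Mono_key (P := P) θ
  refine ⟨Finset.univ.sup n0, fun b hb j m y hy hy' => ?_⟩
  have hb0 : ∀ i, 0 ≤ b i := fun i => (Int.natCast_nonneg _).trans (hb i)
  have hj : (n0 j : ℤ) ≤ b j :=
    (Int.ofNat_le.2 (Finset.le_sup (f := n0) (Finset.mem_univ j))).trans (hb j)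
  have key : ∀ k : ℕ, y ∈ mon P θ (b + Pi.single j (k : ℤ)) → y ∈ mon P θ b := by
    intro k
    induction k with
    | zero => simp
    | succ k ih =>
      intro hk
      apply ih
      let d : σ →₀ ℕ := Finsupp.equivFunOnFinite.symm fun i =>
        ((b + Pi.single j ((k + 1 : ℕ) : ℤ) : σ → ℤ) i).toNat
      have hd : (fun i => (d i : ℤ)) = b + Pi.single j ((k + 1 : ℕ) : ℤ) := by
        funext i
        refine Int.toNat_of_nonneg ?_
        have := hb0 i
        by_cases e : i = j
        · subst e; simp; omega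
        · simpa [e] using this
      have h1 := hn0 j d (by
        have := congrFun hd j
        simp only [Pi.add_apply, Pi.single_eq_same] at this
        omega) m y (by rw [hd]; exact hk) (by
        rw [hd]
        refine mon_mono (fun i => ?_) hy'
        by_cases e : i = j
        · subst e; simp; omega
        · simp [e])
      rw [hd] at h1
      refine mon_mono (fun i => ?_) h1
      by_cases e : i = j
      · subst e; simp; omega
      · simp [e]
  exact key m hy

omit [DecidableEq σ] in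
theorem mon_map_perm (e : Equiv.Perm σ) (τ : Λ →ₐ[P] Λ) (hτ : ∀ j, τ (θ j) = θ (e j))
    (b : σ → ℤ) : (mon P θ (b ∘ e)).map τ.toLinearMap = mon P θ b := by
  rw [mon, mon, Submodule.map_span]
  congr 1
  ext y
  constructor
  · rintro ⟨_, ⟨c, hc, rfl⟩, rfl⟩
    refine ⟨c ∘ e.symm, fun j => by simpa using hc (e.symm j), ?_⟩
    rw [AlgHom.toLinearMap_apply, map_prod, ← Equiv.prod_comp e fun j => θ j ^ (c ∘ e.symm) j]
    simp [hτ]
  · rintro ⟨c, hc, rfl⟩
    refine ⟨_, ⟨c ∘ e, fun j => hc (e j), rfl⟩, ?_⟩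
    rw [AlgHom.toLinearMap_apply, map_prod, ← Equiv.prod_comp e fun j => θ j ^ c j]
    simp [hτ]

end

open Polynomial in
theorem Mono_esym_eq {σ : Type} [Fintype σ] (θ : σ → Λ) (i : ℕ) :
    (∏ j, (1 + C (θ j) * X)).coeff i =
      ∑ t ∈ (Finset.univ : Finset σ).powerset, if i = t.card then ∏ j ∈ t, θ j else 0 := by
  rw [Finset.prod_one_add, finsetSum_coeff]
  refine Finset.sum_congr rfl fun t _ => ?_
  rw [Finset.prod_mul_distrib, Finset.prod_const, ← map_prod, coeff_C_mul_X_pow]

open Polynomial in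
theorem Mono_esym_zero {σ : Type} [Fintype σ] (θ : σ → Λ) {i : ℕ} (hi : Fintype.card σ < i) :
    (∏ j, (1 + C (θ j) * X)).coeff i = 0 := by
  rw [Mono_esym_eq]
  refine Finset.sum_eq_zero fun t _ => if_neg ?_
  have := t.card_le_univ
  omega

open Polynomial in
theorem Mono_esym_mem {σ : Type} [Fintype σ] (θ : σ → Λ) (i : ℕ) :
    (∏ j, (1 + C (θ j) * X)).coeff i ∈ mon P θ fun _ => 1 := by
  classical
  rw [Mono_esym_eq]
  refine Submodule.sum_mem _ fun t _ => ?_
  split_ifs
  · refine Submodule.subset_span ⟨fun j => if j ∈ t then 1 else 0, fun j => ?_, ?_⟩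
    · dsimp only
      split_ifs <;> simp
    · simp [Finset.prod_ite_mem]
  · exact Submodule.zero_mem _

theorem Mono_last {s : ℕ} (θ : Fin (s + 1) → Λ) {b : Fin (s + 1) → ℤ} {z : Λ}
    (hz : z ∈ mon P (fun j : Fin s => θ j.castSucc) fun j => b j.castSucc) {c : ℕ}
    (hc : (c : ℤ) ≤ b (Fin.last s)) : θ (Fin.last s) ^ c * z ∈ mon P θ b := by
  induction hz using Submodule.span_induction with
  | mem z hz =>
    obtain ⟨c', hc', rfl⟩ := hz
    refine Submodule.subset_span ⟨Fin.snoc c' c, fun j => ?_, ?_⟩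
    · induction j using Fin.lastCases with
      | last => simpa using hc
      | cast j => simpa using hc' j
    · rw [Fin.prod_univ_castSucc, mul_comm]
      simp
  | zero => simp
  | add a b _ _ ha hb => rw [mul_add]; exact add_mem ha hb
  | smul r a _ ha => rw [mul_smul_comm]; exact Submodule.smul_mem _ _ ha

open Polynomial in
theorem Mono_ulrich (s : ℕ) : ∀ (θ : Fin s → Λ) (b : Fin s → ℤ),
    (∀ j : Fin s, ((j : ℕ) : ℤ) ≤ b j) → mon P θ (b + fun _ => 1) ≤
      Submodule.span P {w | ∃ (i : ℕ) (z : Λ), z ∈ mon P θ b ∧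
        w = (∏ j, (1 + C (θ j) * X)).coeff i * z} := by
  induction s with
  | zero =>
    intro θ b _ y hy
    exact Submodule.subset_span ⟨0, y, mon_mono (fun j => j.elim0) hy, by simp⟩
  | succ s ih =>
    intro θ b hb
    set E := Submodule.span P {w | ∃ (i : ℕ) (z : Λ), z ∈ mon P θ b ∧
        w = (∏ j, (1 + C (θ j) * X)).coeff i * z} with hE
    set t := θ (Fin.last s) with ht
    set G : Λ[X] := ∏ j : Fin s, (1 + C (θ j.castSucc) * X) with hG
    have hB : (s : ℤ) ≤ b (Fin.last s) := hb (Fin.last s)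
    have hA : ∀ z ∈ mon P (fun j : Fin s => θ j.castSucc) fun j => b j.castSucc, ∀ c i : ℕ,
        (c : ℤ) ≤ b (Fin.last s) + 1 → t ^ c * (G.coeff i * z) ∈ E := by
      intro z hz
      have r0 : ∀ c : ℕ, (c : ℤ) ≤ b (Fin.last s) → t ^ c * (G.coeff 0 * z) ∈ E := by
        intro c hc
        refine Submodule.subset_span ⟨0, _, Mono_last θ hz hc, ?_⟩
        rw [Fin.prod_univ_castSucc, mul_coeff_zero]
        simp only [coeff_add, coeff_one_zero, mul_coeff_zero, coeff_X_zero, mul_zero, add_zero,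
          mul_one]
        ring
      have r1 : ∀ c i : ℕ, (c : ℤ) ≤ b (Fin.last s) →
          t ^ c * (G.coeff (i + 1) * z) + t ^ (c + 1) * (G.coeff i * z) ∈ E := by
        intro c i hc
        refine Submodule.subset_span ⟨i + 1, _, Mono_last θ hz hc, ?_⟩
        rw [Fin.prod_univ_castSucc, mul_add (∏ j : Fin s, _), mul_one,
          ← mul_assoc (∏ j : Fin s, _), coeff_add, coeff_mul_X, coeff_mul_C]
        ring
      have a1 : ∀ i c : ℕ, ((i + c : ℕ) : ℤ) ≤ b (Fin.last s) → t ^ c * (G.coeff i * z) ∈ E := by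
        intro i
        induction i with
        | zero => exact fun c hc => r0 c (by simpa using hc)
        | succ i ih =>
          intro c hc
          have := E.sub_mem (r1 c i (by omega)) (ih (c + 1) (by omega))
          rwa [add_sub_cancel_right] at this
      have a2 : ∀ c i : ℕ, (c : ℤ) ≤ b (Fin.last s) + 1 → s + 1 ≤ i + c →
          t ^ c * (G.coeff i * z) ∈ E := by
        intro c
        induction c with
        | zero =>
          intro i _ hi
          rw [hG, Mono_esym_zero _ (by simpa using hi)]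
          simp
        | succ c ih =>
          intro i hc hi
          have := E.sub_mem (r1 c i (by omega)) (ih (i + 1) (by omega) (by omega))
          rwa [add_sub_cancel_left] at this
      intro c i hc
      by_cases h : ((i + c : ℕ) : ℤ) ≤ b (Fin.last s)
      · exact a1 i c h
      · exact a2 c i hc (by omega)
    refine Submodule.span_le.2 ?_
    rintro _ ⟨c, hc, rfl⟩
    have h1 := ih (fun j => θ j.castSucc) (fun j => b j.castSucc) (fun j => hb j.castSucc)
      (Submodule.subset_span ⟨fun j => c j.castSucc, fun j => hc j.castSucc, rfl⟩)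
    rw [Fin.prod_univ_castSucc, mul_comm, SetLike.mem_coe]
    generalize ∏ j : Fin s, θ j.castSucc ^ c j.castSucc = w at h1
    induction h1 using Submodule.span_induction with
    | mem w hw =>
      obtain ⟨i, z, hz, rfl⟩ := hw
      exact hA z hz _ i (hc (Fin.last s))
    | zero => simp
    | add a b _ _ ha hb => rw [mul_add]; exact add_mem ha hb
    | smul r a _ ha => rw [mul_smul_comm]; exact Submodule.smul_mem _ _ ha

variable {q : Ideal P} {s : ℕ} {x : Fin (s + 1) → P} {θ : Fin s → Λ} {u : Λˣ}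

theorem SplitData.smul_mem (h : SplitData q x Λ θ u) {b : Fin s → ℤ} {y : Λ}
    (hy : y ∈ mon P θ b) (i : Fin (s + 1)) :
    ∃ y' ∈ mon P θ (b + fun _ => 1), x i • y = u * y' := by
  refine ⟨_, by rw [add_comm]; exact mon_mul (Mono_esym_mem θ i) hy, ?_⟩
  rw [Algebra.smul_def, h.esym, mul_assoc]

/-- the Ulrich property of the staircase degree -/
theorem SplitData.ulrich (h : SplitData q x Λ θ u) {b : Fin s → ℤ}
    (hb : ∀ j : Fin s, ((j : ℕ) : ℤ) ≤ b j) {y : Λ} (hy : y ∈ mon P θ (b + fun _ => 1)) :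
    u * y ∈ Ideal.span (Set.range x) • mon P θ b := by
  have h1 := Mono_ulrich (P := P) s θ b hb hy
  clear hy
  induction h1 using Submodule.span_induction with
  | mem w hw =>
    obtain ⟨i, z, hz, rfl⟩ := hw
    by_cases hi : i < s + 1
    · rw [← mul_assoc, ← h.esym ⟨i, hi⟩, ← Algebra.smul_def]
      exact Submodule.smul_mem_smul (Ideal.subset_span ⟨_, rfl⟩) hz
    · rw [Mono_esym_zero θ (by simpa using hi)]
      simp
  | zero => simp
  | add w w' _ _ hw hw' => rw [mul_add]; exact add_mem hw hw'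
  | smul r w _ hw => rw [mul_smul_comm]; exact Submodule.smul_mem _ _ hw

theorem SplitData.kill_pow (h : SplitData q x Λ θ u) (M : ℕ) {y : Λ}
    (hy : y ∈ mon P θ (fun _ => (s : ℤ) + (s + 1) * M)) :
    ∃ g : Fin (s + 1) → Λ, (∀ i, g i ∈ mon P θ (fun _ => (s : ℤ) + s * M)) ∧
      (u : Λ) ^ M * y = ∑ i, x i ^ M • g i := by
  classical
  set I := Ideal.span (Set.range x) with hI
  have c1 : ∀ (n : ℕ) (y : Λ), y ∈ mon P θ (fun _ => (s : ℤ) + n) →
      (u : Λ) ^ n * y ∈ I ^ n • mon P θ (fun _ => (s : ℤ)) := by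
    intro n
    induction n with
    | zero => intro y hy; simpa using hy
    | succ n ih =>
      intro y hy
      have h1 := h.ulrich (b := fun _ => (s : ℤ) + n) (y := y)
        (fun j => by have := j.2; omega) (mon_mono (fun j => by simp; omega) hy)
      rw [pow_succ (u : Λ), mul_assoc, pow_succ' I, mul_smul]
      generalize (u : Λ) * y = w at h1
      induction h1 using Submodule.smul_induction_on' with
      | smul r hr z hz =>
        rw [mul_smul_comm]
        exact Submodule.smul_mem_smul hr (ih z hz)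
      | add a _ b _ ha hb => rw [mul_add]; exact add_mem ha hb
  have c2 : ∀ (n : ℕ) (b : Fin s → ℤ), ∀ r ∈ I ^ n, ∀ z ∈ mon P θ b,
      ∃ z' ∈ mon P θ (b + fun _ => (n : ℤ)), r • z = (u : Λ) ^ n * z' := by
    intro n b
    induction n with
    | zero => exact fun r _ z hz => ⟨r • z, mon_mono (fun j => by simp)
        (Submodule.smul_mem _ r hz), by simp⟩
    | succ n ih =>
      intro r hr z hz
      rw [pow_succ'] at hr
      induction hr using Submodule.mul_induction_on' with
      | mem_mul_mem a ha c hc =>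
        obtain ⟨z', hz', e⟩ := ih c hc z hz
        rw [mul_smul, e]
        clear e
        induction ha using Submodule.span_induction with
        | mem a ha =>
          obtain ⟨i, rfl⟩ := ha
          obtain ⟨w, hw, e⟩ := h.smul_mem hz' i
          refine ⟨w, mon_mono (fun j => by simp [add_assoc]) hw, ?_⟩
          rw [← mul_smul_comm, e, pow_succ, mul_assoc]
        | zero => exact ⟨0, Submodule.zero_mem _, by simp⟩
        | add a a' _ _ ha ha' =>
          obtain ⟨w, hw, e⟩ := ha
          obtain ⟨w', hw', e'⟩ := ha'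
          exact ⟨w + w', add_mem hw hw', by rw [add_smul, e, e', mul_add]⟩
        | smul t a _ ha =>
          obtain ⟨w, hw, e⟩ := ha
          exact ⟨t • w, Submodule.smul_mem _ _ hw, by
            rw [smul_eq_mul, mul_smul, e, mul_smul_comm]⟩
      | add a _ a' _ ha ha' =>
        obtain ⟨w, hw, e⟩ := ha
        obtain ⟨w', hw', e'⟩ := ha'
        exact ⟨w + w', add_mem hw hw', by rw [add_smul, e, e', mul_add]⟩
  let G : Submodule P Λ :=
    { carrier := {w | ∃ g : Fin (s + 1) → Λ, (∀ i, g i ∈ mon P θ (fun _ => (s : ℤ) + s * M)) ∧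
        w = (u : Λ) ^ (s * M) * ∑ i, x i ^ M • g i}
      add_mem' := by
        rintro _ _ ⟨g, hg, rfl⟩ ⟨g', hg', rfl⟩
        exact ⟨g + g', fun i => add_mem (hg i) (hg' i), by
          simp [← mul_add, Finset.sum_add_distrib]⟩
      zero_mem' := ⟨0, fun _ => Submodule.zero_mem _, by simp⟩
      smul_mem' := by
        rintro r _ ⟨g, hg, rfl⟩
        exact ⟨r • g, fun i => Submodule.smul_mem _ _ (hg i), by
          rw [← mul_smul_comm, Finset.smul_sum]
          simp only [Pi.smul_apply, smul_comm r]⟩ }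
  have c3 : I ^ ((s + 1) * M) • mon P θ (fun _ => (s : ℤ)) ≤ G := by
    have e := Submodule.span_pow (R := P) (Set.range x) ((s + 1) * M)
    rw [show I ^ ((s + 1) * M) = _ from e, Submodule.smul_le]
    intro r hr z hz
    induction hr using Submodule.span_induction with
    | mem r hr =>
      obtain ⟨f, rfl⟩ := Set.mem_pow.1 hr
      choose k hk using fun i => (f i).2
      obtain ⟨i, hi⟩ := Fintype.exists_le_card_fiber_of_mul_le_card k (n := M) (by simp)
      obtain ⟨T, hT, hTc⟩ := Finset.exists_subset_card_eq hi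
      have e1 : ∏ l ∈ T, (f l : P) = x i ^ M := by
        refine Eq.trans ?_ ((Finset.prod_const (x i)).trans (congrArg (x i ^ ·) hTc))
        refine Finset.prod_congr rfl fun l hl => ?_
        rw [← hk, (Finset.mem_filter.1 (hT hl)).2]
      have e2 : ∏ l ∈ Tᶜ, (f l : P) ∈ I ^ (s * M) := by
        have e3 : Tᶜ.card = s * M := by
          rw [Finset.card_compl, hTc, Fintype.card_fin, add_mul, one_mul, Nat.add_sub_cancel]
        have e5 : ∏ l ∈ Tᶜ, (f l : P) ∈ ∏ _l ∈ Tᶜ, I :=
          Ideal.prod_mem_prod fun l _ => Ideal.subset_span (f l).2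
        rwa [Finset.prod_const, e3] at e5
      obtain ⟨w, hw, e4⟩ := c2 _ _ _ e2 z hz
      refine ⟨Pi.single i w, fun l => ?_, ?_⟩
      · by_cases e5 : l = i
        · subst e5
          rw [Pi.single_eq_same]
          exact mon_mono (fun j => by simp) hw
        · rw [Pi.single_eq_of_ne e5]; exact Submodule.zero_mem _
      · rw [List.prod_ofFn, ← Finset.prod_mul_prod_compl T, e1, mul_smul, e4,
          Finset.sum_eq_single i, Pi.single_eq_same, mul_smul_comm]
        · intro l _ e5; rw [Pi.single_eq_of_ne e5, smul_zero]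
        · simp
    | zero => simp
    | add a a' _ _ ha ha' => rw [add_smul]; exact add_mem ha ha'
    | smul t a _ ha => rw [smul_eq_mul, mul_smul]; exact Submodule.smul_mem _ _ ha
  obtain ⟨g, hg, e⟩ := c3 (c1 ((s + 1) * M) y (by simpa using hy))
  refine ⟨g, hg, ?_⟩
  rw [add_mul, one_mul, pow_add, mul_assoc] at e
  exact ((Units.isUnit u).pow (s * M)).mul_left_cancel e

end Vale.Agent.P202
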