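import Vale.Agent.P202.Model
import Vale.Agent.P202.Mono

/-! Estimates for the graded pieces. -/

namespace Vale.Agent.P202

open IsLocalRing

variable {P : Type*} [CommRing P] {Λ : Type*} [CommRing Λ] [Algebra P Λ] {σ : Type} [Fintype σ]
  [DecidableEq σ]

theorem tt_comm (θ : σ → Λ) (m : ℕ) (i j : σ) (x : Λ) :
    tt P θ m i (tt P θ m j x) = tt P θ m j (tt P θ m i x) := by
  exact mul_left_comm _ _ _

theorem twOk_smul_mon (θ : σ → Λ) (I : Ideal P) (m : ℕ) (l : List σ) :
    TwOk (tt P θ m) m l (fun c => I • mon P θ c) := by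
  intro j _ b
  refine ⟨Submodule.smul_mono le_rfl
    (mon_mono (le_add_of_nonneg_right (Pi.single_nonneg.2 (Int.natCast_nonneg m)))),
    fun x hx => ?_⟩
  induction hx using Submodule.smul_induction_on' with
  | smul r hr z hz =>
    rw [map_smul]
    exact Submodule.smul_mem_smul hr (pow_mul_mem_mon hz j m)
  | add a _ b _ ha hb => rw [map_add]; exact add_mem ha hb

theorem twOk_mon (θ : σ → Λ) (m : ℕ) (l : List σ) : TwOk (tt P θ m) m l (mon P θ) := by
  exact fun j _ b => ⟨mon_mono (le_add_of_nonneg_right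
    (Pi.single_nonneg.2 (Int.natCast_nonneg m))), fun x hx => pow_mul_mem_mon hx j m⟩

/-- the estimates for a pair of ideals -/
structure Piece_E (θ : σ → Λ) (I' I : Ideal P) (ρ : ℕ) (C : ℝ) : Prop where
  nonneg : 0 ≤ C
  len : ∀ (B : ℕ) (b : σ → ℤ), (∀ j, 0 ≤ b j ∧ b j ≤ B) →
    |((rl (I • mon P θ b) (I' • mon P θ b)).toNat : ℝ) - ρ * ∏ j, ((b j : ℝ) + 1)| *
      ((B : ℝ) + 1) ≤ C * ((B : ℝ) + 1) ^ Fintype.card σ
  hh : ∀ (l : List σ), l.Nodup → (∀ j, j ∈ l) → ∀ (B m : ℕ) (b : σ → ℤ),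
    (∀ j, 0 ≤ b j + m ∧ b j + 2 * m ≤ B) → ∀ n : ℤ,
      n ≠ ((Finset.univ.filter fun j => b j < 0).card : ℤ) →
      ((hh (dd (tt P θ m) l) (tw m l (fun c => I' • mon P θ c) b)
        (tw m l (fun c => I • mon P θ c) b) n).toNat : ℝ) *
        ((B : ℝ) + 1) ≤ C * ((B : ℝ) + 1) ^ Fintype.card σ

theorem Piece_prim_mono [IsLocalRing P] {I I' : Ideal P} (h : Prim I) (hI : I ≤ I') : Prim I' :=
  h.imp fun _ hc => hc.trans hI

omit [DecidableEq σ] in
theorem Piece_fin [IsLocalRing P] [IsNoetherianRing P] (θ : σ → Λ) {I : Ideal P} (hI : Prim I)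
    (I' : Ideal P) (b : σ → ℤ) : rl (I • mon P θ b) (I' • mon P θ b) ≠ ⊤ := by
  obtain ⟨c, hc⟩ := hI
  exact ne_top_of_le_ne_top (rl_ne_top (mon_fg b) (Submodule.smul_mono_left hc))
    (rl_mono le_rfl Submodule.smul_le_right)

theorem Piece_hfin [IsLocalRing P] [IsNoetherianRing P] (θ : σ → Λ) {I : Ideal P} (hI : Prim I)
    (I' : Ideal P) (m : ℕ) (l : List σ) (b : σ → ℤ) (n : ℤ) :
    hh (dd (tt P θ m) l) (tw m l (fun c => I' • mon P θ c) b)
      (tw m l (fun c => I • mon P θ c) b) n ≠ ⊤ :=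
  ne_top_of_le_ne_top (ENat.sum_ne_top.2 fun _ _ => Piece_fin θ hI I' _) (hh_tw_le n)

theorem Piece_length {l : List σ} (hl : l.Nodup) (hl' : ∀ j, j ∈ l) :
    l.length = Fintype.card σ := by
  rw [← List.toFinset_card_of_nodup hl, ← Finset.card_univ]
  congr 1
  exact Finset.eq_univ_iff_forall.2 fun j => List.mem_toFinset.2 (hl' j)

omit [Fintype σ] in
theorem Piece_range {l : List σ} (hl : l.Nodup) (hl' : ∀ j, j ∈ l) {B m : ℕ} {b : σ → ℤ}
    (hb : ∀ j, 0 ≤ b j + m ∧ b j + 2 * m ≤ B) (e : Ix l) (j : σ) :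
    0 ≤ (b + sh m l e) j ∧ (b + sh m l e) j ≤ B := by
  have h1 := sh_ge (m := m) e (hl' j)
  have h2 := sh_le (m := m) hl e j
  have h3 := hb j
  rw [Pi.add_apply]
  omega

theorem Piece_E.trans [IsLocalRing P] [IsNoetherianRing P] {θ : σ → Λ} {I I' I'' : Ideal P}
    {ρ ρ' : ℕ} {C C' : ℝ} (h1 : Piece_E θ I'' I' ρ C) (h2 : Piece_E θ I' I ρ' C') (hI : Prim I)
    (hle : I ≤ I') (hle' : I' ≤ I'') : Piece_E θ I'' I (ρ + ρ') (C + C') := by
  have hI' := Piece_prim_mono hI hle
  refine ⟨add_nonneg h1.nonneg h2.nonneg, fun B b hb => ?_, fun l hl hl' B m b hb n hn => ?_⟩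
  · rw [rl_add (Submodule.smul_mono_left hle) (Submodule.smul_mono_left hle'),
      ENat.toNat_add (Piece_fin θ hI _ _) (Piece_fin θ hI' _ _), add_mul C]
    refine le_trans ?_ (add_le_add (h1.len B b hb) (h2.len B b hb))
    rw [← add_mul]
    refine mul_le_mul_of_nonneg_right (le_trans (le_of_eq ?_) (abs_add_le _ _)) (by positivity)
    congr 1
    push_cast; ring
  · have p := fun (J J' : Ideal P) (h : J ≤ J') => isPair_tw (b := b) (tt_comm θ m)
      (twOk_smul_mon θ J' m l) (twOk_smul_mon θ J m l) fun e => Submodule.smul_mono_left h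
    have h3 := hh_mid_le (p _ _ hle') (p _ _ hle) (p _ _ (hle.trans hle')) n
    have h4 := ENat.toNat_le_toNat h3
      (WithTop.add_ne_top.2 ⟨Piece_hfin θ hI _ _ _ _ _, Piece_hfin θ hI' _ _ _ _ _⟩)
    rw [ENat.toNat_add (Piece_hfin θ hI _ _ _ _ _) (Piece_hfin θ hI' _ _ _ _ _)] at h4
    rw [add_mul C]
    refine le_trans ?_ (add_le_add (h1.hh l hl hl' B m b hb n hn) (h2.hh l hl hl' B m b hb n hn))
    rw [← add_mul]
    refine mul_le_mul_of_nonneg_right ?_ (by positivity)
    rw [add_comm]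
    exact_mod_cast h4

omit [DecidableEq σ] in
theorem Piece_mul_smul {θ : σ → Λ} {I : Ideal P} {b b' : σ → ℤ} {y w : Λ} (hy : y ∈ mon P θ b)
    (hw : w ∈ I • mon P θ b') : y * w ∈ I • mon P θ (b + b') := by
  induction hw using Submodule.smul_induction_on' with
  | smul r hr z hz =>
    rw [mul_smul_comm]
    exact Submodule.smul_mem_smul hr (mon_mul hy hz)
  | add a _ b _ ha hb => rw [mul_add]; exact add_mem ha hb

theorem Piece_step [IsLocalRing P] [IsNoetherianRing P] (θ : σ → Λ) {I : Ideal P} (hI : Prim I)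
    (v : P) (hk : ∀ a ∈ maximalIdeal P, a • v ∈ I) :
    ∃ (ρ : ℕ) (C : ℝ), Piece_E θ (I ⊔ Submodule.span P {v}) I ρ C := by
  set I' : Ideal P := I ⊔ Submodule.span P {v} with hI'
  let ev : MvPolynomial σ P →ₗ[P] Λ := v • (MvPolynomial.aeval θ).toLinearMap
  have hev : ∀ F, ev F = v • MvPolynomial.aeval θ F := fun _ => rfl
  let res : MvPolynomial σ P →ₗ[P] MvPolynomial σ (ResidueField P) :=
    (MvPolynomial.mapAlgHom (Algebra.ofId P (ResidueField P))).toLinearMap
  have hres : ∀ F, res F = MvPolynomial.map (residue P) F := fun _ => rfl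
  have hae : ∀ c, ∀ F ∈ box P P 0 c, MvPolynomial.aeval θ F ∈ mon P θ c := fun c F hF => by
    rw [mon_eq_map_box]; exact ⟨F, hF, rfl⟩
  have E1 : ∀ c, ∀ F ∈ box P P 0 c, ev F ∈ I' • mon P θ c := fun c F hF =>
    Submodule.smul_mem_smul (Submodule.mem_sup_right (Submodule.mem_span_singleton_self v))
      (hae c F hF)
  have E2 : ∀ c, ∀ y ∈ I' • mon P θ c, ∃ F ∈ box P P 0 c, y - ev F ∈ I • mon P θ c := by
    intro c y hy
    rw [hI', Submodule.sup_smul] at hy
    obtain ⟨y1, h1, y2, h2, rfl⟩ := Submodule.mem_sup.1 hy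
    have h3 := Submodule.ideal_span_singleton_smul v (mon P θ c) ▸ h2
    obtain ⟨z, hz, rfl⟩ := (Submodule.mem_smul_pointwise_iff_exists _ _ _).1 h3
    rw [mon_eq_map_box] at hz
    obtain ⟨F, hF, rfl⟩ := hz
    exact ⟨F, hF, by simpa [hev] using h1⟩
  have E3 : ∀ c, ∀ F ∈ box P P 0 c, res F = 0 → ev F ∈ I • mon P θ c := by
    intro c F hF h0
    rw [hev, MvPolynomial.aeval_def, MvPolynomial.eval₂_eq', Finset.smul_sum]
    refine Submodule.sum_mem _ fun d hd => ?_
    rw [← Algebra.smul_def, smul_smul, mul_comm]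
    refine Submodule.smul_mem_smul (hk _ ?_) (Submodule.subset_span
      ⟨d, fun j => (hF d (MvPolynomial.mem_support_iff.1 hd) j).2, rfl⟩)
    rw [← residue_eq_zero_iff, ← MvPolynomial.coeff_map, ← hres, h0, MvPolynomial.coeff_zero]
  have E4 : ∀ m j F, ev (tt P MvPolynomial.X m j F) = tt P θ m j (ev F) := by
    intro m j F
    simp [hev, tt]
  have R1 : ∀ c, ∀ F ∈ box P P 0 c, res F ∈ box P (ResidueField P) 0 c := by
    intro c F hF d hd
    refine hF d fun h => hd ?_
    rw [hres, MvPolynomial.coeff_map, h, map_zero]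
  have R2 : ∀ c, ∀ G ∈ box P (ResidueField P) 0 c, ∃ F ∈ box P P 0 c, res F = G := by
    intro c G hG
    choose w hw using fun d => residue_surjective (G.coeff d)
    refine ⟨∑ d ∈ G.support, MvPolynomial.monomial d (w d), Submodule.sum_mem _
      fun d hd d' hd' => ?_, ?_⟩
    · rw [MvPolynomial.coeff_monomial] at hd'
      split_ifs at hd' with e
      · exact e ▸ hG d (MvPolynomial.mem_support_iff.1 hd)
      · exact absurd rfl hd'
    · rw [hres, map_sum]
      simp only [MvPolynomial.map_monomial, hw]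
      exact G.as_sum.symm
  have R3 : ∀ m j F, res (tt P MvPolynomial.X m j F) = tt P MvPolynomial.X m j (res F) := by
    intro m j F
    simp [hres, tt]
  by_cases hfree : ∀ c, ∀ F ∈ box P P 0 c, ev F ∈ I • mon P θ c → res F = 0
  · have F2 : ∀ c, ∀ F ∈ box P P 0 c,
        ev F ∈ I • mon P θ c ↔ F ∈ box P P 0 c ⊓ LinearMap.ker res :=
      fun c F hF => ⟨fun h => ⟨hF, hfree c F hF h⟩, fun h => E3 c F hF h.2⟩
    have F3 : ∀ c, ∀ F ∈ box P P 0 c, res F ∈ (⊥ : Submodule P _) ↔
        F ∈ box P P 0 c ⊓ LinearMap.ker res := fun c F hF => ⟨fun h => ⟨hF, h⟩, fun h => h.2⟩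
    have F4 : ∀ c, ∀ G ∈ box P (ResidueField P) 0 c, ∃ F ∈ box P P 0 c,
        G - res F ∈ (⊥ : Submodule P _) := fun c G hG => by
      obtain ⟨F, hF, rfl⟩ := R2 c G hG
      exact ⟨F, hF, by simp⟩
    refine ⟨1, 0, le_rfl, fun B b hb => ?_, fun l hl hl' B m b hb n hn => ?_⟩
    · rw [rl_eq_of_map ev (fun F hF => Submodule.mem_sup_left (E1 b F hF)) (E2 b) (F2 b),
        ← rl_eq_of_map res (fun F hF => Submodule.mem_sup_left (R1 b F hF)) (F4 b) (F3 b),
        rl_box, ENat.toNat_coe]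
      have : ((∏ j, (b j + 1).toNat : ℕ) : ℝ) = ∏ j, ((b j : ℝ) + 1) := by
        push_cast
        refine Finset.prod_congr rfl fun j _ => ?_
        have h1 : (((b j + 1).toNat : ℕ) : ℤ) = b j + 1 := by have := (hb j).1; omega
        exact_mod_cast h1
      rw [this]
      simp
    · have hA := twOk_box (R := P) P m l 0 fun _ _ => le_rfl
      have hA' : TwOk (tt P MvPolynomial.X m) m l fun c => box P P 0 c ⊓ LinearMap.ker res :=
        fun j hj c => ⟨inf_le_inf_right _ (hA j hj c).1, fun x hx => ⟨(hA j hj c).2 x hx.1, by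
          have h0 : res x = 0 := hx.2
          change res _ = 0
          rw [R3, h0, map_zero]⟩⟩
      rw [hh_tw_transport (B := fun c => I' • mon P θ c) (b' := b) (tt_comm _ m) hA hA'
        (fun e => inf_le_left) (twOk_smul_mon θ I m l) ev (E4 m) (fun e => E1 _) (fun e => F2 _)
        (fun e => E2 _) n,
        ← hh_tw_transport (B := box P (ResidueField P) 0) (B' := fun _ => ⊥) (b' := b)
        (tt_comm _ m) hA hA' (fun e => inf_le_left)
        (fun j _ c => ⟨le_rfl, fun x hx => by rw [(Submodule.mem_bot P).1 hx, map_zero]; rfl⟩)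
        res (R3 m) (fun e => R1 _) (fun e => F3 _) (fun e => F4 _) n,
        (model_exact (ResidueField P) m l hl 0 b (fun _ _ => le_rfl) (fun j _ => (hb j).1) n
          ?_).hh_eq]
      · simp
      · rw [← List.toFinset_card_of_nodup (hl.filter _)]
        convert hn using 3
        ext j
        simp [hl' j]
  · push Not at hfree
    obtain ⟨c0, F0, hF0, hev0, hne⟩ := hfree
    have hc0 : ∀ j, 0 ≤ c0 j := by
      obtain ⟨d, hd⟩ := MvPolynomial.ne_zero_iff.1 hne
      exact fun j => (Int.natCast_nonneg _).trans (R1 c0 F0 hF0 d hd j).2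
    obtain ⟨C, hC, hCb⟩ := prod_sub_prod_le c0 hc0
    have hr : ∀ (B : ℕ) (c : σ → ℤ), (∀ j, 0 ≤ c j ∧ c j ≤ B) →
        ((rl (I • mon P θ c) (I' • mon P θ c)).toNat : ℝ) * ((B : ℝ) + 1) ≤
          C * ((B : ℝ) + 1) ^ Fintype.card σ := by
      intro B c hc
      refine le_trans (mul_le_mul_of_nonneg_right ?_ (by positivity)) (hCb B c hc)
      set K := (box P (ResidueField P) 0 (c - c0)).map (LinearMap.mulLeft P (res F0)) with hK
      have h1 : rl (I • mon P θ c) (I' • mon P θ c) ≤ rl (K.comap res) (box P P 0 c) := by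
        refine rl_le_of_surj ev (fun x hx hxK => ?_) (E2 c)
        obtain ⟨G, hG, e⟩ := hxK
        obtain ⟨G', hG', rfl⟩ := R2 _ G hG
        have h2 : F0 * G' ∈ box P P 0 c := by simpa using Model_mul hF0 hG'
        have h3 := E3 c (x - F0 * G') (Submodule.sub_mem _ hx h2) (by
          rw [map_sub, ← e]; simp [hres])
        have h4 : ev (F0 * G') ∈ I • mon P θ c := by
          have := Piece_mul_smul (hae _ G' hG') hev0
          rw [sub_add_cancel] at this
          convert this using 1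
          rw [hev, hev, map_mul, mul_smul_comm, mul_comm]
        have := Submodule.add_mem _ h3 h4
        rwa [← map_add, sub_add_cancel] at this
      have h2 : rl (K.comap res) (box P P 0 c) ≤ rl K (box P (ResidueField P) 0 c) :=
        rl_le_of_inj res (fun x hx => Submodule.mem_sup_left (R1 c x hx)) fun x _ h => h
      have h3 := add_le_add (h1.trans h2) (le_refl ((∏ j, (c j - c0 j + 1).toNat : ℕ) : ℕ∞))
      rw [rl_box_mul (res F0) hne c0 c (R1 c0 F0 hF0),
        ← ENat.coe_toNat (Piece_fin θ hI I' c)] at h3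
      rw [le_sub_iff_add_le]
      exact_mod_cast h3
    have hC' : C ≤ 3 ^ Fintype.card σ * C := le_mul_of_one_le_left hC (one_le_pow₀ (by norm_num))
    refine ⟨0, 3 ^ Fintype.card σ * C, hC.trans hC', fun B b hb => ?_,
      fun l hl hl' B m b hb n _ => ?_⟩
    · rw [Nat.cast_zero, zero_mul, sub_zero, Nat.abs_cast]
      exact (hr B b hb).trans (mul_le_mul_of_nonneg_right hC' (by positivity))
    · have h1 := ENat.toNat_le_toNat (hh_tw_le (t := tt P θ m) (m := m) (l := l) (b := b)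
        (A := fun c => I' • mon P θ c) (A' := fun c => I • mon P θ c) n)
        (ENat.sum_ne_top.2 fun _ _ => Piece_fin θ hI I' _)
      rw [ENat.toNat_sum fun _ _ => Piece_fin θ hI I' _] at h1
      refine (mul_le_mul_of_nonneg_right (Nat.cast_le.2 h1) (by positivity)).trans ?_
      rw [Nat.cast_sum, Finset.sum_mul]
      refine (Finset.sum_le_sum (g := fun _ => C * ((B : ℝ) + 1) ^ Fintype.card σ)
        fun e _ => hr B _ (Piece_range hl hl' hb e)).trans ?_
      rw [Finset.sum_const, Finset.card_univ, card_Ix, Piece_length hl hl', nsmul_eq_mul,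
        mul_assoc]
      push_cast
      exact le_rfl

theorem exists_pieceEst [IsLocalRing P] [IsNoetherianRing P] (θ : σ → Λ) {I : Ideal P}
    (hI : Prim I) : ∃ (ρ : ℕ) (C : ℝ), PieceEst P θ I ρ C := by
  have key : Prim I → ∃ (ρ : ℕ) (C : ℝ), Piece_E θ ⊤ I ρ C := by
    refine rl_induction (B := (⊤ : Ideal P))
      (fun I : Ideal P => Prim I → ∃ (ρ : ℕ) (C : ℝ), Piece_E θ ⊤ I ρ C) ?_ ?_ le_top
      (rl_ne_top_of_prim hI)
    · intro _
      refine ⟨0, 0, le_rfl, fun B b _ => by simp [rl_self], fun l _ _ B m b _ n _ => ?_⟩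
      rw [hh_of_le le_rfl]
      simp
    · intro I v _ _ _ hk ih hI
      obtain ⟨ρ, C, h1⟩ := ih (Piece_prim_mono hI le_sup_left)
      obtain ⟨ρ', C', h2⟩ := Piece_step θ hI v hk
      exact ⟨_, _, h1.trans h2 hI le_sup_left le_top⟩
  obtain ⟨ρ, C, h0, h1, h2⟩ := key hI
  simp only [Submodule.top_smul] at h1 h2
  have hfin : ∀ b, rl (I • mon P θ b) (mon P θ b) ≠ ⊤ := fun b => by
    simpa using Piece_fin θ hI ⊤ b
  have hC : C ≤ 3 ^ Fintype.card σ * C := le_mul_of_one_le_left h0 (one_le_pow₀ (by norm_num))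
  refine ⟨ρ, 3 ^ Fintype.card σ * C, h0.trans hC, hfin, fun B b hb => (h1 B b hb).trans ?_,
    fun l hl hl' B m b hb n hn => (h2 l hl hl' B m b hb n hn).trans ?_,
    fun l hl hl' B m b hb => ?_⟩
  · exact mul_le_mul_of_nonneg_right hC (by positivity)
  · exact mul_le_mul_of_nonneg_right hC (by positivity)
  · rw [chi_tw (tt_comm θ m) (twOk_mon θ m l) (twOk_smul_mon θ I m l)
      (fun e => Submodule.smul_le_right) fun e => hfin _, ← sum_sign_prod (m := m) hl b,
      Finset.mul_sum]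
    push_cast
    rw [← Finset.sum_sub_distrib]
    refine (mul_le_mul_of_nonneg_right (Finset.abs_sum_le_sum_abs _ _) (by positivity)).trans ?_
    rw [Finset.sum_mul]
    refine (Finset.sum_le_sum (g := fun _ => C * ((B : ℝ) + 1) ^ Fintype.card σ)
      fun e _ => ?_).trans ?_
    · rw [mul_left_comm, ← mul_sub, abs_mul, abs_pow, abs_neg, abs_one, one_pow, one_mul]
      exact h1 B _ (Piece_range hl hl' hb e)
    · rw [Finset.sum_const, Finset.card_univ, card_Ix, Piece_length hl hl', nsmul_eq_mul,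
        mul_assoc]
      push_cast
      exact le_rfl

end Vale.Agent.P202
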