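import Vale.Agent.P202.Defs

/-! Two numerical lemmas. -/

namespace Vale.Agent.P202

section SymA
open MvPolynomial

variable {σ : Type} [Fintype σ] [DecidableEq σ]

/-- the polynomials killed by a functional -/
def symKer (φ : MvPolynomial σ ℤ →ₗ[ℤ] ℤ) : Ideal (MvPolynomial σ ℤ) where
  carrier := {p | ∀ q, φ (p * q) = 0}
  add_mem' := by
    intro a b ha hb q
    rw [add_mul, map_add, ha q, hb q, add_zero]
  zero_mem' := by intro q; simp
  smul_mem' := by
    intro c p hp q
    have := hp (c * q)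
    rw [smul_eq_mul, mul_comm c p, mul_assoc]
    exact this

omit [Fintype σ] [DecidableEq σ] in
theorem sym_mem_of_monomial (φ : MvPolynomial σ ℤ →ₗ[ℤ] ℤ) (p : MvPolynomial σ ℤ)
    (h : ∀ c, φ (p * monomial c 1) = 0) : p ∈ symKer φ := by
  intro q
  induction q using MvPolynomial.induction_on' with
  | monomial c a =>
    have : (monomial c a : MvPolynomial σ ℤ) = a • monomial c 1 := by
      rw [smul_monomial, smul_eq_mul, mul_one]
    rw [this, mul_smul_comm, map_smul, h c, smul_zero]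
  | add p1 p2 h1 h2 => rw [mul_add, map_add, h1, h2, add_zero]

omit [Fintype σ] [DecidableEq σ] in
theorem sym_mem_of_one (φ : MvPolynomial σ ℤ →ₗ[ℤ] ℤ) (p : MvPolynomial σ ℤ) (h0 : φ p = 0)
    (h : ∀ j, p * (X j - 1) ∈ symKer φ) : p ∈ symKer φ := by
  intro q
  induction q using MvPolynomial.induction_on with
  | C a =>
    rw [mul_comm, ← smul_eq_C_mul, map_smul, h0, smul_zero]
  | add p1 p2 h1 h2 => rw [mul_add, map_add, h1, h2, add_zero]
  | mul_X q j hq =>
    have : p * (q * X j) = p * q + p * (X j - 1) * q := by ring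
    rw [this, map_add, hq, h j q, add_zero]

omit [Fintype σ] in
theorem sym_prod_sub (J : Ideal (MvPolynomial σ ℤ)) (p : MvPolynomial σ ℤ)
    (h : ∀ i j, p * (X i - 1) * (X j - 1) ∈ J) (T : Finset σ) :
    p * (∏ j ∈ T, X j - 1 - ∑ j ∈ T, (X j - 1)) ∈ J := by
  induction T using Finset.induction_on with
  | empty => simp
  | insert a T ha ih =>
    rw [Finset.prod_insert ha, Finset.sum_insert ha]
    have e : p * (X a * ∏ j ∈ T, X j - 1 - (X a - 1 + ∑ j ∈ T, (X j - 1))) =
        p * (∏ j ∈ T, X j - 1 - ∑ j ∈ T, (X j - 1)) * X a +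
          ∑ j ∈ T, p * (X j - 1) * (X a - 1) := by
      rw [← Finset.sum_mul, ← Finset.mul_sum]
      ring
    rw [e]
    exact J.add_mem (J.mul_mem_right _ ih) (J.sum_mem fun j _ => h j a)

theorem sym_main (φ : MvPolynomial σ ℤ →ₗ[ℤ] ℤ)
    (h1 : ∀ j, (X j - 1) * (X j - 1) ∈ symKer φ) (h2 : ∀ (e : Equiv.Perm σ) p, φ (rename e p) = φ p)
    (h3 : ∏ j, X j - 1 ∈ symKer φ) (S : Finset σ) :
    ∀ i, (∏ j ∈ S, (X j - 1)) * (X i - 1) ∈ symKer φ := by
  have hin : ∀ (S : Finset σ) i, i ∈ S → (∏ j ∈ S, (X j - 1)) * (X i - 1) ∈ symKer φ := by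
    intro S i hi
    rw [← Finset.prod_erase_mul S _ hi, mul_assoc]
    exact Ideal.mul_mem_left _ _ (h1 i)
  induction S using WellFoundedGT.induction with
  | ind S ih =>
    have H : ∀ i j, (∏ j ∈ S, (X j - 1)) * (X i - 1) * (X j - 1) ∈ symKer φ := by
      intro i j
      by_cases hi : i ∈ S
      · exact Ideal.mul_mem_right _ _ (hin S i hi)
      · have := ih (insert i S) (Finset.ssubset_insert hi) j
        rwa [Finset.prod_insert hi, mul_comm (X i - 1)] at this
    intro i
    by_cases hi : i ∈ S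
    · exact hin S i hi
    refine sym_mem_of_one φ _ ?_ (H i)
    have a1 := sym_prod_sub (symKer φ) _ H Finset.univ 1
    have a2 := (Ideal.mul_mem_left _ (∏ j ∈ S, (X j - 1)) h3) 1
    rw [mul_one] at a1 a2
    rw [mul_sub, map_sub, a2, zero_sub, neg_eq_zero, Finset.mul_sum, map_sum] at a1
    have a3 : ∀ j, φ ((∏ j ∈ S, (X j - 1)) * (X j - 1)) =
        if j ∈ S then 0 else φ ((∏ j ∈ S, (X j - 1)) * (X i - 1)) := by
      intro j
      split_ifs with hj
      · simpa using hin S j hj 1
      · rw [← h2 (Equiv.swap i j)]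
        congr 1
        simp only [map_mul, map_prod, map_sub, rename_X, map_one, Equiv.swap_apply_right]
        congr 1
        refine Finset.prod_congr rfl fun k hk => ?_
        rw [Equiv.swap_apply_of_ne_of_ne]
        · rintro rfl; exact hi hk
        · rintro rfl; exact hj hk
    rw [Finset.sum_congr rfl fun j _ => a3 j, Finset.sum_ite, Finset.sum_const_zero, zero_add, Finset.sum_const, nsmul_eq_mul,
      mul_eq_zero] at a1
    refine a1.resolve_left ?_
    have : 0 < (Finset.univ.filter fun j => j ∉ S).card :=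
      Finset.card_pos.2 ⟨i, by simpa using hi⟩
    exact_mod_cast this.ne'

end SymA

open MvPolynomial in
/-- a symmetric multi-affine function which is invariant along the diagonal is constant -/
theorem const_of_sym {σ : Type} [Fintype σ] [DecidableEq σ] (f : (σ → ℤ) → ℤ) (β : ℤ)
    (haff : ∀ b, (∀ i, β ≤ b i) → ∀ j,
      f (b + Pi.single j 2) - f (b + Pi.single j 1) = f (b + Pi.single j 1) - f b)
    (hsym : ∀ b, (∀ i, β ≤ b i) → ∀ e : Equiv.Perm σ, f (b ∘ e) = f b)
    (hdiag : ∀ b, (∀ i, β ≤ b i) → f (b + fun _ => 1) = f b)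
    (b b' : σ → ℤ) (hb : ∀ i, β ≤ b i) (hb' : ∀ i, β ≤ b' i) : f b = f b' := by
  let w : (σ →₀ ℕ) → σ → ℤ := fun c i => β + c i
  have hw : ∀ c i, β ≤ w c i := fun c i => by simp [w]
  let φ : MvPolynomial σ ℤ →ₗ[ℤ] ℤ := (basisMonomials σ ℤ).constr ℤ fun c => f (w c)
  have hφ : ∀ c, φ (monomial c 1) = f (w c) := fun c => by
    have := (basisMonomials σ ℤ).constr_basis ℤ (fun c => f (w c)) c
    rwa [coe_basisMonomials] at this
  have hX : ∀ j c, (X j : MvPolynomial σ ℤ) * monomial c 1 =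
      monomial (c + Finsupp.single j 1) 1 := by
    intro j c
    rw [X, monomial_mul, add_comm, one_mul]
  have hw1 : ∀ j c, w (c + Finsupp.single j 1) = w c + Pi.single j 1 := by
    intro j c
    funext i
    by_cases h : i = j
    · subst h; simp [w, add_assoc]
    · simp [w, h]
  have h1 : ∀ j, (X j - 1) * (X j - 1) ∈ symKer φ := by
    intro j
    refine sym_mem_of_monomial φ _ fun c => ?_
    have e : (X j - 1) * (X j - 1) * (monomial c 1 : MvPolynomial σ ℤ) =
        X j * (X j * monomial c 1) - X j * monomial c 1 - (X j * monomial c 1 - monomial c 1) := by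
      ring
    rw [e, hX, hX]
    simp only [map_sub, hφ, hw1]
    have e2 : w c + Pi.single j 1 + Pi.single j 1 = w c + Pi.single j 2 := by
      rw [add_assoc, ← Pi.single_add]; norm_num
    rw [e2, haff _ (hw c) j, sub_self]
  have h2 : ∀ (e : Equiv.Perm σ) p, φ (rename e p) = φ p := by
    intro e p
    induction p using MvPolynomial.induction_on' with
    | monomial c a =>
      have : (monomial c a : MvPolynomial σ ℤ) = a • monomial c 1 := by
        rw [smul_monomial, smul_eq_mul, mul_one]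
      rw [this, map_smul, map_smul, map_smul, rename_monomial, hφ, hφ,
        ← hsym _ (hw _) e]
      congr 2
      funext i
      simp [w]
    | add p1 p2 a1 a2 => rw [map_add, map_add, map_add, a1, a2]
  have h3 : ∏ j, X j - 1 ∈ symKer φ := by
    refine sym_mem_of_monomial φ _ fun c => ?_
    have e : (∏ j, X j : MvPolynomial σ ℤ) =
        monomial (Finsupp.equivFunOnFinite.symm fun _ => 1) 1 := by
      rw [monomial_eq, Finsupp.prod_fintype _ _ (by simp)]
      simp
    rw [sub_mul, one_mul, e, monomial_mul, one_mul, map_sub, hφ, hφ, ← hdiag _ (hw c), sub_eq_zero]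
    congr 1
    funext i
    simp [w]
    ring
  have key : ∀ i, (X i - 1 : MvPolynomial σ ℤ) ∈ symKer φ := by
    intro i
    simpa using sym_main φ h1 h2 h3 ∅ i
  have step : ∀ j c, f (w (c + Finsupp.single j 1)) = f (w c) := by
    intro j c
    have := key j (monomial c 1)
    rwa [sub_mul, one_mul, hX, map_sub, hφ, hφ, sub_eq_zero] at this
  have all : ∀ c, f (w c) = f (w 0) := by
    intro c
    induction c using Finsupp.induction with
    | zero => rfl
    | single_add j n c _ _ ih =>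
      rw [← ih]
      clear * - step
      induction n with
      | zero => simp
      | succ n ihn =>
        rw [← ihn, ← step j (Finsupp.single j n + c), Finsupp.single_add]
        congr 2
        abel
  have eb : ∀ b : σ → ℤ, (∀ i, β ≤ b i) →
      b = w (Finsupp.equivFunOnFinite.symm fun i => (b i - β).toNat) := by
    intro b hb
    funext i
    have := hb i
    simp only [w, Finsupp.coe_equivFunOnFinite_symm]
    omega
  rw [eb b hb, eb b' hb']
  exact (all _).trans (all _).symm

theorem sym_prod_diff {ι : Type*} [DecidableEq ι] (T : Finset ι) (u v : ι → ℝ) (K : ℝ)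
    (hK : 0 ≤ K) (hu : ∀ j, |u j| ≤ K) (hv : ∀ j, |v j| ≤ K) (huv : ∀ j, |u j - v j| ≤ 1) :
    |∏ j ∈ T, u j - ∏ j ∈ T, v j| * K ≤ T.card * K ^ T.card := by
  induction T using Finset.induction_on with
  | empty => simp
  | insert a T ha ih =>
    rw [Finset.prod_insert ha, Finset.prod_insert ha, Finset.card_insert_of_notMem ha]
    have e : u a * ∏ j ∈ T, u j - v a * ∏ j ∈ T, v j =
        u a * (∏ j ∈ T, u j - ∏ j ∈ T, v j) + (u a - v a) * ∏ j ∈ T, v j := by ring
    have b1 : |∏ j ∈ T, v j| ≤ K ^ T.card := by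
      rw [Finset.abs_prod]
      exact (Finset.prod_le_prod (fun j _ => abs_nonneg _) fun j _ => hv j).trans
        (by rw [Finset.prod_const])
    have b2 : |u a * (∏ j ∈ T, u j - ∏ j ∈ T, v j)| * K ≤ K * (T.card * K ^ T.card) := by
      rw [abs_mul, mul_assoc]
      exact mul_le_mul (hu a) ih (by positivity) hK
    have b3 : |(u a - v a) * ∏ j ∈ T, v j| * K ≤ K ^ T.card * K := by
      rw [abs_mul]
      refine mul_le_mul_of_nonneg_right ?_ hK
      simpa using mul_le_mul (huv a) b1 (abs_nonneg _) zero_le_one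
    rw [e]
    refine (mul_le_mul_of_nonneg_right (abs_add_le _ _) hK).trans ?_
    rw [add_mul]
    refine (add_le_add b2 b3).trans (le_of_eq ?_)
    push_cast
    ring

open Polynomial in
theorem sym_roots (s : ℕ) : ∃ (α : Fin s → ℝ) (G : ℝ → ℝ),
    (∀ j : Fin s, ((j : ℕ) : ℝ) + 1 < α j ∧ α j < ((j : ℕ) : ℝ) + 2) ∧
    (∀ t, HasDerivAt G (∏ j, (α j - t)) t) ∧
    ∀ i : ℕ, 1 ≤ i → i ≤ s + 1 → G i - G 0 = s.factorial := by
  let p : ℝ[X] := ∏ i ∈ Finset.range (s + 1), (X - C ((i : ℝ) + 1))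
  have hp0 : ∀ i : ℕ, i ≤ s → p.eval ((i : ℝ) + 1) = 0 := by
    intro i hi
    simp only [p, eval_prod]
    exact Finset.prod_eq_zero (i := i) (Finset.mem_range.2 (by omega)) (by simp)
  have hr : ∀ j : Fin s, ∃ c ∈ Set.Ioo (((j : ℕ) : ℝ) + 1) (((j : ℕ) : ℝ) + 2),
      p.derivative.eval c = 0 := by
    intro j
    refine exists_hasDerivAt_eq_zero (f := fun x => p.eval x) (f' := fun x => p.derivative.eval x)
      (by linarith) p.continuous.continuousOn ?_ fun x _ => p.hasDerivAt x
    have a1 := hp0 j (by omega)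
    have a2 := hp0 (j + 1) (by omega)
    push_cast at a2
    simp only [a1]
    rw [← a2]
    congr 1
    ring
  choose α hα hα0 using hr
  have hmon : p.Monic := monic_prod_X_sub_C _ _
  have hdeg : p.natDegree = s + 1 := by
    simp only [p]
    rw [natDegree_finsetProd_X_sub_C_eq_card, Finset.card_range]
  have hinj : Set.InjOn α (Finset.univ : Finset (Fin s)) := by
    intro i _ j _ hij
    have a1 := hα i
    have a2 := hα j
    rw [hij] at a1
    have b1 : ((i : ℕ) : ℝ) < ((j : ℕ) + 1 : ℕ) := by push_cast; linarith [a1.1, a2.2]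
    have b2 : ((j : ℕ) : ℝ) < ((i : ℕ) + 1 : ℕ) := by push_cast; linarith [a1.2, a2.1]
    have b1' := Nat.cast_lt.1 b1
    have b2' := Nat.cast_lt.1 b2
    exact Fin.ext (by omega)
  let q : ℝ[X] := ∏ j, (X - C (α j))
  have hqm : q.Monic := monic_prod_X_sub_C _ _
  have hqd : q.natDegree = s := by
    simp only [q]
    rw [natDegree_finsetProd_X_sub_C_eq_card, Finset.card_univ, Fintype.card_fin]
  have hs : ((s : ℝ) + 1) ≠ 0 := by positivity
  have hd0 : p.derivative ≠ 0 := by
    rw [derivative_ne_zero, hdeg]; omega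
  have hder : p.derivative = C ((s : ℝ) + 1) * q := by
    refine eq_of_degree_le_of_eval_index_eq Finset.univ hinj ?_ ?_ ?_ ?_
    · rw [degree_eq_natDegree hd0, natDegree_derivative, hdeg]
      simp
    · rw [degree_eq_natDegree hd0, natDegree_derivative, hdeg, degree_C_mul hs,
        degree_eq_natDegree hqm.ne_zero, hqd]
      simp
    · rw [leadingCoeff_derivative, hdeg, hmon.leadingCoeff, leadingCoeff_mul, hqm.leadingCoeff,
        leadingCoeff_C]
      simp
    · intro j _
      rw [hα0 j, eval_mul, eq_comm, mul_eq_zero]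
      right
      simp only [q, eval_prod]
      exact Finset.prod_eq_zero (Finset.mem_univ j) (by simp)
  refine ⟨α, fun t => (-1) ^ s / ((s : ℝ) + 1) * p.eval t, fun j => hα j, fun t => ?_, ?_⟩
  · refine ((p.hasDerivAt t).const_mul ((-1) ^ s / ((s : ℝ) + 1))).congr_deriv ?_
    rw [hder, eval_mul, eval_C]
    simp only [q, eval_prod, eval_sub, eval_X, eval_C]
    have : ∏ j, (α j - t) = ∏ j, (-1 * (t - α j)) := Finset.prod_congr rfl fun j _ => by ring
    rw [this, Finset.prod_mul_distrib, Finset.prod_const, Finset.card_univ, Fintype.card_fin]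
    field_simp
  · intro i h1 h2
    obtain ⟨i, rfl⟩ : ∃ k, i = k + 1 := ⟨i - 1, by omega⟩
    have a1 := hp0 i (by omega)
    have a2 : p.eval 0 = (-1) ^ (s + 1) * ((s + 1).factorial : ℝ) := by
      simp only [p, eval_prod, eval_sub, eval_X, eval_C]
      rw [← Finset.prod_range_add_one_eq_factorial]
      push_cast
      have : ∏ j ∈ Finset.range (s + 1), (0 - ((j : ℝ) + 1)) =
        ∏ j ∈ Finset.range (s + 1), (-1 * ((j : ℝ) + 1)) :=
          Finset.prod_congr rfl fun j _ => by ring
      rw [this, Finset.prod_mul_distrib, Finset.prod_const, Finset.card_range]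
    push_cast
    simp only [a1, a2, Nat.factorial_succ]
    push_cast
    have a3 : ((-1 : ℝ) ^ s) * (-1) ^ s = 1 := by rw [← mul_pow]; simp
    field_simp
    rw [pow_succ]
    linear_combination (s.factorial : ℝ) * ((s : ℝ) + 1) * a3

/-- the choice of the windows -/
theorem exists_windows (s : ℕ) : ∃ C : ℝ, ∀ n : ℕ, 1 ≤ n → ∃ a : Fin s → ℤ,
    (∀ j : Fin s, (((j : ℕ) : ℤ) + 1) * n ≤ a j ∧ a j ≤ (((j : ℕ) : ℤ) + 2) * n) ∧
    ∀ i : ℕ, 1 ≤ i → i ≤ s + 1 →
      |∑ l ∈ Finset.range (i * n), ∏ j, ((a j : ℝ) - l) - s.factorial * (n : ℝ) ^ (s + 1)| ≤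
        C * (n : ℝ) ^ s := by
  obtain ⟨α, G, hα, hG, hGi⟩ := sym_roots s
  refine ⟨s * ((s : ℝ) + 2) ^ s, fun n hn => ?_⟩
  have hn0 : (0 : ℝ) < n := by exact_mod_cast hn
  have hlo : ∀ j : Fin s, (((j : ℕ) : ℤ) + 1) * n ≤ ⌊α j * n⌋ := fun j => by
    rw [Int.le_floor]
    push_cast
    exact mul_le_mul_of_nonneg_right (hα j).1.le hn0.le
  have hhi : ∀ j : Fin s, ⌊α j * n⌋ ≤ (((j : ℕ) : ℤ) + 2) * n := fun j => by
    have := (Int.floor_le (α j * n)).trans (mul_le_mul_of_nonneg_right (hα j).2.le hn0.le)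
    exact_mod_cast this
  refine ⟨fun j => ⌊α j * n⌋, fun j => ⟨hlo j, hhi j⟩, fun i h1 h2 => ?_⟩
  set K : ℝ := ((s : ℝ) + 2) * n with hK
  have hK0 : 0 < K := by positivity
  have hin : (i : ℝ) * n ≤ ((s : ℝ) + 1) * n :=
    mul_le_mul_of_nonneg_right (by exact_mod_cast h2) hn0.le
  have mv : ∀ l : ℕ, ∃ ξ ∈ Set.Ioo ((l : ℝ) / n) (((l : ℝ) + 1) / n),
      ∏ j, (α j - ξ) = (G (((l : ℝ) + 1) / n) - G (l / n)) / (((l : ℝ) + 1) / n - l / n) :=
    fun l => exists_hasDerivAt_eq_slope G (fun t => ∏ j, (α j - t))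
      (by gcongr; linarith) (fun t _ => (hG t).continuousAt.continuousWithinAt) fun t _ => hG t
  choose ξ hξ hξ' using mv
  have tel : ∑ l ∈ Finset.range (i * n), ∏ j, (α j * n - ξ l * n) =
      s.factorial * (n : ℝ) ^ (s + 1) := by
    have e1 : ∀ l : ℕ, ∏ j, (α j * n - ξ l * n) =
        (n : ℝ) ^ (s + 1) * (G (((l + 1 : ℕ) : ℝ) / n) - G ((l : ℝ) / n)) := by
      intro l
      have : ∏ j, (α j * n - ξ l * n) = ∏ j, ((α j - ξ l) * n) :=
        Finset.prod_congr rfl fun j _ => by ring
      rw [this, Finset.prod_mul_distrib, Finset.prod_const, Finset.card_univ, Fintype.card_fin,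
        hξ' l]
      push_cast
      have : ((l : ℝ) + 1) / n - l / n = 1 / n := by ring
      rw [this]
      field_simp
      ring
    simp only [e1]
    rw [← Finset.mul_sum, Finset.sum_range_sub (fun l : ℕ => G ((l : ℝ) / n))]
    have := hGi i h1 h2
    push_cast
    rw [mul_div_cancel_right₀ _ hn0.ne', zero_div, this, mul_comm]
  rw [← tel, ← Finset.sum_sub_distrib]
  have each : ∀ l ∈ Finset.range (i * n),
      |∏ j, (((⌊α j * n⌋ : ℤ) : ℝ) - l) - ∏ j, (α j * n - ξ l * n)| ≤ s * K ^ s / K := by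
    intro l hl
    have hl' : (l : ℝ) + 1 ≤ i * n := by exact_mod_cast Finset.mem_range.1 hl
    have x1 : (l : ℝ) < ξ l * n := (div_lt_iff₀ hn0).1 (hξ l).1
    have x2 : ξ l * n < (l : ℝ) + 1 := (lt_div_iff₀ hn0).1 (hξ l).2
    have l0 : (0 : ℝ) ≤ l := Nat.cast_nonneg l
    have y : ∀ j : Fin s, 0 ≤ α j * n - n ∧ α j * n ≤ K := fun j => by
      have j0 : (0 : ℝ) ≤ ((j : ℕ) : ℝ) := Nat.cast_nonneg _
      have js : ((j : ℕ) : ℝ) ≤ s := by exact_mod_cast j.2.le
      constructor
      · nlinarith [(hα j).1]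
      · exact mul_le_mul_of_nonneg_right (by linarith [(hα j).2]) hn0.le
    have n1 : (1 : ℝ) ≤ n := by exact_mod_cast hn
    rw [le_div_iff₀ hK0]
    have := sym_prod_diff Finset.univ (fun j => ((⌊α j * n⌋ : ℤ) : ℝ) - l)
      (fun j => α j * n - ξ l * n) K hK0.le (fun j => ?_) (fun j => ?_) (fun j => ?_)
    · simpa using this
    · have f1 := Int.floor_le (α j * n)
      have f2 := Int.lt_floor_add_one (α j * n)
      rw [abs_le]
      constructor <;> nlinarith [(y j).1, (y j).2]
    · rw [abs_le]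
      constructor <;> nlinarith [(y j).1, (y j).2]
    · have f1 := Int.floor_le (α j * n)
      have f2 := Int.lt_floor_add_one (α j * n)
      rw [abs_le]
      constructor <;> linarith
  refine (Finset.abs_sum_le_sum_abs _ _).trans ((Finset.sum_le_sum each).trans ?_)
  rw [Finset.sum_const, Finset.card_range, nsmul_eq_mul]
  have : ((i * n : ℕ) : ℝ) ≤ K := by push_cast; nlinarith
  refine (mul_le_mul_of_nonneg_right this (by positivity)).trans (le_of_eq ?_)
  rw [mul_div_cancel₀ _ hK0.ne', hK, mul_pow]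
  ring

end Vale.Agent.P202
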