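import Vale.Agent.P202.Mat
import Vale.Agent.P202.Asym
import Vale.Agent.P202.ColonC
import Vale.Agent.P202.Piece
import Vale.Agent.P202.Sym
import Vale.Agent.P202.Kos

/-! The Euler characteristic with coefficients in `mon b` is constant. -/

namespace Vale.Agent.P202

open IsLocalRing

section Free
variable {R : Type*} [CommRing R] {M : Type*} [AddCommGroup M] [Module R M]

theorem anchor_chi_pi {J : Type*} [Fintype J] {i : J → ℕ} {g : Matrix J J R} {q : Ideal R}
    (hd : Deg i g) (hsq : Ent (g * g) q) (hf : ∀ n, hI i g q n ≠ ⊤) {ι : Type*} [DecidableEq ι]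
    (S : Finset ι) :
    HFin (act g) (pf i fun _ => Submodule.pi {a | a ∉ S} fun _ : ι => q)
        (pf i fun _ => Submodule.pi Set.univ fun _ : ι => q) ∧
      chi (act g) (pf i fun _ => Submodule.pi {a | a ∉ S} fun _ : ι => q)
        (pf i fun _ => Submodule.pi Set.univ fun _ : ι => q) = S.card * chiI i g q := by
  have hq : ∀ (A : Submodule R (ι → R)) (T : Set ι), q • A ≤ Submodule.pi T fun _ : ι => q :=
    fun A T => Submodule.smul_le.2 fun r hr c _ a _ => q.mul_mem_right _ hr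
  have hle : ∀ {T T' : Set ι}, T ⊆ T' → (Submodule.pi T' fun _ : ι => q) ≤
      Submodule.pi T fun _ : ι => q := fun h c hc a ha => hc a (h ha)
  induction S using Finset.induction_on with
  | empty =>
    have h0 : ∀ n, hh (act g) (pf i fun _ => Submodule.pi {a | a ∉ (∅ : Finset ι)} fun _ : ι => q)
        (pf i fun _ => Submodule.pi Set.univ fun _ : ι => q) n = 0 := fun n =>
      hh_of_le fun v hv => mem_pf.2 fun a => ⟨fun h => hle (fun b _ => by simp)
        ((mem_pf.1 hv a).1 h), (mem_pf.1 hv a).2⟩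
    exact ⟨fun n => (h0 n).trans_ne ENat.zero_ne_top, by rw [chi_of_acyclic h0]; simp⟩
  | insert a S ha ih =>
    have hsub : {b | b ∉ insert a S} ⊆ {b | b ∉ S} := fun b hb h =>
      hb (Finset.mem_insert_of_mem h)
    have h1 := isPair_pf hd hsq (hle hsub) (hq _ _)
    have h2 := isPair_pf hd hsq (hle (Set.subset_univ {b | b ∉ S})) (hq _ _)
    have h3 := isPair_pf hd hsq (hle (Set.subset_univ {b | b ∉ insert a S})) (hq _ _)
    have h4 : ∀ n, hI i g q n = hh (act g)
        (pf i fun _ => Submodule.pi {b | b ∉ insert a S} fun _ : ι => q)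
        (pf i fun _ => Submodule.pi {b | b ∉ S} fun _ : ι => q) n := fun n =>
      hh_pf_transport hd hsq (hle hsub) (hq _ _) le_top
        (Submodule.smul_le.2 fun r hr c _ => q.mul_mem_right _ hr) (LinearMap.proj a)
        (fun _ _ => trivial) (fun c hc => ⟨fun h b hb => by
          by_cases hba : b = a
          · rw [hba]; exact h
          · exact hc b fun h' => (Finset.mem_insert.1 h').elim hba hb, fun h => h a ha⟩)
        (fun y _ => ⟨Pi.single a y, fun b hb => by
          have hba : b ≠ a := fun h => hb (h ▸ Finset.mem_insert_self a S)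
          rw [Pi.single_eq_of_ne hba]; exact q.zero_mem, by simp⟩) n
    have h5 : HFin (act g) (pf i fun _ => Submodule.pi {b | b ∉ insert a S} fun _ : ι => q)
        (pf i fun _ => Submodule.pi {b | b ∉ S} fun _ : ι => q) := fun n => h4 n ▸ hf n
    refine ⟨HFin.mid h1 h2 h3 h5 ih.1, ?_⟩
    rw [chi_add h1 h2 h3 h5 ih.1, ih.2, ← chi_congr h4, Finset.card_insert_of_notMem ha, chiI]
    push_cast
    ring

theorem anchor_mem_span {ι : Type*} [Fintype ι] (v : ι → M) (y : M) :
    y ∈ Submodule.span R (Set.range v) ↔ ∃ c, Fintype.linearCombination R v c = y := by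
  rw [← Fintype.range_linearCombination]; rfl

/-- coefficients in a free module over `R ⧸ q` -/
theorem chi_pf_free {J : Type*} [Fintype J] {i : J → ℕ} {g : Matrix J J R} {q : Ideal R}
    (hd : Deg i g) (hsq : Ent (g * g) q) (hf : ∀ n, hI i g q n ≠ ⊤) {ι : Type*} [Fintype ι]
    (v : ι → M) (hv : ∀ c : ι → R, ∑ a, c a • v a = 0 ↔ ∀ a, c a ∈ q) :
    chi (act g) (pf i fun _ => Submodule.span R (Set.range v)) (pf i fun _ => ⊥) =
      Fintype.card ι * chiI i g q := by
  classical
  have h1 := (anchor_chi_pi hd hsq hf (Finset.univ : Finset ι)).2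
  rw [Finset.card_univ] at h1
  rw [← h1]
  refine chi_congr fun n => hh_pf_transport hd hsq
    (A := Submodule.pi {a | a ∉ Finset.univ} fun _ : ι => q)
    (A' := Submodule.pi Set.univ fun _ : ι => q) (B := Submodule.span R (Set.range v)) (B' := ⊥)
    (fun c hc a _ => hc a trivial) (Submodule.smul_le.2 fun r hr c _ a _ => q.mul_mem_right _ hr) bot_le
    (Submodule.smul_le.2 fun r hr y hy => ?_) (Fintype.linearCombination R v)
    (fun c _ => (anchor_mem_span v _).2 ⟨c, rfl⟩) (fun c _ => ?_) (fun y hy => ?_) n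
  · obtain ⟨c, rfl⟩ := (anchor_mem_span v _).1 hy
    rw [← map_smul, Submodule.mem_bot, Fintype.linearCombination_apply, hv]
    exact fun a => q.mul_mem_right _ hr
  · rw [Submodule.mem_bot, Fintype.linearCombination_apply, hv]
    exact ⟨fun h a _ => h a, fun h a => h a trivial⟩
  · obtain ⟨c, rfl⟩ := (anchor_mem_span v _).1 hy
    exact ⟨c, fun a ha => absurd (Finset.mem_univ a) ha, by simp⟩

theorem rl_smul_free {q : Ideal R} {ι : Type*} [Fintype ι] (v : ι → M)
    (hv : ∀ c : ι → R, ∑ a, c a • v a = 0 ↔ ∀ a, c a ∈ q) (W : Ideal R) :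
    rl (W • Submodule.span R (Set.range v)) (Submodule.span R (Set.range v)) =
      Fintype.card ι * rl (q ⊔ W) (⊤ : Ideal R) := by
  classical
  have h1 := rl_pi (fun _ : ι => q ⊔ W) fun _ : ι => (⊤ : Ideal R)
  rw [Finset.sum_const, Finset.card_univ, nsmul_eq_mul] at h1
  rw [← h1]
  refine rl_eq_of_map (Fintype.linearCombination R v)
    (fun c _ => Submodule.mem_sup_left ((anchor_mem_span v _).2 ⟨c, rfl⟩)) (fun y hy => ?_)
    fun c _ => ?_
  · obtain ⟨c, rfl⟩ := (anchor_mem_span v _).1 hy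
    exact ⟨c, fun _ _ => trivial, by simp⟩
  · rw [← Fintype.range_linearCombination, ← Submodule.map_top, ← Submodule.map_smul'']
    constructor
    · rintro ⟨z, hz, hzc⟩ a -
      have h2 := (kos_mem_smul_top W z).1 hz a
      have h3 : Fintype.linearCombination R v (c - z) = 0 := by rw [map_sub, hzc, sub_self]
      rw [Fintype.linearCombination_apply, hv] at h3
      have h4 := Submodule.add_mem_sup (h3 a) h2
      rwa [Pi.sub_apply, sub_add_cancel] at h4
    · intro hc
      choose y hy z hz hyz using fun a => Submodule.mem_sup.1 (hc a trivial)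
      refine ⟨z, (kos_mem_smul_top W z).2 hz, ?_⟩
      have h2 : c = y + z := funext fun a => (hyz a).symm
      rw [h2, map_add, Fintype.linearCombination_apply R v y, (hv y).2 hy, zero_add]

theorem anchor_rl_map {M' : Type*} [AddCommGroup M'] [Module R M'] (φ : M →ₗ[R] M')
    (hφ : Function.Injective φ) (A B : Submodule R M) : rl (A.map φ) (B.map φ) = rl A B :=
  rl_eq_of_map φ (fun x hx => Submodule.mem_sup_left ⟨x, hx, rfl⟩)
    (by rintro _ ⟨x, hx, rfl⟩; exact ⟨x, hx, by simp⟩)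
    fun x _ => ⟨by rintro ⟨y, hy, h⟩; rwa [← hφ h], fun h => ⟨x, h, rfl⟩⟩

end Free

variable {P : Type*} [CommRing P] {Λ : Type*} [CommRing Λ] [Algebra P Λ] {q : Ideal P} {s : ℕ}
  {x : Fin (s + 1) → P} {θ : Fin s → Λ} {u : Λˣ}

theorem SplitData.anchor_kill (h : SplitData q x Λ θ u) {r : P} (hr : r ∈ q) (y : Λ) :
    r • y = 0 := by
  rw [Algebra.smul_def, h.kill r hr, zero_mul]

theorem SplitData.anchor_q (h : SplitData q x Λ θ u) (A B : Submodule P Λ) : q • A ≤ B :=
  Submodule.smul_le.2 fun r hr y _ => by rw [h.anchor_kill hr]; exact B.zero_mem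

/-- the staircase module is free of rank `s!` over `P ⧸ q` -/
theorem SplitData.stair (h : SplitData q x Λ θ u) :
    ∃ (ι : Type) (_ : Fintype ι) (v : ι → Λ), Fintype.card ι = s.factorial ∧
      mon P θ (fun j : Fin s => ((j : ℕ) : ℤ)) = Submodule.span P (Set.range v) ∧
      ∀ c : ι → P, ∑ a, c a • v a = 0 ↔ ∀ a, c a ∈ q := by
  classical
  refine ⟨∀ j : Fin s, Fin (j + 1), inferInstance, fun c => ∏ j, θ j ^ (c j : ℕ), ?_, ?_,
    fun c => ⟨fun hc => ?_, fun hc => Finset.sum_eq_zero fun a _ => h.anchor_kill (hc a) _⟩⟩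
  · rw [Fintype.card_pi]
    simp only [Fintype.card_fin]
    rw [Fin.prod_univ_eq_prod_range (fun j => j + 1) s, Finset.prod_range_add_one_eq_factorial]
  · unfold mon
    congr 1
    ext y
    constructor
    · rintro ⟨c, hc, rfl⟩
      exact ⟨fun j => ⟨c j, by have : (c j : ℤ) ≤ (j : ℕ) := hc j; omega⟩, rfl⟩
    · rintro ⟨c, rfl⟩
      refine ⟨fun j => c j, fun j => ?_, rfl⟩
      have := (c j).2
      show ((c j : ℕ) : ℤ) ≤ (j : ℕ)
      omega
  · let e : (∀ j : Fin s, Fin (j + 1)) → (Fin s →₀ ℕ) := fun a =>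
      Finsupp.equivFunOnFinite.symm fun j => (a j : ℕ)
    have he : Function.Injective e := by
      intro a b hab
      funext j
      exact Fin.ext (congrFun (Finsupp.equivFunOnFinite.symm.injective hab) j)
    have hco : ∀ d, (∑ a, MvPolynomial.monomial (e a) (c a)).coeff d =
        ∑ a, if e a = d then c a else 0 := by
      intro d
      rw [MvPolynomial.coeff_sum]
      simp only [MvPolynomial.coeff_monomial]
    have h1 := h.indep (∑ a, MvPolynomial.monomial (e a) (c a)) (by
      intro d hd j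
      rw [hco] at hd
      obtain ⟨a, -, ha⟩ := Finset.exists_ne_zero_of_sum_ne_zero hd
      have h2 : e a = d := by
        by_contra h3
        exact ha (if_neg h3)
      have h3 : d j = a j := by rw [← h2]; rfl
      have := (a j).2
      simp only [Pi.zero_apply]
      omega) (by
      rw [map_sum, ← hc]
      refine Finset.sum_congr rfl fun a _ => ?_
      rw [MvPolynomial.aeval_monomial, Finsupp.prod_fintype _ _ (by simp), Algebra.smul_def]
      rfl)
    intro a
    have h2 := h1 (e a)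
    rw [hco, Finset.sum_eq_single a (fun b _ hb => if_neg fun h3 => hb (he h3)) (by simp),
      if_pos rfl] at h2
    exact h2

theorem SplitData.map_u (h : SplitData q x Λ θ u) {b : Fin s → ℤ}
    (hb : ∀ j : Fin s, ((j : ℕ) : ℤ) ≤ b j) :
    (mon P θ (b + fun _ => 1)).map (LinearMap.mulLeft P (u : Λ)) =
      (q ⊔ Ideal.span (Set.range x)) • mon P θ b := by
  refine le_antisymm ?_ ?_
  · rintro _ ⟨y, hy, rfl⟩
    exact Submodule.smul_mono_left le_sup_right (h.ulrich hb hy)
  · rw [Submodule.sup_smul]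
    refine sup_le (h.anchor_q _ _) (Submodule.smul_le.2 fun r hr y hy => ?_)
    have h1 : Ideal.span (Set.range x) ≤ ((mon P θ (b + fun _ => 1)).map
        (LinearMap.mulLeft P (u : Λ))).comap (LinearMap.toSpanSingleton P Λ y) := by
      refine Ideal.span_le.2 ?_
      rintro _ ⟨t, rfl⟩
      obtain ⟨y', hy', h2⟩ := h.smul_mem hy t
      exact ⟨y', hy', h2.symm⟩
    exact h1 hr

theorem anchor_mul_inj (w : Λˣ) : Function.Injective (LinearMap.mulLeft P (w : Λ)) :=
  fun _ _ h => w.mul_right_inj.1 h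

theorem anchor_fix {τ : Λ →ₐ[P] Λ} (hτ : ∀ j, τ (θ j) = θ j) {b : Fin s → ℤ} {y : Λ}
    (hy : y ∈ mon P θ b) : τ y = y := by
  refine Submodule.span_induction ?_ (map_zero τ) (fun a b _ _ ha hb => by rw [map_add, ha, hb])
    (fun r a _ ha => by rw [map_smul, ha]) hy
  rintro _ ⟨c, -, rfl⟩
  simp only [map_prod, map_pow, hτ]

theorem SplitData.anchor_tr (h : SplitData q x Λ θ u) {J : Type} [Fintype J] {i : J → ℕ}
    {g : Matrix J J P} (hd : Deg i g) (hsq : Ent (g * g) q) (A A' B B' : Submodule P Λ)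
    (hA : A' ≤ A) (hB : B' ≤ B) (φ : Λ →ₗ[P] Λ) (h1 : ∀ y ∈ A, φ y ∈ B)
    (h2 : ∀ y ∈ A, φ y ∈ B' ↔ y ∈ A') (h3 : ∀ y ∈ B, ∃ z ∈ A, y - φ z ∈ B') :
    chi (act g) (pf i fun _ => B) (pf i fun _ => B') =
      chi (act g) (pf i fun _ => A) (pf i fun _ => A') :=
  chi_congr fun n => hh_pf_transport hd hsq hA (h.anchor_q _ _) hB (h.anchor_q _ _) φ h1 h2 h3 n

theorem SplitData.anchor_sym (h : SplitData q x Λ θ u) {J : Type} [Fintype J] {i : J → ℕ}
    {g : Matrix J J P} (hd : Deg i g) (hsq : Ent (g * g) q) (b : Fin s → ℤ)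
    (e : Equiv.Perm (Fin s)) :
    chi (act g) (pf i fun _ => mon P θ (b ∘ e)) (pf i fun _ => ⊥) =
      chi (act g) (pf i fun _ => mon P θ b) (pf i fun _ => ⊥) := by
  obtain ⟨τ, hτ⟩ := h.perm e
  obtain ⟨τ', hτ'⟩ := h.perm e.symm
  have hm := mon_map_perm e τ hτ b
  refine (h.anchor_tr hd hsq (mon P θ (b ∘ e)) ⊥ (mon P θ b) ⊥ bot_le bot_le τ.toLinearMap
    (fun y hy => by rw [← hm]; exact Submodule.mem_map_of_mem hy) (fun y hy => ?_) ?_).symm
  · rw [Submodule.mem_bot, Submodule.mem_bot]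
    refine ⟨fun h1 => ?_, fun h1 => by rw [h1, map_zero]⟩
    have h2 := anchor_fix (τ := τ'.comp τ) (fun j => by simp [hτ, hτ']) hy
    have h3 : τ y = 0 := h1
    rw [← h2, AlgHom.comp_apply, h3, map_zero]
  · rw [← hm]
    rintro _ ⟨y, hy, rfl⟩
    exact ⟨y, hy, by simp⟩

variable [IsLocalRing P] [IsNoetherianRing P]

theorem SplitData.anchor_add (h : SplitData q x Λ θ u)
    (hx : Prim (q ⊔ Ideal.span (Set.range x))) {J : Type} [Fintype J] [DecidableEq J] {i : J → ℕ}
    {g : Matrix J J P} (hd : Deg i g) (hsq : Ent (g * g) q)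
    (hn : ∀ t, ∃ c, Null i g q (x t ^ c)) (A A' : Submodule P Λ) (hle : A' ≤ A) (hA : A.FG)
    (hA' : A'.FG) : chi (act g) (pf i fun _ => A) (pf i fun _ => ⊥) =
      chi (act g) (pf i fun _ => A') (pf i fun _ => ⊥) +
        chi (act g) (pf i fun _ => A) (pf i fun _ => A') :=
  chi_add (isPair_pf hd hsq hle (h.anchor_q _ _)) (isPair_pf hd hsq bot_le (h.anchor_q _ _))
    (isPair_pf hd hsq bot_le (h.anchor_q _ _))
    (hfin_pf_of_null hd x hx hn hA (h.anchor_q _ _))
    (hfin_pf_of_null hd x hx hn hA' (h.anchor_q _ _))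

theorem SplitData.anchor_diag (h : SplitData q x Λ θ u)
    (hx : Prim (q ⊔ Ideal.span (Set.range x))) {J : Type} [Fintype J] [DecidableEq J] {i : J → ℕ}
    {g : Matrix J J P} (hd : Deg i g) (hsq : Ent (g * g) q)
    (hn : ∀ t, ∃ c, Null i g q (x t ^ c)) (h0 : ∑ a, (-1 : ℤ) ^ i a = 0) (b : Fin s → ℤ)
    (hb : ∀ j : Fin s, ((j : ℕ) : ℤ) ≤ b j) :
    chi (act g) (pf i fun _ => mon P θ (b + fun _ => 1)) (pf i fun _ => ⊥) =
      chi (act g) (pf i fun _ => mon P θ b) (pf i fun _ => ⊥) := by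
  have h1 := h.anchor_add hx hd hsq hn (mon P θ b) ((q ⊔ Ideal.span (Set.range x)) • mon P θ b)
    Submodule.smul_le_right (mon_fg b)
    (Submodule.FG.smul (IsNoetherian.noetherian _) (mon_fg b))
  obtain ⟨c, hc⟩ := hx
  rw [(chi_pf_of_finite hd hsq Submodule.smul_le_right (h.anchor_q _ _)
    (rl_ne_top (mon_fg b) (Submodule.smul_mono_left hc))).2, h0, zero_mul, add_zero,
    ← h.map_u hb] at h1
  refine Eq.trans ?_ h1.symm
  refine (h.anchor_tr hd hsq _ ⊥ _ ⊥ bot_le bot_le (LinearMap.mulLeft P (u : Λ))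
    (fun y hy => Submodule.mem_map_of_mem hy) (fun y _ => ?_) ?_).symm
  · rw [Submodule.mem_bot, Submodule.mem_bot]
    exact map_eq_zero_iff _ (anchor_mul_inj u)
  · rintro _ ⟨y, hy, rfl⟩
    exact ⟨y, hy, by simp⟩

theorem SplitData.anchor_aff (h : SplitData q x Λ θ u)
    (hx : Prim (q ⊔ Ideal.span (Set.range x))) {J : Type} [Fintype J] [DecidableEq J] {i : J → ℕ}
    {g : Matrix J J P} (hd : Deg i g) (hsq : Ent (g * g) q)
    (hn : ∀ t, ∃ c, Null i g q (x t ^ c)) (b : Fin s → ℤ) (j : Fin s) (hb : -1 ≤ b j)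
    (hsv : ∀ y ∈ mon P θ (b + Pi.single j ((1 : ℕ) : ℤ)),
      θ j ^ 1 * y ∈ mon P θ (b + Pi.single j ((1 : ℕ) : ℤ)) → y ∈ mon P θ b) :
    chi (act g) (pf i fun _ => mon P θ (b + Pi.single j 2)) (pf i fun _ => ⊥) -
      chi (act g) (pf i fun _ => mon P θ (b + Pi.single j 1)) (pf i fun _ => ⊥) =
    chi (act g) (pf i fun _ => mon P θ (b + Pi.single j 1)) (pf i fun _ => ⊥) -
      chi (act g) (pf i fun _ => mon P θ b) (pf i fun _ => ⊥) := by
  have e2 : b + Pi.single j 2 = b + Pi.single j 1 + Pi.single j 1 := by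
    rw [add_assoc, ← Pi.single_add]; rfl
  have hle : ∀ b : Fin s → ℤ, mon P θ b ≤ mon P θ (b + Pi.single j 1) := fun b =>
    mon_mono (le_add_of_nonneg_right (Pi.single_nonneg.2 (by norm_num)))
  have hmul : ∀ (b : Fin s → ℤ), ∀ y ∈ mon P θ b, θ j ^ 1 * y ∈ mon P θ (b + Pi.single j 1) :=
    fun b y hy => by simpa using pow_mul_mem_mon hy j 1
  rw [Nat.cast_one] at hsv
  have h1 := h.anchor_add hx hd hsq hn _ _ (hle b) (mon_fg _) (mon_fg _)
  have h2 := h.anchor_add hx hd hsq hn _ _ (hle (b + Pi.single j 1)) (mon_fg _) (mon_fg _)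
  have h3 := h.anchor_tr hd hsq _ _ _ _ (hle b) (hle (b + Pi.single j 1))
    (LinearMap.mulLeft P (θ j ^ 1)) (hmul _) (fun y hy => ⟨hsv y hy, hmul b y⟩)
    (fun y hy => by
      obtain ⟨y1, hy1, y2, hy2, rfl⟩ := mon_surj (b := b) (j := j) hb 1 (y := y)
        (by rw [← e2] at hy; simpa using hy)
      exact ⟨y1, by simpa using hy1, by simpa using hy2⟩)
  rw [e2]
  linarith

theorem SplitData.anchor (h : SplitData q x Λ θ u) (hx : Prim (q ⊔ Ideal.span (Set.range x))) :
    ∃ β : ℕ, ∀ {J : Type} [Fintype J] [DecidableEq J] (i : J → ℕ) (g : Matrix J J P),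
      Deg i g → Ent (g * g) q → (∀ t, ∃ c, Null i g q (x t ^ c)) → ∑ a, (-1 : ℤ) ^ i a = 0 →
      ∀ b : Fin s → ℤ, (∀ j, (β : ℤ) ≤ b j) →
        chi (act g) (pf i fun _ => mon P θ b) (pf i fun _ => ⊥) = s.factorial * chiI i g q := by
  obtain ⟨b0, hb0⟩ := mon_sv (P := P) θ
  refine ⟨b0 + s, fun {J} _ _ i g hd hsq hn h0 b hb => ?_⟩
  have hstair : ∀ k : ℕ,
      chi (act g) (pf i fun _ => mon P θ fun j : Fin s => ((j : ℕ) : ℤ) + k) (pf i fun _ => ⊥) =
      chi (act g) (pf i fun _ => mon P θ fun j : Fin s => ((j : ℕ) : ℤ)) (pf i fun _ => ⊥) := by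
    intro k
    induction k with
    | zero => simp
    | succ k ih =>
      rw [← ih, ← h.anchor_diag hx hd hsq hn h0 (fun j : Fin s => ((j : ℕ) : ℤ) + k)
        fun j => by omega]
      have : (fun j : Fin s => ((j : ℕ) : ℤ) + ((k + 1 : ℕ) : ℤ)) =
          (fun j : Fin s => ((j : ℕ) : ℤ) + k) + fun _ => 1 := by
        funext j
        simp [add_assoc]
      rw [this]
  have hconst := const_of_sym
    (fun b => chi (act g) (pf i fun _ => mon P θ b) (pf i fun _ => ⊥)) ((b0 + s : ℕ) : ℤ)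
    (fun b hb j => h.anchor_aff hx hd hsq hn b j (by have := hb j; omega)
      (hb0 b (fun i => by have := hb i; omega) j 1))
    (fun b _ e => h.anchor_sym hd hsq b e)
    (fun b hb => h.anchor_diag hx hd hsq hn h0 b fun j => by have := hb j; have := j.2; omega) b
    (fun j : Fin s => ((j : ℕ) : ℤ) + ((b0 + s : ℕ) : ℤ)) hb fun j => by omega
  obtain ⟨ι, _, v, hc, hv, hv'⟩ := h.stair
  refine (hconst.trans (hstair _)).trans ?_
  rw [hv, chi_pf_free hd hsq (hfin_pf_of_null hd x hx hn (IsNoetherian.noetherian _)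
    (Submodule.smul_le.2 fun r hr y _ => q.mul_mem_right _ hr)) v hv', hc]

/-- the leading coefficient of the pieces is the multiplicity -/
theorem SplitData.rho_eq (h : SplitData q x Λ θ u) (hx : Prim (q ⊔ Ideal.span (Set.range x)))
    {ρ : ℕ} {C : ℝ} (hp : PieceEst P θ (q ⊔ Ideal.span (Set.range x)) ρ C) {e : ℝ}
    (he : Lim (s + 1) (fun N => cl (q ⊔ Ideal.span (Set.range x) ^ N)) e) : (ρ : ℝ) = e := by
  obtain ⟨ι, _, v, hc, hv, hv'⟩ := h.stair
  set I := q ⊔ Ideal.span (Set.range x) with hI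
  set T := mon P θ (fun j : Fin s => ((j : ℕ) : ℤ)) with hT
  let st : ℕ → Fin s → ℤ := fun k j => ((j : ℕ) : ℤ) + k
  have h1 : ∀ k : ℕ, I ^ k • T = (mon P θ (st k)).map (LinearMap.mulLeft P ((u ^ k : Λˣ) : Λ)) := by
    intro k
    induction k with
    | zero => simp [st, hT]
    | succ k ih =>
      have h0 : st (k + 1) = st k + fun _ => 1 := by
        funext j
        simp [st, add_assoc]
      rw [pow_succ', mul_smul, ih, ← Submodule.map_smul'', ← h.map_u (fun j => by
        simp only [st]; omega), ← Submodule.map_comp, pow_succ, Units.val_mul,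
        LinearMap.mulLeft_mul, h0]
  have h2 : ∀ N : ℕ, rl (I ^ N • T) T =
      ∑ k ∈ Finset.range N, rl (I • mon P θ (st k)) (mon P θ (st k)) := by
    intro N
    induction N with
    | zero => simp [rl_self]
    | succ N ih =>
      have h3 : I ^ (N + 1) • T ≤ I ^ N • T :=
        Submodule.smul_mono_left (Ideal.pow_le_pow_right (by omega))
      rw [rl_add h3 Submodule.smul_le_right, ih, Finset.sum_range_succ, add_comm, pow_succ',
        mul_smul, h1, ← Submodule.map_smul'', anchor_rl_map _ (anchor_mul_inj _)]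
  set a : ℕ → ℝ := fun k => ((rl (I • mon P θ (st k)) (mon P θ (st k))).toNat : ℝ) with ha
  have h3 : ∀ N, (s.factorial : ℝ) * cl (q ⊔ Ideal.span (Set.range x) ^ N) =
      ∑ k ∈ Finset.range N, a k := by
    intro N
    have h4 := h2 N
    have h5 : q ⊔ I ^ N = q ⊔ Ideal.span (Set.range x) ^ N :=
      le_antisymm (sup_le le_sup_left (kos_sup_pow _ _ _))
        (sup_le_sup_left (Ideal.pow_right_mono le_sup_right N) _)
    rw [hv, rl_smul_free v hv', hc, h5] at h4
    have h6 := congrArg ENat.toNat h4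
    rw [ENat.toNat_mul, ENat.toNat_sum fun k _ => hp.fin _] at h6
    simp only [ha, cl]
    exact_mod_cast h6
  have h4 : Lim s (fun k => a k - ρ * ∏ j : Fin s, ((st k j : ℝ) + 1)) 0 := by
    refine lim_zero_of_bound (C * ((s : ℝ) + 1) ^ s) (Filter.Eventually.of_forall fun k => ?_)
    have h5 := hp.len (k + s) (st k) fun j => by
      have := j.2
      simp only [st]
      omega
    rw [Fintype.card_fin] at h5
    have hk : (0 : ℝ) ≤ k := Nat.cast_nonneg k
    have hs : (0 : ℝ) ≤ s := Nat.cast_nonneg s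
    push_cast at h5
    refine le_trans (mul_le_mul_of_nonneg_left (by linarith) (abs_nonneg _)) (h5.trans ?_)
    rw [mul_assoc, ← mul_pow]
    exact mul_le_mul_of_nonneg_left (pow_le_pow_left₀ (by positivity) (by nlinarith) _) hp.nonneg
  have h5 : ∀ k : ℕ, ∏ j : Fin s, ((st k j : ℝ) + 1) = s.factorial * ((k + s).choose s : ℝ) := by
    intro k
    have h6 := Nat.ascFactorial_eq_factorial_mul_choose k s
    rw [Nat.ascFactorial_eq_prod_range, ← Fin.prod_univ_eq_prod_range (fun j => k + 1 + j) s] at h6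
    have h7 := congrArg (Nat.cast : ℕ → ℝ) h6
    push_cast at h7
    rw [← h7]
    refine Finset.prod_congr rfl fun j _ => ?_
    simp only [st]
    push_cast
    ring
  have h6 := (h4.add ((lim_choose (d := s) s).const_mul ((ρ : ℝ) * s.factorial))).congr'
    (b := a) (Filter.Eventually.of_forall fun k => by simp only [h5]; ring)
  have h7 := h6.sum_range.unique ((he.const_mul (s.factorial : ℝ)).congr'
    (Filter.Eventually.of_forall h3))
  have h8 : (0 : ℝ) < s.factorial := by exact_mod_cast s.factorial_pos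
  refine mul_left_cancel₀ h8.ne' ?_
  linarith

end Vale.Agent.P202
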