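import Vale.Agent.P202.Mat
import Vale.Agent.P202.Colon

/-! Null-homotopies; base change along a finite projective endomorphism. -/

namespace Vale.Agent.P202

open IsLocalRing

variable {B : Type*} [CommRing B] [IsLocalRing B] {J : Type*} [Fintype J] {i : J → ℕ}
  {g : Matrix J J B}

omit [IsLocalRing B] in
theorem frob_null_step [DecidableEq J] {q : Ideal B} (hd : Deg i g) (hsq : Ent (g * g) q)
    {s : B} (hs : ∀ (j : ℕ) (z : J → B),
      z ∈ cyc (act g : (J → B) →ₗ[B] (J → B)) (pf i fun _ => ⊤) (pf i fun _ => q) (-(j : ℤ)) →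
      s • z ∈ bnd (act g : (J → B) →ₗ[B] (J → B)) (pf i fun _ => ⊤) (pf i fun _ => q) (-(j : ℤ)))
    (j : ℕ) : ∃ h : Matrix J J B, Deg' i h ∧
      ∀ a b, i b < j → (g * h + h * g - s ^ j • (1 : Matrix J J B)) a b ∈ q := by
  induction j with
  | zero => exact ⟨0, fun a b h => (h rfl).elim, fun a b h => absurd h (Nat.not_lt_zero _)⟩
  | succ j ih =>
    obtain ⟨h, hh', hcol⟩ := ih
    have hdeg : ∀ a b, (s ^ j • (1 : Matrix J J B) - h * g) a b ≠ 0 → i a = i b := by
      intro a b hab
      by_contra hne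
      apply hab
      have h1 : a ≠ b := fun e => hne (by rw [e])
      have h2 : (h * g) a b = 0 := by
        rw [Matrix.mul_apply]
        refine Finset.sum_eq_zero fun c _ => ?_
        by_contra hc
        have e1 := hh' a c (left_ne_zero_of_mul hc)
        have e2 := hd c b (right_ne_zero_of_mul hc)
        omega
      simp [Matrix.sub_apply, h2, Matrix.one_apply_ne h1]
    have hw : ∀ b, i b = j → ∃ w : J → B, (∀ a, w a ≠ 0 → i a = j + 1) ∧
        ∀ a, ∑ c, g a c * w c - s * (s ^ j • (1 : Matrix J J B) - h * g) a b ∈ q := by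
      intro b hb
      have hz : (fun a => (s ^ j • (1 : Matrix J J B) - h * g) a b) ∈
          cyc (act g : (J → B) →ₗ[B] (J → B)) (pf i fun _ => ⊤) (pf i fun _ => q) (-(j : ℤ)) := by
        refine ⟨mem_pf.2 fun a => ⟨fun _ => trivial, fun hne => ?_⟩, ?_⟩
        · by_contra h0
          have := hdeg a b h0
          omega
        · refine mem_pf.2 fun a => ⟨fun _ => ?_, fun hne => ?_⟩
          · rw [act_apply]
            have e : ∑ c, g a c • (s ^ j • (1 : Matrix J J B) - h * g) c b =
                (h * (g * g)) a b -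
                  ∑ c, (g * h + h * g - s ^ j • (1 : Matrix J J B)) a c * g c b := by
              have : ∑ c, g a c • (s ^ j • (1 : Matrix J J B) - h * g) c b =
                  (g * (s ^ j • (1 : Matrix J J B) - h * g)) a b := by
                rw [Matrix.mul_apply]; rfl
              rw [this, ← Matrix.mul_apply, ← Matrix.sub_apply]
              refine congrFun (congrFun ?_ a) b
              simp only [Matrix.mul_sub, Matrix.sub_mul, Matrix.add_mul, Matrix.mul_smul,
                Matrix.smul_mul, Matrix.mul_one, Matrix.one_mul, Matrix.mul_assoc]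
              abel
            rw [e]
            refine q.sub_mem ?_ (q.sum_mem fun c _ => ?_)
            · rw [Matrix.mul_apply]
              exact q.sum_mem fun c _ => q.mul_mem_left _ (hsq c b)
            · by_cases hc : g c b = 0
              · rw [hc, mul_zero]; exact q.zero_mem
              · have := hd c b hc
                exact q.mul_mem_right _ (hcol a c (by omega))
          · rw [act_apply]
            refine Finset.sum_eq_zero fun c _ => ?_
            by_contra hc
            have e1 := hd a c (left_ne_zero_of_mul hc)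
            have e2 := hdeg c b (right_ne_zero_of_mul hc)
            omega
      obtain ⟨_, ⟨w, hw, rfl⟩, y, hy, hwy⟩ := Submodule.mem_sup.1 (hs j _ hz)
      refine ⟨w, fun a ha => ?_, fun a => ?_⟩
      · by_contra hne
        exact ha ((mem_pf.1 hw a).2 (by omega))
      · have h1 := congrFun hwy a
        simp only [Pi.add_apply, act_apply, Pi.smul_apply, smul_eq_mul] at h1
        rw [← h1]
        have h2 : y a ∈ q := by
          by_cases h0 : -(j : ℤ) + i a = 0
          · exact (mem_pf.1 hy a).1 h0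
          · rw [(mem_pf.1 hy a).2 h0]; exact q.zero_mem
        simpa using h2
    choose! w hw1 hw2 using hw
    refine ⟨fun a b => if i b = j then w b a else s * h a b, fun a b hab => ?_, fun a b hb => ?_⟩
    · by_cases hb : i b = j
      · simp only [hb, if_true] at hab
        rw [hw1 b hb a hab, hb]
      · simp only [hb, if_false] at hab
        exact hh' a b (right_ne_zero_of_mul hab)
    · have e2 : ((Matrix.of fun a b => if i b = j then w b a else s * h a b) * g) a b =
          s * (h * g) a b := by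
        rw [Matrix.mul_apply, Matrix.mul_apply, Finset.mul_sum]
        refine Finset.sum_congr rfl fun c _ => ?_
        by_cases hc : g c b = 0
        · simp [hc]
        · have := hd c b hc
          have h3 : i c ≠ j := by omega
          simp [h3, mul_assoc]
      change (g * (Matrix.of fun a b => if i b = j then w b a else s * h a b) +
        (Matrix.of fun a b => if i b = j then w b a else s * h a b) * g -
          s ^ (j + 1) • (1 : Matrix J J B)) a b ∈ q
      rw [Matrix.sub_apply, Matrix.add_apply, e2, Matrix.mul_apply]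
      by_cases hbj : i b = j
      · have := hw2 b hbj a
        convert this using 1
        simp only [Matrix.of_apply, hbj, if_true, Matrix.sub_apply, Matrix.smul_apply, smul_eq_mul]
        ring
      · have := q.mul_mem_left s (hcol a b (by omega))
        convert this using 1
        simp only [Matrix.of_apply, hbj, if_false, Matrix.sub_apply, Matrix.add_apply,
          Matrix.smul_apply, smul_eq_mul]
        rw [Matrix.mul_apply (M := g) (N := h), mul_sub, mul_add, Finset.mul_sum]
        congr 1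
        · congr 1
          exact Finset.sum_congr rfl fun c _ => by ring
        · ring

/-- a power of an element of the maximal ideal is null-homotopic on a complex with finite length
cohomology -/
theorem null_of_hfin [DecidableEq J] {q : Ideal B} (hd : Deg i g) (hsq : Ent (g * g) q)
    (hf : ∀ n, hI i g q n ≠ ⊤) {r : B} (hr : r ∈ maximalIdeal B) : ∃ c, Null i g q (r ^ c) := by
  have h1 : ∀ n : ℤ, ∃ c : ℕ, (c : ℕ∞) = hI i g q n := fun n => ENat.ne_top_iff_exists.1 (hf n)
  choose c hc using h1
  let N := Finset.univ.sup i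
  let c0 := (Finset.range (N + 1)).sup fun j => c (-(j : ℤ))
  obtain ⟨h, hh', hcol⟩ := frob_null_step hd hsq (s := r ^ c0) (fun j z hz => by
    by_cases hj : j ≤ N
    · have h2 : c (-(j : ℤ)) ≤ c0 :=
        Finset.le_sup (f := fun j : ℕ => c (-(j : ℤ))) (Finset.mem_range.2 (by omega))
      have h3 : hI i g q (-(j : ℤ)) ≤ c0 := by rw [← hc]; exact_mod_cast h2
      exact pow_smul_le_of_rl_le h3 (Submodule.smul_mem_smul (Ideal.pow_mem_pow hr _) hz)
    · have : z = 0 := by
        funext a
        have h4 : i a ≤ N := Finset.le_sup (f := i) (Finset.mem_univ a)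
        exact (mem_pf.1 hz.1 a).2 (by omega)
      rw [this, smul_zero]; exact Submodule.zero_mem _) (N + 1)
  refine ⟨c0 * (N + 1), h, hh', fun a b => ?_⟩
  rw [pow_mul]
  exact hcol a b (Nat.lt_succ_of_le (Finset.le_sup (f := i) (Finset.mem_univ b)))

section Dec
variable {φ : B →+* B} {T : Type} [Fintype T] {μ : T → B} {dec : T → B →+ B}

omit [IsLocalRing B] [Fintype T] in
theorem frob_dec_mem (h2 : ∀ a g f, dec a (φ g * f) = g * dec a f) {a : Ideal B} {x : B}
    (hx : x ∈ a.map φ) (t : T) : dec t x ∈ a := by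
  have : ∀ f, dec t (x * f) ∈ a := by
    refine Submodule.span_induction (p := fun x _ => ∀ f, dec t (x * f) ∈ a) ?_ ?_ ?_ ?_ hx
    · rintro _ ⟨y, hy, rfl⟩ f
      rw [h2]; exact a.mul_mem_right _ hy
    · intro f; simp
    · intro x y _ _ hx hy f
      rw [add_mul, map_add]; exact a.add_mem (hx f) (hy f)
    · intro c x _ hx f
      rw [smul_eq_mul, mul_comm c x, mul_assoc]; exact hx _
  simpa using this 1

omit [IsLocalRing B] in
theorem frob_mem_map_iff (h1 : ∀ f, f = ∑ a, μ a * φ (dec a f))
    (h2 : ∀ a g f, dec a (φ g * f) = g * dec a f) {a : Ideal B} {x : B} :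
    x ∈ a.map φ ↔ ∀ t, dec t x ∈ a := by
  refine ⟨fun hx t => frob_dec_mem h2 hx t, fun h => ?_⟩
  rw [h1 x]
  exact Ideal.sum_mem _ fun t _ => Ideal.mul_mem_left _ _ (Ideal.mem_map_of_mem _ (h t))

/-- the extension of a submodule -/
def frobE (h1 : ∀ f, f = ∑ a, μ a * φ (dec a f)) (h2 : ∀ a g f, dec a (φ g * f) = g * dec a f)
    {J : Type*} (A : Submodule B (J → B)) : Submodule B (J → B) where
  carrier := {v | ∀ t, (fun j => dec t (v j)) ∈ A}
  add_mem' := by
    intro v w hv hw t
    convert A.add_mem (hv t) (hw t) using 1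
    funext j; simp
  zero_mem' := by
    intro t
    convert A.zero_mem using 1
    funext j; simp
  smul_mem' := by
    intro f v hv t
    have : (fun j => dec t ((f • v) j)) = ∑ u, dec t (f * μ u) • fun j => dec u (v j) := by
      funext j
      rw [Finset.sum_apply, Pi.smul_apply, smul_eq_mul]
      conv_lhs => rw [h1 (v j), Finset.mul_sum, map_sum]
      refine Finset.sum_congr rfl fun u _ => ?_
      rw [← mul_assoc, mul_comm, h2, Pi.smul_apply, smul_eq_mul, mul_comm]
    rw [this]
    exact A.sum_mem fun u _ => A.smul_mem _ (hv u)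

variable (h1 : ∀ f, f = ∑ a, μ a * φ (dec a f)) (h2 : ∀ a g f, dec a (φ g * f) = g * dec a f)

omit [IsLocalRing B] [Fintype J] in
theorem mem_frobE {A : Submodule B (J → B)} {v : J → B} :
    v ∈ frobE h1 h2 A ↔ ∀ t, (fun j => dec t (v j)) ∈ A := Iff.rfl

omit [IsLocalRing B] [Fintype J] in
theorem frobE_map_mem {A : Submodule B (J → B)} {v : J → B} (hv : v ∈ A) :
    (fun j => φ (v j)) ∈ frobE h1 h2 A := by
  intro t
  have : (fun j => dec t (φ (v j))) = dec t 1 • v := by
    funext j
    rw [Pi.smul_apply, smul_eq_mul, mul_comm, ← h2, mul_one]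
  rw [this]; exact A.smul_mem _ hv

omit [IsLocalRing B] [Fintype J] in
theorem frobE_mono {A A' : Submodule B (J → B)} (h : A ≤ A') : frobE h1 h2 A ≤ frobE h1 h2 A' :=
  fun _ hv t => h (hv t)

include h1 in
omit [IsLocalRing B] [Fintype J] in
theorem frob_vec_eq (v : J → B) : v = ∑ t, μ t • fun j => φ (dec t (v j)) := by
  funext j
  rw [Finset.sum_apply]
  exact h1 (v j)

omit [IsLocalRing B] [Fintype J] in
theorem frobE_sup (A A' : Submodule B (J → B)) :
    frobE h1 h2 (A ⊔ A') = frobE h1 h2 A ⊔ frobE h1 h2 A' := by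
  refine le_antisymm (fun v hv => ?_)
    (sup_le (frobE_mono h1 h2 le_sup_left) (frobE_mono h1 h2 le_sup_right))
  rw [frob_vec_eq h1 v]
  refine Submodule.sum_mem _ fun t _ => Submodule.smul_mem _ _ ?_
  obtain ⟨x, hx, y, hy, hxy⟩ := Submodule.mem_sup.1 (hv t)
  have : (fun j => φ (dec t (v j))) = (fun j => φ (x j)) + fun j => φ (y j) := by
    funext j
    rw [Pi.add_apply, ← map_add]
    exact congrArg φ (congrFun hxy j).symm
  rw [this]
  exact Submodule.add_mem_sup (frobE_map_mem h1 h2 hx) (frobE_map_mem h1 h2 hy)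

omit [IsLocalRing B] [Fintype J] in
theorem frobE_span (v : J → B) :
    frobE h1 h2 (Submodule.span B {v}) = Submodule.span B {fun j => φ (v j)} := by
  refine le_antisymm (fun w hw => ?_) ((Submodule.span_singleton_le_iff_mem _ _).2
    (frobE_map_mem h1 h2 (Submodule.mem_span_singleton_self v)))
  rw [frob_vec_eq h1 w]
  refine Submodule.sum_mem _ fun t _ => Submodule.smul_mem _ _ ?_
  obtain ⟨c, hc⟩ := Submodule.mem_span_singleton.1 (hw t)
  refine Submodule.mem_span_singleton.2 ⟨φ c, ?_⟩
  funext j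
  rw [Pi.smul_apply, smul_eq_mul, ← map_mul]
  exact congrArg φ (congrFun hc j)

omit [Fintype J] in
theorem frobE_rl {A A' : Submodule B (J → B)} (hA : A ≤ A') (hf : rl A A' ≠ ⊤) :
    rl (frobE h1 h2 A) (frobE h1 h2 A') =
      rl A A' * rl ((maximalIdeal B).map φ) (⊤ : Ideal B) := by
  refine rl_induction (B := A') (fun A => rl (frobE h1 h2 A) (frobE h1 h2 A') =
      rl A A' * rl ((maximalIdeal B).map φ) (⊤ : Ideal B)) (by simp [rl_self]) ?_ hA hf
  intro A v hv hvA hAA' hk ih
  have hle : A ⊔ Submodule.span B {v} ≤ A' :=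
    sup_le hAA' ((Submodule.span_singleton_le_iff_mem _ _).2 hv)
  rw [rl_add (frobE_mono h1 h2 le_sup_left) (frobE_mono h1 h2 hle), ih,
    rl_add le_sup_left hle, rl_simple_step hvA hk, add_mul, one_mul, frobE_sup, rl_sup_right,
    frobE_span, rl_span_singleton]
  congr 2
  ext f
  rw [frob_mem_map_iff h1 h2, Submodule.mem_comap, mem_frobE]
  refine forall_congr' fun t => ?_
  have : (fun j => dec t ((LinearMap.toSpanSingleton B (J → B) (fun j => φ (v j)) f) j)) =
      dec t f • v := by
    funext j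
    simp only [LinearMap.toSpanSingleton_apply, Pi.smul_apply, smul_eq_mul]
    rw [mul_comm, h2, mul_comm]
  rw [this]
  refine ⟨fun h => ?_, hk _⟩
  by_contra hu
  have hu' : IsUnit (dec t f) := by simpa using hu
  exact hvA ((A.smul_mem_iff_of_isUnit hu').1 h)

include h2 in
omit [IsLocalRing B] [Fintype T] in
theorem frob_dec_act (t : T) (v : J → B) :
    (fun j => dec t (act (g.map φ) v j)) = act g fun j => dec t (v j) := by
  funext j
  rw [act_apply, act_apply, map_sum]
  exact Finset.sum_congr rfl fun c _ => h2 _ _ _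

omit [IsLocalRing B] [Fintype J] in
theorem frobE_pf (a : Ideal B) (n : ℤ) :
    frobE h1 h2 (pf i (fun _ => a) n) = pf i (fun _ => a.map φ) n := by
  ext v
  rw [mem_frobE, mem_pf]
  simp only [mem_pf, frob_mem_map_iff h1 h2]
  constructor
  · intro h j
    refine ⟨fun h0 t => (h t j).1 h0, fun h0 => ?_⟩
    rw [h1 (v j)]
    exact Finset.sum_eq_zero fun t _ => by rw [(h t j).2 h0]; simp
  · intro h t j
    exact ⟨fun h0 => (h j).1 h0 t, fun h0 => by rw [(h j).2 h0]; simp⟩

omit [IsLocalRing B] in
theorem frobE_cyc (a : Ideal B) (n : ℤ) :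
    frobE h1 h2 (cyc (act g : (J → B) →ₗ[B] (J → B)) (pf i fun _ => ⊤) (pf i fun _ => a) n) =
      cyc (act (g.map φ) : (J → B) →ₗ[B] (J → B)) (pf i fun _ => ⊤) (pf i fun _ => a.map φ) n := by
  have e : (⊤ : Ideal B) = (⊤ : Ideal B).map φ := (Ideal.map_top φ).symm
  ext v
  rw [cyc, cyc, Submodule.mem_inf, Submodule.mem_comap, ← frobE_pf h1 h2]
  conv_rhs => rw [e, ← frobE_pf h1 h2]
  simp only [mem_frobE, Submodule.mem_inf, Submodule.mem_comap, frob_dec_act h2, forall_and]

omit [IsLocalRing B] in
theorem frobE_bnd (a : Ideal B) (n : ℤ) :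
    frobE h1 h2 (bnd (act g : (J → B) →ₗ[B] (J → B)) (pf i fun _ => ⊤) (pf i fun _ => a) n) =
      bnd (act (g.map φ) : (J → B) →ₗ[B] (J → B)) (pf i fun _ => ⊤) (pf i fun _ => a.map φ) n := by
  have e : (⊤ : Ideal B) = (⊤ : Ideal B).map φ := (Ideal.map_top φ).symm
  rw [bnd, bnd, frobE_sup, frobE_pf]
  congr 1
  conv_rhs => rw [e, ← frobE_pf h1 h2]
  refine le_antisymm (fun v hv => ?_) ?_
  · rw [frob_vec_eq h1 v]
    refine Submodule.sum_mem _ fun t _ => Submodule.smul_mem _ _ ?_
    obtain ⟨x, hx, hxy⟩ := hv t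
    refine ⟨fun j => φ (x j), frobE_map_mem h1 h2 hx, ?_⟩
    funext j
    rw [← congrFun hxy j, act_apply, act_apply, map_sum]
    exact Finset.sum_congr rfl fun c _ => by simp
  · rintro _ ⟨x, hx, rfl⟩ t
    rw [frob_dec_act h2]
    exact ⟨_, hx t, rfl⟩

end Dec

omit [IsLocalRing B] in
theorem Dual.cp {φ : B →+* B} (h : Dual φ) : CP φ ⊥ ⊥ := by
  obtain ⟨T, _, μ, dec, h1, h2⟩ := h
  intro a _ r b hb
  rw [sup_bot_eq] at hb ⊢
  rw [frob_mem_map_iff h1 h2] at hb ⊢
  intro t
  have := hb t
  rw [h2] at this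
  rw [Submodule.mem_colon_singleton, smul_eq_mul, mul_comm]
  exact this

theorem Dual.hI_map {φ : B →+* B} (h : Dual φ) (hd : Deg i g) {a : Ideal B} (hsq : Ent (g * g) a)
    {n : ℤ} (hf : hI i g a n ≠ ⊤) :
    hI i (g.map φ) (a.map φ) n = hI i g a n * rl ((maximalIdeal B).map φ) (⊤ : Ideal B) := by
  obtain ⟨T, _, μ, dec, h1, h2⟩ := h
  rw [hI, hh] at hf
  rw [hI, hI, hh, hh, ← frobE_cyc h1 h2, ← frobE_bnd h1 h2, ← rl_sup_right, ← frobE_sup,
    frobE_rl h1 h2 le_sup_left (by rwa [rl_sup_right]), rl_sup_right]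

theorem Dual.chiI_map {φ : B →+* B} (h : Dual φ) (hd : Deg i g) {a : Ideal B}
    (hsq : Ent (g * g) a) (hf : ∀ n, hI i g a n ≠ ⊤) :
    chiI i (g.map φ) (a.map φ) =
      ((rl ((maximalIdeal B).map φ) (⊤ : Ideal B)).toNat : ℤ) * chiI i g a := by
  rw [chiI, chiI, chi, chi, mul_finsum]
  refine finsum_congr fun n => ?_
  have := h.hI_map hd hsq (hf n)
  rw [hI, hI] at this
  rw [this, ENat.toNat_mul]
  push_cast
  ring

section CharP
variable (p : ℕ) [Fact p.Prime]

omit [IsLocalRing B] in
theorem map_frob_le [CharP B p] (e : ℕ) (a : Ideal B) :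
    a.map (iterateFrobenius B p e) ≤ a ^ p ^ e := by
  rw [Ideal.map_le_iff_le_comap]
  intro x hx
  exact Ideal.pow_mem_pow hx _

omit [IsLocalRing B] in
theorem map_frob_comm {A : Type*} [CommRing A] [CharP A p] [CharP B p] (ψ : A →+* B) (e : ℕ)
    (a : Ideal A) :
    (a.map ψ).map (iterateFrobenius B p e) = (a.map (iterateFrobenius A p e)).map ψ := by
  rw [Ideal.map_map, Ideal.map_map]
  congr 1
  ext x
  simp [iterateFrobenius_def]

omit [IsLocalRing B] in
theorem le_of_map_frob_le [CharP B p] (e : ℕ) {a P : Ideal B} (hP : P.IsPrime)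
    (h : a.map (iterateFrobenius B p e) ≤ P) : a ≤ P := fun x hx =>
  hP.mem_of_pow_mem (p ^ e) (h (Ideal.mem_map_of_mem (iterateFrobenius B p e) hx))

omit [IsLocalRing B] in
theorem frob_pigeon (F : B →+* B) (q : ℕ) (hF : ∀ x, F x = x ^ q) (d : ℕ) :
    ∀ W : Ideal B, Gen W d → ∀ n, d * q + 1 ≤ n → W ^ n ≤ W.map F * W ^ (n - q) := by
  induction d with
  | zero =>
    rintro W ⟨w, rfl⟩ n hn
    have : Ideal.span (Set.range w) = ⊥ := by simp [Set.range_eq_empty]
    rw [this, ← Ideal.zero_eq_bot, zero_pow (by omega)]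
    exact bot_le
  | succ d ih =>
    rintro W ⟨w, hw⟩ n hn
    have e : W = Ideal.span {w 0} + Ideal.span (Set.range (Fin.tail w)) := by
      rw [hw, Fin.range_fin_succ, Ideal.span_insert, Ideal.add_eq_sup]
    have l1 : Ideal.span {w 0} ≤ W := by rw [e]; exact le_sup_left
    have l2 : Ideal.span (Set.range (Fin.tail w)) ≤ W := by rw [e]; exact le_sup_right
    conv_lhs => rw [e, add_pow]
    rw [Ideal.sum_eq_sup, Finset.sup_le_iff]
    intro k hk
    have hk' : k ≤ n := Nat.lt_succ_iff.1 (Finset.mem_range.1 hk)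
    refine Ideal.mul_le_left.trans ?_
    by_cases hq : q ≤ k
    · obtain ⟨k, rfl⟩ := Nat.exists_eq_add_of_le hq
      rw [pow_add, mul_assoc]
      refine Ideal.mul_mono ?_ ?_
      · rw [Ideal.span_singleton_pow, Ideal.span_singleton_le_iff_mem, ← hF]
        exact Ideal.mem_map_of_mem _ (l1 (Ideal.mem_span_singleton_self _))
      · have : n - q = k + (n - (q + k)) := by omega
        rw [this, pow_add]
        exact Ideal.mul_mono (Ideal.pow_right_mono l1 _) (Ideal.pow_right_mono l2 _)
    · have h3 := ih _ ⟨Fin.tail w, rfl⟩ (n - k) (by rw [Nat.succ_mul] at hn; omega)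
      refine (Ideal.mul_mono le_rfl h3).trans ?_
      rw [mul_left_comm]
      refine Ideal.mul_mono (Ideal.map_mono l2) ?_
      refine (Ideal.mul_mono (Ideal.pow_right_mono l1 _) (Ideal.pow_right_mono l2 _)).trans ?_
      rw [← pow_add]
      exact Ideal.pow_le_pow_right (by omega)

omit [IsLocalRing B] in
theorem pow_le_map_frob [CharP B p] (e : ℕ) {W : Ideal B} {d : ℕ} (hW : Gen W d) (N : ℕ) :
    W ^ (p ^ e * (N + d)) ≤ (W ^ N).map (iterateFrobenius B p e) := by
  have hq : 0 < p ^ e := pow_pos (Fact.out : p.Prime).pos e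
  have h := frob_pigeon (iterateFrobenius B p e) (p ^ e) (fun _ => rfl) d W hW
    (p ^ e * d + p ^ e) (by rw [mul_comm]; omega)
  rw [Nat.add_sub_cancel] at h
  have key : ∀ N, W ^ (p ^ e * (N + d)) ≤
      W.map (iterateFrobenius B p e) ^ N * W ^ (p ^ e * d) := by
    intro N
    induction N with
    | zero => simp
    | succ N ih =>
      have : p ^ e * (N + 1 + d) = p ^ e * (N + d) + p ^ e := by ring
      rw [this, pow_add]
      refine (Ideal.mul_mono ih le_rfl).trans ?_
      rw [mul_assoc, ← pow_add, pow_succ, mul_assoc]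
      exact Ideal.mul_mono le_rfl h
  rw [Ideal.map_pow]
  exact (key N).trans Ideal.mul_le_left

end CharP

end Vale.Agent.P202
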