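import Vale.Agent.P202.Kos
import Vale.Agent.P202.Frob

/-! Null-homotopies on resolutions and their tensor products with Koszul complexes. -/

namespace Vale.Agent.P202

variable {R : Type*} [CommRing R] {J : Type*} [Fintype J] [DecidableEq J] {i : J → ℕ}
  {g : Matrix J J R} {q : Ideal R}

theorem Null.congr {r r' : R} (h : Null i g q r) (hr : r - r' ∈ q) : Null i g q r' := by
  obtain ⟨h, h1, h2⟩ := h
  refine ⟨h, h1, fun a b => ?_⟩
  have e : (g * h + h * g - r' • (1 : Matrix J J R)) a b =
      (g * h + h * g - r • (1 : Matrix J J R)) a b + (r - r') * (1 : Matrix J J R) a b := by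
    simp only [Matrix.sub_apply, Matrix.smul_apply, smul_eq_mul]
    ring
  rw [e]
  exact q.add_mem (h2 a b) (q.mul_mem_right _ hr)

theorem nullR_add {r r' : R} (h : Null i g q r) (h' : Null i g q r') : Null i g q (r + r') := by
  obtain ⟨h, h1, h2⟩ := h
  obtain ⟨h', h1', h2'⟩ := h'
  refine ⟨h + h', fun a b hab => ?_, fun a b => ?_⟩
  · by_cases h0 : h a b = 0
    · exact h1' a b fun e => hab (by simp [h0, e])
    · exact h1 a b h0
  · have e : g * (h + h') + (h + h') * g - (r + r') • (1 : Matrix J J R) =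
        (g * h + h * g - r • (1 : Matrix J J R)) + (g * h' + h' * g - r' • (1 : Matrix J J R)) := by
      simp only [Matrix.mul_add, Matrix.add_mul, add_smul]
      abel
    rw [e, Matrix.add_apply]
    exact q.add_mem (h2 a b) (h2' a b)

theorem nullR_zero : Null i g q 0 :=
  ⟨0, fun a b h => (h rfl).elim, fun a b => by simp⟩

theorem Null.of_mem_span {S : Set R} (hS : ∀ r ∈ S, Null i g q r) {r : R}
    (hr : r ∈ Ideal.span S) : Null i g q r := by
  induction hr using Submodule.span_induction with
  | mem r hr => exact hS r hr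
  | zero => exact nullR_zero
  | add r r' _ _ h h' => exact nullR_add h h'
  | smul a r _ h => exact h.mul_left a

theorem Null.mem_row {r : R} (h : Null i g q r) {a0 : J} (ha0 : i a0 = 0) :
    r ∈ Ideal.span (Set.range (g a0)) ⊔ q := by
  obtain ⟨h, h1, h2⟩ := h
  have e0 : (h * g) a0 a0 = 0 := by
    rw [Matrix.mul_apply]
    refine Finset.sum_eq_zero fun b _ => ?_
    by_cases hb : h a0 b = 0
    · rw [hb, zero_mul]
    · have := h1 a0 b hb
      omega
  have e : r = (g * h) a0 a0 - (g * h + h * g - r • (1 : Matrix J J R)) a0 a0 := by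
    simp only [Matrix.sub_apply, Matrix.add_apply, Matrix.smul_apply, smul_eq_mul, e0,
      Matrix.one_apply_eq]
    ring
  rw [e]
  refine Ideal.sub_mem _ (Ideal.mem_sup_left ?_) (Ideal.mem_sup_right (h2 a0 a0))
  rw [Matrix.mul_apply]
  exact Ideal.sum_mem _ fun b _ => Ideal.mul_mem_right _ _ (Ideal.subset_span ⟨b, rfl⟩)

theorem nullR_step {a0 : J} {c : Ideal R} (hd : Deg i g) (hsq : Ent (g * g) q) (ha0 : i a0 = 0)
    (hex : ∀ (j : ℕ) (z : J → R), (∀ a, z a ≠ 0 → i a = j) → z a0 ∈ c →
      (∀ a, ∑ e, g a e * z e ∈ q) →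
      ∃ w : J → R, (∀ a, w a ≠ 0 → i a = j + 1) ∧ ∀ a, ∑ e, g a e * w e - z a ∈ q)
    {r : R} (hr : r ∈ c) (j : ℕ) : ∃ h : Matrix J J R, Deg' i h ∧
      ∀ a b, i b < j → (g * h + h * g - r • (1 : Matrix J J R)) a b ∈ q := by
  induction j with
  | zero => exact ⟨0, fun a b h => (h rfl).elim, fun a b h => absurd h (Nat.not_lt_zero _)⟩
  | succ j ih =>
    obtain ⟨h, hh', hcol⟩ := ih
    have hdeg : ∀ a b, (r • (1 : Matrix J J R) - h * g) a b ≠ 0 → i a = i b := by
      intro a b hab
      by_contra hne
      apply hab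
      have h1 : a ≠ b := fun e => hne (by rw [e])
      have h2 : (h * g) a b = 0 := by
        rw [Matrix.mul_apply]
        refine Finset.sum_eq_zero fun c _ => ?_
        by_contra hc
        have e1 := hh' a c (left_ne_zero_of_mul hc)
        have e2 := hd c b (right_ne_zero_of_mul hc)
        omega
      simp [Matrix.sub_apply, h2, Matrix.one_apply_ne h1]
    have hw : ∀ b, i b = j → ∃ w : J → R, (∀ a, w a ≠ 0 → i a = j + 1) ∧
        ∀ a, ∑ c, g a c * w c - (r • (1 : Matrix J J R) - h * g) a b ∈ q := by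
      intro b hb
      refine hex j (fun a => (r • (1 : Matrix J J R) - h * g) a b)
        (fun a ha => (hdeg a b ha).trans hb) ?_ fun a => ?_
      · have e0 : (h * g) a0 b = 0 := by
          rw [Matrix.mul_apply]
          refine Finset.sum_eq_zero fun e _ => ?_
          by_cases he : h a0 e = 0
          · rw [he, zero_mul]
          · have := hh' a0 e he
            omega
        simp only [Matrix.sub_apply, e0, Matrix.smul_apply, smul_eq_mul, sub_zero]
        exact c.mul_mem_right _ hr
      · have e : ∑ c, g a c * (r • (1 : Matrix J J R) - h * g) c b =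
            (h * (g * g)) a b -
              ∑ c, (g * h + h * g - r • (1 : Matrix J J R)) a c * g c b := by
          rw [← Matrix.mul_apply, ← Matrix.mul_apply, ← Matrix.sub_apply]
          refine congrFun (congrFun ?_ a) b
          simp only [Matrix.mul_sub, Matrix.sub_mul, Matrix.add_mul, Matrix.mul_smul,
            Matrix.smul_mul, Matrix.mul_one, Matrix.one_mul, Matrix.mul_assoc]
          abel
        rw [e]
        refine q.sub_mem ?_ (q.sum_mem fun c _ => ?_)
        · rw [Matrix.mul_apply]
          exact q.sum_mem fun c _ => q.mul_mem_left _ (hsq c b)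
        · by_cases hc : g c b = 0
          · rw [hc, mul_zero]; exact q.zero_mem
          · have := hd c b hc
            exact q.mul_mem_right _ (hcol a c (by omega))
    choose! w hw1 hw2 using hw
    refine ⟨Matrix.of fun a b => if i b = j then w b a else h a b, fun a b hab => ?_,
      fun a b hb => ?_⟩
    · by_cases hb : i b = j
      · simp only [Matrix.of_apply, hb, if_true] at hab
        rw [hw1 b hb a hab, hb]
      · simp only [Matrix.of_apply, hb, if_false] at hab
        exact hh' a b hab
    · have e2 : ((Matrix.of fun a b => if i b = j then w b a else h a b) * g) a b =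
          (h * g) a b := by
        rw [Matrix.mul_apply, Matrix.mul_apply]
        refine Finset.sum_congr rfl fun c _ => ?_
        by_cases hc : g c b = 0
        · simp [hc]
        · have := hd c b hc
          have h3 : i c ≠ j := by omega
          simp [h3]
      rw [Matrix.sub_apply, Matrix.add_apply, e2, Matrix.mul_apply]
      by_cases hbj : i b = j
      · have := hw2 b hbj a
        simp only [Matrix.of_apply, hbj, if_true]
        rw [Matrix.sub_apply] at this
        rwa [show ∀ x y z : R, x + y - z = x - (z - y) from fun x y z => by ring]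
      · have := hcol a b (by omega)
        simp only [Matrix.of_apply, hbj, if_false]
        rwa [Matrix.sub_apply, Matrix.add_apply, Matrix.mul_apply] at this

theorem IsRes.null {J : Type} [Fintype J] [DecidableEq J] {i : J → ℕ} {g : Matrix J J R} {a0 : J}
    {c : Ideal R} (h : IsRes i g a0 q c) {r : R} (hr : r ∈ c) : Null i g q r := by
  obtain ⟨H, h1, h2⟩ := nullR_step h.deg h.sq ((h.zero a0).2 rfl) (fun j z hz hz0 hgz => by
    obtain ⟨y, hy, hzy⟩ := hh_eq_zero_iff.1 (h.exact (-(j : ℤ))) z
      (mem_pf.2 fun a => ⟨fun _ => by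
        split_ifs with ha
        · rw [ha]; exact hz0
        · trivial, fun hne => by
        by_contra h0
        have := hz a h0
        omega⟩)
      (mem_pf.2 fun a => ⟨fun _ => by rw [act_apply]; exact hgz a, fun hne => by
        rw [act_apply]
        refine Finset.sum_eq_zero fun e _ => ?_
        by_contra he
        have e1 := h.deg a e (left_ne_zero_of_mul he)
        have e2 := hz e (right_ne_zero_of_mul he)
        omega⟩)
    refine ⟨y, fun a ha => ?_, fun a => ?_⟩
    · by_contra hne
      exact ha ((mem_pf.1 hy a).2 (by omega))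
    · have h3 : (z - act g y) a ∈ q := by
        by_cases h0 : -(j : ℤ) + i a = 0
        · exact (mem_pf.1 hzy a).1 h0
        · rw [(mem_pf.1 hzy a).2 h0]; exact q.zero_mem
      rw [Pi.sub_apply, act_apply] at h3
      rw [← neg_sub]
      exact q.neg_mem h3) hr (Finset.univ.sup i + 1)
  exact ⟨H, h1, fun a b => h2 a b
    (Nat.lt_succ_of_le (Finset.le_sup (f := i) (Finset.mem_univ b)))⟩

omit [Fintype J] [DecidableEq J] in
theorem Deg.map {S : Type*} [CommRing S] (h : Deg i g) (f : R →+* S) : Deg i (g.map f) :=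
  fun a b hab => h a b fun e => hab (by simp [e])

omit [Fintype J] in
theorem tens_map {K : Type*} [DecidableEq K] (k : K → ℕ) (κ : Matrix K K R) {S : Type*}
    [CommRing S] (f : R →+* S) : (tens k κ g).map f = tens k (κ.map f) (g.map f) := by
  ext x y
  rw [Matrix.map_apply, mat_tens_apply, mat_tens_apply, map_add]
  congr 1 <;> split_ifs <;> simp

/-- a resolution tensored with a Koszul complex -/
theorem IsRes.exists_cx {J : Type} [Fintype J] [DecidableEq J] {i : J → ℕ} {g : Matrix J J R}
    {a0 : J} {c m : Ideal R} (h : IsRes i g a0 ⊥ c) {v : ℕ} (hi : ∀ a, i a ≤ v) (hg : Ent g m)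
    {d : ℕ} (w : Fin d → R) (hw : ∀ t, w t ∈ m) :
    ∃ (K : Type) (_ : Fintype K) (_ : DecidableEq K) (k : K → ℕ) (G : Matrix K K R) (b0 : K),
      Deg k G ∧ Ent (G * G) ⊥ ∧ (∀ b, k b ≤ v + d) ∧ (∀ b, k b = 0 ↔ b = b0) ∧ Ent G m ∧
      Ideal.span (Set.range (G b0)) = c ⊔ Ideal.span (Set.range w) ∧
      ∀ r ∈ c ⊔ Ideal.span (Set.range w), Null k G ⊥ r := by
  obtain ⟨K, _, _, k, κ, hκ⟩ := exists_isKos w
  obtain ⟨k0, hk0⟩ := hκ.zero
  have hnull : ∀ r ∈ c ⊔ Ideal.span (Set.range w),
      Null (fun x : K × J => k x.1 + i x.2) (tens k κ g) ⊥ r := by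
    intro r hr
    obtain ⟨r1, h1, r2, h2, rfl⟩ := Submodule.mem_sup.1 hr
    refine nullR_add (null_tens_right hκ.deg (h.null h1)) (null_tens_left ?_)
    refine Null.of_mem_span ?_ h2
    rintro _ ⟨t, rfl⟩
    exact hκ.null t
  have hz : ∀ b : K × J, k b.1 + i b.2 = 0 ↔ b = (k0, a0) := by
    rintro ⟨a, x⟩
    simp only [Nat.add_eq_zero_iff, hk0, h.zero, Prod.mk.injEq]
  refine ⟨K × J, inferInstance, inferInstance, fun x => k x.1 + i x.2, tens k κ g, (k0, a0),
    deg_tens hκ.deg h.deg, sq_tens hκ.deg (by rw [hκ.sq]; exact kos_ent_zero _) h.sq,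
    fun b => ?_, hz, ent_tens (fun a b => ?_) hg, le_antisymm ?_ fun r hr => ?_, hnull⟩
  · have := hκ.le b.1
    have := hi b.2
    simp only
    omega
  · refine (Ideal.span_le.2 ?_ : Ideal.span (Set.range w) ≤ m) (hκ.ent a b)
    rintro _ ⟨t, rfl⟩
    exact hw t
  · refine Ideal.span_le.2 ?_
    rintro _ ⟨y, rfl⟩
    rw [SetLike.mem_coe, mat_tens_apply]
    refine add_mem ?_ ?_ <;> split_ifs
    exacts [Ideal.mem_sup_right (hκ.ent _ _), zero_mem _,
      Ideal.mem_sup_left (c.mul_mem_left _ (h.row _)), zero_mem _]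
  · have := (hnull r hr).mem_row (a0 := (k0, a0)) ((hz _).2 rfl)
    rwa [sup_bot_eq] at this

/-- the cone of multiplication by `w` -/
theorem cone_props (hd : Deg i g) (hsq : Ent (g * g) q) (w : R) :
    Deg (fun x : J × Fin 2 => i x.1 + (x.2 : ℕ)) (tens i g !![0, w; 0, 0]) ∧
    Ent (tens i g !![0, w; 0, 0] * tens i g !![0, w; 0, 0]) q ∧
    Null (fun x : J × Fin 2 => i x.1 + (x.2 : ℕ)) (tens i g !![0, w; 0, 0]) q w ∧
    ∀ r, Null i g q r →
      Null (fun x : J × Fin 2 => i x.1 + (x.2 : ℕ)) (tens i g !![0, w; 0, 0]) q r :=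
  ⟨deg_tens hd (kos_deg2 w), sq_tens hd hsq (by rw [kos_sq2]; exact kos_ent_zero _),
    null_tens_right (i := fun x : Fin 2 => (x : ℕ)) hd ((kos_null2 w).mono bot_le),
    fun _ hr => null_tens_left (i := fun x : Fin 2 => (x : ℕ)) hr⟩

end Vale.Agent.P202
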