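import Vale.Agent.P202.AC
import Vale.Agent.P202.NullR

/-! Lifting complexes along an approximate isomorphism. -/

namespace Vale.Agent.P202

open IsLocalRing

/-- the data relating a local ring `R` to a Cohen-Macaulay ring `P` with roots of parameters -/
structure TwData {R P Q : Type*} [CommRing R] [IsLocalRing R] [CommRing P] [IsLocalRing P]
    [CommRing Q] [Algebra P Q] {s : ℕ} (x : Fin (s + 1) → R) (j : R →+* Q) (y : Fin (s + 1) → P)
    (h : P) (D : Ideal Q) (n K μ L : ℕ) : Prop where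
  cm : IsCM P (s + 1)
  mem : ∀ t, y t ∈ maximalIdeal P
  prim : Prim (Ideal.span (Set.range y))
  ng : NG (⊤ : Submodule P Q) μ
  ap : ApAlg h (Ideal.span (Set.range y) ^ L) D
  root : ∀ t, algebraMap P Q (y t) ^ K - j (x t) ∈ D
  ent : ∀ r ∈ maximalIdeal R, ∃ u ∈ Ideal.span (Set.range y) ^ n, h • j r - algebraMap P Q u ∈ D

variable {P Q : Type*} [CommRing P] [CommRing Q] [Algebra P Q] {h : P} {D : Ideal Q} {s : ℕ}
  {y : Fin (s + 1) → P} {L M : ℕ} {J : Type} [Fintype J] [DecidableEq J] {i : J → ℕ}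
  {G : Matrix J J Q}

theorem ApAlg.mono {d d' : Ideal P} (hQ : ApAlg h d D) (hd : d ≤ d') : ApAlg h d' D := by
  exact ⟨hQ.surj, fun u hu => hd (hQ.inj u hu)⟩

theorem app_lift {X : Type*} (Z : X → Q) (e : Ideal P)
    (he : ∀ x, ∃ u ∈ e, h • Z x - algebraMap P Q u ∈ D) :
    ∃ z : X → P, (∀ x, z x ≠ 0 → Z x ≠ 0) ∧ (∀ x, z x ∈ e) ∧
      ∀ x, h • Z x - algebraMap P Q (z x) ∈ D := by
  classical
  choose u hu hu' using he
  refine ⟨fun x => if Z x = 0 then 0 else u x, fun x hx h0 => hx (if_pos h0), fun x => ?_,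
    fun x => ?_⟩
  · dsimp only; split_ifs
    · exact zero_mem _
    · exact hu x
  · dsimp only; split_ifs with h0
    · simp [h0]
    · exact hu' x

theorem app_lift_mat {X : Type*} (Z : Matrix X X Q) (e : Ideal P)
    (he : ∀ a b, ∃ u ∈ e, h • Z a b - algebraMap P Q u ∈ D) :
    ∃ z : Matrix X X P, (∀ a b, z a b ≠ 0 → Z a b ≠ 0) ∧ (∀ a b, z a b ∈ e) ∧
      ∀ a b, h • Z a b - algebraMap P Q (z a b) ∈ D := by
  choose z h1 h2 h3 using fun a => app_lift (Z a) e (he a)
  exact ⟨z, h1, h2, h3⟩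

theorem app_mk {a : Q} {u : P} (hu : h • a - algebraMap P Q u ∈ D) :
    Ideal.Quotient.mk D (algebraMap P Q u) =
      Ideal.Quotient.mk D (algebraMap P Q h) * Ideal.Quotient.mk D a := by
  rw [← map_mul, eq_comm, Ideal.Quotient.eq, ← Algebra.smul_def]; exact hu

theorem app_sum {X : Type*} [Fintype X] {A B : X → Q} {a b : X → P}
    (ha : ∀ x, h • A x - algebraMap P Q (a x) ∈ D) (hb : ∀ x, h • B x - algebraMap P Q (b x) ∈ D) :
    Ideal.Quotient.mk D (algebraMap P Q (∑ x, a x * b x)) =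
      Ideal.Quotient.mk D (algebraMap P Q h) ^ 2 * Ideal.Quotient.mk D (∑ x, A x * B x) := by
  simp only [map_sum, map_mul, app_mk (ha _), app_mk (hb _), Finset.mul_sum]
  exact Finset.sum_congr rfl fun x _ => by ring

theorem ApAlg.lift (hQ : ApAlg h (Ideal.span (Set.range y) ^ L) D) (hd : Deg i G)
    (hi : ∀ a, i a ≤ s + 1) (hsq : Ent (G * G) D)
    (hn : ∀ t, Null i G D (algebraMap P Q (y t) ^ M)) (e : Ideal P)
    (he : ∀ a b, ∃ u ∈ e, h • G a b - algebraMap P Q u ∈ D) :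
    ∃ g : Matrix J J P, Apx y (h ^ 2) i g L M ∧ Ent g e ∧
      ∀ a b, h • G a b - algebraMap P Q (g a b) ∈ D := by
  obtain ⟨g, hg0, hge, hg⟩ := app_lift_mat G e he
  refine ⟨g, ⟨fun a b hab => hd a b (hg0 a b hab), hi, fun a c => ?_, fun t => ?_⟩, hge, hg⟩
  · refine hQ.inj _ ?_
    rw [← Ideal.Quotient.eq_zero_iff_mem, Matrix.mul_apply,
      app_sum (fun b => hg a b) (fun b => hg b c), ← Matrix.mul_apply,
      Ideal.Quotient.eq_zero_iff_mem.2 (hsq a c), mul_zero]
  · obtain ⟨H, hH, hH'⟩ := hn t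
    obtain ⟨k, hk0, -, hk⟩ := app_lift_mat H ⊤ fun a b =>
      let ⟨u, hu⟩ := hQ.surj (H a b); ⟨u, trivial, hu⟩
    refine ⟨k, fun a b hab => hH a b (hk0 a b hab), fun a c => hQ.inj _ ?_⟩
    have h1 := Ideal.Quotient.eq_zero_iff_mem.2 (hH' a c)
    rw [Matrix.sub_apply, Matrix.add_apply, Matrix.mul_apply, Matrix.mul_apply, map_sub,
      map_add] at h1
    rw [← Ideal.Quotient.eq_zero_iff_mem, Matrix.sub_apply, Matrix.add_apply, Matrix.mul_apply,
      Matrix.mul_apply, map_sub, map_add, map_sub, map_add,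
      app_sum (fun b => hg a b) (fun b => hk b c), app_sum (fun b => hk a b) (fun b => hg b c)]
    have h2 : Ideal.Quotient.mk D (algebraMap P Q (((h ^ 2 * y t ^ M) • (1 : Matrix J J P)) a c)) =
        Ideal.Quotient.mk D (algebraMap P Q h) ^ 2 *
          Ideal.Quotient.mk D ((algebraMap P Q (y t) ^ M • (1 : Matrix J J Q)) a c) := by
      by_cases hac : a = c <;> simp [hac]
    rw [h2, ← mul_add, ← mul_sub, h1, mul_zero]

omit [DecidableEq J] in
theorem ApAlg.rl_row_le (hQ : ApAlg h (Ideal.span (Set.range y) ^ L) D) (v : J → P) (w : J → Q)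
    (hvw : ∀ b, h • w b - algebraMap P Q (v b) ∈ D)
    (hfin : rl (Ideal.span (Set.range y) ^ L) (⊤ : Ideal P) ≠ ⊤) :
    rl (Ideal.span (Set.range v) ⊔ Ideal.span (Set.range y) ^ L) (⊤ : Ideal P) ≤
      rl ((Ideal.span (Set.range w) ⊔ D).restrictScalars P) ⊤ +
        2 * rl (Ideal.span (Set.range y) ^ L ⊔ Ideal.span {h}) (⊤ : Ideal P) := by
  refine (rl_le_add _ ((Ideal.span (Set.range w) ⊔ D).comap (algebraMap P Q)) _).trans ?_
  rw [add_comm]
  refine add_le_add (rl_le_of_inj (Algebra.linearMap P Q)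
    (fun _ _ => Submodule.mem_sup_left trivial) fun _ _ hx => hx) ?_
  have := rl_le_of_kill (A := Ideal.span (Set.range v) ⊔ Ideal.span (Set.range y) ^ L)
    (B := (Ideal.span (Set.range w) ⊔ D).comap (algebraMap P Q)) h 2 le_sup_right le_top hfin
    (fun x hx => by
      obtain ⟨a, ha, d, hd, had⟩ := Submodule.mem_sup.1 (Ideal.mem_comap.1 hx)
      obtain ⟨c, rfl⟩ := Ideal.mem_span_range_iff_exists_fun.1 ha
      choose c' hc' using fun b => hQ.surj (c b)
      have h1 : h ^ 2 • x - ∑ b, c' b * v b ∈ Ideal.span (Set.range y) ^ L := by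
        refine hQ.inj _ ?_
        rw [← Ideal.Quotient.eq_zero_iff_mem, map_sub, map_sub, app_sum hc' hvw, smul_eq_mul,
          map_mul, map_mul, ← had, map_add, Ideal.Quotient.eq_zero_iff_mem.2 hd]
        simp
      have h2 : ∑ b, c' b * v b ∈ Ideal.span (Set.range v) :=
        Ideal.mem_span_range_iff_exists_fun.2 ⟨c', rfl⟩
      simpa using add_mem (Ideal.mem_sup_left h2) (Ideal.mem_sup_right h1))
  simpa using this

/-- approximate regularity of `w` modulo the first row -/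
theorem ApAlg.reg (hQ : ApAlg h (Ideal.span (Set.range y) ^ L) D) (hcol : ColOn y (⊤ : Ideal P))
    (hd : Deg i G) (hi : ∀ a, i a ≤ s) {a0 : J} (ha0 : ∀ a, i a = 0 ↔ a = a0)
    (hsq : Ent (G * G) D) (w : Q)
    (hn : ∀ t, Null (fun x : J × Fin 2 => i x.1 + (x.2 : ℕ)) (tens i G !![0, w; 0, 0]) D
      (algebraMap P Q (y t) ^ M)) (l : ℕ) (hL : l + (s + 1) * M ≤ L) (u : Q)
    (hu : w * u ∈ Ideal.span (Set.range (G a0)) ⊔ D) :
    h ^ (2 * s + 3) • u ∈ Ideal.span (Set.range (G a0)) ⊔ D ⊔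
      (Ideal.span (Set.range y) ^ l).map (algebraMap P Q) := by
  obtain ⟨hd', hsq', -, -⟩ := cone_props hd hsq w
  obtain ⟨c, hA, -, hc⟩ := hQ.lift hd' (fun x => by have := hi x.1; have := x.2.2; omega) hsq' hn ⊤
    fun a b => let ⟨u, hu⟩ := hQ.surj (tens i G !![0, w; 0, 0] a b); ⟨u, trivial, hu⟩
  obtain ⟨a, ha, d, hd0, had⟩ := Submodule.mem_sup.1 hu
  obtain ⟨v, rfl⟩ := Ideal.mem_span_range_iff_exists_fun.1 ha
  obtain ⟨Z, hZ⟩ : ∃ Z : J × Fin 2 → Q, Z = fun x =>
      if x.2 = 0 then (if i x.1 = 1 then -v x.1 else 0) else if x.1 = a0 then u else 0 := ⟨_, rfl⟩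
  have h00 : i a0 = 0 := (ha0 a0).2 rfl
  have hZ1 : ∀ x, Z x ≠ 0 → i x.1 + (x.2 : ℕ) = 1 := by
    rintro ⟨b, e⟩ hx
    rw [hZ] at hx
    fin_cases e
    · by_contra hb
      exact hx (by simp [show i b ≠ 1 by simpa using hb])
    · by_contra hb
      exact hx (by simp [show b ≠ a0 from fun e => hb (by simp [e, h00])])
  obtain ⟨z, hz0, -, hz⟩ := app_lift Z ⊤ fun x => let ⟨u, hu⟩ := hQ.surj (Z x); ⟨u, trivial, hu⟩
  obtain ⟨w', -, hw'⟩ := hA.ac hcol l hL (n := -1) (by omega) (z := z)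
    (mem_pf.2 fun x => ⟨fun _ => trivial, fun hx => by
      by_contra h0
      have := hZ1 x (hz0 x h0)
      omega⟩)
    (mem_pf.2 fun x => ⟨fun hx => by
      rw [act_apply, Ideal.smul_eq_mul, Ideal.mul_top]
      refine Ideal.pow_le_pow_right hL (hQ.inj _ ?_)
      obtain ⟨b, e⟩ := x
      obtain rfl : b = a0 := (ha0 b).1 (by simp only at hx; omega)
      obtain rfl : e = 0 := Fin.ext (by simp only at hx; omega)
      simp only [smul_eq_mul]
      rw [← Ideal.Quotient.eq_zero_iff_mem, app_sum (hc (b, 0)) hz]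
      refine mul_eq_zero_of_right _ (Ideal.Quotient.eq_zero_iff_mem.2 ?_)
      have h1 : ∑ x, tens i G !![0, w; 0, 0] (b, 0) x * Z x = d := by
        rw [eq_sub_of_add_eq' had, Fintype.sum_prod_type]
        simp only [Fin.sum_univ_two, mat_tens_apply, hZ, h00]
        rw [Finset.sum_add_distrib, add_comm, sub_eq_add_neg, ← Finset.sum_neg_distrib]
        congr 1
        · simp
        · refine Finset.sum_congr rfl fun a _ => ?_
          by_cases hG : G b a = 0
          · simp [hG]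
          · have := hd b a hG
            simp [show i a = 1 by omega, mul_comm]
      rw [h1]; exact hd0, fun hx => by
      rw [act_apply]
      refine Finset.sum_eq_zero fun x' _ => ?_
      by_contra h0
      rw [smul_eq_mul] at h0
      have h1 := hA.deg x x' (left_ne_zero_of_mul h0)
      have h2 := hZ1 x' (hz0 x' (right_ne_zero_of_mul h0))
      omega⟩)
  have h1 := (mem_pf.1 hw' (a0, 1)).1 (by simp [h00])
  rw [Ideal.smul_eq_mul, Ideal.mul_top, Pi.sub_apply, act_apply, Pi.smul_apply] at h1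
  have h2 := Ideal.mem_map_of_mem (algebraMap P Q) h1
  have h3 : algebraMap P Q (∑ x, c (a0, 1) x • w' x) ∈ Ideal.span (Set.range (G a0)) ⊔ D := by
    rw [map_sum]
    refine Ideal.sum_mem _ fun x _ => ?_
    rw [smul_eq_mul, map_mul]
    refine Ideal.mul_mem_right _ _ ?_
    have h4 : tens i G !![0, w; 0, 0] (a0, 1) x ∈ Ideal.span (Set.range (G a0)) := by
      obtain ⟨b, e⟩ := x
      rw [mat_tens_apply]
      fin_cases e
      · simp
      · simpa using Ideal.subset_span (Set.mem_range_self b)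
    have h5 := sub_mem (Ideal.mem_sup_left (T := D) (Submodule.smul_of_tower_mem _ h h4))
      (Ideal.mem_sup_right (hc (a0, 1) x))
    rwa [sub_sub_cancel] at h5
  have h4 := hz (a0, 1)
  have h5 : Z (a0, 1) = u := by simp [hZ]
  rw [h5] at h4
  have h6 := add_mem (add_mem (Ideal.mem_sup_right h2) (Ideal.mem_sup_left h3))
    (Ideal.mem_sup_left (Ideal.mem_sup_right
      (Submodule.smul_of_tower_mem _ ((h ^ 2) ^ (s + 1)) h4)))
  convert h6 using 1
  simp only [Algebra.smul_def, map_sub, map_mul, map_pow, Algebra.algebraMap_self, RingHom.id_apply]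
  ring

end Vale.Agent.P202
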