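import Vale.Agent.P202.Defs

/-! Approximate solutions of triangular systems. -/

namespace Vale.Agent.P202

universe w

open Polynomial in
theorem smooth_unit {B : Type*} [CommRing B] (c : Ideal B) [IsAdicComplete c B] {j : B}
    (hj : j ∈ c) : IsUnit (1 + j) := by
  have := Ideal.mem_jacobson_bot.1 (IsAdicComplete.le_jacobson_bot c hj) 1
  rwa [mul_one, add_comm] at this

open Polynomial in
theorem newton {B : Type*} [CommRing B] (c : Ideal B) [IsAdicComplete c B] (R : Polynomial B)
    {η : B} (hη : η ∈ c) : ∃ y ∈ Ideal.span {η}, η + y + y ^ 2 * R.eval y = 0 := by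
  nontriviality B
  set n := R.natDegree with hn
  set G : B[X] := ∑ i ∈ Finset.range (n + 1), C (R.coeff i * η ^ i) * X ^ (n - i) with hG
  have hGd : G.degree ≤ n := by
    refine (degree_sum_le _ _).trans (Finset.sup_le fun i _ => ?_)
    exact (degree_C_mul_X_pow_le _ _).trans (by exact_mod_cast Nat.sub_le n i)
  have hm : (X ^ (n + 2) + (X ^ (n + 1) + C η * G) : B[X]).Monic := by
    refine monic_X_pow_add ((degree_add_le _ _).trans_lt (max_lt ?_ ?_))
    · exact (degree_X_pow_le _).trans_lt (by exact_mod_cast Nat.lt_succ_self _)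
    · rw [← smul_eq_C_mul]
      exact ((degree_smul_le _ _).trans hGd).trans_lt (by exact_mod_cast by omega)
  obtain ⟨a, ha, ha1⟩ := HenselianRing.is_henselian (I := c) _ hm (-1) (by
      have : (X ^ (n + 2) + (X ^ (n + 1) + C η * G) : B[X]).eval (-1) = η * G.eval (-1) := by
        simp only [eval_add, eval_pow, eval_X, eval_mul, eval_C]; ring
      rw [this]; exact c.mul_mem_right _ hη) (by
      have : (derivative (X ^ (n + 2) + (X ^ (n + 1) + C η * G) : B[X])).eval (-1) =
          (-1) ^ (n + 1) + η * G.derivative.eval (-1) := by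
        simp only [derivative_add, derivative_X_pow, derivative_C_mul, eval_add, eval_pow, eval_X,
          eval_mul, eval_C, Nat.add_succ_sub_one]
        push_cast; ring
      rw [this, map_add, Ideal.Quotient.eq_zero_iff_mem.2 (c.mul_mem_right _ hη), add_zero]
      exact (isUnit_neg_one.pow _).map _)
  have hu : IsUnit a := by
    have := (smooth_unit c (c.neg_mem ha1)).neg
    simpa using this
  obtain ⟨z, hz⟩ := hu.exists_right_inv
  refine ⟨η * z, Ideal.mem_span_singleton.2 ⟨z, rfl⟩, ?_⟩
  have h1 : a ^ n * R.eval (η * z) = G.eval a := by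
    rw [eval_eq_sum_range, hG, eval_finsetSum, Finset.mul_sum]
    refine Finset.sum_congr rfl fun i hi => ?_
    have hi' : i ≤ n := Nat.lt_succ_iff.1 (Finset.mem_range.1 hi)
    have : a ^ n = a ^ (n - i) * a ^ i := by rw [← pow_add, Nat.sub_add_cancel hi']
    have h2 : a ^ i * z ^ i = 1 := by rw [← mul_pow, hz, one_pow]
    simp only [eval_mul, eval_C, eval_pow, eval_X, mul_pow, this]
    linear_combination (a ^ (n - i) * R.coeff i * η ^ i) * h2
  have h3 : a ^ (n + 2) + (a ^ (n + 1) + η * G.eval a) = 0 := by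
    simpa only [IsRoot, eval_add, eval_pow, eval_X, eval_mul, eval_C] using ha
  refine (hu.pow (n + 2)).mul_left_cancel ?_
  rw [← h1] at h3
  linear_combination η * h3 + (η * a ^ (n + 1) + η ^ 2 * a ^ n * R.eval (η * z) * (a * z + 1)) * hz

open Polynomial in
theorem smooth_pdiv {A : Type*} [CommRing A] (P : A[X]) (m : ℕ) (hP : P.natDegree ≤ m) (N : ℕ) :
    ∀ F : A[X], F.degree < (m + N : ℕ) →
      ∃ G Rem : A[X], C (P.coeff m) ^ N * F = G * P + Rem ∧ Rem.degree < m := by
  induction N with
  | zero => intro F hF; exact ⟨0, F, by simp, by simpa using hF⟩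
  | succ N ih =>
    intro F hF
    obtain ⟨G, Rem, h1, h2⟩ := ih (C (P.coeff m) * F - C (F.coeff (m + N)) * (P * X ^ N)) (by
      rw [degree_lt_iff_coeff_zero] at hF ⊢
      intro k hk
      obtain ⟨l, rfl⟩ : ∃ l, k = l + N := ⟨k - N, by omega⟩
      rw [coeff_sub, coeff_C_mul, coeff_C_mul, coeff_mul_X_pow]
      rcases (show l = m ∨ m < l by omega) with rfl | hl
      · ring
      · rw [hF _ (by omega), coeff_eq_zero_of_natDegree_lt (hP.trans_lt hl)]; ring)
    exact ⟨G + C (P.coeff m) ^ N * C (F.coeff (m + N)) * X ^ N, Rem,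
      by linear_combination h1, h2⟩

theorem smooth_ev {Λ B : Type*} [CommRing Λ] [CommRing B] (φ : Λ →+* B) {n : ℕ}
    (b : Fin (n + 1) → B) (F : MvPolynomial (Fin (n + 1)) Λ) :
    MvPolynomial.eval₂ φ b F = Polynomial.eval₂ (MvPolynomial.eval₂Hom φ fun i => b i.succ) (b 0)
      (MvPolynomial.finSuccEquiv Λ n F) := by
  have : MvPolynomial.eval₂Hom φ b =
      (Polynomial.eval₂RingHom (MvPolynomial.eval₂Hom φ fun i => b i.succ) (b 0)).comp
        (MvPolynomial.finSuccEquiv Λ n).toRingHom := by
    refine MvPolynomial.ringHom_ext (fun r => ?_) fun i => ?_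
    · simp [MvPolynomial.finSuccEquiv_apply]
    · refine Fin.cases ?_ (fun i => ?_) i
      · simp [MvPolynomial.finSuccEquiv_X_zero]
      · simp [MvPolynomial.finSuccEquiv_X_succ]
  exact congrArg (fun f => f F) this

theorem smooth_mono {B : Type*} [CommRing B] (c : Ideal B) (E : B) {k l : ℕ} (h : l ≤ k) :
    Ideal.span {E ^ k} * c ≤ Ideal.span {E ^ l} * c :=
  Ideal.mul_mono_left (Ideal.span_singleton_le_span_singleton.2 (pow_dvd_pow E h))

theorem smooth_cong {Λ B : Type*} [CommRing Λ] [CommRing B] (φ : Λ →+* B) {n : ℕ} (I : Ideal B)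
    (b b' : Fin n → B) (h : ∀ i, b' i - b i ∈ I) (t : B)
    (F : Polynomial (MvPolynomial (Fin n) Λ)) :
    Polynomial.eval₂ (MvPolynomial.eval₂Hom φ b') t F -
      Polynomial.eval₂ (MvPolynomial.eval₂Hom φ b) t F ∈ I := by
  rw [← Ideal.Quotient.eq, Polynomial.hom_eval₂, Polynomial.hom_eval₂]
  congr 1
  refine MvPolynomial.ringHom_ext (fun r => by simp) fun i => ?_
  simpa [Ideal.Quotient.eq] using h i

theorem smooth_assoc {B : Type*} [CommRing B] (c : Ideal B) [IsAdicComplete c B] {E x x' : B}
    {k : ℕ} (hx : x ∣ E) (h : x' - x ∈ Ideal.span {E ^ (k + 1)} * c) : x' ∣ E := by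
  obtain ⟨j, hj, e⟩ := Ideal.mem_span_singleton_mul.1 h
  obtain ⟨y, rfl⟩ := hx
  have hu := smooth_unit c (c.mul_mem_left (y * (x * y) ^ k) hj)
  have : x' = x * (1 + y * (x * y) ^ k * j) := by linear_combination -e
  rw [this]
  exact (hu.mul_right_dvd).2 ⟨y, rfl⟩

open Polynomial in
theorem smooth_root {B : Type*} [CommRing B] (c : Ideal B) [IsAdicComplete c B] (Q : B[X])
    (t E : B) (M : ℕ) (h1 : Q.derivative.eval t ∣ E)
    (h2 : Q.eval t ∈ Ideal.span {E ^ (M + 3)} * c) :
    ∃ t', t' - t ∈ Ideal.span {E ^ (M + 1)} * c ∧ Q.eval t' = 0 := by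
  obtain ⟨j, hj, e⟩ := Ideal.mem_span_singleton_mul.1 h2
  obtain ⟨y, hy⟩ := h1
  obtain ⟨δ, hδ⟩ : ∃ δ, δ = Q.derivative.eval t := ⟨_, rfl⟩
  rw [← hδ] at hy
  obtain ⟨S, hS⟩ : X ^ 2 ∣ taylor t Q - C (Q.eval t) - C δ * X := by
    rw [X_pow_dvd_iff]
    intro d hd
    rcases (show d = 0 ∨ d = 1 by omega) with rfl | rfl
    · rw [coeff_sub, coeff_sub, taylor_coeff_zero, coeff_C_zero, coeff_C_mul, coeff_X_zero]
      ring
    · rw [coeff_sub, coeff_sub, taylor_coeff_one, coeff_C_succ, coeff_C_mul, coeff_X_one, hδ]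
      ring
  have hη : E ^ (M + 1) * (y ^ 2 * j) ∈ Ideal.span {E ^ (M + 1)} * c :=
    Ideal.mem_span_singleton_mul.2 ⟨_, c.mul_mem_left _ hj, rfl⟩
  have hη' : E ^ (M + 1) * (y ^ 2 * j) ∈ c := c.mul_mem_left _ (c.mul_mem_left _ hj)
  obtain ⟨z, hz, hz2⟩ := newton c (S.comp (C δ * X)) hη'
  refine ⟨δ * z + t, ?_, ?_⟩
  · rw [add_sub_cancel_right]
    exact Ideal.mul_mem_left _ _ ((Ideal.span_singleton_le_iff_mem _).2 hη hz)
  · have h3 := congrArg (eval (δ * z)) hS
    simp only [eval_sub, taylor_eval, eval_C, eval_mul, eval_X, eval_pow, eval_comp] at h3 hz2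
    have h4 : E ^ (M + 3) = δ ^ 2 * y ^ 2 * E ^ (M + 1) := by
      rw [← mul_pow, ← hy]
      ring
    linear_combination h3 + δ ^ 2 * hz2 - e + j * h4

theorem smooth_lemma {Λ A : Type*} [CommRing Λ] [CommRing A] [IsDomain A] [CharZero A]
    (ι : Λ →+* A) (hinj : Function.Injective ι) {n : ℕ} (a : Fin n → A) (M : ℕ) :
    ∃ (D : MvPolynomial (Fin n) Λ) (fs : Finset (MvPolynomial (Fin n) Λ)) (N : ℕ),
      MvPolynomial.eval₂ ι a D ≠ 0 ∧ (∀ f ∈ fs, MvPolynomial.eval₂ ι a f = 0) ∧
      ∀ (B : Type w) [CommRing B] [IsDomain B] (c : Ideal B) [IsAdicComplete c B] (φ : Λ →+* B)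
        (b : Fin n → B) (E : B), E ≠ 0 → MvPolynomial.eval₂ φ b D ∣ E →
        (∀ f ∈ fs, MvPolynomial.eval₂ φ b f ∈ Ideal.span {E ^ N} * c) →
        ∃ b' : Fin n → B, (∀ i, b' i - b i ∈ Ideal.span {E ^ (M + 1)} * c) ∧
          ∀ F, MvPolynomial.eval₂ ι a F = 0 → MvPolynomial.eval₂ φ b' F = 0 := by
  classical
  induction n generalizing M with
  | zero =>
    refine ⟨1, ∅, 0, by simp, by simp, fun B _ _ c _ φ b E _ _ _ => ⟨b, by simp, fun F hF => ?_⟩⟩
    rw [F.eq_C_of_isEmpty, MvPolynomial.eval₂_C] at hF ⊢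
    rw [hinj (hF.trans (map_zero ι).symm), map_zero]
  | succ n ih =>
    obtain ⟨D', fs', N', hD', hfs', H⟩ := ih (fun i => a i.succ) (M + 2)
    set α := MvPolynomial.eval₂Hom ι fun i : Fin n => a i.succ with hα
    set e := MvPolynomial.finSuccEquiv Λ n with he
    have hvan : ∀ (B : Type w) [CommRing B] (φ : Λ →+* B) (b : Fin n → B) (t : B),
        (∀ F, MvPolynomial.eval₂ ι (fun i => a i.succ) F = 0 → MvPolynomial.eval₂ φ b F = 0) →
        ∀ P : Polynomial (MvPolynomial (Fin n) Λ), P.map α = 0 →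
          Polynomial.eval₂ (MvPolynomial.eval₂Hom φ b) t P = 0 := by
      intro B _ φ b t h P hP
      rw [Polynomial.eval₂_eq_eval_map]
      have : P.map (MvPolynomial.eval₂Hom φ b) = 0 := by
        ext k
        rw [Polynomial.coeff_map, Polynomial.coeff_zero]
        refine h _ ?_
        have := congrArg (fun p => Polynomial.coeff p k) hP
        simpa [hα] using this
      rw [this, Polynomial.eval_zero]
    by_cases hex : ∃ m, ∃ p : Polynomial A, p ∈ Polynomial.lifts α ∧ p ≠ 0 ∧ p.eval (a 0) = 0 ∧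
        p.natDegree = m
    · obtain ⟨p, hpl, hp0, hpa, hpm⟩ := Nat.find_spec hex
      have hmin : ∀ q : Polynomial A, q ∈ Polynomial.lifts α → q.eval (a 0) = 0 →
          q.degree < p.natDegree → q = 0 := by
        intro q h1 h2 h3
        by_contra h0
        have := Nat.find_min' hex ⟨q, h1, h0, h2, rfl⟩
        rw [← hpm] at this
        rw [Polynomial.degree_eq_natDegree h0] at h3
        exact absurd (by exact_mod_cast h3) (not_lt.2 this)
      obtain ⟨P, hP, hPd⟩ := Polynomial.exists_degree_eq_of_mem_lifts hpl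
      have hPn : P.natDegree = p.natDegree := Polynomial.natDegree_eq_of_degree_eq hPd
      have hm0 : p.natDegree ≠ 0 := by
        intro h
        rw [Polynomial.eq_C_of_natDegree_eq_zero h] at hpa hp0
        rw [Polynomial.eval_C] at hpa
        exact hp0 (by rw [hpa, map_zero])
      have hc : α (P.coeff p.natDegree) ≠ 0 := by
        rw [← Polynomial.coeff_map, hP]
        exact Polynomial.leadingCoeff_ne_zero.2 hp0
      have hd : Polynomial.eval₂ α (a 0) P.derivative ≠ 0 := by
        rw [Polynomial.eval₂_eq_eval_map, ← Polynomial.derivative_map, hP]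
        intro h
        refine hm0 (Polynomial.derivative_eq_zero.1 (hmin _ ?_ h ?_))
        · rw [← hP, Polynomial.derivative_map]; exact ⟨_, rfl⟩
        · rw [← Polynomial.degree_eq_natDegree hp0]
          exact Polynomial.degree_derivative_lt hp0
      refine ⟨e.symm (Polynomial.C D' * Polynomial.C (P.coeff p.natDegree) * P.derivative),
        insert (e.symm P) (fs'.image fun f => e.symm (Polynomial.C f)), max N' (M + 3), ?_, ?_, ?_⟩
      · rw [smooth_ev, ← he, e.apply_symm_apply, Polynomial.eval₂_mul, Polynomial.eval₂_mul,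
          Polynomial.eval₂_C, Polynomial.eval₂_C]
        exact mul_ne_zero (mul_ne_zero hD' hc) hd
      · intro f hf
        rcases Finset.mem_insert.1 hf with rfl | hf
        · rw [smooth_ev, ← he, e.apply_symm_apply, Polynomial.eval₂_eq_eval_map, hP, hpa]
        · obtain ⟨f', hf', rfl⟩ := Finset.mem_image.1 hf
          rw [smooth_ev, ← he, e.apply_symm_apply, Polynomial.eval₂_C]
          exact hfs' f' hf'
      · intro B _ _ c _ φ b E hE hdvd hf
        rw [smooth_ev, ← he, e.apply_symm_apply, Polynomial.eval₂_mul, Polynomial.eval₂_mul] at hdvd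
        obtain ⟨b', hb', hrel⟩ := H B c φ (fun i => b i.succ) E hE
          (by
            have := (dvd_of_mul_right_dvd (dvd_of_mul_right_dvd hdvd))
            rwa [Polynomial.eval₂_C] at this)
          (fun f hf' => by
            have := hf _ (Finset.mem_insert_of_mem (Finset.mem_image_of_mem _ hf'))
            rw [smooth_ev, ← he, e.apply_symm_apply, Polynomial.eval₂_C] at this
            exact smooth_mono c E (le_max_left _ _) this)
        have hcong := smooth_cong φ _ (fun i => b i.succ) b' hb' (b 0)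
        obtain ⟨t, ht, hroot⟩ := smooth_root c (P.map (MvPolynomial.eval₂Hom φ b')) (b 0) E M
          (by
            rw [Polynomial.derivative_map, ← Polynomial.eval₂_eq_eval_map]
            exact smooth_assoc c (dvd_of_mul_left_dvd hdvd) (hcong _))
          (by
            rw [← Polynomial.eval₂_eq_eval_map]
            have h1 := hf _ (Finset.mem_insert_self _ _)
            rw [smooth_ev, ← he, e.apply_symm_apply] at h1
            have := Ideal.add_mem _ (hcong P) (smooth_mono c E (le_max_right _ _) h1)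
            rwa [sub_add_cancel] at this)
        have hc' : MvPolynomial.eval₂Hom φ b' (P.coeff p.natDegree) ≠ 0 := by
          have := smooth_assoc c (dvd_of_mul_left_dvd (dvd_of_mul_right_dvd hdvd)) (hcong _)
          rw [Polynomial.eval₂_C] at this
          exact ne_zero_of_dvd_ne_zero hE this
        refine ⟨Fin.cons t b', fun i => ?_, fun F hF => ?_⟩
        · refine Fin.cases ?_ (fun i => ?_) i
          · exact ht
          · exact smooth_mono c E (by omega) (hb' i)
        · rw [smooth_ev, ← he] at hF ⊢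
          simp only [Fin.cons_succ, Fin.cons_zero]
          obtain ⟨G, Rem, h1, h2⟩ := smooth_pdiv P p.natDegree hPn.le ((e F).natDegree + 1) (e F)
            (Polynomial.degree_le_natDegree.trans_lt (by exact_mod_cast by omega))
          have h3 : Rem.map α = 0 := by
            refine hmin _ ⟨_, rfl⟩ ?_ (Polynomial.degree_map_le.trans_lt h2)
            have := congrArg (Polynomial.eval₂ α (a 0)) h1
            rw [Polynomial.eval₂_mul, Polynomial.eval₂_add, Polynomial.eval₂_mul, hF,
              Polynomial.eval₂_eq_eval_map (p := P), hP, hpa, mul_zero, mul_zero, zero_add] at this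
            rw [← Polynomial.eval₂_eq_eval_map, ← this]
          have := congrArg (Polynomial.eval₂ (MvPolynomial.eval₂Hom φ b') t) h1
          rw [Polynomial.eval₂_mul, Polynomial.eval₂_add, Polynomial.eval₂_mul,
            hvan B φ b' t hrel Rem h3, Polynomial.eval₂_eq_eval_map (p := P), hroot, mul_zero, add_zero,
            Polynomial.eval₂_pow, Polynomial.eval₂_C] at this
          exact (mul_eq_zero.1 this).resolve_left (pow_ne_zero _ hc')
    · refine ⟨e.symm (Polynomial.C D'), fs'.image fun f => e.symm (Polynomial.C f), N', ?_, ?_, ?_⟩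
      · rw [smooth_ev, ← he, e.apply_symm_apply, Polynomial.eval₂_C]
        exact hD'
      · intro f hf
        obtain ⟨f', hf', rfl⟩ := Finset.mem_image.1 hf
        rw [smooth_ev, ← he, e.apply_symm_apply, Polynomial.eval₂_C]
        exact hfs' f' hf'
      · intro B _ _ c _ φ b E hE hdvd hf
        rw [smooth_ev, ← he, e.apply_symm_apply, Polynomial.eval₂_C] at hdvd
        obtain ⟨b', hb', hrel⟩ := H B c φ (fun i => b i.succ) E hE hdvd
          (fun f hf' => by
            have := hf _ (Finset.mem_image_of_mem _ hf')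
            rwa [smooth_ev, ← he, e.apply_symm_apply, Polynomial.eval₂_C] at this)
        refine ⟨Fin.cons (b 0) b', fun i => ?_, fun F hF => ?_⟩
        · refine Fin.cases ?_ (fun i => ?_) i
          · simp
          · exact smooth_mono c E (by omega) (hb' i)
        · rw [smooth_ev] at hF ⊢
          simp only [Fin.cons_succ, Fin.cons_zero]
          refine hvan B φ b' _ hrel _ ?_
          by_contra h0
          exact hex ⟨_, _, ⟨_, rfl⟩, h0, by rwa [Polynomial.eval₂_eq_eval_map] at hF, rfl⟩

end Vale.Agent.P202
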