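import Vale.Agent.P202.ApproxA
import Vale.Agent.P202.Smooth

/-! Reduction to positive characteristic for power series rings. -/

namespace Vale.Agent.P202

open MvPowerSeries

universe u

noncomputable section

/-- the sheared variables, as polynomials in the first variable -/
def approxPhi {A : Type*} [CommRing A] {d : ℕ} (ξ : Fin d → A) (c : Fin d → ℕ) :
    MvPolynomial (Fin (d + 1)) ℤ →+* Polynomial A :=
  MvPolynomial.eval₂Hom (Int.castRingHom _)
    (Fin.cons Polynomial.X fun i => Polynomial.C (ξ i) + c i • Polynomial.X)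

/-- the variables of a power series ring -/
def approxIota (K : Type*) [CommRing K] (d : ℕ) :
    MvPolynomial (Fin d) ℤ →+* MvPowerSeries (Fin d) K :=
  MvPolynomial.eval₂Hom (Int.castRingHom _) X

theorem approxPhi_map {A B : Type*} [CommRing A] [CommRing B] (f : A →+* B) {d : ℕ}
    (ξ : Fin d → A) (c : Fin d → ℕ) :
    (Polynomial.mapRingHom f).comp (approxPhi ξ c) = approxPhi (fun i => f (ξ i)) c := by
  refine MvPolynomial.ringHom_ext (fun r => by simp) fun i => ?_
  refine Fin.cases ?_ (fun i => ?_) i <;> simp [approxPhi]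

theorem approxIota_X (K : Type*) [CommRing K] {d : ℕ} (i : Fin d) :
    approxIota K d (MvPolynomial.X i) = X i := by
  simp [approxIota]

theorem approxIota_inj (L : Type*) [Field L] [CharZero L] (d : ℕ) :
    Function.Injective (approxIota L d) := by
  have h : approxIota L d = MvPolynomial.coeToMvPowerSeries.ringHom.comp
      (MvPolynomial.map (Int.castRingHom L)) :=
    MvPolynomial.ringHom_ext (fun r => by simp) fun i => by simp [approxIota]
  rw [h]
  exact (MvPolynomial.coe_injective _ _).comp 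
    (MvPolynomial.map_injective (Int.castRingHom L) Int.cast_injective)

theorem approx_shear (K : Type*) [Field K] {d : ℕ} (c : Fin d → ℕ) :
    ∃ α : MvPowerSeries (Fin (d + 1)) K ≃+* MvPowerSeries (Fin (d + 1)) K,
      (∀ a, α (C a) = C a) ∧ α (X 0) = X 0 ∧ (∀ i, α (X i.succ) = X i.succ + c i • X 0) ∧
      Polynomial.coeToPowerSeries.ringHom.comp
          (approxPhi (X : Fin d → MvPowerSeries (Fin d) K) c) =
        ((α.trans (finSuccEquiv K d).toRingEquiv).toRingHom).comp (approxIota K (d + 1)) := by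
  obtain ⟨α, h1, h2, h3⟩ := exists_shear K c
  refine ⟨α, h1, h2, h3, MvPolynomial.ringHom_ext (fun r => by simp) fun i => ?_⟩
  refine Fin.cases ?_ (fun i => ?_) i
  · simp [approxPhi, approxIota, h2]
  · have h4 : (((c i : ℕ) : Polynomial (MvPowerSeries (Fin d) K)) :
        PowerSeries (MvPowerSeries (Fin d) K)) = (c i : ℕ) :=
      map_natCast Polynomial.coeToPowerSeries.ringHom (c i)
    simp [approxPhi, approxIota, h3, h4]

theorem approx_zero (L : Type u) [Field L] (T : Finset (MvPowerSeries (Fin 0) L))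
    (g : MvPowerSeries (Fin 0) L) (hg : g ≠ 0) :
    ∃ (p : ℕ) (_ : Fact p.Prime) (K : Type u) (_ : Field K) (_ : CharP K p) (Ω : Type u)
      (_ : CommRing Ω) (j : Ω →+* MvPowerSeries (Fin 0) L) (τ : Ω →+* MvPowerSeries (Fin 0) K),
      Function.Injective j ∧ (∀ t ∈ T, t ∈ j.range) ∧
      (∀ i, ∃ ξ, j ξ = X i ∧ τ ξ = X i) ∧ ∃ γ, j γ = g ∧ τ γ ≠ 0 := by
  classical
  have hC : ∀ t : MvPowerSeries (Fin 0) L, C (constantCoeff t) = t := by
    intro t
    ext m
    rw [Subsingleton.elim m 0]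
    simp
  have hg0 : constantCoeff g ≠ 0 := fun h => hg (by rw [← hC g, h, map_zero])
  obtain ⟨p, hp, K, _, _, Ω, _, j, τ, hj, hT⟩ := approx_field L
    (insert (constantCoeff g) (insert (constantCoeff g)⁻¹ (T.image constantCoeff)))
  obtain ⟨γ, hγ⟩ := hT (constantCoeff g) (by simp)
  obtain ⟨γ', hγ'⟩ := hT (constantCoeff g)⁻¹ (by simp)
  have h1 : γ * γ' = 1 := hj (by rw [map_mul, hγ, hγ', map_one, mul_inv_cancel₀ hg0])
  refine ⟨p, hp, K, inferInstance, inferInstance, Ω, inferInstance, C.comp j, C.comp τ,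
    C_injective.comp hj, fun t ht => ?_, fun i => i.elim0, γ, by
      rw [RingHom.comp_apply, hγ, hC], fun h => ?_⟩
  · obtain ⟨w, hw⟩ := hT (constantCoeff t) (Finset.mem_insert_of_mem (Finset.mem_insert_of_mem
      (Finset.mem_image_of_mem _ ht)))
    exact ⟨w, by rw [RingHom.comp_apply, hw, hC]⟩
  · have h2 := congrArg (C.comp τ : Ω →+* MvPowerSeries (Fin 0) K) h1
    rw [map_mul, h, zero_mul, map_one] at h2
    exact zero_ne_one h2

/-- descent of the polynomial data to the subring -/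
theorem approx_lift {Ω A Λ : Type*} [CommRing Ω] [CommRing A] [CommRing Λ] (j : Ω →+* A)
    (hj : Function.Injective j) (φ : Λ →+* Polynomial Ω) {n : ℕ} (a0 : Fin n → Polynomial A)
    (W U : Polynomial A) (u : A) (D : MvPolynomial (Fin n) Λ)
    (fs : Finset (MvPolynomial (Fin n) Λ)) (G : MvPolynomial (Fin n) Λ → Polynomial A) (N : ℕ)
    (hW : W.Monic) (hU : U.coeff 0 * u = 1)
    (hD : MvPolynomial.eval₂ ((Polynomial.mapRingHom j).comp φ) a0 D = W * U)
    (hf : ∀ f ∈ fs, MvPolynomial.eval₂ ((Polynomial.mapRingHom j).comp φ) a0 f =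
      W ^ N * Polynomial.X * G f)
    (la : ∀ i, a0 i ∈ Polynomial.lifts j) (lW : W ∈ Polynomial.lifts j)
    (lU : U ∈ Polynomial.lifts j) (lu : u ∈ j.range) (lG : ∀ f ∈ fs, G f ∈ Polynomial.lifts j) :
    ∃ (a1 : Fin n → Polynomial Ω) (W1 U1 : Polynomial Ω) (u1 : Ω), W1.Monic ∧
      U1.coeff 0 * u1 = 1 ∧ MvPolynomial.eval₂ φ a1 D = W1 * U1 ∧
      ∀ f ∈ fs, ∃ G1, MvPolynomial.eval₂ φ a1 f = W1 ^ N * Polynomial.X * G1 := by
  choose a1 ha1 using fun i => (Polynomial.mem_lifts _).1 (la i)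
  obtain ⟨W1, rfl⟩ := (Polynomial.mem_lifts _).1 lW
  obtain ⟨U1, rfl⟩ := (Polynomial.mem_lifts _).1 lU
  obtain ⟨u1, rfl⟩ := lu
  have hinj := Polynomial.map_injective j hj
  have hev : ∀ F, (MvPolynomial.eval₂ φ a1 F).map j =
      MvPolynomial.eval₂ ((Polynomial.mapRingHom j).comp φ) a0 F := by
    intro F
    have h1 := MvPolynomial.eval₂_comp_left (Polynomial.mapRingHom j) φ a1 F
    rw [show (Polynomial.mapRingHom j) ∘ a1 = a0 from funext ha1] at h1
    exact h1
  refine ⟨a1, W1, U1, u1, Polynomial.monic_of_injective hj hW, hj ?_, hinj ?_, fun f hfs => ?_⟩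
  · rw [map_mul, map_one, ← Polynomial.coeff_map, hU]
  · rw [hev, hD, Polynomial.map_mul]
  · obtain ⟨G1, hG1⟩ := (Polynomial.mem_lifts _).1 (lG f hfs)
    refine ⟨G1, hinj ?_⟩
    rw [hev, hf f hfs, ← hG1]
    simp [Polynomial.map_mul, Polynomial.map_pow]

theorem approx_lifts_of {Ω A : Type*} [CommRing Ω] [CommRing A] (j : Ω →+* A) {T : Finset A}
    (hT : ∀ t ∈ T, t ∈ j.range) {P : Polynomial A} (h : P.coeffs ⊆ T) :
    P ∈ Polynomial.lifts j :=
  (Polynomial.lifts_iff_coeffs_subset_range _).2 fun t ht => hT t (h ht)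

theorem approx (L : Type u) [Field L] [CharZero L] (d : ℕ) (T : Finset (MvPowerSeries (Fin d) L))
    (g : MvPowerSeries (Fin d) L) (hg : g ≠ 0) :
    ∃ (p : ℕ) (_ : Fact p.Prime) (K : Type u) (_ : Field K) (_ : CharP K p) (Ω : Type u)
      (_ : CommRing Ω) (j : Ω →+* MvPowerSeries (Fin d) L) (τ : Ω →+* MvPowerSeries (Fin d) K),
      Function.Injective j ∧ (∀ t ∈ T, t ∈ j.range) ∧
      (∀ i, ∃ ξ, j ξ = X i ∧ τ ξ = X i) ∧ ∃ γ, j γ = g ∧ τ γ ≠ 0 := by
  classical
  induction d with
  | zero => exact approx_zero L T g hg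
  | succ d ih =>
    let a : Fin (T.card + 1) → MvPowerSeries (Fin (d + 1)) L :=
      Fin.cons g fun i => (T.equivFin.symm i : MvPowerSeries (Fin (d + 1)) L)
    have ha0 : a 0 = g := rfl
    haveI : CharZero (MvPowerSeries (Fin (d + 1)) L) :=
      charZero_of_injective_ringHom (f := (C : L →+* _)) C_injective
    haveI : IsDomain (MvPowerSeries (Fin (d + 1)) L) := NoZeroDivisors.to_isDomain _
    obtain ⟨D, fs, N, hD, hfs, hsm⟩ :=
      smooth_lemma.{u} (approxIota L (d + 1)) (approxIota_inj L _) a 0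
    have he : MvPolynomial.eval₂ (approxIota L (d + 1)) a (D * MvPolynomial.X 0) ≠ 0 := by
      rw [MvPolynomial.eval₂_mul, MvPolynomial.eval₂_X]
      exact mul_ne_zero hD hg
    obtain ⟨c, hc⟩ := exists_regular L _ he
    obtain ⟨α, h1, h2, h3, hα⟩ := approx_shear L c
    set β := (α.trans (finSuccEquiv L d).toRingEquiv).toRingHom with hβ
    have hev : ∀ F, MvPolynomial.eval₂ (Polynomial.coeToPowerSeries.ringHom.comp
        (approxPhi (X : Fin d → MvPowerSeries (Fin d) L) c)) (β ∘ a) F =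
          β (MvPolynomial.eval₂ (approxIota L (d + 1)) a F) := by
      intro F
      rw [hα, MvPolynomial.eval₂_comp_left]
    obtain ⟨a0, W, U, u, hW, hU, hDW, hG⟩ := weier_data
      (approxPhi (X : Fin d → MvPowerSeries (Fin d) L) c) (β ∘ a) (D * MvPolynomial.X 0) fs N
      (by rw [hev]; exact hc α.toRingHom h1 h2 h3) (fun f hf => by rw [hev, hfs f hf, map_zero])
    choose! G hG using hG
    obtain ⟨p, hp, K, _, _, Ω, _, j, τ, hj, hT, hξ, -⟩ := ih
      (insert u (W.coeffs ∪ U.coeffs ∪ Finset.univ.biUnion (fun i => (a0 i).coeffs) ∪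
        fs.biUnion fun f => (G f).coeffs)) 1 one_ne_zero
    choose ξ hξj hξτ using hξ
    have hφ : (Polynomial.mapRingHom j).comp (approxPhi ξ c) = approxPhi X c := by
      rw [approxPhi_map]; congr 1; exact funext hξj
    obtain ⟨a1, W1, U1, u1, hW1, hU1, hD1, hG1⟩ := approx_lift j hj (approxPhi ξ c) a0 W U u
      (D * MvPolynomial.X 0) fs G N hW hU (by rw [hφ]; exact hDW) (by rw [hφ]; exact hG)
      (fun i => approx_lifts_of j hT fun t ht => by
        simp only [Finset.mem_insert, Finset.mem_union, Finset.mem_biUnion]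
        exact Or.inr (Or.inl (Or.inr ⟨i, Finset.mem_univ _, ht⟩)))
      (approx_lifts_of j hT fun t ht => by simp [ht])
      (approx_lifts_of j hT fun t ht => by simp [ht]) (hT u (by simp))
      (fun f hf => approx_lifts_of j hT fun t ht => by
        simp only [Finset.mem_insert, Finset.mem_union, Finset.mem_biUnion]
        exact Or.inr (Or.inr ⟨f, hf, ht⟩))
    obtain ⟨αK, -, -, -, hαK⟩ := approx_shear K c
    set βK := αK.trans (finSuccEquiv K d).toRingEquiv with hβK
    haveI : IsDomain (MvPowerSeries (Fin d) K) := NoZeroDivisors.to_isDomain _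
    let ψ : Polynomial Ω →+* PowerSeries (MvPowerSeries (Fin d) K) :=
      Polynomial.coeToPowerSeries.ringHom.comp (Polynomial.mapRingHom τ)
    have hψ : ψ.comp (approxPhi ξ c) = βK.toRingHom.comp (approxIota K (d + 1)) := by
      rw [← hαK, RingHom.comp_assoc, approxPhi_map]; congr 2; exact funext hξτ
    have hevK : ∀ F, MvPolynomial.eval₂ (ψ.comp (approxPhi ξ c)) (ψ ∘ a1) F =
        ψ (MvPolynomial.eval₂ (approxPhi ξ c) a1 F) := fun F =>
      (MvPolynomial.eval₂_comp_left _ _ _ _).symm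
    have hUu : IsUnit (ψ U1) := by
      rw [PowerSeries.isUnit_iff_constantCoeff]
      refine IsUnit.of_mul_eq_one (τ u1) ?_
      have h4 : PowerSeries.constantCoeff (ψ U1) = τ (U1.coeff 0) := by
        rw [← PowerSeries.coeff_zero_eq_constantCoeff_apply]
        exact (Polynomial.coeff_coe _ _).trans (Polynomial.coeff_map _ _)
      rw [h4, ← map_mul, hU1, map_one]
    have hWne : ψ W1 ≠ 0 := by
      intro h
      have h4 : ((W1.map τ : Polynomial _) : PowerSeries (MvPowerSeries (Fin d) K)) = 0 := h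
      exact (hW1.map τ).ne_zero (Polynomial.coe_eq_zero_iff.1 h4)
    have hE : MvPolynomial.eval₂ (ψ.comp (approxPhi ξ c)) (ψ ∘ a1) D * ψ (a1 0) =
        ψ W1 * ψ U1 := by
      have h4 := hevK (D * MvPolynomial.X 0)
      rwa [MvPolynomial.eval₂_mul, MvPolynomial.eval₂_X, hD1, map_mul] at h4
    have hE0 : ψ W1 * ψ U1 ≠ 0 := mul_ne_zero hWne hUu.ne_zero
    obtain ⟨b', hb', hrel⟩ := hsm (PowerSeries (MvPowerSeries (Fin d) K))
      (Ideal.span {PowerSeries.X}) (ψ.comp (approxPhi ξ c)) (ψ ∘ a1) (ψ W1 * ψ U1) hE0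
      ⟨_, hE.symm⟩ (fun f hf => by
        obtain ⟨G1, h4⟩ := hG1 f hf
        obtain ⟨v, hv⟩ := hUu.exists_right_inv
        have h5 : ψ Polynomial.X = PowerSeries.X := by simp [ψ]
        rw [hevK, h4, map_mul, map_mul, map_pow, h5, Ideal.span_singleton_mul_span_singleton,
          Ideal.mem_span_singleton]
        refine ⟨v ^ N * ψ G1, ?_⟩
        calc _ = ψ W1 ^ N * (ψ U1 * v) ^ N * PowerSeries.X * ψ G1 := by rw [hv]; ring
          _ = _ := by ring)
    have hb0 : b' 0 ≠ 0 := by
      have h4 := hb' 0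
      rw [Ideal.span_singleton_mul_span_singleton, Ideal.mem_span_singleton, zero_add, pow_one,
        ← hE] at h4
      obtain ⟨w, hw⟩ := h4
      have h5 : b' 0 = ψ (a1 0) * (1 + PowerSeries.X *
          (MvPolynomial.eval₂ (ψ.comp (approxPhi ξ c)) (ψ ∘ a1) D * w)) := by
        rw [Function.comp_apply, sub_eq_iff_eq_add] at hw
        rw [hw]; ring
      rw [h5]
      refine mul_ne_zero (fun h => hE0 (by rw [← hE, h, mul_zero])) fun h => ?_
      have h6 := congrArg PowerSeries.constantCoeff h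
      simp at h6
    let ev := MvPolynomial.eval₂Hom (approxIota L (d + 1)) a
    let ev' := MvPolynomial.eval₂Hom (ψ.comp (approxPhi ξ c)) b'
    have hker : RingHom.ker ev.rangeRestrict ≤ RingHom.ker ev' := fun F hF =>
      hrel F (congrArg Subtype.val hF)
    let τ' := ev.rangeRestrict.liftOfSurjective ev.rangeRestrict_surjective ⟨ev', hker⟩
    have hτ' : ∀ F, τ' (ev.rangeRestrict F) = ev' F := fun F =>
      RingHom.liftOfSurjective_comp_apply _ _ _ F
    refine ⟨p, hp, K, inferInstance, inferInstance, ev.range, inferInstance, ev.range.subtype,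
      βK.symm.toRingHom.comp τ', Subtype.val_injective, fun t ht => ?_, fun i => ?_, ?_⟩
    · refine ⟨ev.rangeRestrict (MvPolynomial.X (T.equivFin ⟨t, ht⟩).succ), ?_⟩
      simp [ev, a]
    · refine ⟨ev.rangeRestrict (MvPolynomial.C (MvPolynomial.X i)), by simp [ev, approxIota_X], ?_⟩
      rw [RingHom.comp_apply, hτ']
      simp only [ev', MvPolynomial.eval₂Hom_C]
      rw [hψ]
      simp [approxIota_X]
    · refine ⟨ev.rangeRestrict (MvPolynomial.X 0), by simp [ev, ha0], ?_⟩
      rw [RingHom.comp_apply, hτ']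
      simpa [ev'] using hb0

end

end Vale.Agent.P202
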