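import Vale.Agent.P202.PSa

/-! Tools for the reduction to positive characteristic. -/

namespace Vale.Agent.P202

open IsLocalRing

universe u

theorem ApproxA_jacobson : IsJacobsonRing ℤ := by
  refine isJacobsonRing_iff_prime_eq.2 fun P hP => ?_
  by_cases h : P = ⊥
  · subst h
    refine le_antisymm (fun x hx => ?_) Ideal.le_jacobson
    rcases Int.isUnit_iff.1 (Ideal.mem_jacobson_bot.1 hx x) with h | h
    · have : x * x = 0 := by omega
      simpa using this
    · nlinarith [mul_self_nonneg x]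
  · haveI := IsPrime.to_maximal_ideal h
    exact Ideal.jacobson_eq_self_of_isMaximal

theorem ApproxA_hom {σ L B : Type*} [Fintype σ] [CommRing L] [CommRing B] {p : MvPolynomial σ L}
    {N : ℕ} (hp : p.IsHomogeneous N) (f : L →+* B) (t : B) (x : σ → B) :
    MvPolynomial.eval₂ f (fun i => t * x i) p = t ^ N * MvPolynomial.eval₂ f x p := by
  rw [MvPolynomial.eval₂_eq', MvPolynomial.eval₂_eq', Finset.mul_sum]
  refine Finset.sum_congr rfl fun c hc => ?_
  have h1 : ∑ i, c i = N := by
    rw [← hp (MvPolynomial.mem_support_iff.1 hc), ← Finsupp.degree_eq_sum,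
      Finsupp.degree_eq_weight_one]
    rfl
  simp only [mul_pow, Finset.prod_mul_distrib, Finset.prod_pow_eq_pow_sum, h1]
  ring

theorem ApproxA_point {L : Type*} [Field L] [CharZero L] {d : ℕ} (p : MvPolynomial (Fin (d + 1)) L)
    (hp : p ≠ 0) {N : ℕ} (hh : p.IsHomogeneous N) :
    ∃ c : Fin d → ℕ,
      MvPolynomial.eval (Fin.cons 1 fun i => (c i : L) : Fin (d + 1) → L) p ≠ 0 := by
  by_contra! H
  refine hp (MvPolynomial.funext_set (Fin.cons (Set.range fun n : ℕ => ((n : L) + 1)⁻¹)
    fun _ => Set.range (Nat.cast : ℕ → L)) (fun i => ?_) fun x hx => ?_)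
  · induction i using Fin.cases with
    | zero =>
      exact Set.infinite_range_of_injective fun a b h => by
        simpa using h
    | succ i => exact Set.infinite_range_of_injective Nat.cast_injective
  · obtain ⟨n, hn⟩ := hx 0 trivial
    choose m hm using fun i : Fin d => hx i.succ trivial
    have h0 : ((n : L) + 1) ≠ 0 := Nat.cast_add_one_ne_zero n
    have e : x = fun i => ((n : L) + 1)⁻¹ *
        (Fin.cons 1 fun i => (((n + 1) * m i : ℕ) : L) : Fin (d + 1) → L) i := by
      funext i
      induction i using Fin.cases with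
      | zero => simp [← hn]
      | succ i =>
        rw [← hm i, Fin.cons_succ]
        push_cast
        field_simp
    rw [map_zero, e, ← MvPolynomial.eval₂_id, ApproxA_hom hh, MvPolynomial.eval₂_id, H, mul_zero]

/-- a finitely generated subring of a field maps to a field of positive characteristic -/
theorem approx_field (L : Type u) [Field L] (T : Finset L) :
    ∃ (p : ℕ) (_ : Fact p.Prime) (K : Type u) (_ : Field K) (_ : CharP K p) (Ω : Type u)
      (_ : CommRing Ω) (j : Ω →+* L) (_ : Ω →+* K),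
      Function.Injective j ∧ ∀ t ∈ T, t ∈ j.range := by
  haveI := ApproxA_jacobson
  let Ω := Algebra.adjoin ℤ (T : Set L)
  haveI : Algebra.FiniteType ℤ Ω := (Subalgebra.fg_iff_finiteType _).1 (Subalgebra.fg_adjoin_finset T)
  obtain ⟨m, hm⟩ := Ideal.exists_maximal Ω
  letI : Field (Ω ⧸ m) := Ideal.Quotient.field m
  haveI : Module.Finite ℤ (Ω ⧸ m) := finite_of_finite_type_of_isJacobsonRing ℤ (Ω ⧸ m)
  obtain h | ⟨p, hp, hc⟩ := CharP.exists' (Ω ⧸ m)
  · exact absurd (isField_of_isIntegral_of_isField (R := ℤ) (S := Ω ⧸ m)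
      (RingHom.injective_int _) (Field.toIsField _)) Int.not_isField
  · exact ⟨p, hp, Ω ⧸ m, inferInstance, hc, Ω, inferInstance, Ω.val.toRingHom,
      Ideal.Quotient.mk m, Subtype.val_injective,
      fun t ht => ⟨⟨t, Algebra.subset_adjoin ht⟩, rfl⟩⟩

open MvPowerSeries in
theorem exists_shear (K : Type*) [Field K] {d : ℕ} (c : Fin d → ℕ) :
    ∃ α : MvPowerSeries (Fin (d + 1)) K ≃+* MvPowerSeries (Fin (d + 1)) K,
      (∀ a, α (C a) = C a) ∧ α (X 0) = X 0 ∧ ∀ i, α (X i.succ) = X i.succ + c i • X 0 := by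
  have hX : ∀ i, (X i : MvPowerSeries (Fin (d + 1)) K) ∈ maximalIdeal _ := fun i => by
    rw [maximalIdeal_ps]; exact Ideal.subset_span ⟨i, rfl⟩
  obtain ⟨α, a1, a2⟩ := exists_ev (maximalIdeal (MvPowerSeries (Fin (d + 1)) K)) C
    (Fin.cons (X 0) fun i => X i.succ + c i • X 0 : Fin (d + 1) → _) fun i => by
      induction i using Fin.cases with
      | zero => exact hX 0
      | succ i => exact add_mem (hX _) (nsmul_mem (hX 0) _)
  obtain ⟨β, b1, b2⟩ := exists_ev (maximalIdeal (MvPowerSeries (Fin (d + 1)) K)) C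
    (Fin.cons (X 0) fun i => X i.succ - c i • X 0 : Fin (d + 1) → _) fun i => by
      induction i using Fin.cases with
      | zero => exact hX 0
      | succ i => exact sub_mem (hX _) (nsmul_mem (hX 0) _)
  have a0 : α (X 0) = X 0 := a2 0
  have b0 : β (X 0) = X 0 := b2 0
  have as : ∀ i : Fin d, α (X i.succ) = X i.succ + c i • X 0 := fun i => a2 i.succ
  have bs : ∀ i : Fin d, β (X i.succ) = X i.succ - c i • X 0 := fun i => b2 i.succ
  have h1 : ∀ i, α (β (X i)) = X i := fun i => by
    induction i using Fin.cases with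
    | zero => rw [b0, a0]
    | succ i => rw [bs, map_sub, map_nsmul, as, a0, add_sub_cancel_right]
  have h2 : ∀ i, β (α (X i)) = X i := fun i => by
    induction i using Fin.cases with
    | zero => rw [a0, b0]
    | succ i => rw [as, map_add, map_nsmul, bs, b0, sub_add_cancel]
  refine ⟨RingEquiv.ofRingHom α β ?_ ?_, a1, a0, as⟩
  · exact ev_unique (maximalIdeal _) _ _ (fun a => by simp [a1, b1]) h1
      fun i => by rw [RingHom.comp_apply, h1]; exact hX i
  · exact ev_unique (maximalIdeal _) _ _ (fun a => by simp [a1, b1]) h2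
      fun i => by rw [RingHom.comp_apply, h2]; exact hX i

open MvPowerSeries in
/-- after a linear change of variables a nonzero series is regular in the first variable -/
theorem exists_regular (L : Type*) [Field L] [CharZero L] {d : ℕ}
    (e : MvPowerSeries (Fin (d + 1)) L) (he : e ≠ 0) :
    ∃ c : Fin d → ℕ, ∀ α : MvPowerSeries (Fin (d + 1)) L →+* MvPowerSeries (Fin (d + 1)) L,
      (∀ a, α (C a) = C a) → α (X 0) = X 0 → (∀ i, α (X i.succ) = X i.succ + c i • X 0) →
      (finSuccEquiv L d (α e)).map (residue (MvPowerSeries (Fin d) L)) ≠ 0 := by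
  obtain ⟨N, p, hp, hh, hep⟩ := exists_form_ne_zero e he
  obtain ⟨c, hc⟩ := ApproxA_point p hp hh
  refine ⟨c, fun α h1 h2 h3 h0 => hc ?_⟩
  let ρ : MvPowerSeries (Fin (d + 1)) L →+* PowerSeries (ResidueField (MvPowerSeries (Fin d) L)) :=
    ((PowerSeries.map (residue (MvPowerSeries (Fin d) L))).comp
      (finSuccEquiv L d).toRingEquiv.toRingHom).comp α
  have hρ : ∀ f, ρ f = (finSuccEquiv L d (α f)).map (residue (MvPowerSeries (Fin d) L)) :=
    fun _ => rfl
  let g : L →+* ResidueField (MvPowerSeries (Fin d) L) := (residue _).comp C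
  have hC : ∀ a, ρ (C a) = PowerSeries.C (g a) := fun a => by
    rw [hρ, h1, finSuccEquiv_C, PowerSeries.map_C]; rfl
  have hX : ∀ i, ρ (X i) = PowerSeries.X * PowerSeries.C
      (g ((Fin.cons 1 fun i => (c i : L) : Fin (d + 1) → L) i)) := fun i => by
    induction i using Fin.cases with
    | zero => rw [hρ, h2, finSuccEquiv_X_zero, PowerSeries.map_X]; simp
    | succ i =>
      have h4 : residue (MvPowerSeries (Fin d) L) (X i) = 0 := by
        rw [residue_eq_zero_iff, maximalIdeal_ps]; exact Ideal.subset_span ⟨i, rfl⟩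
      rw [hρ, h3, map_add, map_nsmul, finSuccEquiv_X_zero, finSuccEquiv_X_succ, map_add,
        map_nsmul, PowerSeries.map_C, PowerSeries.map_X, h4]
      simp [mul_comm]
  have h5 : ρ p = PowerSeries.X ^ N * PowerSeries.C
      (g (MvPolynomial.eval (Fin.cons 1 fun i => (c i : L) : Fin (d + 1) → L) p)) := by
    have e1 : ρ.comp MvPolynomial.coeToMvPowerSeries.ringHom =
        MvPolynomial.eval₂Hom (PowerSeries.C.comp g) fun i => ρ (X i) :=
      MvPolynomial.ringHom_ext (fun a => by simp [hC]) fun i => by simp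
    have e2 : ρ p = _ := RingHom.congr_fun e1 p
    rw [e2, MvPolynomial.coe_eval₂Hom]
    simp only [hX]
    rw [ApproxA_hom hh]
    congr 1
    exact (MvPolynomial.eval₂_comp (PowerSeries.C.comp g) _ p).symm
  have h6 : ρ (e - p) ∈ Ideal.span {(PowerSeries.X :
      PowerSeries (ResidueField (MvPowerSeries (Fin d) L)))} ^ (N + 1) := by
    refine Ideal.pow_right_mono (I := (Ideal.span (Set.range X)).map ρ) ?_ _ ?_
    · rw [Ideal.map_span, Ideal.span_le]
      rintro _ ⟨_, ⟨i, rfl⟩, rfl⟩
      rw [hX]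
      exact Ideal.mul_mem_right _ _ (Ideal.mem_span_singleton_self _)
    · rw [← Ideal.map_pow]
      exact Ideal.mem_map_of_mem _ hep
  rw [Ideal.span_singleton_pow, Ideal.mem_span_singleton, PowerSeries.X_pow_dvd_iff] at h6
  have h7 := h6 N (Nat.lt_succ_self N)
  rw [map_sub, hρ e, h0, zero_sub, map_neg, neg_eq_zero, h5, mul_comm, PowerSeries.coeff_C_mul,
    PowerSeries.coeff_X_pow_self, mul_one] at h7
  exact (map_eq_zero_iff g g.injective).1 h7

/-- Weierstrass division turns a solution in power series into polynomial data -/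
theorem weier_data {A Λ : Type*} [CommRing A] [IsLocalRing A]
    [IsAdicComplete (maximalIdeal A) A] [CommRing Λ] (φ : Λ →+* Polynomial A) {n : ℕ}
    (a : Fin n → PowerSeries A) (D : MvPolynomial (Fin n) Λ)
    (fs : Finset (MvPolynomial (Fin n) Λ)) (N : ℕ)
    (hD : (MvPolynomial.eval₂ (Polynomial.coeToPowerSeries.ringHom.comp φ) a D).map
      (residue A) ≠ 0)
    (hf : ∀ f ∈ fs, MvPolynomial.eval₂ (Polynomial.coeToPowerSeries.ringHom.comp φ) a f = 0) :
    ∃ (a0 : Fin n → Polynomial A) (W U : Polynomial A) (u : A), W.Monic ∧ U.coeff 0 * u = 1 ∧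
      MvPolynomial.eval₂ φ a0 D = W * U ∧
      ∀ f ∈ fs, ∃ G, MvPolynomial.eval₂ φ a0 f = W ^ N * Polynomial.X * G := by
  obtain ⟨W, h, hW, hu, he⟩ := PowerSeries.exists_isWeierstrassFactorization hD
  have hpow : ∀ n : ℕ, (W ^ n * Polynomial.X).IsDistinguishedAt (maximalIdeal A) := fun n => by
    induction n with
    | zero =>
      rw [pow_zero, one_mul]
      refine ⟨⟨fun {k} hk => ?_⟩, Polynomial.monic_X⟩
      rw [Polynomial.natDegree_X, Nat.lt_one_iff] at hk
      simp [hk]
    | succ n ih => rw [pow_succ', mul_assoc]; exact hW.mul ih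
  have hinj : ∀ {g : Polynomial A}, g.IsDistinguishedAt (maximalIdeal A) → ∀ f : Polynomial A,
      (f : PowerSeries A) ∈ Ideal.span {(g : PowerSeries A)} → g ∣ f := fun {g} hg f hf => by
    rw [← Ideal.mem_span_singleton, ← Ideal.Quotient.eq_zero_iff_mem,
      ← map_eq_zero_iff _ hg.algEquivQuotient.injective]
    exact Ideal.Quotient.eq_zero_iff_mem.2 hf
  set g := W ^ (N + 1) * Polynomial.X with hg
  have hsurj : ∀ i, ∃ b : Polynomial A, Ideal.Quotient.mk (Ideal.span {(g : PowerSeries A)}) b =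
      Ideal.Quotient.mk _ (a i) := fun i => by
    obtain ⟨b, hb⟩ := (hpow (N + 1)).algEquivQuotient.surjective (Ideal.Quotient.mk _ (a i))
    obtain ⟨b, rfl⟩ := Ideal.Quotient.mk_surjective b
    exact ⟨b, hb⟩
  choose a0 ha0 using hsurj
  have key : ∀ F, ((MvPolynomial.eval₂ φ a0 F : Polynomial A) : PowerSeries A) -
      MvPolynomial.eval₂ (Polynomial.coeToPowerSeries.ringHom.comp φ) a F ∈
        Ideal.span {(g : PowerSeries A)} := fun F => by
    rw [← Ideal.Quotient.eq, MvPolynomial.eval₂_comp_left]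
    refine (MvPolynomial.eval₂_comp_left ((Ideal.Quotient.mk (Ideal.span {(g : PowerSeries A)})).comp
      Polynomial.coeToPowerSeries.ringHom) φ a0 F).trans ?_
    congr 1
    exact funext ha0
  obtain ⟨q, hq⟩ := Ideal.mem_span_singleton.1 (key D)
  have e1 : ((MvPolynomial.eval₂ φ a0 D : Polynomial A) : PowerSeries A) =
      (W : PowerSeries A) * (h + PowerSeries.X * ((W : PowerSeries A) ^ N * q)) := by
    rw [eq_add_of_sub_eq hq, he, hg]
    push_cast
    ring
  obtain ⟨U, hU⟩ := hinj hW _ (Ideal.mem_span_singleton.2 ⟨_, e1⟩)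
  have e2 : (U : PowerSeries A) - (h + PowerSeries.X * ((W : PowerSeries A) ^ N * q)) = 0 := by
    refine (hW.isWeierstrassDivisorAt'.eq_zero_of_mul_eq (r := 0) ?_ ?_).1
    · rw [Polynomial.degree_zero]; exact WithBot.bot_lt_coe _
    · rw [mul_sub, ← e1, hU]; simp
  obtain ⟨u, hu'⟩ := (hu.map PowerSeries.constantCoeff).exists_right_inv
  refine ⟨a0, W, U, u, hW.monic, ?_, hU, fun f hfs => ?_⟩
  · rw [← hu', ← Polynomial.constantCoeff_coe, sub_eq_zero.1 e2]
    simp
  · have := key f
    rw [hf f hfs, sub_zero] at this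
    obtain ⟨G, hG⟩ := hinj (hpow (N + 1)) _ this
    exact ⟨W * G, by rw [hG]; ring⟩

instance complete_X (A : Type*) [CommRing A] :
    IsAdicComplete (Ideal.span {(PowerSeries.X : PowerSeries A)}) (PowerSeries A) := by
  infer_instance

end Vale.Agent.P202
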