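import Vale.Agent.P202.Red
import Vale.Agent.P202.Defs3

/-! Cohen-Macaulay rings. -/

namespace Vale.Agent.P202

open IsLocalRing

variable {B : Type*} [CommRing B] [IsLocalRing B] [IsNoetherianRing B]

omit [IsLocalRing B] [IsNoetherianRing B] in
theorem cm_mem_sup {q : Ideal B} {a x : B} : x ∈ q ⊔ Ideal.span {a} ↔ ∃ y, x - a * y ∈ q := by
  constructor
  · intro h
    obtain ⟨z, hz, w, hw, rfl⟩ := Submodule.mem_sup.1 h
    obtain ⟨y, rfl⟩ := Ideal.mem_span_singleton.1 hw
    exact ⟨y, by simpa using hz⟩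
  · rintro ⟨y, hy⟩
    rw [← sub_add_cancel x (a * y)]
    exact add_mem (Ideal.mem_sup_left hy)
      (Ideal.mem_sup_right (Ideal.mul_mem_right _ _ (Ideal.mem_span_singleton_self _)))

omit [IsLocalRing B] [IsNoetherianRing B] in
theorem cm_mem_colon {q : Ideal B} {a x : B} : a ∈ q.colon {x} ↔ a * x ∈ q :=
  Submodule.mem_colon_singleton

omit [IsLocalRing B] in
theorem cm_ass {q : Ideal B} {x : B} (hx : x ∉ q) :
    ∃ z, (q.colon {z}).IsPrime ∧ q.colon {x} ≤ q.colon {z} := by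
  obtain ⟨_, ⟨z, hz, l, rfl⟩, h3⟩ := set_has_maximal_iff_noetherian.mpr ‹IsNoetherianRing B›
    {I : Ideal B | ∃ z, z ∉ q ∧ q.colon {x} ≤ q.colon {z} ∧ I = q.colon {z}} ⟨_, x, hx, le_rfl, rfl⟩
  refine ⟨z, ⟨fun e => hz ?_, fun {a b} hab => ?_⟩, l⟩
  · simpa using cm_mem_colon.1 ((Ideal.eq_top_iff_one _).1 e)
  · rw [or_iff_not_imp_right]
    intro hb
    have H : q.colon {z} ≤ q.colon {b * z} := fun c hc => by
      rw [cm_mem_colon] at hc ⊢
      rw [mul_left_comm]; exact q.mul_mem_left _ hc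
    rw [H.eq_of_not_lt (h3 _ ⟨_, mt cm_mem_colon.2 hb, l.trans H, rfl⟩), cm_mem_colon, ← mul_assoc]
    exact cm_mem_colon.1 hab

theorem cm_prim {q : Ideal B} {a z : B} (ha : a ∈ maximalIdeal B) (hr : RegMod q a) (hz : z ∉ q) :
    ∃ z', z' ∉ q ⊔ Ideal.span {a} ∧ q.colon {z'} = q.colon {z} := by
  obtain ⟨_, ⟨y, hy, rfl⟩, h3⟩ := set_has_maximal_iff_noetherian.mpr ‹IsNoetherianRing B›
    {I : Ideal B | ∃ y, q.colon {y} = q.colon {z} ∧ I = q ⊔ Ideal.span {y}} ⟨_, z, rfl, rfl⟩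
  refine ⟨y, fun h => ?_, hy⟩
  obtain ⟨y', h'⟩ := cm_mem_sup.1 h
  have e : q.colon {y'} = q.colon {y} := by
    ext c
    rw [cm_mem_colon, cm_mem_colon]
    have := q.mul_mem_left c h'
    constructor
    · intro hc
      convert add_mem this (q.mul_mem_left a hc) using 1
      ring
    · intro hc
      refine hr _ ?_
      convert sub_mem hc this using 1
      ring
  have H : q ⊔ Ideal.span {y} ≤ q ⊔ Ideal.span {y'} :=
    sup_le le_sup_left ((Ideal.span_singleton_le_iff_mem _).2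
      (cm_mem_sup.2 ⟨a, by rwa [mul_comm]⟩))
  have := H.eq_of_not_lt (h3 _ ⟨y', e.trans hy, rfl⟩)
  obtain ⟨c, hc⟩ := cm_mem_sup.1
    (this ▸ Ideal.mem_sup_right (Ideal.mem_span_singleton_self y') : y' ∈ q ⊔ Ideal.span {y})
  have u : IsUnit (1 - c * a) :=
    isUnit_one_sub_self_of_mem_nonunits _ (Ideal.mul_mem_left _ c ha)
  have h1 : y' ∈ q := (Ideal.unit_mul_mem_iff_mem _ u).1 (by
    convert add_mem hc (q.mul_mem_left c h') using 1
    ring)
  have h2 : (1 : B) ∈ q.colon {z} := by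
    rw [← hy, ← e, cm_mem_colon, one_mul]; exact h1
  exact hz (by simpa using cm_mem_colon.1 h2)

theorem cm_avoid {q q' : Ideal B} (h : ∀ x, maximalIdeal B ≤ q.colon {x} → x ∈ q)
    (h' : ∀ x, maximalIdeal B ≤ q'.colon {x} → x ∈ q') :
    ∃ c ∈ maximalIdeal B, RegMod q c ∧ RegMod q' c := by
  by_contra! H
  obtain ⟨Q, hQ, hm⟩ : ∃ Q ∈ associatedPrimes B ((B ⧸ q) × (B ⧸ q')), maximalIdeal B ≤ Q := by
    refine (Ideal.subset_union_prime_finite (associatedPrimes.finite B _) (f := id) 0 0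
      fun _ h _ _ => h.1).1 fun c hc => ?_
    simp only [id]
    rw [biUnion_associatedPrimes_eq_zero_divisors]
    have key : ∀ I : Ideal B, ¬ RegMod I c → ∃ x : B ⧸ I, x ≠ 0 ∧ c • x = 0 := fun I hI => by
      simp only [RegMod, not_forall] at hI
      obtain ⟨b, h1, h2⟩ := hI
      exact ⟨Ideal.Quotient.mk I b, mt Ideal.Quotient.eq_zero_iff_mem.1 h2,
        Ideal.Quotient.eq_zero_iff_mem.2 h1⟩
    by_cases e : RegMod q c
    · obtain ⟨x, h1, h2⟩ := key _ (H c hc e)
      exact ⟨(0, x), by simpa using h1, by simpa using h2⟩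
    · obtain ⟨x, h1, h2⟩ := key _ e
      exact ⟨(x, 0), by simpa using h1, by simpa using h2⟩
  rw [AssociatedPrimes.mem_iff, isAssociatedPrime_iff] at hQ
  obtain ⟨hp, ⟨x, y⟩, rfl⟩ := hQ
  obtain ⟨x, rfl⟩ := Ideal.Quotient.mk_surjective x
  obtain ⟨y, rfl⟩ := Ideal.Quotient.mk_surjective y
  have e : ∀ c ∈ maximalIdeal B, c * x ∈ q ∧ c * y ∈ q' := fun c hc => by
    have := Submodule.mem_colon_singleton.1 (hm hc)
    rw [Submodule.mem_bot, Prod.smul_mk, Prod.mk_eq_zero] at this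
    exact ⟨Ideal.Quotient.eq_zero_iff_mem.1 this.1, Ideal.Quotient.eq_zero_iff_mem.1 this.2⟩
  apply hp.ne_top
  rw [Ideal.Quotient.eq_zero_iff_mem.2 (h x fun c hc => cm_mem_colon.2 (e c hc).1),
    Ideal.Quotient.eq_zero_iff_mem.2 (h' y fun c hc => cm_mem_colon.2 (e c hc).2)]
  simp [Ideal.eq_top_iff_one]

omit [IsLocalRing B] [IsNoetherianRing B] in
theorem cm_swap {q : Ideal B} {a c : B} (ha : RegMod q a) (hc : RegMod (q ⊔ Ideal.span {a}) c) :
    RegMod (q ⊔ Ideal.span {c}) a := fun y hy => by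
  obtain ⟨w, hw⟩ := cm_mem_sup.1 hy
  obtain ⟨w', hw'⟩ := cm_mem_sup.1 (hc w (cm_mem_sup.2 ⟨y, by simpa using neg_mem hw⟩))
  refine cm_mem_sup.2 ⟨w', ha _ ?_⟩
  convert add_mem hw (q.mul_mem_left c hw') using 1
  ring

theorem cm_quot (n : ℕ) : ∀ {q : Ideal B} (l : List B), l.length = n + 1 →
    (∀ a ∈ l, a ∈ maximalIdeal B) → RegSeq q l → ∀ {b : B}, b ∈ maximalIdeal B → RegMod q b →
    ∃ l' : List B, l'.length = n ∧ (∀ a ∈ l', a ∈ maximalIdeal B) ∧
      RegSeq (q ⊔ Ideal.span {b}) l' := by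
  induction n with
  | zero => exact fun _ _ _ _ _ _ _ => ⟨[], rfl, by simp, trivial⟩
  | succ n ih =>
    intro q l hl hm hr b hb hreg
    match l, hl with
    | a1 :: a2 :: l, hl =>
      have m1 := hm a1 (by simp)
      have m2 := hm a2 (by simp)
      obtain ⟨c, hc, c1, c2⟩ := cm_avoid (q := q ⊔ Ideal.span {b}) (q' := q ⊔ Ideal.span {a1})
        (fun x hx => by
          obtain ⟨y, hy⟩ := cm_mem_sup.1 (cm_mem_colon.1 (hx m1))
          obtain ⟨w, hw⟩ := cm_mem_sup.1 (cm_mem_colon.1 (hx m2))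
          obtain ⟨y', hy'⟩ := cm_mem_sup.1 (hr.2.1 y (cm_mem_sup.2 ⟨w, hreg _ (by
            convert sub_mem (q.mul_mem_left a1 hw) (q.mul_mem_left a2 hy) using 1
            ring)⟩))
          refine cm_mem_sup.2 ⟨y', hr.1 _ ?_⟩
          convert add_mem hy (q.mul_mem_left b hy') using 1
          ring) fun x hx => hr.2.1 x (cm_mem_colon.1 (hx m2))
      obtain ⟨l1, e1, k1, r1⟩ := ih (a2 :: l) (by simpa using hl)
        (fun a ha => hm a (List.mem_cons_of_mem _ ha)) hr.2 hc c2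
      obtain ⟨l2, e2, k2, r2⟩ := ih (q := q ⊔ Ideal.span {c}) (a1 :: l1) (by simpa using e1)
        (List.forall_mem_cons.2 ⟨m1, k1⟩) ⟨cm_swap hr.1 c2, by rwa [sup_right_comm]⟩ hb (cm_swap hreg c1)
      exact ⟨c :: l2, by simpa using e2, List.forall_mem_cons.2 ⟨hc, k2⟩, c1, by rwa [sup_right_comm]⟩

/-- associated primes have dimension at least the depth -/
theorem le_of_regSeq {q : Ideal B} (l : List B) (hm : ∀ a ∈ l, a ∈ maximalIdeal B)
    (hr : RegSeq q l) {x : B} (hx : x ∉ q) {W : Ideal B} {u : ℕ} (hW : Gen W u)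
    (hWm : W ≤ maximalIdeal B) (hp : Prim (q.colon {x} ⊔ W)) : l.length ≤ u := by
  induction l generalizing q x W u with
  | nil => simp
  | cons a l ih =>
    have ha := hm a (by simp)
    obtain ⟨z, hz, l1⟩ := cm_ass hx
    have hzq : z ∉ q := fun e => hz.ne_top ((Ideal.eq_top_iff_one _).2
      (cm_mem_colon.2 (by rwa [one_mul])))
    obtain ⟨z', h1, h2⟩ := cm_prim ha hr.1 hzq
    have ha' : a ∉ q.colon {z} := fun e => hzq (hr.1 _ (cm_mem_colon.1 e))
    have hp' := hp.mono (sup_le_sup_right l1 W)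
    rcases u with _ | d
    · obtain ⟨w, rfl⟩ := hW
      obtain ⟨c, hc⟩ := hp'
      rw [Set.range_eq_empty, Ideal.span_empty, sup_bot_eq] at hc
      exact (ha' (hz.mem_of_pow_mem c (hc (Ideal.pow_mem_pow ha c)))).elim
    · obtain ⟨W', g1, g2, g3⟩ := exists_sop_of_lt (p' := q.colon {z} ⊔ Ideal.span {a})
        (ne_top_of_le_ne_top (maximalIdeal.isMaximal B).ne_top (sup_le
          (le_maximalIdeal hz.ne_top) ((Ideal.span_singleton_le_iff_mem _).2 ha)))
        (left_lt_sup.2 fun e => ha' ((Ideal.span_singleton_le_iff_mem _).1 e)) hW hWm hp'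
      refine Nat.succ_le_succ (ih (fun b hb => hm b (List.mem_cons_of_mem _ hb)) hr.2 h1 g1 g2
        (g3.mono (sup_le_sup_right (sup_le ?_ ?_) _)))
      · rw [← h2]; exact fun c hc => cm_mem_colon.2 (Ideal.mem_sup_left (cm_mem_colon.1 hc))
      · exact (Ideal.span_singleton_le_iff_mem _).2 (cm_mem_colon.2 (Ideal.mem_sup_right
          (Ideal.mul_mem_right _ _ (Ideal.mem_span_singleton_self _))))

/-- the depth drops by at most one modulo a regular element -/
theorem exists_regSeq_quot {q : Ideal B} (l : List B) (hm : ∀ a ∈ l, a ∈ maximalIdeal B)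
    (hr : RegSeq q l) {b : B} (hb : b ∈ maximalIdeal B) (hreg : RegMod q b) :
    ∃ l' : List B, l'.length = l.length - 1 ∧ (∀ a ∈ l', a ∈ maximalIdeal B) ∧
      RegSeq (q ⊔ Ideal.span {b}) l' := by
  rcases l with _ | ⟨a, l⟩
  · exact ⟨[], rfl, by simp, trivial⟩
  · exact cm_quot l.length (a :: l) rfl hm hr hb hreg

theorem regSeq_of_prim {q : Ideal B} (l l' : List B) (hm : ∀ a ∈ l, a ∈ maximalIdeal B)
    (hr : RegSeq q l) (hm' : ∀ a ∈ l', a ∈ maximalIdeal B) (hp : Prim (q ⊔ Ideal.ofList l'))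
    (hl : l'.length = l.length) : RegSeq q l' := by
  induction l' generalizing q l with
  | nil => trivial
  | cons b l' ih =>
    have hb := hm' b (by simp)
    have hm2 : ∀ a ∈ l', a ∈ maximalIdeal B := fun a ha => hm' a (List.mem_cons_of_mem _ ha)
    have hreg : RegMod q b := fun x hx => by
      by_contra e
      have := le_of_regSeq l hm hr e (gen_ofList l') (Ideal.span_le.2 hm2) (hp.mono (by
        rw [Ideal.ofList_cons, ← sup_assoc]
        exact sup_le_sup_right (sup_le (fun c hc => cm_mem_colon.2 (q.mul_mem_right _ hc))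
          ((Ideal.span_singleton_le_iff_mem _).2 (cm_mem_colon.2 hx))) _))
      rw [← hl, List.length_cons] at this
      omega
    obtain ⟨l1, e1, k1, r1⟩ := exists_regSeq_quot l hm hr hb hreg
    exact ⟨hreg, ih l1 k1 r1 hm2 (by rwa [Ideal.ofList_cons, ← sup_assoc] at hp)
      (by rw [e1, ← hl]; rfl)⟩

theorem isCM_of_regSeq (l : List B) (hm : ∀ a ∈ l, a ∈ maximalIdeal B) (hr : RegSeq ⊥ l) :
    IsCM B l.length := by
  exact fun l' hl hm' hp => regSeq_of_prim l l' hm hr hm' (by rwa [bot_sup_eq]) hl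

omit [IsLocalRing B] [IsNoetherianRing B] in
theorem regSeq_append {q : Ideal B} (l l' : List B) :
    RegSeq q (l ++ l') ↔ RegSeq q l ∧ RegSeq (q ⊔ Ideal.ofList l) l' := by
  induction l generalizing q with
  | nil => simp [RegSeq]
  | cons a l ih => simp only [List.cons_append, RegSeq, ih, Ideal.ofList_cons, sup_assoc, and_assoc]

omit [IsLocalRing B] [IsNoetherianRing B] in
theorem cm_regSeq_map {P : Type*} [CommRing P] (π : B →+* P) (hπ : Function.Surjective π)
    (l : List B) {I : Ideal P} (h : RegSeq (I.comap π) l) : RegSeq I (l.map π) := by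
  induction l generalizing I with
  | nil => trivial
  | cons a l ih =>
    refine ⟨fun b hb => ?_, ih ?_⟩
    · obtain ⟨b, rfl⟩ := hπ b
      exact h.1 b (by rwa [Ideal.mem_comap, map_mul])
    · convert h.2 using 1
      ext x
      rw [Ideal.mem_comap, cm_mem_sup, cm_mem_sup, hπ.exists]
      simp only [Ideal.mem_comap, map_sub, map_mul]

omit [IsNoetherianRing B] in
theorem IsCM.quot {D : ℕ} (l : List B) (h : IsCM B (l.length + D))
    (hm : ∀ a ∈ l, a ∈ maximalIdeal B) {P : Type*} [CommRing P] [IsLocalRing P] (π : B →+* P)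
    (hπ : Function.Surjective π) (hk : RingHom.ker π = Ideal.ofList l) : IsCM P D := by
  intro l' hl hm' hp
  obtain ⟨l2, rfl⟩ := hπ.list_map l'
  have m2 : ∀ a ∈ l2, a ∈ maximalIdeal B := fun a ha => by
    by_contra e
    exact hm' _ (List.mem_map_of_mem ha) ((notMem_maximalIdeal.1 e).map π)
  have := h (l ++ l2) (by simpa using hl) (fun a ha => (List.mem_append.1 ha).elim (hm a) (m2 a)) (by
    obtain ⟨c, hc⟩ := hp
    refine ⟨c, ?_⟩
    rw [← map_maximalIdeal_of_surjective π hπ, ← Ideal.map_pow, ← Ideal.map_ofList,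
      Ideal.map_le_iff_le_comap, Ideal.comap_map_of_surjective π hπ, ← RingHom.ker_eq_comap_bot,
      hk] at hc
    rwa [Ideal.ofList_append, sup_comm])
  refine cm_regSeq_map π hπ l2 ?_
  rw [← RingHom.ker_eq_comap_bot, hk]
  simpa using ((regSeq_append _ _).1 this).2

omit [IsNoetherianRing B] in
theorem IsCM.regMod (l : List B) (h : IsCM B (l.length + 1)) (hm : ∀ a ∈ l, a ∈ maximalIdeal B)
    {w : B} (hw : w ∈ maximalIdeal B) (hp : Prim (Ideal.ofList l ⊔ Ideal.span {w})) :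
    RegMod (Ideal.ofList l) w := by
  have := h (l ++ [w]) (by simp) (fun a ha => (List.mem_append.1 ha).elim (hm a)
    fun e => List.mem_singleton.1 e ▸ hw)
    (by rwa [Ideal.ofList_append, Ideal.ofList_singleton])
  simpa using ((regSeq_append _ _).1 this).2.1

omit [IsLocalRing B] [IsNoetherianRing B] in
theorem RegMod.pow {q : Ideal B} {w : B} (h : RegMod q w) (j : ℕ) : RegMod q (w ^ j) := by
  induction j with
  | zero => exact fun b hb => by simpa using hb
  | succ j ih => exact fun b hb => h b (ih _ (by rwa [← mul_assoc, ← pow_succ]))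

omit [IsLocalRing B] [IsNoetherianRing B] in
theorem RegMod.rl_pow {q : Ideal B} {w : B} (h : RegMod q w) (j : ℕ) :
    rl (q ⊔ Ideal.span {w ^ j}) (⊤ : Ideal B) = j * rl (q ⊔ Ideal.span {w}) (⊤ : Ideal B) := by
  induction j with
  | zero => simp [rl_self]
  | succ j ih =>
    have l : q ⊔ Ideal.span {w ^ (j + 1)} ≤ q ⊔ Ideal.span {w ^ j} := sup_le_sup_left
      (Ideal.span_singleton_le_span_singleton.2 (pow_dvd_pow _ (Nat.le_succ j))) _
    rw [rl_add l le_top, ih, Nat.cast_succ, add_mul, one_mul, add_comm]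
    congr 1
    refine rl_eq_of_map (LinearMap.toSpanSingleton B B (w ^ j)) (fun x _ => Ideal.mem_sup_left
      (Ideal.mem_sup_right (Ideal.mul_mem_left _ _ (Ideal.mem_span_singleton_self _))))
      (fun y hy => ?_) fun x _ => ?_
    · obtain ⟨z, hz⟩ := cm_mem_sup.1 hy
      exact ⟨z, trivial, Ideal.mem_sup_left (by simpa [mul_comm] using hz)⟩
    · rw [cm_mem_sup, cm_mem_sup]
      refine exists_congr fun y => ?_
      have e : LinearMap.toSpanSingleton B B (w ^ j) x - w ^ (j + 1) * y = w ^ j * (x - w * y) := by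
        simp; ring
      rw [e]
      exact ⟨h.pow j _, q.mul_mem_left _⟩

omit [IsLocalRing B] [IsNoetherianRing B] in
theorem cm_ofList_ofFn {d : ℕ} (w : Fin d → B) :
    Ideal.ofList (List.ofFn w) = Ideal.span (Set.range w) := by
  exact congrArg Ideal.span (Set.ext fun x => List.mem_ofFn)

/-- flatness over a regular ring -/
theorem IsCM.cp {T : Type*} [CommRing T] [IsLocalRing T] [IsNoetherianRing T] {D : ℕ}
    (h : IsCM B D) (hT : Gen (maximalIdeal T) D) (f : T →+* B)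
    (hf : (maximalIdeal T).map f ≤ maximalIdeal B) (hp : Prim ((maximalIdeal T).map f)) :
    CP f ⊥ ⊥ := by
  obtain ⟨w, hw⟩ := hT
  rw [← cm_ofList_ofFn] at hw
  refine CP.of_regSeq hf (List.ofFn w) (by rwa [bot_sup_eq]) ?_
  rw [Ideal.map_bot, bot_sup_eq]
  rw [hw, Ideal.map_ofList] at hp hf
  exact h _ (by simp) (fun a ha => hf (Ideal.subset_span ha)) hp

/-- a root of a parameter has small colength -/
theorem IsCM.cl_root {T : Type*} [CommRing T] [IsLocalRing T] [IsNoetherianRing T] {s : ℕ}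
    (h : IsCM B (s + 1)) (hT : Gen (maximalIdeal T) (s + 1)) (f : T →+* B)
    (hf : (maximalIdeal T).map f ≤ maximalIdeal B) (hp : Prim ((maximalIdeal T).map f))
    {g : T} (hg : g ∈ maximalIdeal T) {W : Ideal T} (hW : Gen W s) (hWm : W ≤ maximalIdeal T)
    (hWp : Prim (Ideal.span {g} ⊔ W)) {r : B} {m : ℕ} (hr : r ^ m = f g) :
    m * cl (W.map f ⊔ Ideal.span {r}) =
      cl ((maximalIdeal T).map f) * cl (Ideal.span {g} ⊔ W) := by
  have m0 : m ≠ 0 := by
    rintro rfl
    have := hf (Ideal.mem_map_of_mem f hg)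
    rw [← hr, pow_zero] at this
    exact (maximalIdeal.isMaximal B).ne_top ((Ideal.eq_top_iff_one _).2 this)
  have hrm : r ∈ maximalIdeal B := (maximalIdeal.isMaximal B).isPrime.mem_of_pow_mem m
    (hr ▸ hf (Ideal.mem_map_of_mem f hg))
  have e : (Ideal.span {g} ⊔ W).map f = W.map f ⊔ Ideal.span {r ^ m} := by
    rw [Ideal.map_sup, Ideal.map_span, Set.image_singleton, hr, sup_comm]
  have p1 : Prim (⊥ ⊔ (Ideal.span {g} ⊔ W).map f) := Prim.map (by rwa [bot_sup_eq]) hWp
  rw [bot_sup_eq, e] at p1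
  have hreg : RegMod (W.map f) r := by
    obtain ⟨w, hw⟩ := hW
    rw [← cm_ofList_ofFn] at hw
    have l1 := (Ideal.map_mono (f := f) hWm).trans hf
    rw [hw, Ideal.map_ofList] at p1 l1 ⊢
    exact IsCM.regMod _ (by simpa using h) (fun a ha => l1 (Ideal.subset_span ha)) hrm (p1.mono
      (sup_le_sup_left (Ideal.span_singleton_le_span_singleton.2 (dvd_pow_self r m0)) _))
  have h1 := (h.cp hT f hf hp).rl_map bot_le (rl_ne_top_of_prim hWp)
  rw [sup_bot_eq, sup_bot_eq, e, hreg.rl_pow] at h1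
  have h2 := congrArg ENat.toNat h1
  rw [ENat.toNat_mul, ENat.toNat_mul, ENat.toNat_coe] at h2
  unfold cl
  rw [mul_comm ((rl ((maximalIdeal T).map f) ⊤).toNat : ℝ)]
  exact_mod_cast h2

end Vale.Agent.P202
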