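import Vale.Agent.P202.CM
import Vale.Agent.P202.Small

/-! Monomial ideals in a system of parameters of a Cohen-Macaulay ring. -/

namespace Vale.Agent.P202

open IsLocalRing

variable {B : Type*} [CommRing B] [IsLocalRing B] {s : ℕ} {y : Fin (s + 1) → B}

theorem cmb_prim {ι : Type*} [Finite ι] {y : ι → B} (hp : Prim (Ideal.span (Set.range y)))
    {I : Ideal B} (h : ∀ t, y t ∈ I.radical) : Prim I := by
  obtain ⟨c, hc⟩ := hp
  obtain ⟨n, hn⟩ := Ideal.exists_pow_le_of_le_radical_of_fg (I := Ideal.span (Set.range y)) (J := I)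
    (Ideal.span_le.2 (by rintro _ ⟨t, rfl⟩; exact h t)) (Submodule.fg_span (Set.finite_range y))
  exact ⟨c * n, by rw [pow_mul]; exact (Ideal.pow_right_mono hc n).trans hn⟩

omit [IsLocalRing B] in
theorem cmb_pw (y : Fin (s + 1) → B) (a : Fin (s + 1) → ℕ) (j : Fin (s + 1)) :
    pw y a = Ideal.ofList (List.ofFn fun i => y (j.succAbove i) ^ a (j.succAbove i)) ⊔
      Ideal.span {y j ^ a j} := by
  rw [cm_ofList_ofFn, sup_comm, ← Ideal.span_insert, pw]
  congr 1
  ext x
  simp only [Set.mem_range, Set.mem_insert_iff]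
  rw [Fin.exists_iff_succAbove j, eq_comm]

theorem IsCM.pw_colon (h : IsCM B (s + 1)) (hy : ∀ t, y t ∈ maximalIdeal B)
    (hp : Prim (Ideal.span (Set.range y))) (a : Fin (s + 1) → ℕ) (j : Fin (s + 1)) (m : ℕ) (v : B)
    (hv : y j ^ m * v ∈ pw y (a + Pi.single j m)) : v ∈ pw y a := by
  by_cases h0 : ∃ t, a t = 0
  · obtain ⟨t, ht⟩ := h0
    rw [← mul_one v]
    exact Ideal.mul_mem_left _ _ (Ideal.subset_span ⟨t, by simp [ht]⟩)
  push Not at h0
  have hr : RegMod (Ideal.ofList (List.ofFn fun i => y (j.succAbove i) ^ a (j.succAbove i)))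
      (y j) := IsCM.regMod _ (by simpa using h) (fun x hx => by
        obtain ⟨i, rfl⟩ := List.mem_ofFn.1 hx
        exact Ideal.pow_mem_of_mem _ (hy _) _ (Nat.pos_of_ne_zero (h0 _))) (hy j)
    (cmb_prim hp (j.forall_iff_succAbove.2 ⟨Ideal.le_radical (Ideal.mem_sup_right
      (Ideal.mem_span_singleton_self _)), fun i => ⟨a (j.succAbove i), Ideal.mem_sup_left
        (Ideal.subset_span (List.mem_ofFn.2 ⟨i, rfl⟩))⟩⟩))
  rw [cmb_pw _ _ j, cm_mem_sup] at hv ⊢
  simp only [Pi.add_apply, Pi.single_eq_same, Pi.single_eq_of_ne (Fin.succAbove_ne j _),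
    add_zero] at hv
  obtain ⟨w, hw⟩ := hv
  refine ⟨w, hr.pow m _ ?_⟩
  convert hw using 1
  ring

theorem IsCM.mon_colon (h : IsCM B (s + 1)) (hy : ∀ t, y t ∈ maximalIdeal B)
    (hp : Prim (Ideal.span (Set.range y))) (α : Fin (s + 1) → ℕ) (v : B)
    (hv : (∏ t, y t ^ α t) * v ∈ pw y (α + 1)) : v ∈ Ideal.span (Set.range y) := by
  have key : ∀ (S : Finset (Fin (s + 1))), (∏ t ∈ S, y t ^ α t) * v ∈
      pw y (fun t => if t ∈ S then α t + 1 else 1) → v ∈ Ideal.span (Set.range y) := by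
    intro S
    induction S using Finset.induction_on with
    | empty => simp [pw]
    | insert j S hj ih =>
      intro hv
      refine ih (h.pw_colon hy hp _ j (α j) _ ?_)
      rw [Finset.prod_insert hj, mul_assoc] at hv
      convert hv using 2
      funext t
      by_cases e : t = j
      · subst e; simp [hj, add_comm]
      · simp [e]
  exact key Finset.univ (by simp only [Finset.mem_univ, if_true]; exact hv)

omit [IsLocalRing B] in
theorem cmb_mon (α β : Fin (s + 1) → ℕ) (h : ∑ t, α t ≤ ∑ t, β t) (hne : β ≠ α) :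
    ∏ t, y t ^ β t ∈ pw y (α + 1) := by
  by_contra e
  have l : ∀ t, β t ≤ α t := fun t => by
    by_contra e'
    exact e (sm_mem_pw y β _ t (by simpa using not_le.1 e'))
  exact hne (funext fun t => (Finset.sum_eq_sum_iff_of_le fun i _ => l i).1
    (le_antisymm (Finset.sum_le_sum fun i _ => l i) h) t (Finset.mem_univ t))

omit [IsLocalRing B] in
theorem cmb_pow (α : Fin (s + 1) → ℕ) {n : ℕ} (h : ∑ t, α t < n) :
    Ideal.span (Set.range y) ^ n ≤ pw y (α + 1) :=
  sm_pow_le y n fun β hβ => cmb_mon α β (by omega) (by rintro rfl; omega)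

theorem IsCM.coef (h : IsCM B (s + 1)) (hy : ∀ t, y t ∈ maximalIdeal B)
    (hp : Prim (Ideal.span (Set.range y))) {k : ℕ} (c : redS (s + 1) k → B)
    (γ : Fin (s + 1) → ℕ) (α : redS (s + 1) k)
    (hc : (∏ t, y t ^ γ t) * redF y k c ∈ pw y (⇑α.1 + γ + 1)) :
    c α ∈ Ideal.span (Set.range y) := by
  classical
  have e : ∀ β : redS (s + 1) k, (∏ t, y t ^ γ t) * (c β * ∏ t, y t ^ β.1 t) =
      (∏ t, y t ^ (⇑β.1 + γ : Fin (s + 1) → ℕ) t) * c β := fun β => by
    simp only [Pi.add_apply, pow_add, Finset.prod_mul_distrib]; ring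
  rw [redF_apply, Finset.mul_sum, ← Finset.add_sum_erase _ _ (Finset.mem_univ α), e] at hc
  refine h.mon_colon hy hp _ _ ((Submodule.add_mem_iff_left _ (sum_mem fun β hβ => ?_)).1 hc)
  rw [e]
  refine Ideal.mul_mem_right _ _ (cmb_mon _ _ ?_ fun e' => Finset.ne_of_mem_erase hβ
    (Subtype.ext (DFunLike.coe_injective (add_right_cancel e'))))
  simp only [Pi.add_apply, Finset.sum_add_distrib, redS_sum, le_refl]

/-- quasi-regularity -/
theorem IsCM.rl_pow (h : IsCM B (s + 1)) (hy : ∀ t, y t ∈ maximalIdeal B)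
    (hp : Prim (Ideal.span (Set.range y))) (k : ℕ) :
    rl (Ideal.span (Set.range y) ^ (k + 1)) (Ideal.span (Set.range y) ^ k) =
      ((s + 1).multichoose k : ℕ∞) * rl (Ideal.span (Set.range y)) (⊤ : Ideal B) := by
  have hI : ∀ t, y t ∈ Ideal.span (Set.range y) := fun t => Ideal.subset_span ⟨t, rfl⟩
  have := rl_pi (fun _ : redS (s + 1) k => Ideal.span (Set.range y)) fun _ => (⊤ : Ideal B)
  rw [Finset.sum_const, nsmul_eq_mul, Finset.card_univ, Fintype.card_coe,
    Finset.card_finsuppAntidiag_nat_eq_multichoose, Finset.card_univ, Fintype.card_fin] at this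
  rw [← this]
  refine rl_eq_of_map (redF y k) (fun c _ => Submodule.mem_sup_left ?_) (fun x hx => ?_)
    fun c _ => ⟨fun hc α _ => h.coef hy hp c 0 α ?_, fun hc => ?_⟩
  · rw [redF_apply]
    exact sum_mem fun α _ => Ideal.mul_mem_left _ _ (red_mon_mem hI α)
  · obtain ⟨c, rfl⟩ := redF_surj y hx
    exact ⟨c, fun _ _ => trivial, by simp⟩
  · simpa using cmb_pow (⇑α.1) (by rw [redS_sum]; omega) hc
  · rw [redF_apply, pow_succ']
    exact sum_mem fun α _ => Ideal.mul_mem_mul (hc α trivial) (red_mon_mem hI α)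

theorem IsCM.colOn (h : IsCM B (s + 1)) (hy : ∀ t, y t ∈ maximalIdeal B)
    (hp : Prim (Ideal.span (Set.range y))) : ColOn y (⊤ : Ideal B) := by
  intro S j hj m l v _ hv
  have hI : ∀ t, y t ∈ Ideal.span (Set.range y) := fun t => Ideal.subset_span ⟨t, rfl⟩
  rw [smul_eq_mul, Ideal.mul_top] at hv ⊢
  suffices H : ∀ r, r ≤ l → v ∈ Ideal.span ((fun t => y t ^ m) '' S) ⊔ Ideal.span (Set.range y) ^ r
    from H l le_rfl
  intro r hr
  induction r with
  | zero => simp
  | succ r ih =>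
    obtain ⟨v0, h0, v1, h1, rfl⟩ := Submodule.mem_sup.1 (ih (by omega))
    obtain ⟨c, rfl⟩ := redF_surj y h1
    refine add_mem (Ideal.mem_sup_left h0) ?_
    rw [redF_apply]
    refine sum_mem fun α _ => ?_
    by_cases e : ∃ t ∈ S, m ≤ α.1 t
    · obtain ⟨t, ht, e⟩ := e
      exact Ideal.mem_sup_left (Ideal.mul_mem_left _ _ (Ideal.mem_of_dvd _ ((pow_dvd_pow _ e).trans
        (Finset.dvd_prod_of_mem (fun t => y t ^ α.1 t) (Finset.mem_univ t)))
        (Ideal.subset_span ⟨t, ht, rfl⟩)))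
    push Not at e
    have l1 : Ideal.span ((fun t => y t ^ m) '' S) ≤ pw y (⇑α.1 + Pi.single j m + 1) := by
      rw [Ideal.span_le]
      rintro _ ⟨t, ht, rfl⟩
      have : t ≠ j := fun e' => hj (e' ▸ ht)
      exact Ideal.mem_of_dvd _ (pow_dvd_pow _ (by simpa [this] using e t ht))
        (Ideal.subset_span ⟨t, rfl⟩)
    have l2 := cmb_pow (y := y) (⇑α.1 + Pi.single j m) (n := l + m) (by
      simp only [Pi.add_apply, Finset.sum_add_distrib, redS_sum]; simp; omega)
    rw [pow_succ']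
    refine Ideal.mem_sup_right (Ideal.mul_mem_mul (h.coef hy hp c (Pi.single j m) α ?_)
      (red_mon_mem hI α))
    have e2 := sm_prod_single y 0 j m
    simp only [zero_add, Pi.zero_apply, pow_zero, Finset.prod_const_one, one_mul] at e2
    rw [e2]
    have := sub_mem (sup_le l1 l2 hv) (Ideal.mul_mem_left _ (y j ^ m) (l1 h0))
    rwa [smul_eq_mul, mul_add, add_sub_cancel_left] at this

omit [IsLocalRing B] in
theorem ColOn.free (h : ColOn y (⊤ : Ideal B)) {M : Type*} [AddCommGroup M] [Module B M]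
    {ι : Type*} [Fintype ι] (v : ι → M) (hv : ∀ c : ι → B, ∑ a, c a • v a = 0 → ∀ a, c a = 0) :
    ColOn y (Submodule.span B (Set.range v)) := by
  classical
  have key : ∀ (J : Ideal B) (c : ι → B), Fintype.linearCombination B v c ∈
      J • Submodule.span B (Set.range v) ↔ ∀ a, c a ∈ J • (⊤ : Ideal B) := fun J c => by
    have inj : Function.Injective (Fintype.linearCombination B v) :=
      (injective_iff_map_eq_zero _).2 fun c hc => funext (hv c hc)
    rw [← Fintype.range_linearCombination, LinearMap.range_eq_map, ← Submodule.map_smul'',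
      ← Submodule.mem_comap, Submodule.comap_map_eq_of_injective inj, kos_mem_smul_top, smul_eq_mul,
      Ideal.mul_top]
  intro S j hj m l x hx hm
  rw [← Fintype.range_linearCombination] at hx
  obtain ⟨c, rfl⟩ := hx
  rw [← map_smul, key] at hm
  exact (key _ c).2 fun a => h S j hj m l (c a) trivial (hm a)

end Vale.Agent.P202
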