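import Vale.Agent.P202.Red

/-! Finite certificates for upper bounds of multiplicities. -/

namespace Vale.Agent.P202

open IsLocalRing

universe w w'

theorem cnt_cert_mem {S : Type*} [CommRing S] {ι : Type*} (a : ι → S)
    (I' : Ideal (MvPolynomial ι ℤ)) {y : S} (h : y ∈ I'.map (MvPolynomial.aeval a).toRingHom) :
    ∃ T : Finset S, ∀ (Ω : Type w) [CommRing Ω] (j : Ω →+* S), Function.Injective j →
      (∀ t ∈ T, t ∈ j.range) → ∀ a' : ι → Ω, (∀ i, j (a' i) = a i) → ∀ y', j y' = y →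
      y' ∈ I'.map (MvPolynomial.aeval a').toRingHom := by
  classical
  refine Submodule.span_induction (p := fun y _ => ∃ T : Finset S, ∀ (Ω : Type w) [CommRing Ω]
    (j : Ω →+* S), Function.Injective j → (∀ t ∈ T, t ∈ j.range) → ∀ a' : ι → Ω,
      (∀ i, j (a' i) = a i) → ∀ y', j y' = y →
      y' ∈ I'.map (MvPolynomial.aeval a').toRingHom) ?_ ?_ ?_ ?_ h
  · rintro _ ⟨g, hg, rfl⟩
    refine ⟨∅, fun Ω _ j hj _ a' ha y' hy => ?_⟩
    have e : j.comp (MvPolynomial.aeval (R := ℤ) a').toRingHom =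
        (MvPolynomial.aeval (R := ℤ) a).toRingHom :=
      MvPolynomial.ringHom_ext (fun r => by simp) fun i => by simp [ha]
    have : y' = (MvPolynomial.aeval a').toRingHom g := hj (by rw [hy, ← e]; rfl)
    rw [this]
    exact Ideal.mem_map_of_mem _ hg
  · refine ⟨∅, fun Ω _ j hj _ a' ha y' hy => ?_⟩
    rw [hj (hy.trans (map_zero j).symm)]; exact Submodule.zero_mem _
  · rintro x y _ _ ⟨T1, h1⟩ ⟨T2, h2⟩
    refine ⟨T1 ∪ T2 ∪ {x, y}, fun Ω _ j hj hT a' ha y' hy => ?_⟩
    obtain ⟨x1, hx1⟩ := hT x (by simp)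
    obtain ⟨y1, hy1⟩ := hT y (by simp)
    have : y' = x1 + y1 := hj (by rw [hy, map_add, hx1, hy1])
    rw [this]
    exact Submodule.add_mem _ (h1 Ω j hj (fun t ht => hT t (by simp [ht])) a' ha x1 hx1)
      (h2 Ω j hj (fun t ht => hT t (by simp [ht])) a' ha y1 hy1)
  · rintro x y _ ⟨T1, h1⟩
    refine ⟨T1 ∪ {x, y}, fun Ω _ j hj hT a' ha y' hy => ?_⟩
    obtain ⟨x1, hx1⟩ := hT x (by simp)
    obtain ⟨y1, hy1⟩ := hT y (by simp)
    have : y' = x1 * y1 := hj (by rw [hy, map_mul, hx1, hy1, smul_eq_mul])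
    rw [this]
    exact Ideal.mul_mem_left _ _ (h1 Ω j hj (fun t ht => hT t (by simp [ht])) a' ha y1 hy1)

theorem cnt_map_eq {S : Type*} [CommRing S] {κ ι : Type*} (w : κ → S) (z : ι → S) (n : ℕ) :
    (Ideal.span (Set.range fun k => (MvPolynomial.X (Sum.inl k) : MvPolynomial (κ ⊕ ι) ℤ)) *
      Ideal.span (Set.range fun i => (MvPolynomial.X (Sum.inr i) : MvPolynomial (κ ⊕ ι) ℤ)) ^ n).map
      (MvPolynomial.aeval (Sum.elim w z)).toRingHom =
      Ideal.span (Set.range w) * Ideal.span (Set.range z) ^ n := by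
  rw [Ideal.map_mul, Ideal.map_pow, Ideal.map_span, Ideal.map_span, ← Set.range_comp,
    ← Set.range_comp]
  congr 4 <;> funext k <;> simp

theorem cnt_cert_mul {S : Type*} [CommRing S] {κ ι : Type*} (w : κ → S) (z : ι → S) (n : ℕ) {y : S}
    (h : y ∈ Ideal.span (Set.range w) * Ideal.span (Set.range z) ^ n) :
    ∃ T : Finset S, ∀ (Ω : Type w) [CommRing Ω] (j : Ω →+* S), Function.Injective j →
      (∀ t ∈ T, t ∈ j.range) → ∀ (w' : κ → Ω) (z' : ι → Ω), (∀ i, j (w' i) = w i) →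
      (∀ i, j (z' i) = z i) → ∀ y', j y' = y → ∀ (S' : Type w') [CommRing S'] (τ : Ω →+* S'),
      τ y' ∈ Ideal.span (Set.range fun i => τ (w' i)) *
        Ideal.span (Set.range fun i => τ (z' i)) ^ n := by
  rw [← cnt_map_eq] at h
  obtain ⟨T, hT⟩ := cnt_cert_mem.{w} _ _ h
  refine ⟨T, fun Ω _ j hj h1 w' z' hw hz y' hy S' _ τ => ?_⟩
  have := hT Ω j hj h1 (Sum.elim w' z') (by rintro (i | i); exacts [hw i, hz i]) y' hy
  rw [cnt_map_eq] at this
  have := Ideal.mem_map_of_mem τ this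
  rwa [Ideal.map_mul, Ideal.map_pow, Ideal.map_span, Ideal.map_span, ← Set.range_comp,
    ← Set.range_comp] at this

theorem cnt_cert_span {S : Type*} [CommRing S] {κ ι : Type*} [Finite ι] (w : κ → S) (y : ι → S)
    (h : ∀ i, y i ∈ Ideal.span (Set.range w)) :
    ∃ T : Finset S, ∀ (Ω : Type w) [CommRing Ω] (j : Ω →+* S), Function.Injective j →
      (∀ t ∈ T, t ∈ j.range) → ∀ (w' : κ → Ω), (∀ i, j (w' i) = w i) →
      ∀ i y', j y' = y i → ∀ (S' : Type w') [CommRing S'] (τ : Ω →+* S'),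
      τ y' ∈ Ideal.span (Set.range fun i => τ (w' i)) := by
  classical
  have := Fintype.ofFinite ι
  choose T hT using fun i => cnt_cert_mul.{w, w'} w (Empty.elim : Empty → S) 0 (y := y i)
    (by simpa using h i)
  refine ⟨Finset.univ.biUnion T, fun Ω _ j hj h1 w' hw i y' hy S' _ τ => ?_⟩
  simpa using hT i Ω j hj (fun t ht => h1 t (Finset.mem_biUnion.2 ⟨i, Finset.mem_univ _, ht⟩))
    w' Empty.elim hw (fun i => i.elim) y' hy S' τ

/-- an inclusion of ideals has a finite certificate -/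
theorem cert_le {S : Type*} [CommRing S] {ι : Type*} [Finite ι] (a : ι → S)
    (I I' : Ideal (MvPolynomial ι ℤ))
    (h : I.map (MvPolynomial.aeval a).toRingHom ≤ I'.map (MvPolynomial.aeval a).toRingHom) :
    ∃ T : Finset S, ∀ (Ω : Type w) [CommRing Ω] (j : Ω →+* S), Function.Injective j →
      (∀ t ∈ T, t ∈ j.range) → ∀ a' : ι → Ω, (∀ i, j (a' i) = a i) →
      ∀ (S' : Type w') [CommRing S'] (τ : Ω →+* S'),
        I.map (MvPolynomial.aeval fun i => τ (a' i)).toRingHom ≤
          I'.map (MvPolynomial.aeval fun i => τ (a' i)).toRingHom := by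
  classical
  obtain ⟨s, hs⟩ := IsNoetherian.noetherian I
  have h1 : ∀ g : s, (MvPolynomial.aeval a).toRingHom g.1 ∈
      I'.map (MvPolynomial.aeval a).toRingHom := fun g =>
    h (Ideal.mem_map_of_mem _ (hs ▸ Submodule.subset_span g.2))
  choose T hT using fun g : s => cnt_cert_mem.{w} a I' (h1 g)
  refine ⟨Finset.univ.biUnion T, fun Ω _ j hj h2 a' ha S' _ τ => ?_⟩
  have e : j.comp (MvPolynomial.aeval (R := ℤ) a').toRingHom =
      (MvPolynomial.aeval (R := ℤ) a).toRingHom :=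
    MvPolynomial.ringHom_ext (fun r => by simp) fun i => by simp [ha]
  have e' : τ.comp (MvPolynomial.aeval (R := ℤ) a').toRingHom =
      (MvPolynomial.aeval (R := ℤ) fun i => τ (a' i)).toRingHom :=
    MvPolynomial.ringHom_ext (fun r => by simp) fun i => by simp
  rw [← e', ← Ideal.map_map, ← Ideal.map_map]
  refine Ideal.map_mono ?_
  rw [← hs, Ideal.submodule_span_eq, Ideal.map_span, Ideal.span_le]
  rintro _ ⟨g, hg, rfl⟩
  exact hT ⟨g, hg⟩ Ω j hj (fun t ht => h2 t (Finset.mem_biUnion.2 ⟨_, Finset.mem_univ _, ht⟩))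
    a' ha _ (by rw [← e]; rfl)

section Step
variable {S : Type*} [CommRing S] [IsLocalRing S] {d : ℕ} (z : Fin d → S)

/-- polynomials with coefficients in the maximal ideal -/
def cntM (S : Type*) [CommRing S] [IsLocalRing S] (d : ℕ) :
    Submodule S (MvPolynomial (Fin d) S) where
  carrier := {F | ∀ m, F.coeff m ∈ maximalIdeal S}
  add_mem' := fun hF hG m => by rw [MvPolynomial.coeff_add]; exact add_mem (hF m) (hG m)
  zero_mem' := fun m => by simp
  smul_mem' := fun c F hF m => by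
    rw [MvPolynomial.coeff_smul]; exact Submodule.smul_mem _ _ (hF m)

theorem mem_cntM {F : MvPolynomial (Fin d) S} :
    F ∈ cntM S d ↔ MvPolynomial.map (residue S) F = 0 := by
  simp only [MvPolynomial.ext_iff, MvPolynomial.coeff_map, MvPolynomial.coeff_zero,
    residue_eq_zero_iff]
  rfl

theorem cnt_mem_redS {R : Type*} [CommRing R] {F : MvPolynomial (Fin d) R} {k : ℕ}
    (hF : F.IsHomogeneous k) {s : Fin d →₀ ℕ} (hs : F.coeff s ≠ 0) : s ∈ redS d k := by
  refine Finset.mem_finsuppAntidiag.2 ⟨?_, Finset.subset_univ _⟩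
  by_contra h
  exact hs (hF.coeff_eq_zero (by rwa [Finsupp.degree_eq_sum]))

theorem cnt_rl (k : ℕ) :
    rl (cntM S d) (MvPolynomial.homogeneousSubmodule (Fin d) S k) = (d.multichoose k : ℕ) := by
  classical
  rw [← red_rl_pi (P := S)]
  refine (rl_eq_of_map (LinearMap.pi fun s : redS d k => MvPolynomial.lcoeff S s.1)
    (fun x _ => Submodule.mem_sup_left (Submodule.mem_pi.2 fun _ _ => Submodule.mem_top)) (fun y _ => ?_)
    fun F hF => ?_).symm
  · refine ⟨∑ s : redS d k, MvPolynomial.monomial s.1 (y s), Submodule.sum_mem _ fun s _ =>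
      MvPolynomial.isHomogeneous_monomial _ (by rw [Finsupp.degree_eq_sum, redS_sum]), ?_⟩
    convert Submodule.zero_mem _
    funext s
    simp [MvPolynomial.coeff_sum, MvPolynomial.coeff_monomial, Subtype.val_inj]
  · refine ⟨fun h m => ?_, fun h s _ => h s.1⟩
    by_cases hm : F.coeff m = 0
    · rw [hm]; exact Submodule.zero_mem _
    · exact h ⟨m, cnt_mem_redS hF hm⟩ trivial

/-- evaluation and multiplication by `v` -/
noncomputable def cntEv (v : S) : MvPolynomial (Fin d) S →ₗ[S] S :=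
  LinearMap.mulLeft S v ∘ₗ (MvPolynomial.aeval z).toLinearMap

omit [IsLocalRing S] in
theorem cntEv_apply (v : S) (F : MvPolynomial (Fin d) S) :
    cntEv z v F = v * MvPolynomial.eval z F := by
  simp [cntEv, MvPolynomial.coe_aeval_eq_eval]

theorem cntEv_mem {I : Ideal S} {v : S} (hv : ∀ a ∈ maximalIdeal S, a * v ∈ I) {k : ℕ}
    {F : MvPolynomial (Fin d) S} (hF : F.IsHomogeneous k) (hM : F ∈ cntM S d) :
    cntEv z v F ∈ I * Ideal.span (Set.range z) ^ k := by
  rw [cntEv_apply, MvPolynomial.eval_eq', Finset.mul_sum]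
  refine Ideal.sum_mem _ fun s hs => ?_
  rw [← mul_assoc, mul_comm v]
  exact Ideal.mul_mem_mul (hv _ (hM s)) (red_mon_mem (w := z)
    (fun j => Ideal.subset_span (Set.mem_range_self j))
    ⟨s, cnt_mem_redS hF (MvPolynomial.mem_support_iff.1 hs)⟩)

omit [IsLocalRing S] in
theorem cntEv_surj {I : Ideal S} {v : S} {k : ℕ} :
    ∀ y ∈ (I ⊔ Ideal.span {v}) * Ideal.span (Set.range z) ^ k,
      ∃ F ∈ MvPolynomial.homogeneousSubmodule (Fin d) S k,
        y - cntEv z v F ∈ I * Ideal.span (Set.range z) ^ k := by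
  intro y hy
  rw [Ideal.sup_mul] at hy
  obtain ⟨x, hx, u, hu, rfl⟩ := Submodule.mem_sup.1 hy
  obtain ⟨t, ht, rfl⟩ := Ideal.mem_span_singleton_mul.1 hu
  obtain ⟨F, hF, rfl⟩ := (Ideal.mem_span_pow_iff_exists_isHomogeneous z t).1 ht
  exact ⟨F, hF, by rw [cntEv_apply, add_sub_cancel_right]; exact hx⟩

/-- a simple step of the filtration of `Z ^ k / Z ^ (k + 1)`, upper bound -/
theorem step_le {I : Ideal S} {v : S} (hv : ∀ a ∈ maximalIdeal S, a * v ∈ I) (k : ℕ) :
    rl (I * Ideal.span (Set.range z) ^ k) ((I ⊔ Ideal.span {v}) * Ideal.span (Set.range z) ^ k) ≤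
      (d.multichoose k : ℕ∞) := by
  rw [← cnt_rl (S := S)]
  exact rl_le_of_surj (cntEv z v) (fun F hF hM => cntEv_mem z hv hF hM) (cntEv_surj z)

/-- a simple step with a relation -/
theorem step_le_of_rel {I : Ideal S} {v : S} (hv : ∀ a ∈ maximalIdeal S, a * v ∈ I) {n : ℕ}
    (F : MvPolynomial (Fin d) S) (hF : F.IsHomogeneous n) (m : Fin d →₀ ℕ)
    (hm : IsUnit (F.coeff m))
    (hrel : v * MvPolynomial.eval z F ∈ I * Ideal.span (Set.range z) ^ n) (k : ℕ) :
    rl (I * Ideal.span (Set.range z) ^ (k + n))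
        ((I ⊔ Ideal.span {v}) * Ideal.span (Set.range z) ^ (k + n)) + (d.multichoose k : ℕ∞) ≤
      (d.multichoose (k + n) : ℕ∞) := by
  let H := MvPolynomial.homogeneousSubmodule (Fin d) S
  let A := cntM S d ⊓ H (k + n) ⊔ (H k).map (LinearMap.mulLeft S F)
  have hA : A ≤ H (k + n) := by
    refine sup_le inf_le_right ?_
    rintro _ ⟨G, hG, rfl⟩
    rw [add_comm]
    exact hF.mul hG
  rw [← cnt_rl (S := S), ← cnt_rl (S := S), ← rl_inf_left (cntM S d) (H (k + n)),
    rl_add (B := A) le_sup_left hA, add_comm]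
  refine add_le_add (rl_le_of_inj (LinearMap.mulLeft S F) (fun G hG =>
    Submodule.mem_sup_left (Submodule.mem_sup_right ⟨G, hG, rfl⟩)) fun G _ hG => ?_)
    (rl_le_of_surj (cntEv z v) (fun G _ hG => ?_) (cntEv_surj z))
  · have h1 := mem_cntM.1 hG.1
    rw [LinearMap.mulLeft_apply, map_mul, mul_eq_zero] at h1
    refine mem_cntM.2 (h1.resolve_left fun h2 => ?_)
    exact (mem_maximalIdeal _).1 (mem_cntM.2 h2 m) hm
  · obtain ⟨G1, h1, _, ⟨G2, h2, rfl⟩, rfl⟩ := Submodule.mem_sup.1 hG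
    rw [map_add]
    refine add_mem (cntEv_mem z hv h1.2 h1.1) ?_
    rw [cntEv_apply, LinearMap.mulLeft_apply, map_mul, ← mul_assoc, add_comm, pow_add, ← mul_assoc]
    exact Ideal.mul_mem_mul hrel ((Ideal.mem_span_pow_iff_exists_isHomogeneous z _).2 ⟨G2, h2, rfl⟩)

/-- a simple step without relations -/
theorem step_ge {I : Ideal S} {v : S} (k : ℕ)
    (hfree : ∀ F : MvPolynomial (Fin d) S, F.IsHomogeneous k →
      v * MvPolynomial.eval z F ∈ I * Ideal.span (Set.range z) ^ k →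
      ∀ m, F.coeff m ∈ maximalIdeal S) :
    (d.multichoose k : ℕ∞) ≤
      rl (I * Ideal.span (Set.range z) ^ k)
        ((I ⊔ Ideal.span {v}) * Ideal.span (Set.range z) ^ k) := by
  rw [← cnt_rl (S := S)]
  refine rl_le_of_inj (cntEv z v) (fun F hF => Submodule.mem_sup_left ?_)
    fun F hF h => hfree F hF (by rwa [cntEv_apply] at h)
  rw [cntEv_apply]
  exact Ideal.mul_mem_mul (Ideal.mem_sup_right (Ideal.mem_span_singleton_self v))
    ((Ideal.mem_span_pow_iff_exists_isHomogeneous z _).2 ⟨F, hF, rfl⟩)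

end Step

theorem lim_sum_multichoose (d : ℕ) :
    Lim d (fun N => ∑ k ∈ Finset.range N, (d.multichoose k : ℝ)) 1 := by
  refine Lim.unshift 1 ((lim_choose d).congr' (Filter.Eventually.of_forall fun N => ?_))
  rw [← Nat.sum_range_multichoose, Nat.cast_sum]

/-- the data produced by the induction -/
def CntQ {S : Type*} [CommRing S] [IsLocalRing S] {d : ℕ} (z : Fin d → S) {ι : Type} (η : ι → S)
    (I : Ideal S) : Prop :=
  ∃ ρ : ℕ, (∀ k : ℕ, (ρ : ℕ∞) * (d.multichoose k : ℕ) ≤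
      rl (R := S) (M := S) (I * Ideal.span (Set.range z) ^ k) (Ideal.span (Set.range z) ^ k)) ∧
    ∀ (κ : Type) [Finite κ] (x : κ → S), Ideal.span (Set.range x) = I →
      ∃ T : Finset S, ∀ (Ω : Type w) [CommRing Ω] (j : Ω →+* S), Function.Injective j →
      (∀ t ∈ T, t ∈ j.range) → ∀ (η' : ι → Ω) (z' : Fin d → Ω) (x' : κ → Ω),
      (∀ a, j (η' a) = η a) → (∀ i, j (z' i) = z i) → (∀ i, j (x' i) = x i) →
      ∀ (S' : Type w') [CommRing S'] [IsLocalRing S'] (τ : Ω →+* S'),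
        Ideal.span (Set.range fun a => τ (η' a)) = maximalIdeal S' →
        ∃ b : ℕ → ℝ, Lim d (fun N => ∑ k ∈ Finset.range N, b k) ρ ∧ ∀ k : ℕ, ∃ c : ℕ,
          rl (R := S') (M := S') (Ideal.span (Set.range fun i => τ (x' i)) *
            Ideal.span (Set.range fun i => τ (z' i)) ^ k)
            (Ideal.span (Set.range fun i => τ (z' i)) ^ k) ≤ c ∧ (c : ℝ) ≤ b k

theorem cnt_span_option {S : Type*} [CommRing S] {κ : Type*} (x : κ → S) (v : S) :
    Ideal.span (Set.range fun o : Option κ => o.elim v x) =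
      Ideal.span (Set.range x) ⊔ Ideal.span {v} := by
  rw [← Ideal.span_union]
  congr 1
  ext y
  simp [Option.exists, or_comm, eq_comm]

theorem cnt_lim_rel (d n : ℕ) : Lim d (fun N => ∑ k ∈ Finset.range N, ((d.multichoose k : ℝ) -
    if n ≤ k then (d.multichoose (k - n) : ℝ) else 0)) 0 := by
  refine Lim.unshift n ?_
  have h := ((lim_sum_multichoose d).shift n).add ((lim_sum_multichoose d).const_mul (-1))
  rw [show (1 : ℝ) + -1 * 1 = 0 by ring] at h
  refine h.congr' (Filter.Eventually.of_forall fun N => ?_)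
  simp only [Finset.sum_sub_distrib]
  rw [add_comm N n, Finset.sum_range_add (fun k => if n ≤ k then _ else _),
    Finset.sum_eq_zero (s := Finset.range n) fun k hk => if_neg (by simpa using hk)]
  simp [sub_eq_add_neg]

theorem cnt_step {S : Type*} [CommRing S] [IsLocalRing S] {d : ℕ} (z : Fin d → S) {ι : Type}
    [Finite ι] (η : ι → S) (hη : Ideal.span (Set.range η) = maximalIdeal S) {I : Ideal S} {v : S}
    (hv : ∀ a ∈ maximalIdeal S, a * v ∈ I) (ih : CntQ.{w, w'} z η (I ⊔ Ideal.span {v})) :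
    CntQ.{w, w'} z η I := by
  classical
  obtain ⟨ρ, hlb, hub⟩ := ih
  have hadd : ∀ k, rl (I * Ideal.span (Set.range z) ^ k) (Ideal.span (Set.range z) ^ k) =
      rl (I * Ideal.span (Set.range z) ^ k) ((I ⊔ Ideal.span {v}) * Ideal.span (Set.range z) ^ k) +
      rl ((I ⊔ Ideal.span {v}) * Ideal.span (Set.range z) ^ k) (Ideal.span (Set.range z) ^ k) :=
    fun k => rl_add (Ideal.mul_mono_left le_sup_left) Ideal.mul_le_right
  have key : ∀ (κ : Type) [Finite κ] (x : κ → S), Ideal.span (Set.range x) = I →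
      ∃ T : Finset S, ∀ (Ω : Type w) [CommRing Ω] (j : Ω →+* S), Function.Injective j →
      (∀ t ∈ T, t ∈ j.range) → ∀ (η' : ι → Ω) (z' : Fin d → Ω) (x' : κ → Ω),
      (∀ a, j (η' a) = η a) → (∀ i, j (z' i) = z i) → (∀ i, j (x' i) = x i) →
      ∀ (S' : Type w') [CommRing S'] [IsLocalRing S'] (τ : Ω →+* S'),
        Ideal.span (Set.range fun a => τ (η' a)) = maximalIdeal S' →
        ∃ v', j v' = v ∧
          (∀ a ∈ maximalIdeal S', a * τ v' ∈ Ideal.span (Set.range fun i => τ (x' i))) ∧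
          ∃ b : ℕ → ℝ, Lim d (fun N => ∑ k ∈ Finset.range N, b k) ρ ∧ ∀ k : ℕ, ∃ c : ℕ,
          rl (R := S') (M := S') ((Ideal.span (Set.range fun i => τ (x' i)) ⊔ Ideal.span {τ v'}) *
            Ideal.span (Set.range fun i => τ (z' i)) ^ k)
            (Ideal.span (Set.range fun i => τ (z' i)) ^ k) ≤ c ∧ (c : ℝ) ≤ b k := by
    intro κ _ x hx
    obtain ⟨T1, h1⟩ := hub (Option κ) (fun o => o.elim v x) (by rw [cnt_span_option, hx])
    obtain ⟨T2, h2⟩ := cnt_cert_span.{w, w'} x (fun a => η a * v) fun a => by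
      rw [hx]; exact hv _ (hη ▸ Ideal.subset_span ⟨a, rfl⟩)
    refine ⟨T1 ∪ T2 ∪ {v}, fun Ω _ j hj hT η' z' x' e1 e2 e3 S' _ _ τ hm => ?_⟩
    obtain ⟨v', hv'⟩ := hT v (by simp)
    refine ⟨v', hv', fun a ha => ?_, ?_⟩
    · rw [← hm] at ha
      refine Submodule.span_induction (p := fun a _ => a * τ v' ∈ _) ?_ ?_ ?_ ?_ ha
      · rintro _ ⟨a, rfl⟩
        rw [← map_mul]
        exact h2 Ω j hj (fun t ht => hT t (by simp [ht])) x' e3 a _ (by rw [map_mul, e1, hv']) S' τ
      · simp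
      · intro a b _ _ ha hb; rw [add_mul]; exact add_mem ha hb
      · intro a b _ hb; rw [smul_eq_mul, mul_assoc]; exact Ideal.mul_mem_left _ _ hb
    · obtain ⟨b, hb1, hb2⟩ := h1 Ω j hj (fun t ht => hT t (by simp [ht])) η' z'
        (fun o => o.elim v' x') e1 e2 (by rintro (_ | i); exacts [hv', e3 i]) S' τ hm
      refine ⟨b, hb1, ?_⟩
      have e : (fun o : Option κ => τ (o.elim v' x')) = fun o => o.elim (τ v') fun i => τ (x' i) := by
        funext o; cases o <;> rfl
      rw [← cnt_span_option, ← e]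
      exact hb2
  by_cases hfree : ∀ (k : ℕ) (F : MvPolynomial (Fin d) S), F.IsHomogeneous k →
      v * MvPolynomial.eval z F ∈ I * Ideal.span (Set.range z) ^ k →
      ∀ m, F.coeff m ∈ maximalIdeal S
  · refine ⟨ρ + 1, fun k => ?_, fun κ _ x hx => ?_⟩
    · rw [hadd, Nat.cast_succ, add_mul, one_mul, add_comm]
      exact add_le_add (step_ge z k (hfree k)) (hlb k)
    · obtain ⟨T, hT⟩ := key κ x hx
      refine ⟨T, fun Ω _ j hj h1 η' z' x' e1 e2 e3 S' _ _ τ hm => ?_⟩
      obtain ⟨v', -, hv', b, hb1, hb2⟩ := hT Ω j hj h1 η' z' x' e1 e2 e3 S' τ hm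
      refine ⟨fun k => b k + d.multichoose k, ?_, fun k => ?_⟩
      · simpa [Finset.sum_add_distrib] using hb1.add (lim_sum_multichoose d)
      · obtain ⟨c, hc1, hc2⟩ := hb2 k
        refine ⟨d.multichoose k + c, ?_, by push_cast; linarith⟩
        push_cast
        exact (rl_le_add _ _ _).trans (add_le_add (step_le _ hv' k) hc1)
  · push Not at hfree
    obtain ⟨n, F0, hF0, hrel0, m, hm0⟩ := hfree
    have hu : IsUnit (F0.coeff m) := by simpa using hm0
    obtain ⟨u, hu⟩ := hu.exists_left_inv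
    let F := MvPolynomial.C u * F0
    have hF : F.IsHomogeneous n := hF0.C_mul u
    have hm1 : F.coeff m = 1 := by rw [MvPolynomial.coeff_C_mul, hu]
    have hrel : v * MvPolynomial.eval z F ∈ I * Ideal.span (Set.range z) ^ n := by
      rw [map_mul, MvPolynomial.eval_C, mul_left_comm]
      exact Ideal.mul_mem_left _ _ hrel0
    refine ⟨ρ, fun k => (hlb k).trans (by rw [hadd]; exact le_add_self), fun κ _ x hx => ?_⟩
    obtain ⟨T, hT⟩ := key κ x hx
    obtain ⟨T2, h2⟩ := cnt_cert_mul.{w, w'} x z n (hx ▸ hrel)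
    refine ⟨T ∪ T2 ∪ F.coeffs, fun Ω _ j hj h1 η' z' x' e1 e2 e3 S' _ _ τ hm => ?_⟩
    obtain ⟨v', ev, hv', b, hb1, hb2⟩ :=
      hT Ω j hj (fun t ht => h1 t (by simp [ht])) η' z' x' e1 e2 e3 S' τ hm
    obtain ⟨G, hG⟩ : F ∈ Set.range (MvPolynomial.map j) :=
      MvPolynomial.mem_range_map_iff_coeffs_subset.2 fun t ht =>
        h1 t (Finset.mem_union_right _ ht)
    have hGh : G.IsHomogeneous n := MvPolynomial.IsHomogeneous.of_map hj (hG ▸ hF)
    have hG1 : G.coeff m = 1 := hj (by rw [← MvPolynomial.coeff_map, hG, hm1, map_one])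
    have hrel' := h2 Ω j hj (fun t ht => h1 t (by simp [ht])) x' z' e3 e2
      (v' * MvPolynomial.eval z' G) (by
        rw [map_mul, ev, MvPolynomial.map_eval, hG]
        congr 3
        exact funext e2) S' τ
    rw [map_mul, MvPolynomial.map_eval] at hrel'
    refine ⟨fun k => b k + ((d.multichoose k : ℝ) -
      if n ≤ k then (d.multichoose (k - n) : ℝ) else 0), ?_, fun k => ?_⟩
    · simpa [Finset.sum_add_distrib] using hb1.add (cnt_lim_rel d n)
    · obtain ⟨c, hc1, hc2⟩ := hb2 k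
      have h3 := step_le (fun i => τ (z' i)) hv' k
      obtain ⟨c', hc'⟩ := ENat.ne_top_iff_exists.1 (ne_top_of_le_ne_top (ENat.coe_ne_top _) h3)
      refine ⟨c' + c, ?_, ?_⟩
      · push_cast
        exact (rl_le_add _ _ _).trans (add_le_add hc'.ge hc1)
      · by_cases hk : n ≤ k
        · obtain ⟨k, rfl⟩ := Nat.exists_eq_add_of_le' hk
          have h4 := step_le_of_rel (fun i => τ (z' i)) hv' (MvPolynomial.map τ G) (hGh.map τ) m
            (by rw [MvPolynomial.coeff_map, hG1, map_one]; exact isUnit_one) hrel' k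
          rw [← hc'] at h4
          have h5 : c' + d.multichoose k ≤ d.multichoose (k + n) := by exact_mod_cast h4
          have h6 : (c' : ℝ) + d.multichoose k ≤ d.multichoose (k + n) := by exact_mod_cast h5
          simp only [hk, if_true, Nat.add_sub_cancel]
          push_cast
          linarith
        · rw [← hc'] at h3
          have h5 : c' ≤ d.multichoose k := by exact_mod_cast h3
          have h6 : (c' : ℝ) ≤ d.multichoose k := by exact_mod_cast h5
          simp only [hk, if_false]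
          push_cast
          linarith

theorem cnt_cert {S : Type*} [CommRing S] [IsLocalRing S] [IsNoetherianRing S] {d : ℕ}
    (z : Fin d → S) (hz : ∀ i, z i ∈ maximalIdeal S) (hp : Prim (Ideal.span (Set.range z)))
    {e : ℝ} (he : Lim d (fun N => cl (Ideal.span (Set.range z) ^ N)) e) {ι : Type} [Finite ι]
    (η : ι → S) (hη : Ideal.span (Set.range η) = maximalIdeal S) :
    ∃ T : Finset S, ∀ (Ω : Type w) [CommRing Ω] (j : Ω →+* S), Function.Injective j →
      (∀ t ∈ T, t ∈ j.range) → ∀ (η' : ι → Ω) (z' : Fin d → Ω), (∀ a, j (η' a) = η a) →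
      (∀ i, j (z' i) = z i) →
      ∀ (S' : Type w') [CommRing S'] [IsLocalRing S'] [IsNoetherianRing S'] (τ : Ω →+* S'),
        Ideal.span (Set.range fun a => τ (η' a)) = maximalIdeal S' →
        Ideal.span (Set.range fun i => τ (z' i)) ≤ maximalIdeal S' ∧
        Prim (Ideal.span (Set.range fun i => τ (z' i))) ∧
        ∀ e', Lim d (fun N => cl (Ideal.span (Set.range fun i => τ (z' i)) ^ N)) e' → e' ≤ e := by
  classical
  have hQ : CntQ.{w, w'} z η (Ideal.span (Set.range z)) := by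
    refine rl_induction (B := ⊤) (fun I => CntQ.{w, w'} z η I) ?_
      (fun I v _ _ _ hv ih => cnt_step z η hη hv ih) le_top (rl_ne_top_of_prim hp)
    refine ⟨0, by simp, fun κ _ x hx => ?_⟩
    obtain ⟨T, hT⟩ := cnt_cert_span.{w, w'} x (fun _ : Unit => 1) fun _ => by rw [hx]; trivial
    refine ⟨T, fun Ω _ j hj h1 η' z' x' _ _ e3 S' _ _ τ _ => ⟨0, by simpa using lim_zero,
      fun k => ⟨0, ?_, by simp⟩⟩⟩
    have := hT Ω j hj h1 x' e3 () 1 (map_one j) S' τ
    rw [map_one, ← Ideal.eq_top_iff_one] at this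
    rw [this, Ideal.top_mul, rl_self]; simp
  obtain ⟨ρ, hlb, hub⟩ := hQ
  obtain ⟨T1, h1⟩ := hub (Fin d) z rfl
  obtain ⟨T2, h2⟩ := cnt_cert_span.{w, w'} η z fun i => hη ▸ hz i
  have hρ : (ρ : ℝ) ≤ e := by
    have h3 := (lim_sum_multichoose d).const_mul ρ
    rw [mul_one] at h3
    refine h3.le he (Filter.Eventually.of_forall fun N => ?_)
    have hp' : Prim (⊥ ⊔ Ideal.span (Set.range z)) := by simpa using hp
    have h4 := red_tele hp' N
    simp only [bot_sup_eq] at h4
    rw [← h4, Finset.mul_sum]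
    refine Finset.sum_le_sum fun k _ => ?_
    have h5 := hlb k
    rw [← pow_succ'] at h5
    have h6 := red_rl_fin hp' k
    simp only [bot_sup_eq] at h6
    have := ENat.toNat_le_toNat h5 h6
    rw [ENat.toNat_mul] at this
    exact_mod_cast this
  refine ⟨T1 ∪ T2, fun Ω _ j hj hT η' z' e1 e2 S' _ _ _ τ hm => ?_⟩
  obtain ⟨b, hb1, hb2⟩ := h1 Ω j hj (fun t ht => hT t (by simp [ht])) η' z' z' e1 e2 e2 S' τ hm
  have hp' : Prim (Ideal.span (Set.range fun i => τ (z' i))) := by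
    obtain ⟨c, hc, -⟩ := hb2 0
    rw [pow_zero, mul_one, Ideal.one_eq_top] at hc
    exact prim_of_rl_ne_top (ne_top_of_le_ne_top (ENat.coe_ne_top c) hc)
  refine ⟨Ideal.span_le.2 ?_, hp', fun e' he' => le_trans (he'.le hb1
    (Filter.Eventually.of_forall fun N => ?_)) hρ⟩
  · rintro _ ⟨i, rfl⟩
    rw [← hm]
    exact h2 Ω j hj (fun t ht => hT t (by simp [ht])) η' e1 i _ (e2 i) S' τ
  · have h4 := red_tele (q := ⊥) (hp'.mono le_sup_right) N
    simp only [bot_sup_eq] at h4
    rw [← h4]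
    refine Finset.sum_le_sum fun k _ => ?_
    obtain ⟨c, hc1, hc2⟩ := hb2 k
    rw [← pow_succ'] at hc1
    refine le_trans ?_ hc2
    exact_mod_cast ENat.toNat_le_toNat hc1 (ENat.coe_ne_top c)

end Vale.Agent.P202
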