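import Vale.Agent.P202.ColonA

/-! Coefficient fields. -/

namespace Vale.Agent.P202

open IsLocalRing

open Polynomial in
theorem Coef_key {p : ℕ} (hp : p.Prime) {G k D : Type*} [Field G] [Field k] [CommRing D]
    (i : G →+* D) (π : D →+* k) (x : D) (y : G) (hy : i y = x ^ p) (hn : ∀ b : G, b ^ p ≠ y)
    (f : G[X]) (hf : π (eval₂ i x f) = 0) : eval₂ i x f = 0 := by
  have hirr := X_pow_sub_C_irreducible_of_prime hp hn
  have hg : eval₂ i x (X ^ p - C y) = 0 := by simp [hy]
  have hmax := PrincipalIdealRing.isMaximal_of_irreducible hirr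
  let φ : G[X] →+* k := π.comp (eval₂RingHom i x)
  have hle : Submodule.span G[X] {X ^ p - C y} ≤ RingHom.ker φ := by
    rw [Submodule.span_singleton_le_iff_mem, RingHom.mem_ker]
    simp only [φ, RingHom.comp_apply, coe_eval₂RingHom, hg, map_zero]
  have h1 : f ∈ Submodule.span G[X] {X ^ p - C y} := by
    rw [hmax.eq_of_le (RingHom.ker_ne_top φ) hle]; exact hf
  obtain ⟨h, rfl⟩ := Submodule.mem_span_singleton.1 h1
  rw [smul_eq_mul, eval₂_mul, hg, mul_zero]

open Polynomial in
theorem Coef_lift (p : ℕ) [Fact p.Prime] {k C : Type*} [Field k] [CommRing C] [CharP k p]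
    [CharP (k × C) p] (J : Ideal C) (hJ : J ^ 2 = ⊥) (τ : k →+* C ⧸ J) :
    ∃ s : k →+* C, ∀ a, Ideal.Quotient.mk J (s a) = τ a := by
  have hp : p.Prime := Fact.out
  let Pb : Subring (k × C) :=
    RingHom.eqLocus ((Ideal.Quotient.mk J).comp (RingHom.snd k C)) (τ.comp (RingHom.fst k C))
  have hPb : ∀ x : k × C, x ∈ Pb ↔ Ideal.Quotient.mk J x.2 = τ x.1 := fun _ => Iff.rfl
  let S : Set (Subring (k × C)) :=
    {G | G ≤ Pb ∧ (∀ x ∈ G, x.1 = 0 → x = 0) ∧ ∀ x ∈ Pb, x ^ p ∈ G}
  have h0 : Pb.map (frobenius (k × C) p) ∈ S := by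
    refine ⟨?_, ?_, fun x hx => ⟨x, hx, rfl⟩⟩
    · rintro _ ⟨x, hx, rfl⟩
      exact Pb.pow_mem hx p
    · rintro _ ⟨x, hx, rfl⟩ h1
      rw [frobenius_def] at h1 ⊢
      have h2 : x.1 = 0 := pow_eq_zero_iff hp.ne_zero |>.1 h1
      have h3 : x.2 ∈ J := by
        rw [← Ideal.Quotient.eq_zero_iff_mem, (hPb x).1 hx, h2, map_zero]
      have h4 : x.2 ^ p ∈ J ^ 2 := Ideal.pow_le_pow_right hp.two_le (Ideal.pow_mem_pow h3 p)
      rw [hJ] at h4
      exact Prod.ext h1 h4
  obtain ⟨G, -, hG⟩ := zorn_le_nonempty₀ S (fun c hc hch y hy => by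
    refine ⟨sSup c, ⟨sSup_le fun G hG => (hc hG).1, fun x hx => ?_, fun x hx => ?_⟩,
      fun z hz => le_sSup hz⟩
    · obtain ⟨G, hG, hx⟩ := (Subring.mem_sSup_of_directedOn ⟨y, hy⟩ hch.directedOn).1 hx
      exact (hc hG).2.1 x hx
    · exact le_sSup hy ((hc hy).2.2 x hx)) _ h0
  obtain ⟨hG1, hG2, hG3⟩ := hG.prop
  have hfield : IsField G := by
    refine ⟨⟨0, 1, fun h => ?_⟩, mul_comm, fun {x} hx => ?_⟩
    · have : ((0 : G) : k × C).1 = ((1 : G) : k × C).1 := by rw [h]
      simp at this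
    · have hx1 : (x : k × C).1 ≠ 0 := fun h => hx (Subtype.ext (hG2 x x.2 h))
      obtain ⟨d, hd⟩ := Ideal.Quotient.mk_surjective (τ (x : k × C).1⁻¹)
      let y : G := x ^ (p - 1) * ⟨_, hG3 ((x : k × C).1⁻¹, d) hd⟩
      refine ⟨y, ?_⟩
      rw [← sub_eq_zero]
      refine Subtype.ext (hG2 _ (x * y - 1).2 ?_)
      have e : x * y = x ^ p * ⟨_, hG3 ((x : k × C).1⁻¹, d) hd⟩ := by
        rw [← mul_assoc, ← pow_succ', Nat.sub_add_cancel hp.pos]
      rw [e]
      simp [← mul_pow, hx1]
  have hsurj : Function.Surjective ((RingHom.fst k C).comp G.subtype) := by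
    intro a
    by_contra ha
    obtain ⟨c, hc⟩ := Ideal.Quotient.mk_surjective (τ a)
    have hac : (a, c) ∈ Pb := hc
    let G' : Subring (k × C) := (eval₂RingHom G.subtype (a, c)).range
    have hGG' : G ≤ G' := fun x hx => ⟨Polynomial.C ⟨x, hx⟩, by simp⟩
    have hG' : G' ∈ S := by
      refine ⟨?_, ?_, fun x hx => hGG' (hG3 x hx)⟩
      · rintro _ ⟨f, rfl⟩
        rw [coe_eval₂RingHom, eval₂_eq_sum_range]
        exact Pb.sum_mem fun i _ => Pb.mul_mem (hG1 (f.coeff i).2) (Pb.pow_mem hac i)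
      · rintro _ ⟨f, rfl⟩ hf
        letI := hfield.toField
        refine Coef_key hp G.subtype (RingHom.fst k C) (a, c) ⟨_, hG3 _ hac⟩ rfl ?_ f hf
        intro b hb
        refine ha ⟨b, frobenius_inj k p ?_⟩
        have := congrArg (fun z : G => (z : k × C).1) hb
        exact this
    exact ha ⟨⟨(a, c), hG.2 hG' hGG' ⟨X, by simp⟩⟩, rfl⟩
  have hinj : Function.Injective ((RingHom.fst k C).comp G.subtype) :=
    (injective_iff_map_eq_zero _).2 fun x hx => Subtype.ext (hG2 x x.2 hx)
  let e := RingEquiv.ofBijective _ ⟨hinj, hsurj⟩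
  refine ⟨((RingHom.snd k C).comp G.subtype).comp e.symm.toRingHom, fun a => ?_⟩
  obtain ⟨x, rfl⟩ := e.surjective a
  simp only [RingEquiv.toRingHom_eq_coe, RingHom.comp_apply, RingHom.coe_coe,
    RingEquiv.symm_apply_apply]
  exact hG1 x.2

theorem Coef_section (F P : Type*) [CommRing F] [CommRing P] [IsLocalRing P] [Algebra F P]
    [IsAdicComplete (maximalIdeal P) P] [Algebra.FormallySmooth F (ResidueField P)] :
    ∃ s : ResidueField P →+* P, ∀ a, residue P (s a) = a := by
  obtain ⟨g, hg⟩ := Algebra.FormallySmooth.exists_mkₐ_comp_eq_of_isAdicComplete (R := F)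
    (A := ResidueField P) (I := maximalIdeal P) (AlgHom.id F (ResidueField P))
  exact ⟨g.toRingHom, fun a => AlgHom.congr_fun hg a⟩

/-- the structure map from the rationals -/
noncomputable def Coef_rat {P : Type*} [CommRing P] (h : ∀ n : ℕ, n ≠ 0 → IsUnit (n : P)) :
    ℚ →+* P :=
  IsLocalization.lift (M := nonZeroDivisors ℤ) (g := Int.castRingHom P) fun y => by
    have h1 := h (y : ℤ).natAbs (Int.natAbs_ne_zero.2 (nonZeroDivisors.coe_ne_zero y))
    rcases Int.natAbs_eq (y : ℤ) with e | e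
    · rw [e]; simpa using h1
    · rw [e]; simpa using h1

/-- every field of characteristic `p` is formally smooth over the prime field -/
theorem formallySmooth_zmod (p : ℕ) [Fact p.Prime] (k : Type*) [Field k] [Algebra (ZMod p) k] :
    Algebra.FormallySmooth (ZMod p) k := by
  refine Algebra.FormallySmooth.of_comp_surjective fun C _ _ J hJ τ => ?_
  haveI : CharP (k × C) p := charP_of_injective_algebraMap (algebraMap (ZMod p) (k × C)).injective p
  haveI : CharP k p := charP_of_injective_algebraMap (algebraMap (ZMod p) k).injective p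
  obtain ⟨s, hs⟩ := Coef_lift p J hJ τ.toRingHom
  refine ⟨⟨s, fun r => ?_⟩, AlgHom.ext fun a => hs a⟩
  exact RingHom.congr_fun (RingHom.ext_zmod (s.comp (algebraMap (ZMod p) k)) (algebraMap _ C)) r

/-- every field extension in characteristic zero is formally smooth -/
theorem formallySmooth_charZero (F k : Type*) [Field F] [Field k] [CharZero F] [Algebra F k] :
    Algebra.FormallySmooth F k := by
  obtain ⟨s, hs⟩ := exists_isTranscendenceBasis F k
  haveI := hs.isAlgebraic_field
  haveI : CharZero (IntermediateField.adjoin F (Set.range ((↑) : s → k))) :=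
    algebraRat.charZero _
  exact .of_algebraicIndependent_of_isSeparable hs.1

/-- lifting a formally smooth algebra along a surjection from a complete Noetherian local ring -/
theorem exists_lift_of_formallySmooth {F k P Q : Type*} [CommRing F] [CommRing k] [Algebra F k]
    [Algebra.FormallySmooth F k] [CommRing P] [IsLocalRing P] [IsNoetherianRing P]
    [IsAdicComplete (maximalIdeal P) P] [Algebra F P] [CommRing Q] [Nontrivial Q] [Algebra F Q]
    (π : P →ₐ[F] Q) (hπ : Function.Surjective π) (τ : k →ₐ[F] Q) :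
    ∃ s : k →ₐ[F] P, π.comp s = τ := by
  have hI : RingHom.ker π ≠ ⊤ := RingHom.ker_ne_top π
  haveI : IsHausdorff (RingHom.ker π) P := IsHausdorff.of_isLocalRing _ _ hI
  haveI : IsPrecomplete (RingHom.ker π) P := ⟨fun x hx => by
    have hle : ∀ n : ℕ, (RingHom.ker π ^ n • ⊤ : Submodule P P) ≤ maximalIdeal P ^ n • ⊤ :=
      fun n => Submodule.smul_mono_left (Ideal.pow_right_mono (le_maximalIdeal hI) n)
    obtain ⟨L, hL⟩ := IsPrecomplete.prec' (I := maximalIdeal P) x
      fun h => (hx h).mono (hle _)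
    refine ⟨L, fun n => ?_⟩
    rw [SModEq.sub_mem]
    refine ColonA_krull _ _ fun N => ?_
    have h1 := SModEq.sub_mem.1 (hx (Nat.le_add_right n N))
    have h2 := SModEq.sub_mem.1 (hL (n + N))
    have e : x n - L = (x n - x (n + N)) + (x (n + N) - L) := by ring
    rw [e]
    refine Submodule.add_mem_sup h1 (Ideal.pow_le_pow_right (Nat.le_add_left N n) ?_)
    simpa using h2⟩
  haveI : IsAdicComplete (RingHom.ker π) P := {}
  let e := Ideal.quotientKerAlgEquivOfSurjective hπ
  obtain ⟨g, hg⟩ := Algebra.FormallySmooth.exists_mkₐ_comp_eq_of_isAdicComplete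
    (I := RingHom.ker π) (e.symm.toAlgHom.comp τ)
  refine ⟨g, AlgHom.ext fun a => ?_⟩
  have h1 : Ideal.Quotient.mk (RingHom.ker π) (g a) = e.symm (τ a) := AlgHom.congr_fun hg a
  have h2 : e (Ideal.Quotient.mk (RingHom.ker π) (g a)) = π (g a) := rfl
  rw [AlgHom.comp_apply, ← h2, h1, AlgEquiv.apply_symm_apply]

/-- a complete local ring of equal characteristic has a coefficient field -/
theorem exists_coefficient_field (P : Type*) [CommRing P] [IsLocalRing P]
    [IsAdicComplete (maximalIdeal P) P] (h : EqChar P) :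
    ∃ s : ResidueField P →+* P, ∀ a, residue P (s a) = a := by
  rcases h with ⟨p, hp, hc⟩ | h
  · haveI : Fact p.Prime := ⟨hp⟩
    letI : Algebra (ZMod p) P := ZMod.algebra P p
    haveI := formallySmooth_zmod p (ResidueField P)
    exact Coef_section (ZMod p) P
  · letI : Algebra ℚ P := (Coef_rat h).toAlgebra
    haveI := formallySmooth_charZero ℚ (ResidueField P)
    exact Coef_section ℚ P

theorem EqChar.map {A B : Type*} [CommRing A] [CommRing B] [Nontrivial B] (h : EqChar A)
    (f : A →+* B) : EqChar B := by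
  rcases h with ⟨p, hp, hc⟩ | h
  · refine Or.inl ⟨p, hp, (CharP.charP_iff_prime_eq_zero hp).2 ?_⟩
    rw [← map_natCast f, CharP.cast_eq_zero, map_zero]
  · exact Or.inr fun n hn => by simpa using (h n hn).map f

theorem eqChar_of_field (K A : Type*) [Field K] [CommRing A] [Nontrivial A] [Algebra K A] :
    EqChar A := by
  refine EqChar.map (A := K) ?_ (algebraMap K A)
  obtain h | ⟨p, hp, hc⟩ := CharP.exists' K
  · exact Or.inr fun n hn => (Nat.cast_ne_zero.2 hn).isUnit
  · exact Or.inl ⟨p, hp.out, hc⟩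

end Vale.Agent.P202
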