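import Vale.Agent.P202.PS
import Vale.Agent.P202.Coef

/-! Cohen presentations. -/

namespace Vale.Agent.P202

open IsLocalRing MvPowerSeries

universe u v

theorem Cohen_approx (S : Type*) [CommRing S] [IsLocalRing S] [IsNoetherianRing S] (N : ℕ)
    (y : AdicCompletion (maximalIdeal S) S) :
    ∃ a : S, y - algebraMap S _ a ∈
      (maximalIdeal S ^ N).map (algebraMap S (AdicCompletion (maximalIdeal S) S)) := by
  obtain ⟨z, hz⟩ := Submodule.Quotient.mk_surjective _ (y.1 N)
  refine ⟨z, ?_⟩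
  rw [← Submodule.restrictScalars_mem S, ← Ideal.smul_top_eq_map,
    AdicCompletion.pow_smul_top_eq_ker_eval (maximalIdeal S).fg_of_isNoetherianRing,
    LinearMap.mem_ker, map_sub, sub_eq_zero]
  exact hz.symm

theorem Cohen_cp_dense {A B C : Type*} [CommRing A] [CommRing B] [CommRing C] (j : A →+* B)
    (g : B →+* C) (n : Ideal A) (hd : ∀ y : B, ∃ a : A, y - j a ∈ n.map j)
    (h : CP (g.comp j) ⊥ ⊥) : CP g (n.map j) ⊥ := by
  intro a ha r b hb
  rw [sup_bot_eq] at hb ⊢
  have hn : n ≤ a.comap j := Ideal.map_le_iff_le_comap.1 ha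
  have ha0 : a = (a.comap j).map j := by
    refine le_antisymm (fun y hy => ?_) Ideal.map_comap_le
    obtain ⟨c, hc⟩ := hd y
    have hc' : c ∈ a.comap j := by
      have := a.sub_mem hy (ha hc)
      simpa using this
    have := Ideal.add_mem _ (Ideal.map_mono hn hc) (Ideal.mem_map_of_mem j hc')
    simpa using this
  obtain ⟨r0, hr0⟩ := hd r
  have h1 : (g.comp j) r0 * b ∈ (a.comap j).map (g.comp j) ⊔ ⊥ := by
    rw [sup_bot_eq, ← Ideal.map_map, ← ha0]
    have h2 : g (r - j r0) * b ∈ a.map g :=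
      Ideal.mul_mem_right _ _ (Ideal.mem_map_of_mem g (ha hr0))
    have := Ideal.sub_mem _ hb h2
    rw [map_sub] at this
    convert this using 1
    rw [RingHom.comp_apply]; ring
  have h3 := h (a.comap j) bot_le r0 b h1
  rw [sup_bot_eq, ← Ideal.map_map] at h3
  refine Ideal.map_mono ?_ h3
  rw [Ideal.map_le_iff_le_comap]
  intro c hc
  rw [Submodule.mem_colon_singleton, smul_eq_mul, Ideal.mem_comap, map_mul] at hc
  rw [Ideal.mem_comap, Submodule.mem_colon_singleton, smul_eq_mul]
  have := Ideal.add_mem _ hc (Ideal.mul_mem_left _ (j c) (ha hr0))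
  convert this using 1
  ring

theorem Cohen_extend (R : Type*) [CommRing R] [IsLocalRing R] {B : Type*} [CommRing B]
    (b : Ideal B) [IsAdicComplete b B] (f : R →+* B) (hf : (maximalIdeal R).map f ≤ b) :
    ∃ g : AdicCompletion (maximalIdeal R) R →+* B, g.comp (algebraMap R _) = f := by
  have hle : ∀ n : ℕ, maximalIdeal R ^ n ≤ (b ^ n).comap f := fun n => by
    rw [← Ideal.map_le_iff_le_comap, Ideal.map_pow]
    exact Ideal.pow_right_mono hf n
  let F : (n : ℕ) → AdicCompletion (maximalIdeal R) R →+* B ⧸ b ^ n := fun n =>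
    (Ideal.quotientMap (b ^ n) f (hle n)).comp (AdicCompletion.evalₐ (maximalIdeal R) n).toRingHom
  have hF : ∀ {m n : ℕ} (hmn : m ≤ n), (Ideal.Quotient.factorPow b hmn).comp (F n) = F m := by
    intro m n hmn
    ext y
    obtain ⟨c, rfl⟩ := AdicCompletion.mk_surjective (maximalIdeal R) R y
    simp only [F, RingHom.comp_apply, AlgHom.toRingHom_eq_coe, RingHom.coe_coe,
      AdicCompletion.evalₐ_mk, Ideal.quotientMap_mk, Ideal.Quotient.factorPow,
      Ideal.Quotient.factor_mk]
    rw [Ideal.Quotient.eq, ← map_sub]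
    apply hle m
    rw [← Ideal.Quotient.eq]
    exact AdicCompletion.Ideal.mk_eq_mk _ hmn c
  refine ⟨IsAdicComplete.liftRingHom b F hF, ?_⟩
  apply DFunLike.coe_injective
  apply IsHausdorff.funext' b
  intro n r
  rw [RingHom.comp_apply, IsAdicComplete.mk_liftRingHom]
  simp only [F, RingHom.comp_apply, AlgHom.toRingHom_eq_coe, RingHom.coe_coe,
    AdicCompletion.algebraMap_apply, Algebra.algebraMap_self, RingHom.id_apply,
    AdicCompletion.evalₐ_of, Ideal.quotientMap_mk]

theorem Cohen_map_max {S : Type*} [CommRing S] [IsLocalRing S] [IsNoetherianRing S]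
    {σ : Type} [Fintype σ] {w : σ → S} (hw : Ideal.span (Set.range w) = maximalIdeal S)
    {k : Type*} [Field k] (π : MvPowerSeries σ k →+* AdicCompletion (maximalIdeal S) S)
    (hπ : ∀ i, π (X i) = algebraMap S _ (w i)) :
    (maximalIdeal (MvPowerSeries σ k)).map π =
      (maximalIdeal S).map (algebraMap S (AdicCompletion (maximalIdeal S) S)) := by
  refine Eq.trans ?_ (congrArg (Ideal.map (algebraMap S (AdicCompletion (maximalIdeal S) S))) hw)
  rw [maximalIdeal_ps, Ideal.map_span, Ideal.map_span, ← Set.range_comp, ← Set.range_comp]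
  congr 2
  exact funext hπ

/-- the completion is a quotient of a power series ring over the residue field -/
theorem cohen0 (S : Type v) [CommRing S] [IsLocalRing S] [IsNoetherianRing S] (hE : EqChar S)
    {σ : Type} [Fintype σ] (w : σ → S) (hw : Ideal.span (Set.range w) = maximalIdeal S) :
    ∃ π : MvPowerSeries σ (ResidueField S) →+* AdicCompletion (maximalIdeal S) S,
      Function.Surjective π ∧ ∀ i, π (X i) = algebraMap S _ (w i) := by
  obtain ⟨s, hs⟩ := exists_coefficient_field (AdicCompletion (maximalIdeal S) S)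
    (hE.map (algebraMap S _))
  obtain ⟨π, hC, hX⟩ := exists_ev (σ := σ) (maximalIdeal (AdicCompletion (maximalIdeal S) S))
    (s.comp (ResidueField.map (algebraMap S (AdicCompletion (maximalIdeal S) S))))
    (fun i => algebraMap S _ (w i)) (fun i => by
      rw [AdicCompletion.maximalIdeal_eq_map]
      exact Ideal.mem_map_of_mem _ (hw ▸ Ideal.subset_span ⟨i, rfl⟩))
  refine ⟨π, ?_, hX⟩
  have hm : (maximalIdeal (MvPowerSeries σ (ResidueField S))).map π =
      maximalIdeal (AdicCompletion (maximalIdeal S) S) := by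
    rw [Cohen_map_max hw π hX, AdicCompletion.maximalIdeal_eq_map]
  have hH : IsHausdorff ((maximalIdeal (MvPowerSeries σ (ResidueField S))).map π)
      (AdicCompletion (maximalIdeal S) S) := by
    rw [hm]; infer_instance
  refine surjective_of_mk_map_comp_surjective
    (I := maximalIdeal (MvPowerSeries σ (ResidueField S))) π fun y => ?_
  obtain ⟨y, rfl⟩ := Ideal.Quotient.mk_surjective y
  obtain ⟨c, hc⟩ := (AdicCompletion.residueField_map_bijective S).2 (residue _ y)
  refine ⟨C c, ?_⟩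
  rw [RingHom.comp_apply, Ideal.Quotient.eq, hm, hC, RingHom.comp_apply, hc,
    ← residue_eq_zero_iff, map_sub, hs, sub_self]

/-- an unramified flat extension which is a quotient of a power series ring over an algebraically
closed field -/
theorem cohen (S : Type v) [CommRing S] [IsLocalRing S] [IsNoetherianRing S] (hE : EqChar S)
    {σ : Type} [Fintype σ] (w : σ → S) (hw : Ideal.span (Set.range w) = maximalIdeal S) :
    ∃ (L : Type v) (_ : Field L) (_ : IsAlgClosed L) (J : Ideal (MvPowerSeries σ L))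
      (ι : S →+* MvPowerSeries σ L ⧸ J),
      J ≠ ⊤ ∧ (∀ i, ι (w i) = Ideal.Quotient.mk J (X i)) ∧ CP ι ⊥ ⊥ := by
  obtain ⟨π, hπ, hX⟩ := cohen0 S hE w hw
  let L := AlgebraicClosure (ResidueField S)
  let ψ : MvPowerSeries σ (ResidueField S) →+* MvPowerSeries σ L :=
    MvPowerSeries.map (algebraMap (ResidueField S) L)
  have hψ : ∀ i, ψ (X i) = X i := fun i => MvPowerSeries.map_X _ _
  have hcp : CP ψ ⊥ ⊥ := cp_ps ψ id Function.injective_id hψ
  let J : Ideal (MvPowerSeries σ L) := (RingHom.ker π).map ψ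
  let g : AdicCompletion (maximalIdeal S) S →+* MvPowerSeries σ L ⧸ J :=
    π.liftOfSurjective hπ ⟨(Ideal.Quotient.mk J).comp ψ, fun a ha => by
      rw [RingHom.mem_ker, RingHom.comp_apply, Ideal.Quotient.eq_zero_iff_mem]
      exact Ideal.mem_map_of_mem _ ha⟩
  have hg : g.comp π = (Ideal.Quotient.mk J).comp ψ := RingHom.liftOfRightInverse_comp _ _ _ _
  refine ⟨L, inferInstance, inferInstance, J, g.comp (algebraMap S _), ?_, fun i => ?_, ?_⟩
  · have h1 : RingHom.ker π ≤ maximalIdeal _ := le_maximalIdeal (RingHom.ker_ne_top π)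
    have h2 : J ≤ maximalIdeal (MvPowerSeries σ L) := by
      refine (Ideal.map_mono h1).trans ?_
      rw [maximalIdeal_ps, maximalIdeal_ps, Ideal.map_span, Ideal.span_le]
      rintro _ ⟨_, ⟨i, rfl⟩, rfl⟩
      rw [hψ]
      exact Ideal.subset_span ⟨_, rfl⟩
    exact ne_top_of_le_ne_top (maximalIdeal.isMaximal _).ne_top h2
  · rw [RingHom.comp_apply, ← hX, ← RingHom.comp_apply, hg, RingHom.comp_apply, hψ]
  · refine CP.comp CP.of_flat ?_
    rw [Ideal.map_bot, ← cp_surj_comp_iff hπ, hg, cp_comp_surj_iff Ideal.Quotient.mk_surjective]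
    refine (hcp.mono bot_le).congr_sup ?_
    rw [← RingHom.ker_eq_comap_bot, ← RingHom.ker_eq_comap_bot, Ideal.mk_ker, sup_bot_eq, sup_idem]

/-- simultaneous presentations of the source and the target of a flat local map -/
theorem setup (R : Type u) (S : Type v) [CommRing R] [IsLocalRing R] [IsNoetherianRing R]
    [CommRing S] [IsLocalRing S] [IsNoetherianRing S] [Algebra R S]
    [IsLocalHom (algebraMap R S)] [Module.Flat R S] (hE : EqChar R) {σ τ : Type} [Fintype σ]
    [Fintype τ] (xs : σ → R) (hx : Ideal.span (Set.range xs) = maximalIdeal R) (ys : τ → S)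
    (hy : Ideal.span (Set.range ys) = maximalIdeal S) :
    ∃ (L : Type v) (_ : Field L) (_ : IsAlgClosed L)
      (I : Ideal (MvPowerSeries σ (ResidueField R))) (J : Ideal (MvPowerSeries (σ ⊕ τ) L))
      (ι : S →+* MvPowerSeries (σ ⊕ τ) L ⧸ J)
      (t : MvPowerSeries σ (ResidueField R) →+* MvPowerSeries (σ ⊕ τ) L ⧸ J),
      I ≠ ⊤ ∧ J ≠ ⊤ ∧
      (∀ i, ι (algebraMap R S (xs i)) = Ideal.Quotient.mk J (X (Sum.inl i))) ∧
      (∀ j, ι (ys j) = Ideal.Quotient.mk J (X (Sum.inr j))) ∧ CP ι ⊥ ⊥ ∧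
      (∀ i, t (X i) = Ideal.Quotient.mk J (X (Sum.inl i))) ∧ (∀ a ∈ I, t a = 0) ∧ CP t I ⊥ ∧
      (∀ N : ℕ, cl (I ⊔ maximalIdeal (MvPowerSeries σ (ResidueField R)) ^ N) =
        cl (maximalIdeal R ^ N)) ∧
      ∀ (d : ℕ) (W : Ideal R), Gen W d → W ≤ maximalIdeal R → Prim W →
        ∃ W' : Ideal (MvPowerSeries σ (ResidueField R)),
          Gen W' d ∧ W' ≤ maximalIdeal _ ∧ Prim (I ⊔ W') := by
  have hxm : ∀ i, xs i ∈ maximalIdeal R := fun i => hx ▸ Ideal.subset_span ⟨i, rfl⟩
  have hw : Ideal.span (Set.range (Sum.elim (fun i => algebraMap R S (xs i)) ys)) =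
      maximalIdeal S := by
    refine le_antisymm ?_ ?_
    · rw [Ideal.span_le]
      rintro _ ⟨i | i, rfl⟩
      · exact map_nonunit (algebraMap R S) _ (hxm i)
      · exact hy ▸ Ideal.subset_span ⟨i, rfl⟩
    · rw [← hy]
      exact Ideal.span_mono (by rintro _ ⟨i, rfl⟩; exact ⟨Sum.inr i, rfl⟩)
  obtain ⟨L, iL, iL', J, ι, hJ, hι, hcp⟩ := cohen S (hE.map (algebraMap R S)) _ hw
  obtain ⟨π, hπ, hX⟩ := cohen0 R hE xs hx
  haveI : Nontrivial (MvPowerSeries (σ ⊕ τ) L ⧸ J) := Ideal.Quotient.nontrivial_iff.2 hJ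
  haveI : IsLocalRing (MvPowerSeries (σ ⊕ τ) L ⧸ J) :=
    IsLocalRing.of_surjective' (Ideal.Quotient.mk J) Ideal.Quotient.mk_surjective
  haveI := complete_of_surjective (Ideal.Quotient.mk J) Ideal.Quotient.mk_surjective
  haveI : IsLocalHom (Ideal.Quotient.mk J) :=
    IsLocalHom.of_surjective _ Ideal.Quotient.mk_surjective
  have hf : (maximalIdeal R).map (ι.comp (algebraMap R S)) ≤ maximalIdeal _ := by
    rw [← hx, Ideal.map_span, Ideal.span_le]
    rintro _ ⟨_, ⟨i, rfl⟩, rfl⟩
    have := hι (Sum.inl i)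
    rw [Sum.elim_inl] at this
    rw [RingHom.comp_apply, this]
    refine map_nonunit (Ideal.Quotient.mk J) _ ?_
    rw [maximalIdeal_ps]
    exact Ideal.subset_span ⟨_, rfl⟩
  obtain ⟨g, hg⟩ := Cohen_extend R _ _ hf
  have hm := Cohen_map_max hx π hX
  have hmN : ∀ N : ℕ, (maximalIdeal (MvPowerSeries σ (ResidueField R)) ^ N).map π =
      (maximalIdeal R ^ N).map (algebraMap R (AdicCompletion (maximalIdeal R) R)) := fun N => by
    rw [Ideal.map_pow, Ideal.map_pow, hm]
  have hcm : ∀ a : Ideal (MvPowerSeries σ (ResidueField R)),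
      (a.map π).comap π = RingHom.ker π ⊔ a := fun a => by
    rw [Ideal.comap_map_of_surjective π hπ, ← RingHom.ker_eq_comap_bot, sup_comm]
  refine ⟨L, iL, iL', RingHom.ker π, J, ι, g.comp π, RingHom.ker_ne_top π, hJ,
    fun i => hι (Sum.inl i), fun i => hι (Sum.inr i), hcp, fun i => ?_, fun a ha => ?_, ?_,
    fun N => ?_, ?_⟩
  · rw [RingHom.comp_apply, hX, ← RingHom.comp_apply, hg]
    exact hι (Sum.inl i)
  · rw [RingHom.comp_apply, (RingHom.mem_ker).1 ha, map_zero]
  · refine CP.of_pow (maximalIdeal _) ?_ fun N => ?_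
    · rw [← Ideal.map_map, hm, Ideal.map_map, hg]
      exact hf
    · rw [← hcm, cp_surj_comp_iff hπ, hmN]
      refine Cohen_cp_dense _ g _ (Cohen_approx R N) ?_
      rw [hg]
      exact CP.comp CP.of_flat (by rwa [Ideal.map_bot])
  · rw [← hcm, cl, rl_comap_of_surjective π hπ, hmN, cl]
    have h1 := CP.rl_map (CP.of_flat (A := R) (B := AdicCompletion (maximalIdeal R) R))
      (a := maximalIdeal R ^ N) bot_le (rl_ne_top_of_prim ⟨N, le_rfl⟩)
    rw [sup_bot_eq, sup_bot_eq, ← AdicCompletion.maximalIdeal_eq_map, rl_maximal, mul_one] at h1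
    rw [h1]
  · rintro d W ⟨v, rfl⟩ hWm ⟨c, hc⟩
    choose v' hv' using fun i => hπ (algebraMap R _ (v i))
    refine ⟨Ideal.span (Set.range v'), ⟨v', rfl⟩, ?_, c, ?_⟩
    · rw [Ideal.span_le]
      rintro _ ⟨i, rfl⟩ hu
      have h1 := hu.map π
      rw [hv'] at h1
      exact map_nonunit (algebraMap R (AdicCompletion (maximalIdeal R) R)) _
        (hWm (Ideal.subset_span ⟨i, rfl⟩)) h1
    · rw [← hcm, ← Ideal.map_le_iff_le_comap, hmN]
      refine (Ideal.map_mono hc).trans (le_of_eq ?_)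
      rw [Ideal.map_span, Ideal.map_span, ← Set.range_comp, ← Set.range_comp]
      congr 2
      exact funext fun i => (hv' i).symm

end Vale.Agent.P202
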