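import Vale.Agent.P202.PSc
import Vale.Agent.P202.Cohen

/-! Existence of Cohen rings. -/

namespace Vale.Agent.P202

open IsLocalRing Polynomial

universe u

theorem CohenA_dvr {p : ℕ} {V : Type*} [CommRing V] [IsDomain V] (hp : Prime (p : V))
    (h : ∀ x : V, x ≠ 0 → ∃ (n : ℕ) (u : V), IsUnit u ∧ x = p ^ n * u) :
    ∃ _ : IsDiscreteValuationRing V, maximalIdeal V = Ideal.span {(p : V)} := by
  have : IsDiscreteValuationRing V :=
    IsDiscreteValuationRing.ofHasUnitMulPowIrreducibleFactorization ⟨p, hp.irreducible, by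
      intro x hx
      obtain ⟨n, u, hu, rfl⟩ := h x hx
      exact ⟨n, associated_mul_unit_right _ _ hu⟩⟩
  exact ⟨this, (IsDiscreteValuationRing.irreducible_iff_uniformizer _).1 hp.irreducible⟩

section

variable {O : Type*} [CommRing O] [IsDomain O] [IsLocalRing O]

omit [IsDomain O] in
theorem CohenA_root (H : ∀ f : O[X], f.Monic → f.natDegree ≠ 0 → ∃ r, f.IsRoot r)
    (a : ResidueField O) (n : ℕ) : ∀ f : O[X], f.Monic → f.natDegree = n →
      eval₂ (residue O) a f = 0 → ∃ x, f.eval x = 0 ∧ residue O x = a := by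
  induction n with
  | zero =>
    intro f hf h0 h
    rw [hf.natDegree_eq_zero.1 h0, eval₂_one] at h
    exact absurd h one_ne_zero
  | succ n ih =>
    intro f hf hn h
    obtain ⟨r, hr⟩ := H f hf (by omega)
    obtain ⟨g, rfl⟩ := dvd_iff_isRoot.2 hr
    have hg : g.Monic := (monic_X_sub_C r).of_mul_monic_left hf
    rw [eval₂_mul, eval₂_sub, eval₂_X, eval₂_C] at h
    rcases mul_eq_zero.1 h with h | h
    · exact ⟨r, hr, (sub_eq_zero.1 h).symm⟩
    · rw [(monic_X_sub_C r).natDegree_mul hg, natDegree_X_sub_C] at hn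
      obtain ⟨x, hx, hxa⟩ := ih g hg (by omega) h
      exact ⟨x, by rw [eval_mul, hx, mul_zero], hxa⟩

/-- the subrings considered in the Zorn argument -/
def CohenA_Good (p : ℕ) (k : Subfield (ResidueField O)) (A : Subring O) : Prop :=
  (∀ a ∈ A, residue O a ∈ k) ∧
    ∀ a ∈ A, a ≠ 0 → ∃ (n : ℕ) (u : O), u ∈ A ∧ residue O u ≠ 0 ∧ a = p ^ n * u

variable {p : ℕ} {k : Subfield (ResidueField O)} {A : Subring O}

omit [IsDomain O] in
theorem CohenA_dvd (hA : CohenA_Good p k A) (a : A) (ha : residue O a = 0) : (p : A) ∣ a := by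
  by_cases h0 : (a : O) = 0
  · rw [show a = 0 from Subtype.ext h0]; exact dvd_zero _
  obtain ⟨n, u, hu, hu', e⟩ := hA.2 a a.2 h0
  cases n with
  | zero => rw [e, pow_zero, one_mul] at ha; exact absurd ha hu'
  | succ n =>
    refine ⟨p ^ n * ⟨u, hu⟩, Subtype.ext ?_⟩
    push_cast
    rw [e]; ring

theorem CohenA_ext (hp : (p : O) ≠ 0) (hA : CohenA_Good p k A) {x : O} (hx : residue O x ∈ k)
    (T : A[X] → Prop) (hT : ∀ g, T (C (p : A) * g) → T g)
    (hind : ∀ g, T g → residue O (eval₂ A.subtype x g) = 0 → ∀ i, residue O (g.coeff i) = 0)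
    (hgen : ∀ g, ∃ g', T g' ∧ eval₂ A.subtype x g' = eval₂ A.subtype x g) :
    CohenA_Good p k (eval₂RingHom A.subtype x).range := by
  constructor
  · rintro _ ⟨g, rfl⟩
    rw [coe_eval₂RingHom, eval₂_eq_sum_range, map_sum]
    refine k.sum_mem fun i _ => ?_
    rw [map_mul, map_pow]
    exact k.mul_mem (hA.1 _ (g.coeff i).2) (k.pow_mem hx i)
  · have key : ∀ (n i : ℕ) (g : A[X]) (u : O), T g → residue O u ≠ 0 →
        (g.coeff i : O) = p ^ n * u → ∃ (m : ℕ) (v : O), v ∈ (eval₂RingHom A.subtype x).range ∧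
          residue O v ≠ 0 ∧ eval₂ A.subtype x g = p ^ m * v := by
      intro n
      induction n with
      | zero =>
        intro i g u hg hu e
        refine ⟨0, _, ⟨g, rfl⟩, fun h => hu ?_, by simp⟩
        have := hind g hg h i
        rwa [e, pow_zero, one_mul] at this
      | succ n ih =>
        intro i g u hg hu e
        by_cases h : residue O (eval₂ A.subtype x g) = 0
        · obtain ⟨g', rfl⟩ := (C_dvd_iff_dvd_coeff (p : A) g).2 fun j =>
            CohenA_dvd hA _ (hind g hg h j)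
          obtain ⟨m, v, hv, hv', e'⟩ := ih i g' u (hT _ hg) hu (by
            rw [coeff_C_mul] at e
            push_cast at e
            refine mul_left_cancel₀ hp ?_
            rw [e]; ring)
          refine ⟨m + 1, v, hv, hv', ?_⟩
          rw [eval₂_mul, eval₂_C, e', map_natCast]; ring
        · exact ⟨0, _, ⟨g, rfl⟩, h, by simp⟩
    rintro _ ⟨g, rfl⟩ h0
    obtain ⟨g', hg', e⟩ := hgen g
    rw [coe_eval₂RingHom, ← e] at h0 ⊢
    have h1 : g' ≠ 0 := by rintro rfl; exact h0 (eval₂_zero _ _)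
    obtain ⟨n, u, -, hu, e'⟩ := hA.2 _ (g'.coeff g'.natDegree).2
      fun h => leadingCoeff_ne_zero.2 h1 (Subtype.ext h)
    exact key n _ g' u hg' hu e'

omit [IsDomain O] in
theorem CohenA_inv (hA : Maximal (CohenA_Good p k) A) {u : O} (hu : u ∈ A)
    (hu' : residue O u ≠ 0) : ∃ w ∈ A, u * w = 1 := by
  let B : Subring O :=
    { carrier := {y | ∃ u ∈ A, residue O u ≠ 0 ∧ u * y ∈ A}
      mul_mem' := by
        rintro a b ⟨u, hu, hu', ha⟩ ⟨v, hv, hv', hb⟩
        refine ⟨u * v, A.mul_mem hu hv, by rw [map_mul]; exact mul_ne_zero hu' hv', ?_⟩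
        rw [mul_mul_mul_comm]; exact A.mul_mem ha hb
      one_mem' := ⟨1, A.one_mem, by simp, by simp⟩
      add_mem' := by
        rintro a b ⟨u, hu, hu', ha⟩ ⟨v, hv, hv', hb⟩
        refine ⟨u * v, A.mul_mem hu hv, by rw [map_mul]; exact mul_ne_zero hu' hv', ?_⟩
        have : u * v * (a + b) = v * (u * a) + u * (v * b) := by ring
        rw [this]; exact A.add_mem (A.mul_mem hv ha) (A.mul_mem hu hb)
      zero_mem' := ⟨1, A.one_mem, by simp, by simp⟩
      neg_mem' := by
        rintro a ⟨u, hu, hu', ha⟩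
        exact ⟨u, hu, hu', by rw [mul_neg]; exact A.neg_mem ha⟩ }
  have hAB : A ≤ B := fun a ha => ⟨1, A.one_mem, by simp, by simpa using ha⟩
  have hB : CohenA_Good p k B := by
    constructor
    · rintro y ⟨u, hu, hu', hy⟩
      have := k.div_mem (hA.prop.1 _ hy) (hA.prop.1 _ hu)
      rwa [map_mul, mul_div_cancel_left₀ _ hu'] at this
    · rintro y ⟨u, hu, hu', hy⟩ h0
      obtain ⟨w, hw⟩ := ((residue_ne_zero_iff_isUnit u).1 hu').exists_right_inv
      have e0 : w * (u * y) = y := by rw [← mul_assoc, mul_comm w, hw, one_mul]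
      obtain ⟨n, v, hv, hv', e⟩ := hA.prop.2 _ hy fun h => h0 (by rw [← e0, h, mul_zero])
      refine ⟨n, w * v, ⟨u, hu, hu', by rwa [← mul_assoc, hw, one_mul]⟩, ?_, ?_⟩
      · rw [map_mul]
        refine mul_ne_zero (fun h => ?_) hv'
        have := congrArg (residue O) hw
        rw [map_mul, h, mul_zero, map_one] at this
        exact zero_ne_one this
      · rw [← e0, e]; ring
  obtain ⟨w, hw⟩ := ((residue_ne_zero_iff_isUnit u).1 hu').exists_right_inv
  exact ⟨w, hA.le_of_ge hB hAB ⟨u, hu, hu', by rw [hw]; exact A.one_mem⟩, hw⟩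

theorem CohenA_surj (H : ∀ f : O[X], f.Monic → f.natDegree ≠ 0 → ∃ r, f.IsRoot r)
    (hp : (p : O) ≠ 0) (hA : Maximal (CohenA_Good p k) A) {a : ResidueField O} (ha : a ∈ k) :
    ∃ x ∈ A, residue O x = a := by
  classical
  let ρ : A →+* ResidueField O := (residue O).comp A.subtype
  have fin : ∀ x, residue O x = a → CohenA_Good p k (eval₂RingHom A.subtype x).range →
      ∃ x ∈ A, residue O x = a := fun x hx hg =>
    ⟨x, hA.le_of_ge hg (fun y hy => ⟨C ⟨y, hy⟩, by simp⟩) ⟨X, by simp⟩, hx⟩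
  have hev : ∀ x, residue O x = a → ∀ g : A[X],
      residue O (eval₂ A.subtype x g) = (g.map ρ).eval a := fun x hx g => by
    rw [hom_eval₂, hx, eval_map]
  have hco : ∀ g : A[X], g.map ρ = 0 → ∀ i, residue O (g.coeff i) = 0 := fun g hg i => by
    have := congrArg (coeff · i) hg
    simp only [coeff_map, coeff_zero] at this
    exact this
  by_cases hex : ∃ d, ∃ g : A[X], g.map ρ ≠ 0 ∧ (g.map ρ).eval a = 0 ∧ (g.map ρ).natDegree = d
  · obtain ⟨g, hg0, hga, hgd⟩ := Nat.find_spec hex
    obtain ⟨w, hw, hw1⟩ := CohenA_inv hA (g.coeff (g.map ρ).natDegree).2 (by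
      have := leadingCoeff_ne_zero.2 hg0
      rwa [leadingCoeff, coeff_map] at this)
    have hw2 : ρ ⟨w, hw⟩ * (g.map ρ).leadingCoeff = 1 := by
      rw [leadingCoeff, coeff_map, ← map_mul, mul_comm]
      exact (congrArg (residue O) hw1).trans (map_one _)
    have hw3 : ρ ⟨w, hw⟩ ≠ 0 := left_ne_zero_of_mul_eq_one hw2
    obtain ⟨f, hf, hfd, hfm⟩ := lifts_and_natDegree_eq_and_monic (f := ρ)
      (p := C (ρ ⟨w, hw⟩) * g.map ρ) ⟨C ⟨w, hw⟩ * g, by simp⟩ (monic_C_mul_of_mul_leadingCoeff_eq_one hw2)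
    rw [natDegree_C_mul hw3, hgd] at hfd
    obtain ⟨x, hx, hxa⟩ := CohenA_root H a _ (f.map A.subtype) (hfm.map _) rfl (by
      rw [eval₂_map, ← eval_map]
      change (f.map ρ).eval a = 0
      rw [hf, eval_mul, hga, mul_zero])
    rw [eval_map] at hx
    have hpA : (p : A) ≠ 0 := fun h => hp (by simpa using congrArg A.subtype h)
    refine fin x hxa (CohenA_ext hp hA.prop (hxa ▸ ha) (fun g => g.degree < f.degree)
      (fun g hg => by rwa [degree_C_mul hpA] at hg) (fun g hg h => hco g ?_) fun g =>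
        ⟨g %ₘ f, degree_modByMonic_lt _ hfm, ?_⟩)
    · by_contra h0
      rw [hev x hxa] at h
      have h1 := Nat.find_min' hex ⟨g, h0, h, rfl⟩
      have h2 : g ≠ 0 := by rintro rfl; exact h0 (Polynomial.map_zero _)
      have h3 := natDegree_lt_natDegree h2 hg
      have h4 : (g.map ρ).natDegree ≤ g.natDegree := natDegree_map_le
      omega
    · conv_rhs => rw [← modByMonic_add_div g f, eval₂_add, eval₂_mul, hx, zero_mul, add_zero]
  · obtain ⟨x, hxa⟩ := residue_surjective a
    refine fin x hxa (CohenA_ext hp hA.prop (hxa ▸ ha) (fun _ => True) (fun _ _ => trivial)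
      (fun g _ h => hco g ?_) fun g => ⟨g, trivial, rfl⟩)
    by_contra h0
    rw [hev x hxa] at h
    exact hex ⟨_, g, h0, h, rfl⟩

omit [IsDomain O] in
theorem CohenA_max [Fact p.Prime] [CharP (ResidueField O) p] (k : Subfield (ResidueField O)) :
    ∃ A, Maximal (CohenA_Good p k) A := by
  have h0 : CohenA_Good p k ⊥ := by
    constructor
    · intro a ha
      obtain ⟨n, rfl⟩ := Subring.mem_bot.1 ha
      rw [map_intCast]; exact intCast_mem k n
    · intro a ha h0
      obtain ⟨n, rfl⟩ := Subring.mem_bot.1 ha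
      have hn : n ≠ 0 := by rintro rfl; exact h0 Int.cast_zero
      obtain ⟨e, m, hm, rfl⟩ := WfDvdMonoid.max_power_factor hn
        (Nat.prime_iff_prime_int.1 (Fact.out : p.Prime)).irreducible
      refine ⟨e, m, intCast_mem _ m, ?_, by push_cast; rfl⟩
      rw [map_intCast]
      exact fun h => hm ((CharP.intCast_eq_zero_iff _ p m).1 h)
  obtain ⟨A, -, hA⟩ := zorn_le_nonempty₀ {A | CohenA_Good p k A} (fun c hc hch y hy => by
    refine ⟨sSup c, ⟨fun x hx => ?_, fun x hx h0 => ?_⟩, fun z hz => le_sSup hz⟩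
    · obtain ⟨G, hG, hx⟩ := (Subring.mem_sSup_of_directedOn ⟨y, hy⟩ hch.directedOn).1 hx
      exact (hc hG).1 x hx
    · obtain ⟨G, hG, hx⟩ := (Subring.mem_sSup_of_directedOn ⟨y, hy⟩ hch.directedOn).1 hx
      obtain ⟨n, u, hu, h⟩ := (hc hG).2 x hx h0
      exact ⟨n, u, le_sSup hG hu, h⟩) _ h0
  exact ⟨A, hA⟩

end

theorem exists_dvr (p : ℕ) [Fact p.Prime] (k : Type u) [Field k] [CharP k p] :
    ∃ (V : Type u) (_ : CommRing V) (_ : IsDomain V) (_ : IsDiscreteValuationRing V)
      (π : V →+* k), maximalIdeal V = Ideal.span {(p : V)} ∧ Function.Surjective π := by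
  let L := AlgebraicClosure k
  let W := WittVector p L
  let K := AlgebraicClosure (FractionRing W)
  let f : W →+* K := (algebraMap (FractionRing W) K).comp (algebraMap W (FractionRing W))
  have hf : Function.Injective f :=
    (algebraMap (FractionRing W) K).injective.comp (IsFractionRing.injective W _)
  obtain ⟨O, hO, hloc⟩ := IsLocalRing.exists_factor_valuationRing f
  let φ : W →+* O := f.codRestrict O.toSubring hO
  have : IsLocalHom φ := hloc
  let j0 : L →+* ResidueField O := (WittVector.constantCoeff : W →+* L).liftOfSurjective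
    (WittVector.constantCoeff_surjective p) ⟨(residue O).comp φ, fun a ha => by
      rw [RingHom.mem_ker, RingHom.comp_apply, residue_eq_zero_iff]
      exact map_nonunit φ a (le_maximalIdeal (RingHom.ker_ne_top _) ha)⟩
  let j : k →+* ResidueField O := j0.comp (algebraMap k L)
  have : CharP (ResidueField O) p := charP_of_injective_ringHom j.injective p
  have hp : (p : O) ≠ 0 := fun h => WittVector.p_nonzero p L (hf (by
    rw [map_natCast, map_zero]
    simpa using congrArg O.subtype h))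
  have H : ∀ g : O[X], g.Monic → g.natDegree ≠ 0 → ∃ r, g.IsRoot r := fun g hg h0 => by
    obtain ⟨r, hr⟩ := IsAlgClosed.exists_eval₂_eq_zero_of_injective (algebraMap O K)
      (IsFractionRing.injective O K) g (fun h => h0 (natDegree_eq_of_degree_eq_some h))
    obtain ⟨x, rfl⟩ := IsIntegrallyClosed.algebraMap_eq_of_integral (R := O) (K := K) ⟨g, hg, hr⟩
    refine ⟨x, IsFractionRing.injective O K ?_⟩
    rw [← eval₂_at_apply, hr, map_zero]
  obtain ⟨A, hA⟩ := CohenA_max (p := p) j.fieldRange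
  have hpr : Prime (p : A) := by
    refine ⟨fun h => hp (by simpa using congrArg A.subtype h), fun h => ?_, fun a b hab => ?_⟩
    · have := h.map ((residue O).comp A.subtype)
      rw [map_natCast, CharP.cast_eq_zero] at this
      exact not_isUnit_zero this
    · have := map_dvd ((residue O).comp A.subtype) hab
      rw [map_natCast, CharP.cast_eq_zero, zero_dvd_iff, map_mul] at this
      exact (mul_eq_zero.1 this).imp (CohenA_dvd hA.prop a) (CohenA_dvd hA.prop b)
  obtain ⟨i, hi⟩ := CohenA_dvr hpr fun x hx => by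
    obtain ⟨n, u, hu, hu', e⟩ := hA.prop.2 x x.2 fun h => hx (Subtype.ext h)
    obtain ⟨w, hw, hw1⟩ := CohenA_inv hA hu hu'
    exact ⟨n, ⟨u, hu⟩, IsUnit.of_mul_eq_one ⟨w, hw⟩ (Subtype.ext hw1),
      Subtype.ext (by push_cast; exact e)⟩
  let r : A →+* j.fieldRange :=
    ((residue O).comp A.subtype).codRestrict _ fun x => hA.prop.1 x x.2
  refine ⟨A, inferInstance, inferInstance, i, j.rangeRestrictFieldEquiv.symm.toRingHom.comp r, hi,
    j.rangeRestrictFieldEquiv.symm.surjective.comp fun a => ?_⟩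
  obtain ⟨x, hx, e⟩ := CohenA_surj H hp hA a.2
  exact ⟨⟨x, hx⟩, Subtype.ext e⟩

theorem CohenA_complete {p : ℕ} {V : Type*} [CommRing V] [IsLocalRing V]
    [IsHausdorff (maximalIdeal V) V] (hV : maximalIdeal V = Ideal.span {(p : V)})
    (hp : ∀ x : V, p * x = 0 → x = 0) :
    ∃ (_ : IsDomain V) (_ : IsDiscreteValuationRing V), True := by
  classical
  have h : ∀ x : V, x ≠ 0 → ∃ (n : ℕ) (u : V), IsUnit u ∧ x = p ^ n * u := fun x hx => by
    have hex : ∃ n : ℕ, ¬ (p : V) ^ (n + 1) ∣ x := by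
      by_contra hh
      push Not at hh
      refine hx (IsHausdorff.haus' (I := maximalIdeal V) x fun n => ?_)
      rw [SModEq.zero, smul_eq_mul, Ideal.mul_top, hV, Ideal.span_singleton_pow,
        Ideal.mem_span_singleton]
      exact (pow_dvd_pow _ n.le_succ).trans (hh n)
    have h1 := Nat.find_spec hex
    have h2 : (p : V) ^ Nat.find hex ∣ x := by
      rcases e : Nat.find hex with _ | n
      · simp
      · exact not_not.1 (Nat.find_min hex (by omega))
    obtain ⟨u, hu⟩ := h2
    refine ⟨_, u, ?_, hu⟩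
    by_contra h3
    have h4 : u ∈ maximalIdeal V := h3
    rw [hV, Ideal.mem_span_singleton] at h4
    apply h1
    conv_rhs => rw [hu]
    rw [pow_succ]
    exact mul_dvd_mul_left _ h4
  have hpow : ∀ (n : ℕ) (x : V), p ^ n * x = 0 → x = 0 := fun n => by
    induction n with
    | zero => simp
    | succ n ih => exact fun x hx => ih x (hp _ (by rw [← hx]; ring))
  have : NoZeroDivisors V := ⟨fun {a b} hab => by
    by_contra hh
    push Not at hh
    obtain ⟨n, u, hu, rfl⟩ := h a hh.1
    exact hh.2 (hu.mul_right_eq_zero.1 (hpow n _ (by rw [← hab]; ring)))⟩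
  have : IsDomain V := NoZeroDivisors.to_isDomain V
  have hpr : Prime (p : V) := (Ideal.span_singleton_prime fun h0 =>
    one_ne_zero (hp 1 (by rw [h0, zero_mul]))).1 (hV ▸ inferInstance)
  obtain ⟨i, -⟩ := CohenA_dvr hpr h
  exact ⟨inferInstance, i, trivial⟩

theorem exists_cohenRing (p : ℕ) [Fact p.Prime] (k : Type u) [Field k] [CharP k p] :
    ∃ (V : Type u) (_ : CommRing V) (_ : IsDomain V) (_ : IsDiscreteValuationRing V)
      (_ : IsAdicComplete (maximalIdeal V) V) (π : V →+* k),
      maximalIdeal V = Ideal.span {(p : V)} ∧ Function.Surjective π := by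
  obtain ⟨V, _, _, _, π, hV, hπ⟩ := exists_dvr p k
  have hp0 : (p : V) ≠ 0 := fun h =>
    IsDiscreteValuationRing.not_a_field V (by rw [hV, h, Ideal.span_singleton_eq_bot])
  have hm : maximalIdeal (AdicCompletion (maximalIdeal V) V) =
      Ideal.span {(p : AdicCompletion (maximalIdeal V) V)} := by
    refine AdicCompletion.maximalIdeal_eq_map.trans ((congrArg (Ideal.map _) hV).trans ?_)
    rw [Ideal.map_span, Set.image_singleton, map_natCast]
  have hreg : ∀ x : AdicCompletion (maximalIdeal V) V, p * x = 0 → x = 0 := fun x hx => by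
    refine (Module.Flat.isSMulRegular_of_nonZeroDivisors
      (M := AdicCompletion (maximalIdeal V) V) (mem_nonZeroDivisors_of_ne_zero hp0)).right_eq_zero_of_smul ?_
    rwa [Algebra.smul_def, map_natCast]
  obtain ⟨i1, i2, -⟩ := CohenA_complete hm hreg
  obtain ⟨g, hg⟩ := Cohen_extend V (⊥ : Ideal k) π (by
    rw [hV, Ideal.map_span, Set.image_singleton, map_natCast, CharP.cast_eq_zero,
      Ideal.span_singleton_eq_bot.2 rfl])
  refine ⟨_, inferInstance, i1, i2, inferInstance, g, hm, fun a => ?_⟩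
  obtain ⟨v, rfl⟩ := hπ a
  exact ⟨algebraMap V _ v, RingHom.congr_fun hg v⟩

end Vale.Agent.P202
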