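import Vale.Agent.P202.Coef

/-! The lifting property of Cohen rings. -/

namespace Vale.Agent.P202

open IsLocalRing

variable {p : ℕ} [Fact p.Prime] {V : Type*} [CommRing V] [IsDomain V] [IsDiscreteValuationRing V]

theorem CohenB_section (hV : maximalIdeal V = Ideal.span {(p : V)}) {E : Type*} [CommRing E]
    (f : E →+* V) (hf : Function.Surjective f)
    (hsq : ∀ x y, f x = 0 → f y = 0 → x * y = 0) (hp : ∀ x, f x = 0 → (p : E) * x = 0) :
    ∃ s : V →+* E, ∀ v, f (s v) = v := by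
  have hp0 : (p : V) ≠ 0 := fun h =>
    IsDiscreteValuationRing.not_a_field V (by rw [hV, h, Ideal.span_singleton_eq_bot])
  have hres : ∀ v : V, residue V v = 0 ↔ (p : V) ∣ v := fun v => by
    rw [residue_eq_zero_iff, hV, Ideal.mem_span_singleton]
  let I : Ideal E := Ideal.span {(p : E)}
  have hI : ∀ x : E, Ideal.Quotient.mk I x = 0 ↔ (p : E) ∣ x := fun x => by
    rw [Ideal.Quotient.eq_zero_iff_mem, Ideal.mem_span_singleton]
  let r : E ⧸ I →+* ResidueField V := Ideal.Quotient.lift I ((residue V).comp f) fun a ha => by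
    obtain ⟨b, rfl⟩ := Ideal.mem_span_singleton.1 ha
    rw [RingHom.comp_apply, hres, map_mul, map_natCast]
    exact dvd_mul_right _ _
  have hr : ∀ x, r (Ideal.Quotient.mk I x) = residue V (f x) := fun _ => rfl
  have : Nontrivial (E ⧸ I) := r.domain_nontrivial
  have : CharP (E ⧸ I) p := (CharP.charP_iff_prime_eq_zero Fact.out).2 (by
    rw [← map_natCast (Ideal.Quotient.mk I), hI])
  have : CharP (ResidueField V) p := (CharP.charP_iff_prime_eq_zero Fact.out).2 (by
    rw [← map_natCast (residue V), hres])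
  let : Algebra (ZMod p) (E ⧸ I) := ZMod.algebra _ p
  let : Algebra (ZMod p) (ResidueField V) := ZMod.algebra _ p
  have := formallySmooth_zmod p (ResidueField V)
  let ra : (E ⧸ I) →ₐ[ZMod p] ResidueField V := ⟨r, fun c =>
    RingHom.congr_fun (RingHom.ext_zmod (r.comp (algebraMap (ZMod p) _)) (algebraMap _ _)) c⟩
  have hrs : Function.Surjective ra := fun c => by
    obtain ⟨v, rfl⟩ := residue_surjective c
    obtain ⟨x, rfl⟩ := hf v
    exact ⟨Ideal.Quotient.mk I x, rfl⟩
  have hker : ∀ y, r y = 0 → ∃ x, f x = 0 ∧ Ideal.Quotient.mk I x = y := fun y hy => by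
    obtain ⟨x, rfl⟩ := Ideal.Quotient.mk_surjective y
    obtain ⟨v, hv⟩ := (hres _).1 hy
    obtain ⟨z, rfl⟩ := hf v
    refine ⟨x - p * z, by rw [map_sub, map_mul, map_natCast, hv, sub_self], ?_⟩
    rw [map_sub, (hI (p * z)).2 (dvd_mul_right _ _), sub_zero]
  have hnil : IsNilpotent (RingHom.ker (ra : E ⧸ I →+* ResidueField V)) := by
    refine ⟨2, ?_⟩
    rw [pow_two, Ideal.zero_eq_bot, eq_bot_iff, Ideal.mul_le]
    intro a ha b hb
    obtain ⟨x, hx, rfl⟩ := hker a ha
    obtain ⟨y, hy, rfl⟩ := hker b hb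
    rw [← map_mul, hsq x y hx hy, map_zero]
    exact Ideal.zero_mem _
  let t := Algebra.FormallySmooth.liftOfSurjective (AlgHom.id (ZMod p) _) ra hrs hnil
  have ht : ∀ c, r (t c) = c := fun c =>
    AlgHom.congr_fun (Algebra.FormallySmooth.comp_liftOfSurjective (AlgHom.id (ZMod p) _) ra hrs
      hnil) c
  let G : Subring E := RingHom.eqLocus (Ideal.Quotient.mk I)
    (t.toRingHom.comp ((residue V).comp f))
  have hG : ∀ x, x ∈ G ↔ Ideal.Quotient.mk I x = t (residue V (f x)) := fun _ => Iff.rfl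
  have hinj : Function.Injective (f.comp G.subtype) := by
    refine (injective_iff_map_eq_zero _).2 fun x hx => Subtype.ext ?_
    have hx' : f x = 0 := hx
    have h1 := (hG x).1 x.2
    rw [hx', map_zero, map_zero, hI] at h1
    obtain ⟨z, hz⟩ := h1
    rw [hz, map_mul, map_natCast] at hx'
    exact hz.trans (hp z ((mul_eq_zero.1 hx').resolve_left hp0))
  have hsurj : Function.Surjective (f.comp G.subtype) := fun v => by
    obtain ⟨y, hy⟩ := Ideal.Quotient.mk_surjective (t (residue V v))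
    have h1 : residue V (v - f y) = 0 := by rw [map_sub, ← hr, hy, ht, sub_self]
    obtain ⟨w, hw⟩ := (hres _).1 h1
    obtain ⟨z, rfl⟩ := hf w
    have h2 : f (y + p * z) = v := by rw [map_add, map_mul, map_natCast, ← hw]; ring
    refine ⟨⟨y + p * z, (hG _).2 ?_⟩, h2⟩
    rw [h2, map_add, (hI (p * z)).2 (dvd_mul_right _ _), add_zero, hy]
  let e := RingEquiv.ofBijective _ ⟨hinj, hsurj⟩
  exact ⟨G.subtype.comp e.symm.toRingHom, fun v => e.apply_symm_apply v⟩

theorem lift_sq (hV : maximalIdeal V = Ideal.span {(p : V)}) {E Q : Type*} [CommRing E]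
    [CommRing Q] (π : E →+* Q) (hπ : Function.Surjective π)
    (hsq : ∀ x y, π x = 0 → π y = 0 → x * y = 0) (hp : ∀ x, π x = 0 → (p : E) * x = 0)
    (τ : V →+* Q) : ∃ s : V →+* E, π.comp s = τ := by
  let G : Subring (V × E) :=
    RingHom.eqLocus (τ.comp (RingHom.fst V E)) (π.comp (RingHom.snd V E))
  have hG : ∀ x : G, τ x.1.1 = π x.1.2 := fun x => x.2
  have h0 : ∀ x : G, x.1.1 = 0 → π x.1.2 = 0 := fun x hx => by rw [← hG, hx, map_zero]
  obtain ⟨s, hs⟩ := CohenB_section hV ((RingHom.fst V E).comp G.subtype)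
    (fun v => by
      obtain ⟨e, he⟩ := hπ (τ v)
      exact ⟨⟨(v, e), he.symm⟩, rfl⟩)
    (fun x y hx hy => Subtype.ext (Prod.ext (by
      change x.1.1 * y.1.1 = 0
      rw [show x.1.1 = 0 from hx, zero_mul]) (hsq _ _ (h0 x hx) (h0 y hy))))
    (fun x hx => Subtype.ext (Prod.ext (by
      change (p : V) * x.1.1 = 0
      rw [show x.1.1 = 0 from hx, mul_zero]) (hp _ (h0 x hx))))
  refine ⟨((RingHom.snd V E).comp G.subtype).comp s, RingHom.ext fun v => ?_⟩
  exact (hG (s v)).symm.trans (congrArg τ (hs v))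

theorem lift_chain (hV : maximalIdeal V = Ideal.span {(p : V)}) {P Q : Type*} [CommRing P]
    [CommRing Q] (m : Ideal P) [IsAdicComplete m P] (hp : (p : P) ∈ m) (π : P →+* Q)
    (hπ : Function.Surjective π) (hk : RingHom.ker π ≤ m) (τ : V →+* Q) :
    ∃ s : V →+* P, ∀ (n : ℕ) (v : V), π (s v) - τ v ∈ (m ^ n).map π := by
  let K : ℕ → Ideal P := fun n => m ^ n * RingHom.ker π
  have hK : ∀ n, m * K n = K (n + 1) := fun n => by
    simp only [K]; rw [pow_succ', mul_assoc]
  have hKm : ∀ n, K n ≤ m := fun n => Ideal.mul_le_right.trans hk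
  have hle : ∀ n, K (n + 1) ≤ K n := fun n => hK n ▸ Ideal.mul_le_right
  have hker : ∀ n (x : P ⧸ K (n + 1)), Ideal.Quotient.factor (hle n) x = 0 →
      ∃ y ∈ K n, Ideal.Quotient.mk _ y = x := fun n x hx => by
    obtain ⟨y, rfl⟩ := Ideal.Quotient.mk_surjective x
    exact ⟨y, Ideal.Quotient.eq_zero_iff_mem.1 hx, rfl⟩
  have step : ∀ n (σ : V →+* P ⧸ K n), ∃ σ' : V →+* P ⧸ K (n + 1),
      (Ideal.Quotient.factor (hle n)).comp σ' = σ := fun n σ => by
    refine lift_sq hV _ (Ideal.Quotient.factor_surjective _) (fun x y hx hy => ?_)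
      (fun x hx => ?_) σ
    · obtain ⟨a, ha, rfl⟩ := hker n x hx
      obtain ⟨b, hb, rfl⟩ := hker n y hy
      rw [← map_mul, Ideal.Quotient.eq_zero_iff_mem, ← hK]
      exact Ideal.mul_mem_mul (hKm n ha) hb
    · obtain ⟨a, ha, rfl⟩ := hker n x hx
      rw [← map_natCast (Ideal.Quotient.mk (K (n + 1))), ← map_mul,
        Ideal.Quotient.eq_zero_iff_mem, ← hK]
      exact Ideal.mul_mem_mul hp ha
  choose g hg using step
  let q0 : P ⧸ K 0 →+* Q := Ideal.Quotient.lift _ π fun a ha => Ideal.mul_le_right ha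
  have hq0 : ∀ x, q0 x = 0 → x = 0 := fun x hx => by
    obtain ⟨y, rfl⟩ := Ideal.Quotient.mk_surjective x
    rw [Ideal.Quotient.eq_zero_iff_mem]
    simp only [K, pow_zero, one_mul]
    exact hx
  obtain ⟨s0, hs0⟩ := lift_sq hV q0 (Ideal.Quotient.lift_surjective_of_surjective _ _ hπ)
    (fun x y hx _ => by rw [hq0 x hx, zero_mul]) (fun x hx => by rw [hq0 x hx, mul_zero]) τ
  let s : (n : ℕ) → V →+* P ⧸ K n := fun n => Nat.rec s0 (fun n σ => g n σ) n
  have down : ∀ n v y, s (n + 1) v = Ideal.Quotient.mk _ y → s n v = Ideal.Quotient.mk _ y :=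
    fun n v y h => by
      have := RingHom.congr_fun (hg n (s n)) v
      rw [RingHom.comp_apply] at this
      rw [← this]
      exact congrArg (Ideal.Quotient.factor (hle n)) h
  have down' : ∀ a b, a ≤ b → ∀ v y, s b v = Ideal.Quotient.mk _ y →
      s a v = Ideal.Quotient.mk _ y := fun a b hab v y => by
    induction b, hab using Nat.le_induction with
    | base => exact id
    | succ b _ ih => exact fun h => ih (down b v y h)
  let F : (n : ℕ) → V →+* P ⧸ m ^ n := fun n =>
    (Ideal.Quotient.factor (Ideal.mul_le_left : K n ≤ m ^ n)).comp (s n)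
  have hF : ∀ {a b : ℕ} (hab : a ≤ b), (Ideal.Quotient.factorPow m hab).comp (F b) = F a := by
    intro a b hab
    ext v
    obtain ⟨y, hy⟩ := Ideal.Quotient.mk_surjective (s b v)
    simp only [F, RingHom.comp_apply]
    rw [down' a b hab v y hy.symm, ← hy]
    rfl
  refine ⟨IsAdicComplete.liftRingHom m F hF, fun n v => ?_⟩
  obtain ⟨y, hy⟩ := Ideal.Quotient.mk_surjective (s n v)
  have h1 : π y = τ v := by
    rw [← hs0, RingHom.comp_apply]
    exact (congrArg q0 (down' 0 n n.zero_le v y hy.symm)).symm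
  rw [← h1, ← map_sub]
  refine Ideal.mem_map_of_mem _ (Ideal.Quotient.eq.1 ?_)
  rw [IsAdicComplete.mk_liftRingHom]
  simp only [F, RingHom.comp_apply]
  rw [← hy]
  rfl

theorem lift_adic (hV : maximalIdeal V = Ideal.span {(p : V)}) {P Q : Type*} [CommRing P]
    [IsLocalRing P] [IsNoetherianRing P] [IsAdicComplete (maximalIdeal P) P]
    (hp : (p : P) ∈ maximalIdeal P) [CommRing Q] [Nontrivial Q] (π : P →+* Q)
    (hπ : Function.Surjective π) (τ : V →+* Q) : ∃ s : V →+* P, π.comp s = τ := by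
  obtain ⟨s, hs⟩ := lift_chain hV _ hp π hπ (le_maximalIdeal (RingHom.ker_ne_top π)) τ
  refine ⟨s, RingHom.ext fun v => ?_⟩
  obtain ⟨y, hy⟩ := hπ (τ v)
  rw [RingHom.comp_apply, ← hy, ← sub_eq_zero, ← map_sub, ← RingHom.mem_ker]
  refine ColonA_krull _ _ fun N => ?_
  have := hs N v
  rwa [← hy, ← map_sub, ← Ideal.mem_comap, Ideal.comap_map_of_surjective π hπ,
    ← RingHom.ker_eq_comap_bot, sup_comm] at this

theorem lift_residue (hV : maximalIdeal V = Ideal.span {(p : V)}) {P : Type*} [CommRing P]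
    [IsLocalRing P] [IsAdicComplete (maximalIdeal P) P] (hp : (p : P) ∈ maximalIdeal P)
    (τ : V →+* ResidueField P) : ∃ s : V →+* P, (residue P).comp s = τ := by
  obtain ⟨s, hs⟩ := lift_chain hV _ hp (residue P) residue_surjective ker_residue.le τ
  refine ⟨s, RingHom.ext fun v => ?_⟩
  have := hs 1 v
  rw [pow_one, (Ideal.map_eq_bot_iff_le_ker _).2 ker_residue.ge, Ideal.mem_bot] at this
  exact sub_eq_zero.1 this

end Vale.Agent.P202
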