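import Vale.Agent.P202.Delta

/-! Extending lifts of Frobenius. -/

namespace Vale.Agent.P202

open IsLocalRing

variable {p : ℕ} [Fact p.Prime] {A : Type*} [CommRing A] {φ : A →+* A} {δ : A → A}

theorem deltaX_add {B : Type*} [CommRing B] (ψ : B →+* B) {x y : B}
    (hx : ψ x - x ^ p ∈ Ideal.span {(p : B)}) (hy : ψ y - y ^ p ∈ Ideal.span {(p : B)}) :
    ψ (x + y) - (x + y) ^ p ∈ Ideal.span {(p : B)} := by
  obtain ⟨r, hr⟩ := exists_add_pow_prime_eq (Fact.out : p.Prime) x y
  have : ψ (x + y) - (x + y) ^ p = (ψ x - x ^ p) + (ψ y - y ^ p) - p * (x * y * r) := by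
    rw [hr, map_add]; ring
  rw [this]
  exact sub_mem (add_mem hx hy) (Ideal.mul_mem_right _ _ (Ideal.mem_span_singleton_self _))

omit [Fact p.Prime] in
theorem deltaX_mul {B : Type*} [CommRing B] (ψ : B →+* B) {x y : B}
    (hx : ψ x - x ^ p ∈ Ideal.span {(p : B)}) (hy : ψ y - y ^ p ∈ Ideal.span {(p : B)}) :
    ψ (x * y) - (x * y) ^ p ∈ Ideal.span {(p : B)} := by
  have : ψ (x * y) - (x * y) ^ p = ψ x * (ψ y - y ^ p) + y ^ p * (ψ x - x ^ p) := by
    rw [map_mul, mul_pow]; ring
  rw [this]
  exact add_mem (Ideal.mul_mem_left _ _ hy) (Ideal.mul_mem_left _ _ hx)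

theorem IsDelta.mvPolynomial (h : IsDelta p φ δ) {σ : Type*} (Y : σ → MvPolynomial σ A) :
    ∃ (φ' : MvPolynomial σ A →+* MvPolynomial σ A) (δ' : MvPolynomial σ A → MvPolynomial σ A),
      IsDelta p φ' δ' ∧ (∀ a, φ' (MvPolynomial.C a) = MvPolynomial.C (φ a)) ∧
        ∀ i, δ' (MvPolynomial.X i) = Y i := by
  let φ' : MvPolynomial σ A →+* MvPolynomial σ A :=
    MvPolynomial.eval₂Hom (MvPolynomial.C.comp φ) fun i =>
      MvPolynomial.X i ^ p + (p : MvPolynomial σ A) * Y i
  have hC : ∀ a, φ' (MvPolynomial.C a) = MvPolynomial.C (φ a) := fun a => by simp [φ']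
  have hX : ∀ i, φ' (MvPolynomial.X i) = MvPolynomial.X i ^ p + (p : MvPolynomial σ A) * Y i :=
    fun i => by simp [φ']
  obtain ⟨δ', h'⟩ := IsDelta.of_cong (p := p) (φ := φ') (fun x hx => by
      ext d
      have := congrArg (MvPolynomial.coeff d) hx
      rw [← map_natCast MvPolynomial.C, MvPolynomial.coeff_C_mul] at this
      exact h.reg _ this) fun x => by
    induction x using MvPolynomial.induction_on with
    | C a =>
      rw [hC, h.eq, map_add, map_pow, map_mul, map_natCast, add_sub_cancel_left]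
      exact Ideal.mul_mem_right _ _ (Ideal.mem_span_singleton_self _)
    | add f g hf hg => exact deltaX_add φ' hf hg
    | mul_X f i hf =>
      refine deltaX_mul φ' hf ?_
      rw [hX, add_sub_cancel_left]
      exact Ideal.mul_mem_right _ _ (Ideal.mem_span_singleton_self _)
  exact ⟨φ', δ', h', hC, fun i => h'.cancel (by linear_combination hX i - h'.eq (MvPolynomial.X i))⟩

theorem IsDelta.localization (h : IsDelta p φ δ) (S : Submonoid A) (hS : ∀ s ∈ S, φ s ∈ S)
    (B : Type*) [CommRing B] [Algebra A B] [IsLocalization S B] :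
    ∃ (φ' : B →+* B) (δ' : B → B), IsDelta p φ' δ' ∧
      ∀ a, φ' (algebraMap A B a) = algebraMap A B (φ a) := by
  let φ' : B →+* B := IsLocalization.map B φ (show S ≤ S.comap φ from hS)
  have hC : ∀ a, φ' (algebraMap A B a) = algebraMap A B (φ a) := fun a => IsLocalization.map_eq _ a
  have hc : ∀ a, φ' (algebraMap A B a) - algebraMap A B a ^ p ∈ Ideal.span {(p : B)} := fun a => by
    rw [hC, h.eq, map_add, map_pow, map_mul, map_natCast, add_sub_cancel_left]
    exact Ideal.mul_mem_right _ _ (Ideal.mem_span_singleton_self _)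
  obtain ⟨δ', h'⟩ := IsDelta.of_cong (p := p) (φ := φ') (fun x hx => by
      obtain ⟨⟨a, s⟩, e⟩ := IsLocalization.surj S x
      have h1 : algebraMap A B (p * a) = 0 := by
        rw [map_mul, map_natCast, ← e, ← mul_assoc, hx, zero_mul]
      obtain ⟨c, hc⟩ := (IsLocalization.map_eq_zero_iff S B _).1 h1
      have h2 : (c : A) * a = 0 := h.reg _ (by linear_combination hc)
      have h3 : algebraMap A B a = 0 := (IsLocalization.map_eq_zero_iff S B _).2 ⟨c, h2⟩
      rw [h3] at e
      exact (IsLocalization.map_units B s).mul_left_eq_zero.1 e) fun x => by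
    obtain ⟨⟨a, s⟩, e⟩ := IsLocalization.surj S x
    simp only at e
    refine (Ideal.mul_unit_mem_iff_mem _ ((IsLocalization.map_units B s).pow p)).1 ?_
    have e1 := congrArg φ' e
    rw [map_mul] at e1
    have : (φ' x - x ^ p) * algebraMap A B s ^ p = (φ' (algebraMap A B a) - algebraMap A B a ^ p) -
        φ' x * (φ' (algebraMap A B s) - algebraMap A B s ^ p) := by
      rw [← e1, ← e, mul_pow]; ring
    rw [this]
    exact Ideal.sub_mem _ (hc a) (Ideal.mul_mem_left _ _ (hc s))
  exact ⟨φ', δ', h', hC⟩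

theorem IsDelta.mvPowerSeries (h : IsDelta p φ δ) (σ : Type) [Fintype σ] :
    ∃ (φ' : MvPowerSeries σ A →+* MvPowerSeries σ A) (δ' : MvPowerSeries σ A → MvPowerSeries σ A),
      IsDelta p φ' δ' ∧ (∀ a, φ' (MvPowerSeries.C a) = MvPowerSeries.C (φ a)) ∧
        (∀ i, φ' (MvPowerSeries.X i) = MvPowerSeries.X i ^ p) ∧
        ∀ f, MvPowerSeries.constantCoeff (φ' f) = φ (MvPowerSeries.constantCoeff f) := by
  have hp := (Fact.out : p.Prime)
  let φ' : MvPowerSeries σ A →+* MvPowerSeries σ A :=
    (MvPowerSeries.map φ).comp (MvPowerSeries.expand p hp.ne_zero).toRingHom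
  have e : ∀ f, φ' f = MvPowerSeries.map φ (MvPowerSeries.expand p hp.ne_zero f) := fun _ => rfl
  obtain ⟨δ', h'⟩ := IsDelta.of_cong (p := p) (φ := φ') (fun x hx => by
      ext d
      have := congrArg (MvPowerSeries.coeff d) hx
      rw [← map_natCast MvPowerSeries.C, MvPowerSeries.coeff_C_mul] at this
      exact h.reg _ this) fun f => by
    have key : ∀ g : MvPowerSeries σ A,
        MvPowerSeries.map (Ideal.Quotient.mk (Ideal.span {(p : A)})) g = 0 →
        g ∈ Ideal.span {(p : MvPowerSeries σ A)} := fun g hg => by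
      have : ∀ d, ∃ c, c * (p : A) = MvPowerSeries.coeff d g := fun d => by
        have := congrArg (MvPowerSeries.coeff d) hg
        rw [MvPowerSeries.coeff_map, map_zero, Ideal.Quotient.eq_zero_iff_mem] at this
        exact Ideal.mem_span_singleton'.1 this
      choose c hc using this
      obtain ⟨c', hc'⟩ : ∃ c' : MvPowerSeries σ A, ∀ d, MvPowerSeries.coeff d c' = c d :=
        ⟨c, fun _ => rfl⟩
      refine Ideal.mem_span_singleton.2 ⟨c', ?_⟩
      ext d
      rw [← map_natCast MvPowerSeries.C, MvPowerSeries.coeff_C_mul, ← hc, mul_comm, hc']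
    refine key _ ?_
    rcases subsingleton_or_nontrivial (A ⧸ Ideal.span {(p : A)}) with h0 | h0
    · ext d
      exact Subsingleton.elim _ _
    haveI : CharP (A ⧸ Ideal.span {(p : A)}) p := (CharP.charP_iff_prime_eq_zero hp).2 (by
      rw [← map_natCast (Ideal.Quotient.mk _), Ideal.Quotient.eq_zero_iff_mem]
      exact Ideal.mem_span_singleton_self _)
    rw [map_sub, map_pow, ← MvPowerSeries.map_frobenius_expand p hp.ne_zero,
      ← MvPowerSeries.map_expand, sub_eq_zero, e]
    ext d
    simp only [MvPowerSeries.coeff_map, frobenius_def]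
    rw [← map_pow, Ideal.Quotient.eq]
    exact h.cong _
  refine ⟨φ', δ', h', fun a => ?_, fun i => ?_, fun f => ?_⟩
  · rw [e, MvPowerSeries.expand_C, MvPowerSeries.map_C]
  · rw [e, MvPowerSeries.expand_X, map_pow, MvPowerSeries.map_X]
  · rw [e, MvPowerSeries.constantCoeff_map, MvPowerSeries.constantCoeff_expand]

theorem pBase_witt (p : ℕ) [Fact p.Prime] (L : Type*) [Field L] [CharP L p] [PerfectRing L p]
    [Infinite L] : PBase p (WittVector p L) := by
  have hm : maximalIdeal (WittVector p L) = Ideal.span {(p : WittVector p L)} :=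
    (WittVector.irreducible p).maximalIdeal_eq
  refine ⟨hm, ⟨WittVector.frobenius, IsDelta.of_cong (fun x hx =>
    WittVector.eq_zero_of_p_mul_eq_zero x (by rwa [mul_comm])) fun x => ?_⟩, fun a => ?_, ?_⟩
  · rw [← WittVector.ker_constantCoeff, RingHom.mem_ker, map_sub, map_pow]
    simp
  · obtain ⟨c, hc⟩ := (bijective_frobenius L p).2 (WittVector.constantCoeff a)
    obtain ⟨b, rfl⟩ := WittVector.constantCoeff_surjective p c
    refine ⟨b, ?_⟩
    rw [hm, ← WittVector.ker_constantCoeff, RingHom.mem_ker, map_sub, map_pow, ← hc, frobenius_def,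
      sub_self]
  · exact Infinite.of_surjective _
      ((Ideal.quotEquivOfEq hm).trans WittVector.quotientPEquiv).surjective

theorem complete_witt (p : ℕ) [Fact p.Prime] (L : Type*) [Field L] [CharP L p] [PerfectRing L p] :
    IsAdicComplete (maximalIdeal (WittVector p L)) (WittVector p L) := by
  rw [(WittVector.irreducible p).maximalIdeal_eq]
  infer_instance

/-- a weak form of the Zariski-Nagata theorem -/
theorem zn {V : Type*} [CommRing V] [IsDomain V] [IsDiscreteValuationRing V] (hV : PBase p V)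
    {σ : Type} [Fintype σ] (P : Ideal (MvPowerSeries σ V)) [P.IsPrime]
    (hp : (p : MvPowerSeries σ V) ∈ P) (n : ℕ) (f : MvPowerSeries σ V)
    (hf : algebraMap _ (Localization.AtPrime P) f ∈ maximalIdeal (Localization.AtPrime P) ^ n) :
    MvPowerSeries.constantCoeff f ∈ Ideal.span {(p : V) ^ n} := by
  obtain ⟨φ, δ, h⟩ := hV.delta
  obtain ⟨φ', δ', h', -, -, hc⟩ := h.mvPowerSeries σ
  obtain ⟨φ'', δ'', h'', hl⟩ := h'.localization P.primeCompl (fun s hs H => hs (by
    have h1 : φ' s - s ^ p ∈ P := (Ideal.span_singleton_le_iff_mem P).2 hp (h'.cong s)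
    have h2 := Ideal.sub_mem _ H h1
    rw [sub_sub_cancel] at h2
    exact Ideal.IsPrime.mem_of_pow_mem inferInstance _ h2)) (Localization.AtPrime P)
  have hp' : (p : Localization.AtPrime P) ∈ maximalIdeal (Localization.AtPrime P) := by
    rw [← map_natCast (algebraMap (MvPowerSeries σ V) (Localization.AtPrime P))]
    exact (IsLocalization.AtPrime.to_map_mem_maximal_iff _ P _).2 hp
  induction n generalizing f with
  | zero => simp
  | succ n ih =>
    have h1 := h''.pow_mem hp' n hf
    rw [h'.map h'' _ hl] at h1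
    have h2 := ih _ h1
    rw [← h'.map h MvPowerSeries.constantCoeff fun a => (hc a).symm] at h2
    refine h.mem_pow_of_delta hV.max ?_ h2
    have h3 : f ∈ P := (IsLocalization.AtPrime.to_map_mem_maximal_iff _ P _).1
      (Ideal.pow_le_self (Nat.succ_ne_zero n) hf)
    exact (mem_maximalIdeal _).2 fun u => (inferInstance : P.IsPrime).ne_top
      (Ideal.eq_top_of_isUnit_mem _ h3 (MvPowerSeries.isUnit_iff_constantCoeff.2 u))

end Vale.Agent.P202
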