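import Vale.Agent.P202.PS
import Vale.Agent.P202.CM

/-! Power series over a complete discrete valuation ring. -/

namespace Vale.Agent.P202

open IsLocalRing MvPowerSeries

variable {σ : Type} [Fintype σ]

theorem maximalIdeal_psV (V : Type*) [CommRing V] [IsLocalRing V] :
    maximalIdeal (MvPowerSeries σ V) =
      (maximalIdeal V).map (C : V →+* MvPowerSeries σ V) ⊔ Ideal.span (Set.range X) := by
  refine le_antisymm (fun f hf => ?_) (sup_le (Ideal.map_le_iff_le_comap.2 fun a ha => ?_)
    (Ideal.span_le.2 ?_))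
  · rw [← add_sub_cancel (C (constantCoeff f)) f]
    refine add_mem (Ideal.mem_sup_left (Ideal.mem_map_of_mem _ ?_))
      (Ideal.mem_sup_right ((psa_mem_span_range _).2 (by simp)))
    rwa [mem_maximalIdeal, mem_nonunits_iff, ← isUnit_iff_constantCoeff]
  · rwa [Ideal.mem_comap, mem_maximalIdeal, mem_nonunits_iff, isUnit_iff_constantCoeff,
      constantCoeff_C]
  · rintro _ ⟨i, rfl⟩
    rw [SetLike.mem_coe, mem_maximalIdeal, mem_nonunits_iff, isUnit_iff_constantCoeff,
      constantCoeff_X]
    exact not_isUnit_zero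

theorem sub_C_mem (V : Type*) [CommRing V] (f : MvPowerSeries σ V) :
    f - C (constantCoeff f) ∈ Ideal.span (Set.range (X : σ → MvPowerSeries σ V)) := by
  exact (psa_mem_span_range _).2 (by simp)

theorem psv_mem_pow (V : Type*) [CommRing V] [IsLocalRing V] (N : ℕ) (f : MvPowerSeries σ V) :
    f ∈ maximalIdeal (MvPowerSeries σ V) ^ N ↔
      ∀ d, coeff d f ∈ maximalIdeal V ^ (N - d.degree) := by
  classical
  constructor
  · intro hf
    induction N generalizing f with
    | zero => simp
    | succ N ih =>
      rw [pow_succ] at hf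
      refine Submodule.mul_induction_on hf (fun a ha b hb d => ?_) fun a b ha hb d => ?_
      · rw [coeff_mul]
        refine sum_mem fun x hx => ?_
        have e : x.1.degree + x.2.degree = d.degree := by
          rw [← map_add, Finset.HasAntidiagonal.mem_antidiagonal.1 hx]
        by_cases h0 : x.2 = 0
        · have : coeff x.2 b ∈ maximalIdeal V := by
            rwa [h0, coeff_zero_eq_constantCoeff_apply, mem_maximalIdeal, mem_nonunits_iff,
              ← isUnit_iff_constantCoeff]
          have := Ideal.mul_mem_mul (ih a ha x.1) this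
          rw [← pow_succ] at this
          exact Ideal.pow_le_pow_right (by omega) this
        · have : x.2.degree ≠ 0 := by rwa [Ne, Finsupp.degree_eq_zero_iff]
          exact Ideal.mul_mem_right _ _ (Ideal.pow_le_pow_right (by omega) (ih a ha x.1))
      · rw [map_add]; exact add_mem (ha d) (hb d)
  · intro hf
    have lX : Ideal.span (Set.range X) ≤ maximalIdeal (MvPowerSeries σ V) := by
      rw [maximalIdeal_psV]; exact le_sup_right
    have lC : (maximalIdeal V).map C ≤ maximalIdeal (MvPowerSeries σ V) := by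
      rw [maximalIdeal_psV]; exact le_sup_left
    rw [← sub_add_cancel f (truncTotal N f)]
    refine add_mem (Ideal.pow_right_mono lX N ((psa_mem_pow_iff N _).2 fun m hm => by
      simp [coeff_truncTotal _ hm])) ?_
    rw [(truncTotal N f).as_sum, ← MvPolynomial.coeToMvPowerSeries.ringHom_apply, map_sum]
    refine sum_mem fun d _ => ?_
    rw [MvPolynomial.coeToMvPowerSeries.ringHom_apply, MvPolynomial.coe_monomial]
    by_cases hd : d.degree < N
    · have h1 := Ideal.mem_map_of_mem (C : V →+* MvPowerSeries σ V) (hf d)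
      rw [Ideal.map_pow] at h1
      have h2 : monomial d (1 : V) ∈ Ideal.span (Set.range X) ^ d.degree :=
        (psa_mem_pow_iff _ _).2 fun m hm => by
          rw [coeff_monomial, if_neg]
          rintro rfl
          exact hm.ne rfl
      have := Ideal.mul_mem_mul (Ideal.pow_right_mono lC _ h1) (Ideal.pow_right_mono lX _ h2)
      rw [← pow_add, Nat.sub_add_cancel hd.le, ← monomial_zero_eq_C_apply, monomial_mul_monomial,
        zero_add, mul_one] at this
      rwa [coeff_truncTotal _ hd]
    · rw [coeff_truncTotal_eq_zero _ (not_lt.1 hd), map_zero]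
      exact zero_mem _

instance complete_psV (V : Type*) [CommRing V] [IsLocalRing V]
    [IsAdicComplete (maximalIdeal V) V] :
    IsAdicComplete (maximalIdeal (MvPowerSeries σ V)) (MvPowerSeries σ V) := by
  have e : ∀ {R : Type _} [CommRing R] (I : Ideal R) (x y : R),
      x ≡ y [SMOD (I • ⊤ : Submodule R R)] ↔ x - y ∈ I := fun I x y => by
    rw [SModEq.sub_mem, smul_eq_mul, Ideal.mul_top]
  have e' : ∀ (I : Ideal V) (x y : V), x ≡ y [SMOD (I • ⊤ : Submodule V V)] ↔ x - y ∈ I :=
    fun I x y => by rw [SModEq.sub_mem, smul_eq_mul, Ideal.mul_top]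
  refine { haus' := fun x hx => ?_, prec' := fun f hf => ?_ }
  · ext d
    refine IsHausdorff.haus' (I := maximalIdeal V) _ fun n => (e' _ _ _).2 ?_
    simpa using (psv_mem_pow V _ _).1 ((e _ _ _).1 (hx (n + d.degree))) d
  · have := fun d : σ →₀ ℕ => IsPrecomplete.prec' (I := maximalIdeal V)
      (fun k => coeff d (f (k + d.degree))) fun {m n} h => (e' _ _ _).2 (by
        simpa using (psv_mem_pow V _ _).1 ((e _ _ _).1 (hf (Nat.add_le_add_right h d.degree))) d)
    choose L hL using this
    refine ⟨L, fun n => (e _ _ _).2 ((psv_mem_pow V _ _).2 fun d => ?_)⟩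
    by_cases hd : d.degree ≤ n
    · have := (e' _ _ _).1 (hL d (n - d.degree))
      rwa [Nat.sub_add_cancel hd] at this
    · rw [Nat.sub_eq_zero_of_le (not_le.1 hd).le]; simp

variable {p : ℕ} {V : Type*} [CommRing V] [IsDomain V] [IsDiscreteValuationRing V]

theorem maximalIdeal_psV' (hV : maximalIdeal V = Ideal.span {(p : V)}) :
    maximalIdeal (MvPowerSeries σ V) =
      Ideal.span {(p : MvPowerSeries σ V)} ⊔ Ideal.span (Set.range X) := by
  rw [maximalIdeal_psV, hV, Ideal.map_span, Set.image_singleton, map_natCast]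

theorem psv_ofList_X (V : Type*) [CommRing V] :
    Ideal.ofList ((Finset.univ : Finset σ).toList.map (X : σ → MvPowerSeries σ V)) =
      Ideal.span (Set.range X) :=
  congrArg Ideal.span (Set.ext fun f => by simp)

theorem psv_ne (hV : maximalIdeal V = Ideal.span {(p : V)}) : (p : V) ≠ 0 := fun e =>
  IsDiscreteValuationRing.not_a_field V (by rw [hV, e, Ideal.span_singleton_eq_bot])

omit [Fintype σ] in
theorem psv_ne' (hV : maximalIdeal V = Ideal.span {(p : V)}) : (p : MvPowerSeries σ V) ≠ 0 :=
  fun e => psv_ne hV (by simpa using congrArg constantCoeff e)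

theorem gen_psV (hV : maximalIdeal V = Ideal.span {(p : V)}) :
    Gen (maximalIdeal (MvPowerSeries σ V)) (Fintype.card σ + 1) := by
  have := gen_ofList ((p : MvPowerSeries σ V) :: (Finset.univ : Finset σ).toList.map X)
  rw [Ideal.ofList_cons, psv_ofList_X, ← maximalIdeal_psV' hV] at this
  simpa using this

theorem isCM_psV (hV : maximalIdeal V = Ideal.span {(p : V)}) :
    IsCM (MvPowerSeries σ V) (Fintype.card σ + 1) := by
  have hreg := regSeq_X (k := V) (Finset.univ : Finset σ).toList (Finset.nodup_toList _) ∅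
    (by simp)
  simp only [Set.image_empty, Ideal.span_empty] at hreg
  have := isCM_of_regSeq ((Finset.univ : Finset σ).toList.map X ++ [(p : MvPowerSeries σ V)])
    (fun a ha => by
      have : a ∈ Ideal.ofList _ := Ideal.subset_span ha
      rwa [Ideal.ofList_append, psv_ofList_X, Ideal.ofList_singleton, sup_comm,
        ← maximalIdeal_psV' hV] at this)
    ((regSeq_append _ _).2 ⟨hreg, fun b hb => by
      rw [bot_sup_eq, psv_ofList_X, psa_mem_span_range] at hb ⊢
      rw [map_mul, map_natCast] at hb
      exact (mul_eq_zero.1 hb).resolve_left (psv_ne hV), trivial⟩)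
  simpa using this

theorem span_p_eq_ker (hV : maximalIdeal V = Ideal.span {(p : V)}) :
    Ideal.span {(p : MvPowerSeries σ V)} =
      RingHom.ker (MvPowerSeries.map (σ := σ) (residue V)) := by
  ext f
  have e : f ∈ RingHom.ker (MvPowerSeries.map (σ := σ) (residue V)) ↔
      ∀ d, (p : V) ∣ coeff d f := by
    rw [RingHom.mem_ker, MvPowerSeries.ext_iff]
    refine forall_congr' fun d => ?_
    rw [coeff_map, map_zero, residue_eq_zero_iff, hV, Ideal.mem_span_singleton]
  rw [e, Ideal.mem_span_singleton, ← map_natCast (C : V →+* MvPowerSeries σ V)]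
  constructor
  · rintro ⟨g, rfl⟩ d
    rw [coeff_C_mul]; exact dvd_mul_right _ _
  · intro h
    choose g hg using h
    exact ⟨g, MvPowerSeries.ext fun d => (hg d).trans (coeff_C_mul d g _).symm⟩

theorem prime_p_psV (hV : maximalIdeal V = Ideal.span {(p : V)}) :
    Prime (p : MvPowerSeries σ V) := by
  rw [← Ideal.span_singleton_prime (psv_ne' hV), span_p_eq_ker hV]
  have := NoZeroDivisors.to_isDomain (MvPowerSeries σ (ResidueField V))
  exact RingHom.ker_isPrime _

theorem psv_regSeq_comap {B P : Type*} [CommRing B] [CommRing P] (π : B →+* P)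
    (hπ : Function.Surjective π) (l : List B) {I : Ideal P} (h : RegSeq I (l.map π)) :
    RegSeq (I.comap π) l := by
  induction l generalizing I with
  | nil => trivial
  | cons a l ih =>
    refine ⟨fun b hb => h.1 _ (by rwa [Ideal.mem_comap, map_mul] at hb), ?_⟩
    convert ih h.2 using 1
    ext x
    rw [Ideal.mem_comap, cm_mem_sup, cm_mem_sup, hπ.exists]
    simp only [Ideal.mem_comap, map_sub, map_mul]

/-- distinct variables form a regular sequence modulo `p` and other variables -/
theorem regSeq_X_psV (hV : maximalIdeal V = Ideal.span {(p : V)}) (l : List σ) (hl : l.Nodup)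
    (s : Set σ) (hs : ∀ i ∈ l, i ∉ s) :
    RegSeq (Ideal.span {(p : MvPowerSeries σ V)} ⊔ Ideal.span (X '' s)) (l.map X) := by
  have hπ : Function.Surjective (MvPowerSeries.map (σ := σ) (residue V)) := fun f => by
    choose g hg using fun d => residue_surjective (coeff d f)
    exact ⟨g, MvPowerSeries.ext fun d => (coeff_map _ d g).trans (hg d)⟩
  have := psv_regSeq_comap _ hπ (l.map X) (I := (Ideal.span (X '' s)).map
    (MvPowerSeries.map (σ := σ) (residue V))) (by
      rw [List.map_map, Ideal.map_span, Set.image_image]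
      simpa [Function.comp_def] using regSeq_X (k := ResidueField V) l hl s hs)
  rwa [Ideal.comap_map_of_surjective _ hπ, ← RingHom.ker_eq_comap_bot, ← span_p_eq_ker hV,
    sup_comm] at this

/-- a ring map sending the variables to distinct variables is flat -/
theorem cp_psV {τ : Type} [Fintype τ] {V' : Type*} [CommRing V'] [IsDomain V']
    [IsDiscreteValuationRing V'] (hV : maximalIdeal V = Ideal.span {(p : V)})
    (hV' : maximalIdeal V' = Ideal.span {(p : V')}) (ψ : MvPowerSeries σ V →+* MvPowerSeries τ V')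
    (e : σ → τ) (he : Function.Injective e) (hψ : ∀ i, ψ (X i) = X (e i)) : CP ψ ⊥ ⊥ := by
  refine CP.of_regSeq ?_ ((p : MvPowerSeries σ V) :: (Finset.univ : Finset σ).toList.map X) ?_ ?_
  · rw [maximalIdeal_psV' hV, maximalIdeal_psV' hV', Ideal.map_sup, Ideal.map_span, Ideal.map_span,
      Set.image_singleton, map_natCast]
    refine sup_le_sup_left (Ideal.span_le.2 ?_) _
    rintro _ ⟨_, ⟨i, rfl⟩, rfl⟩
    rw [hψ]
    exact Ideal.subset_span ⟨_, rfl⟩
  · rw [Ideal.ofList_cons, psv_ofList_X, bot_sup_eq, maximalIdeal_psV' hV]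
  · have hreg := regSeq_X_psV hV' ((Finset.univ : Finset σ).toList.map e)
      ((Finset.nodup_toList _).map he) ∅ (by simp)
    simp only [Set.image_empty, Ideal.span_empty, sup_bot_eq] at hreg
    rw [Ideal.map_bot, bot_sup_eq, List.map_cons, List.map_map, map_natCast]
    rw [List.map_map] at hreg
    have : (ψ ∘ X : σ → MvPowerSeries τ V') = X ∘ e := funext hψ
    rw [this]
    exact ⟨fun b hb => (mul_eq_zero.1 hb).resolve_left (psv_ne' hV'), by rwa [bot_sup_eq]⟩

/-- the colength of `(f, X)` is the valuation of the constant term -/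
theorem rl_span_sup_X (hV : maximalIdeal V = Ideal.span {(p : V)}) (f : MvPowerSeries σ V) (o : ℕ)
    (h : constantCoeff f ∈ Ideal.span {(p : V) ^ o}) :
    (o : ℕ∞) ≤ rl (Ideal.span {f} ⊔ Ideal.span (Set.range X)) (⊤ : Ideal (MvPowerSeries σ V)) := by
  have h1 : RegMod ⊥ (p : V) := fun b hb => (mul_eq_zero.1 hb).resolve_left (psv_ne hV)
  have h2 := h1.rl_pow o
  rw [bot_sup_eq, bot_sup_eq, ← hV, rl_maximal, mul_one, ← rl_comap_of_surjective
    (constantCoeff (σ := σ)) fun a => ⟨C a, constantCoeff_C a⟩] at h2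
  rw [← h2]
  refine rl_mono (sup_le ((Ideal.span_singleton_le_iff_mem _).2 h) fun x hx => ?_) le_rfl
  rw [Ideal.mem_comap, (psa_mem_span_range _).1 hx]
  exact zero_mem _

theorem prim_span_sup_X (hV : maximalIdeal V = Ideal.span {(p : V)}) {f : MvPowerSeries σ V}
    (h : constantCoeff f ≠ 0) : Prim (Ideal.span {f} ⊔ Ideal.span (Set.range X)) := by
  obtain ⟨n, u, hu⟩ := IsDiscreteValuationRing.associated_pow_irreducible h
    ((IsDiscreteValuationRing.irreducible_iff_uniformizer _).2 hV)
  rw [prim_iff_radical, maximalIdeal_psV' hV]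
  refine sup_le ((Ideal.span_singleton_le_iff_mem _).2 ⟨n, ?_⟩) (le_sup_right.trans Ideal.le_radical)
  rw [← map_natCast (C : V →+* MvPowerSeries σ V), ← map_pow, ← hu, map_mul,
    ← sub_sub_cancel f (C _)]
  exact Ideal.mul_mem_right _ _ (sub_mem (Ideal.mem_sup_left (Ideal.mem_span_singleton_self _))
    (Ideal.mem_sup_right (sub_C_mem V f)))

/-- the multiplicity of the variables on a hypersurface -/
theorem lim_hyp (hV : maximalIdeal V = Ideal.span {(p : V)}) {f : MvPowerSeries σ V}
    (hf : f ∈ maximalIdeal _) (h : constantCoeff f ≠ 0) :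
    Lim (Fintype.card σ) (fun N => cl (Ideal.span {f} ⊔ Ideal.span (Set.range X) ^ N))
      (cl (Ideal.span {f} ⊔ Ideal.span (Set.range X))) := by
  have hG : Gen (⊥ : Ideal (MvPowerSeries σ V)) 0 := ⟨Fin.elim0, by simp⟩
  have hp := prim_span_sup_X hV h
  have hreg := (isCM_psV hV (f :: (Finset.univ : Finset σ).toList.map X) (by simp)
    (List.forall_mem_cons.2 ⟨hf, fun a ha => by
      have : a ∈ Ideal.ofList _ := Ideal.subset_span ha
      rw [psv_ofList_X] at this
      rw [maximalIdeal_psV' hV]
      exact Ideal.mem_sup_right this⟩) (by rwa [Ideal.ofList_cons, psv_ofList_X])).2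
  rw [bot_sup_eq] at hreg
  have h := lim_regSeq hG _ hreg (e := cl (Ideal.span {f} ⊔ Ideal.span (Set.range X))) (by
      rwa [psv_ofList_X, sup_bot_eq]) (by
      rw [psv_ofList_X]
      unfold Lim
      refine tendsto_const_nhds.congr' ?_
      filter_upwards [Filter.eventually_ge_atTop 1] with N hN
      have : (⊥ : Ideal (MvPowerSeries σ V)) ^ N = ⊥ := by
        rw [← Ideal.zero_eq_bot, zero_pow (by omega)]
      rw [this, sup_bot_eq]
      simp)
  rw [psv_ofList_X] at h
  simpa using h

end Vale.Agent.P202
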