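import Vale.Agent.P202.CohenA
import Vale.Agent.P202.CohenB
import Vale.Agent.P202.Cohen
import Vale.Agent.P202.PSV
import Vale.Agent.P202.DeltaX

/-! Cohen presentations in mixed characteristic. -/

namespace Vale.Agent.P202

open IsLocalRing MvPowerSeries

universe u v

theorem CohenC_charP (p : ℕ) [Fact p.Prime] {S : Type*} [CommRing S] [IsLocalRing S]
    (hp : (p : S) ∈ maximalIdeal S) : CharP (ResidueField S) p :=
  (CharP.charP_iff_prime_eq_zero Fact.out).2 (by
    rw [← map_natCast (residue S), residue_eq_zero_iff]; exact hp)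

/-- a complete local ring has a coefficient ring -/
theorem exists_coefRing (p : ℕ) [Fact p.Prime] (S : Type v) [CommRing S] [IsLocalRing S]
    [IsAdicComplete (maximalIdeal S) S] (hp : (p : S) ∈ maximalIdeal S) :
    ∃ (V : Type v) (_ : CommRing V) (_ : IsDomain V) (_ : IsDiscreteValuationRing V)
      (_ : IsAdicComplete (maximalIdeal V) V) (κ : V →+* S),
      maximalIdeal V = Ideal.span {(p : V)} ∧ ∀ y : S, ∃ c : V, y - κ c ∈ maximalIdeal S := by
  have := CohenC_charP p hp
  obtain ⟨V, i1, i2, i3, i4, π, hV, hπ⟩ := exists_cohenRing p (ResidueField S)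
  obtain ⟨s, hs⟩ := lift_residue hV hp π
  refine ⟨V, i1, i2, i3, i4, s, hV, fun y => ?_⟩
  obtain ⟨c, hc⟩ := hπ (residue S y)
  refine ⟨c, ?_⟩
  rw [← residue_eq_zero_iff, map_sub, ← hc, ← hs, RingHom.comp_apply, sub_self]

/-- surjectivity of an evaluation map onto a completion -/
theorem CohenC_ev (S : Type*) [CommRing S] [IsLocalRing S] [IsNoetherianRing S] {σ : Type}
    [Fintype σ] (w : σ → S) (hw : Ideal.span (Set.range w) = maximalIdeal S) {V : Type*}
    [CommRing V] (κ : V →+* AdicCompletion (maximalIdeal S) S)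
    (hκ : ∀ y, ∃ c : V, y - κ c ∈ maximalIdeal (AdicCompletion (maximalIdeal S) S)) :
    ∃ π : MvPowerSeries σ V →+* AdicCompletion (maximalIdeal S) S,
      Function.Surjective π ∧ ∀ i, π (X i) = algebraMap S _ (w i) := by
  obtain ⟨π, hC, hX⟩ := exists_ev (σ := σ) (maximalIdeal (AdicCompletion (maximalIdeal S) S)) κ
    (fun i => algebraMap S _ (w i)) (fun i => by
      rw [AdicCompletion.maximalIdeal_eq_map]
      exact Ideal.mem_map_of_mem _ (hw ▸ Ideal.subset_span ⟨i, rfl⟩))
  refine ⟨π, ?_, hX⟩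
  have hm : (Ideal.span (Set.range (X : σ → MvPowerSeries σ V))).map π =
      maximalIdeal (AdicCompletion (maximalIdeal S) S) := by
    refine Eq.trans ?_ ((congrArg (Ideal.map (algebraMap S (AdicCompletion (maximalIdeal S) S)))
      hw).trans AdicCompletion.maximalIdeal_eq_map.symm)
    rw [Ideal.map_span, Ideal.map_span, ← Set.range_comp, ← Set.range_comp]
    congr 2
    exact funext hX
  have hH : IsHausdorff ((Ideal.span (Set.range (X : σ → MvPowerSeries σ V))).map π)
      (AdicCompletion (maximalIdeal S) S) := by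
    rw [hm]; infer_instance
  refine surjective_of_mk_map_comp_surjective
    (I := Ideal.span (Set.range (X : σ → MvPowerSeries σ V))) π fun y => ?_
  obtain ⟨y, rfl⟩ := Ideal.Quotient.mk_surjective y
  obtain ⟨c, hc⟩ := hκ y
  refine ⟨C c, ?_⟩
  rw [RingHom.comp_apply, eq_comm, Ideal.Quotient.eq, hm, hC]
  exact hc

theorem cohen_mixed (p : ℕ) [Fact p.Prime] (S : Type v) [CommRing S] [IsLocalRing S]
    [IsNoetherianRing S] (hp : (p : S) ∈ maximalIdeal S) {σ : Type} [Fintype σ] (w : σ → S)
    (hw : Ideal.span (Set.range w) = maximalIdeal S) :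
    ∃ (V : Type v) (_ : CommRing V) (_ : IsDomain V) (_ : IsDiscreteValuationRing V)
      (_ : IsAdicComplete (maximalIdeal V) V) (J : Ideal (MvPowerSeries σ V))
      (ι : S →+* MvPowerSeries σ V ⧸ J),
      PBase p V ∧ J ≠ ⊤ ∧ (∀ i, ι (w i) = Ideal.Quotient.mk J (X i)) ∧ CP ι ⊥ ⊥ := by
  obtain ⟨V0, _, _, _, _, κ, hV0, hκ⟩ := exists_coefRing p (AdicCompletion (maximalIdeal S) S) (by
    rw [← map_natCast (algebraMap S (AdicCompletion (maximalIdeal S) S))]
    exact map_nonunit _ _ hp)
  obtain ⟨π, hπ, hX⟩ := CohenC_ev S w hw κ hκ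
  have := CohenC_charP p (S := V0) (hV0 ▸ Ideal.mem_span_singleton_self _)
  let L := AlgebraicClosure (ResidueField V0)
  let V := WittVector p L
  have hB : PBase p V := pBase_witt p L
  have hc : IsAdicComplete (maximalIdeal V) V := complete_witt p L
  let j : L →+* ResidueField V := (WittVector.constantCoeff : V →+* L).liftOfSurjective
    (WittVector.constantCoeff_surjective p) ⟨residue V, fun a ha => by
      rw [ker_residue]
      exact le_maximalIdeal (RingHom.ker_ne_top _) ha⟩
  obtain ⟨s, -⟩ := lift_residue hV0 (P := V) (hB.max ▸ Ideal.mem_span_singleton_self _)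
    ((j.comp (algebraMap (ResidueField V0) L)).comp (residue V0))
  let ψ : MvPowerSeries σ V0 →+* MvPowerSeries σ V := MvPowerSeries.map s
  have hψ : ∀ i, ψ (X i) = X i := fun i => MvPowerSeries.map_X _ _
  have hcp : CP ψ ⊥ ⊥ := cp_psV hV0 hB.max ψ id Function.injective_id hψ
  let J : Ideal (MvPowerSeries σ V) := (RingHom.ker π).map ψ
  let g : AdicCompletion (maximalIdeal S) S →+* MvPowerSeries σ V ⧸ J :=
    π.liftOfSurjective hπ ⟨(Ideal.Quotient.mk J).comp ψ, fun a ha => by
      rw [RingHom.mem_ker, RingHom.comp_apply, Ideal.Quotient.eq_zero_iff_mem]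
      exact Ideal.mem_map_of_mem _ ha⟩
  have hg : g.comp π = (Ideal.Quotient.mk J).comp ψ := RingHom.liftOfRightInverse_comp _ _ _ _
  refine ⟨V, inferInstance, inferInstance, inferInstance, hc, J, g.comp (algebraMap S _), hB, ?_,
    fun i => ?_, ?_⟩
  · have h1 : RingHom.ker π ≤ maximalIdeal _ := le_maximalIdeal (RingHom.ker_ne_top π)
    have h2 : J ≤ maximalIdeal (MvPowerSeries σ V) := by
      refine (Ideal.map_mono h1).trans ?_
      rw [maximalIdeal_psV' hV0, maximalIdeal_psV' hB.max, Ideal.map_sup, Ideal.map_span,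
        Ideal.map_span, Set.image_singleton, map_natCast, ← Set.range_comp]
      exact sup_le_sup_left (le_of_eq (congrArg (fun f => Ideal.span (Set.range f)) (funext hψ))) _
    exact ne_top_of_le_ne_top (maximalIdeal.isMaximal _).ne_top h2
  · rw [RingHom.comp_apply, ← hX, ← RingHom.comp_apply, hg, RingHom.comp_apply, hψ]
  · refine CP.comp CP.of_flat ?_
    rw [Ideal.map_bot, ← cp_surj_comp_iff hπ, hg, cp_comp_surj_iff Ideal.Quotient.mk_surjective]
    refine (hcp.mono bot_le).congr_sup ?_
    rw [← RingHom.ker_eq_comap_bot, ← RingHom.ker_eq_comap_bot, Ideal.mk_ker, sup_bot_eq, sup_idem]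

theorem noetherian_completion (R : Type u) [CommRing R] [IsLocalRing R] [IsNoetherianRing R] :
    IsNoetherianRing (AdicCompletion (maximalIdeal R) R) := by
  obtain ⟨n, w, hw⟩ :=
    Submodule.fg_iff_exists_fin_generating_family.1 (maximalIdeal R).fg_of_isNoetherianRing
  obtain ⟨π, hπ, -⟩ := CohenC_ev R w hw (algebraMap R _) fun y => by
    obtain ⟨a, ha⟩ := Cohen_approx R 1 y
    rw [pow_one, ← AdicCompletion.maximalIdeal_eq_map] at ha
    exact ⟨a, ha⟩
  exact isNoetherianRing_of_surjective _ _ π hπ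

/-- completing a flat local map -/
theorem complete_pair (R : Type u) (S : Type v) [CommRing R] [IsLocalRing R] [IsNoetherianRing R]
    [CommRing S] [IsLocalRing S] [IsNoetherianRing S] [Algebra R S]
    [IsLocalHom (algebraMap R S)] [Module.Flat R S] :
    ∃ (R1 : Type u) (_ : CommRing R1) (_ : IsLocalRing R1) (_ : IsNoetherianRing R1)
      (_ : IsAdicComplete (maximalIdeal R1) R1) (S1 : Type v) (_ : CommRing S1)
      (_ : IsLocalRing S1) (_ : IsNoetherianRing S1) (_ : Algebra R1 S1)
      (_ : IsLocalHom (algebraMap R1 S1)) (_ : Module.Flat R1 S1) (α : R →+* R1) (β : S →+* S1),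
      CP α ⊥ ⊥ ∧ (maximalIdeal R).map α = maximalIdeal R1 ∧ CP β ⊥ ⊥ ∧
      (maximalIdeal S).map β = maximalIdeal S1 ∧
      β.comp (algebraMap R S) = (algebraMap R1 S1).comp α := by
  have iR := noetherian_completion R
  have iS := noetherian_completion S
  have hf : (maximalIdeal R).map
      ((algebraMap S (AdicCompletion (maximalIdeal S) S)).comp (algebraMap R S)) ≤
      maximalIdeal _ := by
    rw [Ideal.map_le_iff_le_comap]
    exact fun a ha => map_nonunit _ _ ha
  obtain ⟨g, hg⟩ := Cohen_extend R _ _ hf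
  have hm : (maximalIdeal (AdicCompletion (maximalIdeal R) R)).map g ≤ maximalIdeal _ := by
    rw [AdicCompletion.maximalIdeal_eq_map (R := R), Ideal.map_map, hg]
    exact hf
  have hcp : CP g ⊥ ⊥ := by
    refine CP.of_pow (maximalIdeal _) hm fun N => ?_
    rw [bot_sup_eq, AdicCompletion.maximalIdeal_eq_map (R := R), ← Ideal.map_pow]
    refine Cohen_cp_dense _ g _ (Cohen_approx R N) ?_
    rw [hg]
    exact CP.comp CP.of_flat (by rw [Ideal.map_bot]; exact CP.of_flat)
  let alg := g.toAlgebra
  exact ⟨_, inferInstance, inferInstance, iR, inferInstance, _, inferInstance, inferInstance, iS,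
    alg, ((local_hom_TFAE g).out 0 2).2 hm, CP.flat hcp, algebraMap R _, algebraMap S _,
    CP.of_flat, AdicCompletion.maximalIdeal_eq_map.symm, CP.of_flat,
    AdicCompletion.maximalIdeal_eq_map.symm, hg.symm⟩

end Vale.Agent.P202
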