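import Vale.Agent.P202.Len

/-! The colon property (flatness). -/

namespace Vale.Agent.P202

open IsLocalRing

variable {A B C : Type*} [CommRing A] [CommRing B] [CommRing C]

theorem ColonA_le_colon (a : Ideal A) (r : A) : a ≤ a.colon {r} := fun x hx =>
  Submodule.mem_colon_singleton.2 (Ideal.mul_mem_right _ _ hx)

theorem ColonA_syz {f : A →+* B} {I : Ideal A} {c : Ideal B} (h : CP f I c) {ι : Type*}
    [Fintype ι] (s : ι → A) (b : ι → B) (hb : ∑ j, f (s j) * b j ∈ I.map f ⊔ c) :
    ∃ w ∈ Submodule.span B {v : ι → B | ∃ u : ι → A, ∑ j, s j * u j ∈ I ∧ v = fun j => f (u j)},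
      ∀ j, b j - w j ∈ c := by
  classical
  set Z := Submodule.span B
    {v : ι → B | ∃ u : ι → A, ∑ j, s j * u j ∈ I ∧ v = fun j => f (u j)} with hZ
  have hZI : ∀ w ∈ Z, ∑ j, f (s j) * w j ∈ I.map f := by
    intro w hw
    induction hw using Submodule.span_induction with
    | mem x hx =>
      obtain ⟨u, hu, rfl⟩ := hx
      simp only [← map_mul, ← map_sum]
      exact Ideal.mem_map_of_mem _ hu
    | zero => simp
    | add x y _ _ hx hy =>
      simp only [Pi.add_apply, mul_add, Finset.sum_add_distrib]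
      exact Ideal.add_mem _ hx hy
    | smul t x _ hx =>
      simp only [Pi.smul_apply, smul_eq_mul, mul_left_comm _ t, ← Finset.mul_sum]
      exact Ideal.mul_mem_left _ _ hx
  suffices H : ∀ T : Finset ι, ∀ b : ι → B, (∀ j ∉ T, b j ∈ c) →
      ∑ j, f (s j) * b j ∈ I.map f ⊔ c → ∃ w ∈ Z, ∀ j, b j - w j ∈ c from
    H Finset.univ b (by simp) hb
  intro T
  induction T using Finset.induction_on with
  | empty => exact fun b hb _ => ⟨0, Z.zero_mem, fun j => by simpa using hb j (by simp)⟩
  | insert j0 T hj0 ih =>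
    intro b hT hb
    have h1 : f (s j0) * b j0 ∈ (I ⊔ Ideal.span (s '' T)).map f ⊔ c := by
      have h2 : f (s j0) * b j0 = ∑ j, f (s j) * b j -
          ∑ j ∈ Finset.univ.erase j0, f (s j) * b j := by
        rw [← Finset.add_sum_erase _ _ (Finset.mem_univ j0)]; ring
      rw [h2]
      refine Ideal.sub_mem _ (sup_le_sup_right (Ideal.map_mono le_sup_left) c hb)
        (Ideal.sum_mem _ fun j hj => ?_)
      by_cases hjT : j ∈ T
      · exact Submodule.mem_sup_left (Ideal.mul_mem_right _ _ (Ideal.mem_map_of_mem _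
          (Submodule.mem_sup_right (Ideal.subset_span ⟨j, hjT, rfl⟩))))
      · refine Submodule.mem_sup_right (Ideal.mul_mem_left _ _ (hT j ?_))
        simp only [Finset.mem_erase] at hj
        simp [hj.1, hjT]
    obtain ⟨β, hβ, γ, hγ, hβγ⟩ := Submodule.mem_sup.1 (h _ le_sup_left _ _ h1)
    have h3 : ∃ w ∈ Z, w j0 = β ∧ ∀ j ∉ insert j0 T, w j = 0 := by
      clear hβγ
      induction hβ using Submodule.span_induction with
      | mem x hx =>
        obtain ⟨r, hr, rfl⟩ := hx
        rw [SetLike.mem_coe, Submodule.mem_colon_singleton, smul_eq_mul] at hr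
        obtain ⟨α, hα, y, hy, hαy⟩ := Submodule.mem_sup.1 hr
        obtain ⟨u, hu⟩ := (Submodule.mem_span_image_finset_iff_exists_fun' A).1 hy
        refine ⟨fun j => f (if j = j0 then r else if j ∈ T then -u j else 0),
          Submodule.subset_span ⟨_, ?_, rfl⟩, by simp, fun j hj => ?_⟩
        · have h4 : ∑ j, s j * (if j = j0 then r else if j ∈ T then -u j else 0) = α := by
            rw [← Finset.sum_subset (Finset.subset_univ (insert j0 T)), Finset.sum_insert hj0]
            · rw [if_pos rfl, mul_comm, ← hαy, ← hu, add_assoc, ← Finset.sum_add_distrib,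
                Finset.sum_eq_zero, add_zero]
              intro j hj
              rw [if_neg (fun e : j = j0 => hj0 (e ▸ hj)), if_pos hj, smul_eq_mul]; ring
            · intro j _ hj
              simp only [Finset.mem_insert, not_or] at hj
              rw [if_neg hj.1, if_neg hj.2, mul_zero]
          rw [h4]; exact hα
        · simp only [Finset.mem_insert, not_or] at hj
          simp only [if_neg hj.1, if_neg hj.2, map_zero]
      | zero => exact ⟨0, Z.zero_mem, rfl, fun _ _ => rfl⟩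
      | add x y _ _ hx hy =>
        obtain ⟨w, hw, rfl, hw'⟩ := hx
        obtain ⟨w2, hw2, rfl, hw2'⟩ := hy
        exact ⟨w + w2, Z.add_mem hw hw2, rfl, fun j hj => by simp [hw' j hj, hw2' j hj]⟩
      | smul t x _ hx =>
        obtain ⟨w, hw, rfl, hw'⟩ := hx
        exact ⟨t • w, Z.smul_mem t hw, rfl, fun j hj => by simp [hw' j hj]⟩
    obtain ⟨w, hw, hw0, hw'⟩ := h3
    obtain ⟨w2, hw2, hw2'⟩ := ih (b - w) (fun j hj => by
        by_cases e : j = j0
        · subst e
          rw [Pi.sub_apply, hw0, ← hβγ]; simpa using hγ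
        · have : j ∉ insert j0 T := by simp [e, hj]
          rw [Pi.sub_apply, hw' j this, sub_zero]; exact hT j this) (by
        simp only [Pi.sub_apply, mul_sub, Finset.sum_sub_distrib]
        exact Ideal.sub_mem _ hb (Submodule.mem_sup_left (hZI w hw)))
    refine ⟨w + w2, Z.add_mem hw hw2, fun j => ?_⟩
    have := hw2' j
    rwa [Pi.sub_apply, sub_sub] at this

theorem ColonA_krull [IsNoetherianRing B] [IsLocalRing B] (K : Ideal B) (b : B)
    (h : ∀ N : ℕ, b ∈ K ⊔ maximalIdeal B ^ N) : b ∈ K := by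
  rw [← Submodule.Quotient.mk_eq_zero]
  refine IsHausdorff.haus' (I := maximalIdeal B) _ fun N => ?_
  rw [SModEq.zero]
  obtain ⟨x, hx, y, hy, rfl⟩ := Submodule.mem_sup.1 (h N)
  rw [Submodule.Quotient.mk_add, (Submodule.Quotient.mk_eq_zero _).2 hx, zero_add]
  have : (Submodule.Quotient.mk y : B ⧸ K) = y • Submodule.Quotient.mk 1 := by
    rw [← Submodule.Quotient.mk_smul, smul_eq_mul, mul_one]
  rw [this]
  exact Submodule.smul_mem_smul hy trivial

theorem ColonA_artin_rees [IsNoetherianRing A] (a m : Ideal A) (r : A) :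
    ∃ k : ℕ, ∀ N, (a ⊔ m ^ (N + k)).colon {r} ≤ a.colon {r} ⊔ m ^ N := by
  obtain ⟨k, hk⟩ := Ideal.exists_pow_inf_eq_pow_smul m
    (Submodule.span A {(Submodule.Quotient.mk r : A ⧸ a)})
  refine ⟨k, fun N x hx => ?_⟩
  rw [Submodule.mem_colon_singleton, smul_eq_mul] at hx
  obtain ⟨y, hy, z, hz, hyz⟩ := Submodule.mem_sup.1 hx
  have h1 : x • (Submodule.Quotient.mk r : A ⧸ a) ∈ m ^ (N + k) • (⊤ : Submodule A (A ⧸ a)) ⊓
      Submodule.span A {(Submodule.Quotient.mk r : A ⧸ a)} := by
    refine ⟨?_, Submodule.smul_mem _ _ (Submodule.mem_span_singleton_self _)⟩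
    have : x • (Submodule.Quotient.mk r : A ⧸ a) = z • Submodule.Quotient.mk 1 := by
      rw [← Submodule.Quotient.mk_smul, ← Submodule.Quotient.mk_smul, Submodule.Quotient.eq,
        smul_eq_mul, smul_eq_mul, mul_one, ← hyz]
      simpa using hy
    rw [this]
    exact Submodule.smul_mem_smul hz trivial
  rw [hk _ (Nat.le_add_left _ _), Nat.add_sub_cancel] at h1
  obtain ⟨t, ht, htx⟩ := Submodule.mem_smul_span_singleton.1
    (Submodule.smul_mono le_rfl inf_le_right h1)
  rw [← Submodule.Quotient.mk_smul, ← Submodule.Quotient.mk_smul, Submodule.Quotient.eq,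
    ← sub_smul] at htx
  have h2 : x = -(t - x) + t := by ring
  rw [h2]
  exact Submodule.add_mem_sup (Submodule.neg_mem _ (Submodule.mem_colon_singleton.2 htx)) ht

theorem ColonA_le_comap (f : A →+* B) (b : Ideal A) (r : A) (c : Ideal B) :
    (b.colon {r}).map f ⊔ c ≤
      Submodule.comap (LinearMap.toSpanSingleton B B (f r)) (b.map f ⊔ c) := by
  have h1 : (b.colon {r}).map f ≤
      (Submodule.comap (LinearMap.toSpanSingleton B B (f r)) (b.map f ⊔ c) : Ideal B) := by
    rw [Ideal.map_le_iff_le_comap]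
    intro x hx
    rw [Submodule.mem_colon_singleton, smul_eq_mul] at hx
    rw [Ideal.mem_comap, Submodule.mem_comap, LinearMap.toSpanSingleton_apply, smul_eq_mul,
      ← map_mul]
    exact Submodule.mem_sup_left (Ideal.mem_map_of_mem _ hx)
  refine sup_le h1 fun x hx => ?_
  exact Submodule.mem_sup_right (Ideal.mul_mem_right _ _ hx)

theorem ColonA_rl_step (f : A →+* B) (b : Ideal A) (r : A) (c : Ideal B) :
    rl (b.map f ⊔ c) (⊤ : Ideal B) =
      rl (Submodule.comap (LinearMap.toSpanSingleton B B (f r)) (b.map f ⊔ c)) (⊤ : Ideal B) +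
      rl ((b ⊔ Ideal.span {r}).map f ⊔ c) (⊤ : Ideal B) := by
  have h1 : (b ⊔ Ideal.span {r}).map f ⊔ c = (b.map f ⊔ c) ⊔ Submodule.span B {f r} := by
    rw [Ideal.map_sup, Ideal.map_span, Set.image_singleton, sup_right_comm]
  rw [h1, rl_add (le_sup_left : b.map f ⊔ c ≤ (b.map f ⊔ c) ⊔ Submodule.span B {f r}) le_top,
    rl_sup_right, rl_span_singleton]

theorem CP.of_flat [Algebra A B] [Module.Flat A B] : CP (algebraMap A B) ⊥ ⊥ := by
  intro a _ r b hb
  rw [sup_bot_eq] at hb ⊢
  obtain ⟨n, g, x, hx⟩ := Submodule.mem_span_set'.1 hb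
  choose y hy hy' using fun i => (x i).2
  have hrel : ∑ i : Option (Fin n), (Option.elim i r fun i => -y i) •
      (Option.elim i b g : B) = 0 := by
    rw [Fintype.sum_option]
    simp only [Option.elim_none, Option.elim_some, Algebra.smul_def, map_neg, hy', neg_mul,
      Finset.sum_neg_distrib]
    rw [← hx]
    simp [mul_comm]
  obtain ⟨k, u, z, h1, h2⟩ := Module.Flat.isTrivialRelation_of_sum_smul_eq_zero (R := A) (M := B)
    (f := fun i : Option (Fin n) => Option.elim i r fun i => -y i)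
    (x := fun i : Option (Fin n) => Option.elim i b g) hrel
  have h3 : b = ∑ j, u none j • z j := h1 none
  rw [h3]
  refine Ideal.sum_mem _ fun j _ => ?_
  rw [Algebra.smul_def]
  refine Ideal.mul_mem_right _ _ (Ideal.mem_map_of_mem _ ?_)
  have h4 := h2 j
  rw [Fintype.sum_option] at h4
  simp only [Option.elim_none, Option.elim_some, neg_mul, Finset.sum_neg_distrib] at h4
  rw [Submodule.mem_colon_singleton, smul_eq_mul, mul_comm, add_neg_eq_zero.1 h4]
  exact Ideal.sum_mem _ fun i _ => Ideal.mul_mem_right _ _ (hy i)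

theorem CP.mono {f : A →+* B} {I I' : Ideal A} {c : Ideal B} (h : CP f I c) (hI : I ≤ I') :
    CP f I' c := by
  exact fun a ha => h a (hI.trans ha)

theorem CP.congr_sup {f : A →+* B} {I : Ideal A} {c c' : Ideal B} (h : CP f I c)
    (hc : I.map f ⊔ c = I.map f ⊔ c') : CP f I c' := by
  have key : ∀ a : Ideal A, I ≤ a → a.map f ⊔ c = a.map f ⊔ c' := by
    intro a ha
    have h1 : a.map f = a.map f ⊔ I.map f := (sup_eq_left.2 (Ideal.map_mono ha)).symm
    rw [h1, sup_assoc, sup_assoc, hc]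
  intro a ha r b hb
  rw [← key a ha] at hb
  rw [← key _ (ha.trans (ColonA_le_colon a r))]
  exact h a ha r b hb

/-- vector form of the colon property -/
theorem CP.vec {f : A →+* B} {I : Ideal A} {c : Ideal B} (h : CP f I c) {ι : Type*} [Fintype ι]
    (s : ι → A) (e : ι → A) (b : ι → B) (hb : ∑ j, f (s j) * b j ∈ I.map f ⊔ c) :
    ∑ j, f (e j) * b j ∈
      (Ideal.span {a | ∃ u : ι → A, ∑ j, s j * u j ∈ I ∧ a = ∑ j, e j * u j}).map f ⊔
        (I.map f ⊔ c) := by
  obtain ⟨w, hw, hbw⟩ := ColonA_syz h s b hb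
  have h1 : ∑ j, f (e j) * b j = ∑ j, f (e j) * w j + ∑ j, f (e j) * (b j - w j) := by
    rw [← Finset.sum_add_distrib]
    exact Finset.sum_congr rfl fun j _ => by ring
  rw [h1]
  refine Submodule.add_mem_sup ?_ (Submodule.mem_sup_right
    (Ideal.sum_mem _ fun j _ => Ideal.mul_mem_left _ _ (hbw j)))
  clear h1 hbw
  induction hw using Submodule.span_induction with
  | mem x hx =>
    obtain ⟨u, hu, rfl⟩ := hx
    simp only [← map_mul, ← map_sum]
    exact Ideal.mem_map_of_mem _ (Ideal.subset_span ⟨u, hu, rfl⟩)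
  | zero => simp
  | add x y _ _ hx hy =>
    simp only [Pi.add_apply, mul_add, Finset.sum_add_distrib]
    exact Ideal.add_mem _ hx hy
  | smul t x _ hx =>
    simp only [Pi.smul_apply, smul_eq_mul, mul_left_comm _ t, ← Finset.mul_sum]
    exact Ideal.mul_mem_left _ _ hx

theorem CP.flat [Algebra A B] (h : CP (algebraMap A B) ⊥ ⊥) : Module.Flat A B := by
  refine Module.Flat.of_forall_isTrivialRelation fun {l s x} hx => ?_
  obtain ⟨w, hw, hbw⟩ := ColonA_syz h s x (by
    simp only [← Algebra.smul_def, hx]; exact Submodule.zero_mem _)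
  have hxw : x = w := funext fun j => sub_eq_zero.1 (hbw j)
  subst hxw
  obtain ⟨n, g, y, hy⟩ := Submodule.mem_span_set'.1 hw
  choose u hu hu' using fun i => (y i).2
  refine ⟨n, fun i j => u j i, g, fun i => ?_, fun j => hu j⟩
  rw [← hy, Finset.sum_apply]
  refine Finset.sum_congr rfl fun j _ => ?_
  rw [Pi.smul_apply, hu', smul_eq_mul, Algebra.smul_def, mul_comm]

theorem CP.comp {f : A →+* B} {g : B →+* C} {I : Ideal A} {c : Ideal C} (h : CP f I ⊥)
    (h' : CP g (I.map f) c) : CP (g.comp f) I c := by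
  intro a ha r x hx
  rw [← Ideal.map_map] at hx ⊢
  refine sup_le_sup_right (Ideal.map_mono fun y hy => ?_) c
    (h' (a.map f) (Ideal.map_mono ha) (f r) x hx)
  rw [Submodule.mem_colon_singleton, smul_eq_mul, mul_comm] at hy
  simpa using h a ha r y (Submodule.mem_sup_left hy)

theorem cp_comp_surj_iff {f : A →+* B} {π : B →+* C} (hπ : Function.Surjective π) {I : Ideal A}
    {c : Ideal C} : CP (π.comp f) I c ↔ CP f I (c.comap π) := by
  have key : ∀ (K : Ideal B) (y : B), y ∈ K ⊔ c.comap π ↔ π y ∈ K.map π ⊔ c := by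
    intro K y
    conv_rhs => rw [← Ideal.map_comap_of_surjective π hπ c, ← Ideal.map_sup, ← Ideal.mem_comap,
      Ideal.comap_map_of_surjective π hπ, sup_assoc,
      sup_eq_left.2 (Ideal.comap_mono (f := π) (bot_le : ⊥ ≤ c))]
  constructor
  · intro h a ha r b hb
    rw [key, Ideal.map_map] at hb ⊢
    rw [map_mul] at hb
    exact h a ha r (π b) hb
  · intro h a ha r b hb
    obtain ⟨b, rfl⟩ := hπ b
    rw [← Ideal.map_map, ← key]
    refine h a ha r b ?_
    rw [key, Ideal.map_map, map_mul]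
    exact hb

theorem cp_surj_comp_iff {ρ : A →+* B} (hρ : Function.Surjective ρ) {g : B →+* C} {I : Ideal B}
    {c : Ideal C} : CP (g.comp ρ) (I.comap ρ) c ↔ CP g I c := by
  constructor
  · intro h a ha r x hx
    obtain ⟨r, rfl⟩ := hρ r
    have h1 := h (a.comap ρ) (Ideal.comap_mono ha) r x (by
      rw [← Ideal.map_map, Ideal.map_comap_of_surjective ρ hρ]; exact hx)
    rw [← Ideal.map_map] at h1
    refine sup_le_sup_right (Ideal.map_mono ?_) c h1
    rw [Ideal.map_le_iff_le_comap]
    intro y hy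
    rw [Submodule.mem_colon_singleton, smul_eq_mul, Ideal.mem_comap, map_mul] at hy
    rw [Ideal.mem_comap, Submodule.mem_colon_singleton, smul_eq_mul]
    exact hy
  · intro h a ha r x hx
    rw [← Ideal.map_map] at hx ⊢
    have h1 := h (a.map ρ) (by
      rw [← Ideal.map_comap_of_surjective ρ hρ I]; exact Ideal.map_mono ha) (ρ r) x hx
    refine sup_le_sup_right (Ideal.map_mono fun y hy => ?_) c h1
    obtain ⟨y, rfl⟩ := hρ y
    refine Ideal.mem_map_of_mem _ ?_
    rw [Submodule.mem_colon_singleton, smul_eq_mul, ← map_mul, ← Ideal.mem_comap,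
      Ideal.comap_map_of_surjective ρ hρ,
      sup_eq_left.2 ((Ideal.comap_mono (f := ρ) (bot_le : ⊥ ≤ I)).trans ha)] at hy
    rw [Submodule.mem_colon_singleton, smul_eq_mul]
    exact hy

/-- passing to the limit (Artin-Rees and Krull) -/
theorem CP.of_pow [IsNoetherianRing A] [IsNoetherianRing B] [IsLocalRing B] {f : A →+* B}
    {I : Ideal A} {c : Ideal B} (m : Ideal A) (hm : m.map f ≤ maximalIdeal B)
    (h : ∀ N : ℕ, CP f (I ⊔ m ^ N) c) : CP f I c := by
  intro a ha r b hb
  obtain ⟨k, hk⟩ := ColonA_artin_rees a m r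
  refine ColonA_krull _ b fun N => ?_
  have h1 := h (N + k) (a ⊔ m ^ (N + k)) (sup_le_sup_right ha _) r b
    (sup_le_sup_right (Ideal.map_mono le_sup_left) c hb)
  have h2 : ((a ⊔ m ^ (N + k)).colon {r}).map f ⊔ c ≤
      (a.colon {r}).map f ⊔ c ⊔ maximalIdeal B ^ N := by
    refine sup_le ((Ideal.map_mono (hk N)).trans ?_) (le_sup_of_le_left le_sup_right)
    rw [Ideal.map_sup, Ideal.map_pow]
    exact sup_le_sup le_sup_left (Ideal.pow_right_mono hm N)
  exact h2 h1

/-- lengths under flat base change -/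
theorem CP.rl_map [IsLocalRing A] {f : A →+* B} {I : Ideal A} {c : Ideal B} (h : CP f I c)
    {a : Ideal A} (ha : I ≤ a) (hfin : rl a (⊤ : Ideal A) ≠ ⊤) :
    rl (a.map f ⊔ c) (⊤ : Ideal B) =
      rl a (⊤ : Ideal A) * rl ((maximalIdeal A).map f ⊔ c) (⊤ : Ideal B) := by
  refine rl_induction (B := (⊤ : Ideal A)) (fun a : Ideal A => I ≤ a →
    rl (a.map f ⊔ c) (⊤ : Ideal B) =
      rl a (⊤ : Ideal A) * rl ((maximalIdeal A).map f ⊔ c) (⊤ : Ideal B)) ?_ ?_ le_top hfin ha
  · intro _
    rw [rl_self, zero_mul, Ideal.map_top, top_sup_eq, rl_self]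
  · intro a v _ hv _ hk ih ha
    have hcol : Submodule.colon a {v} = maximalIdeal A := by
      refine ((maximalIdeal.isMaximal A).eq_of_le ?_ fun x hx => ?_).symm
      · rw [Ne, Ideal.eq_top_iff_one, Submodule.mem_colon_singleton, one_smul]; exact hv
      · exact Submodule.mem_colon_singleton.2 (hk x hx)
    have h1 : Submodule.comap (LinearMap.toSpanSingleton B B (f v)) (Ideal.map f a ⊔ c) =
        (maximalIdeal A).map f ⊔ c := by
      rw [← hcol]
      refine le_antisymm (fun x hx => h a ha v x ?_) (ColonA_le_comap f a v c)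
      rw [mul_comm]; exact hx
    rw [ColonA_rl_step f a v c, h1, ih (ha.trans le_sup_left),
      rl_add (le_sup_left : a ≤ a ⊔ Submodule.span A {v}) le_top, rl_simple_step hv hk, add_mul,
      one_mul]

/-- colengths are subadditive along cyclic steps -/
theorem rl_map_step (f : A →+* B) (b : Ideal A) (r : A) (c : Ideal B) :
    rl (b.map f ⊔ c) (⊤ : Ideal B) ≤ rl ((b.colon {r}).map f ⊔ c) (⊤ : Ideal B) +
      rl ((b ⊔ Ideal.span {r}).map f ⊔ c) (⊤ : Ideal B) := by
  rw [ColonA_rl_step f b r c]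
  exact add_le_add (rl_mono (ColonA_le_comap f b r c) le_rfl) le_rfl

end Vale.Agent.P202
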