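import Vale.Agent.P202.ColonA
import Vale.Agent.P202.ColonC

/-! Local criteria of flatness. -/

namespace Vale.Agent.P202

open IsLocalRing

variable {A B C : Type*} [CommRing A] [CommRing B] [CommRing C]

theorem ColonB_mem_map {f : A →+* B} {a : Ideal A} {x : B} (hx : x ∈ a.map f) :
    ∃ (n : ℕ) (s : Fin n → A) (b : Fin n → B), (∀ j, s j ∈ a) ∧ x = ∑ j, f (s j) * b j := by
  obtain ⟨n, g, z, hz⟩ := Submodule.mem_span_set'.1 hx
  choose y hy hy' using fun i => (z i).2
  refine ⟨n, y, g, hy, ?_⟩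
  rw [← hz]
  exact Finset.sum_congr rfl fun j _ => by rw [hy', smul_eq_mul, mul_comm]

theorem ColonB_vec {f : A →+* B} {I : Ideal A} {c : Ideal B} (h : CP f I c) {ι : Type*}
    [Fintype ι] (s e : ι → A) (b : ι → B) (hb : ∑ j, f (s j) * b j ∈ I.map f ⊔ c) (K : Ideal A)
    (hK : ∀ u : ι → A, ∑ j, s j * u j ∈ I → ∑ j, e j * u j ∈ K) :
    ∑ j, f (e j) * b j ∈ K.map f ⊔ c := by
  obtain ⟨w, hw, hbw⟩ := ColonA_syz h s b hb
  have h1 : ∑ j, f (e j) * b j = ∑ j, f (e j) * w j + ∑ j, f (e j) * (b j - w j) := by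
    rw [← Finset.sum_add_distrib]
    exact Finset.sum_congr rfl fun j _ => by ring
  rw [h1]
  refine Submodule.add_mem_sup ?_ (Ideal.sum_mem _ fun j _ => Ideal.mul_mem_left _ _ (hbw j))
  clear h1 hbw
  induction hw using Submodule.span_induction with
  | mem x hx =>
    obtain ⟨u, hu, rfl⟩ := hx
    simp only [← map_mul, ← map_sum]
    exact Ideal.mem_map_of_mem _ (hK u hu)
  | zero => simp
  | add x y _ _ hx hy =>
    simp only [Pi.add_apply, mul_add, Finset.sum_add_distrib]
    exact Ideal.add_mem _ hx hy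
  | smul t x _ hx =>
    simp only [Pi.smul_apply, smul_eq_mul, mul_left_comm _ t, ← Finset.mul_sum]
    exact Ideal.mul_mem_left _ _ hx

theorem ColonB_mem_sup {f : A →+* B} {a : Ideal A} {c : Ideal B} {r : A} {x : B}
    (hx : x ∈ (a ⊔ Ideal.span {r}).map f ⊔ c) : ∃ z : B, x - f r * z ∈ a.map f ⊔ c := by
  rw [Ideal.map_sup, Ideal.map_span, Set.image_singleton, sup_right_comm] at hx
  obtain ⟨u, hu, v, hv, rfl⟩ := Submodule.mem_sup.1 hx
  obtain ⟨z, rfl⟩ := Ideal.mem_span_singleton'.1 hv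
  exact ⟨z, by convert hu using 1; ring⟩

theorem ColonB_colon_y {f : A →+* B} {I : Ideal A} {c : Ideal B} {y : A}
    (h : CP f (I ⊔ Ideal.span {y}) c) (hy : RegMod (I.map f ⊔ c) (f y)) {a : Ideal A}
    (ha : I ≤ a) {x : B} (hx : f y * x ∈ a.map f ⊔ c) : x ∈ (a.colon {y}).map f ⊔ c := by
  obtain ⟨u, hu, γ, hγ, hx'⟩ := Submodule.mem_sup.1 hx
  obtain ⟨n, s, b, hs, rfl⟩ := ColonB_mem_map hu
  have h1 : ∑ j, f (s j) * b j ∈ (I ⊔ Ideal.span {y} * a.colon {y}).map f ⊔ c := by
    refine ColonB_vec h s s b ?_ _ fun u hu => ?_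
    · rw [eq_sub_of_add_eq hx']
      exact Ideal.sub_mem _ (Submodule.mem_sup_left (Ideal.mul_mem_right _ _
        (Ideal.mem_map_of_mem _ (Submodule.mem_sup_right (Ideal.mem_span_singleton_self y)))))
        (Submodule.mem_sup_right hγ)
    · have h2 : ∑ j, s j * u j ∈ a := Ideal.sum_mem _ fun j _ => Ideal.mul_mem_right _ _ (hs j)
      obtain ⟨i, hi, v, hv, hiv⟩ := Submodule.mem_sup.1 hu
      obtain ⟨w, rfl⟩ := Ideal.mem_span_singleton'.1 hv
      rw [← hiv] at h2 ⊢
      refine Submodule.add_mem_sup hi ?_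
      rw [mul_comm w y]
      refine Ideal.mul_mem_mul (Ideal.mem_span_singleton_self y) ?_
      rw [Submodule.mem_colon_singleton, smul_eq_mul]
      simpa using a.sub_mem h2 (ha hi)
  rw [Ideal.map_sup, Ideal.map_mul, Ideal.map_span, Set.image_singleton, sup_right_comm] at h1
  obtain ⟨i, hi, v, hv, hiv⟩ := Submodule.mem_sup.1 h1
  obtain ⟨z, hz, rfl⟩ := Ideal.mem_span_singleton_mul.1 hv
  have h3 : x - z ∈ I.map f ⊔ c := by
    refine hy _ ?_
    have : f y * (x - z) = i + γ := by rw [mul_sub, ← hx', ← hiv]; ring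
    rw [this]
    exact Ideal.add_mem _ hi (Submodule.mem_sup_right hγ)
  have h4 : x = z + (x - z) := by ring
  rw [h4]
  exact Ideal.add_mem _ (Submodule.mem_sup_left hz)
    (sup_le_sup_right (Ideal.map_mono (ha.trans (ColonA_le_colon a y))) c h3)

theorem ColonB_pow {f : A →+* B} {I : Ideal A} {c : Ideal B} {y : A}
    (h : CP f (I ⊔ Ideal.span {y}) c) (hy : RegMod (I.map f ⊔ c) (f y)) (N : ℕ) :
    CP f (I ⊔ Ideal.span {y} ^ N) c := by
  induction N with
  | zero =>
    intro a ha r b _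
    rw [pow_zero, Ideal.one_eq_top, sup_top_eq, top_le_iff] at ha
    have : a.colon {r} = ⊤ := top_le_iff.1 (ha ▸ ColonA_le_colon a r)
    rw [this, Ideal.map_top, top_sup_eq]; trivial
  | succ N ih =>
    intro a ha r b hb
    have hIa : I ≤ a := le_sup_left.trans ha
    have h1 := h (a ⊔ Ideal.span {y}) (sup_le_sup_right hIa _) r b
      (sup_le_sup_right (Ideal.map_mono le_sup_left) c hb)
    obtain ⟨u, hu, γ, hγ, rfl⟩ := Submodule.mem_sup.1 h1
    obtain ⟨n, s, β, hs, rfl⟩ := ColonB_mem_map hu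
    have h2 : ∀ j, ∃ v, s j * r - y * v ∈ a := fun j => by
      have := hs j
      rw [Submodule.mem_colon_singleton, smul_eq_mul] at this
      obtain ⟨α, hα, w, hw, e⟩ := Submodule.mem_sup.1 this
      obtain ⟨v, rfl⟩ := Ideal.mem_span_singleton'.1 hw
      exact ⟨v, by rw [← e]; convert hα using 1; ring⟩
    choose v hv using h2
    have h3 : f y * ∑ j, f (v j) * β j ∈ a.map f ⊔ c := by
      have e : f y * ∑ j, f (v j) * β j = f r * (∑ j, f (s j) * β j + γ) -
          (∑ j, f (s j * r - y * v j) * β j + f r * γ) := by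
        simp only [map_sub, map_mul, mul_add, Finset.mul_sum, sub_mul, Finset.sum_sub_distrib]
        have e1 : ∑ j, f r * (f (s j) * β j) = ∑ j, f (s j) * f r * β j :=
          Finset.sum_congr rfl fun j _ => by ring
        have e2 : ∑ j, f y * (f (v j) * β j) = ∑ j, f y * f (v j) * β j :=
          Finset.sum_congr rfl fun j _ => by ring
        rw [e1, e2]; ring
      rw [e]
      exact Ideal.sub_mem _ hb (Submodule.add_mem_sup (Ideal.sum_mem _ fun j _ =>
        Ideal.mul_mem_right _ _ (Ideal.mem_map_of_mem _ (hv j))) (Ideal.mul_mem_left _ _ hγ))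
    have h4 : I ⊔ Ideal.span {y} ^ N ≤ a.colon {y} := by
      refine sup_le (hIa.trans (ColonA_le_colon a y)) fun x hx => ?_
      rw [Submodule.mem_colon_singleton, smul_eq_mul]
      refine ha (Submodule.mem_sup_right ?_)
      rw [pow_succ]
      exact Ideal.mul_mem_mul hx (Ideal.mem_span_singleton_self y)
    refine Ideal.add_mem _ ?_ (Submodule.mem_sup_right hγ)
    refine ColonB_vec (ih.mono h4) v s β (ColonB_colon_y h hy hIa h3) _ fun u hu => ?_
    rw [Submodule.mem_colon_singleton, smul_eq_mul] at hu ⊢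
    have e : (∑ j, s j * u j) * r = ∑ j, (s j * r - y * v j) * u j + (∑ j, v j * u j) * y := by
      rw [Finset.sum_mul, Finset.sum_mul, ← Finset.sum_add_distrib]
      exact Finset.sum_congr rfl fun j _ => by ring
    rw [e]
    exact a.add_mem (Ideal.sum_mem _ fun j _ => Ideal.mul_mem_right _ _ (hv j)) hu

theorem ColonB_regMod [IsNoetherianRing A] [IsLocalRing A] [IsNoetherianRing B] [IsLocalRing B]
    {f : A →+* B} (hf : (maximalIdeal A).map f ≤ maximalIdeal B) {I : Ideal A} {c : Ideal B}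
    (h : CP f I c) {y : B} (hy : RegMod ((maximalIdeal A).map f ⊔ c) y) (a : Ideal A)
    (ha : I ≤ a) : RegMod (a.map f ⊔ c) y := by
  have key : ∀ a : Ideal A, Prim a → I ≤ a → RegMod (a.map f ⊔ c) y := by
    intro a hp
    refine rl_induction (B := (⊤ : Ideal A)) (fun a : Ideal A => I ≤ a → RegMod (a.map f ⊔ c) y)
      ?_ ?_ le_top (rl_ne_top_of_prim hp)
    · intro _ b _
      rw [Ideal.map_top, top_sup_eq]; trivial
    · intro a v _ hv _ hk ih ha b hb
      have hcol : Submodule.colon a {v} = maximalIdeal A := by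
        refine ((maximalIdeal.isMaximal A).eq_of_le ?_ fun x hx => ?_).symm
        · rw [Ne, Ideal.eq_top_iff_one, Submodule.mem_colon_singleton, one_smul]; exact hv
        · exact Submodule.mem_colon_singleton.2 (hk x hx)
      obtain ⟨z, hz⟩ := ColonB_mem_sup (ih (ha.trans le_sup_left) b
        (sup_le_sup_right (Ideal.map_mono le_sup_left) c hb))
      have h1 : f v * (y * z) ∈ Ideal.map f a ⊔ c := by
        have e : f v * (y * z) = y * b - y * (b - f v * z) := by ring
        rw [e]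
        exact Ideal.sub_mem _ hb (Ideal.mul_mem_left _ _ hz)
      have h2 := h a ha v _ h1
      rw [hcol] at h2
      have h3 := hy z h2
      rw [← hcol] at h3
      have h4 : z * f v ∈ Ideal.map f a ⊔ c := ColonA_le_comap f a v c h3
      have e : b = (b - f v * z) + z * f v := by ring
      rw [e]
      exact Ideal.add_mem _ hz h4
  intro b hb
  refine ColonA_krull _ b fun N => ?_
  have h1 := key (a ⊔ maximalIdeal A ^ N) ⟨N, le_sup_right⟩ (ha.trans le_sup_left) b
    (sup_le_sup_right (Ideal.map_mono le_sup_left) c hb)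
  rw [Ideal.map_sup, Ideal.map_pow, sup_right_comm] at h1
  exact sup_le_sup_left (Ideal.pow_right_mono hf N) _ h1

theorem ColonB_cut {f : A →+* B} {I : Ideal A} {c : Ideal B} (h : CP f I c) {y : B}
    (hy : ∀ a : Ideal A, I ≤ a → RegMod (a.map f ⊔ c) y) : CP f I (c ⊔ Ideal.span {y}) := by
  intro a ha r b hb
  rw [← sup_assoc] at hb ⊢
  obtain ⟨x, hx, v, hv, e⟩ := Submodule.mem_sup.1 hb
  obtain ⟨b', rfl⟩ := Ideal.mem_span_singleton'.1 hv
  have h1 : y * b' ∈ (a ⊔ Ideal.span {r}).map f ⊔ c := by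
    have e1 : y * b' = f r * b - x := by rw [← e]; ring
    rw [e1]
    exact Ideal.sub_mem _ (Submodule.mem_sup_left (Ideal.mul_mem_right _ _
      (Ideal.mem_map_of_mem _ (Submodule.mem_sup_right (Ideal.mem_span_singleton_self r)))))
      (sup_le_sup_right (Ideal.map_mono le_sup_left) c hx)
  obtain ⟨z, hz⟩ := ColonB_mem_sup (hy _ (ha.trans le_sup_left) b' h1)
  have h2 : f r * (b - y * z) ∈ a.map f ⊔ c := by
    have e2 : f r * (b - y * z) = x + y * (b' - f r * z) := by rw [mul_sub, ← e]; ring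
    rw [e2]
    exact Ideal.add_mem _ hx (Ideal.mul_mem_left _ _ hz)
  have e3 : b = (b - y * z) + y * z := by ring
  rw [e3]
  exact Submodule.add_mem_sup (h a ha r _ h2)
    (Ideal.mul_mem_right _ _ (Ideal.mem_span_singleton_self y))

/-- flatness from a regular sequence -/
theorem CP.of_regSeq [IsNoetherianRing A] [IsLocalRing A] [IsNoetherianRing B] [IsLocalRing B]
    {f : A →+* B} (hf : (maximalIdeal A).map f ≤ maximalIdeal B) (t : List A) {I : Ideal A}
    {c : Ideal B} (ht : maximalIdeal A = I ⊔ Ideal.ofList t)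
    (hreg : RegSeq (I.map f ⊔ c) (t.map f)) : CP f I c := by
  induction t generalizing I with
  | nil =>
    intro a ha r b hb
    by_cases hr : r ∈ a
    · have : a.colon {r} = ⊤ := by
        rw [Ideal.eq_top_iff_one, Submodule.mem_colon_singleton, one_smul]; exact hr
      rw [this, Ideal.map_top, top_sup_eq]; trivial
    · have hu : IsUnit r := by
        by_contra hu
        have h1 : r ∈ maximalIdeal A := hu
        rw [ht, Ideal.ofList_nil, sup_bot_eq] at h1
        exact hr (ha h1)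
      exact sup_le_sup_right (Ideal.map_mono (ColonA_le_colon a r)) c
        ((Ideal.unit_mul_mem_iff_mem _ (hu.map f)).1 hb)
  | cons y l ih =>
    obtain ⟨h1, h2⟩ := hreg
    have h3 : CP f (I ⊔ Ideal.span {y}) c := by
      refine ih (by rw [ht, Ideal.ofList_cons, sup_assoc]) ?_
      rw [Ideal.map_sup, Ideal.map_span, Set.image_singleton, sup_right_comm]
      exact h2
    refine CP.of_pow (Ideal.span {y}) ?_ (ColonB_pow h3 h1)
    refine (Ideal.map_mono ?_).trans hf
    rw [ht, Ideal.ofList_cons]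
    exact le_sup_of_le_right le_sup_left

/-- sequences regular on the closed fibre -/
theorem CP.regSeq [IsNoetherianRing A] [IsLocalRing A] [IsNoetherianRing B] [IsLocalRing B]
    {f : A →+* B} (hf : (maximalIdeal A).map f ≤ maximalIdeal B) {I : Ideal A} {c : Ideal B}
    (h : CP f I c) (Y : List B) (hY : RegSeq ((maximalIdeal A).map f ⊔ c) Y) :
    (∀ a : Ideal A, I ≤ a → RegSeq (a.map f ⊔ c) Y) ∧ CP f I (c ⊔ Ideal.ofList Y) := by
  induction Y generalizing c with
  | nil => exact ⟨fun _ _ => trivial, by rwa [Ideal.ofList_nil, sup_bot_eq]⟩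
  | cons y l ih =>
    obtain ⟨h1, h2⟩ := hY
    have h3 := ColonB_regMod hf h h1
    obtain ⟨h4, h5⟩ := ih (ColonB_cut h h3) (by rwa [← sup_assoc])
    refine ⟨fun a ha => ⟨h3 a ha, ?_⟩, by rwa [Ideal.ofList_cons, ← sup_assoc]⟩
    rw [sup_assoc]
    exact h4 a ha

end Vale.Agent.P202
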