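import Vale.Agent.P202.Frob
import Vale.Agent.P202.Kos
import Vale.Agent.P202.Main

/-! The Frobenius argument for one prime. -/

namespace Vale.Agent.P202

open IsLocalRing Filter Topology

theorem TopP_sum_split {α : Type*} [DecidableEq α] (l : List α) (x : α) (F : α → ℝ) :
    (l.map F).sum = (l.count x : ℝ) * F x + ((l.filter fun y => y ≠ x).map F).sum := by
  induction l with
  | nil => simp
  | cons y l ih =>
    by_cases h : y = x
    · subst h
      simp only [List.map_cons, List.sum_cons, ih, List.count_cons_self, Nat.cast_add,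
        Nat.cast_one, ne_eq, not_true_eq_false, decide_false, Bool.false_eq_true,
        not_false_eq_true, List.filter_cons_of_neg]
      ring
    · have h1 : List.count x (y :: l) = List.count x l := by
        rw [List.count_cons]; simp [h]
      have h2 : (y :: l).filter (fun y => y ≠ x) = y :: l.filter fun y => y ≠ x := by
        rw [List.filter_cons_of_pos]; simpa using h
      rw [h1, h2, List.map_cons, List.sum_cons, ih, List.map_cons, List.sum_cons]
      ring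

theorem TopP_list {D : Type*} [CommRing D] [IsNoetherianRing D] {Q a : Ideal D} (hQ : Q.IsPrime)
    (ha : a ≤ Q) (hm : ∀ Q' : Ideal D, Q'.IsPrime → a ≤ Q' → Q ≤ Q') :
    ∃ (n : ℕ) (l : List (Ideal D)), n ≠ 0 ∧ (∀ Q' ∈ l, Q'.IsPrime ∧ Q < Q') ∧
      ∀ F : Ideal D → ℝ, (∀ b, a ≤ b → ∀ r, F b ≤ F (b.colon {r}) + F (b ⊔ Ideal.span {r})) →
        F ⊤ ≤ 0 → F a ≤ n * F Q + (l.map F).sum := by
  classical
  obtain ⟨l0, h1, h2⟩ := exists_prime_list a
  refine ⟨l0.count Q, l0.filter fun y => y ≠ Q, ?_, ?_, fun F hF hT => ?_⟩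
  · intro h0
    have hQl : Q ∉ l0 := List.count_eq_zero.1 h0
    have := h2 (fun b => if b ≤ Q then 1 else 0) (fun b _ r => ?_) (by
      simp only [top_le_iff, hQ.ne_top, if_false, le_refl])
    · have h3 : (l0.map fun b => if b ≤ Q then (1 : ℝ) else 0).sum = 0 := by
        refine List.sum_eq_zero fun y hy => ?_
        obtain ⟨b, hb, rfl⟩ := List.mem_map.1 hy
        rw [if_neg]
        intro hbQ
        exact hQl (le_antisymm hbQ (hm b (h1 b hb).1 (h1 b hb).2) ▸ hb)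
      rw [h3, if_pos ha] at this
      norm_num at this
    · by_cases hb : b ≤ Q
      · by_cases hr : r ∈ Q
        · have : b ⊔ Ideal.span {r} ≤ Q := sup_le hb ((Ideal.span_singleton_le_iff_mem _).2 hr)
          simp only [hb, this, if_true]
          split_ifs <;> norm_num
        · have : b.colon {r} ≤ Q := fun y hy =>
            (hQ.mem_or_mem (hb (by simpa using Submodule.mem_colon_singleton.1 hy))).resolve_right hr
          simp only [hb, this, if_true]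
          split_ifs <;> norm_num
      · simp only [hb, if_false]
        split_ifs <;> norm_num
  · intro Q' hQ'
    obtain ⟨h3, h4⟩ := List.mem_filter.1 hQ'
    have h5 : Q' ≠ Q := by simpa using h4
    exact ⟨(h1 Q' h3).1, lt_of_le_of_ne (hm Q' (h1 Q' h3).1 (h1 Q' h3).2) h5.symm⟩
  · rw [← TopP_sum_split]; exact h2 F hF hT

theorem TopP_deg_map {A B : Type*} [CommRing A] [CommRing B] {J : Type*} {i : J → ℕ}
    {g : Matrix J J A} (hd : Deg i g) (f : A →+* B) : Deg i (g.map f) := fun a b h =>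
  hd a b fun h0 => h (by simp [h0])

theorem TopP_sq_map {A B : Type*} [CommRing A] [CommRing B] {J : Type*} [Fintype J]
    {g : Matrix J J A} {q : Ideal A} (h : Ent (g * g) q) (f : A →+* B) :
    Ent (g.map f * g.map f) (q.map f) := fun a b => by
  rw [← Matrix.map_mul]; exact Ideal.mem_map_of_mem f (h a b)

theorem TopP_colon {A B : Type*} [CommRing A] [CommRing B] {ψ : A →+* B} (hψ : CP ψ ⊥ ⊥)
    (b : Ideal A) (r : A) : (b.map ψ).colon {ψ r} = (b.colon {r}).map ψ := by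
  apply le_antisymm
  · intro y hy
    have h1 : ψ r * y ∈ b.map ψ ⊔ ⊥ := by
      rw [sup_bot_eq, mul_comm]; simpa using Submodule.mem_colon_singleton.1 hy
    simpa using hψ b bot_le r y h1
  · rw [Ideal.map_le_iff_le_comap]
    intro y hy
    have h1 : y * r ∈ b := by simpa using Submodule.mem_colon_singleton.1 hy
    rw [Ideal.mem_comap, Submodule.mem_colon_singleton, smul_eq_mul, ← map_mul]
    exact Ideal.mem_map_of_mem ψ h1

theorem TopP_hfin {P : Type*} [CommRing P] [IsLocalRing P] [IsNoetherianRing P] {J : Type*}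
    [Fintype J] [DecidableEq J] {i : J → ℕ} {g : Matrix J J P} (hd : Deg i g) {q : Ideal P}
    (hnull : ∀ r ∈ maximalIdeal P, ∃ c, Null i g q (r ^ c)) (n : ℤ) : hI i g q n ≠ ⊤ := by
  obtain ⟨s, hs⟩ := (IsNoetherian.noetherian (maximalIdeal P) : (maximalIdeal P).FG)
  have h1 : Ideal.span (Set.range fun t : s => (t : P)) = maximalIdeal P := by
    rw [Subtype.range_coe_subtype]; exact hs
  refine hfin_pf_of_null (q := q) hd (fun t : s => (t : P)) ⟨1, ?_⟩ (fun t => hnull _ ?_)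
    (IsNoetherian.noetherian _) ?_ n
  · rw [pow_one, h1]; exact le_sup_right
  · rw [← h1]; exact Ideal.subset_span ⟨t, rfl⟩
  · simp

variable {D P : Type*} [CommRing D] [IsNoetherianRing D] [CommRing P] [IsLocalRing P]
  [IsNoetherianRing P] (p : ℕ) [Fact p.Prime] [CharP D p] [CharP P p]
  {J : Type} [Fintype J] [DecidableEq J] {i : J → ℕ} {g : Matrix J J P}

omit [IsNoetherianRing D] [IsNoetherianRing P] in
theorem TopP_null (e : ℕ) {q q' : Ideal P} (hq : q.map (iterateFrobenius P p e) ≤ q')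
    (hnull : ∀ r ∈ maximalIdeal P, ∃ c, Null i g q (r ^ c)) :
    ∀ r ∈ maximalIdeal P, ∃ c, Null i (g.map (iterateFrobenius P p e)) q' (r ^ c) := by
  intro r hr
  obtain ⟨c, hc⟩ := hnull r hr
  refine ⟨c * p ^ e, ?_⟩
  have := (hc.map (iterateFrobenius P p e)).mono hq
  rwa [iterateFrobenius_def, ← pow_mul] at this

omit [IsNoetherianRing D] [CharP D p] in
theorem TopP_frob_le (e : ℕ) (a : Ideal D) [CharP D p] : a.map (iterateFrobenius D p e) ≤ a :=
  (map_frob_le p e a).trans (Ideal.pow_le_self (pow_ne_zero e (Fact.out : p.Prime).ne_zero))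

/-- comparing the Euler characteristics of a complex and of its Frobenius pull-back -/
theorem lam_frob (ψ : D →+* P) (hψ : CP ψ ⊥ ⊥) (e : ℕ) (hdual : Dual (iterateFrobenius P p e))
    {Q : Ideal D} (hQ : Q.IsPrime) (hd : Deg i g) (hsq : Ent (g * g) (Q.map ψ))
    (hnull : ∀ r ∈ maximalIdeal P, ∃ c, Null i g (Q.map ψ) (r ^ c))
    (hsmall : ∀ Q' : Ideal D, Q'.IsPrime → Q < Q' → chiI i g (Q'.map ψ) = 0) :
    ∃ (a : ℕ) (l : List (Ideal D)), (∀ Q' ∈ l, Q'.IsPrime ∧ Q < Q') ∧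
      ((rl ((maximalIdeal P).map (iterateFrobenius P p e)) (⊤ : Ideal P)).toNat : ℤ) *
          chiI i g (Q.map ψ) = a * chiI i (g.map (iterateFrobenius P p e)) (Q.map ψ) ∧
      ∀ F : Ideal D → ℝ, (∀ b r, F b ≤ F (b.colon {r}) + F (b ⊔ Ideal.span {r})) → F ⊤ ≤ 0 →
        F (Q.map (iterateFrobenius D p e)) ≤ a * F Q + (l.map F).sum := by
  set φ := iterateFrobenius P p e with hφ
  set φD := iterateFrobenius D p e with hφD
  have hcomm : ∀ a : Ideal D, (a.map ψ).map φ = (a.map φD).map ψ := map_frob_comm p ψ e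
  have hd' : Deg i (g.map φ) := TopP_deg_map hd φ
  have hle : ∀ b : Ideal D, Q.map φD ≤ b → (Q.map ψ).map φ ≤ b.map ψ := fun b hb => by
    rw [hcomm]; exact Ideal.map_mono hb
  have hfin : ∀ b : Ideal D, Q.map φD ≤ b → ∀ n, hI i (g.map φ) (b.map ψ) n ≠ ⊤ := fun b hb =>
    TopP_hfin hd' (TopP_null p e (hle b hb) hnull)
  let lam : Ideal D → ℝ := fun b => (chiI i (g.map φ) (b.map ψ) : ℝ)
  have hadd : ∀ b, Q.map φD ≤ b → ∀ r,
      lam b = lam (b.colon {r}) + lam (b ⊔ Ideal.span {r}) := by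
    intro b hb r
    have h1 : (b ⊔ Ideal.span {r}).map ψ = b.map ψ ⊔ Ideal.span {ψ r} := by
      rw [Ideal.map_sup, Ideal.map_span, Set.image_singleton]
    have h2 := chiI_step hd' (I := b.map ψ) (fun x y => hle b hb (TopP_sq_map hsq φ x y)) (ψ r)
      (by rw [TopP_colon hψ]; exact hfin _ (hb.trans (ColonA_le_colon b r)))
      (by rw [← h1]; exact hfin _ (hb.trans le_sup_left))
    rw [TopP_colon hψ, ← h1] at h2
    simp only [lam, h2, Int.cast_add]
  have htop : lam ⊤ = 0 := by simp only [lam, Ideal.map_top, chiI_top, Int.cast_zero]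
  have key : ∀ Q' : Ideal D, Q'.IsPrime → Q ≤ Q' →
      ∃ (n : ℕ) (l : List (Ideal D)), n ≠ 0 ∧ (∀ Q'' ∈ l, Q''.IsPrime ∧ Q' < Q'') ∧
      ((rl ((maximalIdeal P).map φ) (⊤ : Ideal P)).toNat : ℝ) * (chiI i g (Q'.map ψ) : ℝ) =
        n * lam Q' + (l.map lam).sum ∧
      ∀ F : Ideal D → ℝ, (∀ b r, F b ≤ F (b.colon {r}) + F (b ⊔ Ideal.span {r})) → F ⊤ ≤ 0 →
        F (Q'.map φD) ≤ n * F Q' + (l.map F).sum := by
    intro Q' hQ' hQQ'
    obtain ⟨n, l, hn, hl, hF⟩ := TopP_list hQ' (TopP_frob_le p e Q')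
      fun Q'' h1 h2 => le_of_map_frob_le p e h1 h2
    refine ⟨n, l, hn, hl, ?_, fun F h1 h2 => hF F (fun b _ => h1 b) h2⟩
    have hm : Q.map φD ≤ Q'.map φD := Ideal.map_mono hQQ'
    have h1 := hF lam (fun b hb r => (hadd b (hm.trans hb) r).le) htop.le
    have h2 := hF (fun b => -lam b) (fun b hb r => by
      rw [hadd b (hm.trans hb) r]; linarith) (by simp only [htop, neg_zero, le_refl])
    have h3 : (l.map fun b => -lam b).sum = -(l.map lam).sum := by
      rw [List.sum_neg, List.map_map]; rfl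
    rw [h3] at h2
    have h4 := hdual.chiI_map hd (a := Q'.map ψ)
      (fun x y => Ideal.map_mono hQQ' (hsq x y))
      (TopP_hfin hd fun r hr => (hnull r hr).imp fun c hc => hc.mono (Ideal.map_mono hQQ'))
    rw [hcomm] at h4
    have h5 : lam (Q'.map φD) =
        ((rl ((maximalIdeal P).map φ) (⊤ : Ideal P)).toNat : ℝ) * (chiI i g (Q'.map ψ) : ℝ) := by
      simp only [lam, h4, Int.cast_mul, Int.cast_natCast]
    linarith
  have hzero : ∀ Q' : Ideal D, Q'.IsPrime → Q < Q' → lam Q' = 0 := by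
    intro Q'
    induction Q' using IsNoetherian.induction with
    | hgt Q' ih =>
      intro hQ' hlt
      obtain ⟨n, l, hn, hl, h1, -⟩ := key Q' hQ' hlt.le
      have h2 : (l.map lam).sum = 0 := List.sum_eq_zero fun y hy => by
        obtain ⟨b, hb, rfl⟩ := List.mem_map.1 hy
        exact ih b (hl b hb).2 (hl b hb).1 (hlt.trans (hl b hb).2)
      rw [h2, hsmall Q' hQ' hlt] at h1
      have h3 : (n : ℝ) * lam Q' = 0 := by simpa using h1.symm
      exact (mul_eq_zero.1 h3).resolve_left (Nat.cast_ne_zero.2 hn)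
  obtain ⟨n, l, -, hl, h1, hF⟩ := key Q hQ le_rfl
  refine ⟨n, l, hl, ?_, hF⟩
  have h2 : (l.map lam).sum = 0 := List.sum_eq_zero fun y hy => by
    obtain ⟨b, hb, rfl⟩ := List.mem_map.1 hy
    exact hzero b (hl b hb).1 (hl b hb).2
  rw [h2, add_zero] at h1
  simp only [lam] at h1
  exact_mod_cast h1

theorem TopP_cl_step {A B : Type*} [CommRing A] [CommRing B] (f : A →+* B) (b : Ideal A) (r : A)
    (c : Ideal B) :
    cl (b.map f ⊔ c) ≤ cl ((b.colon {r}).map f ⊔ c) + cl ((b ⊔ Ideal.span {r}).map f ⊔ c) := by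
  by_cases h : rl (b.map f ⊔ c) (⊤ : Ideal B) = ⊤
  · simp only [cl, h, ENat.toNat_top, Nat.cast_zero]; positivity
  have h1 : rl ((b.colon {r}).map f ⊔ c) (⊤ : Ideal B) ≠ ⊤ := ne_top_of_le_ne_top h
    (rl_mono (sup_le_sup_right (Ideal.map_mono (ColonA_le_colon b r)) _) le_rfl)
  have h2 : rl ((b ⊔ Ideal.span {r}).map f ⊔ c) (⊤ : Ideal B) ≠ ⊤ := ne_top_of_le_ne_top h
    (rl_mono (sup_le_sup_right (Ideal.map_mono le_sup_left) _) le_rfl)
  have h3 := ENat.toNat_le_toNat (rl_map_step f b r c) (WithTop.add_ne_top.2 ⟨h1, h2⟩)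
  rw [ENat.toNat_add h1 h2] at h3
  simp only [cl]
  exact_mod_cast h3

/-- the degree of Frobenius is at most `a q ^ d` -/
theorem kappa_le (ψ : D →+* P) (e : ℕ) (hdual : Dual (iterateFrobenius P p e)) {Q : Ideal D}
    {s : ℕ} {W : Ideal P} (hW : Gen W (s + 1)) (hWm : W ≤ maximalIdeal P)
    (hprim : Prim (Q.map ψ ⊔ W)) {μ : ℝ} (hμ : Lim (s + 1) (fun N => cl (Q.map ψ ⊔ W ^ N)) μ)
    (a : ℕ) (l : List (Ideal D))
    (hl : ∀ Q' ∈ l, Q ≤ Q' ∧
      ∃ W' : Ideal P, Gen W' s ∧ W' ≤ maximalIdeal P ∧ Prim (Q'.map ψ ⊔ W'))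
    (hF : ∀ F : Ideal D → ℝ, (∀ b r, F b ≤ F (b.colon {r}) + F (b ⊔ Ideal.span {r})) → F ⊤ ≤ 0 →
        F (Q.map (iterateFrobenius D p e)) ≤ a * F Q + (l.map F).sum) :
    ((rl ((maximalIdeal P).map (iterateFrobenius P p e)) (⊤ : Ideal P)).toNat : ℝ) * μ ≤
      a * ((p : ℝ) ^ e) ^ (s + 1) * μ := by
  set φ := iterateFrobenius P p e with hφ
  have hq : p ^ e ≠ 0 := pow_ne_zero e (Fact.out : p.Prime).ne_zero
  have hpow : ∀ N, W ^ (p ^ e * N + p ^ e * (s + 1)) ≤ (W ^ N).map φ := fun N => by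
    rw [← mul_add]; exact pow_le_map_frob p e hW N
  have h1 := hμ.const_mul ((rl ((maximalIdeal P).map φ) (⊤ : Ideal P)).toNat : ℝ)
  have h2 := (hμ.scale hq (p ^ e * (s + 1))).const_mul (a : ℝ)
  have h3 : Lim (s + 1) (fun N => (l.map fun Q' => cl (Q'.map ψ ⊔ (W ^ N).map φ)).sum)
      (l.map fun _ => (0 : ℝ)).sum := by
    refine Lim.list_sum l fun Q' hQ' => ?_
    obtain ⟨hle, W', h4, h5, h6⟩ := hl Q' hQ'
    obtain ⟨k, hk⟩ := hprim
    refine lim_zero_of_small (Nat.lt_succ_self s) h4 h5 h6 _ (k * (p ^ e * (s + 1))) fun N => ?_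
    have h7 : k * (p ^ e * N + p ^ e * (s + 1)) ≤
        k * (p ^ e * (s + 1)) * N + k * (p ^ e * (s + 1)) := by
      rw [mul_add]
      refine Nat.add_le_add_right ?_ _
      rw [mul_assoc]
      refine Nat.mul_le_mul_left _ (Nat.mul_le_mul_right _ ?_)
      exact Nat.le_mul_of_pos_right _ (Nat.succ_pos s)
    refine (Ideal.pow_le_pow_right h7).trans ?_
    rw [pow_mul]
    refine (Ideal.pow_right_mono hk _).trans ((kos_sup_pow _ _ _).trans ?_)
    exact sup_le_sup (Ideal.map_mono hle) (hpow N)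
  have h4 := h1.le (h2.add h3) (Eventually.of_forall fun N => ?_)
  · simpa [mul_assoc] using h4
  have h5 := hF (fun b => cl (b.map ψ ⊔ (W ^ N).map φ)) (fun b r => TopP_cl_step ψ b r _)
    (by simp [cl, Ideal.map_top, rl_self])
  have h6 := hdual.cp.rl_map (a := Q.map ψ ⊔ W ^ N) bot_le
    (rl_ne_top_of_prim (hprim.sup_pow N))
  rw [sup_bot_eq, sup_bot_eq, Ideal.map_sup, map_frob_comm p ψ e Q] at h6
  have h7 : cl (Q.map ψ ⊔ (W ^ N).map φ) ≤
      cl (Q.map ψ ⊔ W ^ (p ^ e * N + p ^ e * (s + 1))) :=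
    cl_mono (hprim.sup_pow _) (sup_le_sup_left (hpow N) _)
  have h8 : cl ((Q.map (iterateFrobenius D p e)).map ψ ⊔ (W ^ N).map φ) =
      ((rl ((maximalIdeal P).map φ) (⊤ : Ideal P)).toNat : ℝ) * cl (Q.map ψ ⊔ W ^ N) := by
    simp only [cl]
    rw [h6, ENat.toNat_mul]; push_cast; ring
  have h9 := mul_le_mul_of_nonneg_left h7 (Nat.cast_nonneg a : (0 : ℝ) ≤ a)
  linarith

theorem TopP_tendsto (μ C : ℝ) (r s : ℕ) :
    Tendsto (fun q : ℕ => (μ * ((q - r : ℕ) : ℝ) ^ (s + 1) - C * ((q - r : ℕ) : ℝ) ^ s) /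
      (q : ℝ) ^ (s + 1)) atTop (𝓝 μ) := by
  have h1 := asym_ratio 1 (-(r : ℝ))
  have h2 : Tendsto (fun q : ℕ => ((q : ℝ))⁻¹) atTop (𝓝 0) := tendsto_inv_atTop_nhds_zero_nat
  have h3 := ((h1.pow (s + 1)).const_mul μ).sub (((h1.pow s).const_mul C).mul h2)
  simp only [one_pow, mul_one, mul_zero, sub_zero] at h3
  refine h3.congr' ?_
  filter_upwards [eventually_ge_atTop r, eventually_gt_atTop 0] with q hq hq0
  have : (q : ℝ) ≠ 0 := by exact_mod_cast hq0.ne'
  rw [Nat.cast_sub hq]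
  simp only [one_mul, div_pow, ← sub_eq_add_neg]
  field_simp
  ring

theorem top_prime (ψ : D →+* P) (hψ : CP ψ ⊥ ⊥) (hdual : ∀ e, Dual (iterateFrobenius P p e))
    {Q : Ideal D} (hQ : Q.IsPrime) (hQ' : Q.map ψ ≠ ⊤) {s : ℕ} (x : Fin (s + 1) → P)
    (hred : IsRed (Q.map ψ) (Ideal.span (Set.range x)) (maximalIdeal P))
    (hreg : RegMod (Q.map ψ) (x 0)) {μ : ℝ}
    (hμ : Lim (s + 1) (fun N => cl (Q.map ψ ⊔ Ideal.span (Set.range x) ^ N)) μ)
    (hi : ∀ a, i a ≤ s + 1) (a0 : J) (ha0 : i a0 = 0) (hd : Deg i g)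
    (hent : Ent g (maximalIdeal P)) (hsq : Ent (g * g) (Q.map ψ))
    (hnull : ∀ r ∈ maximalIdeal P, ∃ c, Null i g (Q.map ψ) (r ^ c))
    (hsmall : ∀ Q' : Ideal D, Q'.IsPrime → Q < Q' → chiI i g (Q'.map ψ) = 0 ∧
      ∃ W' : Ideal P, Gen W' s ∧ W' ≤ maximalIdeal P ∧ Prim (Q'.map ψ ⊔ W'))
    (h0 : 0 ≤ chiI i g (Q.map ψ)) : μ ≤ (chiI i g (Q.map ψ) : ℝ) := by
  have h0' : (0 : ℝ) ≤ (chiI i g (Q.map ψ) : ℝ) := by exact_mod_cast h0
  rcases le_or_gt μ 0 with hμ0 | hμ0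
  · exact hμ0.trans h0'
  have hprim : Prim (Q.map ψ ⊔ Ideal.span (Set.range x)) :=
    hred.prim ⟨1, by rw [pow_one]; exact le_sup_right⟩
  choose c0 hc0 using fun t => hnull (x t) (hred.1 (Ideal.subset_span ⟨t, rfl⟩))
  let c := ∑ t, c0 t
  have hc : ∀ t, c0 t ≤ c := fun t =>
    Finset.single_le_sum (f := c0) (fun _ _ => Nat.zero_le _) (Finset.mem_univ t)
  obtain ⟨r, hr⟩ := hred.pow_le
  obtain ⟨C, n0, hC⟩ := main_lemma hQ' x hprim hreg hμ i hi (2 * c)
  have hp : Tendsto (fun e : ℕ => p ^ e) atTop atTop :=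
    tendsto_pow_atTop_atTop_of_one_lt (Fact.out : p.Prime).one_lt
  refine le_of_tendsto ((TopP_tendsto μ C r s).comp hp) ?_
  filter_upwards [hp.eventually_ge_atTop (2 * r + n0)] with e he
  have hq : 0 < p ^ e := pow_pos (Fact.out : p.Prime).pos e
  set φ := iterateFrobenius P p e with hφ
  have hQφ : (Q.map ψ).map φ ≤ Q.map ψ := TopP_frob_le p e _
  have h1 := hC (p ^ e - r) (by omega) (g.map φ) (TopP_deg_map hd φ) (fun a b => ?_)
    (fun a b => hQφ (TopP_sq_map hsq φ a b)) (fun t => ?_)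
  rotate_left
  · have h2 := hr (p ^ e - r)
    rw [Nat.sub_add_cancel (by omega)] at h2
    exact h2 (map_frob_le p e _ (Ideal.mem_map_of_mem φ (hent a b)))
  · have h2 := (((hc0 t).map φ).mono hQφ).mul_left (x t ^ (2 * c * (p ^ e - r) - c0 t * p ^ e))
    have h3 : c0 t * p ^ e ≤ 2 * c * (p ^ e - r) := by
      calc c0 t * p ^ e ≤ c * (2 * (p ^ e - r)) := Nat.mul_le_mul (hc t) (by omega)
        _ = _ := by ring
    rwa [hφ, iterateFrobenius_def, ← pow_mul, ← pow_add, Nat.sub_add_cancel h3] at h2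
  obtain ⟨a, l, hl, h2, hF⟩ := lam_frob p ψ hψ e (hdual e) hQ hd hsq hnull
    fun Q' h3 h4 => (hsmall Q' h3 h4).1
  have h3 := kappa_le p ψ e (hdual e) (W := Ideal.span (Set.range x)) ⟨x, rfl⟩ hred.1 hprim hμ a l
    (fun Q' h => ⟨(hl Q' h).2.le, (hsmall Q' (hl Q' h).1 (hl Q' h).2).2⟩) hF
  have h4 := le_of_mul_le_mul_right h3 hμ0
  have hκ : (0 : ℝ) < ((rl ((maximalIdeal P).map φ) (⊤ : Ideal P)).toNat : ℝ) := by
    obtain ⟨v, w, hw⟩ := Submodule.fg_iff_exists_fin_generating_family.1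
      (IsNoetherian.noetherian (maximalIdeal P) : (maximalIdeal P).FG)
    have h5 := pow_le_map_frob p e (W := maximalIdeal P) ⟨w, hw.symm⟩ 1
    rw [pow_one] at h5
    have h6 := rl_ne_top_of_prim (I := (maximalIdeal P).map φ) ⟨_, h5⟩
    have h7 : rl ((maximalIdeal P).map φ) (⊤ : Ideal P) ≠ 0 := by
      rw [Ne, rl_eq_zero_iff]
      intro h
      exact (maximalIdeal.isMaximal P).ne_top (top_le_iff.1 (h.trans (TopP_frob_le p e _)))
    have h8 := ENat.toNat_eq_zero.not.2 (not_or.2 ⟨h7, h6⟩)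
    exact_mod_cast Nat.pos_of_ne_zero h8
  have hqR : (0 : ℝ) < ((p : ℝ) ^ e) ^ (s + 1) := by
    have : (0 : ℝ) < (p : ℝ) := by exact_mod_cast (Fact.out : p.Prime).pos
    positivity
  have ha : (0 : ℝ) < a := (mul_pos_iff_of_pos_right hqR).1 (hκ.trans_le h4)
  have h2' : ((rl ((maximalIdeal P).map φ) (⊤ : Ideal P)).toNat : ℝ) *
      (chiI i g (Q.map ψ) : ℝ) = a * (chiI i (g.map φ) (Q.map ψ) : ℝ) := by exact_mod_cast h2
  have hcard : (1 : ℝ) ≤ ((Finset.univ.filter fun a => i a = 0).card : ℝ) := by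
    exact_mod_cast Finset.card_pos.2 ⟨a0, by simpa using ha0⟩
  have h5 : μ * ((p ^ e - r : ℕ) : ℝ) ^ (s + 1) ≤
      ((Finset.univ.filter fun a => i a = 0).card : ℝ) * μ * ((p ^ e - r : ℕ) : ℝ) ^ (s + 1) := by
    refine mul_le_mul_of_nonneg_right ?_ (by positivity)
    exact le_mul_of_one_le_left hμ0.le hcard
  have h6 := mul_le_mul_of_nonneg_right h4 h0'
  rw [h2', mul_assoc] at h6
  have h7 := le_of_mul_le_mul_left h6 ha
  simp only [Function.comp]
  rw [div_le_iff₀ (by exact_mod_cast hqR)]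
  push_cast [Nat.cast_pow] at h7 ⊢
  linarith

end Vale.Agent.P202
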