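import Vale.Agent.P202.CoreI
import Vale.Agent.P202.TopP
import Vale.Agent.P202.Cnt

/-! The core inequality for rings birational to a hypersurface. -/

namespace Vale.Agent.P202

open IsLocalRing

universe v

theorem core_limit {p s d : ℕ} (hp : 2 ≤ p) {eR eS C1 ρ : ℝ} {A B : ℕ → ℝ} (hA : Lim d A eS)
    (hB : Lim d B 0)
    (h : ∀ n b n' : ℕ, n + s + 2 = p ^ b → s ≤ n → 1 ≤ n → 1 ≤ n' →
      0 ≤ (n : ℝ) ^ (s + 1) - C1 * (n : ℝ) ^ s →
      (mcs d n' : ℝ) * (eR * ((n : ℝ) ^ (s + 1) - C1 * (n : ℝ) ^ s)) ≤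
        ((p : ℝ) ^ b) ^ (s + 1) * (A n' + ρ * B n')) : eR ≤ eS := by
  have hpt : Filter.Tendsto (fun e : ℕ => p ^ e) Filter.atTop Filter.atTop :=
    tendsto_pow_atTop_atTop_of_one_lt hp
  have h1 := (TopP_tendsto 1 C1 (s + 2) s).comp hpt
  have h2 := h1.const_mul eR
  rw [mul_one] at h2
  refine le_of_tendsto h2 ?_
  filter_upwards [hpt.eventually_ge_atTop (2 * s + 3), h1.eventually (lt_mem_nhds zero_lt_one)]
    with b hb hpos
  have hq : (0 : ℝ) < ((p ^ b : ℕ) : ℝ) ^ (s + 1) := by positivity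
  simp only [Function.comp_apply, one_mul] at hpos ⊢
  have hE := (div_pos_iff_of_pos_right hq).1 hpos
  rw [← mul_div_assoc, div_le_iff₀ hq]
  have h3 := (lim_sum_multichoose d).const_mul
    (eR * (((p ^ b - (s + 2) : ℕ) : ℝ) ^ (s + 1) - C1 * ((p ^ b - (s + 2) : ℕ) : ℝ) ^ s))
  have h4 := (hA.add (hB.const_mul ρ)).const_mul (((p : ℝ) ^ b) ^ (s + 1))
  have h5 := h3.le h4 (by
    filter_upwards [Filter.eventually_ge_atTop 1] with n' hn'
    have := h (p ^ b - (s + 2)) b n' (by omega) (by omega) (by omega) hn' hE.le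
    rwa [mcs, Nat.cast_sum, mul_comm] at this)
  rw [Nat.cast_pow]
  linarith

theorem core_abs {p : ℕ} [Fact p.Prime] {V : Type v} [CommRing V] [IsDomain V]
    [IsDiscreteValuationRing V] [IsAdicComplete (maximalIdeal V) V] (hV : PBase p V) {s : ℕ}
    {R : Type*} [CommRing R] [IsLocalRing R] [IsNoetherianRing R]
    [Algebra (MvPowerSeries (Fin s) V) R] [Module.Finite (MvPowerSeries (Fin s) V) R]
    (hm : (maximalIdeal _).map (algebraMap (MvPowerSeries (Fin s) V) R) ≤ maximalIdeal R)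
    (hres : ∀ r : R, ∃ t : MvPowerSeries (Fin s) V, r - algebraMap _ R t ∈ maximalIdeal R) {x : R}
    {F : Polynomial (MvPowerSeries (Fin s) V)} {g0 g1 : MvPowerSeries (Fin s) V}
    (hH : HypData x F g0 g1)
    (hred : IsRed ⊥ (Ideal.span (Set.range (Fin.cons x
      (fun j => algebraMap (MvPowerSeries (Fin s) V) R (MvPowerSeries.X j)) : Fin (s + 1) → R)))
      (maximalIdeal R))
    {d v : ℕ} (hsd : v + d ≤ s + 1) {ι : Type} [Fintype ι] [DecidableEq ι] {i : ι → ℕ}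
    {g : Matrix ι ι R} {a0 : ι} {J : Ideal R} (hJ : IsRes i g a0 ⊥ J) (hi : ∀ a, i a ≤ v)
    (hg : Ent g (maximalIdeal R)) {Z : Ideal R} (hZ : Gen Z d) (hZm : Z ≤ maximalIdeal R)
    (hp : Prim (J ⊔ Z)) {W : Ideal R} {u : ℕ} (hu : u < d) (hW : Gen W u)
    (hWm : W ≤ maximalIdeal R) (hWp : Prim (J ⊔ Ideal.span {algebraMap _ R g0} ⊔ W)) {eR eS : ℝ}
    (hR : Lim (s + 1) (fun N => cl (maximalIdeal R ^ N)) eR)
    (hS : Lim d (fun N => cl (J ⊔ Z ^ N)) eS) : eR ≤ eS := by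
  obtain ⟨z, rfl⟩ := hZ
  obtain ⟨C1, hC1⟩ := core_ineq hV hm hres hH hred hsd hJ hi hg z
    (fun t => hZm (Ideal.subset_span ⟨t, rfl⟩)) hp hR
  obtain ⟨c, hc⟩ := hp
  have hB := lim_zero_of_small hu hW hWm hWp (fun N => Ideal.span (Set.range z) ^ N) c fun N => by
    refine (Ideal.pow_le_pow_right (Nat.le_add_right _ _)).trans ?_
    rw [pow_mul]
    exact ((Ideal.pow_right_mono hc N).trans (kos_sup_pow _ _ _)).trans
      (sup_le_sup_right le_sup_left _)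
  refine core_limit (Fact.out : p.Prime).two_le hS hB (s := s) (C1 := C1) (ρ := F.natDegree)
    fun n b n' h1 h2 h3 h4 h5 => ?_
  have := hC1 n b n' h1 h2 h3 h4 h5
  rwa [sup_right_comm] at this

end Vale.Agent.P202
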