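import Vale.Agent.P202.Small
import Vale.Agent.P202.Colon

/-! Lengths over a base ring; approximate product decompositions. -/

namespace Vale.Agent.P202

open IsLocalRing

section
variable (P : Type*) [CommRing P] {Q : Type*} [CommRing Q] [Algebra P Q]

theorem Theta_step (K : Ideal Q) (v : Q) :
    rl (K.restrictScalars P) ⊤ = rl ((K.colon {v}).restrictScalars P) ⊤ +
      rl ((K ⊔ Ideal.span {v}).restrictScalars P) ⊤ := by
  rw [rl_add (B := (K ⊔ Ideal.span {v}).restrictScalars P) (fun x hx => Ideal.mem_sup_left hx)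
    le_top]
  congr 1
  refine rl_eq_of_map (LinearMap.mulRight P v) (fun x _ => Submodule.mem_sup_left ?_)
    (fun y hy => ?_) fun x _ => Submodule.mem_colon_singleton.symm
  · exact Ideal.mem_sup_right (Ideal.mem_span_singleton'.2 ⟨x, rfl⟩)
  · obtain ⟨a, ha, b, hb, rfl⟩ := Submodule.mem_sup.1 (show y ∈ K ⊔ Ideal.span {v} from hy)
    obtain ⟨z, rfl⟩ := Ideal.mem_span_singleton'.1 hb
    exact ⟨z, trivial, by simpa using ha⟩

theorem Theta_map_sup {A : Type*} [CommRing A] (f : A →+* Q) (a : Ideal A) (v : A) :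
    Ideal.map f (a ⊔ Submodule.span A {v}) = a.map f ⊔ Ideal.span {f v} := by
  rw [Ideal.map_sup, Ideal.submodule_span_eq, Ideal.map_span, Set.image_singleton]

theorem rl_map_le_res {A : Type*} [CommRing A] [IsLocalRing A] (f : A →+* Q) (c : Ideal Q)
    {a : Ideal A} (hfin : rl a (⊤ : Ideal A) ≠ ⊤) :
    rl ((a.map f ⊔ c).restrictScalars P) ⊤ ≤
      rl a (⊤ : Ideal A) * rl (((maximalIdeal A).map f ⊔ c).restrictScalars P) ⊤ := by
  refine rl_induction (B := (⊤ : Ideal A)) (fun a : Ideal A =>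
    rl ((a.map f ⊔ c).restrictScalars P) ⊤ ≤
      rl a (⊤ : Ideal A) * rl (((maximalIdeal A).map f ⊔ c).restrictScalars P) ⊤) ?_ ?_ le_top hfin
  · rw [Ideal.map_top, top_sup_eq, Submodule.restrictScalars_top, rl_self]
    exact zero_le
  · intro a v _ hv _ hk ih
    have h1 : (maximalIdeal A).map f ⊔ c ≤ (Ideal.map f a ⊔ c).colon {f v} := by
      refine sup_le (Ideal.map_le_iff_le_comap.2 fun x hx => ?_) fun x hx => ?_
      · rw [Ideal.mem_comap, Submodule.mem_colon_singleton, smul_eq_mul, ← map_mul]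
        exact Ideal.mem_sup_left (Ideal.mem_map_of_mem f (hk x hx))
      · rw [Submodule.mem_colon_singleton, smul_eq_mul]
        exact Ideal.mem_sup_right (c.mul_mem_right _ hx)
    rw [Theta_step P _ (f v), rl_add (le_sup_left : a ≤ a ⊔ Submodule.span A {v}) le_top,
      rl_simple_step hv hk, add_mul, one_mul, sup_right_comm, ← Theta_map_sup]
    exact add_le_add (rl_mono h1 le_rfl) ih

theorem CP.rl_map_res {A : Type*} [CommRing A] [IsLocalRing A] {f : A →+* Q} (h : CP f ⊥ ⊥)
    {a : Ideal A} (hfin : rl a (⊤ : Ideal A) ≠ ⊤) :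
    rl ((a.map f).restrictScalars P) ⊤ =
      rl a (⊤ : Ideal A) * rl (((maximalIdeal A).map f).restrictScalars P) ⊤ := by
  refine rl_induction (B := (⊤ : Ideal A)) (fun a : Ideal A =>
    rl ((a.map f).restrictScalars P) ⊤ =
      rl a (⊤ : Ideal A) * rl (((maximalIdeal A).map f).restrictScalars P) ⊤) ?_ ?_ le_top hfin
  · rw [Ideal.map_top, Submodule.restrictScalars_top, rl_self, rl_self, zero_mul]
  · intro a v _ hv _ hk ih
    have hcol : Submodule.colon a {v} = maximalIdeal A := by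
      refine ((maximalIdeal.isMaximal A).eq_of_le ?_ fun x hx => ?_).symm
      · rw [Ne, Ideal.eq_top_iff_one, Submodule.mem_colon_singleton, one_smul]; exact hv
      · exact Submodule.mem_colon_singleton.2 (hk x hx)
    have h1 : (Ideal.map f a).colon {f v} = (maximalIdeal A).map f := by
      refine le_antisymm (fun x hx => ?_) (Ideal.map_le_iff_le_comap.2 fun x hx => ?_)
      · rw [Submodule.mem_colon_singleton, smul_eq_mul, mul_comm] at hx
        have := h a bot_le v x (Ideal.mem_sup_left hx)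
        rwa [sup_bot_eq, hcol] at this
      · rw [Ideal.mem_comap, Submodule.mem_colon_singleton, smul_eq_mul, ← map_mul]
        exact Ideal.mem_map_of_mem f (hk x hx)
    rw [Theta_step P _ (f v), rl_add (le_sup_left : a ≤ a ⊔ Submodule.span A {v}) le_top,
      rl_simple_step hv hk, add_mul, one_mul, ← Theta_map_sup, h1, ih]

theorem theta_upper {ι : Type*} [Fintype ι] (I : ι → Ideal Q) (ε : ι → Q) (g : Q)
    (hsum : ∑ a, ε a = g) (hε : ∀ a b, a ≠ b → ε a ∈ I b) (q : Ideal Q) :
    ∑ a, rl ((q ⊔ I a).restrictScalars P) ⊤ ≤ rl (q.restrictScalars P) ⊤ +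
      Fintype.card ι * rl ((q ⊔ Ideal.span {g}).restrictScalars P) ⊤ := by
  let φ : Q →ₗ[P] (ι → Q) := LinearMap.pi fun _ => LinearMap.id
  let A := Submodule.pi Set.univ fun a => (q ⊔ I a).restrictScalars P
  rw [← rl_pi, ← nsmul_eq_mul, ← Finset.card_univ, ← Finset.sum_const, ← rl_pi]
  refine (rl_le_add A (A ⊔ LinearMap.range φ) _).trans (add_le_add ?_ (rl_mono ?_ le_rfl))
  · rw [rl_sup_right]
    refine rl_le_of_surj φ (fun x _ hx a _ => Ideal.mem_sup_left hx) ?_
    rintro _ ⟨x, rfl⟩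
    exact ⟨x, trivial, by rw [sub_self]; exact A.zero_mem⟩
  · intro y hy
    have h1 : ∀ a, ∃ z, y a - g * z ∈ q := fun a => by
      obtain ⟨b, hb, c, hc, e⟩ := Submodule.mem_sup.1 (show y a ∈ q ⊔ Ideal.span {g} from hy a trivial)
      obtain ⟨z, rfl⟩ := Ideal.mem_span_singleton.1 hc
      exact ⟨z, by rwa [← e, add_sub_cancel_right]⟩
    choose z hz using h1
    rw [← sub_add_cancel y (φ (∑ a, ε a * z a))]
    refine Submodule.add_mem_sup (fun b _ => ?_) ⟨_, rfl⟩
    have e : (y - φ (∑ a, ε a * z a)) b = (y b - g * z b) + ∑ a, ε a * (z b - z a) := by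
      simp only [φ, Pi.sub_apply, LinearMap.pi_apply, LinearMap.id_apply, mul_sub,
        Finset.sum_sub_distrib, ← Finset.sum_mul, hsum]
      ring
    rw [e]
    refine Submodule.add_mem_sup (hz b) (Ideal.sum_mem _ fun a _ => ?_)
    by_cases h : a = b
    · rw [h, sub_self, mul_zero]; exact Ideal.zero_mem _
    · exact Ideal.mul_mem_right _ _ (hε a b h)

theorem theta_lower {ι : Type*} [Fintype ι] (I : ι → Ideal Q) (ε : ι → Q) (g : P)
    (hsum : ∑ a, ε a = algebraMap P Q g) (hε : ∀ a, ∀ x ∈ I a, ε a * x = 0) (q : Ideal Q)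
    (hfin : rl (q.restrictScalars P) ⊤ ≠ ⊤) :
    rl (q.restrictScalars P) ⊤ ≤ ∑ a, rl ((q ⊔ I a).restrictScalars P) ⊤ +
      rl ((q ⊔ Ideal.span {algebraMap P Q g}).restrictScalars P) ⊤ := by
  let ψ : (ι → Q) →ₗ[P] Q := ∑ a, LinearMap.mulLeft P (ε a) ∘ₗ LinearMap.proj a
  have hψ : ∀ z, ψ z = ∑ a, ε a * z a := fun z => by simp [ψ]
  have _ := hfin
  refine (rl_le_add _ ((q ⊔ Ideal.span {algebraMap P Q g}).restrictScalars P) _).trans
    (add_le_add ?_ le_rfl)
  rw [← rl_pi]
  refine rl_le_of_surj ψ (fun x _ hx => ?_) fun y hy => ?_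
  · rw [hψ]
    refine Ideal.sum_mem q fun a _ => ?_
    obtain ⟨b, hb, c, hc, e⟩ := Submodule.mem_sup.1 (show x a ∈ q ⊔ I a from hx a trivial)
    rw [← e, mul_add, hε a c hc, add_zero]
    exact q.mul_mem_left _ hb
  · obtain ⟨b, hb, c, hc, rfl⟩ :=
      Submodule.mem_sup.1 (show y ∈ q ⊔ Ideal.span {algebraMap P Q g} from hy)
    obtain ⟨z, rfl⟩ := Ideal.mem_span_singleton.1 hc
    refine ⟨fun _ => z, fun _ _ => trivial, ?_⟩
    rwa [hψ, ← Finset.sum_mul, hsum, add_sub_cancel_right]

theorem theta_cond (I : Ideal Q) (g : Q) (hg : ∀ x : Q, ∃ u : P, g * x - algebraMap P Q u ∈ I)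
    (a : Ideal P) :
    rl ((a.map (algebraMap P Q) ⊔ I).restrictScalars P) ⊤ ≤ rl a (⊤ : Ideal P) +
      rl ((a.map (algebraMap P Q) ⊔ I ⊔ Ideal.span {g}).restrictScalars P) ⊤ := by
  refine (rl_le_add _ ((a.map (algebraMap P Q) ⊔ I ⊔ Ideal.span {g}).restrictScalars P) _).trans
    (add_le_add ?_ le_rfl)
  refine rl_le_of_surj (Algebra.linearMap P Q)
    (fun x _ hx => Ideal.mem_sup_left (Ideal.mem_map_of_mem _ hx)) fun y hy => ?_
  obtain ⟨b, hb, c, hc, rfl⟩ :=
    Submodule.mem_sup.1 (show y ∈ a.map (algebraMap P Q) ⊔ I ⊔ Ideal.span {g} from hy)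
  obtain ⟨z, rfl⟩ := Ideal.mem_span_singleton.1 hc
  obtain ⟨u, hu⟩ := hg z
  refine ⟨u, trivial, ?_⟩
  rw [add_sub_assoc]
  exact Ideal.add_mem _ hb (Ideal.mem_sup_right hu)

end

section Pushout
variable {T R P Q : Type*} [CommRing T] [CommRing R] [CommRing P] [CommRing Q] [Algebra T R]
  [Algebra T P] [Algebra P Q] [Algebra R Q] [Algebra T Q] [IsScalarTower T P Q]
  [IsScalarTower T R Q] [Algebra.IsPushout T P R Q]

variable (T) in
include T in
theorem Theta_ind (W : Submodule P Q) (h : ∀ r, algebraMap R Q r ∈ W) (a : Q) : a ∈ W :=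
  (Algebra.IsPushout.out (R := T) (S := P) (R' := R)).inductionOn a (· ∈ W) W.zero_mem h
    (fun s _ hn => W.smul_mem s hn) fun _ _ => W.add_mem

theorem cp_pushout [Module.Flat T P] : CP (algebraMap R Q) ⊥ ⊥ := by
  have : Module.Flat R Q :=
    Module.Flat.isBaseChange T R P Q (Algebra.IsPushout.symm ‹Algebra.IsPushout T P R Q›).out
  exact CP.of_flat

theorem ng_pushout {μ : ℕ} (v : Fin μ → R) (hv : Submodule.span T (Set.range v) = ⊤) :
    NG (⊤ : Submodule P Q) μ := by
  have h := ng_span (R := P) fun i => algebraMap R Q (v i)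
  rw [Fintype.card_fin] at h
  convert h using 1
  refine (eq_top_iff.2 fun a _ => Theta_ind (R := R) T _ (fun r => ?_) a).symm
  have hr : r ∈ Submodule.span T (Set.range v) := hv ▸ trivial
  induction hr using Submodule.span_induction with
  | mem x hx => obtain ⟨i, rfl⟩ := hx; exact Submodule.subset_span ⟨i, rfl⟩
  | zero => rw [map_zero]; exact Submodule.zero_mem _
  | add x y _ _ hx hy => rw [map_add]; exact Submodule.add_mem _ hx hy
  | smul t x _ hx =>
    rw [← IsScalarTower.coe_toAlgHom' T, map_smul]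
    exact Submodule.smul_of_tower_mem _ t hx

theorem size_pushout [IsLocalRing T] [IsLocalRing R]
    (hm : (maximalIdeal T).map (algebraMap T R) ≤ maximalIdeal R)
    (hres : ∀ r : R, ∃ t : T, r - algebraMap T R t ∈ maximalIdeal R) :
    rl (((maximalIdeal R).map (algebraMap R Q)).restrictScalars P) ⊤ =
      rl ((maximalIdeal T).map (algebraMap T P)) (⊤ : Ideal P) := by
  let M := (maximalIdeal T).map (algebraMap T P)
  have hρ : Function.Surjective ((residue R).comp (algebraMap T R)) := fun y => by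
    obtain ⟨r, rfl⟩ := residue_surjective y
    obtain ⟨t, ht⟩ := hres r
    rw [← residue_eq_zero_iff, map_sub, sub_eq_zero] at ht
    exact ⟨t, ht.symm⟩
  let l0 : ResidueField R →+* P ⧸ M := RingHom.liftOfSurjective _ hρ
    ⟨(Ideal.Quotient.mk M).comp (algebraMap T P), fun a ha => by
      rw [RingHom.mem_ker, RingHom.comp_apply, Ideal.Quotient.eq_zero_iff_mem]
      exact Ideal.mem_map_of_mem _ (le_maximalIdeal (RingHom.ker_ne_top _) ha)⟩
  have hl0 : l0.comp ((residue R).comp (algebraMap T R)) =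
      (Ideal.Quotient.mk M).comp (algebraMap T P) := RingHom.liftOfRightInverse_comp _ _ _ _
  let l : R →ₐ[T] P ⧸ M := ⟨l0.comp (residue R), fun t => RingHom.congr_fun hl0 t⟩
  let χ := Algebra.pushoutDesc Q (Ideal.Quotient.mkₐ T M) l fun _ _ => mul_comm _ _
  refine rl_eq_of_map (Algebra.linearMap P Q) (fun _ _ => Submodule.mem_sup_left trivial)
    (fun y _ => ?_) fun u _ => ⟨fun hu => ?_, fun hu => ?_⟩
  · have := Theta_ind (R := R) T (((maximalIdeal R).map (algebraMap R Q)).restrictScalars P ⊔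
      LinearMap.range (Algebra.linearMap P Q)) (fun r => by
        obtain ⟨t, ht⟩ := hres r
        rw [← sub_add_cancel r (algebraMap T R t), map_add]
        refine Submodule.add_mem_sup (Ideal.mem_map_of_mem _ ht) ⟨algebraMap T P t, ?_⟩
        rw [Algebra.linearMap_apply, ← IsScalarTower.algebraMap_apply,
          ← IsScalarTower.algebraMap_apply]) y
    obtain ⟨b, hb, _, ⟨u, rfl⟩, rfl⟩ := Submodule.mem_sup.1 this
    exact ⟨u, trivial, by rwa [add_sub_cancel_right]⟩
  · have h1 : (maximalIdeal R).map (algebraMap R Q) ≤ RingHom.ker χ := by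
      refine Ideal.map_le_iff_le_comap.2 fun r hr => ?_
      rw [Ideal.mem_comap, RingHom.mem_ker, Algebra.pushoutDesc_right]
      change l0 (residue R r) = 0
      rw [(residue_eq_zero_iff r).2 hr, map_zero]
    have h2 : χ (algebraMap P Q u) = 0 := h1 hu
    rw [Algebra.pushoutDesc_left] at h2
    exact Ideal.Quotient.eq_zero_iff_mem.1 h2
  · have h1 := Ideal.mem_map_of_mem (algebraMap P Q) hu
    rw [Ideal.map_map, ← IsScalarTower.algebraMap_eq, IsScalarTower.algebraMap_eq T R Q,
      ← Ideal.map_map] at h1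
    exact Ideal.map_mono hm h1

/-- the approximate idempotents -/
theorem HypData.exists_eps {x : R} {F : Polynomial T} {g0 g1 : T} (hH : HypData x F g0 g1) {ρ : ℕ}
    (Y : Fin ρ → P)
    (hY : F.map (algebraMap T P) = ∏ a, (Polynomial.X - Polynomial.C (Y a))) :
    ∃ ε : Fin ρ → Q, ∑ a, ε a = algebraMap T Q g0 ∧
      (∀ a b, a ≠ b → ε a ∈ Ideal.span {algebraMap R Q x - algebraMap P Q (Y b)}) ∧
      ∀ a, ε a * (algebraMap R Q x - algebraMap P Q (Y a)) = 0 := by
  classical
  obtain ⟨A, B, hAB⟩ := hH.sep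
  set ξ := algebraMap R Q x
  have hF : Polynomial.aeval ξ F = 0 := by
    rw [Polynomial.aeval_algebraMap_apply, hH.root, map_zero]
  have hY' : F.map (algebraMap T Q) =
      ∏ a, (Polynomial.X - Polynomial.C (algebraMap P Q (Y a))) := by
    rw [IsScalarTower.algebraMap_eq T P Q, ← Polynomial.map_map, hY, Polynomial.map_prod]
    simp
  have h1 : ∏ a, (ξ - algebraMap P Q (Y a)) = 0 := by
    rw [← hF, ← Polynomial.eval_map_algebraMap, hY', Polynomial.eval_prod]
    simp
  have h2 : Polynomial.aeval ξ F.derivative =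
      ∑ a, ∏ b ∈ Finset.univ.erase a, (ξ - algebraMap P Q (Y b)) := by
    rw [← Polynomial.eval_map_algebraMap, ← Polynomial.derivative_map, hY',
      Polynomial.derivative_prod_finset, Polynomial.eval_finsetSum]
    simp [Polynomial.eval_prod]
  refine ⟨fun a => Polynomial.aeval ξ B * ∏ b ∈ Finset.univ.erase a, (ξ - algebraMap P Q (Y b)),
    ?_, fun a b hab => ?_, fun a => ?_⟩
  · have := congrArg (Polynomial.aeval ξ) hAB
    rw [map_add, map_mul, map_mul, hF, mul_zero, zero_add, h2, Polynomial.aeval_C] at this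
    rw [← Finset.mul_sum, this]
  · exact Ideal.mem_span_singleton.2 (Dvd.dvd.mul_left (Finset.dvd_prod_of_mem _
      (Finset.mem_erase.2 ⟨hab.symm, Finset.mem_univ b⟩)) _)
  · rw [mul_assoc, Finset.prod_erase_mul _ _ (Finset.mem_univ a), h1, mul_zero]

theorem HypData.cond_pushout {x : R} {F : Polynomial T} {g0 g1 : T} (hH : HypData x F g0 g1)
    (Y : P) (a : Q) : ∃ u : P, algebraMap T Q g1 * a - algebraMap P Q u ∈
      Ideal.span {algebraMap R Q x - algebraMap P Q Y} := by
  let I : Ideal Q := Ideal.span {algebraMap R Q x - algebraMap P Q Y}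
  have := Theta_ind (R := R) T ((I.restrictScalars P ⊔ LinearMap.range (Algebra.linearMap P Q)).comap
    (LinearMap.mulLeft P (algebraMap T Q g1))) (fun r => by
      obtain ⟨f, hf⟩ := hH.cond r
      have e : algebraMap T Q g1 * algebraMap R Q r = Polynomial.aeval (algebraMap R Q x) f := by
        rw [Polynomial.aeval_algebraMap_apply, hf, Algebra.smul_def, map_mul,
          ← IsScalarTower.algebraMap_apply]
      rw [Submodule.mem_comap, LinearMap.mulLeft_apply, e, ← sub_add_cancel
        (Polynomial.aeval (algebraMap R Q x) f) (Polynomial.aeval (algebraMap P Q Y) f)]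
      refine Submodule.add_mem_sup ?_ ⟨Polynomial.aeval Y f, ?_⟩
      · rw [← Polynomial.eval_map_algebraMap, ← Polynomial.eval_map_algebraMap]
        exact Ideal.mem_span_singleton.2 (Polynomial.sub_dvd_eval_sub _ _ _)
      · rw [Polynomial.aeval_algebraMap_apply, Algebra.linearMap_apply]) a
  obtain ⟨b, hb, _, ⟨u, rfl⟩, e⟩ := Submodule.mem_sup.1 this
  refine ⟨u, ?_⟩
  rw [LinearMap.mulLeft_apply, Algebra.linearMap_apply] at e
  rwa [← e, add_sub_cancel_right]

end Pushout

end Vale.Agent.P202
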