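import Vale.Agent.P202.Hyp
import Vale.Agent.P202.Theta

/-! Construction of the approximate algebra. -/

namespace Vale.Agent.P202

open IsLocalRing

theorem twist_data {T R P Q : Type*} [CommRing T] [IsLocalRing T] [CommRing R] [IsLocalRing R]
    [CommRing P] [CommRing Q] [Algebra T R] [Algebra T P] [Algebra P Q] [Algebra R Q] [Algebra T Q]
    [IsScalarTower T P Q] [IsScalarTower T R Q] [Algebra.IsPushout T P R Q] [Module.Flat T P]
    (hres : ∀ r : R, ∃ t : T, r - algebraMap T R t ∈ maximalIdeal R) {x : R} {F : Polynomial T}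
    {g0 g1 : T} (hH : HypData x F g0 g1) {c : ℕ}
    (hc : ∀ K : ℕ, (maximalIdeal T ^ (K + c)).colon {g1} ≤ maximalIdeal T ^ K) {κ : Type*}
    (rr : κ → R) (hrr : ∀ r ∈ maximalIdeal R, r ∈ Submodule.span T (Set.range rr))
    (f : κ → Polynomial T) (hf : ∀ α, Polynomial.aeval x (f α) = g1 • rr α) (Y : P)
    (hY : F.eval₂ (algebraMap T P) Y = 0) {h g' : P} (hh : h * g' = algebraMap T P g1)
    (e : Ideal P) (K : ℕ)
    (hst : ∀ α, ∃ u ∈ e, (f α).eval₂ (algebraMap T P) Y - g' * u ∈
      (maximalIdeal T ^ (K + 2 * c)).map (algebraMap T P)) :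
    ∃ D : Ideal Q, algebraMap R Q x - algebraMap P Q Y ∈ D ∧
      ApAlg h ((maximalIdeal T ^ K).map (algebraMap T P)) D ∧
      ∀ r ∈ maximalIdeal R, ∃ u ∈ e, h • algebraMap R Q r - algebraMap P Q u ∈ D := by
  obtain ⟨γ, hγ1, hγ2, hγ3, hγ4⟩ := hH.exists_gamma
  let σ : AdjoinRoot F →ₐ[T] P := AdjoinRoot.liftAlgHom F (Algebra.ofId T P) Y hY
  have hσ : ∀ t, σ (AdjoinRoot.of F t) = algebraMap T P t := fun t => σ.commutes t
  let Γ : Q →ₗ[P] P :=
    (Algebra.IsPushout.out (R := T) (S := P) (R' := R)).lift (σ.toLinearMap ∘ₗ γ)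
  have hΓ : ∀ r, Γ (algebraMap R Q r) = σ (γ r) := fun r =>
    (Algebra.IsPushout.out (R := T) (S := P) (R' := R)).lift_eq (σ.toLinearMap ∘ₗ γ) r
  have ext : ∀ A B : Q →ₗ[P] P, (∀ r, A (algebraMap R Q r) = B (algebraMap R Q r)) → ∀ a,
      A a = B a := fun A B h a => Theta_ind (R := R) T (LinearMap.eqLocus A B) h a
  have p1 : ∀ a b, Γ a * Γ b = algebraMap T P g1 * Γ (a * b) := fun a b => by
    refine ext (LinearMap.mulRight P (Γ b) ∘ₗ Γ)
      (LinearMap.mulLeft P (algebraMap T P g1) ∘ₗ Γ ∘ₗ LinearMap.mulRight P b) (fun r => ?_) a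
    refine ext (LinearMap.mulLeft P (Γ (algebraMap R Q r)) ∘ₗ Γ)
      (LinearMap.mulLeft P (algebraMap T P g1) ∘ₗ Γ ∘ₗ LinearMap.mulLeft P (algebraMap R Q r))
      (fun r' => ?_) b
    change Γ _ * Γ _ = _ * Γ (_ * _)
    rw [← map_mul (algebraMap R Q), hΓ, hΓ, hΓ, ← map_mul, hγ4, map_mul, hσ]
  have p2 : ∀ u, Γ (algebraMap P Q u) = algebraMap T P g1 * u := fun u => by
    rw [Algebra.algebraMap_eq_smul_one, map_smul, ← map_one (algebraMap R Q), hΓ, hγ3, hσ,
      smul_eq_mul, mul_comm]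
  have p3 : ∀ b, Γ (algebraMap R Q x * b) = Y * Γ b := fun b => by
    refine ext (Γ ∘ₗ LinearMap.mulLeft P (algebraMap R Q x)) (LinearMap.mulLeft P Y ∘ₗ Γ)
      (fun r => ?_) b
    change Γ (_ * _) = _ * Γ _
    have := hγ2 Polynomial.X r
    rw [Polynomial.aeval_X] at this
    rw [← map_mul, hΓ, hΓ, this, map_mul, AdjoinRoot.mk_X, show σ (AdjoinRoot.root F) = Y from
      AdjoinRoot.liftAlgHom_root ..]
  have col : ∀ j u, algebraMap T P g1 * u ∈ (maximalIdeal T ^ (j + c)).map (algebraMap T P) →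
      u ∈ (maximalIdeal T ^ j).map (algebraMap T P) := fun j u hu => by
    have := CP.of_flat (A := T) (B := P) _ bot_le g1 u (Ideal.mem_sup_left hu)
    rw [sup_bot_eq] at this
    exact Ideal.map_mono (hc j) this
  let D : Ideal Q :=
    { carrier := {a | ∀ b, Γ (a * b) ∈ (maximalIdeal T ^ (K + c)).map (algebraMap T P)}
      add_mem' := fun ha hb b => by rw [add_mul, map_add]; exact Ideal.add_mem _ (ha b) (hb b)
      zero_mem' := fun b => by rw [zero_mul, map_zero]; exact Ideal.zero_mem _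
      smul_mem' := fun z a ha b => by
        rw [smul_eq_mul, mul_comm z, mul_assoc]; exact ha _ }
  have p4 : ∀ r ∈ maximalIdeal R, ∃ u ∈ e, h • algebraMap R Q r - algebraMap P Q u ∈ D := by
    intro r hr
    have hr' := hrr r hr
    clear hr
    induction hr' using Submodule.span_induction with
    | mem y hy =>
      obtain ⟨α, rfl⟩ := hy
      obtain ⟨u, hu, hu'⟩ := hst α
      refine ⟨u, hu, fun b => col _ _ ?_⟩
      rw [← p1, map_sub, map_smul, p2, hΓ, hγ1 _ _ (hf α), ← hh, add_assoc, ← two_mul]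
      refine Ideal.mul_mem_right _ _ ?_
      have := Ideal.mul_mem_left _ h hu'
      rwa [mul_sub, ← mul_assoc] at this
    | zero => exact ⟨0, e.zero_mem, by simp⟩
    | add y z _ _ hy hz =>
      obtain ⟨u, hu, hu'⟩ := hy
      obtain ⟨v, hv, hv'⟩ := hz
      refine ⟨u + v, e.add_mem hu hv, ?_⟩
      rw [map_add, map_add, smul_add, add_sub_add_comm]
      exact D.add_mem hu' hv'
    | smul t y _ hy =>
      obtain ⟨u, hu, hu'⟩ := hy
      refine ⟨algebraMap T P t * u, e.mul_mem_left _ hu, ?_⟩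
      have := D.mul_mem_left (algebraMap T Q t) hu'
      rwa [mul_sub, mul_smul_comm, IsScalarTower.algebraMap_apply T P Q, ← map_mul,
        ← IsScalarTower.algebraMap_apply, IsScalarTower.algebraMap_apply T R Q, ← map_mul,
        ← Algebra.smul_def t] at this
  refine ⟨D, fun b => ?_, ⟨fun a => ?_, fun u hu => col _ _ ?_⟩, p4⟩
  · rw [sub_mul, map_sub, p3, ← Algebra.smul_def, map_smul, smul_eq_mul, sub_self]
    exact Ideal.zero_mem _
  · have := Theta_ind (R := R) T ((D.restrictScalars P ⊔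
      LinearMap.range (Algebra.linearMap P Q)).comap (h • LinearMap.id)) (fun r => by
        obtain ⟨t, ht⟩ := hres r
        obtain ⟨u, -, hu⟩ := p4 _ ht
        have e : h • algebraMap R Q r = (h • algebraMap R Q (r - algebraMap T R t) -
            algebraMap P Q u) + algebraMap P Q (u + h * algebraMap T P t) := by
          rw [map_sub, map_add, map_mul, ← IsScalarTower.algebraMap_apply,
            ← IsScalarTower.algebraMap_apply, Algebra.smul_def, Algebra.smul_def]
          ring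
        rw [Submodule.mem_comap, LinearMap.smul_apply, LinearMap.id_apply, e]
        exact Submodule.add_mem_sup hu ⟨_, rfl⟩) a
    obtain ⟨b, hb, _, ⟨u, rfl⟩, e⟩ := Submodule.mem_sup.1 this
    refine ⟨u, ?_⟩
    change b + algebraMap P Q u = h • a at e
    rwa [← e, add_sub_cancel_right]
  · have := hu 1
    rwa [mul_one, p2] at this

end Vale.Agent.P202
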