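import Vale.Agent.P202.Theta
import Vale.Agent.P202.Cnt

/-! Comparing lengths over the conjugates. -/

namespace Vale.Agent.P202

open IsLocalRing

theorem Lower_cast {ι : Type*} (s : Finset ι) (x : ι → ℕ∞) {y : ℕ∞} (hy : y ≠ ⊤)
    (h : ∑ a ∈ s, x a ≤ y) : ∑ a ∈ s, ((x a).toNat : ℝ) ≤ y.toNat := by
  have h1 : ∀ a ∈ s, x a ≠ ⊤ := fun a ha =>
    ne_top_of_le_ne_top hy ((Finset.single_le_sum (fun _ _ => zero_le) ha).trans h)
  have h2 : ((∑ a ∈ s, (x a).toNat : ℕ) : ℕ∞) ≤ (y.toNat : ℕ∞) := by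
    rw [ENat.natCast_toNat hy, Nat.cast_sum]
    exact (Finset.sum_congr rfl fun a ha => ENat.natCast_toNat (h1 a ha)).trans_le h
  exact_mod_cast h2

theorem Lower_coe {A : Type*} [CommRing A] [IsLocalRing A] [IsNoetherianRing A] {I : Ideal A}
    (h : Prim I) : ∃ n : ℕ, rl I (⊤ : Ideal A) = n ∧ cl I = n :=
  ⟨_, (ENat.natCast_toNat (rl_ne_top_of_prim h)).symm, rfl⟩

theorem Lower_pow {A : Type*} [CommRing A] {a b I : Ideal A} (h : a ≤ b ⊔ I) (N : ℕ) :
    a ^ N ≤ b ^ N ⊔ I := by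
  induction N with
  | zero => simp
  | succ N ih =>
    rw [pow_succ, pow_succ]
    refine (Ideal.mul_mono ih h).trans ?_
    rw [Ideal.sup_mul, Ideal.mul_sup]
    exact sup_le (sup_le le_sup_left (Ideal.mul_le_right.trans le_sup_right))
      (Ideal.mul_le_left.trans le_sup_right)

theorem Lower_cons {A B : Type*} [CommRing A] [CommRing B] (f : A →+* B) {s : ℕ} (x : A)
    (t : Fin s → A) {J : Ideal B} (hx : f x ∈ J) (ht : ∀ j, f (t j) ∈ J) :
    (Ideal.span (Set.range (Fin.cons x t : Fin (s + 1) → A))).map f ≤ J := by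
  rw [Ideal.map_le_iff_le_comap, Ideal.span_le]
  rintro _ ⟨i, rfl⟩
  exact Fin.cases hx ht i

variable {T R P Q : Type*} [CommRing T] [IsLocalRing T] [IsNoetherianRing T] [IsDomain T]
  [CommRing R] [IsLocalRing R] [IsNoetherianRing R] [CommRing P] [IsLocalRing P]
  [IsNoetherianRing P] [CommRing Q] [Algebra T R] [Algebra T P] [Algebra P Q] [Algebra R Q]
  [Algebra T Q] [IsScalarTower T P Q] [IsScalarTower T R Q] [Algebra.IsPushout T P R Q]

/-- cutting by a nonzero element of the base lowers the growth rate -/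
theorem lim_zero_base {s : ℕ} (hT : Gen (maximalIdeal T) (s + 1))
    (hm : (maximalIdeal T).map (algebraMap T R) ≤ maximalIdeal R)
    (hpr : Prim ((maximalIdeal T).map (algebraMap T R))) {g : T} (hg : g ≠ 0) {W : Ideal R}
    (hW : Prim W) :
    Lim (s + 1) (fun N => cl (W ^ N ⊔ Ideal.span {algebraMap T R g})) 0 := by
  by_cases hu : Ideal.span {g} = ⊤
  · have h1 : Ideal.span {algebraMap T R g} = ⊤ :=
      Ideal.span_singleton_eq_top.2 ((Ideal.span_singleton_eq_top.1 hu).map _)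
    simp only [h1, sup_top_eq, cl, rl_self, ENat.toNat_zero, Nat.cast_zero]
    exact lim_zero
  obtain ⟨W', h1, h2, h3⟩ := exists_sop_of_lt (p := ⊥) hu
    (bot_lt_iff_ne_bot.2 fun h => hg (Ideal.span_singleton_eq_bot.1 h)) hT le_rfl ⟨1, by simp⟩
  have h4 := Prim.map (ι := algebraMap T R) (c := ⊥) (by rwa [bot_sup_eq]) h3
  rw [bot_sup_eq, Ideal.map_sup, Ideal.map_span, Set.image_singleton] at h4
  obtain ⟨c, hc⟩ := hW
  simp only [sup_comm (W ^ _)]
  refine lim_zero_of_small (Nat.lt_succ_self s) (h1.map _) ((Ideal.map_mono h2).trans hm) h4 _ c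
    fun N => le_sup_of_le_right ((Ideal.pow_le_pow_right (Nat.le_add_right _ _)).trans ?_)
  rw [pow_mul]
  exact Ideal.pow_right_mono hc N

omit [IsNoetherianRing T] [IsDomain T] in
theorem twist_theta (hm : (maximalIdeal T).map (algebraMap T R) ≤ maximalIdeal R)
    (hres : ∀ r : R, ∃ t : T, r - algebraMap T R t ∈ maximalIdeal R)
    (hpP : Prim ((maximalIdeal T).map (algebraMap T P))) {x : R} {F : Polynomial T} {g0 g1 : T}
    (hH : HypData x F g0 g1) {ρ : ℕ} (Y : Fin ρ → P)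
    (hY : F.map (algebraMap T P) = ∏ a, (Polynomial.X - Polynomial.C (Y a))) {q : Ideal R}
    (hq : Prim q) (D : Fin ρ → Ideal Q)
    (hD : ∀ a, algebraMap R Q x - algebraMap P Q (Y a) ∈ D a) :
    ∑ a, ((rl ((q.map (algebraMap R Q) ⊔ D a).restrictScalars P) ⊤).toNat : ℝ) ≤
      cl ((maximalIdeal T).map (algebraMap T P)) *
        (cl q + ρ * cl (q ⊔ Ideal.span {algebraMap T R g0})) := by
  obtain ⟨ε, h1, h2, -⟩ := hH.exists_eps (Q := Q) Y hY
  have h3 := theta_upper P D ε _ h1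
    (fun a b hab => (Ideal.span_singleton_le_iff_mem _).2 (hD b) (h2 a b hab))
    (q.map (algebraMap R Q))
  have hq' : Prim (q ⊔ Ideal.span {algebraMap T R g0}) := hq.mono le_sup_left
  have h4 := rl_map_le_res P (algebraMap R Q) ⊥ (rl_ne_top_of_prim hq)
  have h5 := rl_map_le_res P (algebraMap R Q) ⊥ (rl_ne_top_of_prim hq')
  rw [sup_bot_eq, sup_bot_eq, size_pushout hm hres] at h4 h5
  rw [Ideal.map_sup, Ideal.map_span, Set.image_singleton, ← IsScalarTower.algebraMap_apply] at h5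
  obtain ⟨n1, e1, f1⟩ := Lower_coe hq
  obtain ⟨n2, e2, f2⟩ := Lower_coe hq'
  obtain ⟨n3, e3, f3⟩ := Lower_coe hpP
  have h6 := h3.trans (add_le_add h4 (mul_le_mul_right h5 _))
  rw [e1, e2, e3, Fintype.card_fin, ← Nat.cast_mul, ← Nat.cast_mul, ← Nat.cast_mul,
    ← Nat.cast_add] at h6
  refine (Lower_cast _ _ (ENat.natCast_ne_top _) h6).trans (le_of_eq ?_)
  rw [f1, f2, f3, ENat.toNat_natCast]
  push_cast
  ring

omit [IsNoetherianRing T] [IsDomain T] in
variable (Q) in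
include Q in
theorem Lower_step [Module.Flat T P] {s : ℕ}
    (hm : (maximalIdeal T).map (algebraMap T R) ≤ maximalIdeal R)
    (hres : ∀ r : R, ∃ t : T, r - algebraMap T R t ∈ maximalIdeal R)
    (hpP : Prim ((maximalIdeal T).map (algebraMap T P))) {x : R} {F : Polynomial T} {g0 g1 : T}
    (hH : HypData x F g0 g1) {ρ : ℕ} (Y : Fin ρ → P)
    (hY : F.map (algebraMap T P) = ∏ a, (Polynomial.X - Polynomial.C (Y a))) (τ : Fin s → T)
    {W : Ideal R} (hW : W = Ideal.span (Set.range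
      (Fin.cons x (fun j => algebraMap T R (τ j)) : Fin (s + 1) → R))) (hx : Prim W)
    {Z : Fin ρ → Ideal P} (hZ : ∀ a, Z a = Ideal.span (Set.range
      (Fin.cons (Y a) (fun j => algebraMap T P (τ j)) : Fin (s + 1) → P))) (hxP : ∀ a, Prim (Z a))
    (N : ℕ) :
    cl ((maximalIdeal T).map (algebraMap T P)) * cl (W ^ N) ≤ (∑ a, cl (Z a)) * mcs (s + 1) N +
      cl ((maximalIdeal T).map (algebraMap T P)) * ρ *
        cl (W ^ N ⊔ Ideal.span {algebraMap T R g1}) +
      cl ((maximalIdeal T).map (algebraMap T P)) * cl (W ^ N ⊔ Ideal.span {algebraMap T R g0}) := by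
  obtain ⟨ε, h1, -, h2⟩ := hH.exists_eps (Q := Q) Y hY
  let I : Fin ρ → Ideal Q := fun a => Ideal.span {algebraMap R Q x - algebraMap P Q (Y a)}
  have hWN : Prim (W ^ N) := by simpa using Prim.sup_pow (q := ⊥) (W := W) (by rwa [bot_sup_eq]) N
  have hsz : ∀ q : Ideal R, Prim q → rl ((q.map (algebraMap R Q)).restrictScalars P) ⊤ =
      rl q (⊤ : Ideal R) * rl ((maximalIdeal T).map (algebraMap T P)) (⊤ : Ideal P) := fun q hq => by
    rw [CP.rl_map_res P (cp_pushout (T := T) (P := P)) (rl_ne_top_of_prim hq), size_pushout hm hres]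
  have hsz' : ∀ g : T, rl (((W ^ N).map (algebraMap R Q) ⊔
      Ideal.span {algebraMap T Q g}).restrictScalars P) ⊤ =
      rl (W ^ N ⊔ Ideal.span {algebraMap T R g}) (⊤ : Ideal R) *
        rl ((maximalIdeal T).map (algebraMap T P)) (⊤ : Ideal P) := fun g => by
    rw [← hsz _ (hWN.mono le_sup_left), Ideal.map_sup, Ideal.map_span, Set.image_singleton,
      ← IsScalarTower.algebraMap_apply]
  have hWx : algebraMap R Q x ∈ W.map (algebraMap R Q) :=
    Ideal.mem_map_of_mem _ (hW ▸ Ideal.subset_span ⟨0, rfl⟩)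
  have hWt : ∀ j, algebraMap T Q (τ j) ∈ W.map (algebraMap R Q) := fun j => by
    rw [IsScalarTower.algebraMap_apply T R Q]
    exact Ideal.mem_map_of_mem _ (hW ▸ Ideal.subset_span ⟨j.succ, rfl⟩)
  have hZx : ∀ a, algebraMap P Q (Y a) ∈ (Z a).map (algebraMap P Q) := fun a =>
    Ideal.mem_map_of_mem _ (hZ a ▸ Ideal.subset_span ⟨0, rfl⟩)
  have hZt : ∀ a j, algebraMap T Q (τ j) ∈ (Z a).map (algebraMap P Q) := fun a j => by
    rw [IsScalarTower.algebraMap_apply T P Q]
    exact Ideal.mem_map_of_mem _ (hZ a ▸ Ideal.subset_span ⟨j.succ, rfl⟩)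
  have hI : ∀ a, algebraMap R Q x - algebraMap P Q (Y a) ∈ I a := fun a =>
    Ideal.mem_span_singleton_self _
  have k1 : ∀ a, (W ^ N).map (algebraMap R Q) ≤ (Z a ^ N).map (algebraMap P Q) ⊔ I a := fun a => by
    rw [Ideal.map_pow, Ideal.map_pow]
    refine Lower_pow (hW ▸ Lower_cons _ _ _ ?_ fun j => ?_) N
    · simpa using Submodule.add_mem_sup (hZx a) (hI a)
    · rw [← IsScalarTower.algebraMap_apply]; exact Ideal.mem_sup_left (hZt a j)
  have k2 : ∀ a, (Z a ^ N).map (algebraMap P Q) ≤ (W ^ N).map (algebraMap R Q) ⊔ I a := fun a => by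
    rw [Ideal.map_pow, Ideal.map_pow]
    refine Lower_pow (hZ a ▸ Lower_cons _ _ _ ?_ fun j => ?_) N
    · simpa using Submodule.add_mem_sup hWx ((I a).neg_mem (hI a))
    · rw [← IsScalarTower.algebraMap_apply]; exact Ideal.mem_sup_left (hWt j)
  obtain ⟨n1, e1, f1⟩ := Lower_coe hWN
  obtain ⟨n2, e2, f2⟩ := Lower_coe (hWN.mono (I' := W ^ N ⊔ Ideal.span {algebraMap T R g0})
    le_sup_left)
  obtain ⟨n3, e3, f3⟩ := Lower_coe (hWN.mono (I' := W ^ N ⊔ Ideal.span {algebraMap T R g1})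
    le_sup_left)
  obtain ⟨n4, e4, f4⟩ := Lower_coe hpP
  choose n5 e5 f5 using fun a => Lower_coe (hxP a)
  have h3 := theta_lower P I ε (algebraMap T P g0)
    (by rw [h1, ← IsScalarTower.algebraMap_apply]) (fun a y hy => by
      obtain ⟨z, rfl⟩ := Ideal.mem_span_singleton.1 hy
      rw [← mul_assoc, h2, zero_mul]) ((W ^ N).map (algebraMap R Q))
    (by rw [hsz _ hWN, e1, e4, ← Nat.cast_mul]; exact ENat.natCast_ne_top _)
  have h4 : ∀ a, rl (((W ^ N).map (algebraMap R Q) ⊔ I a).restrictScalars P) ⊤ ≤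
      ((mcs (s + 1) N * n5 a + n3 * n4 : ℕ) : ℕ∞) := fun a => by
    have c1 := theta_cond P (I a) _ (hH.cond_pushout (Y a)) (Z a ^ N)
    have c2 := rl_pow_le P (⊥ : Ideal P)
      (Fin.cons (Y a) (fun j => algebraMap T P (τ j)) : Fin (s + 1) → P) N
    rw [bot_sup_eq, bot_sup_eq, ← hZ, Submodule.restrictScalars_self,
      Submodule.restrictScalars_self, e5] at c2
    refine le_trans (rl_mono (Submodule.restrictScalars_mono P (sup_le (k2 a) le_sup_right))
      le_rfl) (c1.trans ?_)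
    rw [Nat.cast_add, Nat.cast_mul, Nat.cast_mul, ← e3, ← e4, ← hsz']
    exact add_le_add c2 (rl_mono (Submodule.restrictScalars_mono P (sup_le_sup_right (k1 a) _)) le_rfl)
  rw [← IsScalarTower.algebraMap_apply, hsz _ hWN, hsz', e1, e2, e4] at h3
  have h5 := h3.trans (add_le_add (Finset.sum_le_sum fun a _ => h4 a) le_rfl)
  have h6 : n1 * n4 ≤ ∑ a, (mcs (s + 1) N * n5 a + n3 * n4) + n2 * n4 := by exact_mod_cast h5
  have h7 : (n1 : ℝ) * n4 ≤ ∑ a, ((mcs (s + 1) N : ℝ) * n5 a + n3 * n4) + n2 * n4 := by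
    exact_mod_cast h6
  rw [Finset.sum_add_distrib, ← Finset.mul_sum, Finset.sum_const, Finset.card_univ,
    Fintype.card_fin, nsmul_eq_mul] at h7
  simp only [f1, f2, f3, f4, f5]
  linarith

theorem twist_lower [Module.Flat T P] {s : ℕ} (hT : Gen (maximalIdeal T) (s + 1))
    (hm : (maximalIdeal T).map (algebraMap T R) ≤ maximalIdeal R)
    (hres : ∀ r : R, ∃ t : T, r - algebraMap T R t ∈ maximalIdeal R)
    (hpr : Prim ((maximalIdeal T).map (algebraMap T R)))
    (hpP : Prim ((maximalIdeal T).map (algebraMap T P))) {x : R} {F : Polynomial T} {g0 g1 : T}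
    (hH : HypData x F g0 g1) {ρ : ℕ} (Y : Fin ρ → P)
    (hY : F.map (algebraMap T P) = ∏ a, (Polynomial.X - Polynomial.C (Y a))) (τ : Fin s → T)
    (hx : Prim (Ideal.span (Set.range
      (Fin.cons x (fun j => algebraMap T R (τ j)) : Fin (s + 1) → R))))
    (hxP : ∀ a, Prim (Ideal.span (Set.range
      (Fin.cons (Y a) (fun j => algebraMap T P (τ j)) : Fin (s + 1) → P)))) {e : ℝ}
    (he : Lim (s + 1) (fun N => cl (Ideal.span (Set.range
      (Fin.cons x (fun j => algebraMap T R (τ j)) : Fin (s + 1) → R)) ^ N)) e) :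
    cl ((maximalIdeal T).map (algebraMap T P)) * e ≤ ∑ a, cl (Ideal.span (Set.range
      (Fin.cons (Y a) (fun j => algebraMap T P (τ j)) : Fin (s + 1) → P))) := by
  let _ : Algebra R (TensorProduct T P R) := Algebra.TensorProduct.rightAlgebra
  have h1 := (((lim_sum_multichoose (s + 1)).const_mul (∑ a, cl (Ideal.span (Set.range
      (Fin.cons (Y a) (fun j => algebraMap T P (τ j)) : Fin (s + 1) → P))))).add
    ((lim_zero_base hT hm hpr hH.ne1 hx).const_mul
      (cl ((maximalIdeal T).map (algebraMap T P)) * ρ))).add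
    ((lim_zero_base hT hm hpr hH.ne0 hx).const_mul (cl ((maximalIdeal T).map (algebraMap T P))))
  rw [mul_one, mul_zero, mul_zero, add_zero, add_zero] at h1
  refine (he.const_mul _).le h1 (Filter.Eventually.of_forall fun N => ?_)
  have := Lower_step (TensorProduct T P R) hm hres hpP hH Y hY τ rfl hx (fun _ => rfl) hxP N
  rwa [mcs, Nat.cast_sum] at this

end Vale.Agent.P202
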