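import Vale.Agent.P202.UpA

/-! Approximate quasi-regularity of the parameters. -/

namespace Vale.Agent.P202

open IsLocalRing

universe v w

theorem upB_pw {R : Type*} [CommRing R] {d : ℕ} (z : Fin (d + 1) → R) (a : Fin (d + 1) → ℕ)
    (t : Fin (d + 1)) (m : ℕ) : pw z (Function.update a t m) =
      Ideal.span (Set.range fun i => z (t.succAbove i) ^ a (t.succAbove i)) ⊔
        Ideal.span {z t ^ m} := by
  refine le_antisymm (Ideal.span_le.2 ?_) (sup_le (Ideal.span_le.2 ?_) (Ideal.span_le.2 ?_))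
  · rintro _ ⟨i, rfl⟩
    rcases Fin.eq_self_or_eq_succAbove t i with rfl | ⟨i, rfl⟩
    · exact Ideal.mem_sup_right (by simp)
    · exact Ideal.mem_sup_left (Ideal.subset_span ⟨i, by simp⟩)
  · rintro _ ⟨i, rfl⟩
    exact Ideal.subset_span ⟨t.succAbove i, by simp⟩
  · rintro _ rfl
    exact Ideal.subset_span ⟨t, by simp⟩

theorem upB_anti {R : Type*} [CommRing R] {ι : Type*} (z : ι → R) {a b : ι → ℕ}
    (h : ∀ t, a t ≤ b t) : pw z b ≤ pw z a := by
  refine Ideal.span_le.2 ?_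
  rintro _ ⟨t, rfl⟩
  exact Ideal.mem_of_dvd _ (pow_dvd_pow _ (h t)) (Ideal.subset_span ⟨t, rfl⟩)

theorem upB_prim {R : Type*} [CommRing R] [IsLocalRing R] {q : Ideal R} {d : ℕ} (z : Fin d → R)
    (h : Prim (q ⊔ Ideal.span (Set.range z))) (a : Fin d → ℕ) : Prim (q ⊔ pw z a) := by
  have h1 := pow_le_pow_root z (∑ t, a t + 1) 1 _ (by omega) le_rfl
  rw [pow_one] at h1
  refine (h.sup_pow _).mono (sup_le_sup_left (h1.trans (upB_anti z (b := fun _ => ∑ t, a t + 1)
    fun t => ?_)) _)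
  exact (Finset.single_le_sum (fun _ _ => Nat.zero_le _) (Finset.mem_univ t)).trans (Nat.le_succ _)

theorem upB_step {R : Type*} [CommRing R] [IsLocalRing R] {s d v : ℕ} (hsd : v + d ≤ s + 1)
    {ι : Type} [Fintype ι] [DecidableEq ι] {i : ι → ℕ} {g : Matrix ι ι R} {a0 : ι} {J : Ideal R}
    (hres : IsRes i g a0 ⊥ J) (hi : ∀ a, i a ≤ v) (z : Fin d → R) {x : Fin (s + 1) → R}
    (hx : ∀ t, x t ∈ maximalIdeal R) {K n' μ c L : ℕ}
    (hc : maximalIdeal R ^ c ≤ J ⊔ pw z fun _ => n')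
    (hL : (K * c + 1) * (1 + (s + 1)) + (s + 1) * (K * c) ≤ L)
    {P Q : Type*} [CommRing P] [IsLocalRing P] [IsNoetherianRing P] [CommRing Q]
    [Algebra P Q] {j : R →+* Q} {y : Fin (s + 1) → P} {h : P} {D : Ideal Q} {n : ℕ}
    (hT : TwData x j y h D n K μ L) (a : Fin d → ℕ) (ha : ∀ t, 1 ≤ a t ∧ a t ≤ n') (t : Fin d) :
    rl (((J ⊔ pw z a).map j ⊔ D).restrictScalars P) ⊤ +
      rl (((J ⊔ pw z (Function.update a t 1)).map j ⊔ D).restrictScalars P) ⊤ ≤
      rl (((J ⊔ pw z (Function.update a t (a t + 1))).map j ⊔ D).restrictScalars P) ⊤ +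
        ((2 * s + 3) * μ : ℕ) *
          rl (Ideal.span (Set.range y) ^ L ⊔ Ideal.span {h}) (⊤ : Ideal P) := by
  obtain ⟨d, rfl⟩ : ∃ d', d = d' + 1 := ⟨d - 1, by have := t.pos; omega⟩
  obtain ⟨κ, _, _, k, G, b0, hd, hsq, hk, hb0, -, hrow, hnull⟩ := hres.exists_cx (m := ⊤) hi
    (fun _ _ => trivial) (fun i => z (t.succAbove i) ^ a (t.succAbove i)) fun _ => trivial
  have e : ∀ m, (J ⊔ pw z (Function.update a t m)).map j ⊔ D =
      (Ideal.span (Set.range (G.map j b0)) ⊔ D) ⊔ Ideal.span {j (z t) ^ m} := fun m => by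
    have : Ideal.span (Set.range (G.map j b0)) = (Ideal.span (Set.range (G b0))).map j := by
      rw [Ideal.map_span, ← Set.range_comp]; rfl
    rw [upB_pw, ← sup_assoc, ← hrow, Ideal.map_sup, this, Ideal.map_span (s := {_}),
      Set.image_singleton, map_pow, sup_right_comm]
  have hl : (Ideal.span (Set.range y) ^ ((K * c + 1) * (1 + (s + 1)))).map (algebraMap P Q) ≤
      (Ideal.span (Set.range (G.map j b0)) ⊔ D) ⊔ Ideal.span {j (z t)} := by
    have h1 := pow_le_pow_root y (K * c + 1) 1 _ (by omega) le_rfl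
    rw [pow_one] at h1
    have h2 := e 1
    rw [pow_one] at h2
    rw [← h2]
    refine (Ideal.map_mono (h1.trans (upB_anti y (b := fun _ => K * c + 1)
      fun _ => Nat.le_succ _))).trans (hT.pw_le hx (hc.trans (sup_le_sup_left
        (upB_anti z fun t' => ?_) _)))
    have := ha t'
    by_cases h : t' = t
    · subst h; simp only [Function.update_self]; omega
    · rw [Function.update_of_ne h]; omega
  obtain ⟨-, -, hw, hcone⟩ := cone_props hd hsq (z t ^ a t)
  have key := rl_colon_step P (Ideal.span (Set.range (G.map j b0)) ⊔ D) (j (z t)) (a t)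
    (2 * s + 3) μ h (Ideal.span (Set.range y) ^ L) hT.ng
    ((Ideal.map_mono (Ideal.pow_le_pow_right (by omega))).trans hl) (hT.fin_pow L) fun u hu =>
      sup_le le_sup_left hl (hT.ap.reg (M := K * c) (hT.cm.colOn hT.mem hT.prim) (hd.map j)
        (fun b => by have := hk b; omega) hb0 (upA_sq j D hsq) (j (z t) ^ a t) (fun t' => by
          have h1 := hc.trans (sup_le_sup_left (upB_anti z fun t => (ha t).2) _)
            (Ideal.pow_mem_pow (hx t') c)
          rw [← Function.update_eq_self t a, upB_pw, ← sup_assoc] at h1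
          obtain ⟨r, hr, r', hr', hrr⟩ := Submodule.mem_sup.1 h1
          obtain ⟨r', rfl⟩ := Ideal.mem_span_singleton'.1 hr'
          have h2 := nullR_add (hcone r (hnull r hr)) (hw.mul_left r')
          rw [hrr] at h2
          have h3 := hT.null h2
          rw [tens_map] at h3
          convert h3 using 2
          ext p q
          fin_cases p <;> fin_cases q <;> simp) _ hL u hu)
  rw [← e, ← e, ← pow_one (j (z t)), ← e, Function.update_eq_self] at key
  exact_mod_cast key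

theorem twist_count {R : Type*} [CommRing R] [IsLocalRing R] {s d v : ℕ} (hsd : v + d ≤ s + 1)
    {ι : Type} [Fintype ι] [DecidableEq ι] {i : ι → ℕ} {g : Matrix ι ι R} {a0 : ι} {J : Ideal R}
    (hres : IsRes i g a0 ⊥ J) (hi : ∀ a, i a ≤ v) (z : Fin d → R)
    (hp : Prim (J ⊔ Ideal.span (Set.range z))) (x : Fin (s + 1) → R)
    (hx : ∀ t, x t ∈ maximalIdeal R) (K n' μ : ℕ) (hn' : 1 ≤ n') :
    ∃ (L0 : ℕ) (C : ℝ), 0 ≤ C ∧ ∀ L, L0 ≤ L →
      ∀ (P : Type v) (Q : Type w) [CommRing P] [IsLocalRing P] [IsNoetherianRing P] [CommRing Q]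
        [Algebra P Q] (j : R →+* Q) (y : Fin (s + 1) → P) (h : P) (D : Ideal Q) (n : ℕ),
        TwData x j y h D n K μ L →
        (mcs d n' : ℝ) *
            (rl (((J ⊔ Ideal.span (Set.range z)).map j ⊔ D).restrictScalars P) ⊤).toNat ≤
          (rl (((J ⊔ Ideal.span (Set.range z) ^ n').map j ⊔ D).restrictScalars P) ⊤).toNat +
            C * cl (Ideal.span (Set.range y) ^ L ⊔ Ideal.span {h}) := by
  obtain ⟨c, hc⟩ := upB_prim z hp fun _ => n'
  refine ⟨(K * c + 1) * (1 + (s + 1)) + (s + 1) * (K * c),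
    d * (n' : ℝ) ^ d * ((2 * s + 3) * μ : ℕ), by positivity,
    fun L hL P Q _ _ _ _ _ j y h D n hT => ?_⟩
  have hfin : rl (Ideal.span (Set.range y) ^ L ⊔ Ideal.span {h}) (⊤ : Ideal P) ≠ ⊤ :=
    ne_top_of_le_ne_top (hT.fin_pow L) (rl_mono le_sup_left le_rfl)
  have hf := fun a => hT.rl_ne_top hx (upB_prim z hp a)
  have h1 := count_box
    (fun a => ((rl (((J ⊔ pw z a).map j ⊔ D).restrictScalars P) ⊤).toNat : ℝ))
    (((2 * s + 3) * μ : ℕ) * cl (Ideal.span (Set.range y) ^ L ⊔ Ideal.span {h}))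
    (mul_nonneg (Nat.cast_nonneg _) (Nat.cast_nonneg _)) hn' fun a ha t _ => by
      have h2 := upA_toNat (upB_step hsd hres hi z hx hc hL hT a ha t) (hf _) hfin
      rw [ENat.toNat_add (hf _) (hf _), Nat.cast_add] at h2
      exact h2
  have e1 : pw z (fun _ => 1) = Ideal.span (Set.range z) := by simp [pw]
  have e2 : ∀ I : Ideal R, (J ⊔ I).map j ⊔ D = J.map j ⊔ D ⊔ I.map j := fun I => by
    rw [Ideal.map_sup, sup_right_comm]
  have e3 : (Ideal.span (Set.range z)).map j = Ideal.span (Set.range fun t => j (z t)) := by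
    rw [Ideal.map_span, ← Set.range_comp]; rfl
  have e4 : (pw z fun _ => n').map j = pw (fun t => j (z t)) fun _ => n' := by
    rw [pw, pw, Ideal.map_span, ← Set.range_comp]; simp [Function.comp_def]
  have h2 := rl_pw_pow_le P (J.map j ⊔ D) (fun t => j (z t)) hn'
  rw [← e4, ← e3, ← Ideal.map_pow, ← e2, ← e2, ← e2] at h2
  have h3 := upA_toNat h2 (hT.rl_ne_top hx (hp.sup_pow n')) (hT.rl_ne_top hx hp)
  rw [Nat.cast_sub (mcs_le d hn'), Nat.cast_pow] at h3
  simp only [e1] at h1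
  linarith

theorem twist_upper {R : Type*} [CommRing R] [IsLocalRing R] {s d v : ℕ} (hsd : v + d ≤ s + 1)
    {ι : Type} [Fintype ι] [DecidableEq ι] {i : ι → ℕ} {g : Matrix ι ι R} {a0 : ι} {J : Ideal R}
    (hres : IsRes i g a0 ⊥ J) (hi : ∀ a, i a ≤ v) (hg : Ent g (maximalIdeal R)) (z : Fin d → R)
    (hz : ∀ t, z t ∈ maximalIdeal R) (hp : Prim (J ⊔ Ideal.span (Set.range z))) {r0 : R}
    (hr0 : r0 ∈ maximalIdeal R) (hr0' : ¬ IsNilpotent r0) (x : Fin (s + 1) → R)
    (hx : ∀ t, x t ∈ maximalIdeal R) :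
    ∃ C1 : ℝ, ∀ n K n' μ : ℕ, s ≤ n → 1 ≤ n → 1 ≤ n' → ∃ (L : ℕ) (C : ℝ), 0 ≤ C ∧
      ∀ (P : Type v) (Q : Type w) [CommRing P] [IsLocalRing P] [IsNoetherianRing P] [CommRing Q]
        [Algebra P Q] (j : R →+* Q) (y : Fin (s + 1) → P) (h : P) (D : Ideal Q),
        TwData x j y h D n K μ L →
        (mcs d n' : ℝ) * (cl (Ideal.span (Set.range y)) * ((n : ℝ) ^ (s + 1) - C1 * (n : ℝ) ^ s)) ≤
          (rl (((J ⊔ Ideal.span (Set.range z) ^ n').map j ⊔ D).restrictScalars P) ⊤).toNat +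
            C * cl (Ideal.span (Set.range y) ^ L ⊔ Ideal.span {h}) := by
  obtain ⟨C1, hC1⟩ := twist_aml.{v, w} hsd hres hi hg z hz hp hr0 hr0' x hx
  refine ⟨C1, fun n K n' μ hsn hn hn' => ?_⟩
  obtain ⟨L1, C, hC, h1⟩ := hC1 n K hsn hn
  obtain ⟨L2, C', hC', h2⟩ := twist_count.{v, w} hsd hres hi z hp x hx K n' μ hn'
  refine ⟨max L1 L2, mcs d n' * C + C', by positivity, fun P Q _ _ _ _ _ j y h D hT => ?_⟩
  have h3 := mul_le_mul_of_nonneg_left (h1 _ (le_max_left _ _) P Q j y h D μ hT)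
    (Nat.cast_nonneg (α := ℝ) (mcs d n'))
  have h4 := h2 _ (le_max_right _ _) P Q j y h D n hT
  linarith

end Vale.Agent.P202
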