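import Vale.Agent.P202.PrismS
import Vale.Agent.P202.UpB
import Vale.Agent.P202.Lower
import Vale.Agent.P202.Data

/-! The main inequality at a finite level. -/

namespace Vale.Agent.P202

open IsLocalRing

universe v u

theorem coreI_pw_prim {A : Type*} [CommRing A] [IsLocalRing A] [IsNoetherianRing A] {q : Ideal A}
    {ι : Type*} (w : ι → A) (h : Prim (q ⊔ Ideal.span (Set.range w))) (K : ℕ) :
    Prim (q ⊔ pw w fun _ => K) := by
  rw [prim_iff_radical] at h ⊢
  refine h.trans ?_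
  rw [Ideal.radical_le_radical_iff]
  refine sup_le (le_sup_left.trans Ideal.le_radical) (Ideal.span_le.2 ?_)
  rintro _ ⟨t, rfl⟩
  exact ⟨K, Ideal.mem_sup_right (Ideal.subset_span ⟨t, rfl⟩)⟩

theorem coreI_one_le {A : Type*} [CommRing A] [IsLocalRing A] [IsNoetherianRing A] {I : Ideal A}
    (h : Prim I) (hI : I ≤ maximalIdeal A) : 1 ≤ cl I := by
  have := cl_mono h hI
  rwa [cl, rl_maximal, ENat.toNat_one, Nat.cast_one] at this

theorem coreI_cl_pw {A : Type*} [CommRing A] [IsLocalRing A] [IsNoetherianRing A] {d : ℕ}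
    (y : Fin d → A) (h : Prim (Ideal.span (Set.range y))) (B : ℕ) :
    cl (pw y fun _ => B) ≤ (B : ℝ) ^ d * cl (Ideal.span (Set.range y)) := by
  have h1 := rl_pw_le A (⊥ : Ideal A) y B
  simp only [bot_sup_eq, Submodule.restrictScalars_self] at h1
  obtain ⟨k, hk⟩ := ENat.ne_top_iff_exists.1 (rl_ne_top_of_prim h)
  rw [cl, cl, ← hk, ENat.toNat_natCast]
  rw [← hk, ← Nat.cast_mul] at h1
  have h2 := ENat.toNat_le_toNat h1 (ENat.natCast_ne_top _)
  rw [ENat.toNat_natCast] at h2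
  exact_mod_cast h2

theorem coreI_coeff {T P : Type*} [CommRing T] [CommRing P] (ψ : T →+* P) (F : Polynomial T)
    (Y : P) (h : F.eval₂ ψ Y = 0) : ψ (F.coeff 0) ∈ Ideal.span {Y} := by
  have h1 := congrArg (Polynomial.eval₂ ψ Y) (Polynomial.X_mul_divX_add F)
  rw [Polynomial.eval₂_add, Polynomial.eval₂_mul, Polynomial.eval₂_X, Polynomial.eval₂_C, h] at h1
  rw [eq_neg_of_add_eq_zero_right h1]
  exact neg_mem (Ideal.mul_mem_right _ _ (Ideal.subset_span rfl))

section Level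
variable {T R P Q : Type*} [CommRing T] [IsLocalRing T] [CommRing R] [IsLocalRing R]
  [CommRing P] [IsLocalRing P] [CommRing Q] [Algebra T R] [Algebra T P] [Algebra P Q] [Algebra R Q]
  [Algebra T Q] [IsScalarTower T P Q] [IsScalarTower T R Q] [Algebra.IsPushout T P R Q]
  [Module.Flat T P]

theorem coreI_tw (hres : ∀ r : R, ∃ t : T, r - algebraMap T R t ∈ maximalIdeal R) {x : R}
    {F : Polynomial T} {g0 g1 : T} (hH : HypData x F g0 g1) {c : ℕ}
    (hc : ∀ K : ℕ, (maximalIdeal T ^ (K + c)).colon {g1} ≤ maximalIdeal T ^ K) {κ : Type*}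
    (rr : κ → R) (hrr : ∀ r ∈ maximalIdeal R, r ∈ Submodule.span T (Set.range rr))
    (f : κ → Polynomial T) (hf : ∀ α, Polynomial.aeval x (f α) = g1 • rr α) {μ : ℕ}
    (v : Fin μ → R) (hv : Submodule.span T (Set.range v) = ⊤) {s : ℕ} (τ : Fin s → T) {c1 : ℕ}
    (hc1 : maximalIdeal T ^ c1 ≤ Ideal.span {F.coeff 0} ⊔ Ideal.span (Set.range τ))
    (hτ : ∀ j, τ j ∈ maximalIdeal T) (hcm : IsCM P (s + 1))
    (hmP : (maximalIdeal T).map (algebraMap T P) ≤ maximalIdeal P)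
    (hpP : Prim ((maximalIdeal T).map (algebraMap T P))) (Y : P) (hYm : Y ∈ maximalIdeal P)
    (hY : F.eval₂ (algebraMap T P) Y = 0) (ζ : Fin (s + 1) → P) (ζg : P) {m m' n B L : ℕ}
    (hm : 1 ≤ m) (hm' : m' ≤ m) (hB : n + s + 2 = B)
    (hζ : ∀ t, ζ t ^ (m * B) = (Fin.cons Y (fun j => algebraMap T P (τ j)) : Fin (s + 1) → P) t)
    (hζg : ζg ^ (m * B) = algebraMap T P g1)
    (hst : ∀ α, ∃ u ∈ Ideal.span (Set.range ζ) ^ (m * B - m'),
      (f α).eval₂ (algebraMap T P) Y - ζg ^ (m * B - m') * u ∈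
        (maximalIdeal T ^ (c1 * L + 2 * c)).map (algebraMap T P)) :
    (maximalIdeal T ^ (c1 * L)).map (algebraMap T P) ≤
        Ideal.span (Set.range fun t => ζ t ^ m) ^ L ∧
      Prim (Ideal.span (Set.range
        (Fin.cons Y (fun j => algebraMap T P (τ j)) : Fin (s + 1) → P))) ∧
      ∃ D : Ideal Q, algebraMap R Q x - algebraMap P Q Y ∈ D ∧
        TwData (Fin.cons x (fun j => algebraMap T R (τ j)) : Fin (s + 1) → R) (algebraMap R Q)
          (fun t => ζ t ^ m) (ζg ^ m') D n B μ L := by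
  have hmB : m ≤ m * B := Nat.le_mul_of_pos_right _ (by omega)
  have h1 : (maximalIdeal T ^ c1).map (algebraMap T P) ≤ Ideal.span (Set.range
      (Fin.cons Y (fun j => algebraMap T P (τ j)) : Fin (s + 1) → P)) := by
    refine (Ideal.map_mono hc1).trans ?_
    rw [kos_span_cons, Ideal.map_sup, Ideal.map_span, Ideal.map_span, ← Set.range_comp,
      Set.image_singleton]
    exact sup_le_sup ((Ideal.span_singleton_le_iff_mem _).2 (coreI_coeff _ F Y hY)) le_rfl
  have h2 : Ideal.span (Set.range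
      (Fin.cons Y (fun j => algebraMap T P (τ j)) : Fin (s + 1) → P)) ≤
      Ideal.span (Set.range fun t => ζ t ^ m) := by
    rw [Ideal.span_le]
    rintro _ ⟨t, rfl⟩
    rw [← hζ t, pow_mul]
    exact Ideal.pow_mem_of_mem _ (Ideal.subset_span (Set.mem_range_self t)) _ (by omega)
  have h3 : (maximalIdeal T ^ (c1 * L)).map (algebraMap T P) ≤
      Ideal.span (Set.range fun t => ζ t ^ m) ^ L := by
    rw [pow_mul, Ideal.map_pow]
    exact Ideal.pow_right_mono (h1.trans h2) L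
  have h4 : Prim ((maximalIdeal T ^ c1).map (algebraMap T P)) := by
    rw [Ideal.map_pow]
    have := Prim.sup_pow (q := ⊥) (W := (maximalIdeal T).map (algebraMap T P))
      (by rwa [bot_sup_eq]) c1
    rwa [bot_sup_eq] at this
  refine ⟨h3, h4.mono h1, ?_⟩
  have hh : ζg ^ m' * ζg ^ (m * B - m') = algebraMap T P g1 := by
    rw [← pow_add, Nat.add_sub_cancel' (hm'.trans hmB), hζg]
  have hle : Ideal.span (Set.range ζ) ^ (m * B - m') ≤
      Ideal.span (Set.range fun t => ζ t ^ m) ^ n := by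
    refine pow_le_pow_root ζ m n _ hm ?_
    subst hB
    have : m * (n + s + 2) = m * (n + (s + 1)) + m := by ring
    omega
  obtain ⟨D, hD1, hD2, hD3⟩ := twist_data (Q := Q) hres hH hc rr hrr f hf Y hY hh
    (Ideal.span (Set.range fun t => ζ t ^ m) ^ n) (c1 * L)
    (fun α => let ⟨u, hu, hu'⟩ := hst α; ⟨u, hle hu, hu'⟩)
  refine ⟨D, hD1, hcm, fun t => ?_, (h4.mono h1).mono h2, ng_pushout v hv, hD2.mono h3,
    fun t => ?_, hD3⟩
  · refine Ideal.pow_mem_of_mem _ ((maximalIdeal.isMaximal P).isPrime.mem_of_pow_mem (m * B) ?_) _ hm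
    rw [hζ]
    refine Fin.cases hYm (fun j => ?_) t
    exact hmP (Ideal.mem_map_of_mem _ (hτ j))
  · rw [← map_pow, ← pow_mul, hζ]
    refine Fin.cases ?_ (fun j => ?_) t
    · simpa using D.neg_mem hD1
    · simp only [Fin.cons_succ]
      rw [← IsScalarTower.algebraMap_apply, ← IsScalarTower.algebraMap_apply, sub_self]
      exact D.zero_mem

end Level

theorem coreI_arith {ρ : ℕ} {A eR sz X B C κ w : ℝ} {cy cY lam err : Fin ρ → ℝ} (hA : 0 ≤ A)
    (hB : 0 ≤ B) (hC : 0 ≤ C) (hsz : 1 ≤ sz) (hw : 0 < w)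
    (h1 : ∀ i, A * cy i ≤ lam i + C * err i) (h2 : ∀ i, cY i ≤ B * cy i)
    (h3 : sz * eR ≤ ∑ i, cY i) (h4 : ∑ i, lam i ≤ sz * X) (h5 : ∀ i, w * err i ≤ sz * κ) :
    A * eR ≤ B * X + B * ρ * C * κ / w := by
  have h6 : ∀ i, A * cY i ≤ B * lam i + B * C * (sz * κ / w) := fun i => by
    have e1 : err i ≤ sz * κ / w := by rw [le_div_iff₀ hw]; linarith [h5 i]
    have e2 := mul_le_mul_of_nonneg_left (h2 i) hA
    have e3 := mul_le_mul_of_nonneg_left (h1 i) hB
    have e4 := mul_le_mul_of_nonneg_left e1 (mul_nonneg hB hC)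
    nlinarith
  have h7 := Finset.sum_le_sum fun i (_ : i ∈ Finset.univ) => h6 i
  rw [← Finset.mul_sum, Finset.sum_add_distrib, ← Finset.mul_sum, Finset.sum_const,
    Finset.card_univ, Fintype.card_fin, nsmul_eq_mul] at h7
  have h8 := mul_le_mul_of_nonneg_left h3 hA
  have h9 := mul_le_mul_of_nonneg_left h4 hB
  refine le_of_mul_le_mul_left (a := sz) ?_ (by linarith)
  have : sz * (B * X + B * ρ * C * κ / w) = B * (sz * X) + ρ * (B * C * (sz * κ / w)) := by ring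
  rw [this]
  nlinarith

theorem coreI_lim {a b K : ℝ} {p : ℕ} (hp : 2 ≤ p) (n0 : ℕ)
    (h : ∀ n, n0 ≤ n → a ≤ b + K / (p : ℝ) ^ n) : a ≤ b := by
  have h1 : Filter.Tendsto (fun n : ℕ => b + K / (p : ℝ) ^ n) Filter.atTop (nhds (b + 0)) :=
    tendsto_const_nhds.add (Filter.Tendsto.div_atTop tendsto_const_nhds
      (tendsto_pow_atTop_atTop_of_one_lt (by exact_mod_cast hp)))
  rw [add_zero] at h1
  exact ge_of_tendsto h1 (Filter.eventually_atTop.2 ⟨n0, h⟩)

theorem coreI_level {T : Type*} {R : Type u} {P : Type v} [CommRing T] [IsLocalRing T]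
    [IsNoetherianRing T] [IsDomain T] [CommRing R] [IsLocalRing R] [IsNoetherianRing R]
    [CommRing P] [IsLocalRing P] [IsNoetherianRing P] [Algebra T R] [Module.Finite T R]
    [Algebra T P] {s : ℕ} (hT : Gen (maximalIdeal T) (s + 1))
    (hm : (maximalIdeal T).map (algebraMap T R) ≤ maximalIdeal R)
    (hres : ∀ r : R, ∃ t : T, r - algebraMap T R t ∈ maximalIdeal R) {x : R}
    {F : Polynomial T} {g0 g1 : T} (hH : HypData x F g0 g1) (hg1 : g1 ∈ maximalIdeal T) {c0 : ℕ}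
    (hc0 : ∀ K : ℕ, (maximalIdeal T ^ (K + c0)).colon {g1} ≤ maximalIdeal T ^ K) {κ : Type*}
    (rr : κ → R) (hrr : ∀ r ∈ maximalIdeal R, r ∈ Submodule.span T (Set.range rr))
    (f : κ → Polynomial T) (hf : ∀ α, Polynomial.aeval x (f α) = g1 • rr α) {μ : ℕ}
    (vv : Fin μ → R) (hvv : Submodule.span T (Set.range vv) = ⊤) (τ : Fin s → T) {c1 : ℕ}
    (hc1 : maximalIdeal T ^ c1 ≤ Ideal.span {F.coeff 0} ⊔ Ideal.span (Set.range τ))
    (hτ : ∀ j, τ j ∈ maximalIdeal T)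
    (hxp : Prim (Ideal.span (Set.range
      (Fin.cons x (fun j => algebraMap T R (τ j)) : Fin (s + 1) → R)))) {eR : ℝ}
    (hR' : Lim (s + 1) (fun N => cl (Ideal.span (Set.range
      (Fin.cons x (fun j => algebraMap T R (τ j)) : Fin (s + 1) → R)) ^ N)) eR)
    (w0 : Fin s → T) (hW0m : Ideal.span (Set.range w0) ≤ maximalIdeal T)
    (hW0p : Prim (Ideal.span {g1} ⊔ Ideal.span (Set.range w0))) {q : Ideal R} (hq : Prim q)
    {A E C : ℝ} (hA : 0 ≤ A) (hE : 0 ≤ E) (hC : 0 ≤ C) {p n a b e L : ℕ} (hp2 : 2 ≤ p)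
    (hb : n + s + 2 = p ^ b) (hab : b ≤ a) (hae : a ≤ e)
    (hL : ∀ (Q : Type (max v u)) [CommRing Q] [Algebra P Q] (j : R →+* Q) (y : Fin (s + 1) → P)
      (h : P) (D : Ideal Q), TwData (Fin.cons x (fun j => algebraMap T R (τ j)) : Fin (s + 1) → R)
        j y h D n (p ^ b) μ L → A * (cl (Ideal.span (Set.range y)) * E) ≤
          (rl ((q.map j ⊔ D).restrictScalars P) ⊤).toNat +
            C * cl (Ideal.span (Set.range y) ^ L ⊔ Ideal.span {h}))
    (hcm : IsCM P (s + 1)) (hmP : (maximalIdeal T).map (algebraMap T P) ≤ maximalIdeal P)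
    (hpP : Prim ((maximalIdeal T).map (algebraMap T P))) {ρ : ℕ} (Y : Fin ρ → P)
    (hY : F.map (algebraMap T P) = ∏ a, (Polynomial.X - Polynomial.C (Y a)))
    (hYm : ∀ k, Y k ∈ maximalIdeal P) (ζ : Fin ρ → Fin (s + 1) → P) (ζg : P)
    (hζ : ∀ k t, ζ k t ^ p ^ e =
      (Fin.cons (Y k) (fun j => algebraMap T P (τ j)) : Fin (s + 1) → P) t)
    (hζg : ζg ^ p ^ e = algebraMap T P g1)
    (hst : ∀ k α, ∃ u ∈ Ideal.span (Set.range (ζ k)) ^ (p ^ e - p ^ (e - a)),
      (f α).eval₂ (algebraMap T P) (Y k) - ζg ^ (p ^ e - p ^ (e - a)) * u ∈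
        (maximalIdeal T ^ (c1 * L + 2 * c0)).map (algebraMap T P)) :
    A * (eR * E) ≤ ((p : ℝ) ^ b) ^ (s + 1) *
        (cl q + ρ * cl (q ⊔ Ideal.span {algebraMap T R g0})) +
      ((p : ℝ) ^ b) ^ (s + 1) * ρ * C * cl (Ideal.span {g1} ⊔ pw w0 fun _ => c1 * L + 1) /
        (p : ℝ) ^ a := by
  have : Module.Flat T P := CP.flat (hcm.cp hT _ hmP hpP)
  let : Algebra R (TensorProduct T P R) := Algebra.TensorProduct.rightAlgebra
  have hpe : p ^ e = p ^ (e - b) * p ^ b := by rw [← pow_add]; congr 1; omega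
  have key := fun k => coreI_tw (Q := TensorProduct T P R) hres hH hc0 rr hrr f hf vv hvv τ hc1 hτ
    hcm hmP hpP (Y k) (hYm k) (by
      rw [Polynomial.eval₂_eq_eval_map, hY, Polynomial.eval_prod]
      exact Finset.prod_eq_zero (Finset.mem_univ k) (by simp)) (ζ k) ζg (m := p ^ (e - b))
    (m' := p ^ (e - a)) (L := L) (Nat.one_le_pow _ _ (by omega))
    (Nat.pow_le_pow_right (by omega) (by omega)) hb (fun t => by rw [← hpe]; exact hζ k t)
    (by rw [← hpe]; exact hζg) (fun α => by rw [← hpe]; exact hst k α)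
  choose h3 hYp D hD hTw using key
  have hwm : (pw w0 fun _ => c1 * L + 1) ≤ maximalIdeal _ ^ (c1 * L + 1) := by
    rw [pw, Ideal.span_le]
    rintro _ ⟨t, rfl⟩
    exact Ideal.pow_mem_pow (hW0m (Ideal.subset_span ⟨t, rfl⟩)) _
  have hroot := hcm.cl_root hT _ hmP hpP hg1 (W := pw w0 fun _ => c1 * L + 1) ⟨_, rfl⟩
    (hwm.trans (Ideal.pow_le_self (by omega))) (coreI_pw_prim w0 hW0p _)
    (r := ζg ^ p ^ (e - a)) (m := p ^ a) (by
      rw [← pow_mul, ← pow_add, Nat.sub_add_cancel hae, hζg])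
  have hWp : Prim ((pw w0 fun _ => c1 * L + 1).map (algebraMap T P) ⊔
      Ideal.span {ζg ^ p ^ (e - a)}) := by
    refine (Prim.map (c := ⊥) (ι := algebraMap T P) (by rwa [bot_sup_eq])
      (coreI_pw_prim w0 hW0p (c1 * L + 1))).mono ?_
    rw [bot_sup_eq, Ideal.map_sup, sup_comm, Ideal.map_span (s := {g1}), Set.image_singleton]
    refine sup_le_sup_left ((Ideal.span_singleton_le_iff_mem _).2 ?_) _
    have h1 : algebraMap T P g1 = (ζg ^ p ^ (e - a)) ^ p ^ a := by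
      rw [← pow_mul, ← pow_add, Nat.sub_add_cancel hae, hζg]
    rw [h1]
    exact Ideal.pow_mem_of_mem _ (Ideal.mem_span_singleton_self _) _
      (Nat.one_le_pow _ _ (by omega))
  have := coreI_arith (ρ := ρ) (eR := eR) (A := A * E)
    (B := ((p : ℝ) ^ b) ^ (s + 1)) (w := (p : ℝ) ^ a)
    (κ := cl (Ideal.span {g1} ⊔ pw w0 fun _ => c1 * L + 1))
    (cy := fun k => cl (Ideal.span (Set.range fun t => ζ k t ^ p ^ (e - b))))
    (err := fun k => cl (Ideal.span (Set.range fun t => ζ k t ^ p ^ (e - b)) ^ L ⊔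
      Ideal.span {ζg ^ p ^ (e - a)}))
    (mul_nonneg hA hE) (by positivity) hC (coreI_one_le hpP hmP)
    (by positivity)
    (fun k => by
      have := hL _ _ _ _ _ (hTw k)
      linarith)
    (fun k => by
      have h1 := coreI_cl_pw _ (hTw k).prim (p ^ b)
      have h2 : (pw (fun t => ζ k t ^ p ^ (e - b)) fun _ => p ^ b) = Ideal.span (Set.range
          (Fin.cons (Y k) (fun j => algebraMap T P (τ j)) : Fin (s + 1) → P)) := by
        rw [pw]; congr 2; funext t; rw [← pow_mul, ← hpe, hζ]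
      rw [h2, Nat.cast_pow] at h1
      exact h1)
    (twist_lower hT hm hres prim_of_finite hpP hH Y hY τ hxp hYp hR')
    (twist_theta hm hres hpP hH Y hY hq D hD)
    (fun k => by
      rw [← hroot, Nat.cast_pow]
      refine mul_le_mul_of_nonneg_left (cl_mono hWp (sup_le_sup_right ?_ _)) (by positivity)
      exact (Ideal.map_mono (hwm.trans (Ideal.pow_le_pow_right (by omega)))).trans (h3 k))
  linarith

theorem coreI_main {p : ℕ} [Fact p.Prime] {V : Type v} [CommRing V] [IsDomain V]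
    [IsDiscreteValuationRing V] [IsAdicComplete (maximalIdeal V) V] (hV : PBase p V) {s : ℕ}
    {R : Type u} [CommRing R] [IsLocalRing R] [IsNoetherianRing R]
    [Algebra (MvPowerSeries (Fin s) V) R] [Module.Finite (MvPowerSeries (Fin s) V) R]
    (hm : (maximalIdeal _).map (algebraMap (MvPowerSeries (Fin s) V) R) ≤ maximalIdeal R)
    (hres : ∀ r : R, ∃ t : MvPowerSeries (Fin s) V, r - algebraMap _ R t ∈ maximalIdeal R) {x : R}
    {F : Polynomial (MvPowerSeries (Fin s) V)} {g0 g1 : MvPowerSeries (Fin s) V}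
    (hH : HypData x F g0 g1) (hg1 : g1 ∈ maximalIdeal _)
    (hred : IsRed ⊥ (Ideal.span (Set.range (Fin.cons x
      (fun j => algebraMap (MvPowerSeries (Fin s) V) R (MvPowerSeries.X j)) : Fin (s + 1) → R)))
      (maximalIdeal R))
    {d v : ℕ} (hsd : v + d ≤ s + 1) {ι : Type} [Fintype ι] [DecidableEq ι] {i : ι → ℕ}
    {g : Matrix ι ι R} {a0 : ι} {J : Ideal R} (hJ : IsRes i g a0 ⊥ J) (hi : ∀ a, i a ≤ v)
    (hg : Ent g (maximalIdeal R)) (z : Fin d → R) (hz : ∀ t, z t ∈ maximalIdeal R)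
    (hp : Prim (J ⊔ Ideal.span (Set.range z))) {eR : ℝ}
    (hR : Lim (s + 1) (fun N => cl (maximalIdeal R ^ N)) eR) :
    ∃ C1 : ℝ, ∀ n b n' : ℕ, n + s + 2 = p ^ b → s ≤ n → 1 ≤ n → 1 ≤ n' →
      0 ≤ (n : ℝ) ^ (s + 1) - C1 * (n : ℝ) ^ s →
      (mcs d n' : ℝ) * (eR * ((n : ℝ) ^ (s + 1) - C1 * (n : ℝ) ^ s)) ≤ ((p : ℝ) ^ b) ^ (s + 1) *
        (cl (J ⊔ Ideal.span (Set.range z) ^ n') + F.natDegree *
          cl (J ⊔ Ideal.span (Set.range z) ^ n' ⊔ Ideal.span {algebraMap _ R g0})) := by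
  have hp2 : 2 ≤ p := (Fact.out : p.Prime).two_le
  have : IsDomain (MvPowerSeries (Fin s) V) := NoZeroDivisors.to_isDomain _
  have hT : Gen (maximalIdeal (MvPowerSeries (Fin s) V)) (s + 1) := by
    simpa using gen_psV (σ := Fin s) hV.max
  have hpT : (p : MvPowerSeries (Fin s) V) ∈ maximalIdeal _ := by
    rw [maximalIdeal_psV' hV.max]; exact Ideal.mem_sup_left (Ideal.subset_span rfl)
  have hXT : ∀ j, (MvPowerSeries.X j : MvPowerSeries (Fin s) V) ∈ maximalIdeal _ := fun j => by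
    rw [maximalIdeal_psV' hV.max]; exact Ideal.mem_sup_right (Ideal.subset_span ⟨j, rfl⟩)
  have hxm : ∀ t, (Fin.cons x (fun j => algebraMap (MvPowerSeries (Fin s) V) R
      (MvPowerSeries.X j)) : Fin (s + 1) → R) t ∈ maximalIdeal R :=
    fun t => hred.1 (Ideal.subset_span ⟨t, rfl⟩)
  have hx0 : x ∈ maximalIdeal R := hxm 0
  have hmax : Prim (⊥ ⊔ maximalIdeal R) := ⟨1, by simp⟩
  have hxp : Prim (Ideal.span (Set.range (Fin.cons x (fun j => algebraMap
      (MvPowerSeries (Fin s) V) R (MvPowerSeries.X j)) : Fin (s + 1) → R))) := by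
    simpa using hred.prim hmax
  have hR' : Lim (s + 1) (fun N => cl (Ideal.span (Set.range (Fin.cons x (fun j => algebraMap
      (MvPowerSeries (Fin s) V) R (MvPowerSeries.X j)) : Fin (s + 1) → R)) ^ N)) eR := by
    simpa using (lim_red_iff (d := s + 1) (e := eR) hred hmax).2 (by simpa using hR)
  obtain ⟨nκ, rr, hrr⟩ := Submodule.fg_iff_exists_fin_generating_family.1
    (IsNoetherian.noetherian ((maximalIdeal R).restrictScalars (MvPowerSeries (Fin s) V)))
  have hrm : ∀ α, rr α ∈ maximalIdeal R := fun α => by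
    have : rr α ∈ Submodule.span (MvPowerSeries (Fin s) V) (Set.range rr) :=
      Submodule.subset_span ⟨α, rfl⟩
    rwa [hrr] at this
  obtain ⟨μ, vv, hvv⟩ := Submodule.fg_iff_exists_fin_generating_family.1
    (Module.Finite.fg_top (R := MvPowerSeries (Fin s) V) (M := R))
  choose f hf using fun α => hH.cond (rr α)
  obtain ⟨r, hr⟩ := hred.pow_le
  obtain ⟨c0, hc0⟩ := exists_colon_le hH.ne1
  obtain ⟨c1, hc1⟩ := hH.prim hm MvPowerSeries.X hxp
  have hr0 : (p : R) ∈ maximalIdeal R := by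
    rw [← map_natCast (algebraMap (MvPowerSeries (Fin s) V) R)]
    exact hm (Ideal.mem_map_of_mem _ hpT)
  have hr0' : ¬ IsNilpotent (p : R) := by
    rintro ⟨k, hk⟩
    refine pow_ne_zero k (prime_p_psV (σ := Fin s) hV.max).ne_zero (hH.injective ?_)
    simpa using hk
  obtain ⟨W0, ⟨w0, rfl⟩, hW0m, hW0p⟩ := exists_sop_of_lt (p := ⊥) (p' := Ideal.span {g1})
    (fun h => (maximalIdeal.isMaximal _).ne_top
      (top_le_iff.1 (h ▸ (Ideal.span_singleton_le_iff_mem _).2 hg1)))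
    (bot_lt_iff_ne_bot.2 (by simpa using hH.ne1)) hT le_rfl ⟨1, by simp⟩
  obtain ⟨C1, hC1⟩ := twist_upper.{v, max v u, u} hsd hJ hi hg z hz hp hr0 hr0' _ hxm
  refine ⟨C1, fun n b n' hb hsn hn hn' hE => ?_⟩
  obtain ⟨L, C, hC, hL⟩ := hC1 n (p ^ b) n' μ hsn hn hn'
  have hq : Prim (J ⊔ Ideal.span (Set.range z) ^ n') := hp.sup_pow n'
  refine coreI_lim hp2 b (K := ((p : ℝ) ^ b) ^ (s + 1) * F.natDegree * C *
    cl (Ideal.span {g1} ⊔ pw w0 fun _ => c1 * L + 1)) fun a hab => ?_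
  obtain ⟨e, hae, P, _, _, _, ψ, Y, ζ, ζg, hcm, hmP, hpP, hY, hYm, hζ, hζg, hst⟩ :=
    prism_split hV F hH.monic (hH.coeff_mem hx0) hg1 f
      (fun α => coeff_zero_mem hm hx0 (by
        rw [hf, Algebra.smul_def]; exact Ideal.mul_mem_left _ _ (hrm α))) (r + 1) (by omega)
      (fun α N hN => hH.star MvPowerSeries.X (by omega) (by
        have h1 := hr (N - (r + 1))
        rw [bot_sup_eq] at h1
        exact h1 (Ideal.pow_le_pow_right (by omega) (Ideal.pow_mem_pow (hrm α) N))) (hf α))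
      a (c1 * L + 2 * c0) a
  let := ψ.toAlgebra
  refine coreI_level hT hm hres hH hg1 hc0 rr (fun r hr => by rw [hrr]; exact hr) f hf vv hvv
    MvPowerSeries.X hc1 hXT hxp hR' w0 hW0m hW0p hq (Nat.cast_nonneg _) hE hC hp2 hb hab hae
    (fun Q _ _ => hL P Q) hcm hmP hpP Y hY hYm ζ ζg hζ hζg fun k α => ?_
  obtain ⟨u, hu, hu'⟩ := hst k α
  refine ⟨u, hu, (Ideal.span_singleton_le_iff_mem _).2 ?_ hu'⟩
  rw [← map_natCast (algebraMap (MvPowerSeries (Fin s) V) P), ← map_pow]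
  exact Ideal.mem_map_of_mem _ (Ideal.pow_mem_pow hpT _)

theorem core_ineq {p : ℕ} [Fact p.Prime] {V : Type v} [CommRing V] [IsDomain V]
    [IsDiscreteValuationRing V] [IsAdicComplete (maximalIdeal V) V] (hV : PBase p V) {s : ℕ}
    {R : Type*} [CommRing R] [IsLocalRing R] [IsNoetherianRing R]
    [Algebra (MvPowerSeries (Fin s) V) R] [Module.Finite (MvPowerSeries (Fin s) V) R]
    (hm : (maximalIdeal _).map (algebraMap (MvPowerSeries (Fin s) V) R) ≤ maximalIdeal R)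
    (hres : ∀ r : R, ∃ t : MvPowerSeries (Fin s) V, r - algebraMap _ R t ∈ maximalIdeal R) {x : R}
    {F : Polynomial (MvPowerSeries (Fin s) V)} {g0 g1 : MvPowerSeries (Fin s) V}
    (hH : HypData x F g0 g1)
    (hred : IsRed ⊥ (Ideal.span (Set.range (Fin.cons x
      (fun j => algebraMap (MvPowerSeries (Fin s) V) R (MvPowerSeries.X j)) : Fin (s + 1) → R)))
      (maximalIdeal R))
    {d v : ℕ} (hsd : v + d ≤ s + 1) {ι : Type} [Fintype ι] [DecidableEq ι] {i : ι → ℕ}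
    {g : Matrix ι ι R} {a0 : ι} {J : Ideal R} (hJ : IsRes i g a0 ⊥ J) (hi : ∀ a, i a ≤ v)
    (hg : Ent g (maximalIdeal R)) (z : Fin d → R) (hz : ∀ t, z t ∈ maximalIdeal R)
    (hp : Prim (J ⊔ Ideal.span (Set.range z))) {eR : ℝ}
    (hR : Lim (s + 1) (fun N => cl (maximalIdeal R ^ N)) eR) :
    ∃ C1 : ℝ, ∀ n b n' : ℕ, n + s + 2 = p ^ b → s ≤ n → 1 ≤ n → 1 ≤ n' →
      0 ≤ (n : ℝ) ^ (s + 1) - C1 * (n : ℝ) ^ s →
      (mcs d n' : ℝ) * (eR * ((n : ℝ) ^ (s + 1) - C1 * (n : ℝ) ^ s)) ≤ ((p : ℝ) ^ b) ^ (s + 1) *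
        (cl (J ⊔ Ideal.span (Set.range z) ^ n') + F.natDegree *
          cl (J ⊔ Ideal.span (Set.range z) ^ n' ⊔ Ideal.span {algebraMap _ R g0})) := by
  have : IsDomain (MvPowerSeries (Fin s) V) := NoZeroDivisors.to_isDomain _
  refine coreI_main hV hm hres (hH.mul (prime_p_psV (σ := Fin s) hV.max).ne_zero)
    (Ideal.mul_mem_right _ _ ?_) hred hsd hJ hi hg z hz hp hR
  rw [maximalIdeal_psV' hV.max]; exact Ideal.mem_sup_left (Ideal.subset_span rfl)

end Vale.Agent.P202
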