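import Vale.Agent.P202.Kos
import Vale.Agent.P202.Colon

/-! Existence of reductions. -/

namespace Vale.Agent.P202

open IsLocalRing

variable {P : Type*} [CommRing P] [IsLocalRing P] [IsNoetherianRing P]

/-- exponents of degree `k` -/
abbrev redS (v k : ℕ) : Finset (Fin v →₀ ℕ) := Finset.finsuppAntidiag Finset.univ k

/-- evaluation of a form given by its coefficients -/
noncomputable def redF {v : ℕ} (w : Fin v → P) (k : ℕ) : (redS v k → P) →ₗ[P] P :=
  Fintype.linearCombination P fun s : redS v k => ∏ j, w j ^ s.1 j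

omit [IsLocalRing P] [IsNoetherianRing P] in
theorem redF_apply {v : ℕ} (w : Fin v → P) (k : ℕ) (c : redS v k → P) :
    redF w k c = ∑ s : redS v k, c s * ∏ j, w j ^ s.1 j := by
  rw [redF, Fintype.linearCombination_apply]; rfl

theorem redS_sum {v k : ℕ} (s : redS v k) : ∑ j, s.1 j = k :=
  (Finset.mem_finsuppAntidiag.1 s.2).1

omit [IsLocalRing P] [IsNoetherianRing P] in
theorem red_mon_mem {v k : ℕ} {w : Fin v → P} {b : Ideal P} (hw : ∀ j, w j ∈ b) (s : redS v k) :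
    ∏ j, w j ^ s.1 j ∈ b ^ k := by
  have := Ideal.prod_mem_prod (s := Finset.univ) (I := fun j => b ^ s.1 j)
    (x := fun j => w j ^ s.1 j) fun j _ => Ideal.pow_mem_pow (hw j) _
  rwa [Finset.prod_pow_eq_pow_sum, redS_sum] at this

omit [IsNoetherianRing P] in
theorem red_rl_pi (v k : ℕ) :
    rl (Submodule.pi Set.univ fun _ : redS v k => maximalIdeal P)
      (Submodule.pi Set.univ fun _ : redS v k => (⊤ : Ideal P)) = (v.multichoose k : ℕ) := by
  rw [rl_pi]
  simp [rl_maximal, Finset.card_finsuppAntidiag_nat_eq_multichoose]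

omit [IsLocalRing P] [IsNoetherianRing P] in
theorem redF_surj {v k : ℕ} (w : Fin v → P) {y : P} (hy : y ∈ Ideal.span (Set.range w) ^ k) :
    ∃ c, redF w k c = y := by
  classical
  obtain ⟨p, hp, rfl⟩ := (Ideal.mem_span_pow_iff_exists_isHomogeneous w y).1 hy
  refine ⟨fun s => p.coeff s.1, ?_⟩
  rw [redF_apply, MvPolynomial.eval_eq',
    Finset.sum_coe_sort (redS v k) fun s => p.coeff s * ∏ j, w j ^ s j]
  refine (Finset.sum_subset (fun s hs => ?_) fun s _ hs => ?_).symm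
  · refine Finset.mem_finsuppAntidiag.2 ⟨?_, Finset.subset_univ _⟩
    by_contra h
    exact MvPolynomial.mem_support_iff.1 hs (hp.coeff_eq_zero (by rwa [Finsupp.degree_eq_sum]))
  · rw [MvPolynomial.notMem_support_iff.1 hs, zero_mul]

omit [IsNoetherianRing P] in
theorem red_exists_unit [Infinite (ResidueField P)] {u k : ℕ} (c : redS (u + 1) k → P)
    (hc : ∃ s, c s ∉ maximalIdeal P) :
    ∃ γ : Fin (u + 1) → P, IsUnit (γ 0) ∧ IsUnit (redF γ k c) := by
  classical
  obtain ⟨s0, hs0⟩ := hc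
  let F : MvPolynomial (Fin (u + 1)) (ResidueField P) :=
    ∑ s : redS (u + 1) k, MvPolynomial.monomial s.1 (residue P (c s))
  have hF : F ≠ 0 := by
    intro h
    have : F.coeff s0.1 = residue P (c s0) := by
      simp only [F, MvPolynomial.coeff_sum, MvPolynomial.coeff_monomial, Subtype.val_inj]
      simp
    rw [h, MvPolynomial.coeff_zero, eq_comm, residue_eq_zero_iff] at this
    exact hs0 this
  have hG : MvPolynomial.X 0 * F ≠ 0 := mul_ne_zero (MvPolynomial.X_ne_zero _) hF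
  have : ∃ x, MvPolynomial.eval x (MvPolynomial.X 0 * F) ≠ 0 := by
    by_contra h
    push Not at h
    exact hG (MvPolynomial.funext fun x => by rw [h x, map_zero])
  obtain ⟨x, hx⟩ := this
  choose γ hγ using fun j => residue_surjective (x j)
  rw [map_mul, MvPolynomial.eval_X] at hx
  refine ⟨γ, ?_, ?_⟩
  · rw [← residue_ne_zero_iff_isUnit, hγ]; exact left_ne_zero_of_mul hx
  · rw [← residue_ne_zero_iff_isUnit]
    convert right_ne_zero_of_mul hx using 1
    rw [redF_apply]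
    simp [F, hγ, MvPolynomial.eval_monomial, Finsupp.prod_fintype]

/-- congruence of elements of `W ^ n` -/
def RedRel (W V : Ideal P) (n : ℕ) (x y : P) : Prop :=
  x ∈ W ^ n ∧ y ∈ W ^ n ∧ ∀ z ∈ W, z * (x - y) ∈ V * W ^ n

omit [IsLocalRing P] [IsNoetherianRing P] in
theorem RedRel.mul {W V : Ideal P} {n n' : ℕ} {x y x' y' : P} (h : RedRel W V n x y)
    (h' : RedRel W V n' x' y') : RedRel W V (n + n') (x * x') (y * y') := by
  refine ⟨by rw [pow_add]; exact Ideal.mul_mem_mul h.1 h'.1,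
    by rw [pow_add]; exact Ideal.mul_mem_mul h.2.1 h'.2.1, fun z hz => ?_⟩
  have e : z * (x * x' - y * y') = z * (x - y) * x' + z * (x' - y') * y := by ring
  rw [e]
  refine Ideal.add_mem _ ?_ ?_
  · rw [pow_add, ← mul_assoc]; exact Ideal.mul_mem_mul (h.2.2 z hz) h'.1
  · rw [add_comm, pow_add, ← mul_assoc]; exact Ideal.mul_mem_mul (h'.2.2 z hz) h.2.1

omit [IsLocalRing P] [IsNoetherianRing P] in
theorem RedRel.one (W V : Ideal P) : RedRel W V 0 1 1 := ⟨by simp, by simp, by simp⟩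

omit [IsLocalRing P] [IsNoetherianRing P] in
theorem RedRel.pow {W V : Ideal P} {x y : P} (h : RedRel W V 1 x y) (n : ℕ) :
    RedRel W V n (x ^ n) (y ^ n) := by
  induction n with
  | zero => simpa using RedRel.one W V
  | succ n ih => rw [pow_succ, pow_succ]; exact ih.mul h

omit [IsLocalRing P] [IsNoetherianRing P] in
theorem RedRel.prod {W V : Ideal P} {ι : Type*} (s : Finset ι) {n : ι → ℕ} {x y : ι → P}
    (h : ∀ j, RedRel W V (n j) (x j) (y j)) :
    RedRel W V (∑ j ∈ s, n j) (∏ j ∈ s, x j) (∏ j ∈ s, y j) := by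
  classical
  induction s using Finset.induction_on with
  | empty => simpa using RedRel.one W V
  | insert a s ha ih =>
    rw [Finset.sum_insert ha, Finset.prod_insert ha, Finset.prod_insert ha]
    exact (h a).mul ih

omit [IsLocalRing P] [IsNoetherianRing P] in
theorem red_pow_le {q W b : Ideal P} {r : ℕ} (h : b ^ (r + 1) ≤ q ⊔ W * b ^ r) (n : ℕ) :
    b ^ (r + n) ≤ q ⊔ W ^ n * b ^ r := by
  induction n with
  | zero => simp
  | succ n ih =>
    rw [← add_assoc, pow_succ]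
    refine (Ideal.mul_mono_left ih).trans ?_
    rw [Ideal.sup_mul, mul_assoc, ← pow_succ]
    refine sup_le (Ideal.mul_le_left.trans le_sup_left) ((Ideal.mul_mono_right h).trans ?_)
    rw [Ideal.mul_sup, ← mul_assoc, ← pow_succ]
    exact sup_le_sup_right Ideal.mul_le_right _

omit [IsLocalRing P] [IsNoetherianRing P] in
theorem red_sup_pow (A B : Ideal P) (k : ℕ) :
    (A ⊔ B) ^ (k + 1) ≤ A * (A ⊔ B) ^ k ⊔ B ^ (k + 1) := by
  induction k with
  | zero => simp
  | succ k ih =>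
    rw [pow_succ]
    refine (Ideal.mul_mono_left ih).trans ?_
    rw [Ideal.sup_mul, mul_assoc, ← pow_succ, Ideal.mul_sup, ← pow_succ, mul_comm (B ^ (k + 1))]
    exact sup_le le_sup_left (sup_le (le_sup_of_le_left
      (Ideal.mul_mono_right (Ideal.pow_right_mono le_sup_right _))) le_sup_right)

theorem red_step [Infinite (ResidueField P)] {q b W : Ideal P} {u : ℕ} (hW : Gen W (u + 1))
    (h : IsRed q W b) {d : ℕ} (hd : d ≤ u) (C : ℝ)
    (hg : ∀ N : ℕ, ∑ k ∈ Finset.range N,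
      ((rl (q ⊔ maximalIdeal P * b ^ k) (q ⊔ b ^ k)).toNat : ℝ) ≤ C * ((N : ℝ) + 1) ^ d) :
    ∃ (V : Ideal P) (t : P), Gen V u ∧ V ⊔ Ideal.span {t} = W ∧ IsRed q V b := by
  classical
  obtain ⟨w, rfl⟩ := hW
  have hwb : ∀ j, w j ∈ b := fun j => h.1 (Ideal.subset_span ⟨j, rfl⟩)
  have hex : ∃ (k : ℕ) (c : redS (u + 1) k → P), (∃ s, c s ∉ maximalIdeal P) ∧
      redF w k c ∈ q ⊔ maximalIdeal P * b ^ k := by
    by_contra hne
    push Not at hne
    have h1 : ∀ k, (((u + 1).multichoose k : ℕ) : ℝ) ≤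
        ((rl (q ⊔ maximalIdeal P * b ^ k) (q ⊔ b ^ k)).toNat : ℝ) := by
      intro k
      have h2 : rl (q ⊔ maximalIdeal P * b ^ k) (q ⊔ b ^ k) ≠ ⊤ :=
        rl_ne_top (n := 1) (IsNoetherian.noetherian _) (by
          rw [pow_one, smul_eq_mul, Ideal.mul_sup]
          exact sup_le_sup_right Ideal.mul_le_right _)
      have h3 : (((u + 1).multichoose k : ℕ) : ℕ∞) ≤
          rl (q ⊔ maximalIdeal P * b ^ k) (q ⊔ b ^ k) := by
        rw [← red_rl_pi (P := P)]
        refine rl_le_of_inj (redF w k) (fun x _ => ?_) fun x _ hx s _ => ?_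
        · rw [redF_apply]
          exact Submodule.mem_sup_left (Submodule.mem_sup_right
            (Ideal.sum_mem _ fun s _ => Ideal.mul_mem_left _ _ (red_mon_mem hwb s)))
        · by_contra hs
          exact hne k x ⟨s, hs⟩ hx
      have := ENat.toNat_le_toNat h3 h2
      exact_mod_cast this
    have hC : 0 ≤ C := by simpa using hg 0
    have l1 := (lim_multichoose (d := u)).sum_range
    have l2 : Lim (u + 1) (fun N => ∑ k ∈ Finset.range N, (((u + 1).multichoose k : ℕ) : ℝ)) 0 := by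
      refine lim_zero_of_bound C (Filter.Eventually.of_forall fun N => ?_)
      rw [abs_of_nonneg (Finset.sum_nonneg fun k _ => Nat.cast_nonneg _), pow_succ, ← mul_assoc]
      refine mul_le_mul_of_nonneg_right ?_ (by positivity)
      refine ((Finset.sum_le_sum fun k _ => h1 k).trans (hg N)).trans ?_
      exact mul_le_mul_of_nonneg_left (pow_le_pow_right₀ (by linarith [Nat.cast_nonneg (α := ℝ) N])
        hd) hC
    exact one_ne_zero (l1.unique l2)
  obtain ⟨k, c, hc, hF⟩ := hex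
  obtain ⟨γ, hγ, hu⟩ := red_exists_unit c hc
  obtain ⟨g, hg0⟩ := hγ.exists_left_inv
  set W := Ideal.span (Set.range w) with hWdef
  let t := g * w 0
  let V := Ideal.span (Set.range fun j : Fin u => w j.succ - γ j.succ * t)
  have htW : t ∈ W := Ideal.mul_mem_left _ _ (Ideal.subset_span ⟨0, rfl⟩)
  have hV : ∀ j, w j - γ j * t ∈ V := by
    intro j
    refine Fin.cases ?_ (fun j => Ideal.subset_span ⟨j, rfl⟩) j
    have : w 0 - γ 0 * t = 0 := by
      simp only [t]; rw [← mul_assoc, mul_comm (γ 0), hg0, one_mul, sub_self]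
    rw [this]; exact V.zero_mem
  have hVW : V ≤ W := by
    refine Ideal.span_le.2 ?_
    rintro _ ⟨j, rfl⟩
    exact W.sub_mem (Ideal.subset_span ⟨_, rfl⟩) (W.mul_mem_left _ htW)
  have hsup : V ⊔ Ideal.span {t} = W := by
    refine le_antisymm (sup_le hVW ((Ideal.span_singleton_le_iff_mem _).2 htW))
      (Ideal.span_le.2 ?_)
    rintro _ ⟨j, rfl⟩
    have : w j = (w j - γ j * t) + γ j * t := by ring
    rw [this]
    exact Submodule.add_mem_sup (hV j) (Ideal.mul_mem_left _ _ (Ideal.mem_span_singleton_self t))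
  refine ⟨V, t, ⟨_, rfl⟩, hsup, hVW.trans h.1, ?_⟩
  obtain ⟨hWb, r, hr⟩ := h
  have hrel : ∀ j, RedRel W V 1 (w j) (γ j * t) := fun j =>
    ⟨by rw [pow_one]; exact Ideal.subset_span ⟨j, rfl⟩,
      by rw [pow_one]; exact W.mul_mem_left _ htW,
      fun z hz => by rw [pow_one, mul_comm z]; exact Ideal.mul_mem_mul (hV j) hz⟩
  have h4 : t * (redF w k c - redF γ k c * t ^ k) ∈ V * W ^ k := by
    rw [redF_apply, redF_apply, Finset.sum_mul, ← Finset.sum_sub_distrib, Finset.mul_sum]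
    refine Ideal.sum_mem _ fun s _ => ?_
    have h5 := (RedRel.prod Finset.univ fun j => (hrel j).pow (s.1 j)).2.2 t htW
    rw [redS_sum] at h5
    convert Ideal.mul_mem_left _ (c s) h5 using 1
    simp only [mul_pow, Finset.prod_mul_distrib, Finset.prod_pow_eq_pow_sum, redS_sum]
    ring
  have h6 : t ^ (k + 1) ∈ q ⊔ V * b ^ k ⊔ maximalIdeal P * b ^ (k + 1) := by
    obtain ⟨e, he⟩ := hu.exists_left_inv
    have : t ^ (k + 1) = e * (t * redF w k c - t * (redF w k c - redF γ k c * t ^ k)) := by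
      rw [show e * (t * redF w k c - t * (redF w k c - redF γ k c * t ^ k)) =
        e * redF γ k c * t ^ (k + 1) by ring, he, one_mul]
    rw [this]
    refine Ideal.mul_mem_left _ _ (Ideal.sub_mem _ ?_ (Ideal.mem_sup_left (Ideal.mem_sup_right
      (Ideal.mul_mono_right (Ideal.pow_right_mono hWb k) h4))))
    obtain ⟨x, hx, y, hy, hxy⟩ := Submodule.mem_sup.1 hF
    rw [← hxy, mul_add]
    refine Submodule.add_mem_sup (Ideal.mem_sup_left (q.mul_mem_left _ hx)) ?_
    rw [pow_succ, ← mul_assoc, mul_comm t]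
    exact Ideal.mul_mem_mul hy (hWb htW)
  refine ⟨r + k, Submodule.le_of_le_smul_of_le_jacobson_bot (I := maximalIdeal P)
    (IsNoetherian.noetherian _) (IsLocalRing.maximalIdeal_le_jacobson _) ?_⟩
  rw [smul_eq_mul, add_assoc]
  refine (red_pow_le hr (k + 1)).trans (sup_le (le_sup_of_le_left le_sup_left) ?_)
  have h7 := red_sup_pow V (Ideal.span {t}) k
  rw [hsup, Ideal.span_singleton_pow] at h7
  have h8 : W ^ (k + 1) ≤ q ⊔ V * b ^ k ⊔ maximalIdeal P * b ^ (k + 1) :=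
    h7.trans (sup_le (le_sup_of_le_left (le_sup_of_le_right
      (Ideal.mul_mono_right (Ideal.pow_right_mono hWb k))))
      ((Ideal.span_singleton_le_iff_mem _).2 h6))
  refine (Ideal.mul_mono_left h8).trans ?_
  rw [Ideal.sup_mul, Ideal.sup_mul, mul_assoc, mul_assoc, ← pow_add, ← pow_add, add_comm k r,
    add_comm (k + 1) r]
  exact sup_le_sup_right (sup_le_sup_right Ideal.mul_le_left _) _

theorem red_bound {d : ℕ} {a : ℕ → ℝ} {e : ℝ} (h : Lim d a e) :
    ∃ K : ℝ, 0 ≤ K ∧ ∀ N : ℕ, a N ≤ K * ((N : ℝ) + 1) ^ d := by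
  obtain ⟨K, hK⟩ := Filter.Tendsto.bddAbove_range h
  refine ⟨|K| + |a 0|, by positivity, fun N => ?_⟩
  have h1 : (1 : ℝ) ≤ ((N : ℝ) + 1) ^ d := one_le_pow₀ (by linarith [Nat.cast_nonneg (α := ℝ) N])
  rcases Nat.eq_zero_or_pos N with rfl | hN
  · nlinarith [le_abs_self (a 0), abs_nonneg K, abs_nonneg (a 0)]
  by_cases ha : a N ≤ 0
  · exact ha.trans (by positivity)
  have h2 := hK ⟨N, rfl⟩
  have h3 : (0 : ℝ) < (N : ℝ) ^ d := by positivity
  rw [div_le_iff₀ h3] at h2
  have h4 : (1 : ℝ) ≤ d.factorial := by exact_mod_cast d.factorial_pos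
  have h5 : (N : ℝ) ^ d ≤ ((N : ℝ) + 1) ^ d := pow_le_pow_left₀ (by positivity) (by linarith) d
  have h6 : K * (N : ℝ) ^ d ≤ |K| * ((N : ℝ) + 1) ^ d :=
    mul_le_mul (le_abs_self K) h5 h3.le (abs_nonneg K)
  nlinarith [abs_nonneg (a 0)]

theorem red_tele {q b : Ideal P} (h : Prim (q ⊔ b)) (N : ℕ) :
    ∑ k ∈ Finset.range N, ((rl (q ⊔ b ^ (k + 1)) (q ⊔ b ^ k)).toNat : ℝ) = cl (q ⊔ b ^ N) := by
  induction N with
  | zero => simp [cl, rl_self]
  | succ N ih =>
    have h1 := rl_ne_top_of_prim (h.sup_pow (N + 1))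
    have h2 := rl_add (sup_le_sup_left (Ideal.pow_le_pow_right (I := b) (Nat.le_succ N)) q)
      (le_top : q ⊔ b ^ N ≤ ⊤)
    rw [Finset.sum_range_succ, ih, cl, cl, h2]
    rw [h2] at h1
    have h3 := WithTop.add_ne_top.1 h1
    rw [ENat.toNat_add h3.1 h3.2]
    push_cast
    ring

theorem red_rl_fin {q b : Ideal P} (h : Prim (q ⊔ b)) (k : ℕ) :
    rl (q ⊔ b ^ (k + 1)) (q ⊔ b ^ k) ≠ ⊤ :=
  ne_top_of_le_ne_top (rl_ne_top_of_prim (h.sup_pow (k + 1))) (rl_mono le_rfl le_top)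

omit [IsNoetherianRing P] in
theorem red_rl_map {D : Type*} [CommRing D] [IsLocalRing D] (ψ : D →+* P) {A A' : Ideal D}
    (hA : A ≤ A') (hf : rl A A' ≠ ⊤) :
    rl (A.map ψ ⊔ maximalIdeal P * A'.map ψ) (A'.map ψ) ≤ rl A A' := by
  refine rl_induction (B := A')
    (fun A => rl (Ideal.map ψ A ⊔ maximalIdeal P * A'.map ψ) (A'.map ψ) ≤ rl A A')
    (by rw [rl_of_le le_sup_left]; exact bot_le) ?_ hA hf
  intro A v hv hvA hAA' hk ih
  have hle : A ⊔ Submodule.span D {v} ≤ A' :=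
    sup_le hAA' ((Submodule.span_singleton_le_iff_mem _ _).2 hv)
  rw [rl_add le_sup_left hle, rl_simple_step hvA hk]
  refine (rl_le_add _ _ _).trans (add_le_add ?_ ih)
  have e : Ideal.map ψ (A ⊔ Submodule.span D {v}) ⊔ maximalIdeal P * A'.map ψ =
      (Ideal.map ψ A ⊔ maximalIdeal P * A'.map ψ) ⊔ Submodule.span P {ψ v} := by
    rw [Ideal.map_sup, Ideal.submodule_span_eq, Ideal.map_span, Set.image_singleton, sup_right_comm]
  rw [e, rl_sup_right]
  exact rl_span_le_one fun a ha =>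
    Ideal.mem_sup_right (Ideal.mul_mem_mul ha (Ideal.mem_map_of_mem ψ hv))

theorem red_exists [Infinite (ResidueField P)] {q b : Ideal P} {v d : ℕ} (hb : Gen b v)
    (hbm : b ≤ maximalIdeal P) (C : ℝ)
    (hg : ∀ N : ℕ, ∑ k ∈ Finset.range N,
      ((rl (q ⊔ maximalIdeal P * b ^ k) (q ⊔ b ^ k)).toNat : ℝ) ≤ C * ((N : ℝ) + 1) ^ d) :
    ∃ W W' : Ideal P, Gen W d ∧ Gen W' (v - d) ∧ W ⊔ W' = b ∧ IsRed q W b := by
  by_cases hv : v ≤ d
  · refine ⟨b, ⊥, hb.mono hv, ?_, sup_bot_eq _, le_rfl, 0, by simp⟩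
    rw [Nat.sub_eq_zero_of_le hv]
    exact ⟨Fin.elim0, by simp⟩
  have key : ∀ j u, u + j = v → d ≤ u →
      ∃ W W' : Ideal P, Gen W u ∧ Gen W' j ∧ W ⊔ W' = b ∧ IsRed q W b := by
    intro j
    induction j with
    | zero =>
      intro u hu _
      rw [add_zero] at hu
      exact ⟨b, ⊥, hu ▸ hb, ⟨Fin.elim0, by simp⟩, sup_bot_eq _, le_rfl, 0, by simp⟩
    | succ j ih =>
      intro u hu hd
      obtain ⟨W, W', g1, g2, g3, g4⟩ := ih (u + 1) (by omega) (by omega)
      obtain ⟨V, t, a1, a2, a3⟩ := red_step g1 g4 hd C hg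
      refine ⟨V, W' ⊔ Ideal.span {t}, a1, g2.sup ⟨fun _ : Fin 1 => t, by simp⟩, ?_, a3⟩
      rw [sup_comm W', ← sup_assoc, a2, g3]
  exact key (v - d) d (by omega) le_rfl

theorem exists_cl_bound {q W : Ideal P} {d : ℕ} (hW : Gen W d) (hWm : W ≤ maximalIdeal P)
    (h : Prim (q ⊔ W)) {b : Ideal P} (hb : Prim (q ⊔ b)) :
    ∃ C : ℝ, ∀ N : ℕ, cl (q ⊔ b ^ N) ≤ C * ((N : ℝ) + 1) ^ d := by
  obtain ⟨e, he⟩ := exists_lim hW h
  obtain ⟨K, hK, hb'⟩ := red_bound he
  obtain ⟨c, hc⟩ := hb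
  refine ⟨K * ((c : ℝ) + 1) ^ d, fun N => ?_⟩
  have h1 : q ⊔ W ^ (c * N) ≤ q ⊔ b ^ N := by
    refine sup_le le_sup_left ?_
    rw [pow_mul]
    refine (Ideal.pow_right_mono ((Ideal.pow_right_mono hWm c).trans hc) N).trans ?_
    obtain _ | N := N
    · simp
    · refine (red_sup_pow q b N).trans (sup_le_sup_right Ideal.mul_le_left _)
  refine (cl_mono (h.sup_pow _) h1).trans ((hb' _).trans ?_)
  rw [mul_assoc, ← mul_pow]
  refine mul_le_mul_of_nonneg_left (pow_le_pow_left₀ (by positivity) ?_ d) hK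
  push_cast
  nlinarith [Nat.cast_nonneg (α := ℝ) c, Nat.cast_nonneg (α := ℝ) N]

theorem red_of_prim [Infinite (ResidueField P)] {q b W0 : Ideal P} {v d : ℕ} (hb : Gen b v)
    (hbm : b ≤ maximalIdeal P) (hbp : Prim (q ⊔ b)) (hW : Gen W0 d) (hWm : W0 ≤ maximalIdeal P)
    (h : Prim (q ⊔ W0)) :
    ∃ W W' : Ideal P, Gen W d ∧ Gen W' (v - d) ∧ W ⊔ W' = b ∧ IsRed q W b := by
  obtain ⟨C, hC⟩ := exists_cl_bound hW hWm h hbp
  refine red_exists hb hbm C fun N => le_trans ?_ (hC N)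
  rw [← red_tele hbp]
  refine Finset.sum_le_sum fun k _ => ?_
  have h1 : q ⊔ b ^ (k + 1) ≤ q ⊔ maximalIdeal P * b ^ k := by
    rw [pow_succ']; exact sup_le_sup_left (Ideal.mul_mono_left hbm) _
  exact_mod_cast ENat.toNat_le_toNat (rl_mono h1 le_rfl) (red_rl_fin hbp k)

/-- a reduction of the extension of the maximal ideal -/
theorem red_of_map [Infinite (ResidueField P)] {D : Type*} [CommRing D] [IsLocalRing D]
    [IsNoetherianRing D] (ψ : D →+* P) (hψ : (maximalIdeal D).map ψ ≤ maximalIdeal P)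
    {Q W0 : Ideal D} {d : ℕ} (hW : Gen W0 d) (hWm : W0 ≤ maximalIdeal D) (h : Prim (Q ⊔ W0)) :
    ∃ W : Ideal P, Gen W d ∧ IsRed (Q.map ψ) W ((maximalIdeal D).map ψ) := by
  have hp : Prim (Q ⊔ maximalIdeal D) := ⟨1, by simp⟩
  obtain ⟨C, hC⟩ := exists_cl_bound hW hWm h hp
  obtain ⟨v, w, hw⟩ := Submodule.fg_iff_exists_fin_generating_family.1
    (IsNoetherian.noetherian ((maximalIdeal D).map ψ))
  obtain ⟨W, _, g1, _, _, g4⟩ := red_exists (q := Q.map ψ) (d := d) ⟨w, hw.symm⟩ hψ C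
    fun N => le_trans (by
      rw [← red_tele hp]
      refine Finset.sum_le_sum fun k _ => ?_
      have h1 := red_rl_map ψ (sup_le_sup_left
        (Ideal.pow_le_pow_right (I := maximalIdeal D) (Nat.le_succ k)) Q) (red_rl_fin hp k)
      have h2 : rl (Q.map ψ ⊔ maximalIdeal P * (maximalIdeal D).map ψ ^ k)
          (Q.map ψ ⊔ (maximalIdeal D).map ψ ^ k) ≤
          rl (Q ⊔ maximalIdeal D ^ (k + 1)) (Q ⊔ maximalIdeal D ^ k) := by
        refine le_trans (rl_mono ?_ ?_) h1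
        · rw [Ideal.map_sup, Ideal.map_sup, Ideal.map_pow, Ideal.map_pow, Ideal.mul_sup]
          refine sup_le (sup_le le_sup_left (le_sup_of_le_right ?_))
            (sup_le (le_sup_of_le_left Ideal.mul_le_right) le_sup_right)
          rw [Nat.succ_eq_add_one, pow_succ']
          exact Ideal.mul_mono_left hψ
        · rw [Ideal.map_sup, Ideal.map_pow]
      exact_mod_cast ENat.toNat_le_toNat h2 (red_rl_fin hp k)) (hC N)
  exact ⟨W, g1, g4⟩

omit [IsLocalRing P] [IsNoetherianRing P] in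
theorem IsRed.mono {q q' W b : Ideal P} (h : IsRed q W b) (hq : q ≤ q') : IsRed q' W b := by
  obtain ⟨h1, r, hr⟩ := h
  exact ⟨h1, r, hr.trans (sup_le_sup_right hq _)⟩

omit [IsLocalRing P] [IsNoetherianRing P] in
theorem IsRed.sup {q W b : Ideal P} (h : IsRed q W b) (Y : Ideal P) :
    IsRed q (Y ⊔ W) (Y ⊔ b) := by
  obtain ⟨h1, r, hr⟩ := h
  refine ⟨sup_le_sup_left h1 _, r, (red_sup_pow Y b r).trans (sup_le
    (le_sup_of_le_right (Ideal.mul_mono_left le_sup_left)) (hr.trans (sup_le_sup_left ?_ _)))⟩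
  exact Ideal.mul_mono le_sup_right (Ideal.pow_right_mono le_sup_right r)

omit [IsLocalRing P] [IsNoetherianRing P] in
theorem IsRed.map {P' : Type*} [CommRing P'] (f : P →+* P') {q W b : Ideal P} (h : IsRed q W b) :
    IsRed (q.map f) (W.map f) (b.map f) := by
  obtain ⟨h1, r, hr⟩ := h
  refine ⟨Ideal.map_mono h1, r, ?_⟩
  rw [← Ideal.map_pow, ← Ideal.map_pow, ← Ideal.map_mul, ← Ideal.map_sup]
  exact Ideal.map_mono hr

omit [IsLocalRing P] in
theorem exists_gen (b : Ideal P) : ∃ v, Gen b v := by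
  obtain ⟨v, w, hw⟩ := Submodule.fg_iff_exists_fin_generating_family.1 (IsNoetherian.noetherian b)
  exact ⟨v, w, hw.symm⟩

theorem exists_lim_max [Infinite (ResidueField P)] {q W0 : Ideal P} {d : ℕ} (hW : Gen W0 d)
    (hWm : W0 ≤ maximalIdeal P) (h : Prim (q ⊔ W0)) :
    ∃ e, Lim d (fun N => cl (q ⊔ maximalIdeal P ^ N)) e := by
  obtain ⟨v, hv⟩ := exists_gen (maximalIdeal P)
  have hp : Prim (q ⊔ maximalIdeal P) := ⟨1, by simp⟩
  obtain ⟨W, _, g1, _, _, g4⟩ := red_of_prim hv le_rfl hp hW hWm h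
  obtain ⟨e, he⟩ := exists_lim g1 (g4.prim hp)
  exact ⟨e, (lim_red_iff g4 hp).1 he⟩

/-- embedding dimension at most `d` forces multiplicity at most one -/
theorem lim_le_one {d : ℕ} (hm : Gen (maximalIdeal P) d) :
    ∃ e, Lim d (fun N => cl (maximalIdeal P ^ N)) e ∧ e ≤ 1 := by
  have hp : Prim (⊥ ⊔ maximalIdeal P) := ⟨1, by simp⟩
  obtain ⟨e, he⟩ := exists_lim hm hp
  simp only [bot_sup_eq] at he
  refine ⟨e, he, he.le (lim_choose d) (Filter.Eventually.of_forall fun N => ?_)⟩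
  have h1 := red_tele hp N
  simp only [bot_sup_eq] at h1
  rw [← h1, ← Nat.sum_range_multichoose, Finset.sum_range_succ, Nat.cast_add, Nat.cast_sum]
  refine le_trans (Finset.sum_le_sum fun k _ => ?_) (le_add_of_nonneg_right (Nat.cast_nonneg _))
  obtain ⟨w, hw⟩ := hm
  have hwm : ∀ j, w j ∈ maximalIdeal P := fun j => hw ▸ Ideal.subset_span ⟨j, rfl⟩
  have h2 : rl (maximalIdeal P ^ (k + 1)) (maximalIdeal P ^ k) ≤ (d.multichoose k : ℕ) := by
    rw [← red_rl_pi (P := P)]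
    refine rl_le_of_surj (redF w k) (fun x _ hx => ?_) fun y hy => ?_
    · rw [redF_apply, pow_succ']
      exact Ideal.sum_mem _ fun s _ => Ideal.mul_mem_mul (hx s trivial) (red_mon_mem hwm s)
    · obtain ⟨c, hc⟩ := redF_surj w (hw ▸ hy)
      exact ⟨c, fun _ _ => trivial, by rw [hc, sub_self]; exact Submodule.zero_mem _⟩
  exact_mod_cast ENat.toNat_le_toNat h2 (ENat.coe_ne_top _)

omit [IsLocalRing P] [IsNoetherianRing P] in
theorem Lim.nonneg_cl {d : ℕ} {I : ℕ → Ideal P} {e : ℝ} (h : Lim d (fun N => cl (I N)) e) :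
    0 ≤ e := by
  exact lim_zero.le h (Filter.Eventually.of_forall fun N => Nat.cast_nonneg _)

section Unram
variable {S : Type*} [CommRing S] [IsLocalRing S] [IsNoetherianRing S]

omit [IsNoetherianRing P] in
/-- colengths are preserved by unramified flat maps -/
theorem cl_map_unram {ι : S →+* P} (h : CP ι ⊥ ⊥) (hm : (maximalIdeal S).map ι = maximalIdeal P)
    {a : Ideal S} (ha : Prim a) : cl (a.map ι) = cl a := by
  have := h.rl_map bot_le (rl_ne_top_of_prim ha)
  rw [sup_bot_eq, sup_bot_eq, hm, rl_maximal, mul_one] at this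
  rw [cl, cl, this]

omit [IsNoetherianRing P] [IsNoetherianRing S] in
theorem Prim.map {ι : S →+* P} {c : Ideal P} (hm : Prim (c ⊔ (maximalIdeal S).map ι))
    {a : Ideal S} (ha : Prim a) : Prim (c ⊔ a.map ι) := by
  obtain ⟨n, hn⟩ := ha
  refine (hm.sup_pow n).mono (sup_le_sup_left ?_ _)
  rw [← Ideal.map_pow]
  exact Ideal.map_mono hn

omit [IsLocalRing P] [IsNoetherianRing P] [IsLocalRing S] [IsNoetherianRing S] in
theorem cl_map_surj {π : P →+* S} (hπ : Function.Surjective π) (a : Ideal P) :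
    cl (a.map π) = cl (RingHom.ker π ⊔ a) := by
  rw [cl, cl, ← rl_comap_of_surjective π hπ, Ideal.comap_map_of_surjective π hπ, sup_comm]
  rfl

omit [IsNoetherianRing P] [IsNoetherianRing S] in
theorem map_max_surj {π : P →+* S} (hπ : Function.Surjective π) :
    (maximalIdeal P).map π = maximalIdeal S := by
  exact IsLocalRing.map_maximalIdeal_of_surjective π hπ

omit [IsNoetherianRing P] [IsNoetherianRing S] in
theorem prim_map_surj_iff {π : P →+* S} (hπ : Function.Surjective π) (a : Ideal P) :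
    Prim (a.map π) ↔ Prim (RingHom.ker π ⊔ a) := by
  refine exists_congr fun n => ?_
  rw [← map_max_surj hπ, ← Ideal.map_pow, Ideal.map_le_iff_le_comap,
    Ideal.comap_map_of_surjective π hπ, sup_comm]
  rfl

omit [IsLocalRing P] [IsNoetherianRing P] [IsLocalRing S] [IsNoetherianRing S] in
theorem Gen.exists_lift {π : P →+* S} (hπ : Function.Surjective π) {W : Ideal S} {d : ℕ}
    (hW : Gen W d) : ∃ W' : Ideal P, Gen W' d ∧ W'.map π = W := by
  obtain ⟨w, rfl⟩ := hW
  choose w' hw' using fun j => hπ (w j)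
  refine ⟨_, ⟨w', rfl⟩, ?_⟩
  rw [Ideal.map_span, ← Set.range_comp]
  congr 2
  exact funext hw'

end Unram

end Vale.Agent.P202
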