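import Vale.Agent.P202.Mat
import Vale.Agent.P202.Colon

/-! A finite free resolution which stays exact under base change. -/

namespace Vale.Agent.P202

open IsLocalRing Matrix

section Aux
variable {P : Type*} [CommRing P]

/-- vectors with all entries in an ideal -/
def resPw (ι : Type*) (b : Ideal P) : Submodule P (ι → P) := Submodule.pi Set.univ fun _ => b

theorem mem_resPw {ι : Type*} {b : Ideal P} {v : ι → P} : v ∈ resPw ι b ↔ ∀ a, v a ∈ b := by
  simp [resPw, Submodule.mem_pi]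

theorem resPw_mono {ι : Type*} {b b' : Ideal P} (h : b ≤ b') : resPw ι b ≤ resPw ι b' :=
  fun _ hv => mem_resPw.2 fun a => h (mem_resPw.1 hv a)

theorem resPw_sup_span {ι : Type*} {b : Ideal P} {y : P} {v : ι → P}
    (hv : v ∈ resPw ι (b ⊔ Ideal.span {y})) : ∃ x ∈ resPw ι b, ∃ u : ι → P, v = x + y • u := by
  have : ∀ a, ∃ x ∈ b, ∃ u, v a = x + y * u := by
    intro a
    obtain ⟨x, hx, z, hz, h⟩ := Submodule.mem_sup.1 (mem_resPw.1 hv a)
    obtain ⟨u, rfl⟩ := Ideal.mem_span_singleton'.1 hz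
    exact ⟨x, hx, u, by rw [← h, mul_comm]⟩
  choose x hx u hu using this
  exact ⟨x, mem_resPw.2 hx, u, funext hu⟩

theorem resPw_smul {ι : Type*} {b : Ideal P} {y : P} (hy : y ∈ b) (u : ι → P) :
    y • u ∈ resPw ι b := mem_resPw.2 fun _ => b.mul_mem_right _ hy

theorem resPw_sup_eq {ι : Type*} (b : Ideal P) (y : P) :
    resPw ι (b ⊔ Ideal.span {y}) = resPw ι b ⊔ resPw ι (Ideal.span {y}) := by
  refine le_antisymm (fun v hv => ?_) (sup_le (resPw_mono le_sup_left) (resPw_mono le_sup_right))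
  obtain ⟨x, hx, u, rfl⟩ := resPw_sup_span hv
  exact Submodule.add_mem_sup hx (resPw_smul (Ideal.mem_span_singleton_self y) u)

theorem resPw_mulVec {ι κ : Type*} [Fintype κ] (ε : Matrix ι κ P) {b : Ideal P} {w : κ → P}
    (hw : w ∈ resPw κ b) : ε *ᵥ w ∈ resPw ι b :=
  mem_resPw.2 fun _ => b.sum_mem fun j _ => b.mul_mem_left _ (mem_resPw.1 hw j)

/-- regular sequences on a quotient of a free module -/
def RegM {ι : Type*} : Submodule P (ι → P) → List P → Prop
  | _, [] => True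
  | M, y :: l => (∀ v, y • v ∈ M → v ∈ M) ∧ RegM (M ⊔ resPw ι (Ideal.span {y})) l

theorem res_reg_step {ι κ : Type*} (π : (κ → P) →ₗ[P] (ι → P))
    (hπ : ∀ (b : Ideal P), ∀ w ∈ resPw κ b, π w ∈ resPw ι b) (Y : List P) :
    ∀ (k : ℕ) (c : Ideal P), RegSeq c Y → RegM (LinearMap.range π ⊔ resPw ι c) (Y.take k) →
      RegM ((resPw ι c).comap π) (Y.take (k + 1)) := by
  induction Y with
  | nil => intro k c _ _; trivial
  | cons y Y ih =>
    intro k c hc hM
    refine ⟨fun v hv => ?_, ?_⟩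
    · rw [Submodule.mem_comap, map_smul] at hv
      exact mem_resPw.2 fun a => hc.1 _ (mem_resPw.1 hv a)
    · obtain _ | k := k
      · trivial
      · have e : (resPw ι c).comap π ⊔ resPw κ (Ideal.span {y}) =
            (resPw ι (c ⊔ Ideal.span {y})).comap π := by
          refine le_antisymm (sup_le (Submodule.comap_mono (resPw_mono le_sup_left))
            fun w hw => resPw_mono le_sup_right (hπ _ w hw)) fun w hw => ?_
          obtain ⟨x, hx, v, hv⟩ := resPw_sup_span hw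
          have h1 : y • v ∈ LinearMap.range π ⊔ resPw ι c := by
            have : y • v = π w - x := by rw [hv]; abel
            rw [this]
            exact Submodule.sub_mem _ (Submodule.mem_sup_left ⟨w, rfl⟩) (Submodule.mem_sup_right hx)
          obtain ⟨_, ⟨w', rfl⟩, x', hx', hv'⟩ := Submodule.mem_sup.1 (hM.1 v h1)
          have : w = (w - y • w') + y • w' := by abel
          rw [this]
          refine Submodule.add_mem_sup ?_ (resPw_smul (Ideal.mem_span_singleton_self y) _)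
          rw [Submodule.mem_comap, map_sub, map_smul, hv, ← hv', smul_add]
          have : x + (y • π w' + y • x') - y • π w' = x + y • x' := by abel
          rw [this]
          exact Submodule.add_mem _ hx (Submodule.smul_mem _ _ hx')
        rw [e]
        refine ih k _ hc.2 ?_
        rw [resPw_sup_eq, ← sup_assoc]
        exact hM.2

theorem res_reg_all [IsLocalRing P] [IsNoetherianRing P] {ι : Type*} [Finite ι] (Y : List P) :
    ∀ (c : Ideal P) (M : Submodule P (ι → P)), maximalIdeal P = c ⊔ Ideal.ofList Y →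
      resPw ι c ≤ M → M ≤ resPw ι (maximalIdeal P) → RegM M Y → M ≤ resPw ι c := by
  induction Y with
  | nil =>
    intro c M hm _ h _
    simpa [hm] using h
  | cons y Y ih =>
    intro c M hm h1 h2 h3
    have hy : y ∈ maximalIdeal P := by
      rw [hm, Ideal.ofList_cons]
      exact Ideal.mem_sup_right (Ideal.mem_sup_left (Ideal.mem_span_singleton_self y))
    have h4 := ih (c ⊔ Ideal.span {y}) (M ⊔ resPw ι (Ideal.span {y}))
      (by rw [hm, Ideal.ofList_cons, sup_assoc]) (by rw [resPw_sup_eq]; exact sup_le_sup_right h1 _)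
      (sup_le h2 (resPw_mono ((Ideal.span_singleton_le_iff_mem _).2 hy))) h3.2
    refine Submodule.le_of_le_smul_of_le_jacobson_bot (I := maximalIdeal P)
      (IsNoetherian.noetherian M) (IsLocalRing.maximalIdeal_le_jacobson _) fun v hv => ?_
    obtain ⟨x, hx, u, rfl⟩ := resPw_sup_span (h4 (Submodule.mem_sup_left hv))
    have h5 : y • u ∈ M := by
      have := M.sub_mem hv (h1 hx)
      rwa [add_sub_cancel_left] at this
    exact Submodule.add_mem_sup hx (Submodule.smul_mem_smul hy (h3.1 u h5))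

theorem res_min_gen [IsLocalRing P] [IsNoetherianRing P] {ι : Type*} [Finite ι]
    (N K : Submodule P (ι → P)) :
    ∃ (t : ℕ) (ε : Matrix ι (Fin t) P), (∀ w, ε *ᵥ w ∈ N) ∧ (∀ v ∈ N, ∃ w, v - ε *ᵥ w ∈ K) ∧
      ∀ w, ε *ᵥ w ∈ K → w ∈ resPw (Fin t) (maximalIdeal P) := by
  classical
  have hex : ∃ t : ℕ, ∃ ε : Matrix ι (Fin t) P, (∀ w, ε *ᵥ w ∈ N) ∧
      ∀ v ∈ N, ∃ w, v - ε *ᵥ w ∈ K := by
    obtain ⟨t, n, hn⟩ := Submodule.fg_iff_exists_fin_generating_family.1
      (IsNoetherian.noetherian N)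
    have e : ∀ w : Fin t → P, (Matrix.of fun a j => n j a) *ᵥ w = ∑ j, w j • n j := by
      intro w; funext a
      simp [Matrix.mulVec, dotProduct, Finset.sum_apply, mul_comm]
    refine ⟨t, Matrix.of fun a j => n j a, fun w => ?_, fun v hv => ?_⟩
    · rw [e, ← hn]
      exact Submodule.sum_mem _ fun j _ => Submodule.smul_mem _ _ (Submodule.subset_span ⟨j, rfl⟩)
    · rw [← hn] at hv
      obtain ⟨w, hw⟩ := (Submodule.mem_span_range_iff_exists_fun P).1 hv
      exact ⟨w, by rw [e, hw, sub_self]; exact K.zero_mem⟩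
  obtain ⟨ε, h1, h2⟩ := Nat.find_spec hex
  refine ⟨_, ε, h1, h2, fun w hw => mem_resPw.2 fun j => ?_⟩
  by_contra hj
  have hu : IsUnit (w j) := by simpa using hj
  obtain ⟨u, hu⟩ := hu.exists_left_inv
  have hmin := fun t (ht : t < Nat.find hex) => Nat.find_min hex ht
  generalize Nat.find hex = t at *
  obtain _ | t := t
  · exact j.elim0
  refine hmin t (Nat.lt_succ_self t) ⟨ε.submatrix id j.succAbove, fun w' => ?_, fun v hv => ?_⟩
  · convert h1 (j.insertNth 0 w') using 1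
    funext a
    simp [Matrix.mulVec, dotProduct, Fin.sum_univ_succAbove _ j]
  · obtain ⟨x, hx⟩ := h2 v hv
    refine ⟨fun l => x (j.succAbove l) - x j * u * w (j.succAbove l), ?_⟩
    convert K.add_mem hx (K.smul_mem (x j * u) hw) using 1
    funext a
    simp only [Matrix.mulVec, dotProduct, Fin.sum_univ_succAbove _ j, Pi.sub_apply, Pi.add_apply,
      Pi.smul_apply, smul_eq_mul, Matrix.submatrix_apply, id, mul_sub, Finset.sum_sub_distrib,
      mul_add, Finset.mul_sum]
    have e1 : x j * u * (ε a j * w j) = ε a j * x j := by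
      rw [show x j * u * (ε a j * w j) = ε a j * x j * (u * w j) by ring, hu, mul_one]
    have e2 : ∑ l, ε a (j.succAbove l) * (x j * u * w (j.succAbove l)) =
        ∑ l, x j * u * (ε a (j.succAbove l) * w (j.succAbove l)) :=
      Finset.sum_congr rfl fun l _ => by ring
    rw [e1, e2]; ring

theorem res_hh_zero {J : Type*} [Fintype J] {i : J → ℕ} {g : Matrix J J P} (hd : Deg i g)
    (A : J → Ideal P) (q : Ideal P)
    (h : ∀ x : J → P, (∀ a, x a ∈ A a) → g *ᵥ x ∈ resPw J q →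
      ∃ y : J → P, (∀ a, y a ∈ A a) ∧ x - g *ᵥ y ∈ resPw J q) (n : ℤ) :
    hh (act g : (J → P) →ₗ[P] (J → P)) (pf i A) (pf i fun _ => q) n = 0 := by
  classical
  rw [hh_eq_zero_iff]
  intro x hx hgx
  obtain ⟨y, hy, hxy⟩ := h x (fun a => by
    by_cases h0 : n + i a = 0
    · exact (mem_pf.1 hx a).1 h0
    · rw [(mem_pf.1 hx a).2 h0]; exact (A a).zero_mem) (mem_resPw.2 fun a => by
    rw [show (g *ᵥ x) a = act g x a from (act_apply g x a).symm]
    by_cases h0 : n + 1 + i a = 0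
    · exact (mem_pf.1 hgx a).1 h0
    · rw [(mem_pf.1 hgx a).2 h0]; exact q.zero_mem)
  refine ⟨fun a => if n - 1 + i a = 0 then y a else 0, mem_pf.2 fun a => ⟨fun h0 => ?_,
    fun h0 => ?_⟩, mem_pf.2 fun a => ⟨fun h0 => ?_, fun h0 => ?_⟩⟩
  · simp only [h0, if_true]; exact hy a
  · simp only [h0, if_false]
  · convert mem_resPw.1 hxy a using 1
    rw [Pi.sub_apply, Pi.sub_apply, act_apply]
    congr 1
    refine Finset.sum_congr rfl fun b _ => ?_
    by_cases hg : g a b = 0
    · simp [hg]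
    · have := hd a b hg
      have h1 : n - 1 + i b = 0 := by omega
      simp [h1]
  · rw [Pi.sub_apply, (mem_pf.1 hx a).2 h0, act_apply, zero_sub, neg_eq_zero]
    refine Finset.sum_eq_zero fun b _ => ?_
    by_cases hg : g a b = 0
    · simp [hg]
    · have := hd a b hg
      have h1 : ¬ (n - 1 + i b = 0) := by omega
      simp [h1]

end Aux

section Main
variable {D P : Type*} [CommRing D] [CommRing P] (ψ : D →+* P) (I : Ideal D)

/-- the quotient is flat -/
def ResPure {ι : Type*} (N : Submodule P (ι → P)) : Prop :=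
  ∀ a : Ideal D, I ≤ a → ∀ (r : D) (v : ι → P), ψ r • v ∈ resPw ι (a.map ψ) ⊔ N →
    v ∈ resPw ι ((a.colon {r}).map ψ) ⊔ N

variable {ψ I}

theorem ResPure.inf_le [IsNoetherianRing D] {ι : Type*} {N : Submodule P (ι → P)}
    (h : ResPure ψ I N) {a : Ideal D} (ha : I ≤ a) :
    ∀ v ∈ N, v ∈ resPw ι (a.map ψ) → v ∈ a.map ψ • N ⊔ resPw ι (I.map ψ) := by
  classical
  obtain ⟨s, hs⟩ := IsNoetherian.noetherian a
  have e : a = I ⊔ Ideal.span (s : Set D) := by
    rw [show Ideal.span (s : Set D) = a from hs, sup_eq_right.2 ha]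
  rw [e]
  clear hs e ha
  induction s using Finset.induction_on with
  | empty => intro v _ hv; exact Submodule.mem_sup_right (by simpa using hv)
  | insert r s _ ih =>
    intro v hv hva
    have e : I ⊔ Ideal.span ((insert r s : Finset D) : Set D) =
        (I ⊔ Ideal.span (s : Set D)) ⊔ Ideal.span {r} := by
      rw [Finset.coe_insert, Ideal.span_insert, sup_assoc, sup_comm (Ideal.span {r})]
    rw [e] at hva ⊢
    rw [Ideal.map_sup, Ideal.map_span ψ {r}, Set.image_singleton] at hva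
    obtain ⟨x, hx, y, rfl⟩ := resPw_sup_span hva
    have h1 : ψ r • y ∈ resPw ι ((I ⊔ Ideal.span (s : Set D)).map ψ) ⊔ N := by
      have : ψ r • y = -x + (x + ψ r • y) := by abel
      rw [this]
      exact Submodule.add_mem_sup (Submodule.neg_mem _ hx) hv
    obtain ⟨z, hz, n, hn, rfl⟩ := Submodule.mem_sup.1 (h _ le_sup_left r y h1)
    have h2 : ψ r • z ∈ resPw ι ((I ⊔ Ideal.span (s : Set D)).map ψ) := by
      refine mem_resPw.2 fun j => ?_
      have h3 : Ideal.span {ψ r} * ((I ⊔ Ideal.span (s : Set D)).colon {r}).map ψ ≤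
          (I ⊔ Ideal.span (s : Set D)).map ψ := by
        rw [← Set.image_singleton, ← Ideal.map_span, ← Ideal.map_mul]
        refine Ideal.map_mono (Ideal.span_singleton_mul_le_iff.2 fun t ht => ?_)
        rw [mul_comm]
        exact Submodule.mem_colon_singleton.1 ht
      exact h3 (Ideal.mul_mem_mul (Ideal.mem_span_singleton_self _) (mem_resPw.1 hz j))
    have h4 : x + ψ r • z ∈ N := by
      have := N.sub_mem hv (N.smul_mem (ψ r) hn)
      rwa [smul_add, ← add_assoc, add_sub_cancel_right] at this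
    rw [smul_add, ← add_assoc]
    refine Submodule.add_mem _ ?_ (Submodule.mem_sup_left (Submodule.smul_mem_smul
      (Ideal.mem_map_of_mem _ (Ideal.mem_sup_right (Ideal.mem_span_singleton_self r))) hn))
    have h5 : (I ⊔ Ideal.span (s : Set D)).map ψ • N ≤
        ((I ⊔ Ideal.span (s : Set D)) ⊔ Ideal.span {r}).map ψ • N :=
      Submodule.smul_mono_left (Ideal.map_mono le_sup_left)
    exact (sup_le_sup_right h5 (resPw ι (I.map ψ)) :) (ih _ h4 (Submodule.add_mem _ hx h2))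

theorem ResPure.comap_eq [IsNoetherianRing D] {ι κ : Type*} [Fintype κ] {N : Submodule P (ι → P)}
    (h : ResPure ψ I N) (ε : Matrix ι κ P) (h1 : ∀ w, ε *ᵥ w ∈ N)
    (h2 : ∀ v ∈ N, ∃ w, v - ε *ᵥ w ∈ resPw ι (I.map ψ)) {a : Ideal D} (ha : I ≤ a) :
    (resPw ι (a.map ψ)).comap ε.mulVecLin =
      resPw κ (a.map ψ) ⊔ (resPw ι (I.map ψ)).comap ε.mulVecLin := by
  refine le_antisymm (fun w hw => ?_) (sup_le (fun w hw => resPw_mulVec ε hw)
    (Submodule.comap_mono (resPw_mono (Ideal.map_mono ha))))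
  obtain ⟨x, hx, y, hy, hxy⟩ := Submodule.mem_sup.1 (h.inf_le ha _ (h1 w) hw)
  have : ∃ w' ∈ resPw κ (a.map ψ), x - ε *ᵥ w' ∈ resPw ι (I.map ψ) := by
    refine Submodule.smul_induction_on
      (p := fun x => ∃ w' ∈ resPw κ (a.map ψ), x - ε *ᵥ w' ∈ resPw ι (I.map ψ)) hx ?_ ?_
    · intro r hr n hn
      obtain ⟨w', hw'⟩ := h2 n hn
      refine ⟨r • w', resPw_smul hr _, ?_⟩
      rw [Matrix.mulVec_smul, ← smul_sub]
      exact Submodule.smul_mem _ _ hw'
    · rintro x y ⟨w1, a1, b1⟩ ⟨w2, a2, b2⟩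
      refine ⟨w1 + w2, Submodule.add_mem _ a1 a2, ?_⟩
      convert Submodule.add_mem _ b1 b2 using 1
      rw [Matrix.mulVec_add]; abel
  obtain ⟨w', hw', hx'⟩ := this
  rw [show w = w' + (w - w') by abel]
  refine Submodule.add_mem_sup hw' ?_
  rw [Submodule.mem_comap, Matrix.mulVecLin_apply, Matrix.mulVec_sub, ← hxy]
  convert Submodule.add_mem _ hx' hy using 1
  abel

/-- a resolution of a submodule, exact after every base change -/
structure ResData (ψ : D →+* P) (I : Ideal D) (m : Ideal P) {ι κ : Type} [Fintype κ]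
    (N : Submodule P (ι → P)) (d : ℕ) (k : κ → ℕ) (g : Matrix κ κ P) (ε : Matrix ι κ P) :
    Prop where
  le : ∀ b, k b + 1 ≤ d
  deg : Deg k g
  deg0 : ∀ a b, ε a b ≠ 0 → k b = 0
  ent : Ent g m
  mem : ∀ w, ε *ᵥ w ∈ N
  sq : Ent (g * g) (I.map ψ)
  sq0 : ∀ a b, (ε * g) a b ∈ I.map ψ
  surj : ∀ v ∈ N, ∃ w, g *ᵥ w = 0 ∧ v - ε *ᵥ w ∈ resPw ι (I.map ψ)
  exact : ∀ a : Ideal D, I ≤ a → ∀ w, ε *ᵥ w ∈ resPw ι (a.map ψ) → g *ᵥ w ∈ resPw κ (a.map ψ) →
    ∃ u, ε *ᵥ u = 0 ∧ w - g *ᵥ u ∈ resPw κ (a.map ψ)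

theorem res_col {ι κ : Type*} [Fintype κ] [DecidableEq κ] {ε : Matrix ι κ P} {b : Ideal P}
    (h : ∀ w, ε *ᵥ w ∈ resPw ι b) (a : ι) (c : κ) : ε a c ∈ b := by
  simpa using mem_resPw.1 (h (Pi.single c 1)) a

theorem mem_resPw_sum {α β : Type*} {b : Ideal P} {v : α ⊕ β → P} :
    v ∈ resPw (α ⊕ β) b ↔ v ∘ Sum.inl ∈ resPw α b ∧ v ∘ Sum.inr ∈ resPw β b := by
  simp [mem_resPw, Sum.forall]

theorem ResData.blk {m : Ideal P} {ι κ : Type} [Fintype ι] [Fintype κ]
    {N : Submodule P (ι → P)} {d : ℕ} {k : κ → ℕ} {g : Matrix κ κ P} {ε : Matrix ι κ P}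
    (h : ResData ψ I m N d k g ε) (hN : N ≤ resPw ι m) :
    Deg (Sum.elim (fun _ => 0) fun b => k b + 1) (fromBlocks (0 : Matrix ι ι P) ε 0 g) ∧
      Ent (fromBlocks (0 : Matrix ι ι P) ε 0 g) m ∧
      Ent (fromBlocks (0 : Matrix ι ι P) ε 0 g * fromBlocks 0 ε 0 g) (I.map ψ) ∧
      ∀ a : Ideal D, I ≤ a → ∀ w : ι ⊕ κ → P, w ∘ Sum.inl ∈ resPw ι (a.map ψ) ⊔ N →
        fromBlocks (0 : Matrix ι ι P) ε 0 g *ᵥ w ∈ resPw _ (a.map ψ) →
        ∃ u : ι ⊕ κ → P, u ∘ Sum.inl = 0 ∧
          w - fromBlocks (0 : Matrix ι ι P) ε 0 g *ᵥ u ∈ resPw _ (a.map ψ) := by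
  classical
  refine ⟨?_, ?_, ?_, fun a ha w hw hgw => ?_⟩
  · rintro (a | a) (b | b) hab
    · simp at hab
    · simp [h.deg0 a b hab]
    · simp at hab
    · simp [h.deg a b hab]
  · rintro (a | a) (b | b)
    · simp
    · exact res_col (fun w => hN (h.mem w)) a b
    · simp
    · exact h.ent a b
  · rw [fromBlocks_multiply]
    rintro (a | a) (b | b)
    · simp
    · simpa using h.sq0 a b
    · simp
    · simpa using h.sq a b
  · rw [fromBlocks_mulVec, mem_resPw_sum] at hgw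
    simp only [zero_mulVec, zero_add, Sum.elim_comp_inl, Sum.elim_comp_inr] at hgw
    obtain ⟨u2, hu2, hw2⟩ := h.exact a ha _ hgw.1 hgw.2
    obtain ⟨x, hx, n, hn, hxn⟩ := Submodule.mem_sup.1 hw
    obtain ⟨u1, hu1, hw1⟩ := h.surj n hn
    refine ⟨Sum.elim 0 (u1 + u2), rfl, mem_resPw_sum.2 ⟨?_, ?_⟩⟩
    · convert Submodule.add_mem _ hx (resPw_mono (Ideal.map_mono ha) hw1) using 1
      rw [fromBlocks_mulVec]
      funext j
      have := congrFun hxn j
      simp only [Function.comp_apply, Pi.add_apply] at this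
      simp [Matrix.mulVec_add, hu2, ← this]
      ring
    · convert hw2 using 1
      rw [fromBlocks_mulVec]
      funext j
      simp [Matrix.mulVec_add, hu1]

theorem exists_resData [IsLocalRing D] [IsNoetherianRing D] [IsLocalRing P] [IsNoetherianRing P]
    (h1 : CP ψ I ⊥) (hI : I ≤ maximalIdeal D) (Y : List P)
    (hm : maximalIdeal P = (maximalIdeal D).map ψ ⊔ Ideal.ofList Y)
    (hY : RegSeq ((maximalIdeal D).map ψ) Y) (d : ℕ) :
    ∀ (k : ℕ) (ι : Type) [Fintype ι] (N : Submodule P (ι → P)), k + d = Y.length →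
      N ≤ resPw ι (maximalIdeal P) → ResPure ψ I N →
      RegM (N ⊔ resPw ι ((maximalIdeal D).map ψ)) (Y.take k) →
      ∃ (κ : Type) (_ : Fintype κ) (k : κ → ℕ) (g : Matrix κ κ P) (ε : Matrix ι κ P),
        ResData ψ I (maximalIdeal P) N d k g ε := by
  classical
  have hc : (maximalIdeal D).map ψ ≤ maximalIdeal P := by rw [hm]; exact le_sup_left
  induction d with
  | zero =>
    intro k ι _ N hk hN hp hr
    rw [show k = Y.length by omega, List.take_length] at hr
    have h2 := res_reg_all Y _ _ hm le_sup_right (sup_le hN (resPw_mono hc)) hr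
    have h3 : N ≤ resPw ι (I.map ψ) := by
      refine Submodule.le_of_le_smul_of_le_jacobson_bot (I := (maximalIdeal D).map ψ)
        (IsNoetherian.noetherian N) (hc.trans (IsLocalRing.maximalIdeal_le_jacobson _))
        fun v hv => ?_
      rw [sup_comm]
      exact hp.inf_le hI v hv (h2 (Submodule.mem_sup_left hv))
    refine ⟨Empty, inferInstance, fun _ => 0, 0, 0, fun b => b.elim, fun b => b.elim,
      fun _ b => b.elim, fun b => b.elim, fun w => by simp, fun b => b.elim, fun _ b => b.elim,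
      fun v hv => ⟨0, by simp, by simpa using h3 hv⟩, fun a _ w _ _ => ⟨0, by simp, ?_⟩⟩
    exact mem_resPw.2 fun b => b.elim
  | succ d ih =>
    intro k ι _ N hk hN hp hr
    obtain ⟨t, ε0, e1, e2, e3⟩ := res_min_gen N (resPw ι (I.map ψ))
    have hp' : ResPure ψ I ((resPw ι (I.map ψ)).comap ε0.mulVecLin) := by
      intro a ha r v hv
      have ha' : I ≤ a.colon {r} := fun x hx =>
        Submodule.mem_colon_singleton.2 (a.mul_mem_right _ (ha hx))
      rw [← hp.comap_eq ε0 e1 e2 ha] at hv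
      rw [← hp.comap_eq ε0 e1 e2 ha']
      rw [Submodule.mem_comap, map_smul] at hv
      refine mem_resPw.2 fun j => ?_
      simpa using h1 a ha r _ (Submodule.mem_sup_left (mem_resPw.1 hv j))
    have hr' : RegM ((resPw ι (I.map ψ)).comap ε0.mulVecLin ⊔
        resPw (Fin t) ((maximalIdeal D).map ψ)) (Y.take (k + 1)) := by
      rw [sup_comm, ← hp.comap_eq ε0 e1 e2 hI]
      refine res_reg_step _ (fun b w hw => resPw_mulVec ε0 hw) Y k _ hY ?_
      convert hr using 1
      refine le_antisymm (sup_le_sup_right (by rintro _ ⟨w, rfl⟩; exact e1 w) _)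
        (sup_le (fun v hv => ?_) le_sup_right)
      obtain ⟨w, hw⟩ := e2 v hv
      rw [show v = ε0 *ᵥ w + (v - ε0 *ᵥ w) by abel]
      exact Submodule.add_mem_sup ⟨w, rfl⟩ (resPw_mono (Ideal.map_mono hI) hw)
    obtain ⟨κ, _, k2, g2, ε', hd⟩ := ih (k + 1) (Fin t) _ (by omega) (fun w hw => e3 w hw) hp' hr'
    obtain ⟨b1, b2, b3, b4⟩ := hd.blk (fun w hw => e3 w hw)
    refine ⟨Fin t ⊕ κ, inferInstance, Sum.elim (fun _ => 0) fun b => k2 b + 1,
      fromBlocks 0 ε' 0 g2, fromCols ε0 0, ?_, b1, ?_, b2, fun w => ?_, b3, ?_, fun v hv => ?_,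
      fun a ha w hw hgw => ?_⟩
    · rintro (b | b)
      · simp
      · simpa using hd.le b
    · rintro a (b | b) hab
      · rfl
      · simp at hab
    · rw [fromCols_mulVec]; simpa using e1 _
    · rw [fromCols_mul_fromBlocks]
      rintro a (b | b)
      · simp
      · have := res_col (ε := ε0 * ε') (b := I.map ψ)
          (fun w => by rw [← mulVec_mulVec]; exact hd.mem w) a b
        simpa using this
    · obtain ⟨w, hw⟩ := e2 v hv
      refine ⟨Sum.elim w 0, ?_, ?_⟩
      · rw [fromBlocks_mulVec]; simp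
      · rw [fromCols_mulVec]; simpa using hw
    · rw [fromCols_mulVec, zero_mulVec, add_zero] at hw
      obtain ⟨u, hu, hwu⟩ := b4 a ha w (by rw [← hp.comap_eq ε0 e1 e2 ha]; exact hw) hgw
      exact ⟨u, by rw [fromCols_mulVec, hu]; simp, hwu⟩

end Main

theorem exists_res {D P : Type*} [CommRing D] [IsLocalRing D] [IsNoetherianRing D] [CommRing P]
    [IsLocalRing P] [IsNoetherianRing P] (ψ : D →+* P) {I : Ideal D} {J : Ideal P}
    (h1 : CP ψ I ⊥) (h2 : CP ψ I J) (hJ : J ≤ maximalIdeal P) (hI : I ≤ maximalIdeal D)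
    (Y : List P) (hm : maximalIdeal P = (maximalIdeal D).map ψ ⊔ Ideal.ofList Y)
    (hY : RegSeq ((maximalIdeal D).map ψ) Y) :
    ∃ (ι : Type) (_ : Fintype ι) (_ : DecidableEq ι) (i : ι → ℕ) (g : Matrix ι ι P) (a0 : ι),
      (∀ a, i a ≤ Y.length) ∧ Ent g (maximalIdeal P) ∧
      ∀ a : Ideal D, I ≤ a → IsRes i g a0 (a.map ψ) (J ⊔ a.map ψ) := by
  classical
  have hsup : ∀ (b : Ideal P) (v : Unit → P), v ∈ resPw Unit b ⊔ resPw Unit J ↔ v () ∈ b ⊔ J := by
    intro b v
    constructor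
    · intro hv
      obtain ⟨x, hx, y, hy, rfl⟩ := Submodule.mem_sup.1 hv
      exact Submodule.add_mem_sup (mem_resPw.1 hx _) (mem_resPw.1 hy _)
    · intro hv
      obtain ⟨x, hx, y, hy, h⟩ := Submodule.mem_sup.1 hv
      exact Submodule.mem_sup.2 ⟨fun _ => x, mem_resPw.2 fun _ => hx, fun _ => y,
        mem_resPw.2 fun _ => hy, funext fun _ => h⟩
  obtain ⟨κ, _, k, g, ε, hd⟩ := exists_resData h1 hI Y hm hY Y.length 0 Unit (resPw Unit J)
    (zero_add _) (resPw_mono hJ) (fun a ha r v hv => (hsup _ _).2 (h2 a ha r _ ((hsup _ _).1 hv)))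
    trivial
  obtain ⟨b1, b2, b3, b4⟩ := hd.blk (resPw_mono hJ)
  refine ⟨Unit ⊕ κ, inferInstance, inferInstance, Sum.elim (fun _ => 0) fun b => k b + 1,
    fromBlocks 0 ε 0 g, Sum.inl (), ?_, b2, fun a ha => ⟨b1, fun x y => Ideal.map_mono ha (b3 x y),
      ?_, le_sup_right, ?_, res_hh_zero b1 _ _ fun x hx hgx => ?_⟩⟩
  · rintro (b | b)
    · simp
    · simpa using hd.le b
  · rintro (b | b) <;> simp
  · rintro (b | b)
    · simp
    · exact Ideal.mem_sup_left (res_col hd.mem () b)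
  · obtain ⟨u, hu, hxu⟩ := b4 a ha x ((hsup _ _).2 (by
      have := hx (Sum.inl ())
      rw [if_pos rfl, sup_comm] at this
      exact this)) hgx
    refine ⟨u, ?_, hxu⟩
    rintro (b | b)
    · rw [show u (Sum.inl b) = 0 from congrFun hu b]; exact Submodule.zero_mem _
    · simp

end Vale.Agent.P202
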