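import Vale.Agent.P202.TopP
import Vale.Agent.P202.Resol
import Vale.Agent.P202.Red
import Vale.Agent.P202.Cohen

/-! The core inequality in characteristic `p`. -/

namespace Vale.Agent.P202

open IsLocalRing

universe u v

theorem coreP_prim_max {P : Type*} [CommRing P] [IsLocalRing P] {q : Ideal P}
    (h : maximalIdeal P ≤ q) : Prim q := ⟨1, by rwa [pow_one]⟩

theorem coreP_colon {D P : Type*} [CommRing D] [CommRing P] {ψ : D →+* P} {I : Ideal D}
    {J : Ideal P} (h : CP ψ I J) {b : Ideal D} (hb : I ≤ b) (r : D) :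
    (J ⊔ b.map ψ).colon {ψ r} = J ⊔ (b.colon {r}).map ψ := by
  refine le_antisymm (fun x hx => ?_) fun x hx => ?_
  · rw [Submodule.mem_colon_singleton, smul_eq_mul, mul_comm, sup_comm] at hx
    rw [sup_comm]
    exact h b hb r x hx
  · rw [sup_comm] at hx
    have := ColonA_le_comap ψ b r J hx
    rw [Submodule.mem_colon_singleton, sup_comm]
    exact this

theorem coreP_subadd {D : Type*} [CommRing D] [IsLocalRing D] [IsNoetherianRing D] (N : ℕ)
    (b : Ideal D) (r : D) : cl (b ⊔ maximalIdeal D ^ N) ≤ cl (b.colon {r} ⊔ maximalIdeal D ^ N) +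
      cl (b ⊔ Ideal.span {r} ⊔ maximalIdeal D ^ N) := by
  have h := rl_map_step (RingHom.id D) b r (maximalIdeal D ^ N)
  simp only [Ideal.map_id] at h
  have f1 : rl (b.colon {r} ⊔ maximalIdeal D ^ N) (⊤ : Ideal D) ≠ ⊤ :=
    rl_ne_top_of_prim ⟨N, le_sup_right⟩
  have f2 : rl (b ⊔ Ideal.span {r} ⊔ maximalIdeal D ^ N) (⊤ : Ideal D) ≠ ⊤ :=
    rl_ne_top_of_prim ⟨N, le_sup_right⟩
  have h2 := ENat.toNat_le_toNat h (by simp [f1, f2])
  rw [ENat.toNat_add f1 f2] at h2
  unfold cl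
  exact_mod_cast h2

theorem core_abstract {D P : Type*} [CommRing D] [IsLocalRing D] [IsNoetherianRing D] [CommRing P]
    [IsLocalRing P] [IsNoetherianRing P] [Infinite (ResidueField P)] (p : ℕ) [Fact p.Prime]
    [CharP D p] [CharP P p] (ψ : D →+* P) (hψ : CP ψ ⊥ ⊥)
    (hdual : ∀ e, Dual (iterateFrobenius P p e)) (y : P) (Y : List P)
    (hm : maximalIdeal P = (maximalIdeal D).map ψ ⊔ Ideal.ofList (y :: Y))
    (hY : RegSeq ((maximalIdeal D).map ψ) (y :: Y)) {I : Ideal D} {J : Ideal P}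
    (hI : I ≤ maximalIdeal D) (hJ : J ≤ maximalIdeal P) (h2 : CP ψ I J)
    (hfib : Prim (J ⊔ (maximalIdeal D).map ψ)) {d : ℕ} {W0 : Ideal D} (hW : Gen W0 d)
    (hWm : W0 ≤ maximalIdeal D) (hWp : Prim (I ⊔ W0)) {Z : Ideal P} (hZ : Gen Z d)
    (hZm : Z ≤ maximalIdeal P) (hZp : Prim (J ⊔ I.map ψ ⊔ Z)) {eR eS : ℝ}
    (hR : Lim d (fun N => cl (I ⊔ maximalIdeal D ^ N)) eR)
    (hS : Lim d (fun N => cl (J ⊔ I.map ψ ⊔ Z ^ N)) eS) : eR ≤ eS := by
  classical
  have hψm : (maximalIdeal D).map ψ ≤ maximalIdeal P := hm ▸ le_sup_left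
  have hOm : Ideal.ofList (y :: Y) ≤ maximalIdeal P := hm ▸ le_sup_right
  obtain ⟨ι, _, _, i, g, a0, hi, hg, hres⟩ :=
    exists_res ψ (hψ.mono bot_le) h2 hJ hI (y :: Y) hm hY
  obtain ⟨z, rfl⟩ := hZ
  obtain ⟨K, _, _, k, κ, hκ⟩ := exists_isKos z
  have hκ2 : ∀ q : Ideal P, Ent (κ * κ) q := fun q => by rw [hκ.sq]; exact kos_ent_zero q
  have hprim : ∀ a, I ≤ a → Prim (J ⊔ a.map ψ ⊔ Ideal.span (Set.range z)) := fun a ha =>
    hZp.mono (sup_le_sup_right (sup_le_sup_left (Ideal.map_mono ha) _) _)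
  have hlim := fun a ha => hκ.lim (hprim a ha)
  have hhI : ∀ a, I ≤ a → ∀ n, P202.hI (fun x : K × ι => k x.1 + i x.2) (tens k κ g) (a.map ψ) n =
      P202.hI k κ (J ⊔ a.map ψ) n := fun a ha n => hI_tens_res (hres a ha) hκ.deg hκ.sq n
  have hchi : ∀ a, I ≤ a → chiI (fun x : K × ι => k x.1 + i x.2) (tens k κ g) (a.map ψ) =
      chiI k κ (J ⊔ a.map ψ) := fun a ha => by
    unfold chiI chi
    refine finsum_congr fun n => ?_
    have := hhI a ha n
    unfold P202.hI at this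
    rw [this]
  obtain ⟨hreg, hcpO⟩ := CP.regSeq hψm hψ (y :: Y) (by rwa [sup_bot_eq])
  have hPO : Prim (Ideal.ofList (y :: Y) ⊔ (maximalIdeal D).map ψ) :=
    coreP_prim_max (by rw [hm, sup_comm])
  have key : ∀ Q : Ideal D, Q.IsPrime ∧ I ≤ Q → ∃ μ : ℝ,
      Lim d (fun N => cl (Q ⊔ maximalIdeal D ^ N)) μ ∧ μ ≤ (chiI k κ (J ⊔ Q.map ψ) : ℝ) := by
    rintro Q ⟨hQ, hIQ⟩
    have hQm : Q ≤ maximalIdeal D := le_maximalIdeal hQ.ne_top
    have hQW : Prim (Q ⊔ W0) := hWp.mono (sup_le_sup_right hIQ _)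
    obtain ⟨W, hWg, hWr⟩ := red_of_map ψ hψm hW hWm hQW
    have hr2 := hWr.sup (Ideal.ofList (y :: Y))
    rw [sup_comm _ ((maximalIdeal D).map ψ), ← hm] at hr2
    obtain ⟨w, hw⟩ := kos_gen hWg Y
    have hx : Ideal.span (Set.range (Fin.cons y w : Fin (d + Y.length + 1) → P)) =
        Ideal.ofList (y :: Y) ⊔ W := by
      rw [kos_span_cons, ← hw, Ideal.ofList_cons, sup_assoc]
    have hp1 : Prim (Q.map ψ ⊔ Ideal.ofList (y :: Y) ⊔ W) := by
      rw [sup_assoc]; exact hr2.prim (coreP_prim_max le_sup_right)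
    obtain ⟨μ, hμ⟩ := exists_lim hWg hp1
    have hrQ := hreg Q bot_le
    rw [sup_bot_eq] at hrQ
    have hμ2 := lim_regSeq hWg (y :: Y) hrQ hp1 hμ
    have hμ3 := (lim_red_iff (hWr.mono (le_sup_left : Q.map ψ ≤ Q.map ψ ⊔ Ideal.ofList (y :: Y)))
      (hPO.mono (sup_le_sup_right le_sup_right _))).1 hμ
    refine ⟨μ, hμ3.congr' (Filter.Eventually.of_forall fun N => ?_), ?_⟩
    · have h1 := hcpO.rl_map (a := Q ⊔ maximalIdeal D ^ N) bot_le
        (rl_ne_top_of_prim ⟨N, le_sup_right⟩)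
      rw [bot_sup_eq, ← hm, rl_maximal, mul_one, Ideal.map_sup, Ideal.map_pow,
        sup_right_comm] at h1
      simp only [cl]
      rw [h1]
    · obtain ⟨k0, hk0⟩ := hκ.zero
      have hd := deg_tens hκ.deg (hres Q hIQ).deg
      have hsq := sq_tens hκ.deg (hκ2 _) (hres Q hIQ).sq
      rw [← hchi Q hIQ]
      refine top_prime p ψ hψ hdual hQ
        (fun h => (maximalIdeal.isMaximal P).ne_top
          (top_le_iff.1 (h ▸ (Ideal.map_mono hQm).trans hψm)))
        (Fin.cons y w) (hx ▸ hr2) hrQ.1 (hx ▸ hμ2) (fun a => ?_) (k0, a0) ?_ hd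
        (ent_tens (fun a b => hZm (hκ.ent a b)) hg) hsq
        (fun r hr => null_of_hfin hd hsq (fun n => ?_) hr) (fun Q' hQ' hlt => ?_) ?_
      · have := hκ.le a.1
        have := hi a.2
        simp only [List.length_cons] at this
        omega
      · show k k0 + i a0 = 0
        rw [(hk0 k0).2 rfl, ((hres Q hIQ).zero a0).2 rfl]
      · rw [hhI Q hIQ]; exact (hlim Q hIQ).1 n
      · have hIQ' : I ≤ Q' := hIQ.trans hlt.le
        rcases d with _ | u
        · exfalso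
          obtain ⟨w0, rfl⟩ := hW
          obtain ⟨c, hc⟩ := hQW
          rw [Set.range_eq_empty, Ideal.span_empty, sup_bot_eq] at hc
          exact hlt.not_ge ((le_maximalIdeal hQ'.ne_top).trans (hQ.le_of_pow_le hc))
        obtain ⟨W1, hW1, hW1m, hW1p⟩ := exists_sop_of_lt hQ'.ne_top hlt hW hWm hQW
        have hW1P : W1.map ψ ≤ maximalIdeal P := (Ideal.map_mono hW1m).trans hψm
        refine ⟨?_, Ideal.ofList (y :: Y) ⊔ W1.map ψ, ?_, sup_le hOm hW1P, ?_⟩
        · obtain ⟨c, hc⟩ := hprim Q' hIQ'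
          have h1 := Prim.map hfib hW1p
          rw [Ideal.map_sup, ← sup_assoc] at h1
          have h3 := lim_zero_of_small (Nat.lt_succ_self u) (hW1.map ψ) hW1P h1
            (fun N => Ideal.span (Set.range z) ^ N) c fun N =>
              (Ideal.pow_le_pow_right (Nat.le_add_right _ _)).trans (by
                rw [pow_mul]
                exact (Ideal.pow_right_mono hc N).trans (kos_sup_pow _ _ N))
          rw [hchi Q' hIQ']
          exact_mod_cast (hlim Q' hIQ').2.unique h3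
        · exact (kos_gen (hW1.map ψ) (y :: Y)).mono (by simp only [List.length_cons]; omega)
        · have h1 := Prim.map hPO hW1p
          rw [Ideal.map_sup, sup_left_comm] at h1
          exact h1
      · rw [hchi Q hIQ]
        exact_mod_cast (hlim Q hIQ).2.nonneg_cl
  choose! μ hμ using key
  obtain ⟨l, hl, hF⟩ := exists_prime_list I
  have h3 : eR ≤ (l.map μ).sum := by
    refine hR.le (Lim.list_sum l fun Q hQ => (hμ Q (hl Q hQ)).1)
      (Filter.Eventually.of_forall fun N => ?_)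
    exact hF (fun b => cl (b ⊔ maximalIdeal D ^ N)) (fun b _ r => coreP_subadd N b r)
      (by simp [cl, rl_self])
  have h4 := hF (fun b => -(chiI k κ (J ⊔ b.map ψ) : ℝ)) (fun b hb r => by
    have e1 := coreP_colon h2 hb r
    have e2 : J ⊔ b.map ψ ⊔ Ideal.span {ψ r} = J ⊔ (b ⊔ Ideal.span {r}).map ψ := by
      rw [Ideal.map_sup, Ideal.map_span, Set.image_singleton, sup_assoc]
    have := chiI_step hκ.deg (hκ2 (J ⊔ b.map ψ)) (ψ r)
      (by rw [e1]; exact (hlim _ (hb.trans (ColonA_le_colon b r))).1)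
      (by rw [e2]; exact (hlim _ (hb.trans le_sup_left)).1)
    rw [this, e1, e2]
    push_cast
    linarith) (by simp [Ideal.map_top, chiI_top])
  have h5 : (l.map μ).sum ≤ -(l.map fun b => -(chiI k κ (J ⊔ b.map ψ) : ℝ)).sum := by
    rw [List.sum_neg, List.map_map]
    exact List.sum_le_sum fun Q hQ => by simpa using (hμ Q (hl Q hQ)).2
  rw [hS.unique (hlim I le_rfl).2]
  linarith

theorem core_p (R : Type u) (S : Type v) [CommRing R] [IsLocalRing R] [IsNoetherianRing R]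
    [CommRing S] [IsLocalRing S] [IsNoetherianRing S] [Algebra R S]
    [IsLocalHom (algebraMap R S)] [Module.Flat R S] (p : ℕ) [Fact p.Prime] [CharP R p]
    (hfib : Prim ((maximalIdeal R).map (algebraMap R S))) {d : ℕ} {W0 : Ideal R} (hW : Gen W0 d)
    (hWm : W0 ≤ maximalIdeal R) (hWp : Prim W0) {Z : Ideal S} (hZ : Gen Z d)
    (hZm : Z ≤ maximalIdeal S) (hZp : Prim Z) {eR eS : ℝ}
    (hR : Lim d (fun N => cl (maximalIdeal R ^ N)) eR) (hS : Lim d (fun N => cl (Z ^ N)) eS) :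
    eR ≤ eS := by
  classical
  obtain ⟨v, xs, hx⟩ := exists_gen (maximalIdeal R)
  obtain ⟨v', hy⟩ := exists_gen (maximalIdeal S)
  obtain ⟨ys, hy⟩ := hy.mono (Nat.le_succ v')
  obtain ⟨L, _, _, I, J, ι, t, hI, hJ, hιx, hιy, hιc, htX, htI, htc, hcl, hsop⟩ :=
    setup R S (Or.inl ⟨p, Fact.out, inferInstance⟩) xs hx.symm ys hy.symm
  have : Nontrivial (MvPowerSeries (Fin v ⊕ Fin (v' + 1)) L ⧸ J) :=
    Ideal.Quotient.nontrivial_iff.2 hJ
  have hmk : Function.Surjective (Ideal.Quotient.mk J) := Ideal.Quotient.mk_surjective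
  have : IsLocalRing (MvPowerSeries (Fin v ⊕ Fin (v' + 1)) L ⧸ J) :=
    IsLocalRing.of_surjective' (Ideal.Quotient.mk J) hmk
  have := complete_of_surjective (Ideal.Quotient.mk J) hmk
  have hpR : (p : R) = 0 := CharP.cast_eq_zero R p
  have : CharP (ResidueField R) p := (CharP.charP_iff_prime_eq_zero Fact.out).2 (by
    rw [← map_natCast (residue R), hpR, map_zero])
  have : CharP L p := (CharP.charP_iff_prime_eq_zero Fact.out).2 (by
    refine ((Ideal.Quotient.mk J).comp MvPowerSeries.C).injective ?_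
    rw [map_natCast, map_zero, ← map_natCast (ι.comp (algebraMap R S)), hpR, map_zero])
  have : CharP (MvPowerSeries (Fin v) (ResidueField R)) p :=
    (CharP.charP_iff_prime_eq_zero Fact.out).2 (by
      rw [← map_natCast MvPowerSeries.C, CharP.cast_eq_zero, map_zero])
  have : CharP (MvPowerSeries (Fin v ⊕ Fin (v' + 1)) L) p :=
    (CharP.charP_iff_prime_eq_zero Fact.out).2 (by
      rw [← map_natCast MvPowerSeries.C, CharP.cast_eq_zero, map_zero])
  have : Infinite (ResidueField (MvPowerSeries (Fin v ⊕ Fin (v' + 1)) L)) :=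
    Infinite.of_injective _ ((residue _).comp (MvPowerSeries.C (R := L))).injective
  let : Algebra (ZMod p) (ResidueField R) := ZMod.algebra _ p
  let : Algebra (ZMod p) (MvPowerSeries (Fin v ⊕ Fin (v' + 1)) L) := ZMod.algebra _ p
  have := formallySmooth_zmod p (ResidueField R)
  obtain ⟨s, hs⟩ := exists_lift_of_formallySmooth (Ideal.Quotient.mkₐ (ZMod p) J) hmk
    { t.comp MvPowerSeries.C with
      commutes' := fun r => RingHom.congr_fun (RingHom.ext_zmod
        ((t.comp MvPowerSeries.C).comp (algebraMap _ _)) (algebraMap _ _)) r }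
  have hXm : ∀ j, MvPowerSeries.X j ∈ maximalIdeal (MvPowerSeries (Fin v ⊕ Fin (v' + 1)) L) :=
    fun j => by rw [maximalIdeal_ps]; exact Ideal.subset_span ⟨j, rfl⟩
  obtain ⟨ψ, hψC, hψX⟩ := exists_ev (maximalIdeal (MvPowerSeries (Fin v ⊕ Fin (v' + 1)) L))
    (s : ResidueField R →+* _) (fun i : Fin v => MvPowerSeries.X (Sum.inl i)) fun i => hXm _
  have hmax := map_max_surj hmk
  have ht : (Ideal.Quotient.mk J).comp ψ = t := by
    refine ev_unique (maximalIdeal _) _ _ (fun c => ?_) (fun i => ?_) fun i => ?_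
    · rw [RingHom.comp_apply, hψC]
      exact AlgHom.congr_fun hs c
    · rw [RingHom.comp_apply, hψX, htX]
    · rw [RingHom.comp_apply, hψX, ← hmax]
      exact Ideal.mem_map_of_mem _ (hXm _)
  have hmD : (maximalIdeal (MvPowerSeries (Fin v) (ResidueField R))).map ψ =
      Ideal.span (MvPowerSeries.X '' Set.range (Sum.inl : Fin v → Fin v ⊕ Fin (v' + 1))) := by
    rw [maximalIdeal_ps, Ideal.map_span, ← Set.range_comp, ← Set.range_comp]
    congr 2
    exact funext hψX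
  obtain ⟨y, Y, hl⟩ := List.exists_cons_of_ne_nil (l := ((List.finRange (v' + 1)).map
    (Sum.inr : Fin (v' + 1) → Fin v ⊕ Fin (v' + 1))).map (MvPowerSeries.X (R := L)))
    (by simp [List.finRange_succ])
  have hm : maximalIdeal (MvPowerSeries (Fin v ⊕ Fin (v' + 1)) L) =
      (maximalIdeal (MvPowerSeries (Fin v) (ResidueField R))).map ψ ⊔ Ideal.ofList (y :: Y) := by
    rw [hmD, ← hl]
    refine le_antisymm ?_ (sup_le (Ideal.span_le.2 ?_) (Ideal.span_le.2 ?_))
    · rw [maximalIdeal_ps, Ideal.span_le]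
      rintro _ ⟨j | j, rfl⟩
      · exact Ideal.mem_sup_left (Ideal.subset_span ⟨_, ⟨j, rfl⟩, rfl⟩)
      · exact Ideal.mem_sup_right (Ideal.subset_span
          (List.mem_map_of_mem (List.mem_map_of_mem (List.mem_finRange j))))
    · rintro _ ⟨j, -, rfl⟩
      exact hXm j
    · intro a ha
      obtain ⟨j, -, rfl⟩ := List.mem_map.1 ha
      exact hXm j
  have hY : RegSeq ((maximalIdeal (MvPowerSeries (Fin v) (ResidueField R))).map ψ) (y :: Y) := by
    rw [hmD, ← hl]
    refine regSeq_X _ ((List.nodup_finRange _).map Sum.inr_injective) _ fun j hj => ?_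
    obtain ⟨j', -, rfl⟩ := List.mem_map.1 hj
    simp
  have hIJ : J ⊔ I.map ψ = RingHom.ker (Ideal.Quotient.mk J) := by
    rw [Ideal.mk_ker]
    refine sup_eq_left.2 (Ideal.map_le_iff_le_comap.2 fun a ha => ?_)
    rw [Ideal.mem_comap, ← Ideal.Quotient.eq_zero_iff_mem, ← RingHom.comp_apply, ht]
    exact htI a ha
  have h2 : CP ψ I J := by
    have := (cp_comp_surj_iff (f := ψ) hmk).1 (ht ▸ htc)
    rwa [← RingHom.ker_eq_comap_bot, Ideal.mk_ker] at this
  have hιm : (maximalIdeal S).map ι = maximalIdeal _ := by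
    rw [← hmax, maximalIdeal_ps, Ideal.map_span]
    refine le_antisymm ?_ (Ideal.span_le.2 ?_)
    · rw [hy, Ideal.map_span, Ideal.span_le]
      rintro _ ⟨_, ⟨j, rfl⟩, rfl⟩
      rw [hιy]
      exact Ideal.subset_span ⟨_, ⟨_, rfl⟩, rfl⟩
    · rintro _ ⟨_, ⟨j | j, rfl⟩, rfl⟩
      · rw [← hιx]
        exact Ideal.mem_map_of_mem _ (map_nonunit (algebraMap R S) _
          (hx ▸ Ideal.subset_span ⟨j, rfl⟩))
      · rw [← hιy]
        exact Ideal.mem_map_of_mem _ (hy ▸ Ideal.subset_span ⟨j, rfl⟩)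
  have hpm : ∀ a : Ideal S, Prim a → Prim (a.map ι) := fun a ha => by
    have := Prim.map (ι := ι) (c := ⊥) (coreP_prim_max (by rw [hιm, bot_sup_eq])) ha
    rwa [bot_sup_eq] at this
  have hfib' : Prim (J ⊔ (maximalIdeal (MvPowerSeries (Fin v) (ResidueField R))).map ψ) := by
    have := (prim_map_surj_iff hmk
      ((maximalIdeal (MvPowerSeries (Fin v) (ResidueField R))).map ψ)).1 ((hpm _ hfib).mono (by
        rw [hmD, hx, Ideal.map_span, Ideal.map_span, Ideal.map_span]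
        refine Ideal.span_mono ?_
        rintro _ ⟨_, ⟨_, ⟨j, rfl⟩, rfl⟩, rfl⟩
        exact ⟨_, ⟨_, ⟨j, rfl⟩, rfl⟩, (hιx j).symm⟩))
    rwa [Ideal.mk_ker] at this
  obtain ⟨W', hW', hW'm, hW'p⟩ := hsop d W0 hW hWm hWp
  obtain ⟨Z', hZ', hZ'e⟩ := Gen.exists_lift hmk (hZ.map ι)
  have hZ'm : Z' ≤ maximalIdeal _ := fun a ha hu => by
    have h1 : Ideal.Quotient.mk J a ∈ maximalIdeal _ := by
      rw [← hιm]
      exact Ideal.map_mono hZm (hZ'e ▸ Ideal.mem_map_of_mem _ ha)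
    exact h1 (hu.map _)
  refine core_abstract p ψ (cp_ps ψ Sum.inl Sum.inl_injective hψX)
    (fun e => dual_frobenius L p e) y Y hm hY (le_maximalIdeal hI) (le_maximalIdeal hJ) h2 hfib'
    hW' hW'm hW'p hZ' hZ'm ?_ (by simpa only [hcl] using hR) ?_
  · rw [hIJ, ← prim_map_surj_iff hmk, hZ'e]
    exact hpm _ hZp
  · refine hS.congr' (Filter.Eventually.of_forall fun N => ?_)
    have h1 := Prim.sup_pow (q := ⊥) (hZp.mono le_sup_right) N
    rw [bot_sup_eq] at h1
    rw [hIJ, ← cl_map_surj hmk, Ideal.map_pow, hZ'e, ← Ideal.map_pow, cl_map_unram hιc hιm h1]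

end Vale.Agent.P202
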