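import Vale.Agent.P202.Hyp

/-! Primitive elements. -/

namespace Vale.Agent.P202

open IsLocalRing

section Aux
open Polynomial nonZeroDivisors

theorem hypEx_clear {D K : Type*} [CommRing D] [IsDomain D] [Field K] [Algebra D K]
    [IsFractionRing D K] (p : K[X]) :
    ∃ b : D, b ≠ 0 ∧ ∃ q : D[X], q.map (algebraMap D K) = C (algebraMap D K b) * p := by
  obtain ⟨b, hb, h⟩ := IsLocalization.integerNormalization_spec D⁰ p
  exact ⟨b, nonZeroDivisors.ne_zero hb, _, by
    rw [h, ← smul_eq_C_mul, algebraMap_smul]⟩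

open IntermediateField in
theorem hypEx_primitive {K L : Type*} [Field K] [CharZero K] [Field L] [Algebra K L]
    [FiniteDimensional K L] {a : L} (ha : K⟮a⟯ = ⊤) (x : L) : ∃ c : ℕ, K⟮x + c • a⟯ = ⊤ := by
  have hA : ∀ y : L, ((minpoly K y).map (algebraMap K (AlgebraicClosure K))).Splits :=
    fun y => IsAlgClosed.splits _
  simp only [Field.primitive_element_iff_algHom_eq_of_eval' K (AlgebraicClosure K) hA] at ha ⊢
  have hfin : (⋃ φ : L →ₐ[K] AlgebraicClosure K, ⋃ ψ : L →ₐ[K] AlgebraicClosure K,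
      {c : ℕ | φ ≠ ψ ∧ φ (x + c • a) = ψ (x + c • a)}).Finite := by
    refine Set.finite_iUnion fun φ => Set.finite_iUnion fun ψ =>
      Set.Subsingleton.finite fun c hc c' hc' => ?_
    have h1 := hc.2
    have h2 := hc'.2
    simp only [map_add, map_mul, map_natCast, nsmul_eq_mul] at h1 h2
    have h3 : ((c : AlgebraicClosure K) - c') * (φ a - ψ a) = 0 := by
      linear_combination h1 - h2
    rcases mul_eq_zero.1 h3 with h | h
    · exact_mod_cast sub_eq_zero.1 h
    · exact absurd (ha (sub_eq_zero.1 h)) hc.1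
  obtain ⟨c, hc⟩ := hfin.exists_notMem
  refine ⟨c, fun φ ψ h => ?_⟩
  by_contra hne
  exact hc (Set.mem_iUnion.2 ⟨φ, Set.mem_iUnion.2 ⟨ψ, hne, h⟩⟩)

theorem hypEx_li {D R : Type*} [CommRing D] [CommRing R] [Algebra D R] {x : R} {F : D[X]}
    (hm : F.Monic) (h : ∀ f : D[X], aeval x f = 0 → F ∣ f) :
    LinearIndependent D fun i : Fin F.natDegree => x ^ (i : ℕ) := by
  classical
  rw [Fintype.linearIndependent_iff]
  intro g hg i
  have h1 : aeval x (ofFn F.natDegree g) = 0 := by
    rw [ofFn_eq_sum_monomial, map_sum, ← hg]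
    exact Finset.sum_congr rfl fun j _ => by rw [aeval_monomial, Algebra.smul_def]
  have h2 : ofFn F.natDegree g = 0 := by
    by_contra h0
    exact hm.not_dvd_of_natDegree_lt h0
      (ofFn_natDegree_lt (Nat.one_le_of_lt i.2) g) (h _ h1)
  have h3 := ofFn_coeff_eq_val_of_lt g i.2
  rw [h2, coeff_zero] at h3
  exact h3.symm

theorem hypEx_of_li {T Q : Type*} [CommRing T] [Nontrivial T] [CommRing Q] [Algebra T Q] {y : Q}
    {G : T[X]} (hm : G.Monic) (hr : aeval y G = 0) {n : ℕ} (hn : G.natDegree = n)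
    (h : LinearIndependent T fun i : Fin n => y ^ (i : ℕ)) (f : T[X]) (hf : aeval y f = 0) :
    G ∣ f := by
  rw [← modByMonic_eq_zero_iff_dvd hm]
  by_contra h0
  have h1 : (f %ₘ G).natDegree < n := hn ▸ natDegree_lt_natDegree h0 (degree_modByMonic_lt f hm)
  have h2 : aeval y (f %ₘ G) = 0 := by rw [aeval_modByMonic_eq_self_of_root hr, hf]
  rw [aeval_eq_sum_range' h1, Finset.sum_range] at h2
  have h3 := Fintype.linearIndependent_iff.1 h _ h2 ⟨_, h1⟩
  exact h0 (leadingCoeff_eq_zero.1 h3)

end Aux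

open Polynomial nonZeroDivisors IntermediateField in
theorem exists_hypData {D R : Type*} [CommRing D] [IsDomain D] [IsIntegrallyClosed D] [CharZero D]
    [CommRing R] [IsDomain R] [Algebra D R] [Module.Finite D R]
    (hinj : Function.Injective (algebraMap D R)) (x : R) {π : D} (hπ : π ≠ 0) :
    ∃ (y : R) (F : Polynomial D) (g0 g1 : D), HypData (x + π • y) F g0 g1 := by
  let K := FractionRing D
  let L := FractionRing R
  have : FaithfulSMul D R := (faithfulSMul_iff_algebraMap_injective D R).2 hinj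
  let _ : Algebra K L := FractionRing.liftAlgebra D L
  have : IsScalarTower D K L := FractionRing.isScalarTower_liftAlgebra D L
  have : Module.Finite K L := Module.Finite.of_isLocalization D R D⁰
  have : CharZero K := charZero_of_injective_algebraMap (IsFractionRing.injective D K)
  obtain ⟨α, hα⟩ := Field.exists_primitive_element K L
  obtain ⟨⟨a, _, s, hs, rfl⟩, h⟩ := IsLocalization.surj (Algebra.algebraMapSubmonoid R D⁰) α
  have ha : K⟮algebraMap R L (π • a)⟯ = ⊤ := by
    rw [eq_top_iff, ← hα, adjoin_simple_le_iff]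
    have h1 : algebraMap D K (π * s) ≠ 0 :=
      (map_ne_zero_iff _ (IsFractionRing.injective D K)).2
        (mul_ne_zero hπ (nonZeroDivisors.ne_zero hs))
    have h2 : α = (algebraMap D K (π * s))⁻¹ • algebraMap R L (π • a) := by
      rw [eq_inv_smul_iff₀ h1, algebraMap_smul, Algebra.smul_def π a, map_mul, ← h,
        Algebra.smul_def, map_mul, IsScalarTower.algebraMap_apply D R L,
        IsScalarTower.algebraMap_apply D R L]
      ring
    rw [h2]
    exact IntermediateField.smul_mem _ (mem_adjoin_simple_self K _)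
  obtain ⟨c, hc⟩ := hypEx_primitive ha (algebraMap R L x)
  have e : algebraMap R L x + c • algebraMap R L (π • a) = algebraMap R L (x + π • (c • a)) := by
    rw [map_add, smul_comm, map_nsmul]
  rw [e] at hc
  set z := x + π • (c • a)
  have hz : IsIntegral D z := IsIntegral.of_finite D z
  have hmin := minpoly.isIntegrallyClosed_eq_field_fractions K L hz
  have hsep : (minpoly K (algebraMap R L z)).Separable :=
    Algebra.IsSeparable.isSeparable K _
  rw [hmin] at hsep
  obtain ⟨A, B, hAB⟩ := hsep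
  obtain ⟨b1, hb1, A1, hA1⟩ := hypEx_clear (D := D) A
  obtain ⟨b2, hb2, B1, hB1⟩ := hypEx_clear (D := D) B
  have hone : ∀ r : R, ∃ b : D, b ≠ 0 ∧ ∃ f : D[X], aeval z f = b • r := by
    intro r
    have h1 : algebraMap R L r ∈ (K⟮algebraMap R L z⟯).toSubalgebra := by
      rw [hc]; trivial
    rw [adjoin_simple_toSubalgebra_of_isAlgebraic (Algebra.IsAlgebraic.isAlgebraic _),
      Algebra.adjoin_singleton_eq_range_aeval] at h1
    obtain ⟨p, hp⟩ := h1
    obtain ⟨b, hb, q, hq⟩ := hypEx_clear (D := D) p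
    refine ⟨b, hb, q, IsFractionRing.injective R L ?_⟩
    have hp' : aeval (algebraMap R L z) p = algebraMap R L r := hp
    rw [← aeval_algebraMap_apply, ← aeval_map_algebraMap K, hq, map_mul, hp', aeval_C,
      Algebra.smul_def, map_mul, ← IsScalarTower.algebraMap_apply,
      ← IsScalarTower.algebraMap_apply]
  have hall : ∀ (N : Submodule D R), N.FG →
      ∃ b : D, b ≠ 0 ∧ ∀ r ∈ N, ∃ f : D[X], aeval z f = b • r := by
    intro N hN
    induction N, hN using Submodule.fg_induction with
    | singleton r =>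
      obtain ⟨b, hb, f, hf⟩ := hone r
      refine ⟨b, hb, fun r' hr' => ?_⟩
      obtain ⟨t, rfl⟩ := Submodule.mem_span_singleton.1 hr'
      exact ⟨t • f, by rw [map_smul, hf, smul_comm]⟩
    | sup N1 N2 _ _ h1 h2 =>
      obtain ⟨c1, hc1, H1⟩ := h1
      obtain ⟨c2, hc2, H2⟩ := h2
      refine ⟨c1 * c2, mul_ne_zero hc1 hc2, fun r hr => ?_⟩
      obtain ⟨r1, hr1, r2, hr2, rfl⟩ := Submodule.mem_sup.1 hr
      obtain ⟨f1, hf1⟩ := H1 r1 hr1
      obtain ⟨f2, hf2⟩ := H2 r2 hr2
      exact ⟨c2 • f1 + c1 • f2, by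
        rw [map_add, map_smul, map_smul, hf1, hf2, smul_add, smul_smul, smul_smul, mul_comm c2]⟩
  obtain ⟨g1, hg1, H⟩ := hall ⊤ Module.Finite.fg_top
  refine ⟨c • a, minpoly D z, b1 * b2, g1, minpoly.monic hz, minpoly.aeval D z,
    ⟨C b2 * A1, C b1 * B1, ?_⟩, fun f hf => minpoly.isIntegrallyClosed_dvd hz hf,
    fun r => H r trivial, mul_ne_zero hb1 hb2, hg1⟩
  refine Polynomial.map_injective _ (IsFractionRing.injective D K) ?_
  rw [derivative_map] at hAB
  simp only [Polynomial.map_add, Polynomial.map_mul, map_C, hA1, hB1, map_mul]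
  linear_combination (C (algebraMap D K b1) * C (algebraMap D K b2)) * hAB

theorem HypData.baseChange {D T R Q : Type*} [CommRing D] [CommRing T] [CommRing R] [CommRing Q]
    [Algebra D R] [Algebra D T] [Algebra T Q] [Algebra R Q] [Algebra D Q] [IsScalarTower D T Q]
    [IsScalarTower D R Q] [Algebra.IsPushout D T R Q] [Module.Flat D T]
    (hinj : Function.Injective (algebraMap D T)) {x : R} {F : Polynomial D} {g0 g1 : D}
    (hH : HypData x F g0 g1) :
    HypData (algebraMap R Q x) (F.map (algebraMap D T)) (algebraMap D T g0) (algebraMap D T g1) := by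
  have hb := Algebra.IsPushout.out (R := D) (S := T) (R' := R) (S' := Q)
  have h0 : algebraMap D T g0 ≠ 0 := (map_ne_zero_iff _ hinj).2 hH.ne0
  have : Nontrivial T := nontrivial_of_ne _ _ h0
  have hroot : Polynomial.aeval (algebraMap R Q x) (F.map (algebraMap D T)) = 0 := by
    rw [Polynomial.aeval_map_algebraMap, Polynomial.aeval_algebraMap_apply, hH.root, map_zero]
  refine ⟨hH.monic.map _, hroot, ?_, ?_, fun q => ?_, h0, (map_ne_zero_iff _ hinj).2 hH.ne1⟩
  · obtain ⟨A, B, h⟩ := hH.sep
    exact ⟨A.map (algebraMap D T), B.map (algebraMap D T), by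
      rw [Polynomial.derivative_map, ← Polynomial.map_mul, ← Polynomial.map_mul,
        ← Polynomial.map_add, h, Polynomial.map_C]⟩
  · refine hypEx_of_li (hH.monic.map _) hroot (hH.monic.natDegree_map _) ?_
    have h1 := (Module.Flat.linearIndependent_one_tmul (S := T) (hypEx_li hH.monic hH.inj)).map'
      hb.equiv.toLinearMap hb.equiv.ker
    have e : (fun i : Fin F.natDegree => algebraMap R Q x ^ (i : ℕ)) =
        hb.equiv.toLinearMap ∘ fun i : Fin F.natDegree => (1 : T) ⊗ₜ[D] (x ^ (i : ℕ)) := by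
      funext i
      rw [Function.comp_apply, LinearEquiv.coe_coe, hb.equiv_tmul, one_smul, ← map_pow]
      rfl
    rw [e]
    exact h1
  · induction q using hb.inductionOn with
    | zero => exact ⟨0, by simp⟩
    | tmul r =>
      obtain ⟨f, hf⟩ := hH.cond r
      refine ⟨f.map (algebraMap D T), ?_⟩
      rw [Polynomial.aeval_map_algebraMap, Polynomial.aeval_algebraMap_apply, hf, algebraMap_smul,
        Algebra.smul_def, Algebra.smul_def, map_mul, ← IsScalarTower.algebraMap_apply]
      rfl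
    | smul s q h =>
      obtain ⟨f, hf⟩ := h
      exact ⟨s • f, by rw [map_smul, hf, smul_comm]⟩
    | add q q' h h' =>
      obtain ⟨f, hf⟩ := h
      obtain ⟨f', hf'⟩ := h'
      exact ⟨f + f', by rw [map_add, hf, hf', smul_add]⟩

/-- reductions of the maximal ideal only depend on the generators modulo its square -/
theorem IsRed.perturb {R : Type*} [CommRing R] [IsLocalRing R] [IsNoetherianRing R] {W W' : Ideal R}
    (h : IsRed ⊥ W (maximalIdeal R)) (h1 : W' ≤ maximalIdeal R)
    (h2 : W ≤ W' ⊔ maximalIdeal R ^ 2) : IsRed ⊥ W' (maximalIdeal R) := by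
  obtain ⟨-, r, hr⟩ := h
  refine ⟨h1, r, ?_⟩
  rw [bot_sup_eq] at hr ⊢
  refine Submodule.le_of_le_smul_of_le_jacobson_bot (I := maximalIdeal R)
    (IsNoetherian.noetherian _) (jacobson_eq_maximalIdeal ⊥ bot_ne_top).ge
    (hr.trans ((Ideal.mul_mono_left h2).trans ?_))
  rw [Ideal.sup_mul, smul_eq_mul, ← pow_add, ← pow_succ', add_comm 2 r]

end Vale.Agent.P202
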