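import Vale.Agent.P202.CoreAbs
import Vale.Agent.P202.HypEx
import Vale.Agent.P202.CohenC
import Vale.Agent.P202.Resol

/-! The core inequality over a domain birational to a hypersurface. -/

namespace Vale.Agent.P202

open IsLocalRing MvPowerSeries

universe u v

theorem domTop_regSeq {A B : Type*} [CommRing A] [CommRing B] (φ : A →+* B) (l : List A) :
    ∀ c : Ideal B, (∀ y : B, ∃ a : A, y - φ a ∈ c) → RegSeq (c.comap φ) l →
      RegSeq c (l.map φ) := by
  induction l with
  | nil => exact fun _ _ _ => trivial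
  | cons a l ih =>
    intro c hc h
    refine ⟨fun y hy => ?_, ih _ (fun y => (hc y).imp fun b hb => Ideal.mem_sup_left hb) ?_⟩
    · obtain ⟨b, hb⟩ := hc y
      have h1 : φ (a * b) ∈ c := by
        have e : φ (a * b) = φ a * y - φ a * (y - φ b) := by rw [map_mul]; ring
        rw [e]
        exact c.sub_mem hy (c.mul_mem_left _ hb)
      have h2 : φ b ∈ c := h.1 b h1
      simpa using c.add_mem hb h2
    · have e : (c ⊔ Ideal.span {φ a}).comap φ = c.comap φ ⊔ Ideal.span {a} := by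
        refine le_antisymm (fun z hz => ?_) (sup_le (Ideal.comap_mono le_sup_left) ?_)
        · obtain ⟨y, hy⟩ := cm_mem_sup.1 (Ideal.mem_comap.1 hz)
          obtain ⟨b, hb⟩ := hc y
          refine cm_mem_sup.2 ⟨b, ?_⟩
          have e : φ (z - a * b) = (φ z - φ a * y) + φ a * (y - φ b) := by
            rw [map_sub, map_mul]; ring
          rw [Ideal.mem_comap, e]
          exact c.add_mem hy (c.mul_mem_left _ hb)
        · exact (Ideal.span_singleton_le_iff_mem _).2
            (Ideal.mem_sup_right (Ideal.mem_span_singleton_self _))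
      rw [e]
      exact h.2

theorem domTop_span {R Q : Type*} [CommRing R] [CommRing Q] (j : R →+* Q) {d v : ℕ} (x : R)
    (a : Fin d → R) (b : Fin (d + v) → Q) (e : ∀ i, j (a i) = b (Fin.castAdd v i)) :
    Ideal.ofList (List.ofFn fun i => b (Fin.natAdd d i)) ⊔
        (Ideal.span (Set.range (Fin.cons x a : Fin (d + 1) → R))).map j =
      Ideal.span (Set.range (Fin.cons (j x) b : Fin (d + v + 1) → Q)) := by
  rw [kos_span_cons, kos_span_cons, Ideal.map_sup, Ideal.map_span, Ideal.map_span,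
    Set.image_singleton, sup_left_comm, cm_ofList_ofFn, ← Set.range_comp, ← Ideal.span_union]
  refine congrArg (fun s => Ideal.span {j x} ⊔ Ideal.span s) (Set.Subset.antisymm ?_ ?_)
  · rintro _ (⟨i, rfl⟩ | ⟨i, rfl⟩)
    · exact ⟨_, rfl⟩
    · exact ⟨_, (e i).symm⟩
  · rintro _ ⟨i, rfl⟩
    induction i using Fin.addCases with
    | left i => exact Or.inr ⟨i, e i⟩
    | right i => exact Or.inl ⟨i, rfl⟩

section Push
variable {T R P : Type*} (Q : Type*) [CommRing T] [CommRing R] [CommRing P] [CommRing Q]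
  [Algebra T R] [Algebra T P] [Algebra P Q] [Algebra R Q] [Algebra T Q] [IsScalarTower T P Q]
  [IsScalarTower T R Q] [Algebra.IsPushout T P R Q] [IsLocalRing T] [IsLocalRing R]

theorem domTop_desc (hres : ∀ r : R, ∃ t : T, r - algebraMap T R t ∈ maximalIdeal R) :
    ∃ θ : Q →+* P ⧸ (maximalIdeal T).map (algebraMap T P),
      (∀ a : P, θ (algebraMap P Q a) = Ideal.Quotient.mk _ a) ∧
      ∀ r ∈ maximalIdeal R, θ (algebraMap R Q r) = 0 := by
  have hs : Function.Surjective ((residue R).comp (algebraMap T R)) := fun z => by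
    obtain ⟨y, rfl⟩ := residue_surjective z
    obtain ⟨t, ht⟩ := hres y
    refine ⟨t, ?_⟩
    rw [RingHom.comp_apply, eq_comm, ← sub_eq_zero, ← map_sub, residue_eq_zero_iff]
    exact ht
  let γ : ResidueField R →+* P ⧸ (maximalIdeal T).map (algebraMap T P) :=
    ((residue R).comp (algebraMap T R)).liftOfSurjective hs
      ⟨(Ideal.Quotient.mk _).comp (algebraMap T P), fun a ha => by
        rw [RingHom.mem_ker, RingHom.comp_apply, Ideal.Quotient.eq_zero_iff_mem]
        exact Ideal.mem_map_of_mem _ (le_maximalIdeal (RingHom.ker_ne_top _) ha)⟩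
  have hγ : γ.comp ((residue R).comp (algebraMap T R)) =
      (Ideal.Quotient.mk _).comp (algebraMap T P) := RingHom.liftOfRightInverse_comp _ _ _ _
  let g : R →ₐ[T] P ⧸ (maximalIdeal T).map (algebraMap T P) :=
    { γ.comp (residue R) with commutes' := fun t => RingHom.congr_fun hγ t }
  refine ⟨(Algebra.pushoutDesc Q (Ideal.Quotient.mkₐ T _) g fun _ _ => mul_comm _ _).toRingHom,
    fun a => Algebra.pushoutDesc_left Q _ _ _ a, fun r hr => ?_⟩
  refine (Algebra.pushoutDesc_right Q _ _ _ r).trans ?_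
  change γ (residue R r) = 0
  rw [(residue_eq_zero_iff r).2 hr, map_zero]

omit [IsLocalRing T] in
theorem domTop_surj (hres : ∀ r : R, ∃ t : T, r - algebraMap T R t ∈ maximalIdeal R) (y : Q) :
    ∃ a : P, y - algebraMap P Q a ∈ (maximalIdeal R).map (algebraMap R Q) := by
  induction y using (Algebra.IsPushout.out (R := T) (S := P) (R' := R) (S' := Q)).inductionOn with
  | zero => exact ⟨0, by simp⟩
  | tmul r =>
    obtain ⟨t, ht⟩ := hres r
    refine ⟨algebraMap T P t, ?_⟩
    have := Ideal.mem_map_of_mem (algebraMap R Q) ht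
    rwa [map_sub, ← IsScalarTower.algebraMap_apply, IsScalarTower.algebraMap_apply T P Q] at this
  | smul s y h =>
    obtain ⟨a, ha⟩ := h
    exact ⟨s * a, by
      rw [map_mul, Algebra.smul_def, ← mul_sub]; exact Ideal.mul_mem_left _ _ ha⟩
  | add y y' h h' =>
    obtain ⟨a, ha⟩ := h
    obtain ⟨a', ha'⟩ := h'
    exact ⟨a + a', by rw [map_add, add_sub_add_comm]; exact add_mem ha ha'⟩

end Push

/-- compatible presentations -/
theorem domain_setup {p : ℕ} [Fact p.Prime] {V : Type*} [CommRing V] [IsDomain V]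
    [IsDiscreteValuationRing V] (hV : maximalIdeal V = Ideal.span {(p : V)}) {d' : ℕ} (S : Type v)
    [CommRing S] [IsLocalRing S] [IsNoetherianRing S] (t : MvPowerSeries (Fin d') V →+* S)
    (ht : (maximalIdeal _).map t ≤ maximalIdeal S) :
    ∃ (v : ℕ) (V1 : Type v) (_ : CommRing V1) (_ : IsDomain V1) (_ : IsDiscreteValuationRing V1)
      (_ : IsAdicComplete (maximalIdeal V1) V1) (J : Ideal (MvPowerSeries (Fin (d' + v)) V1))
      (ι : S →+* MvPowerSeries (Fin (d' + v)) V1 ⧸ J)
      (ψ : MvPowerSeries (Fin d') V →+* MvPowerSeries (Fin (d' + v)) V1),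
      PBase p V1 ∧ J ≠ ⊤ ∧ CP ι ⊥ ⊥ ∧
      (maximalIdeal S).map ι = (maximalIdeal _).map (Ideal.Quotient.mk J) ∧
      (∀ j, ψ (X j) = X (Fin.castAdd v j)) ∧ (Ideal.Quotient.mk J).comp ψ = ι.comp t := by
  have hp : (p : S) ∈ maximalIdeal S := by
    rw [← map_natCast t]
    refine ht (Ideal.mem_map_of_mem _ ?_)
    rw [maximalIdeal_psV' hV]
    exact Ideal.mem_sup_left (Ideal.mem_span_singleton_self _)
  obtain ⟨v, ys, hy⟩ := exists_gen (maximalIdeal S)
  have hw : Ideal.span (Set.range (Fin.append (fun j => t (X j)) ys)) = maximalIdeal S := by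
    refine le_antisymm (Ideal.span_le.2 ?_) ?_
    · rintro _ ⟨j, rfl⟩
      induction j using Fin.addCases with
      | left j =>
        rw [Fin.append_left]
        refine ht (Ideal.mem_map_of_mem _ ?_)
        rw [maximalIdeal_psV' hV]
        exact Ideal.mem_sup_right (Ideal.subset_span ⟨j, rfl⟩)
      | right j =>
        rw [Fin.append_right, hy]
        exact Ideal.subset_span ⟨j, rfl⟩
    · rw [hy]
      refine Ideal.span_mono ?_
      rintro _ ⟨j, rfl⟩
      exact ⟨Fin.natAdd d' j, Fin.append_right _ _ j⟩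
  obtain ⟨V1, _, _, _, _, J, ι, hB, hJ, hι, hcp⟩ := cohen_mixed p S hp _ hw
  have : Nontrivial (MvPowerSeries (Fin (d' + v)) V1 ⧸ J) := Ideal.Quotient.nontrivial_iff.2 hJ
  have hmk : Function.Surjective (Ideal.Quotient.mk J) := Ideal.Quotient.mk_surjective
  have : IsLocalRing (MvPowerSeries (Fin (d' + v)) V1 ⧸ J) := IsLocalRing.of_surjective' _ hmk
  have hXm : ∀ j, X j ∈ maximalIdeal (MvPowerSeries (Fin (d' + v)) V1) := fun j => by
    rw [maximalIdeal_psV' hB.max]; exact Ideal.mem_sup_right (Ideal.subset_span ⟨j, rfl⟩)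
  obtain ⟨s, hs⟩ := lift_adic hV (P := MvPowerSeries (Fin (d' + v)) V1) (by
    rw [maximalIdeal_psV' hB.max]; exact Ideal.mem_sup_left (Ideal.mem_span_singleton_self _))
    (Ideal.Quotient.mk J) hmk ((ι.comp t).comp C)
  obtain ⟨ψ, hC, hX⟩ := exists_ev (maximalIdeal (MvPowerSeries (Fin (d' + v)) V1)) s
    (fun j : Fin d' => X (Fin.castAdd v j)) fun j => hXm _
  refine ⟨v, V1, inferInstance, inferInstance, inferInstance, inferInstance, J, ι, ψ, hB, hJ, hcp,
    ?_, hX, ?_⟩
  · refine le_antisymm ?_ ?_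
    · rw [← hw, Ideal.map_span, Ideal.span_le]
      rintro _ ⟨_, ⟨j, rfl⟩, rfl⟩
      rw [hι]
      exact Ideal.mem_map_of_mem _ (hXm j)
    · rw [maximalIdeal_psV' hB.max, Ideal.map_sup, Ideal.map_span, Ideal.map_span,
        Set.image_singleton, map_natCast, ← map_natCast ι]
      refine sup_le ((Ideal.span_singleton_le_iff_mem _).2 (Ideal.mem_map_of_mem _ hp))
        (Ideal.span_le.2 ?_)
      rintro _ ⟨_, ⟨j, rfl⟩, rfl⟩
      rw [← hι]
      exact Ideal.mem_map_of_mem _ (hw ▸ Ideal.subset_span ⟨j, rfl⟩)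
  · refine ev_unique (maximalIdeal _) _ _ (fun c => ?_) (fun j => ?_) fun j => ?_
    · rw [RingHom.comp_apply, hC]
      exact RingHom.congr_fun hs c
    · rw [RingHom.comp_apply, hX, ← hι, Fin.append_left, RingHom.comp_apply]
    · rw [RingHom.comp_apply, hX, ← map_max_surj hmk]
      exact Ideal.mem_map_of_mem _ (hXm _)

/-- the base change of `R` to the big power series ring -/
theorem domain_tensor {p : ℕ} {V V1 : Type*} [CommRing V] [IsDomain V] [IsDiscreteValuationRing V]
    [CommRing V1] [IsDomain V1] [IsDiscreteValuationRing V1]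
    (hV : maximalIdeal V = Ideal.span {(p : V)}) (hV1 : maximalIdeal V1 = Ideal.span {(p : V1)})
    {d' v : ℕ} {R Q : Type*} [CommRing R] [IsLocalRing R] [IsNoetherianRing R] [CommRing Q]
    [Algebra (MvPowerSeries (Fin d') V) R] [Module.Finite (MvPowerSeries (Fin d') V) R]
    [Algebra (MvPowerSeries (Fin d') V) (MvPowerSeries (Fin (d' + v)) V1)]
    [Algebra (MvPowerSeries (Fin (d' + v)) V1) Q] [Algebra R Q]
    [Algebra (MvPowerSeries (Fin d') V) Q]
    [IsScalarTower (MvPowerSeries (Fin d') V) (MvPowerSeries (Fin (d' + v)) V1) Q]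
    [IsScalarTower (MvPowerSeries (Fin d') V) R Q]
    [Algebra.IsPushout (MvPowerSeries (Fin d') V) (MvPowerSeries (Fin (d' + v)) V1) R Q]
    (hψ : ∀ j, algebraMap (MvPowerSeries (Fin d') V) (MvPowerSeries (Fin (d' + v)) V1) (X j) =
      X (Fin.castAdd v j))
    (hm : (maximalIdeal _).map (algebraMap (MvPowerSeries (Fin d') V) R) ≤ maximalIdeal R)
    (hres : ∀ r : R, ∃ t : MvPowerSeries (Fin d') V, r - algebraMap _ R t ∈ maximalIdeal R) :
    ∃ (_ : IsLocalRing Q) (_ : IsNoetherianRing Q)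
      (_ : Module.Finite (MvPowerSeries (Fin (d' + v)) V1) Q),
      Module.Flat (MvPowerSeries (Fin d') V) (MvPowerSeries (Fin (d' + v)) V1) ∧
      Function.Injective
        (algebraMap (MvPowerSeries (Fin d') V) (MvPowerSeries (Fin (d' + v)) V1)) ∧
      CP (algebraMap R Q) ⊥ ⊥ ∧
      (maximalIdeal _).map (algebraMap (MvPowerSeries (Fin (d' + v)) V1) Q) ≤ maximalIdeal Q ∧
      (∀ r : Q, ∃ t : MvPowerSeries (Fin (d' + v)) V1, r - algebraMap _ Q t ∈ maximalIdeal Q) ∧
      maximalIdeal Q = (maximalIdeal R).map (algebraMap R Q) ⊔ Ideal.ofList (List.ofFn fun j =>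
        algebraMap (MvPowerSeries (Fin (d' + v)) V1) Q (X (Fin.natAdd d' j))) ∧
      RegSeq ((maximalIdeal R).map (algebraMap R Q)) (List.ofFn fun j =>
        algebraMap (MvPowerSeries (Fin (d' + v)) V1) Q (X (Fin.natAdd d' j))) := by
  have : IsDomain (MvPowerSeries (Fin d') V) := NoZeroDivisors.to_isDomain _
  have hcp := cp_psV hV hV1 _ (Fin.castAdd v) (Fin.castAdd_injective _ _) hψ
  have hflat : Module.Flat (MvPowerSeries (Fin d') V) (MvPowerSeries (Fin (d' + v)) V1) :=
    CP.flat hcp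
  have hfin : Module.Finite (MvPowerSeries (Fin (d' + v)) V1) Q :=
    Module.Finite.equiv (Algebra.IsPushout.equiv (MvPowerSeries (Fin d') V)
      (MvPowerSeries (Fin (d' + v)) V1) R Q).toLinearEquiv
  have hmap : (maximalIdeal (MvPowerSeries (Fin d') V)).map
      (algebraMap _ (MvPowerSeries (Fin (d' + v)) V1)) =
      Ideal.span {(p : MvPowerSeries (Fin (d' + v)) V1)} ⊔
        Ideal.span (X '' Set.range (Fin.castAdd v)) := by
    rw [maximalIdeal_psV' hV, Ideal.map_sup, Ideal.map_span, Ideal.map_span, Set.image_singleton,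
      map_natCast, ← Set.range_comp, ← Set.range_comp]
    exact congrArg (fun f => _ ⊔ Ideal.span (Set.range f)) (funext hψ)
  have hXm : ∀ j, X j ∈ maximalIdeal (MvPowerSeries (Fin (d' + v)) V1) := fun j => by
    rw [maximalIdeal_psV' hV1]; exact Ideal.mem_sup_right (Ideal.subset_span ⟨j, rfl⟩)
  have hle : (maximalIdeal (MvPowerSeries (Fin d') V)).map
      (algebraMap _ (MvPowerSeries (Fin (d' + v)) V1)) ≤ maximalIdeal _ := by
    rw [hmap, maximalIdeal_psV' hV1]
    exact sup_le_sup_left (Ideal.span_mono (Set.image_subset_range _ _)) _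
  obtain ⟨θ, hθ1, hθ2⟩ := domTop_desc (P := MvPowerSeries (Fin (d' + v)) V1) Q hres
  have : Nontrivial (MvPowerSeries (Fin (d' + v)) V1 ⧸
      (maximalIdeal (MvPowerSeries (Fin d') V)).map (algebraMap _ _)) :=
    Ideal.Quotient.nontrivial_iff.2 (ne_top_of_le_ne_top (maximalIdeal.isMaximal _).ne_top hle)
  have : Nontrivial Q := θ.domain_nontrivial
  have hsurj := domTop_surj (P := MvPowerSeries (Fin (d' + v)) V1) Q hres
  have hmm : ((maximalIdeal (MvPowerSeries (Fin d') V)).map
      (algebraMap _ (MvPowerSeries (Fin (d' + v)) V1))).map (algebraMap _ Q) =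
      ((maximalIdeal (MvPowerSeries (Fin d') V)).map (algebraMap _ R)).map (algebraMap R Q) := by
    rw [Ideal.map_map, Ideal.map_map, ← IsScalarTower.algebraMap_eq, ← IsScalarTower.algebraMap_eq]
  have hcomap : ((maximalIdeal R).map (algebraMap R Q)).comap
      (algebraMap (MvPowerSeries (Fin (d' + v)) V1) Q) =
      (maximalIdeal (MvPowerSeries (Fin d') V)).map (algebraMap _ _) := by
    refine le_antisymm (fun a ha => ?_) ?_
    · rw [← Ideal.Quotient.eq_zero_iff_mem, ← hθ1]
      exact (Ideal.map_le_iff_le_comap.2 hθ2 : _ ≤ RingHom.ker θ) ha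
    · rw [← Ideal.map_le_iff_le_comap, hmm]
      exact Ideal.map_mono hm
  have h2 : (maximalIdeal (MvPowerSeries (Fin (d' + v)) V1)).map (algebraMap _ Q) ≤
      (maximalIdeal R).map (algebraMap R Q) ⊔ Ideal.ofList (List.ofFn fun j =>
        algebraMap (MvPowerSeries (Fin (d' + v)) V1) Q (X (Fin.natAdd d' j))) := by
    have h0 := hcomap.ge
    rw [hmap] at h0
    rw [maximalIdeal_psV' hV1, Ideal.map_le_iff_le_comap]
    refine sup_le ((le_sup_left.trans h0).trans (Ideal.comap_mono le_sup_left))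
      (Ideal.span_le.2 ?_)
    rintro _ ⟨j, rfl⟩
    induction j using Fin.addCases with
    | left j =>
      exact Ideal.mem_sup_left (h0 (Ideal.mem_sup_right (Ideal.subset_span ⟨_, ⟨j, rfl⟩, rfl⟩)))
    | right j => exact Ideal.mem_sup_right (Ideal.subset_span (List.mem_ofFn.2 ⟨j, rfl⟩))
  obtain ⟨hloc, hmax⟩ := isLocal_of_finite (A := MvPowerSeries (Fin (d' + v)) V1) _
    (fun y => (hsurj y).imp fun a ha => Ideal.mem_sup_left ha) h2 (by
      refine sup_le ?_ (le_trans (Ideal.span_le.2 ?_) Ideal.le_radical)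
      · refine (Ideal.map_mono (prim_iff_radical.1
          (prim_of_finite (T := MvPowerSeries (Fin d') V) (R := R)))).trans
          ((Ideal.map_radical_le _).trans (Ideal.radical_mono ?_))
        rw [← hmm]
        exact Ideal.map_mono hle
      · intro a ha
        obtain ⟨j, rfl⟩ := List.mem_ofFn.1 ha
        exact Ideal.mem_map_of_mem _ (hXm _))
  refine ⟨hloc, IsNoetherianRing.of_finite (MvPowerSeries (Fin (d' + v)) V1) Q, hfin, hflat, ?_,
    cp_pushout (T := MvPowerSeries (Fin d') V) (P := MvPowerSeries (Fin (d' + v)) V1),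
    hmax ▸ h2, fun y => (hsurj y).imp fun a ha => hmax ▸ Ideal.mem_sup_left ha, hmax, ?_⟩
  · rw [injective_iff_map_eq_zero]
    intro r hr
    by_contra h0
    have h1 := hcp ⊥ le_rfl r 1 (by rw [hr, zero_mul]; exact zero_mem _)
    have h3 : (⊥ : Ideal (MvPowerSeries (Fin d') V)).colon {r} = ⊥ := by
      refine le_antisymm (fun a ha => ?_) bot_le
      rw [Submodule.mem_colon_singleton, smul_eq_mul, Ideal.mem_bot, mul_eq_zero] at ha
      exact ha.resolve_right h0
    rw [h3, Ideal.map_bot, sup_idem, Ideal.mem_bot] at h1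
    exact one_ne_zero h1
  · have h1 := regSeq_X_psV hV1 (List.ofFn (Fin.natAdd d' : Fin v → Fin (d' + v)))
      (List.nodup_ofFn.2 (Fin.natAdd_injective _ _)) (Set.range (Fin.castAdd v)) fun i hi => by
        obtain ⟨j, rfl⟩ := List.mem_ofFn.1 hi
        rintro ⟨k, hk⟩
        have h4 := congrArg Fin.val hk
        have h5 := k.2
        simp only [Fin.val_castAdd, Fin.val_natAdd] at h4
        omega
    rw [← hmap, ← hcomap] at h1
    have h3 := domTop_regSeq _ _ _ hsurj h1
    rwa [List.map_ofFn, List.map_ofFn] at h3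

/-- adjoining a fibrewise regular sequence does not change the multiplicity -/
theorem lim_fibre {R Q : Type*} [CommRing R] [IsLocalRing R] [IsNoetherianRing R] [CommRing Q]
    [IsLocalRing Q] [IsNoetherianRing Q] (j : R →+* Q) (hj : CP j ⊥ ⊥) (Y : List Q)
    (hm : maximalIdeal Q = (maximalIdeal R).map j ⊔ Ideal.ofList Y)
    (hY : RegSeq ((maximalIdeal R).map j) Y) {W : Ideal R} {d : ℕ} (hW : Gen W d)
    (hred : IsRed ⊥ W (maximalIdeal R)) {e : ℝ}
    (he : Lim d (fun N => cl (maximalIdeal R ^ N)) e) :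
    Lim (d + Y.length) (fun N => cl (maximalIdeal Q ^ N)) e := by
  have hjm : (maximalIdeal R).map j ≤ maximalIdeal Q := hm ▸ le_sup_left
  obtain ⟨hreg, hcp⟩ := CP.regSeq hjm hj Y (by rwa [sup_bot_eq])
  have hmax : Prim (⊥ ⊔ maximalIdeal R) := ⟨1, by simp⟩
  have hWp := hred.prim hmax
  have h1 := (lim_red_iff (d := d) (e := e) hred hmax).2 (by simpa using he)
  have hr2 := (hred.map j).sup (Ideal.ofList Y)
  rw [Ideal.map_bot, sup_comm _ ((maximalIdeal R).map j), ← hm] at hr2
  have hmaxQ : Prim (⊥ ⊔ maximalIdeal Q) := ⟨1, by simp⟩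
  have h2 := hreg ⊥ le_rfl
  rw [Ideal.map_bot, sup_idem] at h2
  have h3 := lim_regSeq (hW.map j) Y h2 (by rw [sup_assoc]; exact hr2.prim hmaxQ) (e := e)
    (h1.congr' (Filter.Eventually.of_forall fun N => by
      have h4 := hcp.rl_map (a := ⊥ ⊔ W ^ N) bot_le (rl_ne_top_of_prim (hWp.sup_pow N))
      simp only [bot_sup_eq] at h4 ⊢
      rw [← hm, rl_maximal, mul_one, Ideal.map_pow, sup_comm] at h4
      simp only [cl]
      rw [h4]))
  simpa using (lim_red_iff hr2 hmaxQ).1 h3

theorem domain_top {p : ℕ} [Fact p.Prime] {V : Type*} [CommRing V] [IsDomain V]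
    [IsDiscreteValuationRing V] (hV : maximalIdeal V = Ideal.span {(p : V)}) {d' : ℕ} (R : Type u)
    (S : Type v) [CommRing R] [IsDomain R] [IsLocalRing R] [IsNoetherianRing R]
    [Algebra (MvPowerSeries (Fin d') V) R] [Module.Finite (MvPowerSeries (Fin d') V) R]
    (hm : (maximalIdeal _).map (algebraMap (MvPowerSeries (Fin d') V) R) ≤ maximalIdeal R)
    (hres : ∀ r : R, ∃ t : MvPowerSeries (Fin d') V, r - algebraMap _ R t ∈ maximalIdeal R) {x : R}
    {F : Polynomial (MvPowerSeries (Fin d') V)} {g0 g1 : MvPowerSeries (Fin d') V}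
    (hH : HypData x F g0 g1)
    (hred : IsRed ⊥ (Ideal.span (Set.range (Fin.cons x
      (fun j => algebraMap (MvPowerSeries (Fin d') V) R (X j)) : Fin (d' + 1) → R)))
      (maximalIdeal R))
    [CommRing S] [IsLocalRing S] [IsNoetherianRing S] [Algebra R S]
    [IsLocalHom (algebraMap R S)] [Module.Flat R S]
    (hfib : Prim ((maximalIdeal R).map (algebraMap R S))) {Z : Ideal S} (hZ : Gen Z (d' + 1))
    (hZm : Z ≤ maximalIdeal S) (hZp : Prim Z) {eR eS : ℝ}
    (hR : Lim (d' + 1) (fun N => cl (maximalIdeal R ^ N)) eR)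
    (hS : Lim (d' + 1) (fun N => cl (Z ^ N)) eS) : eR ≤ eS := by
  classical
  have hloc : (maximalIdeal R).map (algebraMap R S) ≤ maximalIdeal S :=
    ((local_hom_TFAE (algebraMap R S)).out 0 2).1 ‹_›
  obtain ⟨v, V1, _, _, _, _, J0, ι, ψ, hB, hJ0, hι, hιm, hψ, hc⟩ := domain_setup hV S
    ((algebraMap R S).comp (algebraMap (MvPowerSeries (Fin d') V) R)) (by
      rw [← Ideal.map_map]; exact (Ideal.map_mono hm).trans hloc)
  let := ψ.toAlgebra
  let Q := TensorProduct (MvPowerSeries (Fin d') V) (MvPowerSeries (Fin (d' + v)) V1) R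
  let : Algebra R Q := Algebra.TensorProduct.rightAlgebra
  obtain ⟨_, _, _, hflat, hinj, hcp, hmQ, hresQ, hmax, hreg⟩ :=
    domain_tensor (Q := Q) (v := v) hV hB.max hψ hm hres
  have : Nontrivial (MvPowerSeries (Fin (d' + v)) V1 ⧸ J0) := Ideal.Quotient.nontrivial_iff.2 hJ0
  have hmk : Function.Surjective (Ideal.Quotient.mk J0) := Ideal.Quotient.mk_surjective
  have : IsLocalRing (MvPowerSeries (Fin (d' + v)) V1 ⧸ J0) := IsLocalRing.of_surjective' _ hmk
  rw [map_max_surj hmk] at hιm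
  let g : R →ₐ[MvPowerSeries (Fin d') V] MvPowerSeries (Fin (d' + v)) V1 ⧸ J0 :=
    { ι.comp (algebraMap R S) with commutes' := fun t => (RingHom.congr_fun hc t).symm }
  let θ : Q →+* MvPowerSeries (Fin (d' + v)) V1 ⧸ J0 :=
    (Algebra.pushoutDesc Q (Ideal.Quotient.mkₐ (MvPowerSeries (Fin d') V) J0) g
      fun _ _ => mul_comm _ _).toRingHom
  have hθ1 : ∀ a, θ (algebraMap _ Q a) = Ideal.Quotient.mk J0 a :=
    fun a => Algebra.pushoutDesc_left Q _ _ _ a
  have hθ2 : θ.comp (algebraMap R Q) = ι.comp (algebraMap R S) :=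
    RingHom.ext fun r => Algebra.pushoutDesc_right Q
      (Ideal.Quotient.mkₐ (MvPowerSeries (Fin d') V) J0) g (fun _ _ => mul_comm _ _) r
  have hθ : Function.Surjective θ := fun z => by
    obtain ⟨a, rfl⟩ := hmk z
    exact ⟨_, hθ1 a⟩
  have h2 : CP (algebraMap R Q) ⊥ (RingHom.ker θ) := by
    rw [RingHom.ker_eq_comap_bot, ← cp_comp_surj_iff hθ, hθ2]
    exact CP.comp CP.of_flat (by rwa [Ideal.map_bot])
  obtain ⟨K, _, _, i, G, a0, hi, hG, hR'⟩ := exists_res (algebraMap R Q) hcp h2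
    (le_maximalIdeal (RingHom.ker_ne_top θ)) bot_le _ hmax hreg
  have hJ := hR' ⊥ le_rfl
  rw [Ideal.map_bot, sup_bot_eq] at hJ
  rw [List.length_ofFn] at hi
  have hpm : ∀ a : Ideal S, Prim a → Prim (a.map ι) := fun a ha => by
    have := Prim.map (ι := ι) (c := ⊥) ⟨1, by simp [hιm]⟩ ha
    rwa [bot_sup_eq] at this
  have hfib' : Prim (RingHom.ker θ ⊔ (maximalIdeal R).map (algebraMap R Q)) := by
    rw [← prim_map_surj_iff hθ, Ideal.map_map, hθ2, ← Ideal.map_map]
    exact hpm _ hfib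
  obtain ⟨Z', hZ', hZ'e⟩ := Gen.exists_lift hθ (hZ.map ι)
  have hZ'm : Z' ≤ maximalIdeal Q := fun a ha hu => by
    have h1 : θ a ∈ maximalIdeal _ := by
      rw [← hιm]
      exact Ideal.map_mono hZm (hZ'e ▸ Ideal.mem_map_of_mem _ ha)
    exact h1 (hu.map _)
  have hred' : IsRed ⊥ (Ideal.span (Set.range (Fin.cons (algebraMap R Q x) (fun j =>
      algebraMap (MvPowerSeries (Fin (d' + v)) V1) Q (X j)) : Fin (d' + v + 1) → Q)))
      (maximalIdeal Q) := by
    have h1 := (hred.map (algebraMap R Q)).sup (Ideal.ofList (List.ofFn fun j =>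
      algebraMap (MvPowerSeries (Fin (d' + v)) V1) Q (X (Fin.natAdd d' j))))
    rw [Ideal.map_bot, sup_comm _ ((maximalIdeal R).map _), ← hmax] at h1
    have e1 : ∀ j, algebraMap R Q (algebraMap (MvPowerSeries (Fin d') V) R (X j)) =
        algebraMap (MvPowerSeries (Fin (d' + v)) V1) Q (X (Fin.castAdd v j)) := fun j => by
      rw [← hψ, ← IsScalarTower.algebraMap_apply]
      exact IsScalarTower.algebraMap_apply _ (MvPowerSeries (Fin (d' + v)) V1) Q _
    rwa [domTop_span (algebraMap R Q) x _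
      (fun j => algebraMap (MvPowerSeries (Fin (d' + v)) V1) Q (X j)) e1] at h1
  obtain ⟨W1, hW1, hW1m, hW1p⟩ : ∃ W1 : Ideal R, Gen W1 d' ∧ W1 ≤ maximalIdeal R ∧
      Prim (Ideal.span {algebraMap (MvPowerSeries (Fin d') V) R g0} ⊔ W1) := by
    by_cases hu : Ideal.span {algebraMap (MvPowerSeries (Fin d') V) R g0} = ⊤
    · exact ⟨⊥, ⟨fun _ => 0, by
        rw [eq_comm, Ideal.span_eq_bot]; rintro _ ⟨_, rfl⟩; rfl⟩, bot_le, 0, by simp [hu]⟩
    · exact exists_sop_of_lt (p := ⊥) hu (bot_lt_iff_ne_bot.2 (by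
        simpa using (map_ne_zero_iff _ hH.injective).2 hH.ne0)) ⟨_, rfl⟩ hred.1
        (hred.prim ⟨1, by simp⟩)
  have hRQ : (maximalIdeal R).map (algebraMap R Q) ≤ maximalIdeal Q := hmax ▸ le_sup_left
  refine core_abs hB hmQ hresQ (hH.baseChange hinj) hred' (d := d' + 1) (v := v) (by omega) hJ hi
    hG hZ' hZ'm ?_ (Nat.lt_succ_self d') (hW1.map (algebraMap R Q))
    ((Ideal.map_mono hW1m).trans hRQ) ?_ ?_ ?_
  · rw [← prim_map_surj_iff hθ, hZ'e]
    exact hpm _ hZp
  · have h1 := Prim.map hfib' hW1p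
    rwa [Ideal.map_sup, Ideal.map_span, Set.image_singleton, ← sup_assoc,
      ← IsScalarTower.algebraMap_apply,
      IsScalarTower.algebraMap_apply _ (MvPowerSeries (Fin (d' + v)) V1) Q] at h1
  · have h1 := lim_fibre _ hcp _ hmax hreg ⟨_, rfl⟩ hred hR
    rwa [List.length_ofFn, add_right_comm] at h1
  · refine hS.congr' (Filter.Eventually.of_forall fun N => ?_)
    have h1 := Prim.sup_pow (q := ⊥) (hZp.mono le_sup_right) N
    rw [bot_sup_eq] at h1
    rw [← cl_map_surj hθ, Ideal.map_pow, hZ'e, ← Ideal.map_pow, cl_map_unram hι hιm h1]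

end Vale.Agent.P202
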