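import Vale.Agent.P202.Colon

/-! Dimension lemmas; finite algebras over local rings. -/

namespace Vale.Agent.P202

open IsLocalRing

variable {A B : Type*} [CommRing A] [CommRing B]

theorem exists_min_prime_dim [IsNoetherianRing A] [IsLocalRing A] {I : Ideal A} (hI : I ≠ ⊤) :
    ∃ Q ∈ I.minimalPrimes, ringKrullDim (A ⧸ I) ≤ ringKrullDim (A ⧸ Q) := by
  obtain ⟨Q, hQ, hm⟩ := Set.exists_max_image I.minimalPrimes (fun Q => ringKrullDim (A ⧸ Q))
    (Ideal.finite_minimalPrimes_of_isNoetherianRing A I) (Ideal.nonempty_minimalPrimes hI |>.elim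
      fun Q => ⟨Q.1, Q.2⟩)
  refine ⟨Q, hQ, ?_⟩
  rw [ringKrullDim_quotient]
  refine iSup_le fun l => ?_
  have := l.head.1.2
  obtain ⟨Q', hQ', hle⟩ := Ideal.exists_minimalPrimes_le (J := l.head.1.asIdeal) l.head.2
  refine le_trans ?_ (hm Q' hQ')
  rw [ringKrullDim_quotient]
  exact Order.LTSeries.length_le_krullDim (α := PrimeSpectrum.zeroLocus (R := A) Q')
    ⟨l.length, fun i => ⟨(l i).1, fun x hx => l.head_le i (hle hx)⟩, l.step⟩

theorem dim_le_of_cp [IsLocalRing A] [IsLocalRing B] {f : A →+* B} (h : CP f ⊥ ⊥)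
    (hf : (maximalIdeal A).map f ≤ maximalIdeal B) : ringKrullDim A ≤ ringKrullDim B := by
  let := f.toAlgebra
  have : Module.Flat A B := CP.flat h
  have : IsLocalHom (algebraMap A B) := ((local_hom_TFAE f).out 0 2).2 hf
  have := Module.FaithfullyFlat.of_flat_of_isLocalHom (A := A) (B := B)
  refine iSup_le fun l => ?_
  obtain ⟨P, hP⟩ := PrimeSpectrum.comap_surjective_of_faithfullyFlat (A := A) (B := B) l.last
  have : P.asIdeal.LiesOver l.last.asIdeal := ⟨by rw [← hP]; rfl⟩
  obtain ⟨L, hL, -⟩ := Ideal.exists_ltSeries_of_hasGoingDown l P.asIdeal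
  rw [← hL]
  exact Order.LTSeries.length_le_krullDim L

theorem exists_nat_dim (A : Type*) [CommRing A] [IsNoetherianRing A] [IsLocalRing A] :
    ∃ n : ℕ, ringKrullDim A = n := by
  exact ⟨_, Order.krullDim_eq_length_of_finiteDimensionalOrder⟩

theorem exists_sop' [IsNoetherianRing A] [IsLocalRing A] {d : ℕ} (hd : ringKrullDim A ≤ d) :
    ∃ W : Ideal A, Gen W d ∧ W ≤ maximalIdeal A ∧ Prim W := by
  simpa using exists_sop (⊥ : Ideal A) ((ringKrullDim_quotient_le _).trans hd)

theorem dim_le_of_sop' [IsNoetherianRing A] [IsLocalRing A] {W : Ideal A} {d : ℕ} (hW : Gen W d)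
    (hWm : W ≤ maximalIdeal A) (h : Prim W) : ringKrullDim A ≤ d := by
  rw [← ringKrullDim_eq_of_ringEquiv (RingEquiv.quotientBot A)]
  exact dim_le_of_sop hW hWm (by simpa using h)

/-- primary ideals descend along integral maps -/
theorem prim_comap [IsNoetherianRing A] [IsLocalRing A] [IsLocalRing B] (f : A →+* B)
    (hf : (maximalIdeal A).map f ≤ maximalIdeal B) (Q : Ideal B)
    (hint : ∀ y : B, ∃ p : Polynomial A, p.Monic ∧ Polynomial.eval₂ f y p ∈ Q) {W : Ideal A}
    (h : Prim (Q ⊔ W.map f)) : Prim (Q.comap f ⊔ W) := by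
  rw [prim_iff_radical, Ideal.radical_eq_sInf, le_sInf_iff]
  rintro P ⟨hP, hp⟩ x hx
  let := ((Ideal.Quotient.mk Q).comp f).toAlgebra
  have : Algebra.IsIntegral A (B ⧸ Q) := ⟨fun y => by
    obtain ⟨y, rfl⟩ := Ideal.Quotient.mk_surjective y
    obtain ⟨p, h1, h2⟩ := hint y
    exact ⟨p, h1, (Polynomial.hom_eval₂ p f _ y).symm.trans
      (Ideal.Quotient.eq_zero_iff_mem.2 h2)⟩⟩
  obtain ⟨Q', -, hQ', e⟩ := Ideal.exists_ideal_over_prime_of_isIntegral P (⊥ : Ideal (B ⧸ Q))
    fun a ha => hP (Ideal.mem_sup_left ((Ideal.Quotient.eq_zero_iff_mem (I := Q)).1 ha))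
  obtain ⟨c, hc⟩ := h
  have h1 : maximalIdeal B ≤ Q'.comap (Ideal.Quotient.mk Q) := by
    refine Ideal.IsPrime.le_of_pow_le (n := c) (hc.trans (sup_le (fun y hy => ?_) ?_))
    · rw [Ideal.mem_comap, Ideal.Quotient.eq_zero_iff_mem.2 hy]; exact zero_mem _
    · exact Ideal.map_le_iff_le_comap.2 ((le_sup_right.trans hP).trans e.ge)
  exact e.le (h1 (hf (Ideal.mem_map_of_mem f hx)))

theorem isLocal_of_finite [IsLocalRing A] [Algebra A B] [Module.Finite A B] [Nontrivial B]
    (n : Ideal B) (h1 : ∀ y : B, ∃ a : A, y - algebraMap A B a ∈ n)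
    (h2 : (maximalIdeal A).map (algebraMap A B) ≤ n)
    (h3 : n ≤ ((maximalIdeal A).map (algebraMap A B)).radical) :
    ∃ _ : IsLocalRing B, maximalIdeal B = n := by
  have key : ∀ M : Ideal B, M.IsMaximal → M = n := by
    intro M hM
    have e := eq_maximalIdeal (Ideal.isMaximal_comap_of_isIntegral_of_isMaximal (R := A) M)
    have h4 : n ≤ M := h3.trans (hM.isPrime.radical_le_iff.2 (Ideal.map_le_iff_le_comap.2 e.ge))
    refine le_antisymm (fun y hy => ?_) h4
    obtain ⟨a, ha⟩ := h1 y
    have h5 : a ∈ maximalIdeal A := e.le (by simpa using M.sub_mem hy (h4 ha))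
    simpa using n.add_mem ha (h2 (Ideal.mem_map_of_mem _ h5))
  obtain ⟨M, hM⟩ := Ideal.exists_maximal B
  have := IsLocalRing.of_unique_max_ideal ⟨M, hM, fun M' h => (key M' h).trans (key M hM).symm⟩
  exact ⟨this, key _ inferInstance⟩

theorem dim_prim_loc [IsNoetherianRing B] {I Q : Ideal B} [Q.IsPrime]
    (h : Q ∈ I.minimalPrimes) : Prim (I.map (algebraMap B (Localization.AtPrime Q))) := by
  rw [prim_iff_radical, Ideal.radical_eq_sInf, le_sInf_iff]
  rintro P ⟨hP, hp⟩
  rw [← Localization.AtPrime.map_eq_maximalIdeal, Ideal.map_le_iff_le_comap]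
  exact h.2 ⟨Ideal.comap_isPrime _ P, Ideal.map_le_iff_le_comap.1 hP⟩
    ((Ideal.comap_mono (le_maximalIdeal hp.ne_top)).trans
      Localization.AtPrime.under_maximalIdeal.le)

/-- in a finite extension a prime is minimal over the extension of its contraction -/
theorem prim_localization [IsNoetherianRing B] [Algebra A B] [Module.Finite A B] (Q : Ideal B)
    [Q.IsPrime] :
    Prim (((Q.comap (algebraMap A B)).map (algebraMap A B)).map
      (algebraMap B (Localization.AtPrime Q))) := by
  exact dim_prim_loc (Ideal.IsIntegral.mem_minimalPrimes_map_under Q)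

theorem prim_localization_of_minimal [IsNoetherianRing B] {I Q : Ideal B} [Q.IsPrime]
    (h : Q ∈ I.minimalPrimes) : Prim (I.map (algebraMap B (Localization.AtPrime Q))) := by
  exact dim_prim_loc h

/-- the localization of a finite algebra is generated by the old generators modulo powers -/
theorem surj_loc {A' B' : Type*} [CommRing A'] [CommRing B'] [Algebra A B] [Algebra A A']
    [Algebra B B'] [Algebra A' B'] [Algebra A B'] [IsScalarTower A B B'] [IsScalarTower A A' B']
    (Q : Ideal B) [Q.IsPrime] [IsLocalization.AtPrime B' Q]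
    [IsLocalization.AtPrime A' (Q.comap (algebraMap A B))] {ι : Type*} [Finite ι] (s : ι → B)
    (hs : Submodule.span A (Set.range s) = ⊤) (N : ℕ) (y : B') :
    ∃ w ∈ Submodule.span A' (Set.range fun a => algebraMap B B' (s a)),
      y - w ∈ ((Q.comap (algebraMap A B)).map (algebraMap A B')) ^ N := by
  set P := Q.comap (algebraMap A B)
  set J := P.map (algebraMap A B')
  obtain ⟨⟨b, σ⟩, rfl⟩ := IsLocalization.mk'_surjective Q.primeCompl y
  have hσ : IsUnit (algebraMap B B' σ) := IsLocalization.map_units B' σ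
  have key : ∀ (i : ℕ) (f : Polynomial A), f.coeff i ∉ P →
      algebraMap B B' (Polynomial.aeval (σ : B) f) ∈ J →
      ∃ (a : A) (τ : B), a ∉ P ∧ algebraMap B B' (τ * σ + algebraMap A B a) ∈ J := by
    intro i
    induction i with
    | zero =>
      intro f h1 h2
      refine ⟨_, Polynomial.aeval (σ : B) f.divX, h1, ?_⟩
      rw [← f.divX_mul_X_add] at h2
      simpa only [map_add, map_mul, Polynomial.aeval_X, Polynomial.aeval_C] using h2
    | succ i ih =>
      intro f h1 h2
      rw [← f.divX_mul_X_add] at h2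
      simp only [map_add, map_mul, Polynomial.aeval_X, Polynomial.aeval_C] at h2
      by_cases h0 : f.coeff 0 ∈ P
      · refine ih f.divX (by rwa [Polynomial.coeff_divX]) ?_
        rw [← IsScalarTower.algebraMap_apply] at h2
        rw [← J.mul_unit_mem_iff_mem hσ]
        simpa using J.sub_mem h2 (Ideal.mem_map_of_mem _ h0)
      · exact ⟨_, Polynomial.aeval (σ : B) f.divX, h0, by simpa only [map_add, map_mul] using h2⟩
  have : Module.Finite A B := ⟨hs ▸ Submodule.fg_span (Set.finite_range s)⟩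
  obtain ⟨f, hf, hf0⟩ := Algebra.IsIntegral.isIntegral (R := A) (σ : B)
  obtain ⟨a, τ, ha, hτ⟩ := key f.natDegree f
    (by rw [hf.coeff_natDegree]; exact (Ideal.ne_top_iff_one _).1 Ideal.IsPrime.ne_top')
    (by rw [Polynomial.aeval_def, hf0, map_zero]; exact zero_mem _)
  obtain ⟨c, hc⟩ := (IsLocalization.map_units (M := P.primeCompl) A' ⟨a, ha⟩).exists_left_inv
  have hc' : algebraMap A' B' c * algebraMap B B' (algebraMap A B a) = 1 := by
    rw [← IsScalarTower.algebraMap_apply, IsScalarTower.algebraMap_apply A A' B', ← map_mul, hc,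
      map_one]
  have hT : ∀ x : B, algebraMap B B' x ∈
      Submodule.span A' (Set.range fun a => algebraMap B B' (s a)) := by
    intro x
    have hx : x ∈ Submodule.span A (Set.range s) := hs ▸ Submodule.mem_top
    induction hx using Submodule.span_induction with
    | mem x hx => obtain ⟨a, rfl⟩ := hx; exact Submodule.subset_span ⟨a, rfl⟩
    | zero => rw [map_zero]; exact zero_mem _
    | add x y _ _ h1 h2 => rw [map_add]; exact add_mem h1 h2
    | smul r x _ h =>
      rw [Algebra.smul_def, map_mul, ← IsScalarTower.algebraMap_apply,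
        IsScalarTower.algebraMap_apply A A' B', ← Algebra.smul_def]
      exact Submodule.smul_mem _ _ h
  set μ := τ * σ + algebraMap A B a with hμ
  refine ⟨∑ i ∈ Finset.range N, c ^ (i + 1) • algebraMap B B' (-(b * τ * μ ^ i)),
    Submodule.sum_mem _ fun i _ => Submodule.smul_mem _ _ (hT _), ?_⟩
  have e1 := IsLocalization.mk'_spec B' b σ
  have e2 := mul_neg_geom_sum (algebraMap A' B' c * algebraMap B B' μ) N
  have e3 : ∑ i ∈ Finset.range N, c ^ (i + 1) • algebraMap B B' (-(b * τ * μ ^ i)) =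
      IsLocalization.mk' B' b σ * ((1 - algebraMap A' B' c * algebraMap B B' μ) *
        ∑ i ∈ Finset.range N, (algebraMap A' B' c * algebraMap B B' μ) ^ i) := by
    rw [Finset.mul_sum, Finset.mul_sum]
    refine Finset.sum_congr rfl fun i _ => ?_
    have e4 : 1 - algebraMap A' B' c * algebraMap B B' μ =
        -(algebraMap A' B' c * algebraMap B B' τ * algebraMap B B' σ) := by
      rw [hμ, map_add, map_mul]
      linear_combination -hc'
    rw [e4, Algebra.smul_def, map_neg, map_mul, map_mul, map_pow, map_pow, ← e1]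
    ring
  dsimp only
  rw [e3, e2, mul_sub, mul_one, sub_sub_cancel]
  exact Ideal.mul_mem_left _ _ (Ideal.pow_mem_pow (J.mul_mem_left _ hτ) N)

end Vale.Agent.P202
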