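import Vale.Agent.P202.Red

/-! Multiplicity and rank. -/

namespace Vale.Agent.P202

open IsLocalRing

variable {A S : Type*} [CommRing A] [CommRing S]

theorem exists_rank [IsDomain A] (M : Type*) [AddCommGroup M] [Module A M] [Module.Finite A M] :
    ∃ (ρ : ℕ) (v : Fin ρ → M) (g : A), g ≠ 0 ∧ LinearIndependent A v ∧
      ∀ y : M, g • y ∈ Submodule.span A (Set.range v) := by
  classical
  obtain ⟨n, s, hs⟩ := Module.Finite.exists_fin (R := A) (M := M)
  obtain ⟨I, h1, h2⟩ := exists_maximal_linearIndepOn A s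
  have h3 : ∀ i, ∃ a : A, a ≠ 0 ∧ a • s i ∈ Submodule.span A (s '' I) := fun i => by
    by_cases hi : i ∈ I
    · exact ⟨1, one_ne_zero, by rw [one_smul]; exact Submodule.subset_span ⟨i, hi, rfl⟩⟩
    · exact h2 i hi
  choose a ha ha' using h3
  refine ⟨Fintype.card I, (fun i : I => s i) ∘ (Fintype.equivFin I).symm, ∏ i, a i,
    Finset.prod_ne_zero_iff.2 fun i _ => ha i, h1.comp _ (Equiv.injective _), fun y => ?_⟩
  rw [(Equiv.surjective _).range_comp, ← Set.image_eq_range]
  have hy : y ∈ Submodule.span A (Set.range s) := hs ▸ Submodule.mem_top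
  refine Submodule.span_le
    (p := (Submodule.span A (s '' I)).comap (LinearMap.lsmul A M (∏ i, a i))).2 ?_ hy
  rintro _ ⟨i, rfl⟩
  change (∏ i, a i) • s i ∈ Submodule.span A (s '' I)
  rw [← Finset.prod_erase_mul _ _ (Finset.mem_univ i), mul_smul]
  exact Submodule.smul_mem _ _ (ha' i)

theorem rank_gen [IsLocalRing A] {M : Type*} [AddCommGroup M] [Module A M] {K : Submodule A M}
    (hK : rl K ⊤ ≠ ⊤) :
    ∃ (n : ℕ) (v : Fin n → M), rl K ⊤ = n ∧ K ⊔ Submodule.span A (Set.range v) = ⊤ := by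
  refine rl_induction (B := ⊤) (fun K => ∃ (n : ℕ) (v : Fin n → M), rl K ⊤ = n ∧
    K ⊔ Submodule.span A (Set.range v) = ⊤) ⟨0, Fin.elim0, rl_self _, top_sup_eq _⟩ ?_ le_top hK
  rintro K w - hw - hk ⟨n, v, h1, h2⟩
  refine ⟨n + 1, Fin.cons w v, ?_, ?_⟩
  · rw [rl_add (le_sup_left (b := Submodule.span A {w})) le_top, rl_simple_step hw hk, h1,
      add_comm, Nat.cast_succ]
  · rw [Fin.range_cons, Submodule.span_insert, ← sup_assoc, h2]

theorem rank_pi {ι : Type*} [Fintype ι] (J : Ideal A) :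
    rl (Submodule.pi Set.univ fun _ : ι => J) ⊤ = Fintype.card ι * rl J (⊤ : Ideal A) := by
  rw [← Submodule.pi_top (φ := fun _ : ι => A) Set.univ, rl_pi]
  simp

theorem rank_span_le {M ι : Type*} [AddCommGroup M] [Module A M] [Fintype ι] (L : Submodule A M)
    (w : ι → M) (J : Ideal A) (h : ∀ i, ∀ a ∈ J, a • w i ∈ L) :
    rl L (Submodule.span A (Set.range w)) ≤ Fintype.card ι * rl J (⊤ : Ideal A) := by
  rw [← rank_pi]
  refine rl_le_of_surj (Fintype.linearCombination A w)
    (fun x _ hx => Submodule.sum_mem _ fun i _ => h i _ (hx i trivial)) fun y hy => ?_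
  rw [← Fintype.range_linearCombination] at hy
  obtain ⟨x, rfl⟩ := hy
  exact ⟨x, trivial, by simp⟩

/-- a module with the lengths of a free module is free -/
theorem free_of_rl [IsLocalRing A] [IsNoetherianRing A] (M : Type*) [AddCommGroup M] [Module A M]
    [Module.Finite A M] (μ : ℕ) (h1 : rl (maximalIdeal A • ⊤) (⊤ : Submodule A M) = μ)
    (h : ∀ N : ℕ, rl (maximalIdeal A ^ N • ⊤) (⊤ : Submodule A M) =
      μ * rl (maximalIdeal A ^ N) (⊤ : Ideal A)) : Module.Free A M := by
  obtain ⟨n, v, hn, hv⟩ := rank_gen (K := maximalIdeal A • (⊤ : Submodule A M))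
    (h1 ▸ ENat.natCast_ne_top μ)
  obtain rfl : n = μ := by exact_mod_cast hn.symm.trans h1
  have hs : Function.Surjective (Fintype.linearCombination A v) := by
    rw [← LinearMap.range_eq_top, Fintype.range_linearCombination, eq_top_iff]
    exact Submodule.le_of_le_smul_of_le_jacobson_bot Module.Finite.fg_top
      (maximalIdeal_le_jacobson _) (by rw [sup_comm, hv])
  refine Module.Free.of_equiv (LinearEquiv.ofBijective (Fintype.linearCombination A v) ⟨?_, hs⟩)
  rw [injective_iff_map_eq_zero]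
  intro x hx
  funext i
  have h0 := (maximalIdeal A).iInf_pow_eq_bot_of_isLocalRing Ideal.IsPrime.ne_top'
  refine h0.le (Submodule.mem_iInf _ |>.2 fun N => ?_)
  have e1 : rl (maximalIdeal A ^ N • ⊤) (⊤ : Submodule A M) =
      rl ((maximalIdeal A ^ N • ⊤ : Submodule A M).comap (Fintype.linearCombination A v)) ⊤ :=
    rl_eq_of_map _ (fun _ _ => Submodule.mem_sup_left trivial)
      (fun y _ => (hs y).imp fun x hx => ⟨trivial, by simp [hx]⟩) fun _ _ => Iff.rfl
  have e2 : (Submodule.pi Set.univ fun _ : Fin n => maximalIdeal A ^ N) ≤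
      (maximalIdeal A ^ N • ⊤ : Submodule A M).comap (Fintype.linearCombination A v) :=
    fun y hy => by
      rw [Submodule.mem_comap, Fintype.linearCombination_apply]
      exact Submodule.sum_mem _ fun j _ => Submodule.smul_mem_smul (hy j trivial) trivial
  have e3 := rl_add e2 le_top
  rw [← e1, rank_pi, Fintype.card_fin, ← h] at e3
  have e4 : rl (maximalIdeal A ^ N • ⊤) (⊤ : Submodule A M) ≠ ⊤ :=
    rl_ne_top Module.Finite.fg_top le_rfl
  refine rl_eq_zero_iff.1 (WithTop.add_right_cancel e4 (e3.symm.trans (zero_add _).symm)) ?_ i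
    trivial
  rw [Submodule.mem_comap, hx]
  exact zero_mem _

variable [Algebra A S]

theorem rl_restrict_le (K : Ideal S) :
    rl K (⊤ : Ideal S) ≤ rl (K.restrictScalars A) (⊤ : Submodule A S) := by
  rw [rl_top, rl_top, (Submodule.Quotient.restrictScalarsEquiv A K).length_eq]
  rw [← Module.length_top, ← Module.length_top (R := A)]
  exact Submodule.length_le_length_restrictScalars A (⊤ : Submodule S (S ⧸ K))

theorem rl_restrict_eq [IsLocalRing A] [IsLocalRing S]
    (hm : (maximalIdeal A).map (algebraMap A S) ≤ maximalIdeal S)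
    (hres : ∀ y : S, ∃ a : A, y - algebraMap A S a ∈ maximalIdeal S) {K : Ideal S}
    (hK : rl K (⊤ : Ideal S) ≠ ⊤) :
    rl (K.restrictScalars A) (⊤ : Submodule A S) = rl K (⊤ : Ideal S) := by
  refine rl_induction (B := (⊤ : Ideal S))
    (fun K : Ideal S => rl (K.restrictScalars A) (⊤ : Submodule A S) = rl K (⊤ : Ideal S))
    (by simp [rl_self]) (fun K v _ hv _ hk ih => ?_) le_top hK
  have e : (K ⊔ Submodule.span S {v}).restrictScalars A =
      K.restrictScalars A ⊔ Submodule.span A {v} := by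
    refine le_antisymm (fun x hx => ?_) (sup_le (fun x hx => Submodule.mem_sup_left hx) ?_)
    · obtain ⟨y, hy, z, hz, rfl⟩ := Submodule.mem_sup.1 hx
      obtain ⟨c, rfl⟩ := Submodule.mem_span_singleton.1 hz
      obtain ⟨a, ha⟩ := hres c
      refine Submodule.mem_sup.2 ⟨_, K.add_mem hy (hk _ ha), a • v,
        Submodule.smul_mem _ _ (Submodule.mem_span_singleton_self v), ?_⟩
      rw [sub_smul, algebraMap_smul, add_assoc, sub_add_cancel]
    · exact (Submodule.span_singleton_le_iff_mem _ _).2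
        (Submodule.mem_sup_right (Submodule.mem_span_singleton_self v))
  rw [rl_add (le_sup_left (b := Submodule.span S {v})) le_top, rl_simple_step hv hk, ← ih, e,
    rl_add (le_sup_left (b := Submodule.span A {v})) le_top, 
    rl_simple_step (A := K.restrictScalars A) hv fun a ha => ?_]
  rw [← algebraMap_smul S]
  exact hk _ (hm (Ideal.mem_map_of_mem _ ha))

theorem rl_ub (I : Ideal A) (K : Ideal S) (hIK : I.map (algebraMap A S) ≤ K) {ι κ : Type*}
    [Fintype ι] [Fintype κ] (s : ι → S) (v : κ → S) (g : A)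
    (hs : ∀ y : S, ∃ w ∈ Submodule.span A (Set.range s), y - w ∈ K)
    (hg : ∀ a, g • s a ∈ Submodule.span A (Set.range v)) :
    rl K (⊤ : Ideal S) ≤ Fintype.card κ * rl I (⊤ : Ideal A) +
      Fintype.card ι * rl (I ⊔ Ideal.span {g}) (⊤ : Ideal A) := by
  have h1 : ∀ a ∈ I, ∀ y : S, a • y ∈ K.restrictScalars A := fun a ha y => by
    rw [Algebra.smul_def]
    exact K.mul_mem_right _ (hIK (Ideal.mem_map_of_mem _ ha))
  refine (rl_restrict_le (A := A) K).trans ?_
  rw [rl_add (le_sup_left (b := Submodule.span A (Set.range v))) le_top, rl_sup_right]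
  refine add_le_add (rank_span_le _ _ _ fun i a ha => h1 a ha _)
    (le_trans (rl_congr inf_le_left fun y _ => ?_) (rank_span_le _ s _ fun i a ha => ?_))
  · obtain ⟨w, hw, hy⟩ := hs y
    exact Submodule.mem_sup.2 ⟨w, hw, y - w, Submodule.mem_sup_left hy, add_sub_cancel _ _⟩
  · obtain ⟨b, hb, z, hz, rfl⟩ := Submodule.mem_sup.1 ha
    obtain ⟨c, rfl⟩ := Ideal.mem_span_singleton'.1 hz
    rw [add_smul, mul_smul]
    exact Submodule.add_mem_sup (h1 b hb _) (Submodule.smul_mem _ _ (hg i))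

variable [IsLocalRing A] [IsNoetherianRing A]

/-- upper bound for the multiplicity by the rank -/
theorem lim_ub [IsDomain A] {d : ℕ} (hm : Gen (maximalIdeal A) d) {ι κ : Type*} [Fintype ι]
    [Fintype κ] (s : ι → S) (v : κ → S) {g : A} (hg0 : g ≠ 0)
    (hs : ∀ (N : ℕ) (y : S), ∃ w ∈ Submodule.span A (Set.range s),
      y - w ∈ (maximalIdeal A).map (algebraMap A S) ^ N)
    (hg : ∀ a, g • s a ∈ Submodule.span A (Set.range v)) {e : ℝ}
    (he : Lim d (fun N => cl ((maximalIdeal A).map (algebraMap A S) ^ N)) e) :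
    e ≤ Fintype.card κ := by
  obtain ⟨e1, h1, h1'⟩ := lim_le_one hm
  have h2 : Lim d (fun N => cl (Ideal.span {g} ⊔ maximalIdeal A ^ N)) 0 := by
    by_cases hu : IsUnit g
    · simpa [Ideal.span_singleton_eq_top.2 hu, cl, rl_self] using lim_zero
    obtain _ | u := d
    · obtain ⟨w, hw⟩ := hm
      have : g ∈ maximalIdeal A := hu
      rw [hw, Set.range_eq_empty, Ideal.span_empty] at this
      exact absurd this hg0
    obtain ⟨W, a1, a2, a3⟩ := exists_sop_of_lt (p := ⊥) (p' := Ideal.span {g})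
      (mt Ideal.span_singleton_eq_top.1 hu) (bot_lt_iff_ne_bot.2 (by simpa using hg0)) hm le_rfl
      ⟨1, by simp⟩
    exact lim_zero_of_small u.lt_succ_self a1 a2 a3 _ 1 fun N =>
      le_sup_of_le_right (Ideal.pow_le_pow_right (by omega))
  have h3 := he.le ((h1.const_mul (Fintype.card κ)).add (h2.const_mul (Fintype.card ι)))
    (Filter.Eventually.of_forall fun N => ?_)
  · nlinarith [Nat.cast_nonneg (α := ℝ) (Fintype.card κ)]
  have a1 : rl (maximalIdeal A ^ N) (⊤ : Ideal A) ≠ ⊤ := rl_ne_top_of_prim ⟨N, le_rfl⟩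
  have a2 : rl (Ideal.span {g} ⊔ maximalIdeal A ^ N) (⊤ : Ideal A) ≠ ⊤ :=
    rl_ne_top_of_prim ⟨N, le_sup_right⟩
  have a3 := rl_ub (maximalIdeal A ^ N) _ (Ideal.map_pow _ _ N).le s v g (hs N) hg
  rw [sup_comm] at a3
  obtain ⟨x, hx⟩ := ENat.ne_top_iff_exists.1 a1
  obtain ⟨y, hy⟩ := ENat.ne_top_iff_exists.1 a2
  simp only [cl, ← hx, ← hy, ENat.toNat_natCast] at a3 ⊢
  exact_mod_cast ENat.toNat_le_of_le_natCast (by exact_mod_cast a3)

/-- lower bound for the multiplicity by the rank -/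
theorem lim_lb [IsLocalRing S] [Module.Finite A S] {d : ℕ}
    (hA : Lim d (fun N => cl (maximalIdeal A ^ N)) 1)
    (hm : (maximalIdeal A).map (algebraMap A S) ≤ maximalIdeal S)
    (hres : ∀ y : S, ∃ a : A, y - algebraMap A S a ∈ maximalIdeal S) {κ : Type*} [Fintype κ]
    (v : κ → S) (hv : LinearIndependent A v) {e : ℝ}
    (he : Lim d (fun N => cl ((maximalIdeal A).map (algebraMap A S) ^ N)) e) :
    (Fintype.card κ : ℝ) ≤ e := by
  classical
  obtain ⟨k, hk⟩ := (maximalIdeal A).exists_pow_inf_eq_pow_smul (Submodule.span A (Set.range v))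
  have h3 := ((hA.shift_sub k).const_mul (Fintype.card κ)).le he
    (Filter.eventually_atTop.2 ⟨k, fun N hN => ?_⟩)
  · simpa using h3
  have a1 : rl (maximalIdeal A ^ N • ⊤) (⊤ : Submodule A S) ≠ ⊤ :=
    rl_ne_top Module.Finite.fg_top le_rfl
  have a2 : Fintype.card κ * rl (maximalIdeal A ^ (N - k)) (⊤ : Ideal A) ≤
      rl (maximalIdeal A ^ N • ⊤) (⊤ : Submodule A S) := by
    rw [← rank_pi]
    refine rl_le_of_inj (Fintype.linearCombination A v) (fun _ _ => Submodule.mem_sup_left trivial)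
      fun x _ hx i _ => ?_
    have b1 : Fintype.linearCombination A v x ∈ (maximalIdeal A ^ (N - k) • ⊤ :
        Submodule A (κ → A)).map (Fintype.linearCombination A v) := by
      rw [Submodule.map_smul'', Submodule.map_top, Fintype.range_linearCombination]
      refine Submodule.smul_mono le_rfl inf_le_right ((hk N hN).le ⟨hx, ?_⟩)
      rw [← Fintype.range_linearCombination]
      exact ⟨x, rfl⟩
    obtain ⟨y, hy, e⟩ := b1
    obtain rfl := hv.fintypeLinearCombination_injective e
    exact (kos_mem_smul_top _ _).1 hy i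
  rw [Ideal.smul_top_eq_map, Ideal.map_pow] at a1 a2
  have a3 := rl_restrict_eq hm hres (ne_top_of_le_ne_top a1 (rl_restrict_le _))
  rw [a3] at a1 a2
  have a4 := ENat.toNat_le_toNat a2 a1
  rw [ENat.toNat_mul, ENat.toNat_natCast] at a4
  unfold cl
  exact_mod_cast a4

end Vale.Agent.P202
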