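import Vale.Agent.P202.LocA
import Vale.Agent.P202.Rank
import Vale.Agent.P202.Dim
import Vale.Agent.P202.Cohen

/-! Reduction to relative dimension zero. -/

namespace Vale.Agent.P202

open IsLocalRing

universe u v

theorem loc_cohen (S : Type v) [CommRing S] [IsLocalRing S] [IsNoetherianRing S] (hE : EqChar S) :
    ∃ (L : Type v) (_ : Field L) (_ : Infinite L) (S1 : Type v) (_ : CommRing S1)
      (_ : IsLocalRing S1) (_ : IsNoetherianRing S1) (_ : IsAdicComplete (maximalIdeal S1) S1)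
      (κ : L →+* S1) (ι : S →+* S1), (∀ y : S1, ∃ c : L, y - κ c ∈ maximalIdeal S1) ∧
      CP ι ⊥ ⊥ ∧ (maximalIdeal S).map ι = maximalIdeal S1 := by
  obtain ⟨n, w, hw⟩ := exists_gen (maximalIdeal S)
  obtain ⟨L, _, _, J, ι, hJ, hι, hcp⟩ := cohen S hE w hw.symm
  have := Ideal.Quotient.nontrivial_iff.2 hJ
  have hs : Function.Surjective (Ideal.Quotient.mk J) := Ideal.Quotient.mk_surjective
  have : IsLocalRing (MvPowerSeries (Fin n) L ⧸ J) := IsLocalRing.of_surjective' _ hs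
  refine ⟨L, inferInstance, inferInstance, MvPowerSeries (Fin n) L ⧸ J, inferInstance,
    inferInstance, inferInstance, complete_of_surjective _ hs,
    (Ideal.Quotient.mk J).comp MvPowerSeries.C, ι, fun y => ?_, hcp, ?_⟩
  · obtain ⟨y, rfl⟩ := hs y
    refine ⟨MvPowerSeries.constantCoeff y, ?_⟩
    rw [RingHom.comp_apply, ← map_sub, ← map_max_surj hs]
    refine Ideal.mem_map_of_mem _ ?_
    rw [maximalIdeal_ps, psa_mem_span_range]; simp
  · rw [← map_max_surj hs, maximalIdeal_ps, hw, Ideal.map_span, Ideal.map_span, ← Set.range_comp,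
      ← Set.range_comp]
    congr 2
    funext i; exact hι i

theorem loc_infinite {L S : Type*} [Field L] [Infinite L] [CommRing S] [IsLocalRing S]
    (κ : L →+* S) : Infinite (ResidueField S) :=
  Infinite.of_injective _ ((residue S).comp κ).injective

theorem loc_cl_pow {S S1 : Type*} [CommRing S] [IsLocalRing S] [IsNoetherianRing S] [CommRing S1]
    [IsLocalRing S1] [IsNoetherianRing S1] {ι : S →+* S1} (h : CP ι ⊥ ⊥)
    (hm : (maximalIdeal S).map ι = maximalIdeal S1) (N : ℕ) :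
    cl (maximalIdeal S1 ^ N) = cl (maximalIdeal S ^ N) := by
  rw [← cl_map_unram h hm ⟨N, le_rfl⟩, Ideal.map_pow, hm]

theorem loc_sop {S S1 : Type*} [CommRing S] [IsLocalRing S] [IsNoetherianRing S] [CommRing S1]
    [IsLocalRing S1] [IsNoetherianRing S1] {ι : S →+* S1}
    (hm : (maximalIdeal S).map ι = maximalIdeal S1) {d : ℕ} (hd : ringKrullDim S ≤ d) :
    ∃ W : Ideal S1, Gen W d ∧ W ≤ maximalIdeal S1 ∧ Prim (⊥ ⊔ W) := by
  obtain ⟨W, h1, h2, h3⟩ := exists_sop' hd
  exact ⟨W.map ι, h1.map ι, hm ▸ Ideal.map_mono h2, Prim.map ⟨1, by simp [hm]⟩ h3⟩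

theorem exists_mult (S : Type v) [CommRing S] [IsLocalRing S] [IsNoetherianRing S] (hE : EqChar S)
    {d : ℕ} (hd : ringKrullDim S ≤ d) : ∃ e, Lim d (fun N => cl (maximalIdeal S ^ N)) e := by
  obtain ⟨L, _, _, S1, _, _, _, _, κ, ι, -, hcp, hm⟩ := loc_cohen S hE
  have := loc_infinite κ
  obtain ⟨W, h1, h2, h3⟩ := loc_sop hm hd
  obtain ⟨e, he⟩ := exists_lim_max h1 h2 h3
  exact ⟨e, by simpa only [bot_sup_eq, loc_cl_pow hcp hm] using he⟩

open MvPowerSeries in
theorem loc_inj {L S : Type*} [Field L] [CommRing S] [IsLocalRing S] [IsNoetherianRing S] {δ : ℕ}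
    (φ : MvPowerSeries (Fin δ) L →+* S) (Q : Ideal S) [Q.IsPrime] (hδ : ringKrullDim (S ⧸ Q) = δ)
    (hm : (maximalIdeal _).map φ ≤ maximalIdeal S) (hp : Prim (Q ⊔ (maximalIdeal _).map φ))
    (g : MvPowerSeries (Fin δ) L) (hg : φ g ∈ Q) : g = 0 := by
  have : IsDomain (MvPowerSeries (Fin δ) L) := NoZeroDivisors.to_isDomain _
  by_contra h0
  have h1 : Ideal.span {g} ≠ ⊤ := by
    rw [Ne, Ideal.span_singleton_eq_top]
    exact fun h => Ideal.IsPrime.ne_top' (Q.eq_top_of_isUnit_mem hg (h.map φ))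
  obtain _ | u := δ
  · have h2 := le_maximalIdeal h1 (Ideal.mem_span_singleton_self g)
    rw [maximalIdeal_ps, Set.range_eq_empty, Ideal.span_empty] at h2
    exact h0 h2
  obtain ⟨W', g1, g2, g3⟩ := exists_sop_of_lt (p := ⊥) (W := maximalIdeal _) h1
    (bot_lt_iff_ne_bot.2 (by simpa using h0)) ⟨X, maximalIdeal_ps L⟩ le_rfl ⟨1, by simp⟩
  have h3 := (Prim.map hp g3).mono (I' := Q ⊔ W'.map φ) (by
    rw [Ideal.map_sup, Ideal.map_span, Set.image_singleton]
    exact sup_le le_sup_left (sup_le (le_sup_of_le_left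
      ((Ideal.span_singleton_le_iff_mem _).2 hg)) le_sup_right))
  have h4 := dim_le_of_sop (g1.map φ) ((Ideal.map_mono g2).trans hm) h3
  rw [hδ] at h4
  have : u + 1 ≤ u := by exact_mod_cast h4
  omega

theorem loc_ub {B S : Type*} [CommRing B] [IsDomain B] [IsNoetherianRing B] [CommRing S]
    [IsNoetherianRing S] [Algebra B S] [Module.Finite B S] (Q : Ideal S) [Q.IsPrime] {h d : ℕ}
    (hd : h ≤ d) (z : Fin h → B) (hz1 : ∀ i, z i ∈ Q.comap (algebraMap B S))
    (hz2 : ∀ f ∈ Q.comap (algebraMap B S), ∃ s, s ∉ Q.comap (algebraMap B S) ∧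
      s * f ∈ Ideal.span (Set.range z)) {ρ : ℕ} (v : Fin ρ → S) {g : B} (hg : g ≠ 0)
    (hv : ∀ y : S, g • y ∈ Submodule.span B (Set.range v)) :
    ∃ Z : Ideal (Localization.AtPrime Q), Gen Z d ∧ Z ≤ maximalIdeal _ ∧ Prim Z ∧
      ∃ e', Lim d (fun N => cl (Z ^ N)) e' ∧ e' ≤ ρ := by
  set P := Q.comap (algebraMap B S) with hP
  let A' := Localization.AtPrime P
  let S' := Localization.AtPrime Q
  let _ : Algebra A' S' := (Localization.localRingHom P Q (algebraMap B S) rfl).toAlgebra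
  have : IsScalarTower B A' S' := IsScalarTower.of_algebraMap_eq fun x =>
    (Localization.localRingHom_to_map P Q (algebraMap B S) rfl x).symm
  have hmA : P.map (algebraMap B A') = maximalIdeal A' := Localization.AtPrime.map_eq_maximalIdeal
  have hgen : Gen (maximalIdeal A') d := by
    refine Gen.mono ⟨algebraMap B A' ∘ z, ?_⟩ hd
    rw [Set.range_comp, ← Ideal.map_span, ← hmA]
    refine le_antisymm (Ideal.map_le_iff_le_comap.2 fun f hf =>
      (IsLocalization.algebraMap_mem_map_algebraMap_iff P.primeCompl A' _ f).2 (hz2 f hf))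
      (Ideal.map_mono (Ideal.span_le.2 ?_))
    rintro _ ⟨i, rfl⟩; exact hz1 i
  have hZ : (maximalIdeal A').map (algebraMap A' S') = P.map (algebraMap B S') := by
    rw [← hmA, Ideal.map_map, ← IsScalarTower.algebraMap_eq]
  have hZ' : P.map (algebraMap B S') = (P.map (algebraMap B S)).map (algebraMap S S') := by
    rw [Ideal.map_map, ← IsScalarTower.algebraMap_eq]
  have hprim : Prim ((maximalIdeal A').map (algebraMap A' S')) := by
    rw [hZ, hZ']; exact prim_localization Q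
  obtain ⟨e', he'⟩ := exists_lim (I := ⊥) (hgen.map (algebraMap A' S')) (by simpa using hprim)
  simp only [bot_sup_eq] at he'
  refine ⟨_, hgen.map (algebraMap A' S'), ?_, hprim, e', he', ?_⟩
  · rw [hZ, hZ', ← Localization.AtPrime.map_eq_maximalIdeal]
    exact Ideal.map_mono Ideal.map_comap_le
  obtain ⟨n, s, hs⟩ := Module.Finite.exists_fin (R := B) (M := S)
  have := lim_ub (A := A') (S := S') hgen (fun a => algebraMap S S' (s a))
    (fun a => algebraMap S S' (v a)) (g := algebraMap B A' g)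
    (by rwa [Ne, IsLocalization.to_map_eq_zero_iff A' P.primeCompl_le_nonZeroDivisors])
    (fun N y => hZ ▸ surj_loc Q s hs N y) (fun a => ?_) he'
  · simpa using this
  · obtain ⟨c, hc⟩ := (Submodule.mem_span_range_iff_exists_fun B).1 (hv (s a))
    have h1 := congrArg (IsScalarTower.toAlgHom B S S') hc
    simp only [map_sum, map_smul, IsScalarTower.coe_toAlgHom'] at h1
    rw [algebraMap_smul, ← h1]
    refine sum_mem fun j _ => ?_
    rw [← algebraMap_smul A']
    exact Submodule.smul_mem _ _ (Submodule.subset_span ⟨j, rfl⟩)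

/-- the localization formula for a complete local ring with a coefficient field -/
theorem loc_complete (L : Type v) [Field L] [Infinite L] (S : Type v) [CommRing S] [IsLocalRing S]
    [IsNoetherianRing S] [IsAdicComplete (maximalIdeal S) S] (κ : L →+* S)
    (hres : ∀ y : S, ∃ c : L, y - κ c ∈ maximalIdeal S) (Q : Ideal S) [Q.IsPrime] {D δ d : ℕ}
    (hD : ringKrullDim S ≤ D) (hδ : ringKrullDim (S ⧸ Q) = δ) (hδD : δ ≤ D) (hd : D ≤ δ + d)
    {e : ℝ} (he : Lim D (fun N => cl (maximalIdeal S ^ N)) e) :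
    ∃ Z : Ideal (Localization.AtPrime Q), Gen Z d ∧ Z ≤ maximalIdeal _ ∧ Prim Z ∧
      ∃ e', Lim d (fun N => cl (Z ^ N)) e' ∧ e' ≤ e := by
  have := loc_infinite κ
  obtain ⟨W0, a1, a2, a3⟩ := exists_sop' hD
  obtain ⟨v, hv⟩ := exists_gen (maximalIdeal S)
  have pm : Prim (⊥ ⊔ maximalIdeal S) := ⟨1, by simp⟩
  obtain ⟨W, -, b1, -, -, b4⟩ := red_of_prim (q := ⊥) hv le_rfl pm a1 a2 (by simpa using a3)
  have pW : Prim W := by simpa using b4.prim pm
  obtain ⟨W1, c1, c2, c3⟩ := exists_sop Q hδ.le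
  obtain ⟨Wt, Wy, ⟨t, rfl⟩, ⟨y, rfl⟩, d3, d4⟩ := red_of_prim (q := Q) b1 b4.1
    (pW.mono le_sup_right) c1 c2 c3
  have pt := d4.prim (pW.mono le_sup_right)
  have hx : ∀ i, Sum.elim t y i ∈ W := by
    rw [← d3]
    rintro (i | i)
    exacts [Ideal.mem_sup_left (Ideal.subset_span ⟨i, rfl⟩),
      Ideal.mem_sup_right (Ideal.subset_span ⟨i, rfl⟩)]
  obtain ⟨ψ, ψC, ψX⟩ := exists_ev (maximalIdeal S) κ (Sum.elim t y) fun i => b4.1 (hx i)
  set B := MvPowerSeries (Fin δ ⊕ Fin (D - δ)) L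
  have : IsDomain B := NoZeroDivisors.to_isDomain _
  let _ := ψ.toAlgebra
  have hmap : (maximalIdeal B).map (algebraMap B S) = W := by
    rw [maximalIdeal_ps, Ideal.map_span, ← Set.range_comp, ← d3, ← Ideal.span_union,
      ← Set.Sum.elim_range]
    congr 2
    funext i; exact ψX i
  have hres' : ∀ y : S, ∃ a : B, y - algebraMap B S a ∈ maximalIdeal S := fun y => by
    obtain ⟨c, hc⟩ := hres y
    exact ⟨MvPowerSeries.C c, (ψC c).symm ▸ hc⟩
  have hfin : Module.Finite B S := by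
    have := finite_of_prim (hmap ▸ b4.1) hres' ⊥ (by simpa [hmap] using pW)
    exact Module.Finite.equiv (AlgEquiv.quotientBot B S).toLinearEquiv
  obtain ⟨ρ, w, g, hg, hw1, hw2⟩ := exists_rank (A := B) S
  have hρ : (ρ : ℝ) ≤ e := by
    have h1 := lim_ps (σ := Fin δ ⊕ Fin (D - δ)) L
    have h2 : Fintype.card (Fin δ ⊕ Fin (D - δ)) = D := by simp; omega
    rw [h2] at h1
    have h3 := (lim_red_iff (d := D) (e := e) b4 pm).2 (by simpa using he)
    simp only [bot_sup_eq] at h3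
    simpa using lim_lb h1 (hmap ▸ b4.1) hres' w hw1 (e := e) (hmap ▸ h3)
  obtain ⟨α, αC, αX⟩ := exists_ev (maximalIdeal B) (MvPowerSeries.C : L →+* B)
    (fun i => MvPowerSeries.X (Sum.inl i)) fun i => by
      rw [maximalIdeal_ps]; exact Ideal.subset_span ⟨_, rfl⟩
  have e1 : (Ideal.span (Set.range fun i => (MvPowerSeries.X (Sum.inl i) : B))).map ψ =
      Ideal.span (Set.range t) := by
    rw [Ideal.map_span, ← Set.range_comp]
    congr 2
    funext i; exact ψX _
  have e2 : (maximalIdeal _).map (ψ.comp α) = Ideal.span (Set.range t) := by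
    rw [maximalIdeal_ps, Ideal.map_span, ← Set.range_comp]
    congr 2
    funext i
    simp [αX, ψX]
  obtain ⟨z, hz1, hz2⟩ := loc_ps L α αC αX (Q.comap ψ)
    (loc_inj (ψ.comp α) Q hδ (e2 ▸ d4.1.trans b4.1) (e2 ▸ pt))
    (prim_comap ψ (hmap ▸ b4.1 : (maximalIdeal B).map (algebraMap B S) ≤ _) Q (fun y => by
      obtain ⟨p, hp1, hp2⟩ := IsIntegral.of_finite B y
      exact ⟨p, hp1, (show Polynomial.eval₂ ψ y p = 0 from hp2) ▸ zero_mem _⟩) (e1 ▸ pt))
  obtain ⟨Z, f1, f2, f3, e', f4, f5⟩ := loc_ub (B := B) Q (d := d) (by omega) z hz1 hz2 w hg hw2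
  exact ⟨Z, f1, f2, f3, e', f4, f5.trans hρ⟩

theorem loc_step (R : Type u) (S : Type v) [CommRing R] [IsLocalRing R] [IsNoetherianRing R]
    [CommRing S] [IsLocalRing S] [IsNoetherianRing S] [Algebra R S]
    [IsLocalHom (algebraMap R S)] [Module.Flat R S] (hE : EqChar S) {d D : ℕ}
    (hd : ringKrullDim R ≤ d) (hD : ringKrullDim S = D) {e : ℝ}
    (he : Lim D (fun N => cl (maximalIdeal S ^ N)) e) :
    ∃ (S' : Type v) (_ : CommRing S') (_ : IsLocalRing S') (_ : IsNoetherianRing S')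
      (_ : Algebra R S') (_ : IsLocalHom (algebraMap R S')) (_ : Module.Flat R S'),
      Prim ((maximalIdeal R).map (algebraMap R S')) ∧
      ∃ Z : Ideal S', Gen Z d ∧ Z ≤ maximalIdeal S' ∧ Prim Z ∧
        ∃ e', Lim d (fun N => cl (Z ^ N)) e' ∧ e' ≤ e := by
  obtain ⟨L, _, _, S1, _, _, _, _, κ, ι, hres, hcp, hm⟩ := loc_cohen S hE
  let ρ : R →+* S1 := ι.comp (algebraMap R S)
  have hρ : (maximalIdeal R).map ρ ≤ maximalIdeal S1 := by
    rw [← Ideal.map_map, ← hm]
    exact Ideal.map_mono (((local_hom_TFAE (algebraMap R S)).out 0 2).1 ‹_›)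
  obtain ⟨Q, hQ, hQd⟩ := exists_min_prime_dim (I := (maximalIdeal R).map ρ)
    (ne_top_of_le_ne_top Ideal.IsPrime.ne_top' hρ)
  have hQp : Q.IsPrime := hQ.1.1
  have : IsLocalRing (S1 ⧸ Q) := IsLocalRing.of_surjective' _ Ideal.Quotient.mk_surjective
  obtain ⟨δ, hδ⟩ := exists_nat_dim (S1 ⧸ Q)
  have h1 : ringKrullDim S1 ≤ D := by
    obtain ⟨W, a1, a2, a3⟩ := loc_sop hm hD.le
    exact dim_le_of_sop' a1 a2 (by simpa using a3)
  have h2 : δ ≤ D := by
    have := (ringKrullDim_quotient_le Q).trans h1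
    rw [hδ] at this
    exact_mod_cast this
  have h3 : D ≤ δ + d := by
    obtain ⟨W1, a1, a2, a3⟩ := exists_sop _ (hQd.trans hδ.le)
    obtain ⟨W2, b1, b2, b3⟩ := exists_sop' hd
    have h4 := dim_le_of_sop' (a1.sup (b1.map ρ)) (sup_le a2 ((Ideal.map_mono b2).trans hρ))
      (Prim.map (by rwa [sup_comm]) b3)
    have h5 := (dim_le_of_cp hcp hm.le).trans h4
    rw [hD] at h5
    exact_mod_cast h5
  obtain ⟨Z, hZ⟩ := loc_complete L S1 κ hres Q h1 hδ h2 h3 (e := e)
    (by simpa only [loc_cl_pow hcp hm] using he)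
  let S' := Localization.AtPrime Q
  have hp := prim_localization_of_minimal hQ
  rw [Ideal.map_map] at hp
  refine ⟨S', inferInstance, inferInstance, inferInstance,
    ((algebraMap S1 S').comp ρ).toAlgebra, ?_, ?_, hp, Z, hZ⟩
  · refine ((local_hom_TFAE ((algebraMap S1 S').comp ρ)).out 2 0).1 ?_
    rw [← Ideal.map_map, ← Localization.AtPrime.map_eq_maximalIdeal]
    exact Ideal.map_mono hQ.1.2
  · have f1 : (algebraMap R S).Flat := RingHom.flat_algebraMap_iff.2 ‹_›
    have f2 : ι.Flat := by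
      let _ := ι.toAlgebra
      exact CP.flat hcp
    have f3 : (algebraMap S1 S').Flat :=
      RingHom.flat_algebraMap_iff.2 (IsLocalization.flat S' Q.primeCompl)
    exact (f1.comp f2).comp f3

end Vale.Agent.P202
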