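import Vale.Agent.P202.DomBase
import Vale.Agent.P202.DomTop
import Vale.Agent.P202.CoreP
import Vale.Agent.P202.Loc

/-! The core inequality in residue characteristic `p`. -/

namespace Vale.Agent.P202

open IsLocalRing

universe u v

variable (R : Type u) (S : Type v) [CommRing R] [IsLocalRing R] [IsNoetherianRing R]
  [CommRing S] [IsLocalRing S] [IsNoetherianRing S] [Algebra R S]
  [IsLocalHom (algebraMap R S)] [Module.Flat R S]

theorem core_domain (p : ℕ) [Fact p.Prime] [IsDomain R] [IsAdicComplete (maximalIdeal R) R]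
    [Infinite (ResidueField R)] (hp : (p : R) ∈ maximalIdeal R)
    (hfib : Prim ((maximalIdeal R).map (algebraMap R S))) {d : ℕ} {W0 : Ideal R} (hW : Gen W0 d)
    (hWm : W0 ≤ maximalIdeal R) (hWp : Prim W0) {Z : Ideal S} (hZ : Gen Z d)
    (hZm : Z ≤ maximalIdeal S) (hZp : Prim Z) {eR eS : ℝ}
    (hR : Lim d (fun N => cl (maximalIdeal R ^ N)) eR) (hS : Lim d (fun N => cl (Z ^ N)) eS) :
    eR ≤ eS := by
  by_cases hp0 : (p : R) = 0
  · have : CharP R p := (CharP.charP_iff_prime_eq_zero Fact.out).2 hp0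
    exact core_p R S p hfib hW hWm hWp hZ hZm hZp hR hS
  rcases domain_base p R hp hp0 hW hWm hWp hR with h | ⟨d', V, _, _, _, _, x, F, g0, g1, rfl, hV,
    _, hm, hres, hH, hred⟩
  · exact h.trans hS.nonneg_cl
  · exact domain_top hV R S hm hres hH hred hfib hZ hZm hZp hR hS

theorem core_prime (p : ℕ) [Fact p.Prime] [IsAdicComplete (maximalIdeal R) R]
    [Infinite (ResidueField R)] (hp : (p : R) ∈ maximalIdeal R)
    (hfib : Prim ((maximalIdeal R).map (algebraMap R S))) {d : ℕ} {W0 : Ideal R} (hW : Gen W0 d)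
    (hWm : W0 ≤ maximalIdeal R) (hWp : Prim W0) {Z : Ideal S} (hZ : Gen Z d)
    (hZm : Z ≤ maximalIdeal S) (hZp : Prim Z) {q : Ideal R} (hq : q.IsPrime) {eR eS : ℝ}
    (hR : Lim d (fun N => cl (q ⊔ maximalIdeal R ^ N)) eR)
    (hS : Lim d (fun N => cl (q.map (algebraMap R S) ⊔ Z ^ N)) eS) : eR ≤ eS := by
  have hloc : (maximalIdeal R).map (algebraMap R S) ≤ maximalIdeal S :=
    ((local_hom_TFAE (algebraMap R S)).out 0 2).1 ‹_›
  have hqm : q ≤ maximalIdeal R := le_maximalIdeal hq.ne_top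
  have hqS : q.map (algebraMap R S) ≠ ⊤ :=
    ne_top_of_le_ne_top (maximalIdeal.isMaximal S).ne_top ((Ideal.map_mono hqm).trans hloc)
  have hπ : Function.Surjective (Ideal.Quotient.mk q) := Ideal.Quotient.mk_surjective
  have hπ' : Function.Surjective (Ideal.Quotient.mk (q.map (algebraMap R S))) :=
    Ideal.Quotient.mk_surjective
  have : Nontrivial (S ⧸ q.map (algebraMap R S)) := Ideal.Quotient.nontrivial_iff.2 hqS
  have : IsLocalRing (R ⧸ q) := IsLocalRing.of_surjective' _ hπ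
  have : IsLocalRing (S ⧸ q.map (algebraMap R S)) := IsLocalRing.of_surjective' _ hπ'
  have := complete_of_surjective _ hπ
  have := infinite_residue_of_map _ (map_max_surj hπ).le
  have hc : (algebraMap (R ⧸ q) (S ⧸ q.map (algebraMap R S))).comp (Ideal.Quotient.mk q) =
      (Ideal.Quotient.mk (q.map (algebraMap R S))).comp (algebraMap R S) := rfl
  have hmap : (maximalIdeal (R ⧸ q)).map (algebraMap (R ⧸ q) (S ⧸ q.map (algebraMap R S))) =
      ((maximalIdeal R).map (algebraMap R S)).map (Ideal.Quotient.mk (q.map (algebraMap R S))) := by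
    rw [← map_max_surj hπ, Ideal.map_map, Ideal.map_map, hc]
  have : IsLocalHom (algebraMap (R ⧸ q) (S ⧸ q.map (algebraMap R S))) :=
    ((local_hom_TFAE _).out 0 2).2 (by
      rw [hmap, ← map_max_surj hπ']; exact Ideal.map_mono hloc)
  have : Module.Flat (R ⧸ q) (S ⧸ q.map (algebraMap R S)) := by
    refine CP.flat ?_
    rw [← cp_surj_comp_iff hπ, hc, cp_comp_surj_iff hπ', ← RingHom.ker_eq_comap_bot,
      ← RingHom.ker_eq_comap_bot, Ideal.mk_ker, Ideal.mk_ker]
    exact ((CP.of_flat (A := R) (B := S)).mono bot_le).congr_sup (by rw [sup_bot_eq, sup_idem])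
  refine core_domain (R ⧸ q) (S ⧸ q.map (algebraMap R S)) p ?_ ?_ (hW.map (Ideal.Quotient.mk q))
    ?_ ?_ (hZ.map (Ideal.Quotient.mk _)) ?_ ?_ ?_ ?_
  · rw [← map_max_surj hπ, ← map_natCast (Ideal.Quotient.mk q)]
    exact Ideal.mem_map_of_mem _ hp
  · rw [hmap, prim_map_surj_iff hπ']
    exact hfib.mono le_sup_right
  · rw [← map_max_surj hπ]; exact Ideal.map_mono hWm
  · rw [prim_map_surj_iff hπ]; exact hWp.mono le_sup_right
  · rw [← map_max_surj hπ']; exact Ideal.map_mono hZm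
  · rw [prim_map_surj_iff hπ']; exact hZp.mono le_sup_right
  · simpa only [← map_max_surj hπ, ← Ideal.map_pow, cl_map_surj hπ, Ideal.mk_ker] using hR
  · simpa only [← Ideal.map_pow, cl_map_surj hπ', Ideal.mk_ker] using hS

omit [IsLocalHom (algebraMap R S)] in
theorem core_of_primes [Infinite (ResidueField R)] {d : ℕ} {W0 : Ideal R} (hW : Gen W0 d)
    (hWm : W0 ≤ maximalIdeal R) (hWp : Prim W0) {Z : Ideal S} (hZ : Gen Z d) (hZp : Prim Z)
    (h : ∀ q : Ideal R, q.IsPrime → ∀ e e' : ℝ, Lim d (fun N => cl (q ⊔ maximalIdeal R ^ N)) e →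
      Lim d (fun N => cl (q.map (algebraMap R S) ⊔ Z ^ N)) e' → e ≤ e') {eR eS : ℝ}
    (hR : Lim d (fun N => cl (maximalIdeal R ^ N)) eR) (hS : Lim d (fun N => cl (Z ^ N)) eS) :
    eR ≤ eS := by
  classical
  obtain ⟨z, rfl⟩ := hZ
  obtain ⟨K, _, _, k, κ, hκ⟩ := exists_isKos z
  have hκ2 : ∀ q : Ideal S, Ent (κ * κ) q := fun q => by rw [hκ.sq]; exact kos_ent_zero q
  have hlim := fun a : Ideal R =>
    hκ.lim (I := a.map (algebraMap R S)) (hZp.mono le_sup_right)
  have key : ∀ Q : Ideal R, Q.IsPrime → ∃ μ : ℝ,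
      Lim d (fun N => cl (Q ⊔ maximalIdeal R ^ N)) μ ∧
        μ ≤ (chiI k κ (Q.map (algebraMap R S)) : ℝ) := by
    intro Q hQ
    obtain ⟨μ, hμ⟩ := exists_lim_max (q := Q) hW hWm (hWp.mono le_sup_right)
    exact ⟨μ, hμ, h Q hQ _ _ hμ (hlim Q).2⟩
  choose! μ hμ using key
  obtain ⟨l, hl, hF⟩ := exists_prime_list (⊥ : Ideal R)
  have h3 : eR ≤ (l.map μ).sum := by
    refine hR.le (Lim.list_sum l fun Q hQ => (hμ Q (hl Q hQ).1).1)
      (Filter.Eventually.of_forall fun N => ?_)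
    have := hF (fun b => cl (b ⊔ maximalIdeal R ^ N)) (fun b _ r => coreP_subadd N b r)
      (by simp [cl, rl_self])
    rwa [bot_sup_eq] at this
  have h4 := hF (fun b => -(chiI k κ (b.map (algebraMap R S)) : ℝ)) (fun b _ r => by
    have e1 := TopP_colon (CP.of_flat (A := R) (B := S)) b r
    have e2 : b.map (algebraMap R S) ⊔ Ideal.span {algebraMap R S r} =
        (b ⊔ Ideal.span {r}).map (algebraMap R S) := by
      rw [Ideal.map_sup, Ideal.map_span, Set.image_singleton]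
    have := chiI_step hκ.deg (hκ2 (b.map (algebraMap R S))) (algebraMap R S r)
      (by rw [e1]; exact (hlim _).1) (by rw [e2]; exact (hlim _).1)
    rw [this, e1, e2]
    push_cast
    linarith) (by simp [Ideal.map_top, chiI_top])
  have h5 : (l.map μ).sum ≤ -(l.map fun b => -(chiI k κ (b.map (algebraMap R S)) : ℝ)).sum := by
    rw [List.sum_neg, List.map_map]
    exact List.sum_le_sum fun Q hQ => by simpa using (hμ Q (hl Q hQ).1).2
  have h6 := (hlim ⊥).2
  simp only [Ideal.map_bot, bot_sup_eq] at h6 h4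
  rw [hS.unique h6]
  linarith

theorem core_mixed (p : ℕ) [Fact p.Prime] [Infinite (ResidueField R)]
    (hp : (p : R) ∈ maximalIdeal R) (hfib : Prim ((maximalIdeal R).map (algebraMap R S))) {d : ℕ}
    {W0 : Ideal R} (hW : Gen W0 d) (hWm : W0 ≤ maximalIdeal R) (hWp : Prim W0) {Z : Ideal S}
    (hZ : Gen Z d) (hZm : Z ≤ maximalIdeal S) (hZp : Prim Z) {eR eS : ℝ}
    (hR : Lim d (fun N => cl (maximalIdeal R ^ N)) eR) (hS : Lim d (fun N => cl (Z ^ N)) eS) :
    eR ≤ eS := by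
  obtain ⟨R1, _, _, _, _, S1, _, _, _, _, _, _, α, β, hα, hαm, hβ, hβm, hc⟩ := complete_pair R S
  have := infinite_residue_of_map α hαm.le
  have hpα : ∀ a : Ideal R, Prim a → Prim (a.map α) := fun a ha => by
    have := Prim.map (ι := α) (c := ⊥) ⟨1, by simp [hαm]⟩ ha
    rwa [bot_sup_eq] at this
  have hpβ : ∀ a : Ideal S, Prim a → Prim (a.map β) := fun a ha => by
    have := Prim.map (ι := β) (c := ⊥) ⟨1, by simp [hβm]⟩ ha
    rwa [bot_sup_eq] at this
  have hp1 : (p : R1) ∈ maximalIdeal R1 := by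
    rw [← hαm, ← map_natCast α]; exact Ideal.mem_map_of_mem _ hp
  have hfib1 : Prim ((maximalIdeal R1).map (algebraMap R1 S1)) := by
    rw [← hαm, Ideal.map_map, ← hc, ← Ideal.map_map]
    exact hpβ _ hfib
  have hWm1 : W0.map α ≤ maximalIdeal R1 := hαm ▸ Ideal.map_mono hWm
  have hZm1 : Z.map β ≤ maximalIdeal S1 := hβm ▸ Ideal.map_mono hZm
  refine core_of_primes R1 S1 (hW.map α) hWm1 (hpα _ hWp) (hZ.map β) (hpβ _ hZp)
    (fun q hq e e' he he' => core_prime R1 S1 p hp1 hfib1 (hW.map α) hWm1 (hpα _ hWp) (hZ.map β)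
      hZm1 (hpβ _ hZp) hq he he') (by simpa only [loc_cl_pow hα hαm] using hR) ?_
  refine hS.congr' (Filter.Eventually.of_forall fun N => ?_)
  have h1 := Prim.sup_pow (q := ⊥) (hZp.mono le_sup_right) N
  rw [bot_sup_eq] at h1
  rw [← Ideal.map_pow, cl_map_unram hβ hβm h1]

end Vale.Agent.P202
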