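import Vale.Agent.P202.Len

/-! Subquotient complexes: long exact sequence, transport, Euler characteristic. -/

namespace Vale.Agent.P202

variable {R : Type*} [CommRing R] {M : Type*} [AddCommGroup M] [Module R M]
  {M' : Type*} [AddCommGroup M'] [Module R M'] {δ : M →ₗ[R] M} {L L' L'' : ℤ → Submodule R M}

theorem cx_mem_cyc {n : ℤ} {x : M} : x ∈ cyc δ L L' n ↔ x ∈ L n ∧ δ x ∈ L' (n + 1) := Iff.rfl

theorem cx_mem_bnd {n : ℤ} {x : M} :
    x ∈ bnd δ L L' n ↔ ∃ y ∈ L (n - 1), x - δ y ∈ L' n := by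
  constructor
  · intro h
    obtain ⟨_, ⟨y, hy, rfl⟩, a, ha, rfl⟩ := Submodule.mem_sup.1 h
    exact ⟨y, hy, by simpa using ha⟩
  · rintro ⟨y, hy, h⟩
    exact Submodule.mem_sup.2 ⟨δ y, ⟨y, hy, rfl⟩, x - δ y, h, by abel⟩

theorem cx_st (h : IsPair δ L L') {n : ℤ} {x : M} (hx : x ∈ L (n - 1)) : δ x ∈ L n := by
  simpa using h.st _ x hx

theorem cx_st' (h : IsPair δ L L') {n : ℤ} {x : M} (hx : x ∈ L' (n - 1)) : δ x ∈ L' n := by
  simpa using h.st' _ x hx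

theorem cx_dd (h : IsPair δ L L') {n : ℤ} {x : M} (hx : x ∈ L (n - 1)) :
    δ (δ x) ∈ L' (n + 1) := by
  simpa using h.dd _ x hx

theorem cx_bnd_le_cyc (h : IsPair δ L L') (n : ℤ) : bnd δ L L' n ≤ cyc δ L L' n := by
  intro x hx
  obtain ⟨y, hy, hxy⟩ := cx_mem_bnd.1 hx
  have e : x = δ y + (x - δ y) := by abel
  refine ⟨?_, ?_⟩
  · rw [e]; exact add_mem (cx_st h hy) (h.le _ hxy)
  · change δ x ∈ L' (n + 1)
    rw [e, map_add]; exact add_mem (cx_dd h hy) (h.st' _ _ hxy)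

theorem hh_eq_zero_iff {n : ℤ} :
    hh δ L L' n = 0 ↔ ∀ x ∈ L n, δ x ∈ L' (n + 1) → ∃ y ∈ L (n - 1), x - δ y ∈ L' n := by
  rw [hh, rl_eq_zero_iff]
  exact ⟨fun h x hx hd => cx_mem_bnd.1 (h ⟨hx, hd⟩), fun h x hx => cx_mem_bnd.2 (h x hx.1 hx.2)⟩

theorem hh_le_rl (n : ℤ) : hh δ L L' n ≤ rl (L' n) (L n) := by
  exact rl_mono le_sup_right inf_le_left

theorem hh_of_le {n : ℤ} (h : L n ≤ L' n) : hh δ L L' n = 0 := by
  exact le_antisymm ((hh_le_rl n).trans (rl_of_le h).le) zero_le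

theorem IsPair.upper (h : IsPair δ L L'') (h1 : ∀ n, L'' n ≤ L' n) (h2 : ∀ n, L' n ≤ L n)
    (hst : ∀ n, ∀ x ∈ L' n, δ x ∈ L' (n + 1)) : IsPair δ L L' := by
  exact ⟨h2, h.st, hst, fun n x hx => h1 _ (h.dd n x hx),
    h.bdd.subset fun n hn hn' => hn (hn'.trans (h1 n))⟩

theorem IsPair.lower (h : IsPair δ L L'') (h1 : ∀ n, L'' n ≤ L' n) (h2 : ∀ n, L' n ≤ L n)
    (hst : ∀ n, ∀ x ∈ L' n, δ x ∈ L' (n + 1)) : IsPair δ L' L'' := by
  exact ⟨h1, hst, h.st', fun n x hx => h.dd n x (h2 n hx),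
    h.bdd.subset fun n hn hn' => hn ((h2 n).trans hn')⟩

/-- the long exact sequence, numerically -/
theorem hh_triple (h1 : IsPair δ L L') (h2 : IsPair δ L' L'') (h3 : IsPair δ L L'') :
    ∃ i p c : ℤ → ℕ∞, ∀ n, hh δ L' L'' n = c (n - 1) + i n ∧ hh δ L L'' n = i n + p n ∧
      hh δ L L' n = p n + c n := by
  refine ⟨fun n => rl (bnd δ L L'' n) (cyc δ L' L'' n), fun n => rl (bnd δ L L' n) (cyc δ L L'' n),
    fun n => rl (cyc δ L L'' n ⊔ L' n) (cyc δ L L' n), fun n => ⟨?_, ?_, ?_⟩⟩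
  · have a1 : bnd δ L' L'' n ≤ bnd δ L L'' n ⊓ cyc δ L' L'' n :=
      le_inf (sup_le_sup_right (Submodule.map_mono (h1.le _)) _) (cx_bnd_le_cyc h2 n)
    rw [hh, rl_add a1 inf_le_right, rl_inf_left]
    congr 1
    refine rl_eq_of_map δ (fun x hx => Submodule.mem_sup_left ⟨?_, ?_, ?_⟩) (fun y hy => ?_)
      fun x hx => ?_
    · exact cx_mem_bnd.2 ⟨x, hx.1, by simp⟩
    · simpa using (cx_mem_cyc.1 hx).2
    · exact cx_dd h3 hx.1
    · obtain ⟨x, hx, hxy⟩ := cx_mem_bnd.1 hy.1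
      refine ⟨x, ⟨hx, ?_⟩, Submodule.mem_sup_right hxy⟩
      change δ x ∈ L' (n - 1 + 1)
      have e : δ x = y - (y - δ x) := by abel
      rw [sub_add_cancel, e]
      exact sub_mem hy.2.1 (h2.le _ hxy)
    · constructor
      · intro h
        obtain ⟨y, hy, hxy⟩ := cx_mem_bnd.1 h
        refine Submodule.mem_sup.2 ⟨x - y, ⟨sub_mem hx.1 (h1.le _ hy), ?_⟩, y, hy, by abel⟩
        change δ (x - y) ∈ L'' (n - 1 + 1)
        rwa [sub_add_cancel, map_sub]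
      · intro h
        obtain ⟨z, hz, y, hy, rfl⟩ := Submodule.mem_sup.1 h
        refine cx_mem_bnd.2 ⟨y, hy, ?_⟩
        simpa using (cx_mem_cyc.1 hz).2
  · have a2 : bnd δ L L'' n ⊔ cyc δ L' L'' n ≤ cyc δ L L'' n :=
      sup_le (cx_bnd_le_cyc h3 n) (inf_le_inf_right _ (h1.le n))
    rw [hh, rl_add le_sup_left a2, rl_sup_right]
    congr 1
    beta_reduce
    rw [← rl_inf_left (bnd δ L L' n)]
    congr 1
    refine le_antisymm (le_inf (sup_le (sup_le_sup_left (h2.le n) _)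
      (inf_le_left.trans le_sup_right)) a2) fun x hx => ?_
    obtain ⟨y, hy, hxy⟩ := cx_mem_bnd.1 hx.1
    refine Submodule.mem_sup.2 ⟨δ y, cx_mem_bnd.2 ⟨y, hy, by simp⟩, x - δ y, ⟨hxy, ?_⟩, by abel⟩
    change δ (x - δ y) ∈ L'' (n + 1)
    rw [map_sub]
    exact sub_mem hx.2.2 (cx_dd h3 hy)
  · have a2 : bnd δ L L' n ⊔ cyc δ L L'' n ≤ cyc δ L L' n :=
      sup_le (cx_bnd_le_cyc h1 n) (inf_le_inf_left _ (Submodule.comap_mono (h2.le _)))
    rw [hh, rl_add le_sup_left a2, rl_sup_right]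
    congr 2
    refine le_antisymm (sup_le (sup_le ?_ le_sup_right) le_sup_left)
      (sup_le le_sup_right (le_sup_right.trans le_sup_left))
    exact (le_sup_left.trans (cx_bnd_le_cyc h3 n)).trans le_sup_left

theorem hh_mid_le (h1 : IsPair δ L L') (h2 : IsPair δ L' L'') (h3 : IsPair δ L L'') (n : ℤ) :
    hh δ L L'' n ≤ hh δ L' L'' n + hh δ L L' n := by
  obtain ⟨i, p, c, H⟩ := hh_triple h1 h2 h3
  rw [(H n).1, (H n).2.1, (H n).2.2]
  exact add_le_add le_add_self le_self_add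

theorem hh_sub_le (h1 : IsPair δ L L') (h2 : IsPair δ L' L'') (h3 : IsPair δ L L'') (n : ℤ) :
    hh δ L' L'' n ≤ hh δ L L' (n - 1) + hh δ L L'' n := by
  obtain ⟨i, p, c, H⟩ := hh_triple h1 h2 h3
  rw [(H n).1, (H n).2.1, (H (n - 1)).2.2]
  exact add_le_add le_add_self le_self_add

theorem hh_quot_le (h1 : IsPair δ L L') (h2 : IsPair δ L' L'') (h3 : IsPair δ L L'') (n : ℤ) :
    hh δ L L' n ≤ hh δ L L'' n + hh δ L' L'' (n + 1) := by
  obtain ⟨i, p, c, H⟩ := hh_triple h1 h2 h3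
  rw [(H (n + 1)).1, (H n).2.1, (H n).2.2, add_sub_cancel_right]
  exact add_le_add le_add_self le_self_add

theorem HFin.mid (h1 : IsPair δ L L') (h2 : IsPair δ L' L'') (h3 : IsPair δ L L'')
    (f1 : HFin δ L L') (f2 : HFin δ L' L'') : HFin δ L L'' := by
  exact fun n => ne_top_of_le_ne_top (WithTop.add_ne_top.2 ⟨f2 n, f1 n⟩) (hh_mid_le h1 h2 h3 n)

theorem HFin.sub (h1 : IsPair δ L L') (h2 : IsPair δ L' L'') (h3 : IsPair δ L L'')
    (f1 : HFin δ L L') (f3 : HFin δ L L'') : HFin δ L' L'' := by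
  exact fun n => ne_top_of_le_ne_top (WithTop.add_ne_top.2 ⟨f1 _, f3 n⟩) (hh_sub_le h1 h2 h3 n)

theorem HFin.quot (h1 : IsPair δ L L') (h2 : IsPair δ L' L'') (h3 : IsPair δ L L'')
    (f2 : HFin δ L' L'') (f3 : HFin δ L L'') : HFin δ L L' := by
  exact fun n => ne_top_of_le_ne_top (WithTop.add_ne_top.2 ⟨f3 n, f2 _⟩) (hh_quot_le h1 h2 h3 n)

/-- the signed sum -/
noncomputable def cxS (a : ℤ → ℕ∞) : ℤ := ∑ᶠ n : ℤ, ((n.negOnePow : ℤˣ) : ℤ) * ((a n).toNat : ℤ)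

theorem cx_fin {a : ℤ → ℕ∞} (ha : {n | a n ≠ 0}.Finite) :
    (Function.support fun n : ℤ => ((n.negOnePow : ℤˣ) : ℤ) * ((a n).toNat : ℤ)).Finite :=
  ha.subset fun n hn h0 => hn (by simp [h0])

theorem cxS_add {a b c : ℤ → ℕ∞} (h : ∀ n, a n = b n + c n) (ha : {n | a n ≠ 0}.Finite)
    (hf : ∀ n, a n ≠ ⊤) : cxS a = cxS b + cxS c := by
  have hb : {n | b n ≠ 0}.Finite := ha.subset fun n hn h0 => hn (by
    rw [h n, add_eq_zero] at h0; exact h0.1)
  have hc : {n | c n ≠ 0}.Finite := ha.subset fun n hn h0 => hn (by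
    rw [h n, add_eq_zero] at h0; exact h0.2)
  rw [cxS, cxS, cxS, ← finsum_add_distrib (cx_fin hb) (cx_fin hc)]
  refine finsum_congr fun n => ?_
  have := hf n
  rw [h n] at this ⊢
  have := WithTop.add_ne_top.1 this
  rw [ENat.toNat_add this.1 this.2]
  push_cast; ring

theorem cxS_shift (a : ℤ → ℕ∞) (s : ℤ) :
    cxS a = ((s.negOnePow : ℤˣ) : ℤ) * cxS fun n => a (n + s) := by
  have hs : ((s.negOnePow : ℤˣ) : ℤ) ≠ 0 := Units.ne_zero _
  rw [cxS, cxS, ← finsum_comp_equiv (Equiv.addRight s), mul_finsum]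
  refine finsum_congr fun n => ?_
  simp only [Equiv.coe_addRight, Int.negOnePow_add, Units.val_mul]
  ring

theorem cx_hh_fin (h : IsPair δ L L') : {n | hh δ L L' n ≠ 0}.Finite :=
  h.bdd.subset fun _ hn hle => hn (hh_of_le hle)

theorem chi_add (h1 : IsPair δ L L') (h2 : IsPair δ L' L'') (h3 : IsPair δ L L'')
    (f1 : HFin δ L L') (f2 : HFin δ L' L'') : chi δ L L'' = chi δ L' L'' + chi δ L L' := by
  obtain ⟨i, p, c, H⟩ := hh_triple h1 h2 h3
  have e1 : chi δ L' L'' = cxS (fun n => c (n - 1)) + cxS i :=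
    cxS_add (fun n => (H n).1) (cx_hh_fin h2) f2
  have e2 : chi δ L L'' = cxS i + cxS p :=
    cxS_add (fun n => (H n).2.1) (cx_hh_fin h3) (HFin.mid h1 h2 h3 f1 f2)
  have e3 : chi δ L L' = cxS p + cxS c := cxS_add (fun n => (H n).2.2) (cx_hh_fin h1) f1
  have e4 := cxS_shift (fun n => c (n - 1)) 1
  simp only [add_sub_cancel_right, Int.negOnePow_one, Units.val_neg, Units.val_one] at e4
  rw [e1, e2, e3, e4]; ring

theorem chi_of_acyclic (h : ∀ n, hh δ L L' n = 0) : chi δ L L' = 0 := by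
  simp [chi, h]

/-- if the sub-complex is acyclic, cohomology of the quotient is unchanged -/
theorem hh_eq_of_sub_acyclic (h1 : IsPair δ L L') (h2 : IsPair δ L' L'') (h3 : IsPair δ L L'')
    (h : ∀ n, hh δ L' L'' n = 0) (n : ℤ) : hh δ L L'' n = hh δ L L' n := by
  refine le_antisymm ?_ ?_
  · simpa [h] using hh_mid_le h1 h2 h3 n
  · simpa [h] using hh_quot_le h1 h2 h3 n

/-- if the quotient complex is acyclic, cohomology is that of the sub-complex -/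
theorem hh_eq_of_quot_acyclic (h1 : IsPair δ L L') (h2 : IsPair δ L' L'') (h3 : IsPair δ L L'')
    (h : ∀ n, hh δ L L' n = 0) (n : ℤ) : hh δ L L'' n = hh δ L' L'' n := by
  refine le_antisymm ?_ ?_
  · simpa [h] using hh_mid_le h1 h2 h3 n
  · simpa [h] using hh_sub_le h1 h2 h3 n

/-- transport along a map inducing an isomorphism of subquotient complexes, up to a shift of
degrees and a unit -/
theorem hh_transport {δ' : M' →ₗ[R] M'} {K K' : ℤ → Submodule R M'} (h : IsPair δ L L')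
    (φ : M →ₗ[R] M') (s : ℤ) (c : Rˣ)
    (h1 : ∀ n, ∀ x ∈ L n, φ x ∈ K (n + s))
    (h2 : ∀ n, ∀ x ∈ L n, φ x ∈ K' (n + s) ↔ x ∈ L' n)
    (h3 : ∀ n, ∀ y ∈ K (n + s), ∃ x ∈ L n, y - φ x ∈ K' (n + s))
    (h4 : ∀ n, ∀ x ∈ L n, δ' (φ x) - (c : R) • φ (δ x) ∈ K' (n + s + 1))
    (hK : ∀ n, ∀ y ∈ K' n, δ' y ∈ K' (n + 1)) (n : ℤ) :
    hh δ' K K' (n + s) = hh δ L L' n := by
  have hc : ∀ (N : Submodule R M') (y : M'), (c : R) • y ∈ N ↔ y ∈ N := fun N y =>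
    N.smul_mem_iff_of_isUnit c.isUnit
  have e1 : n + 1 + s = n + s + 1 := by ring
  have e2 : n - 1 + s = n + s - 1 := by ring
  have e3 : n - 1 + s + 1 = n + s := by ring
  have key : ∀ x ∈ L n, δ' (φ x) ∈ K' (n + s + 1) ↔ δ x ∈ L' (n + 1) := by
    intro x hx
    rw [← h2 (n + 1) _ (h.st n x hx), e1, ← hc _ (φ (δ x))]
    have := h4 n x hx
    constructor
    · intro h5; simpa using sub_mem h5 this
    · intro h5; simpa using add_mem this h5
  refine rl_eq_of_map φ (fun x hx => Submodule.mem_sup_left ⟨h1 n x hx.1, (key x hx.1).2 hx.2⟩)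
    (fun y hy => ?_) fun x hx => ?_
  · obtain ⟨x, hx, hxy⟩ := h3 n y hy.1
    refine ⟨x, ⟨hx, (key x hx).1 ?_⟩, Submodule.mem_sup_right hxy⟩
    have h5 := hK _ _ hxy
    rw [map_sub] at h5
    simpa using sub_mem (cx_mem_cyc.1 hy).2 h5
  · rw [cx_mem_bnd, cx_mem_bnd]
    constructor
    · rintro ⟨y, hy, hxy⟩
      obtain ⟨z, hz, hyz⟩ := h3 (n - 1) y (e2 ▸ hy)
      have h5 := hK _ _ hyz
      have h6 := h4 _ z hz
      rw [e3] at h5 h6
      refine ⟨(c : R) • z, Submodule.smul_mem _ _ hz, ?_⟩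
      rw [← h2 n _ (sub_mem hx.1 (cx_st h (Submodule.smul_mem _ _ hz)))]
      have h7 := add_mem (add_mem hxy h5) h6
      simpa [map_sub] using h7
    · rintro ⟨z, hz, hxz⟩
      have hz' : ((c⁻¹ : Rˣ) : R) • z ∈ L (n - 1) := Submodule.smul_mem _ _ hz
      refine ⟨φ (((c⁻¹ : Rˣ) : R) • z), e2 ▸ h1 _ _ hz', ?_⟩
      have h6 := h4 _ _ hz'
      rw [e3, map_smul δ, map_smul φ _ (δ z), smul_smul, Units.mul_inv, one_smul] at h6
      have h7 := (h2 n _ (sub_mem hx.1 (cx_st h hz))).2 hxz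
      rw [map_sub] at h7
      simpa using sub_mem h7 h6

theorem chi_of_shift {δ' : M' →ₗ[R] M'} {K K' : ℤ → Submodule R M'} (s : ℤ)
    (h : ∀ n, hh δ' K K' (n + s) = hh δ L L' n) :
    chi δ' K K' = ((s.negOnePow : ℤˣ) : ℤ) * chi δ L L' := by
  have := cxS_shift (hh δ' K K') s
  simp only [h] at this
  exact this

theorem chi_congr {δ' : M' →ₗ[R] M'} {K K' : ℤ → Submodule R M'}
    (h : ∀ n, hh δ' K K' n = hh δ L L' n) : chi δ' K K' = chi δ L L' := by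
  simp only [chi, h]

/-- Euler characteristic of a complex with terms of finite length -/
theorem chi_eq_terms (h : IsPair δ L L') (hf : ∀ n, rl (L' n) (L n) ≠ ⊤) :
    chi δ L L' = ∑ᶠ n : ℤ, ((n.negOnePow : ℤˣ) : ℤ) * ((rl (L' n) (L n)).toNat : ℤ) := by
  have a1 : ∀ n, L' n ≤ bnd δ L L' n := fun n => le_sup_right
  have a2 : ∀ n, cyc δ L L' n ≤ L n := fun n => inf_le_left
  have e1 : ∀ n, rl (L' n) (L n) = rl (L' n) (cyc δ L L' n) + rl (cyc δ L L' n) (L n) :=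
    fun n => rl_add ((a1 n).trans (cx_bnd_le_cyc h n)) (a2 n)
  have e2 : ∀ n, rl (L' n) (cyc δ L L' n) = rl (L' n) (bnd δ L L' n) + hh δ L L' n :=
    fun n => rl_add (a1 n) (cx_bnd_le_cyc h n)
  have e3 : ∀ n, rl (L' (n + 1)) (bnd δ L L' (n + 1)) = rl (cyc δ L L' n) (L n) := by
    intro n
    refine rl_eq_of_map δ (fun x hx => Submodule.mem_sup_left (cx_mem_bnd.2 ⟨x, ?_, by simp⟩))
      (fun y hy => ?_) fun x hx => ⟨fun h => ⟨hx, h⟩, fun h => h.2⟩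
    · simpa using hx
    · simpa using cx_mem_bnd.1 hy
  have f1 : {n | rl (L' n) (L n) ≠ 0}.Finite := h.bdd.subset fun n hn hle => hn (rl_of_le hle)
  have b1 : ∀ n, rl (L' n) (cyc δ L L' n) ≤ rl (L' n) (L n) := fun n => rl_mono le_rfl (a2 n)
  have s1 := cxS_add e1 f1 hf
  have s2 := cxS_add e2 (f1.subset fun n hn h0 => hn (le_antisymm (h0 ▸ b1 n) zero_le))
    fun n => ne_top_of_le_ne_top (hf n) (b1 n)
  have s3 := cxS_shift (fun n => rl (L' n) (bnd δ L L' n)) 1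
  simp only [e3, Int.negOnePow_one, Units.val_neg, Units.val_one] at s3
  change cxS (hh δ L L') = cxS fun n => rl (L' n) (L n)
  rw [s1, s2, s3]; ring

/-- lower bound for the Euler characteristic by the cohomology outside degree zero -/
theorem neg_sum_le_chi (s : Finset ℤ) (hs : ∀ n, n ∉ s → n ≠ 0 → hh δ L L' n = 0) (C : ℝ)
    (hC : ∀ n ∈ s, n ≠ 0 → ((hh δ L L' n).toNat : ℝ) ≤ C) (hC0 : 0 ≤ C) :
    -(s.card * C) ≤ (chi δ L L' : ℝ) := by
  classical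
  have e : chi δ L L' = ∑ n ∈ insert 0 s,
      ((n.negOnePow : ℤˣ) : ℤ) * ((hh δ L L' n).toNat : ℤ) := by
    refine finsum_eq_sum_of_support_subset _ fun n hn => ?_
    by_contra hn'
    simp only [Finset.coe_insert, Set.mem_insert_iff, Finset.mem_coe, not_or] at hn'
    exact hn (by simp [hs n hn'.2 hn'.1])
  rw [e]
  push_cast
  have key : ∀ n ∈ insert 0 s, -(if n ∈ s then C else 0) ≤
      (((n.negOnePow : ℤˣ) : ℤ) : ℝ) * ((hh δ L L' n).toNat : ℝ) := by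
    intro n hn
    have p0 : (0 : ℝ) ≤ ((hh δ L L' n).toNat : ℝ) := Nat.cast_nonneg _
    by_cases h0 : n = 0
    · subst h0
      simp only [Int.negOnePow_zero, Units.val_one, Int.cast_one, one_mul]
      split_ifs <;> linarith
    · have hns : n ∈ s := (Finset.mem_insert.1 hn).resolve_left h0
      have := hC n hns h0
      rw [if_pos hns]
      rcases Int.units_eq_one_or n.negOnePow with h1 | h1 <;> rw [h1] <;> simp <;> linarith
  refine le_trans (le_of_eq ?_) (Finset.sum_le_sum key)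
  rw [Finset.sum_neg_distrib, ← Finset.sum_filter, Finset.filter_mem_eq_inter,
    Finset.inter_eq_right.2 (Finset.subset_insert _ _), Finset.sum_const, nsmul_eq_mul]

/-- if the cycles of `L'` become boundaries in `L`, the cohomology of `L` embeds in that of
`L / L'` -/
theorem hh_bot_le_quot {n : ℤ} (hz : ∀ x ∈ L' n, δ x = 0 → ∃ y ∈ L (n - 1), x = δ y)
    (hst : ∀ x ∈ L (n - 1), δ x ∈ L n) (hdd : ∀ x, δ (δ x) = 0) :
    hh δ L (fun _ => ⊥) n ≤ hh δ L L' n := by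
  refine rl_le_of_inj LinearMap.id (fun x hx => Submodule.mem_sup_left ⟨hx.1, ?_⟩) fun x hx h => ?_
  · have : δ x = 0 := hx.2
    change δ x ∈ L' (n + 1)
    rw [this]; exact zero_mem _
  · have h0 : δ x = 0 := hx.2
    obtain ⟨y, hy, hxy⟩ := cx_mem_bnd.1 h
    obtain ⟨z, hz', e⟩ := hz _ hxy (by simp [map_sub, h0, hdd])
    refine cx_mem_bnd.2 ⟨y + z, add_mem hy hz', ?_⟩
    rw [map_add, ← e]; simp

/-- if the cycles of `L'` become boundaries in `L`, the cohomology of `L'` is a quotient of that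
of `L / L'` -/
theorem hh_bot_le_quot' {n : ℤ} (hz : ∀ x ∈ L' n, δ x = 0 → ∃ y ∈ L (n - 1), x = δ y)
    (hdd : ∀ x, δ (δ x) = 0) :
    hh δ L' (fun _ => ⊥) n ≤ hh δ L L' (n - 1) := by
  refine rl_le_of_surj δ (fun x hx h => ?_) fun y hy => ?_
  · obtain ⟨z, -, hxz⟩ := cx_mem_bnd.1 h
    refine cx_mem_bnd.2 ⟨x - δ z, hxz, ?_⟩
    simp [map_sub, hdd]
  · obtain ⟨x, hx, e⟩ := hz y hy.1 hy.2
    refine ⟨x, ⟨hx, ?_⟩, by simp [e]⟩
    change δ x ∈ L' (n - 1 + 1)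
    rw [sub_add_cancel, ← e]; exact hy.1

end Vale.Agent.P202
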