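import Mathlib

/-! Common definitions for the proof of Lech's inequality in equal characteristic. -/

namespace Vale.Agent.P202

open IsLocalRing Filter Topology

noncomputable section

section Len
variable {R : Type*} [CommRing R] {M : Type*} [AddCommGroup M] [Module R M]

/-- relative length: the length of the image of `B` in `M ⧸ A` -/
def rl (A B : Submodule R M) : ℕ∞ := Module.length R (B.map A.mkQ)

/-- the colength of an ideal, as a real number -/
def cl (I : Ideal R) : ℝ := ((rl I ⊤).toNat : ℝ)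

/-- `a N ~ e N^d / d!` -/
def Lim (d : ℕ) (a : ℕ → ℝ) (e : ℝ) : Prop :=
  Tendsto (fun N : ℕ => (d.factorial : ℝ) * a N / (N : ℝ) ^ d) atTop (𝓝 e)

/-- cycles of the subquotient complex `L / L'` -/
def cyc (δ : M →ₗ[R] M) (L L' : ℤ → Submodule R M) (n : ℤ) : Submodule R M :=
  L n ⊓ (L' (n + 1)).comap δ

/-- boundaries of the subquotient complex `L / L'` -/
def bnd (δ : M →ₗ[R] M) (L L' : ℤ → Submodule R M) (n : ℤ) : Submodule R M :=
  (L (n - 1)).map δ ⊔ L' n

/-- length of the cohomology of the subquotient complex `L / L'` -/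
def hh (δ : M →ₗ[R] M) (L L' : ℤ → Submodule R M) (n : ℤ) : ℕ∞ :=
  rl (bnd δ L L' n) (cyc δ L L' n)

/-- Euler characteristic of the subquotient complex `L / L'` -/
def chi (δ : M →ₗ[R] M) (L L' : ℤ → Submodule R M) : ℤ :=
  ∑ᶠ n : ℤ, ((n.negOnePow : ℤˣ) : ℤ) * ((hh δ L L' n).toNat : ℤ)

/-- `L / L'` is a bounded complex -/
structure IsPair (δ : M →ₗ[R] M) (L L' : ℤ → Submodule R M) : Prop where
  le : ∀ n, L' n ≤ L n
  st : ∀ n, ∀ x ∈ L n, δ x ∈ L (n + 1)
  st' : ∀ n, ∀ x ∈ L' n, δ x ∈ L' (n + 1)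
  dd : ∀ n, ∀ x ∈ L n, δ (δ x) ∈ L' (n + 1 + 1)
  bdd : {n | ¬ L n ≤ L' n}.Finite

/-- all cohomology has finite length -/
def HFin (δ : M →ₗ[R] M) (L L' : ℤ → Submodule R M) : Prop := ∀ n, hh δ L L' n ≠ ⊤

/-- action of a matrix on column vectors with entries in a module -/
def act {J : Type*} [Fintype J] (g : Matrix J J R) : (J → M) →ₗ[R] (J → M) :=
  LinearMap.pi fun a => ∑ b, g a b • LinearMap.proj b

/-- total differential of the tensor product of a matrix complex with `(M, δ)` -/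
def tot {J : Type*} [Fintype J] (g : Matrix J J R) (i : J → ℕ) (δ : M →ₗ[R] M) :
    (J → M) →ₗ[R] (J → M) :=
  act g + LinearMap.pi fun a => ((-1 : R) ^ i a) • (δ ∘ₗ LinearMap.proj a)

/-- graded pieces of a tensor product complex -/
def prof {J : Type*} (i : J → ℕ) (V : J → ℤ → Submodule R M) (n : ℤ) : Submodule R (J → M) :=
  Submodule.pi Set.univ fun a => V a (n + i a)

/-- a submodule placed in degree zero -/
def conc (A : Submodule R M) (n : ℤ) : Submodule R M := if n = 0 then A else ⊥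

/-- graded pieces of a matrix complex with coefficients `A a` at index `a` -/
def pf {J : Type*} (i : J → ℕ) (A : J → Submodule R M) : ℤ → Submodule R (J → M) :=
  prof i fun a => conc (A a)

/-- the matrix lowers the homological degree by one -/
def Deg {J : Type*} (i : J → ℕ) (g : Matrix J J R) : Prop := ∀ a b, g a b ≠ 0 → i a + 1 = i b

/-- the matrix raises the homological degree by one -/
def Deg' {J : Type*} (i : J → ℕ) (h : Matrix J J R) : Prop := ∀ a b, h a b ≠ 0 → i a = i b + 1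

/-- all entries of a matrix lie in an ideal -/
def Ent {J : Type*} (g : Matrix J J R) (I : Ideal R) : Prop := ∀ a b, g a b ∈ I

/-- multiplication by `r` is null-homotopic modulo `q` -/
def Null {J : Type*} [Fintype J] [DecidableEq J] (i : J → ℕ) (g : Matrix J J R) (q : Ideal R)
    (r : R) : Prop :=
  ∃ h : Matrix J J R, Deg' i h ∧ Ent (g * h + h * g - r • (1 : Matrix J J R)) q

/-- cohomology lengths of a matrix complex over `R ⧸ I` -/
def hI {J : Type*} [Fintype J] (i : J → ℕ) (g : Matrix J J R) (I : Ideal R) (n : ℤ) : ℕ∞ :=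
  hh (act g : (J → R) →ₗ[R] (J → R)) (pf i fun _ => ⊤) (pf i fun _ => I) n

/-- Euler characteristic of a matrix complex over `R ⧸ I` -/
def chiI {J : Type*} [Fintype J] (i : J → ℕ) (g : Matrix J J R) (I : Ideal R) : ℤ :=
  chi (act g : (J → R) →ₗ[R] (J → R)) (pf i fun _ => ⊤) (pf i fun _ => I)

/-- tensor product of two matrix complexes -/
def tens {K J : Type*} [DecidableEq K] [DecidableEq J] (k : K → ℕ) (κ : Matrix K K R)
    (g : Matrix J J R) : Matrix (K × J) (K × J) R :=
  Matrix.kroneckerMap (· * ·) κ 1 +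
    Matrix.kroneckerMap (· * ·) (Matrix.diagonal fun a => (-1 : R) ^ k a) g

/-- iterated backward difference -/
def bdiff : ℕ → (ℤ → ℝ) → ℤ → ℝ
  | 0, F => F
  | d + 1, F => fun N => bdiff d F N - bdiff d F (N - 1)

/-- the properties of the Koszul complex on `z` that are used -/
structure IsKos {d : ℕ} (z : Fin d → R) {K : Type} [Fintype K] [DecidableEq K] (k : K → ℕ)
    (κ : Matrix K K R) : Prop where
  deg : Deg k κ
  sq : κ * κ = 0
  ent : Ent κ (Ideal.span (Set.range z))
  le : ∀ a, k a ≤ d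
  zero : ∃ a0, ∀ a, k a = 0 ↔ a = a0
  null : ∀ t, Null k κ ⊥ (z t)
  euler : ∀ (F : ℤ → ℝ) (N : ℤ), ∑ a, (-1 : ℝ) ^ k a * F (N - k a) = bdiff d F N

/-- `g` is, modulo `q`, a resolution of `R ⧸ c` with generator `a0` -/
structure IsRes {J : Type} [Fintype J] [DecidableEq J] (i : J → ℕ) (g : Matrix J J R) (a0 : J)
    (q c : Ideal R) : Prop where
  deg : Deg i g
  sq : Ent (g * g) q
  zero : ∀ a, i a = 0 ↔ a = a0
  le : q ≤ c
  row : ∀ b, g a0 b ∈ c
  exact : ∀ n, hh (act g : (J → R) →ₗ[R] (J → R)) (pf i fun a => if a = a0 then c else ⊤)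
    (pf i fun _ => q) n = 0

end Len

section Colon
variable {A B : Type*} [CommRing A] [CommRing B]

/-- colon property: `B ⧸ (I B + c)` is flat over `A ⧸ I` -/
def CP (f : A →+* B) (I : Ideal A) (c : Ideal B) : Prop :=
  ∀ a : Ideal A, I ≤ a → ∀ (r : A) (b : B), f r * b ∈ a.map f ⊔ c →
    b ∈ (a.colon {r}).map f ⊔ c

/-- `y` is a non-zero-divisor modulo `c` -/
def RegMod (c : Ideal B) (y : B) : Prop := ∀ b, y * b ∈ c → b ∈ c

/-- the list is a regular sequence modulo `c` -/
def RegSeq : Ideal B → List B → Prop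
  | _, [] => True
  | c, y :: l => RegMod c y ∧ RegSeq (c ⊔ Ideal.span {y}) l

/-- `I` contains a power of the maximal ideal -/
def Prim [IsLocalRing B] (I : Ideal B) : Prop := ∃ c : ℕ, maximalIdeal B ^ c ≤ I

/-- `I` is a reduction of `b` modulo `q` -/
def IsRed (q I b : Ideal B) : Prop := I ≤ b ∧ ∃ r : ℕ, b ^ (r + 1) ≤ q ⊔ I * b ^ r

/-- `I` is generated by `d` elements -/
def Gen (I : Ideal B) (d : ℕ) : Prop := ∃ w : Fin d → B, I = Ideal.span (Set.range w)

/-- equal characteristic: characteristic a prime, or containing the rationals -/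
def EqChar (B : Type*) [CommRing B] : Prop :=
  (∃ p : ℕ, p.Prime ∧ CharP B p) ∨ ∀ n : ℕ, n ≠ 0 → IsUnit (n : B)

/-- `B` is a finite projective module over itself via `φ`, given by a dual basis -/
def Dual (φ : B →+* B) : Prop :=
  ∃ (T : Type) (_ : Fintype T) (μ : T → B) (dec : T → B →+ B),
    (∀ f, f = ∑ a, μ a * φ (dec a f)) ∧ ∀ a g f, dec a (φ g * f) = g * dec a f

end Colon

section Tower
variable {R : Type*} [CommRing R] {M : Type*} [AddCommGroup M] [Module R M] {σ : Type}

/-- index set of the iterated two-term complexes -/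
def Ix : List σ → Type
  | [] => Unit
  | _ :: l => Fin 3 × Ix l

instance Ix.fintype : (l : List σ) → Fintype (Ix l)
  | [] => inferInstanceAs (Fintype Unit)
  | _ :: l => have := Ix.fintype l; inferInstanceAs (Fintype (Fin 3 × Ix l))

/-- cohomological degree of an index -/
def dg : (l : List σ) → Ix l → ℕ
  | [], _ => 0
  | _ :: l, e => dg l e.2 + if e.1 = 2 then 1 else 0

/-- multidegree shift of an index -/
def sh [DecidableEq σ] (m : ℕ) : (l : List σ) → Ix l → σ → ℤ
  | [], _ => 0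
  | j :: l, e => sh m l e.2 + Pi.single j (if e.1 = 2 then 2 * (m : ℤ) else m)

/-- the slice of a vector with given outer index -/
def sl {j : σ} {l : List σ} (c : Fin 3) : (Ix (j :: l) → M) →ₗ[R] (Ix l → M) :=
  LinearMap.funLeft R M fun e => ((c, e) : Fin 3 × Ix l)

/-- the differential `(f, g, e) ↦ (δ f, δ g, t f - g - δ e)` -/
def dd (t : σ → Module.End R M) : (l : List σ) → ((Ix l → M) →ₗ[R] (Ix l → M))
  | [] => 0
  | j :: l => LinearMap.pi fun e : Fin 3 × Ix l =>
      if e.1 = 2 then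
        (t j ∘ₗ LinearMap.proj e.2 ∘ₗ sl (R := R) (j := j) 0) -
          (LinearMap.proj e.2 ∘ₗ sl (R := R) (j := j) 1) -
          (LinearMap.proj e.2 ∘ₗ dd t l ∘ₗ sl (R := R) (j := j) 2)
      else LinearMap.proj e.2 ∘ₗ dd t l ∘ₗ sl (R := R) (j := j) e.1

/-- graded pieces of the tower over a multigraded family `A` -/
def tw [DecidableEq σ] (m : ℕ) (l : List σ) (A : (σ → ℤ) → Submodule R M) (b : σ → ℤ) (n : ℤ) :
    Submodule R (Ix l → M) :=
  Submodule.pi Set.univ fun e => if (dg l e : ℤ) = n then A (b + sh m l e) else ⊥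

/-- the augmentation `x ↦ (x, t x, 0)` -/
def aug (t : σ → Module.End R M) : (l : List σ) → (M →ₗ[R] (Ix l → M))
  | [] => LinearMap.pi fun _ => LinearMap.id
  | j :: l => LinearMap.pi fun e : Fin 3 × Ix l =>
      if e.1 = 0 then LinearMap.proj e.2 ∘ₗ aug t l
      else if e.1 = 1 then t j ∘ₗ LinearMap.proj e.2 ∘ₗ aug t l else 0

/-- polynomials whose exponents lie in the box `[lo, hi]` -/
def box (R : Type*) [CommRing R] (κ : Type*) [CommRing κ] [Algebra R κ] (lo hi : σ → ℤ) :
    Submodule R (MvPolynomial σ κ) where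
  carrier := {F | ∀ c : σ →₀ ℕ, F.coeff c ≠ 0 → ∀ j, lo j ≤ c j ∧ (c j : ℤ) ≤ hi j}
  add_mem' := by
    intro F G hF hG c hc
    by_cases h : F.coeff c = 0
    · exact hG c (by simpa [h] using hc)
    · exact hF c h
  zero_mem' := by intro c hc; simp at hc
  smul_mem' := by
    intro r F hF c hc
    refine hF c fun h => hc ?_
    rw [MvPolynomial.coeff_smul, h, smul_zero]

/-- span of the monomials in `θ` with exponents at most `b` -/
def mon (P : Type*) [CommRing P] {Λ : Type*} [CommRing Λ] [Algebra P Λ] [Fintype σ] (θ : σ → Λ)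
    (b : σ → ℤ) : Submodule P Λ :=
  Submodule.span P {y | ∃ c : σ → ℕ, (∀ j, (c j : ℤ) ≤ b j) ∧ y = ∏ j, θ j ^ c j}

end Tower

/-- The data used by the main lemma: a splitting algebra over `(P ⧸ q)[1 / x 0]`. -/
structure SplitData {P : Type*} [CommRing P] (q : Ideal P) {s : ℕ} (x : Fin (s + 1) → P)
    (Λ : Type*) [CommRing Λ] [Algebra P Λ] (θ : Fin s → Λ) (u : Λˣ) : Prop where
  unit : (u : Λ) = algebraMap P Λ (x 0)
  kill : ∀ a ∈ q, algebraMap P Λ a = 0
  esym : ∀ i : Fin (s + 1), algebraMap P Λ (x i) =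
    u * (∏ j, (1 + Polynomial.C (θ j) * Polynomial.X)).coeff i
  indep : ∀ F : MvPolynomial (Fin s) P, F ∈ box P P 0 (fun j : Fin s => ((j : ℕ) : ℤ)) →
    MvPolynomial.aeval θ F = 0 → ∀ c, F.coeff c ∈ q
  perm : ∀ e : Equiv.Perm (Fin s), ∃ τ : Λ →ₐ[P] Λ, ∀ j, τ (θ j) = θ (e j)

end

end Vale.Agent.P202
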