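import Vale.Agent.P202.Defs

/-! More definitions for the main lemma. -/

namespace Vale.Agent.P202

noncomputable section

variable {R : Type*} [CommRing R] {M : Type*} [AddCommGroup M] [Module R M] {σ : Type}

/-- the family `A` is compatible with the operators `t` in the directions `l` -/
def TwOk [DecidableEq σ] (t : σ → Module.End R M) (m : ℕ) (l : List σ)
    (A : (σ → ℤ) → Submodule R M) : Prop :=
  ∀ j ∈ l, ∀ b, A b ≤ A (b + Pi.single j (m : ℤ)) ∧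
    ∀ x ∈ A b, t j x ∈ A (b + Pi.single j (m : ℤ))

/-- every cycle of degree `n` of the tower is a boundary -/
def TwExact [DecidableEq σ] (t : σ → Module.End R M) (m : ℕ) (l : List σ)
    (A : (σ → ℤ) → Submodule R M) (b : σ → ℤ) (n : ℤ) : Prop :=
  ∀ v ∈ tw m l A b n, dd t l v = 0 → ∃ y ∈ tw m l A b (n - 1), v = dd t l y

/-- the two-term complex in direction `j` and multidegree `b` is onto -/
def SurjAt [DecidableEq σ] (t : σ → Module.End R M) (m : ℕ) (A : (σ → ℤ) → Submodule R M)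
    (j : σ) (b : σ → ℤ) : Prop :=
  ∀ y ∈ A (b + Pi.single j (2 * (m : ℤ))), ∃ y1 ∈ A (b + Pi.single j (m : ℤ)),
    ∃ y2 ∈ A (b + Pi.single j (m : ℤ)), y = t j y1 - y2

/-- the kernel of the two-term complex in direction `j` and multidegree `b` is `A b` -/
def SvAt [DecidableEq σ] (t : σ → Module.End R M) (m : ℕ) (A : (σ → ℤ) → Submodule R M)
    (j : σ) (b : σ → ℤ) : Prop :=
  ∀ y ∈ A (b + Pi.single j (m : ℤ)), t j y ∈ A (b + Pi.single j (m : ℤ)) → y ∈ A b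

/-- multiplication by the `m`-th powers -/
def tt (P : Type*) [CommRing P] {Λ : Type*} [CommRing Λ] [Algebra P Λ] (θ : σ → Λ) (m : ℕ) :
    σ → Module.End P Λ := fun j => LinearMap.mulLeft P (θ j ^ m)

/-- `u ^ k * mon (b + k)` -/
def UU (P : Type*) [CommRing P] {Λ : Type*} [CommRing Λ] [Algebra P Λ] [Fintype σ] (θ : σ → Λ)
    (u : Λˣ) (k : ℤ) (b : σ → ℤ) : Submodule P Λ :=
  (mon P θ (b + fun _ => k)).map (LinearMap.mulLeft P ((u ^ k : Λˣ) : Λ))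

/-- the twisted complex of the main lemma -/
def YY (P : Type*) [CommRing P] {Λ : Type*} [CommRing Λ] [Algebra P Λ] [Fintype σ]
    [DecidableEq σ] (θ : σ → Λ) (u : Λˣ) {J : Type*} (i : J → ℕ) (ν m : ℕ) (l : List σ)
    (b : σ → ℤ) (k : ℤ) : ℤ → Submodule P (J → Ix l → Λ) :=
  prof i fun a => tw m l (UU P θ u (k - (i a : ℤ) * ν)) b

/-- the estimates for the quotients `mon b / I mon b` and their towers -/
structure PieceEst (P : Type*) [CommRing P] {Λ : Type*} [CommRing Λ] [Algebra P Λ] [Fintype σ]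
    [DecidableEq σ] (θ : σ → Λ) (I : Ideal P) (ρ : ℕ) (C : ℝ) : Prop where
  nonneg : 0 ≤ C
  fin : ∀ b, rl (I • mon P θ b) (mon P θ b) ≠ ⊤
  len : ∀ (B : ℕ) (b : σ → ℤ), (∀ j, 0 ≤ b j ∧ b j ≤ B) →
    |((rl (I • mon P θ b) (mon P θ b)).toNat : ℝ) - ρ * ∏ j, ((b j : ℝ) + 1)| * ((B : ℝ) + 1) ≤
      C * ((B : ℝ) + 1) ^ Fintype.card σ
  hh : ∀ (l : List σ), l.Nodup → (∀ j, j ∈ l) → ∀ (B m : ℕ) (b : σ → ℤ),
    (∀ j, 0 ≤ b j + m ∧ b j + 2 * m ≤ B) → ∀ n : ℤ,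
      n ≠ ((Finset.univ.filter fun j => b j < 0).card : ℤ) →
      ((hh (dd (tt P θ m) l) (tw m l (mon P θ) b) (tw m l (fun c => I • mon P θ c) b) n).toNat : ℝ) *
        ((B : ℝ) + 1) ≤ C * ((B : ℝ) + 1) ^ Fintype.card σ
  chi : ∀ (l : List σ), l.Nodup → (∀ j, j ∈ l) → ∀ (B m : ℕ) (b : σ → ℤ),
    (∀ j, 0 ≤ b j + m ∧ b j + 2 * m ≤ B) →
      |(chi (dd (tt P θ m) l) (tw m l (mon P θ) b) (tw m l (fun c => I • mon P θ c) b) : ℝ) -
        ρ * ∏ j, ((b j : ℝ) + 1)| * ((B : ℝ) + 1) ≤ C * ((B : ℝ) + 1) ^ Fintype.card σ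

end

end Vale.Agent.P202
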