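import Vale.Agent.P202.Defs3

/-! Calculus of lifts of Frobenius. -/

namespace Vale.Agent.P202

open IsLocalRing

variable {p : ℕ} {A B : Type*} [CommRing A] [CommRing B] {φ : A →+* A} {δ : A → A}

theorem IsDelta.of_cong (hreg : ∀ x : A, (p : A) * x = 0 → x = 0)
    (h : ∀ x, φ x - x ^ p ∈ Ideal.span {(p : A)}) : ∃ δ, IsDelta p φ δ := by
  choose δ hδ using fun x => Ideal.mem_span_singleton'.1 (h x)
  exact ⟨δ, hreg, fun x => by linear_combination -hδ x⟩

theorem IsDelta.cong (h : IsDelta p φ δ) (x : A) : φ x - x ^ p ∈ Ideal.span {(p : A)} := by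
  exact Ideal.mem_span_singleton'.2 ⟨δ x, by linear_combination -h.eq x⟩

theorem IsDelta.cancel (h : IsDelta p φ δ) {x y : A} (e : (p : A) * x = p * y) : x = y :=
  sub_eq_zero.1 (h.reg _ (by linear_combination e))

theorem IsDelta.mul (h : IsDelta p φ δ) (a b : A) : δ (a * b) = φ a * δ b + b ^ p * δ a := by
  refine h.cancel ?_
  have e := h.eq (a * b)
  rw [map_mul, mul_pow] at e
  linear_combination -e + φ a * h.eq b + b ^ p * h.eq a

theorem IsDelta.eq_zero (h : IsDelta p φ δ) {a : A} (ha : φ a = a ^ p) : δ a = 0 := by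
  exact h.reg _ (by linear_combination ha - h.eq a)

theorem IsDelta.map (h : IsDelta p φ δ) {φ' : B →+* B} {δ' : B → B} (h' : IsDelta p φ' δ')
    (f : A →+* B) (hf : ∀ a, φ' (f a) = f (φ a)) (a : A) : δ' (f a) = f (δ a) := by
  refine h'.cancel ?_
  have e := congrArg f (h.eq a)
  rw [map_add, map_mul, map_pow, map_natCast, ← hf] at e
  linear_combination e - h'.eq (f a)

theorem IsDelta.phi_delta (h : IsDelta p φ δ) (a : A) : δ (φ a) = φ (δ a) := by
  exact h.map h φ (fun _ => rfl) a

variable [Fact p.Prime]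

theorem IsDelta.add (h : IsDelta p φ δ) (a b : A) :
    ∃ c ∈ Subring.closure {a, b}, δ (a + b) = δ a + δ b + a * b * c := by
  let a' : Subring.closure ({a, b} : Set A) := ⟨a, Subring.subset_closure (by simp)⟩
  let b' : Subring.closure ({a, b} : Set A) := ⟨b, Subring.subset_closure (by simp)⟩
  obtain ⟨r, hr⟩ := exists_add_pow_prime_eq (Fact.out : p.Prime) a' b'
  have e := congrArg Subtype.val hr
  simp only [a', b', Subring.coe_add, Subring.coe_mul, SubmonoidClass.coe_pow,
    SubringClass.coe_natCast] at e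
  refine ⟨-r, neg_mem r.2, h.cancel ?_⟩
  have e1 := h.eq (a + b)
  rw [map_add] at e1
  linear_combination -e1 - e + h.eq a + h.eq b

theorem IsDelta.zero (h : IsDelta p φ δ) : δ 0 = 0 :=
  h.eq_zero (by rw [map_zero, zero_pow (Fact.out : p.Prime).ne_zero])

omit [Fact p.Prime] in
theorem IsDelta.one (h : IsDelta p φ δ) : δ 1 = 0 := h.eq_zero (by rw [map_one, one_pow])

theorem IsDelta.neg (h : IsDelta p φ δ) (a : A) :
    ∃ c ∈ Subring.closure {a, -a}, δ (-a) = -δ a + a * a * c := by
  obtain ⟨c, hc, e⟩ := h.add a (-a)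
  rw [add_neg_cancel, h.zero] at e
  exact ⟨c, hc, by linear_combination -e⟩

/-- subrings generated by a stable set are stable -/
theorem IsDelta.closure_stable (h : IsDelta p φ δ) (S : Set A) (C : Subring A)
    (hC : Subring.closure S ≤ C) (hS : ∀ x ∈ S, δ x ∈ C) :
    ∀ x ∈ Subring.closure S, δ x ∈ C := by
  intro x hx
  have pair : ∀ a b : A, a ∈ C → b ∈ C → Subring.closure {a, b} ≤ C := fun a b ha hb =>
    Subring.closure_le.2 (by rintro _ (rfl | rfl) <;> assumption)
  induction hx using Subring.closure_induction with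
  | mem x hx => exact hS x hx
  | zero => rw [h.zero]; exact zero_mem _
  | one => rw [h.one]; exact zero_mem _
  | add a b ha hb ia ib =>
    obtain ⟨c, hc, e⟩ := h.add a b
    rw [e]
    exact add_mem (add_mem ia ib) (mul_mem (mul_mem (hC ha) (hC hb)) (pair a b (hC ha) (hC hb) hc))
  | neg a ha ia =>
    obtain ⟨c, hc, e⟩ := h.neg a
    rw [e]
    exact add_mem (neg_mem ia) (mul_mem (mul_mem (hC ha) (hC ha))
      (pair a (-a) (hC ha) (neg_mem (hC ha)) hc))
  | mul a b ha hb ia ib =>
    rw [h.mul, h.eq]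
    exact add_mem (mul_mem (add_mem (pow_mem (hC ha) _) (mul_mem (natCast_mem _ _) ia)) ib)
      (mul_mem (pow_mem (hC hb) _) ia)

/-- ideals generated by a stable set are stable -/
theorem IsDelta.span_stable (h : IsDelta p φ δ) (S : Set A) (hS : ∀ x ∈ S, δ x ∈ Ideal.span S) :
    ∀ x ∈ Ideal.span S, δ x ∈ Ideal.span S := by
  intro x hx
  induction hx using Submodule.span_induction with
  | mem x hx => exact hS x hx
  | zero => rw [h.zero]; exact zero_mem _
  | add a b ha _ ia ib =>
    obtain ⟨c, -, e⟩ := h.add a b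
    rw [e]
    exact add_mem (add_mem ia ib) (Ideal.mul_mem_right _ _ (Ideal.mul_mem_right _ _ ha))
  | smul c a ha ia =>
    rw [smul_eq_mul, h.mul]
    exact add_mem (Ideal.mul_mem_left _ _ ia)
      (Ideal.mul_mem_right _ _ (Ideal.pow_mem_of_mem _ ha _ (Fact.out : p.Prime).pos))

theorem IsDelta.sub_mem (h : IsDelta p φ δ) {J : Ideal A} (hJ : ∀ x ∈ J, δ x ∈ J) {x y : A}
    (hxy : x - y ∈ J) : δ x - δ y ∈ J := by
  obtain ⟨c, -, e⟩ := h.add (x - y) y
  rw [sub_add_cancel] at e
  have : δ x - δ y = δ (x - y) + (x - y) * (y * c) := by linear_combination e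
  rw [this]
  exact add_mem (hJ _ hxy) (Ideal.mul_mem_right _ _ hxy)

theorem IsDelta.rank_one_sub (h : IsDelta p φ δ) {a b : A} (ha : φ a = a ^ p) (hb : φ b = b ^ p) :
    δ (a - b) ∈ Ideal.span {a - b} := by
  obtain ⟨c, -, e⟩ := h.add (a - b) b
  rw [sub_add_cancel, h.eq_zero ha, h.eq_zero hb] at e
  exact Ideal.mem_span_singleton'.2 ⟨-(b * c), by linear_combination e⟩

theorem IsDelta.delta_pow (h : IsDelta p φ δ) (w : A) :
    δ (w ^ p) = ∑ k ∈ Finset.range p, (p.choose (k + 1) : A) * (p : A) ^ k * δ w ^ (k + 1) *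
      (w ^ p) ^ (p - (k + 1)) := by
  refine h.cancel ?_
  have e := h.eq (w ^ p)
  rw [map_pow, h.eq w, add_comm (w ^ p), add_pow, Finset.sum_range_succ'] at e
  simp only [pow_zero, one_mul, Nat.sub_zero, Nat.choose_zero_right, Nat.cast_one, mul_one] at e
  rw [Finset.mul_sum]
  have : ∑ k ∈ Finset.range p, (p : A) * ((p.choose (k + 1) : A) * (p : A) ^ k * δ w ^ (k + 1) *
      (w ^ p) ^ (p - (k + 1))) = ∑ k ∈ Finset.range p, ((p : A) * δ w) ^ (k + 1) *
        (w ^ p) ^ (p - (k + 1)) * (p.choose (k + 1) : A) :=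
    Finset.sum_congr rfl fun k _ => by ring
  rw [this]
  linear_combination -e

/-- `δ` lowers the order by at most one -/
theorem IsDelta.pow_mem (h : IsDelta p φ δ) {n : Ideal A} (hp : (p : A) ∈ n) (k : ℕ) {x : A}
    (hx : x ∈ n ^ (k + 1)) : δ x ∈ n ^ k := by
  have p0 := (Fact.out : p.Prime).pos
  induction k generalizing x with
  | zero => simp
  | succ k ih =>
    rw [pow_succ'] at hx
    refine (Submodule.mul_induction_on (C := fun x => x ∈ n ^ (k + 1) ∧ δ x ∈ n ^ (k + 1)) hx
      ?_ ?_).2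
    · intro a ha y hy
      refine ⟨Ideal.mul_mem_left _ _ hy, ?_⟩
      rw [h.mul]
      refine add_mem ?_ (Ideal.mul_mem_right _ _ (Ideal.pow_mem_of_mem _ hy _ p0))
      rw [pow_succ']
      refine Ideal.mul_mem_mul ?_ (ih hy)
      rw [h.eq]
      exact add_mem (Ideal.pow_mem_of_mem _ ha _ p0) (Ideal.mul_mem_right _ _ hp)
    · intro a b ha hb
      refine ⟨add_mem ha.1 hb.1, ?_⟩
      obtain ⟨c, -, e⟩ := h.add a b
      rw [e]
      exact add_mem (add_mem ha.2 hb.2) (Ideal.mul_mem_right _ _ (Ideal.mul_mem_right _ _ ha.1))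

theorem IsDelta.delta_p (h : IsDelta p φ δ) : δ p = 1 - (p : A) ^ (p - 1) := by
  refine h.cancel ?_
  have e := h.eq p
  rw [map_natCast] at e
  have e1 : (p : A) ^ p = p * (p : A) ^ (p - 1) := by
    rw [← pow_succ', Nat.sub_add_cancel (Fact.out : p.Prime).pos]
  linear_combination -e - e1

theorem IsDelta.isUnit_delta_xi [IsLocalRing A] (h : IsDelta p φ δ) (hp : (p : A) ∈ maximalIdeal A)
    {t : A} (ht : t ∈ maximalIdeal A) (hφ : φ t = t ^ p) : IsUnit (δ ((p : A) - t)) := by
  obtain ⟨c, -, e⟩ := h.add ((p : A) - t) t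
  rw [sub_add_cancel, h.eq_zero hφ, h.delta_p] at e
  have : δ ((p : A) - t) = 1 - ((p : A) ^ (p - 1) + t * (((p : A) - t) * c)) := by
    linear_combination -e
  rw [this]
  refine isUnit_one_sub_self_of_mem_nonunits _ ((mem_maximalIdeal _).1 (add_mem ?_ ?_))
  · exact Ideal.pow_mem_of_mem _ hp _ (by have := (Fact.out : p.Prime).two_le; omega)
  · exact Ideal.mul_mem_right _ _ ht

/-- iterates of `φ` on the generators of a stable ideal -/
theorem IsDelta.iterate_mem (h : IsDelta p φ δ) (r : A) (e : ℕ) :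
    φ^[e] r ∈ Ideal.span (Set.range fun j : Fin (e + 1) => δ^[j] r) := by
  induction e generalizing r with
  | zero => exact Ideal.subset_span ⟨0, rfl⟩
  | succ e ih =>
    rw [Function.iterate_succ_apply, h.eq r, ← RingHom.coe_pow, map_add, map_pow, map_mul,
      map_natCast, RingHom.coe_pow]
    refine add_mem (Ideal.pow_mem_of_mem _ ?_ _ (Fact.out : p.Prime).pos)
      (Ideal.mul_mem_left _ _ ?_)
    · refine Ideal.span_mono ?_ (ih r)
      rintro _ ⟨j, rfl⟩
      exact ⟨j.castSucc, rfl⟩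
    · refine Ideal.span_mono ?_ (ih (δ r))
      rintro _ ⟨j, rfl⟩
      exact ⟨j.succ, rfl⟩

/-- in a discrete valuation ring with uniformizer `p`, `δ` lowers the valuation by exactly one -/
theorem IsDelta.mem_pow_of_delta [IsDomain A] [IsDiscreteValuationRing A] (h : IsDelta p φ δ)
    (hV : maximalIdeal A = Ideal.span {(p : A)}) {a : A} (ha : a ∈ maximalIdeal A) {n : ℕ}
    (hd : δ a ∈ Ideal.span {(p : A) ^ n}) : a ∈ Ideal.span {(p : A) ^ (n + 1)} := by
  have p2 := (Fact.out : p.Prime).two_le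
  have key : ∀ j, j ≤ n → a ∈ Ideal.span {(p : A) ^ (j + 1)} := by
    intro j
    induction j with
    | zero => intro _; rwa [zero_add, pow_one, ← hV]
    | succ j ih =>
      intro hj
      obtain ⟨u, rfl⟩ := Ideal.mem_span_singleton.1 (ih (by omega))
      have h1 : (p : A) ^ (j + 1) * p ∣ (p : A) ^ (j + 1) * φ u := by
        have e := h.eq ((p : A) ^ (j + 1) * u)
        rw [map_mul, map_pow, map_natCast] at e
        rw [e, ← pow_succ]
        refine dvd_add ?_ ?_
        · rw [mul_pow, ← pow_mul]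
          exact (pow_dvd_pow _ (by nlinarith)).mul_right _
        · rw [pow_succ']
          exact mul_dvd_mul_left _ ((pow_dvd_pow _ hj).trans (Ideal.mem_span_singleton.1 hd))
      have p0 : (p : A) ≠ 0 := fun e => one_ne_zero (h.reg 1 (by rw [e, zero_mul]))
      have h2 : φ u ∈ maximalIdeal A := by
        rw [hV, Ideal.mem_span_singleton]
        exact (mul_dvd_mul_iff_left (pow_ne_zero _ p0)).1 h1
      have h3 : u ^ p ∈ maximalIdeal A := by
        have := Ideal.sub_mem _ h2 (hV ▸ h.cong u)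
        rwa [sub_sub_cancel] at this
      have h4 := Ideal.IsPrime.mem_of_pow_mem inferInstance _ h3
      rw [hV, Ideal.mem_span_singleton] at h4
      rw [Ideal.mem_span_singleton, pow_succ _ (j + 1)]
      exact mul_dvd_mul_left _ h4
  exact key n le_rfl

end Vale.Agent.P202
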