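import Vale.Agent.P202.Colon

/-! Enlarging the residue field. -/

namespace Vale.Agent.P202

open IsLocalRing

universe u v

section Aux
open Polynomial

/-- the localization of the polynomial ring at the extended maximal ideal -/
abbrev InfResRing (R : Type*) [CommRing R] [IsLocalRing R] : Type _ :=
  Localization.AtPrime ((maximalIdeal R).map (C : R →+* R[X]))

variable (R : Type*) [CommRing R] [IsLocalRing R]

theorem infRes_cp : CP ((algebraMap R[X] (InfResRing R)).comp C) ⊥ ⊥ := by
  have h1 : Module.Flat R[X] (InfResRing R) :=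
    IsLocalization.flat _ ((maximalIdeal R).map (C : R →+* R[X])).primeCompl
  have h2 : Module.Flat R (InfResRing R) := Module.Flat.trans R R[X] _
  exact CP.of_flat (A := R) (B := InfResRing R)

theorem infRes_max : (maximalIdeal R).map ((algebraMap R[X] (InfResRing R)).comp C) =
    maximalIdeal (InfResRing R) := by
  rw [← Ideal.map_map, Localization.AtPrime.map_eq_maximalIdeal]

theorem infRes_infinite : Infinite (ResidueField (InfResRing R)) := by
  refine Infinite.of_injective
    (fun n : ℕ => residue _ (algebraMap R[X] (InfResRing R) (X ^ n))) fun n m h => ?_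
  by_contra hne
  have h1 : algebraMap R[X] (InfResRing R) (X ^ n - X ^ m) ∈ maximalIdeal _ := by
    rw [← residue_eq_zero_iff, map_sub, map_sub]
    exact sub_eq_zero.2 h
  rw [IsLocalization.AtPrime.to_map_mem_maximal_iff (InfResRing R)
    ((maximalIdeal R).map (C : R →+* R[X])), Ideal.mem_map_C_iff] at h1
  have h2 := h1 n
  rw [coeff_sub, coeff_X_pow, coeff_X_pow, if_pos rfl, if_neg hne, sub_zero] at h2
  exact (maximalIdeal.isMaximal R).ne_top ((Ideal.eq_top_iff_one _).2 h2)

attribute [local instance] Polynomial.algebra in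
theorem infRes_flat (S : Type*) [CommRing S] [Algebra R S] [Module.Flat R S] :
    (mapRingHom (algebraMap R S)).Flat := by
  have h : Module.Flat R[X] S[X] :=
    Module.Flat.isBaseChange (R := R) (M := S) (S := R[X]) S[X]
      (Algebra.IsPushout.out (R := R) (S := R[X]) (R' := S) (S' := S[X]))
  exact RingHom.flat_algebraMap_iff.2 h

end Aux

theorem exists_inf_pair (R : Type u) (S : Type v) [CommRing R] [IsLocalRing R] [IsNoetherianRing R]
    [CommRing S] [IsLocalRing S] [IsNoetherianRing S] [Algebra R S]
    [IsLocalHom (algebraMap R S)] [Module.Flat R S] :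
    ∃ (R1 : Type u) (_ : CommRing R1) (_ : IsLocalRing R1) (_ : IsNoetherianRing R1)
      (_ : Infinite (ResidueField R1)) (S1 : Type v) (_ : CommRing S1)
      (_ : IsLocalRing S1) (_ : IsNoetherianRing S1) (_ : Algebra R1 S1)
      (_ : IsLocalHom (algebraMap R1 S1)) (_ : Module.Flat R1 S1) (α : R →+* R1) (β : S →+* S1),
      CP α ⊥ ⊥ ∧ (maximalIdeal R).map α = maximalIdeal R1 ∧ CP β ⊥ ⊥ ∧
      (maximalIdeal S).map β = maximalIdeal S1 := by
  have hc : (maximalIdeal R).map (Polynomial.C : R →+* Polynomial R) =
      ((maximalIdeal S).map (Polynomial.C : S →+* Polynomial S)).comap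
        (Polynomial.mapRingHom (algebraMap R S)) := by
    ext f
    rw [Ideal.mem_comap, Ideal.mem_map_C_iff, Ideal.mem_map_C_iff]
    refine forall_congr' fun n => ?_
    rw [Polynomial.coe_mapRingHom, Polynomial.coeff_map, mem_maximalIdeal, mem_maximalIdeal,
      mem_nonunits_iff, mem_nonunits_iff, isUnit_map_iff]
  let φ : InfResRing R →+* InfResRing S := Localization.localRingHom _ _ _ hc
  exact ⟨InfResRing R, inferInstance, inferInstance, inferInstance, infRes_infinite R,
    InfResRing S, inferInstance, inferInstance, inferInstance, φ.toAlgebra,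
    Localization.isLocalHom_localRingHom _ _ _ hc, (infRes_flat R S).localRingHom _ _ hc, _, _,
    infRes_cp R, infRes_max R, infRes_cp S, infRes_max S⟩

theorem infinite_residue_of_map {A B : Type*} [CommRing A] [IsLocalRing A] [CommRing B]
    [IsLocalRing B] [Infinite (ResidueField A)] (f : A →+* B)
    (hf : (maximalIdeal A).map f ≤ maximalIdeal B) : Infinite (ResidueField B) := by
  have : IsLocalHom f := ((local_hom_TFAE f).out 0 2).2 hf
  exact Infinite.of_injective _ (ResidueField.map f).injective

theorem infinite_residue_of_surj {A B : Type*} [CommRing A] [IsLocalRing A] [CommRing B]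
    [IsLocalRing B] [Infinite (ResidueField B)] (f : A →+* B)
    (hf : (maximalIdeal A).map f ≤ maximalIdeal B)
    (hres : ∀ y : B, ∃ c : A, y - f c ∈ maximalIdeal B) : Infinite (ResidueField A) := by
  have : IsLocalHom f := ((local_hom_TFAE f).out 0 2).2 hf
  refine Infinite.of_surjective (ResidueField.map f) fun z => ?_
  obtain ⟨y, rfl⟩ := residue_surjective z
  obtain ⟨c, hc⟩ := hres y
  refine ⟨residue A c, ?_⟩
  rw [ResidueField.map_residue, eq_comm, ← sub_eq_zero, ← map_sub, residue_eq_zero_iff]
  exact hc

/-- a local ring is of equal characteristic zero or has a prime in its maximal ideal -/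
theorem eqChar_or_prime (R : Type*) [CommRing R] [IsLocalRing R] :
    EqChar R ∨ ∃ p : ℕ, p.Prime ∧ (p : R) ∈ maximalIdeal R := by
  by_cases h : ∃ p : ℕ, p.Prime ∧ (p : R) ∈ maximalIdeal R
  · exact Or.inr h
  refine Or.inl (Or.inr fun n hn => ?_)
  induction n using induction_on_primes with
  | zero => exact absurd rfl hn
  | one => simp
  | prime_mul p a hp ih =>
    rw [Nat.cast_mul]
    refine IsUnit.mul ?_ (ih fun e => hn (by rw [e, mul_zero]))
    by_contra hu
    exact h ⟨p, hp, hu⟩

end Vale.Agent.P202
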