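import Vale.Agent.P202.Colon

/-! Formal power series rings and complete local rings. -/

namespace Vale.Agent.P202

open IsLocalRing

section Complete
variable {P : Type*} [CommRing P] [IsLocalRing P] [IsNoetherianRing P]

theorem complete_of_surjective [IsAdicComplete (maximalIdeal P) P] {Q : Type*} [CommRing Q]
    [IsLocalRing Q] (π : P →+* Q) (hπ : Function.Surjective π) :
    IsAdicComplete (maximalIdeal Q) Q := by
  let _ := π.toAlgebra
  have : IsNoetherianRing Q := isNoetherianRing_of_surjective P Q π hπ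
  have h1 : IsPrecomplete (maximalIdeal P) Q := by
    rw [← AdicCompletion.of_surjective_iff]
    intro y
    obtain ⟨x', rfl⟩ := AdicCompletion.map_surjective (maximalIdeal P)
      (f := Algebra.linearMap P Q) hπ y
    obtain ⟨x, rfl⟩ := AdicCompletion.of_surjective (maximalIdeal P) P x'
    exact ⟨π x, (AdicCompletion.map_of _ (Algebra.linearMap P Q) x).symm⟩
  have h2 : IsPrecomplete (maximalIdeal Q) Q := by
    rw [← map_maximalIdeal_of_surjective π hπ]
    exact IsPrecomplete.map_algebraMap_iff.2 h1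
  exact {}

omit [IsLocalRing P] [IsNoetherianRing P] in
theorem psc_mem_smul_pi {ι : Type*} [Finite ι] (J : Ideal P) (x : ι → P) :
    x ∈ J • (⊤ : Submodule P (ι → P)) ↔ ∀ i, x i ∈ J := by
  classical
  cases nonempty_fintype ι
  constructor
  · intro h
    refine Submodule.smul_induction_on h (fun r hr y _ i => J.mul_mem_right _ hr)
      fun a b ha hb i => add_mem (ha i) (hb i)
  · intro h
    rw [pi_eq_sum_univ' x]
    exact sum_mem fun i _ => Submodule.smul_mem_smul (h i) trivial

omit [IsLocalRing P] [IsNoetherianRing P] in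
theorem psc_precomplete_pi {ι : Type*} [Finite ι] (I : Ideal P) [h : IsPrecomplete I P] :
    IsPrecomplete I (ι → P) := by
  refine ⟨fun f hf => ?_⟩
  have := fun i => h.prec (f := fun n => f n i) fun {m n} hmn => by
    have := (psc_mem_smul_pi _ _).1 (SModEq.sub_mem.1 (hf hmn)) i
    simpa [SModEq.sub_mem] using this
  choose L hL using this
  refine ⟨L, fun n => SModEq.sub_mem.2 ((psc_mem_smul_pi _ _).2 fun i => ?_)⟩
  simpa [SModEq.sub_mem] using hL i n

theorem psc_span {A : Type*} [CommRing A] [IsLocalRing A]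
    [IsAdicComplete (maximalIdeal A) A] [Algebra A P]
    (hm : (maximalIdeal A).map (algebraMap A P) ≤ maximalIdeal P) (q : Ideal P) {ι : Type*}
    [Finite ι] (v : ι → P)
    (h : ∀ y : P, ∃ w ∈ Submodule.span A (Set.range v),
      y - w ∈ q ⊔ (maximalIdeal A).map (algebraMap A P)) (y : P) :
    ∃ w ∈ Submodule.span A (Set.range v), y - w ∈ q := by
  cases nonempty_fintype ι
  have h1 := psc_precomplete_pi (ι := ι) (maximalIdeal A)
  have h2 : IsHausdorff (maximalIdeal A) (P ⧸ q) := IsHausdorff.of_map (S := P) hm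
  let π : P →ₗ[A] P ⧸ q := (Ideal.Quotient.mkₐ A q).toLinearMap
  let f : (ι → A) →ₗ[A] P ⧸ q := π ∘ₗ Fintype.linearCombination A v
  have h3 : Function.Surjective f := by
    refine surjective_of_mkQ_comp_surjective (I := maximalIdeal A) fun z => ?_
    obtain ⟨z, rfl⟩ := Submodule.mkQ_surjective _ z
    obtain ⟨y, rfl⟩ := Ideal.Quotient.mk_surjective z
    obtain ⟨w, hw, hyw⟩ := h y
    rw [← Fintype.range_linearCombination] at hw
    obtain ⟨a, rfl⟩ := hw
    refine ⟨a, ((Submodule.Quotient.eq _).2 ?_).symm⟩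
    obtain ⟨b, hb, c, hc, e⟩ := Submodule.mem_sup.1 hyw
    have e2 : Ideal.Quotient.mk q y - f a = π c := by
      change π y - π _ = _
      rw [← map_sub, ← e, map_add]
      have : π b = 0 := Ideal.Quotient.eq_zero_iff_mem.2 hb
      rw [this, zero_add]
    rw [e2]
    have hc' : c ∈ maximalIdeal A • (⊤ : Submodule A P) := by
      rw [Ideal.smul_top_eq_map]; exact hc
    have := Submodule.mem_map_of_mem (f := π) hc'
    rw [Submodule.map_smul''] at this
    exact Submodule.smul_mono le_rfl le_top this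
  obtain ⟨a, ha⟩ := h3 (π y)
  refine ⟨Fintype.linearCombination A v a, ?_, Ideal.Quotient.eq.1 ha.symm⟩
  rw [← Fintype.range_linearCombination]; exact ⟨a, rfl⟩

/-- complete Nakayama lemma -/
theorem finite_of_prim {A : Type*} [CommRing A] [IsLocalRing A] [IsNoetherianRing A]
    [IsAdicComplete (maximalIdeal A) A] [Algebra A P]
    (hm : (maximalIdeal A).map (algebraMap A P) ≤ maximalIdeal P)
    (hres : ∀ y : P, ∃ a : A, y - algebraMap A P a ∈ maximalIdeal P) (q : Ideal P)
    (h : Prim (q ⊔ (maximalIdeal A).map (algebraMap A P))) : Module.Finite A (P ⧸ q) := by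
  classical
  have key := rl_induction (B := (⊤ : Ideal P))
    (fun J => ∃ s : Finset P, ∀ y, ∃ w ∈ Submodule.span A (s : Set P), y - w ∈ J)
    ⟨∅, fun y => ⟨0, zero_mem _, trivial⟩⟩ ?_ le_top (rl_ne_top_of_prim h)
  · obtain ⟨s, hs⟩ := key
    have h1 := psc_span hm q (fun x : s => (x : P)) (by simpa using hs)
    let π : P →ₗ[A] P ⧸ q := (Ideal.Quotient.mkₐ A q).toLinearMap
    refine ⟨Submodule.fg_def.2 ⟨π '' s, s.finite_toSet.image _, ?_⟩⟩
    rw [eq_top_iff, ← Submodule.map_span]
    intro z _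
    obtain ⟨y, rfl⟩ := Ideal.Quotient.mk_surjective z
    obtain ⟨w, hw, hyw⟩ := h1 y
    exact ⟨w, by simpa using hw, (Ideal.Quotient.eq.2 hyw).symm⟩
  · rintro J v - - - hk ⟨s, hs⟩
    refine ⟨insert v s, fun y => ?_⟩
    obtain ⟨w, hw, hyw⟩ := hs y
    obtain ⟨b, hb, c, hc, e⟩ := Submodule.mem_sup.1 hyw
    obtain ⟨r, rfl⟩ := Submodule.mem_span_singleton.1 hc
    obtain ⟨a, ha⟩ := hres r
    refine ⟨w + a • v, add_mem (Submodule.span_mono (by simp) hw)
      (Submodule.smul_mem _ _ (Submodule.subset_span (by simp))), ?_⟩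
    have e2 : y - (w + a • v) = b + (r - algebraMap A P a) • v := by
      rw [← sub_sub, ← e, Algebra.smul_def a]; simp only [smul_eq_mul]; ring
    rw [e2]
    exact add_mem hb (hk _ ha)

/-- complete Nakayama lemma, with explicit generators -/
theorem span_eq_top_of_complete {A : Type*} [CommRing A] [IsLocalRing A]
    [IsAdicComplete (maximalIdeal A) A] [Algebra A P]
    (hm : (maximalIdeal A).map (algebraMap A P) ≤ maximalIdeal P) (q : Ideal P) {ι : Type*}
    [Finite ι] (v : ι → P)
    (h : ∀ y : P, ∃ w ∈ Submodule.span A (Set.range v),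
      y - w ∈ q ⊔ (maximalIdeal A).map (algebraMap A P)) (y : P) :
    ∃ w ∈ Submodule.span A (Set.range v), y - w ∈ q := by
  exact psc_span hm q v h y

end Complete

end Vale.Agent.P202
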