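import Vale.Agent.P202.PSV
import Vale.Agent.P202.ApproxA

/-! Power series rings over a complete discrete valuation ring are factorial. -/

namespace Vale.Agent.P202

open IsLocalRing MvPowerSeries

theorem exists_shearV (V : Type*) [CommRing V] {d : ℕ} (c : Fin d → V) :
    ∃ α : MvPowerSeries (Fin (d + 1)) V ≃+* MvPowerSeries (Fin (d + 1)) V,
      (∀ a, α (C a) = C a) ∧ α (X 0) = X 0 ∧ ∀ i, α (X i.succ) = X i.succ + C (c i) * X 0 := by
  have hX : ∀ i, (X i : MvPowerSeries (Fin (d + 1)) V) ∈ Ideal.span (Set.range X) := fun i =>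
    Ideal.subset_span ⟨i, rfl⟩
  obtain ⟨α, a1, a2⟩ := exists_ev (Ideal.span (Set.range (X : _ → MvPowerSeries (Fin (d + 1)) V)))
    C (Fin.cons (X 0) fun i => X i.succ + C (c i) * X 0 : Fin (d + 1) → _) fun i => by
      induction i using Fin.cases with
      | zero => exact hX 0
      | succ i => exact add_mem (hX _) (Ideal.mul_mem_left _ _ (hX 0))
  obtain ⟨β, b1, b2⟩ := exists_ev (Ideal.span (Set.range (X : _ → MvPowerSeries (Fin (d + 1)) V)))
    C (Fin.cons (X 0) fun i => X i.succ - C (c i) * X 0 : Fin (d + 1) → _) fun i => by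
      induction i using Fin.cases with
      | zero => exact hX 0
      | succ i => exact sub_mem (hX _) (Ideal.mul_mem_left _ _ (hX 0))
  have a0 : α (X 0) = X 0 := a2 0
  have b0 : β (X 0) = X 0 := b2 0
  have as : ∀ i : Fin d, α (X i.succ) = X i.succ + C (c i) * X 0 := fun i => a2 i.succ
  have bs : ∀ i : Fin d, β (X i.succ) = X i.succ - C (c i) * X 0 := fun i => b2 i.succ
  have h1 : ∀ i, α (β (X i)) = X i := fun i => by
    induction i using Fin.cases with
    | zero => rw [b0, a0]
    | succ i => rw [bs, map_sub, map_mul, as, a0, a1, add_sub_cancel_right]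
  have h2 : ∀ i, β (α (X i)) = X i := fun i => by
    induction i using Fin.cases with
    | zero => rw [a0, b0]
    | succ i => rw [as, map_add, map_mul, bs, b0, b1, sub_add_cancel]
  refine ⟨RingEquiv.ofRingHom α β ?_ ?_, a1, a0, as⟩
  · exact ev_unique (Ideal.span (Set.range X)) _ _ (fun a => by simp [a1, b1]) h1
      fun i => by rw [RingHom.comp_apply, h1]; exact hX i
  · exact ev_unique (Ideal.span (Set.range X)) _ _ (fun a => by simp [a1, b1]) h2
      fun i => by rw [RingHom.comp_apply, h2]; exact hX i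

theorem ufd_point {L : Type*} [Field L] [Infinite L] {d : ℕ} (p : MvPolynomial (Fin (d + 1)) L)
    (hp : p ≠ 0) {N : ℕ} (hh : p.IsHomogeneous N) :
    ∃ c : Fin d → L, MvPolynomial.eval (Fin.cons 1 c : Fin (d + 1) → L) p ≠ 0 := by
  by_contra! H
  refine hp (MvPolynomial.funext_set (Fin.cons ({0}ᶜ : Set L) fun _ => Set.univ)
    (fun i => ?_) fun x hx => ?_)
  · induction i using Fin.cases with
    | zero => exact (Set.finite_singleton _).infinite_compl
    | succ i => exact Set.infinite_univ
  · have h0 : x 0 ≠ 0 := hx 0 trivial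
    have e : x = fun i => x 0 * (Fin.cons 1 fun i => x i.succ / x 0 : Fin (d + 1) → L) i := by
      funext i
      induction i using Fin.cases with
      | zero => simp
      | succ i =>
        rw [Fin.cons_succ]
        field_simp
    rw [map_zero, e, ← MvPolynomial.eval₂_id, ApproxA_hom hh, MvPolynomial.eval₂_id, H, mul_zero]

theorem exists_regularV (V : Type*) [CommRing V] [IsLocalRing V] [Infinite (ResidueField V)]
    {d : ℕ} (e : MvPowerSeries (Fin (d + 1)) V) (he : MvPowerSeries.map (residue V) e ≠ 0) :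
    ∃ c : Fin d → V, ∀ α : MvPowerSeries (Fin (d + 1)) V →+* MvPowerSeries (Fin (d + 1)) V,
      (∀ a, α (C a) = C a) → α (X 0) = X 0 → (∀ i, α (X i.succ) = X i.succ + C (c i) * X 0) →
      (finSuccEquiv V d (α e)).map (residue (MvPowerSeries (Fin d) V)) ≠ 0 := by
  obtain ⟨N, p, hp, hh, hep⟩ := exists_form_ne_zero _ he
  obtain ⟨c0, hc⟩ := ufd_point p hp hh
  choose c hc0 using fun i => residue_surjective (c0 i)
  refine ⟨c, fun α h1 h2 h3 h0 => hc ?_⟩
  let ρ : MvPowerSeries (Fin (d + 1)) V →+* PowerSeries (ResidueField (MvPowerSeries (Fin d) V)) :=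
    ((PowerSeries.map (residue (MvPowerSeries (Fin d) V))).comp
      (finSuccEquiv V d).toRingEquiv.toRingHom).comp α
  have hρ : ∀ f, ρ f = (finSuccEquiv V d (α f)).map (residue (MvPowerSeries (Fin d) V)) :=
    fun _ => rfl
  let g : ResidueField V →+* ResidueField (MvPowerSeries (Fin d) V) :=
    Ideal.Quotient.lift (maximalIdeal V) ((residue _).comp C) fun a ha => by
      rw [RingHom.comp_apply, residue_eq_zero_iff, maximalIdeal_psV]
      exact Ideal.mem_sup_left (Ideal.mem_map_of_mem _ ha)
  have hg : ∀ a, g (residue V a) = residue _ (C a) := fun a => rfl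
  have hC : ∀ a, ρ (C a) = PowerSeries.C (g (residue V a)) := fun a => by
    rw [hρ, h1, finSuccEquiv_C, PowerSeries.map_C, hg]
  have hX : ∀ i, ρ (X i) = PowerSeries.X * PowerSeries.C
      (g ((Fin.cons 1 c0 : Fin (d + 1) → ResidueField V) i)) := fun i => by
    induction i using Fin.cases with
    | zero => rw [hρ, h2, finSuccEquiv_X_zero, PowerSeries.map_X]; simp
    | succ i =>
      have h4 : residue (MvPowerSeries (Fin d) V) (X i) = 0 := by
        rw [residue_eq_zero_iff, maximalIdeal_psV]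
        exact Ideal.mem_sup_right (Ideal.subset_span ⟨i, rfl⟩)
      rw [hρ, h3, map_add, map_mul, finSuccEquiv_X_zero, finSuccEquiv_X_succ, finSuccEquiv_C,
        map_add, map_mul, PowerSeries.map_C, PowerSeries.map_C, PowerSeries.map_X, h4,
        Fin.cons_succ, ← hc0, hg, map_zero, zero_add, mul_comm]
  have hXm : ∀ i, ρ (X i) ∈ Ideal.span {(PowerSeries.X :
      PowerSeries (ResidueField (MvPowerSeries (Fin d) V)))} := fun i => by
    rw [hX]
    exact Ideal.mul_mem_right _ _ (Ideal.mem_span_singleton_self _)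
  obtain ⟨ρ', r1, r2⟩ := exists_ev (Ideal.span {(PowerSeries.X :
      PowerSeries (ResidueField (MvPowerSeries (Fin d) V)))}) (PowerSeries.C.comp g)
      (fun i => ρ (X i)) hXm
  have hρ' : ρ = ρ'.comp (MvPowerSeries.map (residue V)) :=
    ev_unique (Ideal.span {PowerSeries.X}) _ _
      (fun a => by rw [hC, RingHom.comp_apply, MvPowerSeries.map_C, r1, RingHom.comp_apply])
      (fun i => by rw [ρ'.comp_apply, MvPowerSeries.map_X, r2]) hXm
  have h5 : ρ' p = PowerSeries.X ^ N * PowerSeries.C
      (g (MvPolynomial.eval (Fin.cons 1 c0 : Fin (d + 1) → ResidueField V) p)) := by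
    have e1 : ρ'.comp MvPolynomial.coeToMvPowerSeries.ringHom =
        MvPolynomial.eval₂Hom (PowerSeries.C.comp g) fun i => ρ (X i) :=
      MvPolynomial.ringHom_ext (fun a => by simp [r1]) fun i => by simp [r2]
    have e2 : ρ' p = _ := RingHom.congr_fun e1 p
    rw [e2, MvPolynomial.coe_eval₂Hom]
    simp only [hX]
    rw [ApproxA_hom hh]
    congr 1
    exact (MvPolynomial.eval₂_comp (PowerSeries.C.comp g) _ p).symm
  have h6 : ρ' (MvPowerSeries.map (residue V) e - p) ∈ Ideal.span {(PowerSeries.X :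
      PowerSeries (ResidueField (MvPowerSeries (Fin d) V)))} ^ (N + 1) := by
    refine Ideal.pow_right_mono (I := (Ideal.span (Set.range X)).map ρ') ?_ _ ?_
    · rw [Ideal.map_span, Ideal.span_le]
      rintro _ ⟨_, ⟨i, rfl⟩, rfl⟩
      rw [r2]
      exact hXm i
    · rw [← Ideal.map_pow]
      exact Ideal.mem_map_of_mem _ hep
  rw [Ideal.span_singleton_pow, Ideal.mem_span_singleton, PowerSeries.X_pow_dvd_iff] at h6
  have h7 := h6 N (Nat.lt_succ_self N)
  have h8 : ρ' (MvPowerSeries.map (residue V) e) = 0 := by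
    rw [← h0, ← hρ, hρ']; rfl
  rw [map_sub, h8, zero_sub, map_neg, neg_eq_zero, h5, mul_comm, PowerSeries.coeff_C_mul,
    PowerSeries.coeff_X_pow_self, mul_one] at h7
  exact (map_eq_zero_iff g g.injective).1 h7

theorem ufd_distinguished {A : Type*} [CommRing A] [IsLocalRing A] {g W : Polynomial A}
    (hW : W.IsDistinguishedAt (maximalIdeal A)) (hg : g.Monic) (hd : g ∣ W) :
    g.IsDistinguishedAt (maximalIdeal A) := by
  refine ⟨⟨fun {n} hn => ?_⟩, hg⟩
  have h1 : g.map (residue A) ∣ Polynomial.X ^ W.natDegree := by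
    have := hW.map_eq_X_pow
    have h2 : W.map (residue A) = Polynomial.X ^ W.natDegree := this
    rw [← h2]
    exact Polynomial.map_dvd _ hd
  obtain ⟨m, -, hm⟩ := (dvd_prime_pow Polynomial.prime_X _).1 h1
  have h3 : g.map (residue A) = Polynomial.X ^ m :=
    Polynomial.eq_of_monic_of_associated (hg.map _) (Polynomial.monic_X_pow m) hm
  have h4 : g.natDegree = m := by
    rw [← hg.natDegree_map (residue A), h3, Polynomial.natDegree_X_pow]
  have h5 := congrArg (fun f => f.coeff n) h3
  simp only [Polynomial.coeff_map, Polynomial.coeff_X_pow] at h5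
  rw [if_neg (by omega)] at h5
  exact (residue_eq_zero_iff _).1 h5

/-- a prime of a power series ring containing a regular series contains a prime element -/
theorem exists_prime_mem_ps {A : Type*} [CommRing A] [IsDomain A] [IsLocalRing A]
    [IsAdicComplete (maximalIdeal A) A] [UniqueFactorizationMonoid A] (P : Ideal (PowerSeries A))
    [P.IsPrime] {f : PowerSeries A} (hf : f ∈ P) (hr : f.map (residue A) ≠ 0) :
    ∃ g ∈ P, Prime g := by
  obtain ⟨W, h, hW, hu, he⟩ := PowerSeries.exists_isWeierstrassFactorization hr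
  let P' : Ideal (Polynomial A) := P.comap Polynomial.coeToPowerSeries.ringHom
  have hWP : W ∈ P' := by
    rw [he] at hf
    rcases Ideal.IsPrime.mem_or_mem inferInstance hf with h1 | h1
    · exact h1
    · exact absurd (Ideal.eq_top_of_isUnit_mem _ h1 hu) (Ideal.IsPrime.ne_top inferInstance)
  obtain ⟨s, hs, hsW⟩ := UniqueFactorizationMonoid.exists_prime_factors W hW.monic.ne_zero
  have hsP : s.prod ∈ P' := by
    obtain ⟨u, hu⟩ := hsW.symm
    rw [← hu]
    exact Ideal.mul_mem_right _ _ hWP
  obtain ⟨g, hgs, hgP⟩ := (Ideal.IsPrime.multiset_prod_mem_iff_exists_mem inferInstance s).1 hsP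
  have hgW : g ∣ W := (Multiset.dvd_prod hgs).trans hsW.dvd
  obtain ⟨u, hu⟩ := hW.monic.isUnit_leadingCoeff_of_dvd hgW
  have hm : (g * Polynomial.C (↑u⁻¹ : A)).Monic := by
    rw [Polynomial.Monic, Polynomial.leadingCoeff_mul, Polynomial.leadingCoeff_C, ← hu,
      Units.mul_inv]
  have ha : Associated g (g * Polynomial.C (↑u⁻¹ : A)) :=
    associated_mul_unit_right _ _ (Polynomial.isUnit_C.2 (Units.isUnit _))
  set g' := g * Polynomial.C (↑u⁻¹ : A)
  have hp : Prime g' := ha.prime (hs g hgs)
  have hd := ufd_distinguished hW hm (ha.symm.dvd.trans hgW)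
  have hP : g' ∈ P' := Ideal.mul_mem_right _ _ hgP
  refine ⟨g', hP, ?_⟩
  have hne : (g' : PowerSeries A) ≠ 0 := fun h => hp.ne_zero (Polynomial.coe_eq_zero_iff.1 h)
  rw [← Ideal.span_singleton_prime hne, ← Ideal.Quotient.isDomain_iff_prime]
  haveI : IsDomain (Polynomial A ⧸ Ideal.span {g'}) :=
    (Ideal.Quotient.isDomain_iff_prime _).2 ((Ideal.span_singleton_prime hp.ne_zero).2 hp)
  exact hd.algEquivQuotient.symm.toMulEquiv.isDomain _

theorem ufd_fin {p : ℕ} {V : Type*} [CommRing V] [IsDomain V] [IsDiscreteValuationRing V]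
    [IsAdicComplete (maximalIdeal V) V] [Infinite (ResidueField V)]
    (hV : maximalIdeal V = Ideal.span {(p : V)}) (d : ℕ) :
    UniqueFactorizationMonoid (MvPowerSeries (Fin d) V) := by
  have key : ∀ d : ℕ, (∀ P : Ideal (MvPowerSeries (Fin d) V), P.IsPrime → ∀ f ∈ P,
      MvPowerSeries.map (residue V) f ≠ 0 → ∃ g ∈ P, Prime g) →
      UniqueFactorizationMonoid (MvPowerSeries (Fin d) V) := by
    intro d H
    have : IsDomain (MvPowerSeries (Fin d) V) := NoZeroDivisors.to_isDomain _
    refine UniqueFactorizationMonoid.iff_exists_prime_mem_of_isPrime.2 fun P h1 h2 => ?_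
    have hp : Prime (p : MvPowerSeries (Fin d) V) := prime_p_psV hV
    by_cases hpP : (p : MvPowerSeries (Fin d) V) ∈ P
    · exact ⟨_, hpP, hp⟩
    obtain ⟨f, hf, hf0⟩ := Submodule.exists_mem_ne_zero_of_ne_bot h1
    obtain ⟨n, a, ha, rfl⟩ := WfDvdMonoid.max_power_factor hf0 hp.irreducible
    refine H P h2 a ((h2.mem_or_mem hf).resolve_left fun h => hpP (h2.mem_of_pow_mem _ h))
      fun h => ha ?_
    rw [← Ideal.mem_span_singleton, span_p_eq_ker hV]
    exact h
  induction d with
  | zero =>
    refine key 0 fun P hP f hf h => absurd (Ideal.eq_top_of_isUnit_mem _ hf ?_) hP.ne_top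
    by_contra hu
    have h1 : f ∈ maximalIdeal _ := hu
    rw [maximalIdeal_psV' hV, Set.range_eq_empty, Ideal.span_empty, sup_bot_eq,
      span_p_eq_ker hV] at h1
    exact h h1
  | succ d ih =>
    refine key (d + 1) fun P hP f hf h => ?_
    have : IsDomain (MvPowerSeries (Fin d) V) := NoZeroDivisors.to_isDomain _
    obtain ⟨c, hc⟩ := exists_regularV V f h
    obtain ⟨α, a1, a2, a3⟩ := exists_shearV V c
    have h1 := hc α.toRingHom a1 a2 a3
    let β := α.trans (finSuccEquiv V d).toRingEquiv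
    obtain ⟨g, hg, hg'⟩ := exists_prime_mem_ps (P.comap β.symm) (f := β f)
      (by rw [Ideal.mem_comap, RingEquiv.symm_apply_apply]; exact hf) h1
    exact ⟨β.symm g, hg, (MulEquiv.prime_iff β.symm.toMulEquiv).2 hg'⟩

theorem ufd_psV {p : ℕ} {V : Type*} [CommRing V] [IsDomain V] [IsDiscreteValuationRing V]
    [IsAdicComplete (maximalIdeal V) V] [Infinite (ResidueField V)]
    (hV : maximalIdeal V = Ideal.span {(p : V)}) (σ : Type) [Fintype σ] :
    UniqueFactorizationMonoid (MvPowerSeries σ V) :=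
  (renameEquiv V (Fintype.equivFin σ)).symm.toMulEquiv.uniqueFactorizationMonoid (ufd_fin hV _)

end Vale.Agent.P202
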