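import Vale.Agent.P202.HypEx
import Vale.Agent.P202.CohenC
import Vale.Agent.P202.Ufd
import Vale.Agent.P202.InfRes
import Vale.Agent.P202.Red
import Vale.Agent.P202.PSc

/-! A complete domain of mixed characteristic is birational to a hypersurface. -/

namespace Vale.Agent.P202

open IsLocalRing

universe u

theorem domBase_charZero {T : Type*} [CommRing T] [IsDomain T] {p : ℕ} (hp : p.Prime)
    (h0 : (p : T) ≠ 0) (hu : ¬ IsUnit (p : T)) : CharZero T := by
  refine charZero_of_inj_zero fun n => ?_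
  induction n using induction_on_primes with
  | zero => exact fun _ => rfl
  | one => simp
  | prime_mul l a hl ih =>
    intro h
    rw [Nat.cast_mul, mul_eq_zero] at h
    rcases h with h | h
    · exfalso
      by_cases e : l = p
      · exact h0 (e ▸ h)
      · have h1 : IsCoprime (l : T) (p : T) := ((Nat.coprime_primes hl hp).2 e).cast
        rw [h, isCoprime_zero_left] at h1
        exact hu h1
    · rw [ih h, mul_zero]

theorem domain_base (p : ℕ) [Fact p.Prime] (R : Type u) [CommRing R] [IsDomain R] [IsLocalRing R]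
    [IsNoetherianRing R] [IsAdicComplete (maximalIdeal R) R] [Infinite (ResidueField R)]
    (hp : (p : R) ∈ maximalIdeal R) (hp0 : (p : R) ≠ 0) {d : ℕ} {W0 : Ideal R} (hW : Gen W0 d)
    (hWm : W0 ≤ maximalIdeal R) (hWp : Prim W0) {eR : ℝ}
    (hR : Lim d (fun N => cl (maximalIdeal R ^ N)) eR) :
    eR ≤ 0 ∨ ∃ (d' : ℕ) (V : Type u) (_ : CommRing V) (_ : IsDomain V)
      (_ : IsDiscreteValuationRing V) (_ : Algebra (MvPowerSeries (Fin d') V) R) (x : R)
      (F : Polynomial (MvPowerSeries (Fin d') V)) (g0 g1 : MvPowerSeries (Fin d') V),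
      d = d' + 1 ∧ maximalIdeal V = Ideal.span {(p : V)} ∧
      Module.Finite (MvPowerSeries (Fin d') V) R ∧
      (maximalIdeal _).map (algebraMap (MvPowerSeries (Fin d') V) R) ≤ maximalIdeal R ∧
      (∀ r : R, ∃ t : MvPowerSeries (Fin d') V, r - algebraMap _ R t ∈ maximalIdeal R) ∧
      HypData x F g0 g1 ∧
      IsRed ⊥ (Ideal.span (Set.range (Fin.cons x (fun j => algebraMap (MvPowerSeries (Fin d') V) R
        (MvPowerSeries.X j)) : Fin (d' + 1) → R))) (maximalIdeal R) := by
  have hmax : Prim (⊥ ⊔ maximalIdeal R) := ⟨1, by simp⟩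
  have hpt : Ideal.span {(p : R)} ≠ ⊤ := ne_top_of_le_ne_top (maximalIdeal.isMaximal R).ne_top
    ((Ideal.span_singleton_le_iff_mem _).2 hp)
  obtain _ | d' := d
  · exfalso
    obtain ⟨w, rfl⟩ := hW
    obtain ⟨c, hc⟩ := hWp
    rw [Set.range_eq_empty, Ideal.span_empty] at hc
    exact hp0 (eq_zero_of_pow_eq_zero (n := c) (hc (Ideal.pow_mem_pow hp c)))
  obtain ⟨v, hv⟩ := exists_gen (maximalIdeal R)
  obtain ⟨W, -, hW1, -, -, hred⟩ := red_of_prim (q := ⊥) hv le_rfl hmax hW hWm (by simpa using hWp)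
  obtain ⟨W1, g1, g2, g3⟩ := exists_sop_of_lt (p := ⊥) hpt
    (bot_lt_iff_ne_bot.2 (by simpa using hp0)) hW hWm (by simpa using hWp)
  have hWp' : Prim (Ideal.span {(p : R)} ⊔ W) :=
    (hred.prim hmax).mono (sup_le_sup_right bot_le _)
  obtain ⟨W2, W3, ⟨τ, rfl⟩, hW3, rfl, hred2⟩ := red_of_prim hW1 hred.1 hWp' g1 g2 g3
  rw [Nat.add_sub_cancel_left] at hW3
  obtain ⟨x0, rfl⟩ := hW3
  have hτ : ∀ j, τ j ∈ maximalIdeal R := fun j =>
    hred.1 (Ideal.mem_sup_left (Ideal.subset_span ⟨j, rfl⟩))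
  have hx0 : x0 0 ∈ maximalIdeal R := hred.1 (Ideal.mem_sup_right (Ideal.subset_span ⟨0, rfl⟩))
  obtain ⟨V, _, _, _, _, κ, hV, hκ⟩ := exists_coefRing p R hp
  obtain ⟨ψ, hC, hX⟩ := exists_ev (maximalIdeal R) κ τ hτ
  have hψ : (maximalIdeal (MvPowerSeries (Fin d') V)).map ψ =
      Ideal.span {(p : R)} ⊔ Ideal.span (Set.range τ) := by
    rw [maximalIdeal_psV' hV, Ideal.map_sup, Ideal.map_span, Ideal.map_span, Set.image_singleton,
      map_natCast, ← Set.range_comp]
    exact congrArg (fun f => _ ⊔ Ideal.span (Set.range f)) (funext hX)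
  have hm : (maximalIdeal (MvPowerSeries (Fin d') V)).map ψ ≤ maximalIdeal R := by
    rw [hψ]
    exact sup_le ((Ideal.span_singleton_le_iff_mem _).2 hp) (le_sup_left.trans hred.1)
  have hψp : Prim (⊥ ⊔ (maximalIdeal (MvPowerSeries (Fin d') V)).map ψ) := by
    rw [hψ, bot_sup_eq]
    exact hred2.prim hWp'
  have : IsDomain (MvPowerSeries (Fin d') V) := NoZeroDivisors.to_isDomain _
  by_cases hinj : Function.Injective ψ
  swap
  · refine Or.inl ?_
    rw [injective_iff_map_eq_zero] at hinj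
    push Not at hinj
    obtain ⟨g, hg, h0⟩ := hinj
    have h1 : Ideal.span {g} ≠ ⊤ := by
      rw [Ne, Ideal.span_singleton_eq_top]
      exact fun h => not_isUnit_zero (hg ▸ h.map ψ)
    obtain ⟨W', k1, k2, k3⟩ := exists_sop_of_lt (p := ⊥) (W := maximalIdeal _) (d := d') h1
      (bot_lt_iff_ne_bot.2 (by simpa using h0)) (by simpa using gen_psV (σ := Fin d') hV) le_rfl
      ⟨1, by simp⟩
    have h3 := (Prim.map hψp k3).mono (I' := ⊥ ⊔ W'.map ψ) (by
      rw [Ideal.map_sup, Ideal.map_span, Set.image_singleton, hg, Ideal.span_singleton_zero,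
        bot_sup_eq, bot_sup_eq])
    have h4 := lim_zero_of_small (Nat.lt_succ_self d') (k1.map ψ) ((Ideal.map_mono k2).trans hm) h3
      (fun N => maximalIdeal R ^ N) 1 fun N => by
        rw [bot_sup_eq]; exact Ideal.pow_le_pow_right (by omega)
    simp only [bot_sup_eq] at h4
    exact (hR.unique h4).le
  let := ψ.toAlgebra
  have hres : ∀ r : R, ∃ t : MvPowerSeries (Fin d') V, r - ψ t ∈ maximalIdeal R := fun r => by
    obtain ⟨c, hc⟩ := hκ r
    exact ⟨MvPowerSeries.C c, by rwa [hC]⟩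
  have hfin : Module.Finite (MvPowerSeries (Fin d') V) R := by
    have := finite_of_prim (A := MvPowerSeries (Fin d') V) hm hres ⊥ hψp
    exact Module.Finite.equiv (AlgEquiv.quotientBot (MvPowerSeries (Fin d') V) R).toLinearEquiv
  have : Infinite (ResidueField V) := infinite_residue_of_surj κ (by
    rw [hV, Ideal.map_span, Set.image_singleton, map_natCast]
    exact (Ideal.span_singleton_le_iff_mem _).2 hp) hκ
  have := ufd_psV hV (Fin d')
  have hpp := prime_p_psV (σ := Fin d') hV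
  have := domBase_charZero (Fact.out : p.Prime) hpp.ne_zero hpp.not_isUnit
  obtain ⟨y, F, g0, g1, hH⟩ := exists_hypData (D := MvPowerSeries (Fin d') V) hinj (x0 0)
    (pow_ne_zero 2 hpp.ne_zero)
  have hy : ((p : MvPowerSeries (Fin d') V) ^ 2) • y ∈ maximalIdeal R ^ 2 := by
    rw [Algebra.smul_def, map_pow, map_natCast]
    exact Ideal.mul_mem_right _ _ (Ideal.pow_mem_pow hp 2)
  have e : (fun j => algebraMap (MvPowerSeries (Fin d') V) R (MvPowerSeries.X j)) = τ := funext hX
  refine Or.inr ⟨d', V, inferInstance, inferInstance, inferInstance, inferInstance, _, F, g0, g1,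
    rfl, hV, hfin, hm, hres, hH, hred.perturb ?_ ?_⟩
  · rw [e, kos_span_cons]
    exact sup_le ((Ideal.span_singleton_le_iff_mem _).2
      (add_mem hx0 (Ideal.pow_le_self two_ne_zero hy))) (le_sup_left.trans hred.1)
  · rw [e, kos_span_cons]
    refine sup_le (le_sup_of_le_left le_sup_right) (Ideal.span_le.2 ?_)
    rintro _ ⟨j, rfl⟩
    rw [Subsingleton.elim j 0]
    exact (Ideal.add_mem_iff_left _ (Ideal.mem_sup_right hy)).1
      (Ideal.mem_sup_left (Ideal.mem_sup_left (Ideal.mem_span_singleton_self _)))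

end Vale.Agent.P202
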