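import Vale.Agent.P202.DeltaX

/-! The shape of the equations of a prismatic envelope. -/

namespace Vale.Agent.P202

open IsLocalRing MvPolynomial

variable {p : ℕ} [Fact p.Prime]

theorem env_abs {A R : Type*} [CommRing A] [CommRing R] {φ : A →+* A} {δ : A → A}
    (h : IsDelta p φ δ) {φ' : R →+* R} {δ' : R → R} (h' : IsDelta p φ' δ') (f : A →+* R)
    (hf : ∀ a, φ' (f a) = f (φ a)) {t : A} (hφ : φ t = t ^ p) (B : ℕ → Subring R)
    (mono : ∀ j, B j ≤ B (j + 1)) (hB : ∀ j, ∀ x ∈ B j, δ' x ∈ B (j + 1)) (fB : ∀ j a, f a ∈ B j)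
    (x : ℕ → R) (xB : ∀ j, x j ∈ B (j + 1)) (hx : ∀ j, δ' (x j) = x (j + 1)) (F : A) (j : ℕ) :
    ∃ β ∈ B j, δ'^[j + 1] (f ((p : A) - t) * x 0 - f F) -
      (f (δ ((p : A) - t ^ p ^ j)) * x j ^ p + β) ∈ Ideal.span {(p : R), f t} := by
  have p0 := (Fact.out : p.Prime).pos
  let S : ℕ → Set R := fun j =>
    {y | y ∈ B j ∨ (∃ w ∈ B (j + 1), y = p * w) ∨ ∃ w ∈ B (j + 1), y = f t * w}
  have SB : ∀ j, ∀ y ∈ S j, y ∈ B (j + 1) := by
    rintro j y (hy | ⟨w, hw, rfl⟩ | ⟨w, hw, rfl⟩)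
    · exact mono j hy
    · exact mul_mem (natCast_mem _ _) hw
    · exact mul_mem (fB _ _) hw
  have xi : ∀ j k, ∀ w ∈ B (j + 1), f ((p : A) - t ^ p ^ k) * w ∈ Subring.closure (S j) := by
    intro j k w hw
    obtain ⟨n, hn⟩ : ∃ n, p ^ k = n + 1 := Nat.exists_eq_succ_of_ne_zero (by positivity)
    have : f ((p : A) - t ^ p ^ k) * w = p * w - f t * (f (t ^ n) * w) := by
      rw [hn, map_sub, map_natCast, map_pow, map_pow]; ring
    rw [this]
    exact sub_mem (Subring.subset_closure (Or.inr (Or.inl ⟨w, hw, rfl⟩)))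
      (Subring.subset_closure (Or.inr (Or.inr ⟨_, mul_mem (fB _ _) hw, rfl⟩)))
  have step : ∀ j, ∀ G ∈ B j, ∃ w ∈ B (j + 1), δ' (f ((p : A) - t ^ p ^ j) * x j + G) =
      f ((p : A) - t ^ p ^ (j + 1)) * x (j + 1) + (f (δ ((p : A) - t ^ p ^ j)) * x j ^ p +
        δ' G + f ((p : A) - t ^ p ^ j) * w) := by
    intro j G hG
    obtain ⟨c, hc, e⟩ := h'.add (f ((p : A) - t ^ p ^ j) * x j) G
    have hc' : c ∈ B (j + 1) := Subring.closure_le.2 (by
      rintro _ (rfl | rfl)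
      · exact mul_mem (fB _ _) (xB _)
      · exact mono _ hG) hc
    refine ⟨x j * G * c, mul_mem (mul_mem (xB _) (mono _ hG)) hc', ?_⟩
    rw [e, h'.mul, hf, h.map h' f hf, hx, map_sub φ, map_natCast, map_pow φ, hφ, ← pow_mul,
      ← pow_succ']
    ring
  have stab : ∀ j, ∀ y ∈ Subring.closure (insert (x j ^ p) (S j)),
      y ∈ B (j + 1) ∧ δ' y ∈ Subring.closure (S (j + 1)) := by
    intro j y hy
    have l1 : Subring.closure (insert (x j ^ p) (S j)) ≤ B (j + 1) := Subring.closure_le.2 (by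
      rintro z (rfl | hz)
      · exact pow_mem (xB _) _
      · exact SB _ _ hz)
    have l2 : B (j + 1) ≤ Subring.closure (S (j + 1)) := fun z hz =>
      Subring.subset_closure (Or.inl hz)
    have l3 : ∀ w ∈ B (j + 1 + 1), (p : R) * w ∈ Subring.closure (S (j + 1)) := fun w hw =>
      Subring.subset_closure (Or.inr (Or.inl ⟨w, hw, rfl⟩))
    refine ⟨l1 hy, h'.closure_stable _ _ (l1.trans l2) ?_ y hy⟩
    rintro z (rfl | hz | ⟨w, hw, rfl⟩ | ⟨w, hw, rfl⟩)
    · rw [h'.delta_pow, hx]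
      refine sum_mem fun k _ => mul_mem ?_ (l2 (pow_mem (pow_mem (xB _) _) _))
      rcases k with _ | k
      · simpa using l3 _ (xB _)
      · have := l3 ((p.choose (k + 1 + 1) : R) * (p : R) ^ k * x (j + 1) ^ (k + 1 + 1))
          (mul_mem (mul_mem (natCast_mem _ _) (pow_mem (natCast_mem _ _) _)) (pow_mem (xB _) _))
        convert this using 1
        ring
    · exact l2 (hB _ _ hz)
    · rw [h'.mul, map_natCast, h'.delta_p]
      exact add_mem (l3 _ (hB _ _ hw)) (l2 (mul_mem (pow_mem hw _)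
        (sub_mem (one_mem _) (pow_mem (natCast_mem _ _) _))))
    · obtain ⟨n, hn⟩ : ∃ n, p = n + 1 := Nat.exists_eq_succ_of_ne_zero p0.ne'
      have e : φ t = t * t ^ n := by rw [hφ, ← pow_succ', ← hn]
      rw [h'.mul, hf, h.map h' f hf, h.eq_zero hφ, map_zero, mul_zero, add_zero, e, map_mul,
        mul_assoc]
      exact Subring.subset_closure (Or.inr (Or.inr ⟨_, mul_mem (fB _ _) (hB _ _ hw), rfl⟩))
  have key : ∀ j, ∃ G ∈ B j, δ' G ∈ Subring.closure (S j) ∧
      δ'^[j] (f ((p : A) - t) * x 0 - f F) = f ((p : A) - t ^ p ^ j) * x j + G := by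
    intro j
    induction j with
    | zero =>
      refine ⟨f (-F), fB _ _, ?_, by simp [sub_eq_add_neg]⟩
      rw [h.map h' f hf]
      exact Subring.subset_closure (Or.inl (fB _ _))
    | succ j ih =>
      obtain ⟨G, g1, g2, g3⟩ := ih
      obtain ⟨w, w1, w2⟩ := step j G g1
      have l := Subring.closure_mono (Set.subset_insert (x j ^ p) (S j))
      have := stab j (f (δ ((p : A) - t ^ p ^ j)) * x j ^ p + δ' G + f ((p : A) - t ^ p ^ j) * w)
        (add_mem (add_mem (mul_mem (l (Subring.subset_closure (Or.inl (fB _ _))))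
          (Subring.subset_closure (Set.mem_insert _ _))) (l g2)) (l (xi j j w w1)))
      exact ⟨_, this.1, this.2, by rw [Function.iterate_succ_apply', g3, w2]⟩
  obtain ⟨G, g1, g2, g3⟩ := key j
  obtain ⟨w, w1, w2⟩ := step j G g1
  have mp : (p : R) ∈ Ideal.span {(p : R), f t} := Ideal.subset_span (by simp)
  have mt : f t ∈ Ideal.span {(p : R), f t} := Ideal.subset_span (by simp)
  have mx : ∀ k, f ((p : A) - t ^ p ^ k) ∈ Ideal.span {(p : R), f t} := fun k => by
    rw [map_sub, map_natCast, map_pow]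
    exact sub_mem mp (Ideal.pow_mem_of_mem _ mt _ (by positivity))
  have : Subring.closure (S j) ≤ ((B j).map (Ideal.Quotient.mk (Ideal.span {(p : R), f t}))).comap
      (Ideal.Quotient.mk _) := Subring.closure_le.2 (by
    rintro z (hz | ⟨w, hw, rfl⟩ | ⟨w, hw, rfl⟩)
    · exact ⟨z, hz, rfl⟩
    · exact ⟨0, (B j).zero_mem, Ideal.Quotient.eq.2 (by simpa using Ideal.mul_mem_right w _ mp)⟩
    · exact ⟨0, (B j).zero_mem, Ideal.Quotient.eq.2 (by simpa using Ideal.mul_mem_right w _ mt)⟩)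
  obtain ⟨β, b1, b2⟩ := this g2
  refine ⟨β, b1, ?_⟩
  rw [Function.iterate_succ_apply', g3, w2]
  convert add_mem (Ideal.mul_mem_right (x (j + 1)) _ (mx (j + 1)))
    (sub_mem (Ideal.mul_mem_right w _ (mx j)) (Ideal.Quotient.eq.1 b2)) using 1
  ring

theorem env_struct {A : Type*} [CommRing A] [IsLocalRing A] {φ : A →+* A} {δ : A → A}
    (h : IsDelta p φ δ) (hp : (p : A) ∈ maximalIdeal A) {t : A} (ht : t ∈ maximalIdeal A)
    (hφ : φ t = t ^ p) {ι : Type*} {φ' : MvPolynomial (ι × ℕ) A →+* MvPolynomial (ι × ℕ) A}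
    {δ' : MvPolynomial (ι × ℕ) A → MvPolynomial (ι × ℕ) A} (h' : IsDelta p φ' δ')
    (hC : ∀ a, φ' (C a) = C (φ a)) (hX : ∀ x : ι × ℕ, δ' (X x) = X (x.1, x.2 + 1)) (F : A) (i : ι)
    (j : ℕ) :
    ∃ (c : A) (β : MvPolynomial (ι × ℕ) A), IsUnit c ∧ β ∈ supported A {x : ι × ℕ | x.2 < j} ∧
      δ'^[j + 1] (C ((p : A) - t) * X (i, 0) - C F) - (C c * X (i, j) ^ p + β) ∈
        Ideal.span {(p : MvPolynomial (ι × ℕ) A), C t} := by
  have p0 := (Fact.out : p.Prime).pos
  have mono : ∀ j, supported A {x : ι × ℕ | x.2 < j} ≤ supported A {x : ι × ℕ | x.2 < j + 1} :=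
    fun j => supported_mono fun x hx => Nat.lt_succ_of_lt hx
  have fB : ∀ j a, C a ∈ supported A {x : ι × ℕ | x.2 < j} := fun j a =>
    Subalgebra.algebraMap_mem _ a
  have xB : ∀ j (x : ι × ℕ), x.2 < j → X x ∈ supported A {x : ι × ℕ | x.2 < j} := fun j x hx => by
    rw [supported_eq_adjoin_X]
    exact Algebra.subset_adjoin ⟨x, hx, rfl⟩
  obtain ⟨β, b1, b2⟩ := env_abs h h' C hC hφ
    (fun j => (supported A {x : ι × ℕ | x.2 < j}).toSubring) mono (fun j y hy => by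
      have e : ∀ y, y ∈ supported A {x : ι × ℕ | x.2 < j} ↔ y ∈ Subring.closure
          (Set.range (algebraMap A (MvPolynomial (ι × ℕ) A)) ∪ X '' {x : ι × ℕ | x.2 < j}) :=
        fun y => by rw [supported_eq_adjoin_X, Algebra.mem_adjoin_iff]
      refine h'.closure_stable _ _ (fun z hz => mono j ((e z).2 hz)) ?_ y ((e y).1 hy)
      rintro _ (⟨a, rfl⟩ | ⟨x, hx, rfl⟩)
      · rw [algebraMap_eq, h.map h' C hC]
        exact fB _ _
      · rw [hX]
        exact xB _ _ (Nat.succ_lt_succ hx)) fB (fun j => X (i, j))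
    (fun j => xB _ _ (Nat.lt_succ_self j)) (fun j => hX (i, j)) F j
  exact ⟨_, β, h.isUnit_delta_xi hp (Ideal.pow_mem_of_mem _ ht _ (by positivity))
    (by rw [map_pow, hφ, ← pow_mul, ← pow_mul, mul_comm]), b1, b2⟩

/-- solving a triangular purely inseparable system modulo the maximal ideal -/
theorem env_solve {A : Type*} [CommRing A] [IsLocalRing A] {V : Type*} [CommRing V] (κ : V →+* A)
    (hp : (p : A) ∈ maximalIdeal A) (hperf : ∀ a : A, ∃ b : V, a - κ b ^ p ∈ maximalIdeal A)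
    {ι : Type*} (c : ι × ℕ → A) (hc : ∀ x, IsUnit (c x)) (β : ι × ℕ → MvPolynomial (ι × ℕ) A)
    (hβ : ∀ x, β x ∈ supported A {x' : ι × ℕ | x'.2 < x.2}) :
    ∃ η : ι × ℕ → V, ∀ x, c x * κ (η x) ^ p + eval (fun x' => κ (η x')) (β x) ∈ maximalIdeal A := by
  classical
  have ex : ∀ (x : ι × ℕ) (a : A), ∃ b : V, c x * κ b ^ p + a ∈ maximalIdeal A := fun x a => by
    obtain ⟨v, hv⟩ := (hc x).exists_right_inv
    obtain ⟨b, hb⟩ := hperf (-v * a)
    refine ⟨b, ?_⟩
    convert Ideal.mul_mem_left _ (-c x) hb using 1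
    linear_combination -a * hv
  choose g hg using ex
  have wf : WellFounded fun x' x : ι × ℕ => x'.2 < x.2 := InvImage.wf Prod.snd Nat.lt_wfRel.wf
  let η : ι × ℕ → V := wf.fix fun x r =>
    g x (eval (fun x' => if h : x'.2 < x.2 then κ (r x' h) else 0) (β x))
  refine ⟨η, fun x => ?_⟩
  have e : η x = g x (eval (fun x' => if h : x'.2 < x.2 then κ (η x') else 0) (β x)) :=
    wf.fix_eq _ x
  have e2 : eval (fun x' => κ (η x')) (β x) =
      eval (fun x' => if h : x'.2 < x.2 then κ (η x') else 0) (β x) := by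
    refine hom_congr_vars (by ext; simp) (fun i hi _ => ?_) rfl
    have : i.2 < x.2 := mem_supported.1 (hβ x) hi
    simp [this]
  rw [e2, e]
  exact hg _ _

end Vale.Agent.P202
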