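import Vale.Agent.P202.MainA
import Vale.Agent.P202.CMb

/-! The monomial lattices over a Cohen-Macaulay ring. -/

namespace Vale.Agent.P202

open IsLocalRing

variable {P : Type*} [CommRing P] [IsLocalRing P] [IsNoetherianRing P] {Λ : Type*} [CommRing Λ]
  [Algebra P Λ] {s : ℕ} {y : Fin (s + 1) → P} {θ : Fin s → Λ} {u : Λˣ}

omit [IsNoetherianRing P] in
theorem CMS.UU_succ (h : CMS y Λ θ u) {b : Fin s → ℤ} {k : ℤ}
    (hb : ∀ j : Fin s, ((j : ℕ) : ℤ) ≤ b j + k) :
    UU P θ u (k + 1) b = Ideal.span (Set.range y) • UU P θ u k b := by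
  rw [UU, UU, ← Submodule.map_smul'', ← bot_sup_eq (Ideal.span _),
    ← h.split.map_u (b := b + fun _ => k) hb, ← Submodule.map_comp]
  congr 1
  · ext x; simp [zpow_add_one, mul_assoc]
  · congr 1
    funext j; simp [add_assoc]

section
omit [IsLocalRing P] [IsNoetherianRing P]

theorem ex_free {M : Type*} [AddCommGroup M] [Module P M] {ι : Type*} [Fintype ι] (v : ι → M)
    (hv : ∀ c : ι → P, ∑ a, c a • v a = 0 → ∀ a, c a = 0) (W W' : Ideal P) :
    rl (W • Submodule.span P (Set.range v)) (W' • Submodule.span P (Set.range v)) =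
      Fintype.card ι * rl W W' := by
  classical
  have key : ∀ (J : Ideal P) (c : ι → P), Fintype.linearCombination P v c ∈
      J • Submodule.span P (Set.range v) ↔ ∀ a, c a ∈ J := fun J c => by
    have inj : Function.Injective (Fintype.linearCombination P v) :=
      (injective_iff_map_eq_zero _).2 fun c hc => funext (hv c hc)
    rw [← Fintype.range_linearCombination, LinearMap.range_eq_map, ← Submodule.map_smul'',
      ← Submodule.mem_comap, Submodule.comap_map_eq_of_injective inj, kos_mem_smul_top]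
  have := rl_pi (fun _ : ι => W) fun _ => W'
  rw [Finset.sum_const, nsmul_eq_mul, Finset.card_univ] at this
  rw [← this]
  refine rl_eq_of_map (Fintype.linearCombination P v) (fun c hc => Submodule.mem_sup_left
    ((key _ c).2 fun a => hc a trivial)) (fun x hx => ?_)
    fun c _ => (key _ c).trans ⟨fun h a _ => h a, fun h a => h a trivial⟩
  obtain ⟨c, rfl⟩ := (anchor_mem_span v x).1 (Submodule.smul_le_right hx)
  exact ⟨c, fun a _ => (key _ c).1 hx a, by simp⟩

variable {σ : Type}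

/-- reduction of coefficients -/
noncomputable def exRes (I : Ideal P) : MvPolynomial σ P →ₗ[P] MvPolynomial σ (P ⧸ I) :=
  (MvPolynomial.mapAlgHom (Algebra.ofId P (P ⧸ I))).toLinearMap

theorem exRes_apply (I : Ideal P) (F : MvPolynomial σ P) :
    exRes I F = MvPolynomial.map (Ideal.Quotient.mk I) F := rfl

theorem exRes_zero {I : Ideal P} {F : MvPolynomial σ P} : exRes I F = 0 ↔ ∀ c, F.coeff c ∈ I := by
  rw [MvPolynomial.ext_iff]
  exact forall_congr' fun c => by
    rw [exRes_apply, MvPolynomial.coeff_map, MvPolynomial.coeff_zero, Ideal.Quotient.eq_zero_iff_mem]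

theorem exRes_mem (I : Ideal P) {c : σ → ℤ} {F : MvPolynomial σ P} (hF : F ∈ box P P 0 c) :
    exRes I F ∈ box P (P ⧸ I) 0 c := fun d hd => hF d fun h => hd (by
  rw [exRes_apply, MvPolynomial.coeff_map, h, map_zero])

theorem exRes_surj (I : Ideal P) {c : σ → ℤ} {G : MvPolynomial σ (P ⧸ I)}
    (hG : G ∈ box P (P ⧸ I) 0 c) : ∃ F ∈ box P P 0 c, exRes I F = G := by
  classical
  choose w hw using fun d => Ideal.Quotient.mk_surjective (G.coeff d)
  refine ⟨∑ d ∈ G.support, MvPolynomial.monomial d (w d), Submodule.sum_mem _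
    fun d hd d' hd' => ?_, ?_⟩
  · rw [MvPolynomial.coeff_monomial] at hd'
    split_ifs at hd' with e
    · exact e ▸ hG d (MvPolynomial.mem_support_iff.1 hd)
    · exact absurd rfl hd'
  · rw [exRes_apply, map_sum]
    simp only [MvPolynomial.map_monomial, hw]
    exact G.as_sum.symm

theorem exRes_tt (I : Ideal P) (m : ℕ) (j : σ) (F : MvPolynomial σ P) :
    exRes I (tt P MvPolynomial.X m j F) = tt P MvPolynomial.X m j (exRes I F) := by
  simp [exRes_apply, tt]

theorem ex_ev_mem [Fintype σ] {θ : σ → Λ} {I : Ideal P} {c : σ → ℤ} {F : MvPolynomial σ P}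
    (hF : F ∈ box P P 0 c) (h0 : exRes I F = 0) : MvPolynomial.aeval θ F ∈ I • mon P θ c := by
  rw [MvPolynomial.aeval_def, MvPolynomial.eval₂_eq']
  refine Submodule.sum_mem _ fun d hd => ?_
  rw [← Algebra.smul_def]
  exact Submodule.smul_mem_smul (exRes_zero.1 h0 d) (Submodule.subset_span
    ⟨d, fun j => (hF d (MvPolynomial.mem_support_iff.1 hd) j).2, rfl⟩)

theorem ex_mem_mon [Fintype σ] {θ : σ → Λ} {c : σ → ℤ} {x : Λ} :
    x ∈ mon P θ c ↔ ∃ F ∈ box P P 0 c, MvPolynomial.aeval θ F = x := by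
  classical
  rw [mon_eq_map_box]; rfl

theorem ex_box_quot (I : Ideal P) [Fintype σ] (b : σ → ℤ) :
    rl ⊥ (box P (P ⧸ I) 0 b) = ((∏ j, (b j + 1).toNat : ℕ) : ℕ∞) * rl I (⊤ : Ideal P) := by
  classical
  let ι := (j : σ) → Fin (b j + 1).toNat
  let av : ι → σ →₀ ℕ := fun a => Finsupp.equivFunOnFinite.symm fun j => (a j : ℕ)
  have hav : Function.Injective av := fun a a' h => funext fun j =>
    Fin.ext (DFunLike.congr_fun h j)
  let f : MvPolynomial σ (P ⧸ I) →ₗ[P] (ι → P ⧸ I) :=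
    LinearMap.pi fun a => (MvPolynomial.lcoeff (P ⧸ I) (av a)).restrictScalars P
  have hf : ∀ F a, f F a = MvPolynomial.coeff (av a) F := fun _ _ => rfl
  have h1 : rl (⊥ : Submodule P (ι → P ⧸ I)) ⊤ = rl ⊥ (box P (P ⧸ I) 0 b) := by
    refine rl_eq_of_map f (fun _ _ => Submodule.mem_sup_left trivial) (fun y _ => ?_)
      fun F hF => ?_
    · refine ⟨∑ a, MvPolynomial.monomial (av a) (y a), Submodule.sum_mem _ fun a _ c hc j => ?_, ?_⟩
      · rw [MvPolynomial.coeff_monomial] at hc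
        split_ifs at hc with e
        · subst e
          have := (a j).2
          refine ⟨Int.natCast_nonneg _, ?_⟩
          change ((a j : ℕ) : ℤ) ≤ b j
          omega
        · exact absurd rfl hc
      · rw [Submodule.mem_bot, sub_eq_zero]
        funext a
        rw [hf, MvPolynomial.coeff_sum, Finset.sum_eq_single a, MvPolynomial.coeff_monomial,
          if_pos rfl]
        · intro a' _ e
          rw [MvPolynomial.coeff_monomial, if_neg (hav.ne e)]
        · simp
    · rw [Submodule.mem_bot, Submodule.mem_bot]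
      refine ⟨fun h => ?_, fun h => by rw [h, map_zero]⟩
      ext c
      by_contra hc
      have h2 := hF c hc
      let a : ι := fun j => ⟨c j, by have := (h2 j).2; omega⟩
      have e : av a = c := Finsupp.ext fun j => rfl
      exact hc (e ▸ congrFun h a)
  rw [← h1, rl_bot, Submodule.topEquiv.length_eq, Module.length_pi_of_fintype, rl_top]
  simp [ι]

theorem ex_rl_box (I : Ideal P) [Fintype σ] (b : σ → ℤ) :
    rl (LinearMap.ker (exRes I)) (box P P 0 b) =
      ((∏ j, (b j + 1).toNat : ℕ) : ℕ∞) * rl I (⊤ : Ideal P) := by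
  rw [← ex_box_quot]
  refine (rl_eq_of_map (exRes I) (fun F hF => Submodule.mem_sup_left (exRes_mem I hF))
    (fun G hG => ?_) fun F _ => Iff.rfl).symm
  obtain ⟨F, hF, rfl⟩ := exRes_surj I hG
  exact ⟨F, hF, by simp⟩

theorem ex_rl_mon [Fintype σ] (θ : σ → Λ) (A : Submodule P Λ) (b : σ → ℤ) :
    rl A (mon P θ b) = rl (A.comap (MvPolynomial.aeval θ).toLinearMap) (box P P 0 b) := by
  refine rl_eq_of_map _ (fun F hF => Submodule.mem_sup_left (ex_mem_mon.2 ⟨F, hF, rfl⟩))
    (fun x hx => ?_) fun F _ => Iff.rfl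
  obtain ⟨F, hF, rfl⟩ := ex_mem_mon.1 hx
  exact ⟨F, hF, by simp⟩

end

theorem ex_krull {M : Type*} [AddCommGroup M] [Module P M] {A N : Submodule P M} (hN : N.FG)
    {I : Ideal P} (hI : I ≠ ⊤) {x : M} (h : ∀ r : ℕ, x ∈ A ⊔ I ^ r • N) : x ∈ A := by
  have : Module.Finite P (N.map A.mkQ) := Module.Finite.iff_fg.2 (hN.map _)
  have key : ∀ r : ℕ, A.mkQ x ∈ I ^ r • N.map A.mkQ := fun r => by
    obtain ⟨a, ha, z, hz, rfl⟩ := Submodule.mem_sup.1 (h r)
    rw [map_add, Submodule.mkQ_apply, (Submodule.Quotient.mk_eq_zero _).2 ha, zero_add,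
      ← Submodule.map_smul'']
    exact Submodule.mem_map_of_mem hz
  have h1 : (⟨A.mkQ x, Submodule.smul_le_right (key 0)⟩ : N.map A.mkQ) ∈
      (⨅ r : ℕ, I ^ r • ⊤ : Submodule P _) :=
    (Submodule.mem_iInf _).2 fun r => (Submodule.mem_smul_top_iff _ _ _).2 (key r)
  rw [Ideal.iInf_pow_smul_eq_bot_of_isLocalRing _ hI, Submodule.mem_bot] at h1
  exact (Submodule.Quotient.mk_eq_zero _).1 (congrArg Subtype.val h1)

omit [IsNoetherianRing P] in
theorem CMS.UU_stair (h : CMS y Λ θ u) {b : Fin s → ℤ} (hb : ∀ j : Fin s, ((j : ℕ) : ℤ) ≤ b j)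
    (k : ℕ) : UU P θ u k b = Ideal.span (Set.range y) ^ k • mon P θ b := by
  induction k with
  | zero => simp [UU_zero]
  | succ k ih =>
    rw [Nat.cast_succ, h.UU_succ fun j => by have := hb j; omega, ih, pow_succ', mul_smul]

theorem CMS.coeff_mem (h : CMS y Λ θ u) {b : Fin s → ℤ} {F : MvPolynomial (Fin s) P}
    (hF : F ∈ box P P 0 b)
    (hm : MvPolynomial.aeval θ F ∈ Ideal.span (Set.range y) • mon P θ b) (c : Fin s →₀ ℕ) :
    F.coeff c ∈ Ideal.span (Set.range y) := by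
  obtain ⟨k, hk⟩ : ∃ k : ℕ, b ≤ (fun j : Fin s => ((j : ℕ) : ℤ)) + fun _ => (k : ℤ) :=
    ⟨∑ j, (b j).toNat, fun j => by
      have := Finset.single_le_sum (f := fun j => (b j).toNat) (fun _ _ => Nat.zero_le _)
        (Finset.mem_univ j)
      simp only [Pi.add_apply]
      omega⟩
  replace hF := Model_mono le_rfl hk hF
  replace hm := Submodule.smul_mono le_rfl (mon_mono hk) hm
  generalize hb' : ((fun j : Fin s => ((j : ℕ) : ℤ)) + fun _ => (k : ℤ)) = b' at hF hm
  obtain ⟨ι, _, v, hc, hv, hv'⟩ := h.split.stair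
  have e1 := anchor_rl_map _ (anchor_mul_inj (u ^ (k : ℤ)))
    (Ideal.span (Set.range y) • mon P θ b') (mon P θ b')
  have e2 : (mon P θ b').map (LinearMap.mulLeft P ((u ^ (k : ℤ) : Λˣ) : Λ)) =
      Ideal.span (Set.range y) ^ k • Submodule.span P (Set.range v) := by
    rw [← hv, ← h.UU_stair (fun _ => le_rfl), ← hb']; rfl
  rw [Submodule.map_smul'', e2, ← mul_smul, ← pow_succ', ex_free v (fun c hc => (hv' c).1 hc),
    h.cm.rl_pow h.mem h.prim, hc, ex_rl_mon, ← mul_assoc] at e1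
  have e3 := ex_rl_box (Ideal.span (Set.range y)) b'
  have e4 : (∏ j, (b' j + 1).toNat : ℕ) = s.factorial * (s + 1).multichoose k := by
    rw [Nat.multichoose_eq, show s + 1 + k - 1 = k + s by omega, Nat.choose_symm_add,
      ← Nat.ascFactorial_eq_factorial_mul_choose, Nat.ascFactorial_eq_prod_range,
      Finset.prod_range, ← hb']
    exact Finset.prod_congr rfl fun j _ => by simp only [Pi.add_apply]; omega
  have hfin : rl (LinearMap.ker (exRes (Ideal.span (Set.range y)))) (box P P 0 b') ≠ ⊤ := by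
    rw [e3]; exact WithTop.mul_ne_top (ENat.natCast_ne_top _) (rl_ne_top_of_prim h.prim)
  have l1 : LinearMap.ker (exRes (Ideal.span (Set.range y))) ⊓ box P P 0 b' ≤
      (Ideal.span (Set.range y) • mon P θ b').comap (MvPolynomial.aeval θ).toLinearMap ⊓
        box P P 0 b' := fun G hG => ⟨ex_ev_mem hG.2 hG.1, hG.2⟩
  rw [← rl_inf_left] at hfin
  rw [e4, Nat.cast_mul, e1, ← rl_inf_left, ← rl_inf_left (Submodule.comap _ _),
    rl_add l1 inf_le_right] at e3
  have e5 := ENat.add_left_injective_of_ne_top (ne_top_of_le_ne_top hfin (rl_mono l1 le_rfl))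
    (e3.trans (zero_add _).symm)
  exact exRes_zero.1 (rl_eq_zero_iff.1 e5 ⟨hm, hF⟩).1 c

theorem CMS.strict (h : CMS y Λ θ u) {b b' : Fin s → ℤ} {k k' : ℤ} (hb : ∀ j, (s : ℤ) ≤ b j + k)
    (hbb : b ≤ b') (hk : k ≤ k') : UU P θ u k b ⊓ UU P θ u k' b' ≤ UU P θ u k' b := by
  obtain ⟨n, rfl⟩ := Int.le.dest hk
  clear hk
  induction n with
  | zero => simp
  | succ n ih =>
    rintro x ⟨h1, h2⟩
    have hb1 : ∀ j, (s : ℤ) ≤ b j + (k + n) := fun j => by have := hb j; omega
    have hb2 : ∀ j, (s : ℤ) ≤ b' j + (k + n) := fun j =>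
      (hb1 j).trans (add_le_add (hbb j) le_rfl)
    rw [Nat.cast_succ, ← add_assoc] at h2 ⊢
    obtain ⟨F, hF, e⟩ := ex_mem_mon.1 (mem_UU.1 (ih ⟨h1, h.split.UU_le (by omega) hb2 h2⟩))
    rw [SetLike.mem_coe, MainA_succ h.split hb2, bot_sup_eq, ← e] at h2
    rw [MainA_succ h.split hb1, bot_sup_eq, ← e]
    exact ex_ev_mem hF (exRes_zero.2
      (h.coeff_mem (Model_mono le_rfl (add_le_add hbb le_rfl) hF) h2))

theorem CMS.sv (h : CMS y Λ θ u) {b : Fin s → ℤ} (hb : ∀ j, (s : ℤ) ≤ b j) (j : Fin s) (m : ℕ)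
    (x : Λ) (hx : x ∈ mon P θ (b + Pi.single j (m : ℤ)))
    (hx' : θ j ^ m * x ∈ mon P θ (b + Pi.single j (m : ℤ))) : x ∈ mon P θ b := by
  have m0 : ∀ c : Fin s → ℤ, c ≤ c + Pi.single j (m : ℤ) := fun c =>
    le_add_of_nonneg_right (Pi.single_nonneg.2 (Int.natCast_nonneg m))
  have hb1 : ∀ t, (s : ℤ) ≤ (b + Pi.single j (m : ℤ) : Fin s → ℤ) t := fun t => (hb t).trans (m0 b t)
  refine ex_krull (mon_fg (θ := θ) (b + Pi.single j (m : ℤ))) (I := Ideal.span (Set.range y))
    (ne_top_of_le_ne_top (maximalIdeal.isMaximal P).ne_top (Ideal.span_le.2 (by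
      rintro _ ⟨t, rfl⟩; exact h.mem t))) fun r => ?_
  rw [← h.UU_stair fun t => by have := hb1 t; have := t.2; omega]
  induction r with
  | zero => exact Submodule.mem_sup_right (by rwa [Nat.cast_zero, UU_zero])
  | succ r ih =>
    obtain ⟨x0, h0, z, hz, rfl⟩ := Submodule.mem_sup.1 ih
    have h1 : θ j ^ m * z ∈ UU P θ u r (b + Pi.single j (m : ℤ)) :=
      h.strict (k := 0) (fun t => by simpa using hb1 t) (m0 _) (Int.natCast_nonneg r)
        ⟨by simpa [UU_zero, mul_add] using sub_mem hx' (pow_mul_mem_mon h0 j m), MainA_pow hz j m⟩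
    rw [mem_UU, add_right_comm] at hz h1
    obtain ⟨F, hF, e⟩ := ex_mem_mon.1 hz
    obtain ⟨F', hF', e'⟩ := ex_mem_mon.1 h1
    have h2 := exRes_zero.2 (h.coeff_mem (sub_mem ((twOk_box (R := P) P m [j] 0
      (fun _ _ => le_rfl) j (by simp) _).2 F hF) (Model_mono le_rfl (m0 _) hF')) (by
        simp [tt, e, e', mul_left_comm]))
    rw [map_sub, sub_eq_zero, exRes_tt] at h2
    obtain ⟨F0, hF0, e0⟩ := exRes_surj _ (Model_sv _ (exRes_mem _ hF) (h2 ▸ exRes_mem _ hF'))
    have h3 := ex_ev_mem (θ := θ) (sub_mem hF (Model_mono le_rfl (m0 _) hF0))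
      (by rw [map_sub, e0, sub_self])
    have h4 : ((u ^ (r : ℤ) : Λˣ) : Λ) * MvPolynomial.aeval θ F0 ∈ UU P θ u r b :=
      Submodule.mem_map_of_mem (ex_mem_mon.2 ⟨F0, hF0, rfl⟩)
    rw [← add_sub_cancel (((u ^ (r : ℤ) : Λˣ) : Λ) * MvPolynomial.aeval θ F0) z, ← add_assoc]
    refine add_mem (Submodule.mem_sup_left (add_mem h0 ?_)) (Submodule.mem_sup_right ?_)
    · simpa [UU_zero] using h.split.UU_le (k := 0) (Int.natCast_nonneg r)
        (fun t => by simpa using hb t) h4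
    · rw [Nat.cast_succ, MainA_succ h.split (fun t => by have := hb1 t; omega), bot_sup_eq,
        add_right_comm, mul_sub, ← e, zpow_neg, Units.inv_mul_cancel_left, ← map_sub]
      exact h3

theorem rl_box_quot (I : Ideal P) {σ : Type} [Fintype σ] (b : σ → ℤ) :
    rl ⊥ (box P (P ⧸ I) 0 b) = ((∏ j, (b j + 1).toNat : ℕ) : ℕ∞) * rl I (⊤ : Ideal P) := by
  exact ex_box_quot I b

theorem CMS.pieceEst (h : CMS y Λ θ u) :
    PieceEst P θ (⊥ ⊔ Ideal.span (Set.range y)) (rl (Ideal.span (Set.range y)) ⊤).toNat 0 := by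
  rw [bot_sup_eq]
  have F2 : ∀ c, ∀ F ∈ box P P 0 c, (MvPolynomial.aeval θ).toLinearMap F ∈
      Ideal.span (Set.range y) • mon P θ c ↔
        F ∈ box P P 0 c ⊓ LinearMap.ker (exRes (Ideal.span (Set.range y))) :=
    fun c F hF => ⟨fun h' => ⟨hF, exRes_zero.2 (h.coeff_mem hF h')⟩, fun h' => ex_ev_mem hF h'.2⟩
  have hfin : ∀ b, rl (Ideal.span (Set.range y) • mon P θ b) (mon P θ b) ≠ ⊤ := fun b => by
    simpa using Piece_fin θ h.prim ⊤ b
  have hlen : ∀ b : Fin s → ℤ, (∀ j, 0 ≤ b j) →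
      ((rl (Ideal.span (Set.range y) • mon P θ b) (mon P θ b)).toNat : ℝ) =
        (rl (Ideal.span (Set.range y)) ⊤).toNat * ∏ j, ((b j : ℝ) + 1) := fun b hb => by
    have e : rl (Ideal.span (Set.range y) • mon P θ b) (mon P θ b) =
        rl (LinearMap.ker (exRes (Ideal.span (Set.range y)))) (box P P 0 b) := by
      rw [ex_rl_mon]
      exact le_antisymm (rl_congr (fun F hF => (F2 b F hF.2).2 ⟨hF.2, hF.1⟩) le_sup_left)
        (rl_congr (fun F hF => ((F2 b F hF.2).1 hF.1).2) le_sup_left)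
    rw [e, ex_rl_box, ENat.toNat_mul, ENat.toNat_natCast, mul_comm]
    push_cast
    congr 1
    refine Finset.prod_congr rfl fun j _ => ?_
    have h1 : (((b j + 1).toNat : ℕ) : ℤ) = b j + 1 := by have := hb j; omega
    exact_mod_cast h1
  refine ⟨le_rfl, hfin, fun B b hb => by rw [hlen b fun j => (hb j).1]; simp,
    fun l hl hl' B m b hb n hn => ?_, fun l hl hl' B m b hb => ?_⟩
  · have hA := twOk_box (R := P) P m l 0 fun _ _ => le_rfl
    have hA' : TwOk (tt P MvPolynomial.X m) m l fun c =>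
        box P P 0 c ⊓ LinearMap.ker (exRes (Ideal.span (Set.range y))) :=
      fun j hj c => ⟨inf_le_inf_right _ (hA j hj c).1, fun x hx => ⟨(hA j hj c).2 x hx.1, by
        have h0 : exRes _ x = 0 := hx.2
        change exRes _ _ = 0
        rw [exRes_tt, h0, map_zero]⟩⟩
    rw [hh_tw_transport (B := mon P θ) (b' := b) (tt_comm _ m) hA hA'
      (fun e => inf_le_left) (twOk_smul_mon θ _ m l) (MvPolynomial.aeval θ).toLinearMap
      (fun j F => by simp [tt]) (fun e F hF => ex_mem_mon.2 ⟨F, hF, rfl⟩) (fun e => F2 _)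
      (fun e x hx => by
        obtain ⟨F, hF, rfl⟩ := ex_mem_mon.1 hx
        exact ⟨F, hF, by simp⟩) n,
      ← hh_tw_transport (B := box P (P ⧸ Ideal.span (Set.range y)) 0) (B' := fun _ => ⊥) (b' := b)
      (tt_comm _ m) hA hA' (fun e => inf_le_left)
      (fun j _ c => ⟨le_rfl, fun x hx => by rw [(Submodule.mem_bot P).1 hx, map_zero]; rfl⟩)
      (exRes _) (exRes_tt _ m) (fun e F hF => exRes_mem _ hF)
      (fun e F hF => ⟨fun h => ⟨hF, h⟩, fun h => h.2⟩) (fun e G hG => by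
        obtain ⟨F, hF, rfl⟩ := exRes_surj _ hG
        exact ⟨F, hF, by simp⟩) n,
      (model_exact _ m l hl 0 b (fun _ _ => le_rfl) (fun j _ => (hb j).1) n ?_).hh_eq]
    · simp
    · rw [← List.toFinset_card_of_nodup (hl.filter _)]
      convert hn using 3
      ext j
      simp [hl' j]
  · rw [chi_tw (tt_comm θ m) (twOk_mon θ m l) (twOk_smul_mon θ _ m l)
      (fun e => Submodule.smul_le_right) fun e => hfin _, ← sum_sign_prod (m := m) hl b,
      Finset.mul_sum]
    push_cast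
    rw [← Finset.sum_sub_distrib, Finset.sum_eq_zero fun e _ => by
      rw [hlen _ fun j => (Piece_range hl hl' hb e j).1]; ring]
    simp

end Vale.Agent.P202
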