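import Vale.Agent.P202.Zero
import Vale.Agent.P202.Loc

/-! Lech's inequality in equal characteristic. -/

namespace Vale.Agent.P202

open IsLocalRing

universe u v

theorem lech_eqChar (R : Type u) (S : Type v) [CommRing R] [IsLocalRing R] [IsNoetherianRing R]
    [CommRing S] [IsLocalRing S] [IsNoetherianRing S] [Algebra R S]
    [IsLocalHom (algebraMap R S)] [Module.Flat R S] (hE : EqChar R) {d D : ℕ}
    (hd : ringKrullDim R = d) (hD : ringKrullDim S = D) :
    ∃ eR eS : ℝ, Lim d (fun N => cl (maximalIdeal R ^ N)) eR ∧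
      Lim D (fun N => cl (maximalIdeal S ^ N)) eS ∧ eR ≤ eS := by
  have hES : EqChar S := hE.map (algebraMap R S)
  obtain ⟨eR, hR⟩ := exists_mult R hE hd.le
  obtain ⟨eS, hS⟩ := exists_mult S hES hD.le
  refine ⟨eR, eS, hR, hS, ?_⟩
  obtain ⟨S', _, _, _, _, _, _, hfib, Z, hZ, hZm, hZp, e', he', hle⟩ :=
    loc_step R S hES hd.le hD hS
  obtain ⟨W, hW, hWm, hWp⟩ := exists_sop' (A := R) hd.le
  refine le_trans ?_ hle
  rcases hE with ⟨p, hp, hc⟩ | h0
  · haveI := Fact.mk hp
    exact core_p R S' p hfib hW hWm hWp hZ hZm hZp hR he'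
  · exact core_zero R S' h0 hfib hW hWm hWp hZ hZm hZp hR he'

end Vale.Agent.P202
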