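import Vale.Agent.P202.LocP
import Vale.Agent.P202.Loc
import Vale.Agent.P202.CohenC
import Vale.Agent.P202.InfRes

/-! Reduction to relative dimension zero in residue characteristic `p`. -/

namespace Vale.Agent.P202

open IsLocalRing

universe u v

/-- summing the localization inequality over a prime filtration -/
theorem loc_sum {S S' : Type*} [CommRing S] [IsLocalRing S] [IsNoetherianRing S] [CommRing S']
    [IsLocalRing S'] [IsNoetherianRing S'] (f : S →+* S') {W : Ideal S} {D h : ℕ} (hW : Gen W D)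
    (hWp : Prim W) {b : Ideal S'} (hb : Prim b)
    (hq : ∀ q : Ideal S, q.IsPrime → ∀ μ : ℝ, Lim D (fun N => cl (q ⊔ W ^ N)) μ →
      ∃ (a : ℕ → ℝ) (μ' : ℝ), Lim h a μ' ∧ μ' ≤ μ ∧ ∀ N, cl (q.map f ⊔ b ^ N) ≤ a N)
    {e : ℝ} (he : Lim D (fun N => cl (W ^ N)) e) {d : ℕ} (hd : h ≤ d) {e' : ℝ}
    (he' : Lim d (fun N => cl (b ^ N)) e') : e' ≤ e := by
  obtain ⟨z, rfl⟩ := hW
  obtain ⟨K, _, _, k, κ, hK⟩ := exists_isKos z
  have hl := fun I : Ideal S => hK.lim (I := I) (hWp.mono le_sup_right)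
  obtain ⟨l, l1, l2⟩ := exists_prime_list (⊥ : Ideal S)
  have a1 := l2 (fun I => -(chiI k κ I : ℝ)) (fun I _ r => by
    rw [chiI_step hK.deg (hK.sq ▸ kos_ent_zero I) r (hl _).1 (hl _).1]
    push_cast; linarith) (neg_nonpos.2 (hl ⊤).2.nonneg_cl)
  have a2 : (chiI k κ ⊥ : ℝ) = e := (hl ⊥).2.unique (by simpa only [bot_sup_eq] using he)
  choose! a μ' b1 b2 b3 using fun q (h : q.IsPrime) => hq q h _ (hl q).2
  have a3 : ∀ N, cl (b ^ N) ≤ (l.map fun q => a q N).sum := fun N => by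
    have fin : ∀ I : Ideal S, rl (I.map f ⊔ b ^ N) (⊤ : Ideal S') ≠ ⊤ := fun I =>
      rl_ne_top_of_prim ((hb.mono le_sup_right).sup_pow N)
    have := l2 (fun I => cl (I.map f ⊔ b ^ N)) (fun I _ r => by
      have := ENat.toNat_le_toNat (rl_map_step f I r (b ^ N))
        (WithTop.add_ne_top.2 ⟨fin _, fin _⟩)
      rw [ENat.toNat_add (fin _) (fin _)] at this
      unfold cl
      exact_mod_cast this) (by simp [cl, rl_self, Ideal.map_top])
    rw [Ideal.map_bot, bot_sup_eq] at this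
    exact this.trans (List.sum_le_sum fun q hq => b3 q (l1 q hq).1 N)
  have a4 := Lim.list_sum l fun q hq => b1 q (l1 q hq).1
  rcases hd.eq_or_lt with rfl | hd
  · refine (he'.le a4 (Filter.Eventually.of_forall a3)).trans ((List.sum_le_sum fun q hq =>
      b2 q (l1 q hq).1).trans ?_)
    have := List.sum_neg (l.map fun q => (chiI k κ q : ℝ))
    rw [List.map_map] at this
    have a5 : (l.map fun q => -(chiI k κ q : ℝ)).sum = -(l.map fun q => (chiI k κ q : ℝ)).sum :=
      this.symm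
    linarith
  · exact (he'.le (a4.of_lt hd) (Filter.Eventually.of_forall a3)).trans he.nonneg_cl

theorem loc_complete_mixed {p : ℕ} [Fact p.Prime] {V : Type*} [CommRing V] [IsDomain V]
    [IsDiscreteValuationRing V] [IsAdicComplete (maximalIdeal V) V] (hV : PBase p V) (S : Type*)
    [CommRing S] [IsLocalRing S] [IsNoetherianRing S] [IsAdicComplete (maximalIdeal S) S]
    (κ : V →+* S) (hres : ∀ y : S, ∃ c : V, y - κ c ∈ maximalIdeal S) (Q : Ideal S) [Q.IsPrime]
    (hpQ : (p : S) ∈ Q) {D δ d : ℕ} (hD : ringKrullDim S ≤ D) (hδ : ringKrullDim (S ⧸ Q) = δ)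
    (hδD : δ ≤ D) (hd : D ≤ δ + d) {W0 : Ideal (Localization.AtPrime Q)} (hW : Gen W0 d)
    (hWm : W0 ≤ maximalIdeal _) (hWp : Prim W0) {e : ℝ}
    (he : Lim D (fun N => cl (maximalIdeal S ^ N)) e) :
    ∃ Z : Ideal (Localization.AtPrime Q), Gen Z d ∧ Z ≤ maximalIdeal _ ∧ Prim Z ∧
      ∃ e', Lim d (fun N => cl (Z ^ N)) e' ∧ e' ≤ e := by
  have := hV.inf
  have hpm : (p : S) ∈ maximalIdeal S := le_maximalIdeal Ideal.IsPrime.ne_top' hpQ
  have hκ : ∀ {T : Type _} [CommRing T] [IsLocalRing T] (f : S →+* T), (p : T) ∈ maximalIdeal T →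
      Infinite (ResidueField T) := fun f hf => infinite_residue_of_map (f.comp κ) (by
    rw [hV.max, Ideal.map_span, Set.image_singleton, map_natCast]
    exact (Ideal.span_singleton_le_iff_mem _).2 hf)
  have := hκ (RingHom.id S) hpm
  have := hκ (algebraMap S (Localization.AtPrime Q)) (by
    rw [← Localization.AtPrime.map_eq_maximalIdeal, ← map_natCast (algebraMap S _)]
    exact Ideal.mem_map_of_mem _ hpQ)
  obtain ⟨W0', a1, a2, a3⟩ := exists_sop' hD
  obtain ⟨v, hv⟩ := exists_gen (maximalIdeal S)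
  have pm : Prim (⊥ ⊔ maximalIdeal S) := ⟨1, by simp⟩
  obtain ⟨W, -, b1, -, -, b4⟩ := red_of_prim (q := ⊥) hv le_rfl pm a1 a2 (by simpa using a3)
  have pW : Prim W := by simpa using b4.prim pm
  obtain ⟨W1, c1, c2, c3⟩ := exists_sop Q hδ.le
  obtain ⟨Wt, Wy, ⟨t, rfl⟩, ⟨y, rfl⟩, d3, d4⟩ := red_of_prim (q := Q) b1 b4.1
    (pW.mono le_sup_right) c1 c2 c3
  have pt := d4.prim (pW.mono le_sup_right)
  have hx : ∀ i, Sum.elim t y i ∈ W := by
    rw [← d3]
    rintro (i | i)
    exacts [Ideal.mem_sup_left (Ideal.subset_span ⟨i, rfl⟩),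
      Ideal.mem_sup_right (Ideal.subset_span ⟨i, rfl⟩)]
  obtain ⟨ψ, ψC, ψX⟩ := exists_ev (maximalIdeal S) κ (Sum.elim t y) fun i => b4.1 (hx i)
  set B := MvPowerSeries (Fin δ ⊕ Fin (D - δ)) V
  let _ := ψ.toAlgebra
  have hmap : (Ideal.span (Set.range MvPowerSeries.X)).map (algebraMap B S) = W := by
    rw [Ideal.map_span, ← Set.range_comp, ← d3, ← Ideal.span_union, ← Set.Sum.elim_range]
    congr 2
    funext i; exact ψX i
  have hm1 : (maximalIdeal B).map (algebraMap B S) = Ideal.span {(p : S)} ⊔ W := by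
    rw [maximalIdeal_psV' hV.max, Ideal.map_sup, hmap, Ideal.map_span, Set.image_singleton,
      map_natCast]
  have hm : (maximalIdeal B).map (algebraMap B S) ≤ maximalIdeal S :=
    hm1 ▸ sup_le ((Ideal.span_singleton_le_iff_mem _).2 hpm) b4.1
  have hm2 : ∀ q : Ideal S, Prim (q ⊔ (maximalIdeal B).map (algebraMap B S)) := fun q =>
    pW.mono (hm1 ▸ le_sup_of_le_right le_sup_right)
  have hres' : ∀ y : S, ∃ a : B, y - algebraMap B S a ∈ maximalIdeal S := fun y => by
    obtain ⟨c, hc⟩ := hres y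
    exact ⟨MvPowerSeries.C c, (ψC c).symm ▸ hc⟩
  have hfin : Module.Finite B S := by
    have := finite_of_prim hm hres' ⊥ (hm2 ⊥)
    exact Module.Finite.equiv (AlgEquiv.quotientBot B S).toLinearEquiv
  have e1 : (Ideal.span (Set.range fun i => (MvPowerSeries.X (Sum.inl i) : B))).map
      (algebraMap B S) = Ideal.span (Set.range t) := by
    rw [Ideal.map_span, ← Set.range_comp]
    congr 2
    funext i; exact ψX _
  have hgen := loc_gen_psV hV.max (Q.comap (algebraMap B S))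
    (by rw [Ideal.mem_comap, map_natCast]; exact hpQ) (by
      have : IsLocalRing (B ⧸ Q.comap (algebraMap B S)) :=
        IsLocalRing.of_surjective' _ Ideal.Quotient.mk_surjective
      obtain ⟨n, hn⟩ := exists_nat_dim (B ⧸ Q.comap (algebraMap B S))
      obtain ⟨W', g1, g2, g3⟩ := exists_sop _ hn.le
      rw [hn, ← hδ]
      refine dim_le_of_sop (g1.map _) ((Ideal.map_mono g2).trans hm)
        ((Prim.map (hm2 Q) g3).mono ?_)
      rw [Ideal.map_sup]
      exact sup_le le_sup_left (sup_le_sup_right Ideal.map_comap_le _))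
    (prim_comap (algebraMap B S) hm Q (fun y => by
      obtain ⟨F, hp1, hp2⟩ := IsIntegral.of_finite B y
      exact ⟨F, hp1, (show Polynomial.eval₂ _ y F = 0 from hp2) ▸ zero_mem _⟩) (e1 ▸ pt))
  have hZ' : (Q.comap (algebraMap B S)).map (algebraMap B (Localization.AtPrime Q)) =
      ((Q.comap (algebraMap B S)).map (algebraMap B S)).map (algebraMap S _) := by
    rw [Ideal.map_map, ← IsScalarTower.algebraMap_eq]
  have hb := hZ' ▸ prim_localization (A := B) Q
  obtain ⟨u, hu⟩ := exists_gen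
    ((Q.comap (algebraMap B S)).map (algebraMap B (Localization.AtPrime Q)))
  have hbm : (Q.comap (algebraMap B S)).map (algebraMap B (Localization.AtPrime Q)) ≤
      maximalIdeal _ := by
    rw [hZ', ← Localization.AtPrime.map_eq_maximalIdeal]
    exact Ideal.map_mono Ideal.map_comap_le
  have hb' := hb.mono (le_sup_right (a := ⊥))
  obtain ⟨Z, -, z1, -, -, z2⟩ := red_of_prim (q := ⊥) hu hbm hb' hW hWm (hWp.mono le_sup_right)
  obtain ⟨e', he'⟩ := exists_lim z1 (z2.prim hb')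
  have h2 : Fintype.card (Fin δ ⊕ Fin (D - δ)) = D := by simp; omega
  have h3 := (lim_red_iff (d := D) (e := e) b4 pm).2 (by simpa using he)
  have h4 := (lim_red_iff z2 hb').1 he'
  simp only [bot_sup_eq] at h3 h4 he'
  refine ⟨Z, z1, z2.1.trans hbm, by simpa using z2.prim hb', e', he', ?_⟩
  refine loc_sum (algebraMap S (Localization.AtPrime Q)) b1 pW hb (fun q hq μ hμ =>
    loc_prime hV hm hres' (hmap ▸ pW) Q hpQ hgen hq ?_) h3 (by omega) h4
  rwa [hmap, h2]

theorem loc_cohen_mixed (p : ℕ) [Fact p.Prime] (S : Type v) [CommRing S] [IsLocalRing S]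
    [IsNoetherianRing S] (hpS : (p : S) ∈ maximalIdeal S) :
    ∃ (V : Type v) (_ : CommRing V) (_ : IsDomain V) (_ : IsDiscreteValuationRing V)
      (_ : IsAdicComplete (maximalIdeal V) V) (S1 : Type v) (_ : CommRing S1)
      (_ : IsLocalRing S1) (_ : IsNoetherianRing S1) (_ : IsAdicComplete (maximalIdeal S1) S1)
      (κ : V →+* S1) (ι : S →+* S1), PBase p V ∧ (∀ y : S1, ∃ c : V, y - κ c ∈ maximalIdeal S1) ∧
      CP ι ⊥ ⊥ ∧ (maximalIdeal S).map ι = maximalIdeal S1 := by
  obtain ⟨n, w, hw⟩ := exists_gen (maximalIdeal S)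
  obtain ⟨V, _, _, _, _, J, ι, hV, hJ, hι, hcp⟩ := cohen_mixed p S hpS w hw.symm
  have := Ideal.Quotient.nontrivial_iff.2 hJ
  have hs : Function.Surjective (Ideal.Quotient.mk J) := Ideal.Quotient.mk_surjective
  have : IsLocalRing (MvPowerSeries (Fin n) V ⧸ J) := IsLocalRing.of_surjective' _ hs
  set S1 := MvPowerSeries (Fin n) V ⧸ J
  have hX : (Ideal.span (Set.range MvPowerSeries.X)).map (Ideal.Quotient.mk J) =
      (maximalIdeal S).map ι := by
    rw [hw, Ideal.map_span, Ideal.map_span, ← Set.range_comp, ← Set.range_comp]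
    congr 2
    funext i; exact (hι i).symm
  have hm : (maximalIdeal S).map ι = maximalIdeal S1 := by
    rw [← map_max_surj hs, maximalIdeal_psV' hV.max, Ideal.map_sup, hX, Ideal.map_span,
      Set.image_singleton, map_natCast]
    exact (sup_eq_right.2 ((Ideal.span_singleton_le_iff_mem _).2
      (map_natCast ι p ▸ Ideal.mem_map_of_mem _ hpS))).symm
  have hres : ∀ y : S1, ∃ c : V,
      y - (Ideal.Quotient.mk J).comp MvPowerSeries.C c ∈ maximalIdeal S1 := fun y => by
    obtain ⟨y, rfl⟩ := hs y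
    refine ⟨MvPowerSeries.constantCoeff y, ?_⟩
    rw [RingHom.comp_apply, ← map_sub, ← hm, ← hX]
    exact Ideal.mem_map_of_mem _ (sub_C_mem V y)
  exact ⟨V, inferInstance, inferInstance, inferInstance, inferInstance, S1, inferInstance,
    inferInstance, inferInstance, complete_of_surjective _ hs, _, ι, hV, hres, hcp, hm⟩

theorem loc_step_mixed (p : ℕ) [Fact p.Prime] (R : Type u) (S : Type v) [CommRing R]
    [IsLocalRing R] [IsNoetherianRing R] [CommRing S] [IsLocalRing S] [IsNoetherianRing S]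
    [Algebra R S] [IsLocalHom (algebraMap R S)] [Module.Flat R S] (hp : (p : R) ∈ maximalIdeal R)
    {d D : ℕ} (hd : ringKrullDim R ≤ d) (hD : ringKrullDim S = D) {e : ℝ}
    (he : Lim D (fun N => cl (maximalIdeal S ^ N)) e) :
    ∃ (S' : Type v) (_ : CommRing S') (_ : IsLocalRing S') (_ : IsNoetherianRing S')
      (_ : Algebra R S') (_ : IsLocalHom (algebraMap R S')) (_ : Module.Flat R S'),
      Prim ((maximalIdeal R).map (algebraMap R S')) ∧
      ∃ Z : Ideal S', Gen Z d ∧ Z ≤ maximalIdeal S' ∧ Prim Z ∧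
        ∃ e', Lim d (fun N => cl (Z ^ N)) e' ∧ e' ≤ e := by
  have hRS : (maximalIdeal R).map (algebraMap R S) ≤ maximalIdeal S :=
    ((local_hom_TFAE (algebraMap R S)).out 0 2).1 ‹_›
  have hpS : (p : S) ∈ maximalIdeal S :=
    hRS (map_natCast (algebraMap R S) p ▸ Ideal.mem_map_of_mem _ hp)
  obtain ⟨V, _, _, _, _, S1, _, _, _, _, κ, ι, hV, hres, hcp, hm⟩ := loc_cohen_mixed p S hpS
  let ρ : R →+* S1 := ι.comp (algebraMap R S)
  have hρ : (maximalIdeal R).map ρ ≤ maximalIdeal S1 := by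
    rw [← Ideal.map_map, ← hm]
    exact Ideal.map_mono hRS
  obtain ⟨Q, hQ, hQd⟩ := exists_min_prime_dim (I := (maximalIdeal R).map ρ)
    (ne_top_of_le_ne_top Ideal.IsPrime.ne_top' hρ)
  have hQp : Q.IsPrime := hQ.1.1
  have : IsLocalRing (S1 ⧸ Q) := IsLocalRing.of_surjective' _ Ideal.Quotient.mk_surjective
  obtain ⟨δ, hδ⟩ := exists_nat_dim (S1 ⧸ Q)
  have h1 : ringKrullDim S1 ≤ D := by
    obtain ⟨W, a1, a2, a3⟩ := loc_sop hm hD.le
    exact dim_le_of_sop' a1 a2 (by simpa using a3)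
  have h2 : δ ≤ D := by
    have := (ringKrullDim_quotient_le Q).trans h1
    rw [hδ] at this
    exact_mod_cast this
  obtain ⟨W2, b1, b2, b3⟩ := exists_sop' hd
  have h3 : D ≤ δ + d := by
    obtain ⟨W1, a1, a2, a3⟩ := exists_sop _ (hQd.trans hδ.le)
    have h4 := dim_le_of_sop' (a1.sup (b1.map ρ)) (sup_le a2 ((Ideal.map_mono b2).trans hρ))
      (Prim.map (by rwa [sup_comm]) b3)
    have h5 := (dim_le_of_cp hcp hm.le).trans h4
    rw [hD] at h5
    exact_mod_cast h5
  let S' := Localization.AtPrime Q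
  have hpr := prim_localization_of_minimal hQ
  rw [Ideal.map_map] at hpr
  have hle : (maximalIdeal R).map ((algebraMap S1 S').comp ρ) ≤ maximalIdeal S' := by
    rw [← Ideal.map_map, ← Localization.AtPrime.map_eq_maximalIdeal]
    exact Ideal.map_mono hQ.1.2
  obtain ⟨Z, hZ⟩ := loc_complete_mixed hV S1 κ hres Q
    (hQ.1.2 (map_natCast ρ p ▸ Ideal.mem_map_of_mem _ hp)) h1 hδ h2 h3
    (b1.map ((algebraMap S1 S').comp ρ)) ((Ideal.map_mono b2).trans hle)
    (by simpa using Prim.map (c := ⊥) (hpr.mono le_sup_right) b3) (e := e)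
    (by simpa only [loc_cl_pow hcp hm] using he)
  refine ⟨S', inferInstance, inferInstance, inferInstance,
    ((algebraMap S1 S').comp ρ).toAlgebra, ?_, ?_, hpr, Z, hZ⟩
  · exact ((local_hom_TFAE ((algebraMap S1 S').comp ρ)).out 2 0).1 hle
  · have f1 : (algebraMap R S).Flat := RingHom.flat_algebraMap_iff.2 ‹_›
    have f2 : ι.Flat := by
      let _ := ι.toAlgebra
      exact CP.flat hcp
    have f3 : (algebraMap S1 S').Flat :=
      RingHom.flat_algebraMap_iff.2 (IsLocalization.flat S' Q.primeCompl)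
    exact (f1.comp f2).comp f3

end Vale.Agent.P202
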