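import Vale.Agent.P202.CoreMix
import Vale.Agent.P202.LocM
import Vale.Agent.P202.Final

/-! Lech's inequality. -/

namespace Vale.Agent.P202

open IsLocalRing

universe u v

theorem lech (R : Type u) (S : Type v) [CommRing R] [IsLocalRing R] [IsNoetherianRing R]
    [CommRing S] [IsLocalRing S] [IsNoetherianRing S] [Algebra R S]
    [IsLocalHom (algebraMap R S)] [Module.Flat R S] {d D : ℕ}
    (hd : ringKrullDim R = d) (hD : ringKrullDim S = D) :
    ∃ eR eS : ℝ, Lim d (fun N => cl (maximalIdeal R ^ N)) eR ∧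
      Lim D (fun N => cl (maximalIdeal S ^ N)) eS ∧ eR ≤ eS := by
  rcases eqChar_or_prime R with hE | ⟨p, hp, hpm⟩
  · exact lech_eqChar R S hE hd hD
  haveI := Fact.mk hp
  obtain ⟨R1, _, _, _, _, S1, _, _, _, _, _, _, α, β, hα, hαm, hβ, hβm⟩ := exists_inf_pair R S
  have hloc : (maximalIdeal R1).map (algebraMap R1 S1) ≤ maximalIdeal S1 :=
    ((local_hom_TFAE (algebraMap R1 S1)).out 0 2).1 ‹_›
  haveI := infinite_residue_of_map (algebraMap R1 S1) hloc
  obtain ⟨W, hW, hWm, hWp⟩ := loc_sop hαm hd.le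
  obtain ⟨W', hW', hWm', hWp'⟩ := loc_sop hβm hD.le
  obtain ⟨eR, hR⟩ := exists_lim_max hW hWm hWp
  obtain ⟨eS, hS⟩ := exists_lim_max hW' hWm' hWp'
  simp only [bot_sup_eq] at hR hS hWp hWp'
  refine ⟨eR, eS, by simpa only [loc_cl_pow hα hαm] using hR,
    by simpa only [loc_cl_pow hβ hβm] using hS, ?_⟩
  have hp1 : (p : R1) ∈ maximalIdeal R1 := by
    rw [← hαm, ← map_natCast α]; exact Ideal.mem_map_of_mem _ hpm
  have hD1 : ringKrullDim S1 = D :=
    le_antisymm (dim_le_of_sop' hW' hWm' hWp') (hD ▸ dim_le_of_cp hβ hβm.le)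
  obtain ⟨S', _, _, _, _, _, _, hfib, Z, hZ, hZm, hZp, e', he', hle⟩ :=
    loc_step_mixed p R1 S1 hp1 (dim_le_of_sop' hW hWm hWp) hD1 hS
  exact (core_mixed R1 S' p hp1 hfib hW hWm hWp hZ hZm hZp hR he').trans hle

end Vale.Agent.P202
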