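import Vale.Agent.P202.Defs

/-! An elementwise ghost lemma. -/

namespace Vale.Agent.P202

theorem ghost {P Λ M : Type*} [CommRing P] [CommRing Λ] [AddCommGroup M] [Module P M]
    [Module Λ M] {σ : Type} [Fintype σ] [DecidableEq σ] (D : M →ₗ[P] M) (τ : σ → Λ)
    (V : (σ → ℤ) → ℤ → ℤ → Submodule P M) (μ N : ℕ) (β n0 : ℤ)
    (hDD : ∀ x, D (D x) = 0) (hτ : ∀ j x, D (τ j • x) = τ j • D x)
    (hst : ∀ b k n, ∀ x ∈ V b k n, D x ∈ V b k (n + 1))
    (hlow : ∀ b k n, n < n0 → V b k n = ⊥)
    (hb : ∀ b b' k n, b ≤ b' → V b k n ≤ V b' k n)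
    (hT : ∀ b k n j, ∀ x ∈ V b k n, τ j • x ∈ V (b + Pi.single j (μ : ℤ)) k n)
    (hk : ∀ (b : σ → ℤ) (k n : ℤ), (∀ j, β ≤ b j + k) → V b (k + 1) n ≤ V b k n)
    (hsurj : ∀ (b : σ → ℤ) (k n : ℤ) (j : σ), (∀ j, β ≤ b j + k) →
      ∀ y ∈ V (b + Pi.single j (2 * (μ : ℤ))) k n,
      ∃ y1 ∈ V (b + Pi.single j (μ : ℤ)) k n, ∃ y2 ∈ V (b + Pi.single j (μ : ℤ)) k n,
        y = τ j • y1 - y2)
    (hsv : ∀ (b : σ → ℤ) (k n : ℤ) (j : σ), (∀ j, β ≤ b j + k) →
      ∀ y ∈ V (b + Pi.single j (μ : ℤ)) k n,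
      τ j • y ∈ V (b + Pi.single j (μ : ℤ)) k n → y ∈ V b k n)
    (hkill : ∀ (b : σ → ℤ) (k n : ℤ) (ε : Finset σ), (∀ j, β ≤ b j + k) →
      ∀ z ∈ V b (k + N) n, D z = 0 →
      ∃ w ∈ V (b + fun _ => (μ : ℤ)) k (n - 1), (∏ j ∈ ε, τ j) • z = D w)
    (r : ℕ) (b : σ → ℤ) (k n : ℤ) (hn : n < n0 + r) (hadm : ∀ j, β ≤ b j + k) :
    ∀ z ∈ V b (k + (N * (Fintype.card σ + 1) ^ r : ℕ)) n, D z = 0 →
      ∃ w ∈ V b k (n - 1), z = D w := by
  have hmono : ∀ (b : σ → ℤ) (k n : ℤ), (∀ j, β ≤ b j + k) → ∀ a : ℕ,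
      V b (k + a) n ≤ V b k n := by
    intro b k n hadm a
    induction a with
    | zero => simp
    | succ a ih =>
      refine le_trans ?_ ih
      rw [Nat.cast_succ, ← add_assoc]
      exact hk b (k + a) n fun j => by have := hadm j; omega
  induction r generalizing b k n with
  | zero =>
    intro z hz _
    rw [hlow _ _ _ (by simpa using hn), Submodule.mem_bot] at hz
    exact ⟨0, Submodule.zero_mem _, by simp [hz]⟩
  | succ r ih =>
    set N' : ℕ := N * (Fintype.card σ + 1) ^ r with hN'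
    have key : ∀ S : Finset σ, ∀ (b : σ → ℤ) (k : ℤ), (∀ j, β ≤ b j + k) →
        ∀ z ∈ V b (k + S.card * N' + N) n, D z = 0 → ∀ ε : Finset σ, Disjoint ε S →
        ∃ w ∈ V (b + fun j => if j ∈ S then 0 else (μ : ℤ)) k (n - 1),
          (∏ j ∈ ε, τ j) • z = D w := by
      intro S
      induction S using Finset.induction_on with
      | empty =>
        intro b k hadm z hz hDz ε _
        simpa using hkill b k n ε hadm z (by simpa using hz) hDz
      | insert j S hj ihS =>
        intro b k hadm z hz hDz ε hε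
        rw [Finset.disjoint_insert_right] at hε
        have hadm' : ∀ i, β ≤ b i + (k + N') := fun i => by have := hadm i; omega
        have hz' : z ∈ V b (k + N' + S.card * N' + N) n := by
          rw [Finset.card_insert_of_notMem hj] at hz
          convert hz using 2
          push_cast; ring
        obtain ⟨w0, hw0, e0⟩ := ihS b (k + N') hadm' z hz' hDz ε hε.2
        obtain ⟨w1, hw1, e1⟩ := ihS b (k + N') hadm' z hz' hDz (insert j ε)
          (Finset.disjoint_insert_left.2 ⟨hj, hε.2⟩)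
        set b' : σ → ℤ := b + fun i => if i ∈ insert j S then 0 else (μ : ℤ) with hb'
        have eb : (b + fun i => if i ∈ S then 0 else (μ : ℤ)) = b' + Pi.single j (μ : ℤ) := by
          funext i
          by_cases e : i = j
          · subst e; simp [hb', hj]
          · simp [hb', e]
        have hbb' : ∀ i, b i ≤ b' i := fun i => by
          simp only [hb', Pi.add_apply]
          split_ifs <;> omega
        have ad1 : ∀ i, β ≤ b' i + k := fun i => by have := hadm i; have := hbb' i; omega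
        have ad2 : ∀ c : ℤ, 0 ≤ c → ∀ i, β ≤ (b' + Pi.single j c : σ → ℤ) i + k := by
          intro c hc i
          have := ad1 i
          by_cases e : i = j
          · subst e; simp; omega
          · simpa [e] using this
        rw [eb] at hw0 hw1
        have e2 : b' + Pi.single j (μ : ℤ) + Pi.single j (μ : ℤ) =
            b' + Pi.single j (2 * (μ : ℤ)) := by
          rw [add_assoc, ← Pi.single_add, two_mul]
        have hc : τ j • w0 - w1 ∈ V (b' + Pi.single j (2 * (μ : ℤ))) (k + N') (n - 1) := by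
          refine Submodule.sub_mem _ (e2 ▸ hT _ _ _ j w0 hw0) (hb _ _ _ _ ?_ hw1)
          rw [← e2]
          exact le_add_of_nonneg_right (Pi.single_nonneg.2 (Int.natCast_nonneg μ))
        obtain ⟨y, hy, ey⟩ := ih _ k (n - 1) (by push_cast at hn; omega)
          (ad2 _ (by positivity)) _ hc (by
            rw [map_sub, hτ, ← e0, ← e1, Finset.prod_insert hε.1, mul_smul, sub_self])
        obtain ⟨y0, hy0, y1, hy1, rfl⟩ := hsurj b' k _ j ad1 y hy
        have hD0 := hst _ _ _ y0 hy0
        have hD1 := hst _ _ _ y1 hy1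
        rw [sub_add_cancel] at hD0 hD1
        have m1 := hmono _ k (n - 1) (ad2 _ (Int.natCast_nonneg μ)) N'
        refine ⟨w0 - D y0, hsv b' k _ j ad1 _ (Submodule.sub_mem _ (m1 hw0) hD0) ?_, ?_⟩
        · have e3 : τ j • (w0 - D y0) = w1 - D y1 := by
            rw [map_sub, hτ] at ey
            rw [smul_sub, eq_add_of_sub_eq ey]
            abel
          rw [e3]
          exact Submodule.sub_mem _ (m1 hw1) hD1
        · rw [map_sub, hDD, sub_zero, e0]
    intro z hz hDz
    have hle : N ≤ N' := Nat.le_mul_of_pos_right _ (by positivity)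
    have hz' : z ∈ V b (k + (Finset.univ : Finset σ).card * N' + N) n := by
      refine hmono b _ n (fun j => ?_) (N' - N) ?_
      · have := hadm j
        have h2 : (0 : ℤ) ≤ ((Finset.univ : Finset σ).card : ℤ) * N' := by positivity
        omega
      · convert hz using 2
        rw [Nat.cast_sub hle, pow_succ, ← mul_assoc, ← hN', Finset.card_univ]
        push_cast; ring
    obtain ⟨w, hw, e⟩ := key Finset.univ b k hadm z hz' hDz ∅ (Finset.disjoint_empty_left _)
    exact ⟨w, hb _ _ _ _ (fun j => by simp) hw, by simpa using e⟩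

end Vale.Agent.P202
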