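import Vale.Agent.P202.Defs3
import Vale.Agent.P202.Dim

/-! Rings birational to a hypersurface. -/

namespace Vale.Agent.P202

open IsLocalRing

variable {T R : Type*} [CommRing T] [CommRing R] [Algebra T R] {x : R} {F : Polynomial T}
  {g0 g1 : T}

theorem HypData.mul [IsDomain T] (hH : HypData x F g0 g1) {c : T} (hc : c ≠ 0) :
    HypData x F g0 (c * g1) := by
  refine ⟨hH.monic, hH.root, hH.sep, hH.inj, fun r => ?_, hH.ne0, mul_ne_zero hc hH.ne1⟩
  obtain ⟨f, hf⟩ := hH.cond r
  exact ⟨Polynomial.C c * f, by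
    rw [map_mul, Polynomial.aeval_C, hf, mul_smul, ← Algebra.smul_def]⟩

theorem HypData.injective [Nontrivial R] (hH : HypData x F g0 g1) :
    Function.Injective (algebraMap T R) := by
  rw [injective_iff_map_eq_zero]
  intro a ha
  by_contra h0
  have h1 : F ∣ Polynomial.C a := hH.inj _ (by rw [Polynomial.aeval_C, ha])
  refine hH.monic.not_dvd_of_natDegree_lt (Polynomial.C_ne_zero.2 h0) ?_ h1
  rw [Polynomial.natDegree_C]
  by_contra h2
  have h3 : F = 1 := hH.monic.natDegree_eq_zero.1 (by omega)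
  have h4 := hH.root
  rw [h3, map_one] at h4
  exact one_ne_zero h4

/-- the inverse of the inclusion of the hypersurface, up to the conductor element -/
theorem HypData.exists_gamma (hH : HypData x F g0 g1) :
    ∃ γ : R →ₗ[T] AdjoinRoot F,
      (∀ (f : Polynomial T) (r : R), Polynomial.aeval x f = g1 • r → γ r = AdjoinRoot.mk F f) ∧
      (∀ (f : Polynomial T) (r : R), γ (Polynomial.aeval x f * r) = AdjoinRoot.mk F f * γ r) ∧
      γ 1 = AdjoinRoot.of F g1 ∧ ∀ r r', γ r * γ r' = AdjoinRoot.of F g1 * γ (r * r') := by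
  choose c hc using hH.cond
  have key : ∀ (f : Polynomial T) (r : R), Polynomial.aeval x f = g1 • r →
      AdjoinRoot.mk F (c r) = AdjoinRoot.mk F f := fun f r h =>
    AdjoinRoot.mk_eq_mk.2 (hH.inj _ (by rw [map_sub, hc, h, sub_self]))
  let γ : R →ₗ[T] AdjoinRoot F :=
    { toFun := fun r => AdjoinRoot.mk F (c r)
      map_add' := fun r r' => by
        rw [← map_add]
        exact key _ _ (by rw [map_add, hc, hc, smul_add])
      map_smul' := fun a r => by
        rw [RingHom.id_apply, AdjoinRoot.smul_mk]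
        exact key _ _ (by rw [map_smul, hc, smul_comm]) }
  have hγ : ∀ r, γ r = AdjoinRoot.mk F (c r) := fun _ => rfl
  refine ⟨γ, key, fun f r => ?_, ?_, fun r r' => ?_⟩
  · rw [hγ, hγ, ← map_mul]
    exact key _ _ (by rw [map_mul, hc, mul_smul_comm])
  · rw [hγ, ← AdjoinRoot.mk_C]
    exact key _ _ (by rw [Polynomial.aeval_C, Algebra.algebraMap_eq_smul_one])
  · rw [hγ, hγ, hγ, ← AdjoinRoot.mk_C, ← map_mul, ← map_mul]
    refine AdjoinRoot.mk_eq_mk.2 (hH.inj _ ?_)
    rw [map_sub, map_mul, map_mul, hc, hc, hc, Polynomial.aeval_C, ← Algebra.smul_def,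
      smul_mul_smul_comm, mul_smul, sub_self]

/-- the inclusion of the hypersurface -/
noncomputable def HypData.iota (hH : HypData x F g0 g1) : AdjoinRoot F →+* R :=
  AdjoinRoot.lift (algebraMap T R) x hH.root

theorem HypData.iota_mk (hH : HypData x F g0 g1) (f : Polynomial T) :
    hH.iota (AdjoinRoot.mk F f) = Polynomial.aeval x f := AdjoinRoot.lift_mk _ _

theorem HypData.iota_root (hH : HypData x F g0 g1) : hH.iota (AdjoinRoot.root F) = x :=
  AdjoinRoot.lift_root _

theorem HypData.iota_of (hH : HypData x F g0 g1) (a : T) :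
    hH.iota (AdjoinRoot.of F a) = algebraMap T R a := AdjoinRoot.lift_of _

theorem HypData.star (hH : HypData x F g0 g1) {s : ℕ} (τ : Fin s → T) {r : R} {N m : ℕ}
    (hN : 1 ≤ N) (hr : r ^ N ∈ Ideal.span (Set.range
      (Fin.cons x (fun j => algebraMap T R (τ j)) : Fin (s + 1) → R)) ^ m) {f : Polynomial T}
    (hf : Polynomial.aeval x f = g1 • r) :
    AdjoinRoot.mk F f ^ N ∈ Ideal.span {AdjoinRoot.of F g1 ^ (N - 1)} * Ideal.span (Set.range
      (Fin.cons (AdjoinRoot.root F) (fun j => AdjoinRoot.of F (τ j)) :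
        Fin (s + 1) → AdjoinRoot F)) ^ m := by
  obtain ⟨γ, h1, h2, -, h4⟩ := hH.exists_gamma
  have hpow : ∀ n : ℕ, γ r ^ (n + 1) = AdjoinRoot.of F g1 ^ n * γ (r ^ (n + 1)) := by
    intro n
    induction n with
    | zero => simp
    | succ n ih => rw [pow_succ, ih, mul_assoc, h4, ← pow_succ, pow_succ _ n, mul_assoc]
  have hmap : ∀ (J : Ideal (AdjoinRoot F)) (y : R), y ∈ J.map hH.iota → ∀ z, γ (y * z) ∈ J := by
    intro J y hy
    induction hy using Submodule.span_induction with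
    | mem y hy =>
      obtain ⟨a, ha, rfl⟩ := hy
      intro z
      obtain ⟨f, rfl⟩ := AdjoinRoot.mk_surjective a
      rw [hH.iota_mk, h2]
      exact J.mul_mem_right _ ha
    | zero => intro z; simp
    | add y y' _ _ hy hy' => intro z; rw [add_mul, map_add]; exact J.add_mem (hy z) (hy' z)
    | smul a y _ hy => intro z; rw [smul_eq_mul, mul_comm a, mul_assoc]; exact hy _
  obtain ⟨n, rfl⟩ : ∃ n, N = n + 1 := ⟨N - 1, by omega⟩
  rw [← h1 f r hf, hpow, Nat.add_sub_cancel]
  refine Ideal.mul_mem_mul (Ideal.mem_span_singleton_self _) ?_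
  rw [← mul_one (r ^ (n + 1))]
  refine hmap _ _ ?_ 1
  rw [Ideal.map_pow]
  refine Ideal.pow_right_mono (Ideal.span_le.2 ?_) m hr
  rintro _ ⟨j, rfl⟩
  induction j using Fin.cases with
  | zero =>
    have h5 : hH.iota (AdjoinRoot.root F) ∈ (Ideal.span (Set.range
        (Fin.cons (AdjoinRoot.root F) (fun j => AdjoinRoot.of F (τ j)) :
          Fin (s + 1) → AdjoinRoot F))).map hH.iota :=
      Ideal.mem_map_of_mem _ (Ideal.subset_span ⟨0, rfl⟩)
    rwa [hH.iota_root] at h5
  | succ j =>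
    rw [Fin.cons_succ, ← hH.iota_of]
    exact Ideal.mem_map_of_mem _ (Ideal.subset_span ⟨j.succ, rfl⟩)

theorem exists_colon_le [IsLocalRing T] [IsNoetherianRing T] [IsDomain T] {g : T} (hg : g ≠ 0) :
    ∃ c : ℕ, ∀ K : ℕ, (maximalIdeal T ^ (K + c)).colon {g} ≤ maximalIdeal T ^ K := by
  obtain ⟨k, hk⟩ := ColonA_artin_rees (⊥ : Ideal T) (maximalIdeal T) g
  refine ⟨k, fun K => ?_⟩
  have h := hk K
  rw [bot_sup_eq] at h
  refine h.trans (sup_le (fun a ha => ?_) le_rfl)
  rw [Submodule.mem_colon_singleton, smul_eq_mul, Ideal.mem_bot, mul_eq_zero] at ha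
  rw [ha.resolve_right hg]
  exact zero_mem _

theorem HypData.exists_over [Module.Finite T R] (hH : HypData x F g0 g1)
    (P : Ideal (AdjoinRoot F)) [P.IsPrime] : ∃ Q : Ideal R, Q.IsPrime ∧ Q.comap hH.iota = P := by
  let := hH.iota.toAlgebra
  have : IsScalarTower T (AdjoinRoot F) R :=
    IsScalarTower.of_algebraMap_eq fun a => (hH.iota_of a).symm
  have : Algebra.IsIntegral (AdjoinRoot F) R := Algebra.IsIntegral.tower_top (R := T)
  obtain ⟨Q, -, h⟩ := Ideal.exists_ideal_over_prime_of_isIntegral P (⊥ : Ideal R) fun a ha => by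
    obtain ⟨f, rfl⟩ := AdjoinRoot.mk_surjective a
    have h1 : hH.iota (AdjoinRoot.mk F f) = 0 := ha
    rw [hH.iota_mk] at h1
    rw [AdjoinRoot.mk_eq_zero.2 (hH.inj f h1)]
    exact zero_mem _
  exact ⟨Q, h⟩

variable [IsLocalRing T] [IsLocalRing R]

theorem coeff_zero_mem (hm : (maximalIdeal T).map (algebraMap T R) ≤ maximalIdeal R)
    (hx : x ∈ maximalIdeal R) {f : Polynomial T}
    (hf : Polynomial.aeval x f ∈ maximalIdeal R) : f.coeff 0 ∈ maximalIdeal T := by
  have _ := hm
  have h1 : algebraMap T R (f.coeff 0) = Polynomial.aeval x f - Polynomial.aeval x f.divX * x := by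
    conv_rhs => rw [← f.divX_mul_X_add]
    rw [map_add, map_mul, Polynomial.aeval_X, Polynomial.aeval_C, Polynomial.divX_mul_X_add]
    ring
  have h2 : algebraMap T R (f.coeff 0) ∈ maximalIdeal R := by
    rw [h1]
    exact Ideal.sub_mem _ hf (Ideal.mul_mem_left _ _ hx)
  exact fun hu => h2 (hu.map _)

variable [Module.Finite T R]

theorem hyp_eq_max {Q : Ideal R} [Q.IsPrime] (h : maximalIdeal T ≤ Q.comap (algebraMap T R)) :
    Q = maximalIdeal R := by
  have h1 : maximalIdeal T = Q.comap (algebraMap T R) :=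
    (maximalIdeal.isMaximal T).eq_of_le (Ideal.IsPrime.ne_top inferInstance) h
  exact eq_maximalIdeal (Ideal.isMaximal_of_isIntegral_of_isMaximal_comap (R := T) Q
    (h1 ▸ maximalIdeal.isMaximal T))

theorem HypData.coeff_mem (hH : HypData x F g0 g1) (hx : x ∈ maximalIdeal R) (j : ℕ)
    (hj : j < F.natDegree) : F.coeff j ∈ maximalIdeal T := by
  let G := F.map (residue T)
  let ψ : AdjoinRoot F →+* AdjoinRoot G :=
    AdjoinRoot.lift ((AdjoinRoot.of G).comp (residue T)) (AdjoinRoot.root G) (by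
      rw [← Polynomial.eval₂_map]; exact AdjoinRoot.eval₂_root G)
  have hnil : IsNilpotent (AdjoinRoot.root G) := by
    rw [nilpotent_iff_mem_prime]
    intro P hP
    obtain ⟨Q, hQ, e⟩ := hH.exists_over (P.comap ψ)
    have h1 : Q = maximalIdeal R := hyp_eq_max (T := T) fun a ha => by
      rw [Ideal.mem_comap, ← hH.iota_of, ← Ideal.mem_comap, e, Ideal.mem_comap]
      have h2 : ψ (AdjoinRoot.of F a) = AdjoinRoot.of G (residue T a) := AdjoinRoot.lift_of _
      rw [h2, (residue_eq_zero_iff a).2 ha, map_zero]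
      exact zero_mem _
    have h3 : ψ (AdjoinRoot.root F) = AdjoinRoot.root G := AdjoinRoot.lift_root _
    rw [← h3, ← Ideal.mem_comap, ← e, Ideal.mem_comap, hH.iota_root, h1]
    exact hx
  obtain ⟨N, hN⟩ := hnil
  have h1 : G ∣ Polynomial.X ^ N := by
    rw [← AdjoinRoot.mk_eq_zero, map_pow, AdjoinRoot.mk_X, hN]
  obtain ⟨m, -, hm⟩ := (dvd_prime_pow Polynomial.prime_X _).1 h1
  have h3 : G = Polynomial.X ^ m :=
    Polynomial.eq_of_monic_of_associated (hH.monic.map _) (Polynomial.monic_X_pow m) hm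
  have h4 : F.natDegree = m := by
    rw [← hH.monic.natDegree_map (residue T), ← Polynomial.natDegree_X_pow (R := ResidueField T) m,
      ← h3]
  have h5 := congrArg (fun f => f.coeff j) h3
  simp only [G, Polynomial.coeff_map, Polynomial.coeff_X_pow] at h5
  rw [if_neg (by omega)] at h5
  exact (residue_eq_zero_iff _).1 h5

theorem HypData.prim [IsNoetherianRing T] (hH : HypData x F g0 g1)
    (hm : (maximalIdeal T).map (algebraMap T R) ≤ maximalIdeal R) {s : ℕ} (τ : Fin s → T)
    (hp : Prim (Ideal.span (Set.range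
      (Fin.cons x (fun j => algebraMap T R (τ j)) : Fin (s + 1) → R)))) :
    Prim (Ideal.span {F.coeff 0} ⊔ Ideal.span (Set.range τ)) := by
  rw [prim_iff_radical, Ideal.radical_eq_sInf, le_sInf_iff]
  rintro P ⟨hP, hp'⟩ a ha
  let σ : AdjoinRoot F →+* T ⧸ P := AdjoinRoot.lift (Ideal.Quotient.mk P) 0 (by
    rw [Polynomial.eval₂_at_zero, Ideal.Quotient.eq_zero_iff_mem]
    exact hP (Ideal.mem_sup_left (Ideal.mem_span_singleton_self _)))
  have hσ : ∀ b, σ (AdjoinRoot.of F b) = Ideal.Quotient.mk P b := fun b => AdjoinRoot.lift_of _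
  have := RingHom.ker_isPrime σ
  obtain ⟨Q, hQ, e⟩ := hH.exists_over (RingHom.ker σ)
  have hb : ∀ b, algebraMap T R b ∈ Q ↔ b ∈ P := fun b => by
    rw [← hH.iota_of, ← Ideal.mem_comap, e, RingHom.mem_ker, hσ, Ideal.Quotient.eq_zero_iff_mem]
  obtain ⟨c, hc⟩ := hp
  have h1 : maximalIdeal R ≤ Q := by
    refine Ideal.IsPrime.le_of_pow_le (n := c) (hc.trans (Ideal.span_le.2 ?_))
    rintro _ ⟨j, rfl⟩
    induction j using Fin.cases with
    | zero =>
      have h5 : AdjoinRoot.root F ∈ RingHom.ker σ := AdjoinRoot.lift_root _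
      rw [← e, Ideal.mem_comap, hH.iota_root] at h5
      exact h5
    | succ j =>
      rw [Fin.cons_succ, SetLike.mem_coe, hb]
      exact hP (Ideal.mem_sup_right (Ideal.subset_span ⟨j, rfl⟩))
  exact (hb a).1 (h1 (hm (Ideal.mem_map_of_mem _ ha)))

theorem prim_of_finite [IsNoetherianRing R] : Prim ((maximalIdeal T).map (algebraMap T R)) := by
  rw [prim_iff_radical, Ideal.radical_eq_sInf, le_sInf_iff]
  rintro P ⟨hP, hp⟩
  exact (hyp_eq_max (Ideal.map_le_iff_le_comap.1 hP)).ge

end Vale.Agent.P202
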