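import Vale.Agent.P202.Defs

/-! Calculus of relative lengths. -/

namespace Vale.Agent.P202

open IsLocalRing

variable {R : Type*} [CommRing R] {M : Type*} [AddCommGroup M] [Module R M]
  {M' : Type*} [AddCommGroup M'] [Module R M']

/-- surjective transport -/
theorem rl_le_of_surj (f : M →ₗ[R] M') {A B : Submodule R M} {A' B' : Submodule R M'}
    (hA : ∀ x ∈ B, x ∈ A → f x ∈ A') (hB : ∀ y ∈ B', ∃ x ∈ B, y - f x ∈ A') :
    rl A' B' ≤ rl A B := by
  classical
  let g : B →ₗ[R] (M' ⧸ A') := A'.mkQ ∘ₗ f ∘ₗ B.subtype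
  let p : B →ₗ[R] B.map A.mkQ := (A.mkQ ∘ₗ B.subtype).codRestrict _ fun x => ⟨x, x.2, rfl⟩
  have hp : Function.Surjective p := by
    rintro ⟨_, x, hx, rfl⟩; exact ⟨⟨x, hx⟩, rfl⟩
  have hker : LinearMap.ker p ≤ LinearMap.ker g := by
    intro x hx
    have : A.mkQ (x : M) = 0 := congrArg Subtype.val hx
    have h2 : (x : M) ∈ A := by simpa using this
    simpa [g] using hA x x.2 h2
  let e := p.quotKerEquivOfSurjective hp
  let g' : B.map A.mkQ →ₗ[R] (M' ⧸ A') := (LinearMap.ker p).liftQ g hker ∘ₗ e.symm.toLinearMap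
  have hg' : ∀ x : B, g' (p x) = g x := by
    intro x
    have : e.symm (p x) = Submodule.Quotient.mk x := by
      rw [LinearEquiv.symm_apply_eq]; rfl
    simp [g', this]
  have hle : B'.map A'.mkQ ≤ LinearMap.range g' := by
    rintro _ ⟨y, hy, rfl⟩
    obtain ⟨x, hx, hxy⟩ := hB y hy
    refine ⟨p ⟨x, hx⟩, ?_⟩
    rw [hg']
    simp only [g, LinearMap.comp_apply, Submodule.subtype_apply, Submodule.mkQ_apply]
    rw [eq_comm, Submodule.Quotient.eq]; exact hxy
  calc rl A' B' ≤ Module.length R (LinearMap.range g') :=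
        Module.length_le_of_injective (Submodule.inclusion hle) (Submodule.inclusion_injective hle)
    _ ≤ rl A B := Module.length_le_of_surjective g'.rangeRestrict g'.surjective_rangeRestrict

/-- injective transport -/
theorem rl_le_of_inj (f : M →ₗ[R] M') {A B : Submodule R M} {A' B' : Submodule R M'}
    (hB : ∀ x ∈ B, f x ∈ B' ⊔ A') (hA : ∀ x ∈ B, f x ∈ A' → x ∈ A) :
    rl A B ≤ rl A' B' := by
  classical
  let g : B →ₗ[R] (M' ⧸ A') := A'.mkQ ∘ₗ f ∘ₗ B.subtype
  let p : B →ₗ[R] B.map A.mkQ := (A.mkQ ∘ₗ B.subtype).codRestrict _ fun x => ⟨x, x.2, rfl⟩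
  have hp : Function.Surjective p := by
    rintro ⟨_, x, hx, rfl⟩; exact ⟨⟨x, hx⟩, rfl⟩
  have hker : LinearMap.ker g ≤ LinearMap.ker p := by
    intro x hx
    have h1 : f x ∈ A' := by simpa [g] using hx
    have h2 := hA x x.2 h1
    apply Subtype.ext
    exact (Submodule.Quotient.mk_eq_zero A).2 h2
  have hle : LinearMap.range g ≤ B'.map A'.mkQ := by
    rintro _ ⟨x, rfl⟩
    obtain ⟨y, hy, a, ha, hya⟩ := Submodule.mem_sup.1 (hB x x.2)
    refine ⟨y, hy, ?_⟩
    simp only [g, LinearMap.comp_apply, Submodule.subtype_apply, Submodule.mkQ_apply]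
    rw [eq_comm, Submodule.Quotient.eq, ← hya]; simpa using ha
  have hs : Function.Surjective ((LinearMap.ker g).liftQ p hker) := by
    intro y; obtain ⟨x, rfl⟩ := hp y; exact ⟨Submodule.Quotient.mk x, rfl⟩
  calc rl A B ≤ Module.length R (B ⧸ LinearMap.ker g) := Module.length_le_of_surjective _ hs
    _ = Module.length R (LinearMap.range g) := g.quotKerEquivRange.length_eq
    _ ≤ rl A' B' :=
        Module.length_le_of_injective (Submodule.inclusion hle) (Submodule.inclusion_injective hle)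

/-- two-sided transport -/
theorem rl_eq_of_map (f : M →ₗ[R] M') {A B : Submodule R M} {A' B' : Submodule R M'}
    (hB : ∀ x ∈ B, f x ∈ B' ⊔ A') (hB' : ∀ y ∈ B', ∃ x ∈ B, y - f x ∈ A')
    (hA : ∀ x ∈ B, f x ∈ A' ↔ x ∈ A) : rl A' B' = rl A B :=
  le_antisymm (rl_le_of_surj f (fun x hx h => (hA x hx).2 h) hB')
    (rl_le_of_inj f hB fun x hx h => (hA x hx).1 h)

theorem rl_mono {A A' B B' : Submodule R M} (hA : A' ≤ A) (hB : B ≤ B') : rl A B ≤ rl A' B' :=
  rl_le_of_inj LinearMap.id (fun _ hx => Submodule.mem_sup_left (hB hx)) fun _ _ h => hA h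

theorem rl_congr {A A' B B' : Submodule R M} (h1 : A ⊓ B ≤ A') (h2 : B' ≤ B ⊔ A') :
    rl A' B' ≤ rl A B := by
  refine rl_le_of_surj LinearMap.id (fun x hx h => h1 ⟨h, hx⟩) fun y hy => ?_
  obtain ⟨x, hx, a, ha, rfl⟩ := Submodule.mem_sup.1 (h2 hy)
  exact ⟨x, hx, by simpa using ha⟩

theorem rl_sup_right (A B : Submodule R M) : rl A (A ⊔ B) = rl A B :=
  le_antisymm (rl_congr inf_le_left (by rw [sup_comm])) (rl_mono le_rfl le_sup_right)

theorem rl_inf_left (A B : Submodule R M) : rl (A ⊓ B) B = rl A B :=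
  le_antisymm (rl_congr le_rfl le_sup_left) (rl_mono inf_le_left le_rfl)

theorem rl_eq_zero_iff {A B : Submodule R M} : rl A B = 0 ↔ B ≤ A := by
  rw [rl, Module.length_eq_zero_iff, Submodule.subsingleton_iff_eq_bot, eq_bot_iff,
    Submodule.map_le_iff_le_comap]
  simp

theorem rl_of_le {A B : Submodule R M} (h : B ≤ A) : rl A B = 0 := rl_eq_zero_iff.2 h

theorem rl_self (A : Submodule R M) : rl A A = 0 := rl_of_le le_rfl

theorem rl_top (A : Submodule R M) : rl A ⊤ = Module.length R (M ⧸ A) := by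
  rw [rl, Submodule.map_top, Submodule.range_mkQ]; exact Submodule.topEquiv.length_eq

theorem rl_bot (B : Submodule R M) : rl ⊥ B = Module.length R B := by
  rw [rl]
  refine (Submodule.equivMapOfInjective _ ?_ B).length_eq.symm
  rw [← LinearMap.ker_eq_bot]; simp

theorem rl_add {A B C : Submodule R M} (hAB : A ≤ B) (hBC : B ≤ C) :
    rl A C = rl A B + rl B C := by
  have h1 : B.map A.mkQ ≤ C.map A.mkQ := Submodule.map_mono hBC
  let f : (M ⧸ A) →ₗ[R] (M ⧸ B) := A.mapQ B LinearMap.id (by simpa using hAB)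
  have h2 : ∀ x ∈ C.map A.mkQ, f x ∈ C.map B.mkQ := by
    rintro _ ⟨x, hx, rfl⟩; exact ⟨x, hx, rfl⟩
  refine Module.length_eq_add_of_exact (Submodule.inclusion h1) (f.restrict h2)
    (Submodule.inclusion_injective h1) ?_ ?_
  · rintro ⟨_, x, hx, rfl⟩; exact ⟨⟨_, x, hx, rfl⟩, rfl⟩
  · rintro ⟨_, x, hx, rfl⟩
    constructor
    · intro h
      have : f (A.mkQ x) = 0 := congrArg Subtype.val h
      have hxB : x ∈ B := by simpa [f] using this
      exact ⟨⟨_, x, hxB, rfl⟩, rfl⟩
    · rintro ⟨⟨_, y, hy, rfl⟩, h⟩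
      have : A.mkQ y = A.mkQ x := congrArg Subtype.val h
      apply Subtype.ext
      change f (A.mkQ x) = 0
      rw [← this]; simpa [f] using hy

theorem rl_le_add (A B C : Submodule R M) : rl A C ≤ rl A B + rl B C := by
  calc rl A C ≤ rl A (A ⊔ B ⊔ C) := rl_mono le_rfl le_sup_right
    _ = rl A (A ⊔ B) + rl (A ⊔ B) (A ⊔ B ⊔ C) := rl_add le_sup_left le_sup_left
    _ ≤ rl A B + rl B C := by
        rw [rl_sup_right, rl_sup_right]
        exact add_le_add le_rfl (rl_mono le_sup_right le_rfl)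

theorem rl_sup_le (A B C : Submodule R M) : rl A (B ⊔ C) ≤ rl A B + rl A C := by
  calc rl A (B ⊔ C) ≤ rl A (A ⊔ B ⊔ C) := rl_mono le_rfl (sup_le_sup_right le_sup_right _)
    _ = rl A (A ⊔ B) + rl (A ⊔ B) (A ⊔ B ⊔ C) := rl_add le_sup_left le_sup_left
    _ ≤ rl A B + rl A C := by
        rw [rl_sup_right, rl_sup_right]
        exact add_le_add le_rfl (rl_mono le_sup_left le_rfl)

theorem rl_iSup_le {ι : Type*} (s : Finset ι) (A : Submodule R M) (B : ι → Submodule R M) :
    rl A (⨆ i ∈ s, B i) ≤ ∑ i ∈ s, rl A (B i) := by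
  classical
  induction s using Finset.induction_on with
  | empty => simp [rl_of_le]
  | insert a s ha ih =>
    rw [Finset.iSup_insert, Finset.sum_insert ha]
    exact (rl_sup_le _ _ _).trans (add_le_add le_rfl ih)

/-- a cyclic step -/
theorem rl_span_singleton (A : Submodule R M) (v : M) :
    rl A (Submodule.span R {v}) =
      rl (A.comap (LinearMap.toSpanSingleton R M v)) (⊤ : Ideal R) := by
  refine rl_eq_of_map (LinearMap.toSpanSingleton R M v) (fun x _ => ?_) (fun y hy => ?_)
    fun x _ => Iff.rfl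
  · exact Submodule.mem_sup_left (Submodule.smul_mem _ _ (Submodule.mem_span_singleton_self v))
  · obtain ⟨a, rfl⟩ := Submodule.mem_span_singleton.1 hy
    exact ⟨a, trivial, by simp⟩

theorem rl_pi {ι : Type*} [Fintype ι] (A B : ι → Submodule R M) :
    rl (Submodule.pi Set.univ A) (Submodule.pi Set.univ B) = ∑ i, rl (A i) (B i) := by
  classical
  let f : (ι → M) →ₗ[R] (∀ i, M ⧸ A i) := LinearMap.pi fun i => (A i).mkQ ∘ₗ LinearMap.proj i
  have h1 : rl (⊥ : Submodule R (∀ i, M ⧸ A i))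
      (Submodule.pi Set.univ fun i => (B i).map (A i).mkQ) =
      rl (Submodule.pi Set.univ A) (Submodule.pi Set.univ B) := by
    refine rl_eq_of_map f (fun x hx => Submodule.mem_sup_left fun i _ => ⟨x i, hx i trivial, rfl⟩)
      (fun y hy => ?_) fun x _ => ?_
    · choose x hx hxy using fun i => hy i trivial
      refine ⟨x, fun i _ => hx i, ?_⟩
      rw [Submodule.mem_bot]; funext i; simp [f, ← hxy i]
    · simp [f, funext_iff, Submodule.mem_pi]
  rw [← h1, rl_bot]
  let e : (Submodule.pi Set.univ fun i => (B i).map (A i).mkQ) ≃ₗ[R]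
      (∀ i, (B i).map (A i).mkQ) :=
    { toFun := fun x i => ⟨x.1 i, x.2 i trivial⟩
      map_add' := fun _ _ => rfl
      map_smul' := fun _ _ => rfl
      invFun := fun x => ⟨fun i => x i, fun i _ => (x i).2⟩
      left_inv := fun _ => rfl
      right_inv := fun _ => rfl }
  rw [e.length_eq, Module.length_pi_of_fintype]; rfl

theorem rl_maximal [IsLocalRing R] : rl (maximalIdeal R) (⊤ : Ideal R) = 1 := by
  rw [rl_top]
  have : IsSimpleModule R (R ⧸ maximalIdeal R) :=
    isSimpleModule_iff_isCoatom.2 (maximalIdeal.isMaximal R).out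
  exact Module.length_eq_one R _

/-- a cyclic step killed by the maximal ideal has length at most one -/
theorem rl_span_le_one [IsLocalRing R] {A : Submodule R M} {v : M}
    (h : ∀ a ∈ maximalIdeal R, a • v ∈ A) : rl A (Submodule.span R {v}) ≤ 1 := by
  rw [rl_span_singleton, ← rl_maximal (R := R)]
  exact rl_mono (fun a ha => h a ha) le_rfl

/-- induction on finite relative length by simple steps -/
theorem rl_induction [IsLocalRing R] {B : Submodule R M} (Q : Submodule R M → Prop) (hB : Q B)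
    (hstep : ∀ (A : Submodule R M) (v : M), v ∈ B → v ∉ A → A ≤ B →
      (∀ a ∈ maximalIdeal R, a • v ∈ A) → Q (A ⊔ Submodule.span R {v}) → Q A)
    {A : Submodule R M} (hAB : A ≤ B) (hfin : rl A B ≠ ⊤) : Q A := by
  obtain ⟨n, hn⟩ := ENat.ne_top_iff_exists.1 hfin
  induction n using Nat.strong_induction_on generalizing A with
  | _ n ih =>
    by_cases hBA : B ≤ A
    · rwa [le_antisymm hAB hBA]
    have hfl : IsFiniteLength R (B.map A.mkQ) := Module.length_ne_top_iff.1 hfin
    have hart : IsArtinian R (B.map A.mkQ) := (isFiniteLength_iff_isNoetherian_isArtinian.1 hfl).2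
    have hnt : Nontrivial (B.map A.mkQ) := by
      rw [← Module.length_pos_iff (R := R), pos_iff_ne_zero]
      exact fun h => hBA (rl_eq_zero_iff.1 h)
    obtain ⟨S, hS, -⟩ := (eq_bot_or_exists_atom_le (⊤ : Submodule R (B.map A.mkQ))).resolve_left
      top_ne_bot
    obtain ⟨⟨_, v, hv, rfl⟩, hwS, hw⟩ := (Submodule.ne_bot_iff S).1 hS.1
    have hvA : v ∉ A := fun h => hw (Subtype.ext (by simpa using h))
    have hkill : ∀ a ∈ maximalIdeal R, a • v ∈ A := by
      intro a ha
      by_contra hav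
      set w : B.map A.mkQ := ⟨A.mkQ v, v, hv, rfl⟩
      have h1 : Submodule.span R {a • w} ≤ S :=
        (Submodule.span_singleton_le_iff_mem _ _).2 (S.smul_mem a hwS)
      have h2 : Submodule.span R {a • w} ≠ ⊥ := by
        rw [Ne, Submodule.span_singleton_eq_bot]
        intro h
        have : A.mkQ (a • v) = 0 := by rw [map_smul]; exact congrArg Subtype.val h
        exact hav ((Submodule.Quotient.mk_eq_zero A).1 this)
      have h3 : Submodule.span R {a • w} = S := (hS.le_iff.1 h1).resolve_left h2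
      obtain ⟨c, hc⟩ := Submodule.mem_span_singleton.1 (h3 ▸ hwS : w ∈ Submodule.span R {a • w})
      have hu : IsUnit (1 - c * a) :=
        isUnit_one_sub_self_of_mem_nonunits _ (Ideal.mul_mem_left _ c ha)
      have : (1 - c * a) • w = 0 := by
        have h4 := sub_smul (1 : R) (c * a) w
        rw [h4, one_smul, mul_smul, hc, sub_self]
      exact hw ((hu.smul_eq_zero).1 this)
    have hle : A ⊔ Submodule.span R {v} ≤ B :=
      sup_le hAB ((Submodule.span_singleton_le_iff_mem _ _).2 hv)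
    refine hstep A v hv hvA hAB hkill ?_
    have hadd := rl_add (le_sup_left : A ≤ A ⊔ Submodule.span R {v}) hle
    have hfin' : rl (A ⊔ Submodule.span R {v}) B ≠ ⊤ := by
      intro h; rw [h, add_top] at hadd; exact hfin hadd
    obtain ⟨n', hn'⟩ := ENat.ne_top_iff_exists.1 hfin'
    refine ih n' ?_ hle hfin' hn'
    have hpos : rl A (A ⊔ Submodule.span R {v}) ≠ 0 := by
      rw [Ne, rl_eq_zero_iff]
      exact fun h => hvA (h (Submodule.mem_sup_right (Submodule.mem_span_singleton_self v)))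
    rw [← hn, ← hn'] at hadd
    have h1 : (1 : ℕ∞) ≤ rl A (A ⊔ Submodule.span R {v}) := ENat.one_le_iff_ne_zero.2 hpos
    have : ((1 + n' : ℕ) : ℕ∞) ≤ n := by rw [hadd]; push_cast; exact add_le_add h1 le_rfl
    have := ENat.coe_le_coe.1 this
    omega

theorem rl_simple_step [IsLocalRing R] {A : Submodule R M} {v : M} (hv : v ∉ A)
    (h : ∀ a ∈ maximalIdeal R, a • v ∈ A) : rl A (A ⊔ Submodule.span R {v}) = 1 := by
  rw [rl_sup_right]
  refine le_antisymm (rl_span_le_one h) (ENat.one_le_iff_ne_zero.2 ?_)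
  rw [Ne, rl_eq_zero_iff]
  exact fun h => hv (h (Submodule.mem_span_singleton_self v))

/-- a module of finite length `≤ n` is killed by `m^n` -/
theorem pow_smul_le_of_rl_le [IsLocalRing R] {A B : Submodule R M} {n : ℕ} (h : rl A B ≤ n) :
    maximalIdeal R ^ n • B ≤ A := by
  have hfin : rl A (A ⊔ B) ≠ ⊤ := by
    rw [rl_sup_right]; exact ne_top_of_le_ne_top (ENat.coe_ne_top n) h
  have key := rl_induction (B := A ⊔ B)
    (fun A' => ∀ n : ℕ, rl A' (A ⊔ B) ≤ n → maximalIdeal R ^ n • (A ⊔ B) ≤ A')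
    (fun n _ => Submodule.smul_le_right) ?_ le_sup_left hfin n (by rwa [rl_sup_right])
  · exact (Submodule.smul_mono le_rfl le_sup_right).trans key
  intro A' v hv hvA hAB hk ih n hn
  have hle : A' ⊔ Submodule.span R {v} ≤ A ⊔ B :=
    sup_le hAB ((Submodule.span_singleton_le_iff_mem _ _).2 hv)
  rw [rl_add le_sup_left hle, rl_simple_step hvA hk] at hn
  obtain _ | n := n
  · simp at hn
  have hn' : rl (A' ⊔ Submodule.span R {v}) (A ⊔ B) ≤ n := by
    rw [Nat.cast_succ, add_comm] at hn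
    exact (ENat.add_le_add_iff_right ENat.one_ne_top).1 hn
  rw [pow_succ', mul_smul]
  refine (Submodule.smul_mono le_rfl (ih n hn')).trans ?_
  rw [Submodule.smul_sup, sup_le_iff]
  refine ⟨Submodule.smul_le_right, Submodule.smul_le.2 fun a ha x hx => ?_⟩
  obtain ⟨c, rfl⟩ := Submodule.mem_span_singleton.1 hx
  rw [smul_comm]; exact A'.smul_mem c (hk a ha)

/-- finitely generated and killed by a power of the maximal ideal implies finite length -/
theorem rl_ne_top [IsLocalRing R] [IsNoetherianRing R] {A B : Submodule R M} (hB : B.FG) {n : ℕ}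
    (h : maximalIdeal R ^ n • B ≤ A) : rl A B ≠ ⊤ := by
  induction n generalizing B with
  | zero => rw [rl_of_le (by simpa using h)]; exact ENat.zero_ne_top
  | succ n ih =>
    have hfg : (maximalIdeal R • B).FG := Submodule.FG.smul (IsNoetherian.noetherian _) hB
    have h1 := ih hfg (by rwa [← mul_smul, ← pow_succ])
    refine ne_top_of_le_ne_top ?_ (rl_le_add A (maximalIdeal R • B) B)
    refine WithTop.add_ne_top.2 ⟨h1, ?_⟩
    obtain ⟨s, hs⟩ := hB
    have h2 : B = ⨆ v ∈ s, Submodule.span R {v} := by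
      rw [← hs, Submodule.span_eq_iSup_of_singleton_spans]; rfl
    have h3 : rl (maximalIdeal R • B) (⨆ v ∈ s, Submodule.span R {v}) ≤ ∑ _v ∈ s, (1 : ℕ∞) :=
      (rl_iSup_le _ _ _).trans (Finset.sum_le_sum fun v hv => rl_span_le_one fun a ha =>
        Submodule.smul_mem_smul ha (hs ▸ Submodule.subset_span hv))
    rw [← h2] at h3
    exact ne_top_of_le_ne_top (by
      rw [Finset.sum_const, nsmul_one]; exact ENat.coe_ne_top _) h3

theorem rl_ne_top_of_prim [IsLocalRing R] [IsNoetherianRing R] {I : Ideal R} (h : Prim I) :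
    rl I (⊤ : Ideal R) ≠ ⊤ := by
  obtain ⟨c, hc⟩ := h
  exact rl_ne_top (n := c) (IsNoetherian.noetherian _) (by simpa using hc)

theorem prim_of_rl_ne_top [IsLocalRing R] {I : Ideal R} (h : rl I (⊤ : Ideal R) ≠ ⊤) :
    Prim I := by
  obtain ⟨n, hn⟩ := ENat.ne_top_iff_exists.1 h
  exact ⟨n, by simpa using pow_smul_le_of_rl_le (A := I) (B := ⊤) hn.ge⟩

/-- lengths do not change under a surjective change of rings -/
theorem rl_comap_of_surjective {S : Type*} [CommRing S] (f : R →+* S)
    (hf : Function.Surjective f) (I : Ideal S) : rl (I.comap f) (⊤ : Ideal R) = rl I ⊤ := by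
  rw [rl_top, rl_top]
  letI : Algebra R S := f.toAlgebra
  have e : (R ⧸ I.comap f) ≃ₗ[R] (S ⧸ I) :=
    (Ideal.quotientKerAlgEquivOfSurjective (f := (Ideal.Quotient.mkₐ R I).comp (Algebra.ofId R S))
      ((Ideal.Quotient.mkₐ_surjective R I).comp hf)).toLinearEquiv.symm.trans
      (Submodule.quotEquivOfEq _ _ (by
        ext x; exact Ideal.Quotient.eq_zero_iff_mem))
      |>.symm
  rw [e.length_eq]
  exact Module.length_eq_of_surjective (S := R) (R := S) hf

end Vale.Agent.P202
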