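import Vale.Agent.P202.PS
import Vale.Agent.P202.ColonC

/-! Local generation of primes in polynomial and power series rings. -/

namespace Vale.Agent.P202

open IsLocalRing

theorem loca_gen_of_spanFinrank {T : Type*} [CommRing T] {I : Ideal T} (hI : I.FG) {h : ℕ}
    (hh : I.spanFinrank ≤ h) : Gen I h := by
  have hf := Submodule.FG.finite_generators hI
  have hc : hf.toFinset.card ≤ h := by
    rw [← Set.ncard_eq_toFinset_card _ hf, Submodule.FG.generators_ncard hI]; exact hh
  refine Gen.mono ⟨fun j => (hf.toFinset.equivFin.symm j : T), ?_⟩ hc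
  conv_lhs => rw [← Submodule.span_generators I]
  congr 1
  ext x
  constructor
  · intro hx
    exact ⟨hf.toFinset.equivFin ⟨x, hf.mem_toFinset.2 hx⟩, by simp⟩
  · rintro ⟨j, rfl⟩
    exact hf.mem_toFinset.1 (hf.toFinset.equivFin.symm j).2

theorem loca_clear {C T : Type*} [CommRing C] [CommRing T] [Algebra C T] [IsLocalRing T]
    (P : Ideal C) [P.IsPrime] [IsLocalization.AtPrime T P] {h : ℕ}
    (hg : Gen (maximalIdeal T) h) :
    ∃ z : Fin h → C, (∀ i, z i ∈ P) ∧ ∀ f ∈ P, ∃ s, s ∉ P ∧ s * f ∈ Ideal.span (Set.range z) := by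
  obtain ⟨w, hw⟩ := hg
  choose z hz' using fun i => IsLocalization.mk'_surjective P.primeCompl (w i)
  have hz : ∀ i, IsLocalization.mk' T (z i).1 (z i).2 = w i := hz'
  refine ⟨fun i => (z i).1, fun i => ?_, fun f hf => ?_⟩
  · rw [← IsLocalization.AtPrime.mk'_mem_maximal_iff T P (z i).1 (z i).2, hw]
    exact Ideal.subset_span ⟨i, (hz i).symm⟩
  · refine (IsLocalization.algebraMap_mem_map_algebraMap_iff P.primeCompl T _ f).1 ?_
    have h1 := (IsLocalization.AtPrime.to_map_mem_maximal_iff T P f).2 hf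
    rw [hw] at h1
    refine Ideal.span_le.2 ?_ h1
    rintro _ ⟨i, rfl⟩
    rw [← hz i, IsLocalization.mk'_eq_mul_mk'_one]
    exact Ideal.mul_mem_right _ _ (Ideal.mem_map_of_mem _ (Ideal.subset_span ⟨i, rfl⟩))

theorem loc_gen {A : Type*} [CommRing A] [IsDomain A] {h : ℕ}
    (P : Ideal (MvPolynomial (Fin h) A)) [P.IsPrime]
    (hP : ∀ a : A, MvPolynomial.C a ∈ P → a = 0) :
    ∃ z : Fin h → MvPolynomial (Fin h) A, (∀ i, z i ∈ P) ∧
      ∀ f ∈ P, ∃ s, s ∉ P ∧ s * f ∈ Ideal.span (Set.range z) := by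
  let K := FractionRing A
  let _ : Algebra (MvPolynomial (Fin h) A) (MvPolynomial (Fin h) K) :=
    MvPolynomial.algebraMvPolynomial
  let M := (nonZeroDivisors A).map (MvPolynomial.C : A →+* MvPolynomial (Fin h) A)
  have hd : Disjoint (M : Set (MvPolynomial (Fin h) A)) P := by
    rw [Set.disjoint_left]
    rintro _ ⟨a, ha, rfl⟩ h1
    exact nonZeroDivisors.ne_zero ha (hP a h1)
  let P' := P.map (algebraMap _ (MvPolynomial (Fin h) K))
  have hp' : P'.IsPrime := IsLocalization.isPrime_of_isPrime_disjoint M _ P ‹_› hd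
  have e : P'.comap (algebraMap _ _) = P := IsLocalization.under_map_of_isPrime_disjoint M _ ‹_› hd
  have h1 := IsLocalization.isLocalization_isLocalization_atPrime_isLocalization M
    (Localization.AtPrime P') P'
  have h2 : Gen (B := Localization.AtPrime P') (maximalIdeal _) h := by
    refine loca_gen_of_spanFinrank (IsNoetherian.noetherian _) ?_
    have h3 := (IsRegularRing.isRegularLocalRing_localization P').spanFinrank_maximalIdeal
    rw [IsLocalization.AtPrime.ringKrullDim_eq_height P'] at h3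
    have h4 := Ideal.height_le_ringKrullDim_of_isPrime (I := P')
    rw [← h3, MvPolynomial.ringKrullDim_of_isNoetherianRing, ringKrullDim_eq_zero_of_field] at h4
    simpa using h4
  have := loca_clear (P'.comap (algebraMap (MvPolynomial (Fin h) A) _)) h2
  rwa [e] at this

open MvPowerSeries in
theorem loc_ps (L : Type*) [Field L] {δ h : ℕ}
    (α : MvPowerSeries (Fin δ) L →+* MvPowerSeries (Fin δ ⊕ Fin h) L) (hC : ∀ c, α (C c) = C c)
    (hX : ∀ i, α (X i) = X (Sum.inl i)) (P : Ideal (MvPowerSeries (Fin δ ⊕ Fin h) L)) [P.IsPrime]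
    (hP : ∀ g, α g ∈ P → g = 0)
    (hprim : Prim (P ⊔ Ideal.span (Set.range fun i => X (Sum.inl i)))) :
    ∃ z : Fin h → MvPowerSeries (Fin δ ⊕ Fin h) L, (∀ i, z i ∈ P) ∧
      ∀ f ∈ P, ∃ s, s ∉ P ∧ s * f ∈ Ideal.span (Set.range z) := by
  let _ := α.toAlgebra
  have hα : ∀ a, algebraMap _ (MvPowerSeries (Fin δ ⊕ Fin h) L) a = α a := fun _ => rfl
  have hmap : (maximalIdeal (MvPowerSeries (Fin δ) L)).map α =
      Ideal.span (Set.range fun i => X (Sum.inl i)) := by
    rw [maximalIdeal_ps, Ideal.map_span, ← Set.range_comp]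
    congr 2
    funext i; exact hX i
  have hm : (maximalIdeal (MvPowerSeries (Fin δ) L)).map α ≤ maximalIdeal _ := by
    rw [hmap, maximalIdeal_ps]
    exact Ideal.span_mono (by rintro _ ⟨i, rfl⟩; exact ⟨_, rfl⟩)
  have hres : ∀ y : MvPowerSeries (Fin δ ⊕ Fin h) L, ∃ a, y - α a ∈ maximalIdeal _ := fun y =>
    ⟨C (constantCoeff y), by rw [maximalIdeal_ps, psa_mem_span_range, hC]; simp⟩
  let β : MvPolynomial (Fin h) (MvPowerSeries (Fin δ) L) →ₐ[MvPowerSeries (Fin δ) L]
      MvPowerSeries (Fin δ ⊕ Fin h) L := MvPolynomial.aeval fun i => X (Sum.inr i)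
  let P0 := P.comap β
  have : IsDomain (MvPowerSeries (Fin δ) L) := NoZeroDivisors.to_isDomain _
  obtain ⟨z, hz1, hz2⟩ := loc_gen P0 fun a ha => hP a (by simpa [P0, β, hα] using ha)
  let q := P0.map β
  have hqP : q ≤ P := Ideal.map_comap_le
  have hfin : Module.Finite (MvPowerSeries (Fin δ) L) (_ ⧸ P) :=
    finite_of_prim hm hres P (hmap ▸ hprim)
  have hprim' : Prim (q ⊔ (maximalIdeal (MvPowerSeries (Fin δ) L)).map α) := by
    rw [prim_iff_radical]
    conv_lhs => rw [maximalIdeal_ps]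
    rw [Ideal.span_le]
    rintro _ ⟨i | i, rfl⟩
    · refine Ideal.le_radical (Ideal.mem_sup_right ?_)
      rw [hmap]; exact Ideal.subset_span ⟨i, rfl⟩
    obtain ⟨f, hf1, hf2⟩ := IsIntegral.of_finite (MvPowerSeries (Fin δ) L)
      (Ideal.Quotient.mk P (X (Sum.inr i)))
    have h1 : Polynomial.aeval (X (Sum.inr i) : MvPowerSeries (Fin δ ⊕ Fin h) L) f ∈ P := by
      rw [← Ideal.Quotient.eq_zero_iff_mem, ← hf2]
      exact (Polynomial.aeval_algHom_apply (Ideal.Quotient.mkₐ _ P) _ f).symm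
    have h2 : β (Polynomial.aeval (MvPolynomial.X i) f) = Polynomial.aeval (X (Sum.inr i)) f := by
      rw [← Polynomial.aeval_algHom_apply]; simp [β]
    have h3 : Polynomial.aeval (X (Sum.inr i) : MvPowerSeries (Fin δ ⊕ Fin h) L) f ∈ q := by
      rw [← h2]; exact Ideal.mem_map_of_mem _ (show β _ ∈ P from h2 ▸ h1)
    set J := q ⊔ (maximalIdeal (MvPowerSeries (Fin δ) L)).map α
    have h4 : (Ideal.Quotient.mk J).comp α =
        ((Ideal.Quotient.mk J).comp C).comp constantCoeff := by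
      ext1 a
      simp only [RingHom.comp_apply]
      rw [Ideal.Quotient.eq, ← hC, ← map_sub]
      refine Ideal.mem_sup_right (Ideal.mem_map_of_mem _ ?_)
      rw [maximalIdeal_ps, psa_mem_span_range]; simp
    have h5 : Polynomial.eval₂ C (X (Sum.inr i) : MvPowerSeries (Fin δ ⊕ Fin h) L)
        (f.map constantCoeff) ∈ J := by
      rw [← Ideal.Quotient.eq_zero_iff_mem, Polynomial.hom_eval₂, Polynomial.eval₂_map, ← h4,
        ← Polynomial.hom_eval₂, Ideal.Quotient.eq_zero_iff_mem]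
      exact Ideal.mem_sup_left h3
    obtain ⟨u, hu1, hu2⟩ := Polynomial.exists_eq_pow_rootMultiplicity_mul_and_not_dvd
      (f.map constantCoeff) (hf1.map _).ne_zero 0
    rw [hu1, Polynomial.eval₂_mul, Polynomial.eval₂_pow] at h5
    have h6 : IsUnit (Polynomial.eval₂ C (X (Sum.inr i) : MvPowerSeries (Fin δ ⊕ Fin h) L) u) := by
      rw [isUnit_iff_constantCoeff, Polynomial.hom_eval₂, constantCoeff_X,
        Polynomial.eval₂_at_zero, isUnit_iff_ne_zero]
      simpa [Polynomial.X_dvd_iff] using hu2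
    exact ⟨_, by simpa using (Ideal.mul_unit_mem_iff_mem _ h6).1 h5⟩
  have hfin' : Module.Finite (MvPowerSeries (Fin δ) L) (_ ⧸ q) := finite_of_prim hm hres q hprim'
  let π := (Ideal.Quotient.mkₐ (MvPowerSeries (Fin δ) L) q).toLinearMap
  have hpol : ∀ p : MvPolynomial (Fin δ ⊕ Fin h) L, ∃ c, β c = p := by
    intro p
    induction p using MvPolynomial.induction_on with
    | C a => exact ⟨MvPolynomial.C (C a), by simp [β, hα, hC]⟩
    | add p p' hp hp' =>
      obtain ⟨c, hc⟩ := hp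
      obtain ⟨c', hc'⟩ := hp'
      exact ⟨c + c', by simp [hc, hc']⟩
    | mul_X p j hp =>
      obtain ⟨c, hc⟩ := hp
      rcases j with j | j
      · exact ⟨c * MvPolynomial.C (X j), by rw [map_mul, hc]; simp [β, hα, hX]⟩
      · exact ⟨c * MvPolynomial.X j, by rw [map_mul, hc]; simp [β]⟩
  have hsurj : (⊤ : Submodule _ (_ ⧸ q)) ≤ LinearMap.range (π ∘ₗ β.toLinearMap) := by
    refine Submodule.le_of_le_smul_of_le_jacobson_bot hfin'.fg_top
      (maximalIdeal_le_jacobson ⊥) fun y _ => ?_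
    obtain ⟨y, rfl⟩ := Ideal.Quotient.mk_surjective y
    obtain ⟨N, hN⟩ := hprim'
    obtain ⟨c, hc⟩ := hpol (truncTotal N y)
    have h1 : y - β c ∈ maximalIdeal _ ^ N := by
      rw [maximalIdeal_ps, hc, psa_mem_pow_iff]
      intro m hm
      simp [coeff_truncTotal _ hm]
    obtain ⟨b, hb, e, he, hbe⟩ := Submodule.mem_sup.1 (hN h1)
    have he' : e ∈ maximalIdeal (MvPowerSeries (Fin δ) L) •
        (⊤ : Submodule (MvPowerSeries (Fin δ) L) (MvPowerSeries (Fin δ ⊕ Fin h) L)) := by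
      rw [Ideal.smul_top_eq_map]; exact he
    have h2 := Submodule.mem_map_of_mem (f := π) he'
    rw [Submodule.map_smul''] at h2
    refine Submodule.mem_sup.2 ⟨_, ⟨c, rfl⟩, π e, Submodule.smul_mono le_rfl le_top h2, ?_⟩
    change Ideal.Quotient.mk q (β c) + Ideal.Quotient.mk q e = _
    rw [← map_add, Ideal.Quotient.eq]
    have : β c + e - y = -b := by linear_combination hbe
    rw [this]; exact neg_mem hb
  refine ⟨fun i => β (z i), hz1, fun f hf => ?_⟩
  have hfq : f ∈ q := by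
    obtain ⟨c, hc⟩ := hsurj (Submodule.mem_top (x := Ideal.Quotient.mk q f))
    have h1 : β c - f ∈ q := Ideal.Quotient.eq.1 hc
    have h2 : c ∈ P0 := by simpa [P0] using add_mem (hqP h1) hf
    simpa using sub_mem (Ideal.mem_map_of_mem β h2) h1
  clear hf
  induction hfq using Submodule.span_induction with
  | mem x hx =>
    obtain ⟨c, hc, rfl⟩ := hx
    obtain ⟨s, hs, hsc⟩ := hz2 c hc
    refine ⟨β s, hs, ?_⟩
    have := Ideal.mem_map_of_mem β hsc
    rwa [map_mul, Ideal.map_span, ← Set.range_comp] at this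
  | zero => exact ⟨1, P.ne_top_iff_one.1 Ideal.IsPrime.ne_top', by simp⟩
  | add x y _ _ hx hy =>
    obtain ⟨s, hs, hsx⟩ := hx
    obtain ⟨s', hs', hsy⟩ := hy
    refine ⟨s * s', fun h => ((‹P.IsPrime›.mem_or_mem h).elim hs hs'), ?_⟩
    have := add_mem (Ideal.mul_mem_left _ s' hsx) (Ideal.mul_mem_left _ s hsy)
    convert this using 1
    ring
  | smul a x _ hx =>
    obtain ⟨s, hs, hsx⟩ := hx
    refine ⟨s, hs, ?_⟩
    rw [smul_eq_mul, mul_left_comm]
    exact Ideal.mul_mem_left _ a hsx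

end Vale.Agent.P202
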