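import Vale.Agent.P202.Rank
import Vale.Agent.P202.Cnt
import Vale.Agent.P202.Dim

/-! Multiplicity and rank modulo a prime; hypersurfaces. -/

namespace Vale.Agent.P202

open IsLocalRing

variable {A S : Type*} [CommRing A] [CommRing S]

theorem locH_sum {M c : ℕ → ℕ} (hM : Monotone M) {o : ℕ} (h1 : ∀ k, c k ≤ M k)
    (h2 : ∀ k, c (k + o) + M k ≤ M (k + o)) (N : ℕ) : ∑ k ∈ Finset.range N, c k ≤ o * M N := by
  have key : ∀ N, ∑ k ∈ Finset.range N, c k + ∑ k ∈ Finset.range (N - o), M k ≤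
      ∑ k ∈ Finset.range N, M k := by
    intro N
    induction N with
    | zero => simp
    | succ N ih =>
      rw [Finset.sum_range_succ, Finset.sum_range_succ M N]
      rcases le_or_gt o N with h | h
      · obtain ⟨k, rfl⟩ := Nat.exists_eq_add_of_le' h
        rw [show k + o + 1 - o = k + 1 by omega, Finset.sum_range_succ M k]
        rw [Nat.add_sub_cancel] at ih
        have := h2 k
        omega
      · rw [show N + 1 - o = N - o by omega]
        have := h1 N
        omega
  have h3 := key N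
  rw [← Finset.sum_range_add_sum_Ico M (Nat.sub_le N o)] at h3
  have h4 : ∑ k ∈ Finset.Ico (N - o) N, M k ≤ _ :=
    Finset.sum_le_card_nsmul (Finset.Ico (N - o) N) M (M N) fun k hk =>
      hM (Finset.mem_Ico.1 hk).2.le
  rw [Nat.card_Ico, smul_eq_mul] at h4
  have h5 : (N - (N - o)) * M N ≤ o * M N := Nat.mul_le_mul_right _ (by omega)
  omega

/-- the multiplicity of a hypersurface is at most the order of the equation -/
theorem cl_hyp_le [IsLocalRing A] [IsNoetherianRing A] {h : ℕ} (hm : Gen (maximalIdeal A) (h + 1))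
    {f : A} {o : ℕ} (hf : f ∉ maximalIdeal A ^ (o + 1)) :
    ∃ a : ℕ → ℝ, Lim h a o ∧ ∀ N, cl (Ideal.span {f} ⊔ maximalIdeal A ^ N) ≤ a N := by
  classical
  refine ⟨fun N => o * ((h + 1).multichoose N : ℝ), by simpa using lim_multichoose.const_mul (o : ℝ),
    fun N => ?_⟩
  by_cases hu : IsUnit f
  · simp only [Ideal.span_singleton_eq_top.2 hu, top_sup_eq, cl, rl_self, ENat.toNat_zero,
      Nat.cast_zero]
    positivity
  have hex : ∃ n, f ∉ maximalIdeal A ^ (n + 1) := ⟨o, hf⟩
  have o1 := Nat.find_spec hex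
  have o2 : Nat.find hex ≤ o := Nat.find_min' hex hf
  have o3 : f ∈ maximalIdeal A ^ Nat.find hex := by
    rcases hn : Nat.find hex with _ | n
    · simp
    · exact not_not.1 (Nat.find_min hex (by omega))
  generalize Nat.find hex = n at o1 o2 o3
  obtain ⟨z, hz⟩ := hm
  obtain ⟨F, hF, e⟩ := cntEv_surj z (I := ⊥) (v := 1) (k := n) f (by simpa [← hz] using o3)
  rw [Ideal.bot_mul, Ideal.mem_bot, sub_eq_zero] at e
  obtain ⟨μ, hμ⟩ : ∃ μ, IsUnit (F.coeff μ) := by
    by_contra hc
    have := cntEv_mem z (I := maximalIdeal A) (v := 1) (fun a ha => by simpa using ha) hF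
      (mem_cntM.2 (MvPolynomial.ext _ _ fun μ => by
        rw [MvPolynomial.coeff_map, MvPolynomial.coeff_zero, residue_eq_zero_iff]
        exact fun a => hc ⟨μ, a⟩))
    rw [← e, ← hz, ← pow_succ'] at this
    exact o1 this
  have hπ := Ideal.Quotient.mk_surjective (I := Ideal.span {f})
  have : Nontrivial (A ⧸ Ideal.span {f}) :=
    Ideal.Quotient.nontrivial_iff.2 (mt Ideal.span_singleton_eq_top.1 hu)
  have := IsLocalRing.of_surjective' _ hπ
  set π := Ideal.Quotient.mk (Ideal.span {f}) with hπd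
  have hz' : maximalIdeal (A ⧸ Ideal.span {f}) = Ideal.span (Set.range fun i => π (z i)) := by
    rw [← map_max_surj hπ, hz, Ideal.map_span, ← Set.range_comp]; rfl
  have e1 := cl_map_surj hπ (maximalIdeal A ^ N)
  rw [Ideal.mk_ker, Ideal.map_pow, map_max_surj hπ] at e1
  have e2 := red_tele (q := ⊥) (b := maximalIdeal (A ⧸ Ideal.span {f})) ⟨1, by simp⟩ N
  simp only [bot_sup_eq] at e2
  have hv : ∀ a ∈ maximalIdeal (A ⧸ Ideal.span {f}), a * 1 ∈ maximalIdeal (A ⧸ Ideal.span {f}) :=
    fun a ha => by simpa using ha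
  have s1 := step_le (fun i => π (z i)) hv
  have s2 := step_le_of_rel (fun i => π (z i)) hv (F.map π) (MvPolynomial.IsHomogeneous.map hF π) μ
    (by rw [MvPolynomial.coeff_map]; exact hμ.map π) (by
      have : MvPolynomial.eval (fun i => π (z i)) (F.map π) = π f := by
        refine Eq.trans ?_ (congrArg π e.symm)
        rw [cntEv_apply, one_mul, MvPolynomial.eval_map, MvPolynomial.eval,
          MvPolynomial.map_eval₂Hom]
        rfl
      rw [this, Ideal.Quotient.eq_zero_iff_mem.2 (Ideal.mem_span_singleton_self f), mul_zero]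
      exact zero_mem _)
  simp only [← hz', Ideal.span_singleton_one, sup_top_eq, Ideal.top_mul, ← pow_succ'] at s1 s2
  have s3 := locH_sum (M := (h + 1).multichoose) (o := n)
    (c := fun k => (rl (maximalIdeal (A ⧸ Ideal.span {f}) ^ (k + 1))
      (maximalIdeal (A ⧸ Ideal.span {f}) ^ k)).toNat)
    (monotone_nat_of_le_succ fun k => by rw [Nat.multichoose_succ_succ]; omega)
    (fun k => ENat.toNat_le_of_le_natCast (s1 k)) (fun k => by
      obtain ⟨x, hx⟩ := ENat.ne_top_iff_exists.1 (ne_top_of_le_ne_top (ENat.natCast_ne_top _) (s1 (k + n)))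
      have := s2 k
      rw [← hx] at this ⊢
      exact_mod_cast this) N
  rw [← e1, ← e2]
  beta_reduce
  exact_mod_cast s3.trans (Nat.mul_le_mul_right _ o2)

/-- two steps up from a domain with `h + 1` parameters -/
theorem lim_zero_two [IsLocalRing A] [IsNoetherianRing A] [IsDomain A] {h : ℕ}
    (hm : Gen (maximalIdeal A) (h + 1)) {q q' : Ideal A} (hq : q.IsPrime) (hq0 : q ≠ ⊥)
    (hlt : q < q') : Lim h (fun N => cl (q' ⊔ maximalIdeal A ^ N)) 0 := by
  by_cases ht : q' = ⊤
  · simpa [ht, cl, rl_self] using lim_zero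
  obtain ⟨W, a1, a2, a3⟩ := exists_sop_of_lt (p := ⊥) hq.ne_top (bot_lt_iff_ne_bot.2 hq0) hm le_rfl
    ⟨1, by simp⟩
  obtain _ | u := h
  · obtain ⟨w, rfl⟩ := a1
    obtain ⟨c, hc⟩ := a3
    rw [Set.range_eq_empty, Ideal.span_empty, sup_bot_eq] at hc
    exact absurd ((le_maximalIdeal ht).trans (hq.le_of_pow_le hc)) hlt.not_ge
  obtain ⟨W', b1, b2, b3⟩ := exists_sop_of_lt ht hlt a1 a2 a3
  exact lim_zero_of_small u.lt_succ_self b1 b2 b3 _ 1 fun N =>
    le_sup_of_le_right (Ideal.pow_le_pow_right (by omega))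

variable [Algebra A S]

theorem exists_rank_mod [Module.Finite A S] (q : Ideal S) [q.IsPrime] :
    ∃ (ρ : ℕ) (v : Fin ρ → S) (g : A), g ∉ q.comap (algebraMap A S) ∧
      (∀ c : Fin ρ → A, ∑ a, c a • v a ∈ q → ∀ a, c a ∈ q.comap (algebraMap A S)) ∧
      ∀ y : S, ∃ w ∈ Submodule.span A (Set.range v), g • y - w ∈ q := by
  have : IsScalarTower A (A ⧸ q.comap (algebraMap A S)) (S ⧸ q) :=
    IsScalarTower.of_algebraMap_eq fun _ => rfl
  have : Module.Finite (A ⧸ q.comap (algebraMap A S)) (S ⧸ q) :=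
    Module.Finite.of_restrictScalars_finite A _ _
  obtain ⟨ρ, v, g, h1, h2, h3⟩ := exists_rank (A := A ⧸ q.comap (algebraMap A S)) (S ⧸ q)
  obtain ⟨g, rfl⟩ := Ideal.Quotient.mk_surjective g
  choose u hu using fun a => Ideal.Quotient.mk_surjective (v a)
  have key : ∀ (a : A) (y : S), Ideal.Quotient.mk q (a • y) =
      Ideal.Quotient.mk (q.comap (algebraMap A S)) a • Ideal.Quotient.mk q y := fun a y => by
    rw [Algebra.smul_def, Algebra.smul_def, map_mul]; rfl
  refine ⟨ρ, u, g, fun a => h1 (Ideal.Quotient.eq_zero_iff_mem.2 a), fun c hc a =>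
    Ideal.Quotient.eq_zero_iff_mem.1 (Fintype.linearIndependent_iff.1 h2
      (fun a => Ideal.Quotient.mk _ (c a)) ?_ a), fun y => ?_⟩
  · rw [← Ideal.Quotient.eq_zero_iff_mem, map_sum] at hc
    simpa only [key, hu] using hc
  · obtain ⟨c, hc⟩ := (Submodule.mem_span_range_iff_exists_fun _).1 (h3 (Ideal.Quotient.mk q y))
    choose c' hc' using fun a => Ideal.Quotient.mk_surjective (c a)
    refine ⟨∑ a, c' a • u a, (Submodule.mem_span_range_iff_exists_fun _).2 ⟨c', rfl⟩, ?_⟩
    rw [← Ideal.Quotient.eq, map_sum]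
    simp only [key, hu, hc', hc]

theorem rl_ub' (I : Ideal A) (K : Ideal S) (hIK : I.map (algebraMap A S) ≤ K) {ι κ : Type*}
    [Fintype ι] [Fintype κ] (s : ι → S) (v : κ → S) (g : A)
    (hs : ∀ y : S, ∃ w ∈ Submodule.span A (Set.range s), y - w ∈ K)
    (hg : ∀ a, ∃ w ∈ Submodule.span A (Set.range v), g • s a - w ∈ K) :
    rl K (⊤ : Ideal S) ≤ Fintype.card κ * rl I (⊤ : Ideal A) +
      Fintype.card ι * rl (I ⊔ Ideal.span {g}) (⊤ : Ideal A) := by
  have h1 : ∀ a ∈ I, ∀ y : S, a • y ∈ K.restrictScalars A := fun a ha y => by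
    rw [Algebra.smul_def]
    exact K.mul_mem_right _ (hIK (Ideal.mem_map_of_mem _ ha))
  refine (rl_restrict_le (A := A) K).trans ?_
  rw [rl_add (le_sup_left (b := Submodule.span A (Set.range v))) le_top, rl_sup_right]
  refine add_le_add (rank_span_le _ _ _ fun i a ha => h1 a ha _)
    (le_trans (rl_congr inf_le_left fun y _ => ?_) (rank_span_le _ s _ fun i a ha => ?_))
  · obtain ⟨w, hw, hy⟩ := hs y
    exact Submodule.mem_sup.2 ⟨w, hw, y - w, Submodule.mem_sup_left hy, add_sub_cancel _ _⟩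
  · obtain ⟨b, hb, z, hz, rfl⟩ := Submodule.mem_sup.1 ha
    obtain ⟨c, rfl⟩ := Ideal.mem_span_singleton'.1 hz
    obtain ⟨w, hw, hy⟩ := hg i
    rw [add_smul, mul_smul]
    exact add_mem (Submodule.mem_sup_left (h1 b hb _)) (Submodule.smul_mem _ _
      (Submodule.mem_sup.2 ⟨g • s i - w, hy, w, hw, sub_add_cancel _ _⟩))

theorem lim_lb' [IsLocalRing A] [IsNoetherianRing A] [IsLocalRing S] [Module.Finite A S]
    (hm : (maximalIdeal A).map (algebraMap A S) ≤ maximalIdeal S)
    (hres : ∀ y : S, ∃ a : A, y - algebraMap A S a ∈ maximalIdeal S) (q : Ideal S) (X : Ideal A)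
    (hX : Prim (q ⊔ X.map (algebraMap A S))) {κ : Type*} [Fintype κ] (v : κ → S)
    (hv : ∀ c : κ → A, ∑ a, c a • v a ∈ q → ∀ a, c a ∈ q.comap (algebraMap A S)) {d : ℕ}
    {o e : ℝ} (ho : Lim d (fun N => cl (q.comap (algebraMap A S) ⊔ X ^ N)) o)
    (he : Lim d (fun N => cl (q ⊔ X.map (algebraMap A S) ^ N)) e) :
    (Fintype.card κ : ℝ) * o ≤ e := by
  classical
  have : IsNoetherianRing S := Algebra.FiniteType.isNoetherianRing A S
  set π := (Ideal.Quotient.mkₐ A q).toLinearMap with hπ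
  obtain ⟨k, hk⟩ := X.exists_pow_inf_eq_pow_smul (Submodule.span A (Set.range fun a => π (v a)))
  refine ((ho.shift_sub k).const_mul (Fintype.card κ)).le he
    (Filter.eventually_atTop.2 ⟨k, fun N hN => ?_⟩)
  have a1 := rl_ne_top_of_prim (hX.sup_pow N)
  have a2 : Fintype.card κ * rl (q.comap (algebraMap A S) ⊔ X ^ (N - k)) (⊤ : Ideal A) ≤
      rl ((q ⊔ X.map (algebraMap A S) ^ N).restrictScalars A) (⊤ : Submodule A S) := by
    rw [← rank_pi]
    refine rl_le_of_inj (Fintype.linearCombination A v) (fun _ _ => Submodule.mem_sup_left trivial)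
      fun x _ hx i _ => ?_
    have c1 : ∀ x : κ → A, π (Fintype.linearCombination A v x) =
        Fintype.linearCombination A (fun a => π (v a)) x := fun x => by
      simp only [Fintype.linearCombination_apply, map_sum, map_smul]
    have b0 : π (Fintype.linearCombination A v x) ∈ (X ^ N • ⊤ : Submodule A (S ⧸ q)) := by
      obtain ⟨y, hy, z, hz, e⟩ := Submodule.mem_sup.1 hx
      rw [← e, map_add, show π y = 0 from Ideal.Quotient.eq_zero_iff_mem.2 hy, zero_add]
      rw [← Ideal.map_pow] at hz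
      have hz' : z ∈ (X ^ N • ⊤ : Submodule A S) := by rwa [Ideal.smul_top_eq_map]
      have := Submodule.mem_map_of_mem (f := π) hz'
      rw [Submodule.map_smul''] at this
      exact Submodule.smul_mono le_rfl le_top this
    have b1 : π (Fintype.linearCombination A v x) ∈ (X ^ (N - k) • ⊤ :
        Submodule A (κ → A)).map (Fintype.linearCombination A fun a => π (v a)) := by
      rw [Submodule.map_smul'', Submodule.map_top, Fintype.range_linearCombination]
      refine Submodule.smul_mono le_rfl inf_le_right ((hk N hN).le ⟨b0, ?_⟩)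
      rw [← Fintype.range_linearCombination, c1]
      exact ⟨x, rfl⟩
    obtain ⟨y, hy, e⟩ := b1
    rw [← c1, eq_comm, ← sub_eq_zero, ← map_sub, ← map_sub] at e
    exact Submodule.mem_sup.2 ⟨x i - y i, hv (x - y) (Ideal.Quotient.eq_zero_iff_mem.1 e) i, y i,
      (kos_mem_smul_top _ _).1 hy i, sub_add_cancel _ _⟩
  rw [rl_restrict_eq hm hres a1] at a2
  have a4 := ENat.toNat_le_toNat a2 a1
  rw [ENat.toNat_mul, ENat.toNat_natCast] at a4
  unfold cl
  exact_mod_cast a4

end Vale.Agent.P202
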