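import Vale.Agent.P202.LocH
import Vale.Agent.P202.Loc
import Vale.Agent.P202.Ufd
import Vale.Agent.P202.DeltaX

/-! The localization inequality for one prime. -/

namespace Vale.Agent.P202

open IsLocalRing MvPowerSeries

theorem locP_ub {B S : Type*} [CommRing B] [IsNoetherianRing B] [CommRing S] [Algebra B S]
    [Module.Finite B S] (Q : Ideal S) [Q.IsPrime] (q : Ideal S) {ρ : ℕ} (v : Fin ρ → S) {g : B}
    (hv : ∀ y : S, ∃ w ∈ Submodule.span B (Set.range v), g • y - w ∈ q) : ∃ n : ℕ, ∀ N,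
      cl (q.map (algebraMap S (Localization.AtPrime Q)) ⊔
        (Q.comap (algebraMap B S)).map (algebraMap B (Localization.AtPrime Q)) ^ N) ≤
      ρ * cl ((q.comap (algebraMap B S)).map
          (algebraMap B (Localization.AtPrime (Q.comap (algebraMap B S)))) ⊔ maximalIdeal _ ^ N) +
        n * cl ((q.comap (algebraMap B S)).map
          (algebraMap B (Localization.AtPrime (Q.comap (algebraMap B S)))) ⊔
          Ideal.span {algebraMap B _ g} ⊔ maximalIdeal _ ^ N) := by
  set P := Q.comap (algebraMap B S) with hP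
  let A' := Localization.AtPrime P
  let S' := Localization.AtPrime Q
  let _ : Algebra A' S' := (Localization.localRingHom P Q (algebraMap B S) rfl).toAlgebra
  have : IsScalarTower B A' S' := IsScalarTower.of_algebraMap_eq fun x =>
    (Localization.localRingHom_to_map P Q (algebraMap B S) rfl x).symm
  have hmA : P.map (algebraMap B A') = maximalIdeal A' := Localization.AtPrime.map_eq_maximalIdeal
  obtain ⟨n, s, hs⟩ := Module.Finite.exists_fin (R := B) (M := S)
  refine ⟨n, fun N => ?_⟩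
  have a3 := rl_ub' (A := A') (S := S')
    ((q.comap (algebraMap B S)).map (algebraMap B A') ⊔ maximalIdeal A' ^ N)
    (q.map (algebraMap S S') ⊔ P.map (algebraMap B S') ^ N) (by
      rw [Ideal.map_sup, Ideal.map_pow, ← hmA, Ideal.map_map, Ideal.map_map,
        ← IsScalarTower.algebraMap_eq, IsScalarTower.algebraMap_eq B S S', ← Ideal.map_map]
      exact sup_le_sup_right (Ideal.map_mono Ideal.map_comap_le) _)
    (fun a => algebraMap S S' (s a)) (fun a => algebraMap S S' (v a)) (algebraMap B A' g)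
    (fun y => (surj_loc Q s hs N y).imp fun w hw => ⟨hw.1, Ideal.mem_sup_right hw.2⟩) fun a => by
      obtain ⟨w, hw, h1⟩ := hv (s a)
      obtain ⟨c, rfl⟩ := (Submodule.mem_span_range_iff_exists_fun B).1 hw
      refine ⟨∑ j, c j • algebraMap S S' (v j), sum_mem fun j _ => ?_, Ideal.mem_sup_left ?_⟩
      · rw [← algebraMap_smul A']
        exact Submodule.smul_mem _ _ (Submodule.subset_span ⟨j, rfl⟩)
      · have h2 : IsScalarTower.toAlgHom B S S' _ ∈ _ := Ideal.mem_map_of_mem (algebraMap S S') h1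
        simp only [map_sub, map_sum, map_smul, IsScalarTower.coe_toAlgHom'] at h2
        rwa [algebraMap_smul]
  rw [sup_right_comm] at a3
  obtain ⟨x, hx⟩ := ENat.ne_top_iff_exists.1 (rl_ne_top_of_prim (I :=
    (q.comap (algebraMap B S)).map (algebraMap B A') ⊔ maximalIdeal A' ^ N) ⟨N, le_sup_right⟩)
  obtain ⟨y, hy⟩ := ENat.ne_top_iff_exists.1 (rl_ne_top_of_prim (I :=
    (q.comap (algebraMap B S)).map (algebraMap B A') ⊔ Ideal.span {algebraMap B A' g} ⊔
      maximalIdeal A' ^ N) ⟨N, le_sup_right⟩)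
  rw [cl, cl, cl, ← hx, ← hy]
  rw [← hx, ← hy, Fintype.card_fin, Fintype.card_fin] at a3
  simp only [ENat.toNat_natCast]
  exact_mod_cast ENat.toNat_le_of_le_natCast (by exact_mod_cast a3)

theorem loc_prime {p : ℕ} [Fact p.Prime] {V : Type*} [CommRing V] [IsDomain V]
    [IsDiscreteValuationRing V] [IsAdicComplete (maximalIdeal V) V] (hV : PBase p V) {σ : Type}
    [Fintype σ] {S : Type*} [CommRing S] [IsLocalRing S] [IsNoetherianRing S]
    [Algebra (MvPowerSeries σ V) S] [Module.Finite (MvPowerSeries σ V) S]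
    (hm : (maximalIdeal _).map (algebraMap (MvPowerSeries σ V) S) ≤ maximalIdeal S)
    (hres : ∀ y : S, ∃ a : MvPowerSeries σ V, y - algebraMap _ S a ∈ maximalIdeal S)
    (hX : Prim ((Ideal.span (Set.range X)).map (algebraMap (MvPowerSeries σ V) S)))
    (Q : Ideal S) [Q.IsPrime] (hpQ : (p : S) ∈ Q) {h : ℕ}
    (hgen : Gen (maximalIdeal
      (Localization.AtPrime (Q.comap (algebraMap (MvPowerSeries σ V) S)))) (h + 1))
    {q : Ideal S} (hq : q.IsPrime) {μ : ℝ}
    (hμ : Lim (Fintype.card σ) (fun N => cl (q ⊔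
      (Ideal.span (Set.range X)).map (algebraMap (MvPowerSeries σ V) S) ^ N)) μ) :
    ∃ (a : ℕ → ℝ) (μ' : ℝ), Lim h a μ' ∧ μ' ≤ μ ∧ ∀ N,
      cl (q.map (algebraMap S (Localization.AtPrime Q)) ⊔
        (Q.comap (algebraMap (MvPowerSeries σ V) S)).map
          (algebraMap (MvPowerSeries σ V) (Localization.AtPrime Q)) ^ N) ≤ a N := by
  have μ0 := hμ.nonneg_cl
  by_cases hqQ : ¬ q ≤ Q
  · refine ⟨fun _ => 0, 0, lim_zero, μ0, fun N => ?_⟩
    obtain ⟨x, h1, h2⟩ := Set.not_subset.1 hqQ
    rw [Ideal.eq_top_of_isUnit_mem _ (Ideal.mem_map_of_mem _ h1)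
      (IsLocalization.map_units (Localization.AtPrime Q) (⟨x, h2⟩ : Q.primeCompl))]
    simp [cl, rl_self]
  rw [not_not] at hqQ
  have : IsDomain (MvPowerSeries σ V) := NoZeroDivisors.to_isDomain _
  have := hV.inf
  have := ufd_psV hV.max σ
  set P := Q.comap (algebraMap (MvPowerSeries σ V) S) with hP
  set 𝔭 := q.comap (algebraMap (MvPowerSeries σ V) S) with h𝔭
  have hle : 𝔭 ≤ P := Ideal.comap_mono hqQ
  have hX' := hX.mono (le_sup_right (a := q))
  obtain ⟨c, hc⟩ := prim_comap (algebraMap (MvPowerSeries σ V) S) hm q (fun y => by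
    obtain ⟨F, h1, h2⟩ := IsIntegral.of_finite (MvPowerSeries σ V) y
    exact ⟨F, h1, (show Polynomial.eval₂ _ y F = 0 from h2) ▸ zero_mem _⟩) hX'
  obtain ⟨E, hE, x, hx, e⟩ := Submodule.mem_sup.1 (hc (Ideal.pow_mem_pow (x := (p : MvPowerSeries σ V)) (by
    rw [maximalIdeal_psV' hV.max]
    exact Ideal.mem_sup_left (Ideal.mem_span_singleton_self _)) c))
  have hE0 : constantCoeff E ≠ 0 := by
    have := congrArg constantCoeff e
    rw [map_add, (psa_mem_span_range x).1 hx, add_zero, map_pow, map_natCast] at this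
    exact this ▸ pow_ne_zero _ (psv_ne hV.max)
  obtain ⟨l, l1, l2⟩ := UniqueFactorizationMonoid.exists_prime_factors E
    (fun a => hE0 (by rw [a, map_zero]))
  obtain ⟨f, f1, f2⟩ := (Ideal.IsPrime.multiset_prod_mem_iff_exists_mem (I := 𝔭) inferInstance l).1
    (Ideal.mem_of_dvd _ l2.symm.dvd hE)
  have f3 : constantCoeff f ≠ 0 :=
    ne_zero_of_dvd_ne_zero hE0 (map_dvd _ ((Multiset.dvd_prod f1).trans l2.dvd))
  have f4 := l1 f f1
  have f5 : Ideal.span {f} ≤ 𝔭 := (Ideal.span_singleton_le_iff_mem _).2 f2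
  have f6 := (Ideal.span_singleton_prime f4.ne_zero).2 f4
  have dj : Disjoint (P.primeCompl : Set (MvPowerSeries σ V)) (Ideal.span {f} : Ideal _) :=
    Set.disjoint_left.2 fun a h1 h2 => h1 (hle (f5 h2))
  have g1 := IsLocalization.isPrime_of_isPrime_disjoint P.primeCompl (Localization.AtPrime P) _ f6 dj
  have g2 : ∀ a, algebraMap _ (Localization.AtPrime P) a ∈
      (Ideal.span {f}).map (algebraMap _ (Localization.AtPrime P)) → a ∈ Ideal.span {f} :=
    fun a ha => (IsLocalization.under_map_of_isPrime_disjoint P.primeCompl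
      (Localization.AtPrime P) f6 dj).le ha
  have g3 : (Ideal.span {f}).map (algebraMap _ (Localization.AtPrime P)) ≠ ⊥ := fun a => by
    have := Ideal.mem_map_of_mem (algebraMap _ (Localization.AtPrime P))
      (Ideal.mem_span_singleton_self f)
    rw [a, Ideal.mem_bot, IsLocalization.to_map_eq_zero_iff _ P.primeCompl_le_nonZeroDivisors]
      at this
    exact f4.ne_zero this
  obtain ⟨ρ, v, g, r1, r2, r3⟩ := exists_rank_mod (A := MvPowerSeries σ V) q
  obtain ⟨n, hn⟩ := locP_ub Q q v r3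
  have z2 := lim_zero_two hgen g1 g3 (q' := 𝔭.map (algebraMap _ _) ⊔ Ideal.span {algebraMap _ _ g})
    (lt_of_le_not_ge (le_sup_of_le_left (Ideal.map_mono f5)) fun a =>
      r1 (f5 (g2 g (a (Ideal.mem_sup_right (Ideal.mem_span_singleton_self _))))))
  rcases f5.eq_or_lt with f7 | f7
  · have fm : f ∈ maximalIdeal _ := le_maximalIdeal f6.ne_top (Ideal.mem_span_singleton_self f)
    have k1 := lim_hyp hV.max fm f3
    have k2 := lim_lb' hm hres q _ hX' v r2 (f7 ▸ k1) hμ
    obtain ⟨o, ho⟩ := ENat.ne_top_iff_exists.1 (rl_ne_top_of_prim (prim_span_sup_X hV.max f3))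
    obtain ⟨a, a1, a2⟩ := cl_hyp_le hgen (f := algebraMap _ (Localization.AtPrime P) f) (o := o)
      fun a => by
        have := rl_span_sup_X hV.max f _ (zn hV P (by
          rw [hP, Ideal.mem_comap, map_natCast]; exact hpQ) _ f a)
        rw [← ho] at this
        exact absurd (by exact_mod_cast this) (Nat.not_succ_le_self o)
    refine ⟨_, _, (a1.const_mul ρ).add (z2.const_mul n), ?_, fun N => (hn N).trans ?_⟩
    · rw [← f7, cl, ← ho] at k2
      simpa using k2
    · refine add_le_add_left (mul_le_mul_of_nonneg_left (le_trans (le_of_eq ?_) (a2 N))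
        (Nat.cast_nonneg _)) _
      rw [← h𝔭, ← f7, Ideal.map_span, Set.image_singleton]
  · have z1 := lim_zero_two hgen g1 g3 (q' := 𝔭.map (algebraMap _ _))
      (lt_of_le_not_ge (Ideal.map_mono f5) fun a =>
        f7.not_ge fun y hy => g2 y (a (Ideal.mem_map_of_mem _ hy)))
    exact ⟨_, _, (z1.const_mul ρ).add (z2.const_mul n), by simpa using μ0, hn⟩

/-- generators of a prime of residue characteristic `p` after localization -/
theorem loc_gen_psV {p : ℕ} {V : Type*} [CommRing V] [IsDomain V] [IsDiscreteValuationRing V]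
    (hV : maximalIdeal V = Ideal.span {(p : V)}) {δ h : ℕ}
    (P : Ideal (MvPowerSeries (Fin δ ⊕ Fin h) V)) [P.IsPrime]
    (hp : (p : MvPowerSeries (Fin δ ⊕ Fin h) V) ∈ P)
    (hdim : (δ : WithBot ℕ∞) ≤ ringKrullDim (MvPowerSeries (Fin δ ⊕ Fin h) V ⧸ P))
    (hprim : Prim (P ⊔ Ideal.span (Set.range fun i => X (Sum.inl i)))) :
    Gen (maximalIdeal (Localization.AtPrime P)) (h + 1) := by
  set π := MvPowerSeries.map (σ := Fin δ ⊕ Fin h) (residue V) with hπ
  have hs : Function.Surjective π := fun f => by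
    choose c hc using fun d => residue_surjective (coeff d f)
    exact ⟨c, MvPowerSeries.ext fun d => hc d⟩
  have hk : RingHom.ker π = Ideal.span {(p : MvPowerSeries (Fin δ ⊕ Fin h) V)} :=
    (span_p_eq_ker hV).symm
  have hkP : RingHom.ker π ≤ P := hk ▸ (Ideal.span_singleton_le_iff_mem _).2 hp
  have := Ideal.map_isPrime_of_surjective hs hkP
  have hc : (P.map π).comap π = P := by
    rw [Ideal.comap_map_of_surjective π hs]; exact sup_eq_left.2 hkP
  obtain ⟨α, αC, αX⟩ := exists_ev (maximalIdeal (MvPowerSeries (Fin δ ⊕ Fin h) (ResidueField V)))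
    (C : ResidueField V →+* _) (fun i => X (Sum.inl i)) fun i => by
      rw [maximalIdeal_ps]; exact Ideal.subset_span ⟨_, rfl⟩
  have e2 : (maximalIdeal _).map α = Ideal.span (Set.range fun i => X (Sum.inl i)) := by
    rw [maximalIdeal_ps, Ideal.map_span, ← Set.range_comp]
    congr 2
    funext i
    exact αX i
  have e3 : (Ideal.span (Set.range fun i => X (Sum.inl i))).map π =
      Ideal.span (Set.range fun i : Fin δ => X (Sum.inl i)) := by
    rw [Ideal.map_span, ← Set.range_comp]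
    congr 2
    funext i
    exact map_X _ _
  have pr : Prim (P.map π ⊔ Ideal.span (Set.range fun i : Fin δ => X (Sum.inl i))) := by
    rw [← e3, ← Ideal.map_sup, prim_map_surj_iff hs]
    exact hprim.mono le_sup_right
  have le : Ideal.span (Set.range fun i : Fin δ => X (Sum.inl i)) ≤
      maximalIdeal (MvPowerSeries (Fin δ ⊕ Fin h) (ResidueField V)) := by
    rw [maximalIdeal_ps]
    exact Ideal.span_mono (by rintro _ ⟨i, rfl⟩; exact ⟨_, rfl⟩)
  have hd : ringKrullDim (_ ⧸ P.map π) = δ := by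
    refine le_antisymm (dim_le_of_sop ⟨_, rfl⟩ le pr) (hdim.trans (le_of_eq ?_))
    refine ringKrullDim_eq_of_ringEquiv ((Ideal.quotEquivOfEq ?_).trans
      (RingHom.quotientKerEquivOfSurjective (f := (Ideal.Quotient.mk (P.map π)).comp π)
        (Ideal.Quotient.mk_surjective.comp hs)))
    rw [← RingHom.comap_ker, Ideal.mk_ker, hc]
  obtain ⟨z, z1, z2⟩ := loc_ps (ResidueField V) α αC αX (P.map π)
    (loc_inj α _ hd (e2 ▸ le) (e2 ▸ pr)) pr
  choose w hw using fun i => hs (z i)
  refine ⟨algebraMap _ _ ∘ Fin.cons (p : MvPowerSeries (Fin δ ⊕ Fin h) V) w, ?_⟩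
  rw [Set.range_comp, ← Ideal.map_span, ← Localization.AtPrime.map_eq_maximalIdeal, kos_span_cons]
  refine le_antisymm (Ideal.map_le_iff_le_comap.2 fun f hf =>
    (IsLocalization.algebraMap_mem_map_algebraMap_iff P.primeCompl _ _ f).2 ?_)
    (Ideal.map_mono (sup_le (hk ▸ hkP) (Ideal.span_le.2 ?_)))
  · obtain ⟨s, s1, s2⟩ := z2 (π f) (Ideal.mem_map_of_mem _ hf)
    obtain ⟨s, rfl⟩ := hs s
    refine ⟨s, fun a => s1 (Ideal.mem_map_of_mem _ a), ?_⟩
    have : z = π ∘ w := funext fun i => (hw i).symm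
    rw [this, Set.range_comp, ← Ideal.map_span, ← map_mul, ← Ideal.mem_comap,
      Ideal.comap_map_of_surjective π hs, sup_comm] at s2
    exact hk ▸ s2
  · rintro _ ⟨i, rfl⟩
    exact hc.le (show π (w i) ∈ _ from hw i ▸ z1 i)

end Vale.Agent.P202
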