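import Vale.Agent.P202.Anchor
import Vale.Agent.P202.Ghost

/-! The twisted complex of the main lemma. -/

namespace Vale.Agent.P202

open IsLocalRing

variable {P : Type*} [CommRing P] {Λ : Type*} [CommRing Λ] [Algebra P Λ]

section
variable {σ : Type} [Fintype σ] [DecidableEq σ] {θ : σ → Λ} {u : Λˣ}

omit [DecidableEq σ] in
theorem mem_UU {k : ℤ} {b : σ → ℤ} {y : Λ} :
    y ∈ UU P θ u k b ↔ ((u ^ (-k) : Λˣ) : Λ) * y ∈ mon P θ (b + fun _ => k) := by
  constructor
  · rintro ⟨z, hz, rfl⟩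
    rwa [LinearMap.mulLeft_apply, ← mul_assoc, ← Units.val_mul, ← zpow_add, neg_add_cancel,
      zpow_zero, Units.val_one, one_mul]
  · intro h
    refine ⟨_, h, ?_⟩
    rw [LinearMap.mulLeft_apply, ← mul_assoc, ← Units.val_mul, ← zpow_add, add_neg_cancel,
      zpow_zero, Units.val_one, one_mul]

omit [DecidableEq σ] in
theorem UU_zero : UU P θ u 0 = mon P θ := by
  funext b
  ext y
  rw [mem_UU, neg_zero, zpow_zero, Units.val_one, one_mul]
  exact Iff.of_eq (congrArg (fun c => y ∈ mon P θ c) (add_zero b))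

omit [DecidableEq σ] in
theorem MainA_mono {k : ℤ} {b b' : σ → ℤ} (h : b ≤ b') : UU P θ u k b ≤ UU P θ u k b' :=
  Submodule.map_mono (mon_mono (add_le_add h le_rfl))

theorem MainA_pow {k : ℤ} {b : σ → ℤ} {y : Λ} (hy : y ∈ UU P θ u k b) (j : σ) (m : ℕ) :
    θ j ^ m * y ∈ UU P θ u k (b + Pi.single j (m : ℤ)) := by
  rw [mem_UU, mul_left_comm, add_right_comm]
  exact pow_mul_mem_mon (mem_UU.1 hy) j m

theorem MainA_surj {k : ℤ} {b : σ → ℤ} {j : σ} (hb : -1 ≤ b j + k) (m : ℕ) {y : Λ}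
    (hy : y ∈ UU P θ u k (b + Pi.single j (2 * (m : ℤ)))) :
    ∃ y1 ∈ UU P θ u k (b + Pi.single j (m : ℤ)), ∃ y2 ∈ UU P θ u k (b + Pi.single j (m : ℤ)),
      y = θ j ^ m * y1 - y2 := by
  obtain ⟨z, hz, e⟩ := Submodule.mem_map.1 hy
  rw [add_right_comm] at hz
  obtain ⟨y1, h1, y2, h2, e'⟩ := mon_surj (b := b + fun _ => k) hb m hz
  rw [add_right_comm] at h1 h2
  refine ⟨_, Submodule.mem_map_of_mem h1, _, Submodule.mem_map_of_mem h2, ?_⟩
  rw [← e, e']
  simp only [LinearMap.mulLeft_apply]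
  ring

theorem MainA_mem {J : Type*} {i : J → ℕ} {ν m : ℕ} {l : List σ} {b : σ → ℤ} {k n : ℤ}
    {z : J → Ix l → Λ} : z ∈ YY P θ u i ν m l b k n ↔ ∀ a e,
      ((dg l e : ℤ) = n + i a → z a e ∈ UU P θ u (k - (i a : ℤ) * ν) (b + sh m l e)) ∧
      ((dg l e : ℤ) ≠ n + i a → z a e = 0) := by
  rw [YY, mem_prof]
  exact forall_congr' fun a => mem_tw

theorem twOk_UU (k : ℤ) (m : ℕ) (l : List σ) : TwOk (tt P θ m) m l (UU P θ u k) := by
  exact fun j _ b => ⟨MainA_mono (le_add_of_nonneg_right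
    (Pi.single_nonneg.2 (Int.natCast_nonneg m))), fun x hx => MainA_pow hx j m⟩

end

variable {q : Ideal P} {s : ℕ} {x : Fin (s + 1) → P} {θ : Fin s → Λ} {u : Λˣ}

theorem MainA_succ (h : SplitData q x Λ θ u) {k : ℤ} {b : Fin s → ℤ}
    (hb : ∀ j, (s : ℤ) ≤ b j + k) {y : Λ} : y ∈ UU P θ u (k + 1) b ↔
      ((u ^ (-k) : Λˣ) : Λ) * y ∈ (q ⊔ Ideal.span (Set.range x)) • mon P θ (b + fun _ => k) := by
  rw [← h.map_u (fun j => by have := hb j; have := j.2; rw [Pi.add_apply]; omega), mem_UU,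
    neg_add_rev, zpow_add, Units.val_mul, mul_assoc, zpow_neg_one]
  have e : (b + fun _ => k + 1) = (b + fun _ => k) + fun _ => 1 := by
    funext j; simp [add_assoc]
  rw [e]
  constructor
  · exact fun hy => ⟨_, hy, by simp⟩
  · rintro ⟨z, hz, e⟩
    rw [← e]
    simpa using hz

theorem SplitData.UU_le (h : SplitData q x Λ θ u) {k k' : ℤ} (hk : k ≤ k') {b : Fin s → ℤ}
    (hb : ∀ j, (s : ℤ) ≤ b j + k) : UU P θ u k' b ≤ UU P θ u k b := by
  obtain ⟨n, rfl⟩ := Int.le.dest hk
  clear hk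
  induction n with
  | zero => simp
  | succ n ih =>
    refine le_trans (fun y hy => ?_) ih
    rw [Nat.cast_succ, ← add_assoc, MainA_succ h (fun j => by have := hb j; omega)] at hy
    exact mem_UU.2 (Submodule.smul_le_right hy)

theorem SplitData.smul_UU (h : SplitData q x Λ θ u) {n : ℕ} {r : P}
    (hr : r ∈ q ⊔ Ideal.span (Set.range x) ^ n) {k : ℤ} {b : Fin s → ℤ} {y : Λ}
    (hy : y ∈ UU P θ u k b) : r • y ∈ UU P θ u (k + n) b := by
  obtain ⟨a, ha, r', hr', e⟩ := Submodule.mem_sup.1 hr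
  rw [← e, add_smul, Algebra.smul_def a, h.kill a ha, zero_mul, zero_add]
  clear ha e hr r
  rename' r' => r, hr' => hr
  induction n generalizing r with
  | zero => simpa using Submodule.smul_mem _ r hy
  | succ n ih =>
    rw [pow_succ'] at hr
    induction hr using Submodule.mul_induction_on' with
    | mem_mul_mem a ha c hc =>
      have h1 := ih c hc
      rw [mul_smul, Nat.cast_succ, ← add_assoc]
      generalize c • y = z at h1
      induction ha using Submodule.span_induction with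
      | mem a ha =>
        obtain ⟨i, rfl⟩ := ha
        obtain ⟨w, hw, e⟩ := h.smul_mem (mem_UU.1 h1) i
        rw [mem_UU, neg_add_rev, zpow_add, Units.val_mul, mul_assoc, mul_smul_comm, e,
          zpow_neg_one, Units.inv_mul_cancel_left]
        exact mon_mono (fun j => by simp [add_assoc]) hw
      | zero => simp
      | add a a' _ _ ha ha' => rw [add_smul]; exact add_mem ha ha'
      | smul t a _ ha => rw [smul_eq_mul, mul_smul]; exact Submodule.smul_mem _ _ ha
    | add a _ a' _ ha ha' => rw [add_smul]; exact add_mem ha ha'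

/-- one step of the filtration is a piece -/
theorem SplitData.hh_step (h : SplitData q x Λ θ u) (m : ℕ) (l : List (Fin s)) (k : ℤ)
    {b : Fin s → ℤ} (hl : ∀ j, j ∈ l) (hb : ∀ j, (s : ℤ) ≤ b j + m + k) (n : ℤ) :
    hh (dd (tt P θ m) l) (tw m l (UU P θ u k) b) (tw m l (UU P θ u (k + 1)) b) n =
      hh (dd (tt P θ m) l) (tw m l (mon P θ) (b + fun _ => k))
        (tw m l (fun c => (q ⊔ Ideal.span (Set.range x)) • mon P θ c) (b + fun _ => k)) n := by
  have e1 : ∀ y : Λ, ((u ^ (-k) : Λˣ) : Λ) * (((u ^ k : Λˣ) : Λ) * y) = y := fun y => by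
    rw [← mul_assoc, ← Units.val_mul, ← zpow_add, neg_add_cancel, zpow_zero, Units.val_one,
      one_mul]
  refine hh_tw_transport (tt_comm θ m) (twOk_mon θ m l) (twOk_smul_mon θ _ m l)
    (fun e => Submodule.smul_le_right) (twOk_UU _ m l) (LinearMap.mulLeft P ((u ^ k : Λˣ) : Λ))
    (fun j y => mul_left_comm _ _ _) (fun e y hy => ?_) (fun e y _ => ?_) (fun e y hy => ?_) n
  · rwa [mem_UU, LinearMap.mulLeft_apply, e1, add_right_comm]
  · rw [MainA_succ h, LinearMap.mulLeft_apply, e1, add_right_comm]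
    intro j
    have h1 := hb j
    have h2 := sh_ge (m := m) e (hl j)
    rw [Pi.add_apply]
    omega
  · refine ⟨_, by rw [add_right_comm]; exact mem_UU.1 hy, ?_⟩
    rw [LinearMap.mulLeft_apply, ← mul_assoc, ← Units.val_mul, ← zpow_add, add_neg_cancel,
      zpow_zero, Units.val_one, one_mul, sub_self]
    exact Submodule.zero_mem _

/-- estimates for a window of the filtration -/
theorem SplitData.window (h : SplitData q x Λ θ u) {ρ : ℕ} {C : ℝ}
    (hp : PieceEst P θ (q ⊔ Ideal.span (Set.range x)) ρ C) (l : List (Fin s)) (hnd : l.Nodup)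
    (hl : ∀ j, j ∈ l) (B m N : ℕ) (k : ℤ) (b : Fin s → ℤ)
    (hb : ∀ j, (s : ℤ) ≤ b j + m + k ∧ b j + 2 * m + k + N ≤ B) :
    IsPair (dd (tt P θ m) l) (tw m l (UU P θ u k) b) (tw m l (UU P θ u (k + N)) b) ∧
    HFin (dd (tt P θ m) l) (tw m l (UU P θ u k) b) (tw m l (UU P θ u (k + N)) b) ∧
    (∀ n : ℤ, (∀ r : ℕ, r < N → n ≠ ((Finset.univ.filter fun j => b j + k + r < 0).card : ℤ)) →
      ((hh (dd (tt P θ m) l) (tw m l (UU P θ u k) b) (tw m l (UU P θ u (k + N)) b) n).toNat : ℝ) *
        ((B : ℝ) + 1) ≤ N * (C * ((B : ℝ) + 1) ^ s)) ∧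
    |(chi (dd (tt P θ m) l) (tw m l (UU P θ u k) b) (tw m l (UU P θ u (k + N)) b) : ℝ) -
        ρ * ∑ r ∈ Finset.range N, ∏ j, ((b j : ℝ) + k + r + 1)| * ((B : ℝ) + 1) ≤
      N * (C * ((B : ℝ) + 1) ^ s) := by
  have hpair : ∀ k1 k2 : ℤ, k ≤ k1 → k1 ≤ k2 →
      IsPair (dd (tt P θ m) l) (tw m l (UU P θ u k1) b) (tw m l (UU P θ u k2) b) := by
    intro k1 k2 h1 h2
    refine isPair_tw (tt_comm θ m) (twOk_UU _ m l) (twOk_UU _ m l) fun e => h.UU_le h2 fun j => ?_
    have h3 := (hb j).1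
    have h4 := sh_ge (m := m) e (hl j)
    rw [Pi.add_apply]
    omega
  refine ⟨hpair _ _ le_rfl (by omega), ?_⟩
  induction N with
  | zero =>
    have h0 : ∀ n, hh (dd (tt P θ m) l) (tw m l (UU P θ u k) b)
        (tw m l (UU P θ u (k + (0 : ℕ))) b) n = 0 := fun n => hh_of_le (by simp)
    refine ⟨fun n => by rw [h0]; exact ENat.zero_ne_top, fun n _ => by rw [h0]; simp, ?_⟩
    rw [chi_of_acyclic h0]
    simp
  | succ N ih =>
    obtain ⟨i1, i2, i3⟩ := ih fun j => by have := hb j; push_cast at this; omega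
    have hstep := h.hh_step m l (k + N) hl (b := b) fun j => by have := hb j; omega
    have hr : ∀ j, 0 ≤ (b + fun _ => k + N : Fin s → ℤ) j + m ∧
        (b + fun _ => k + N : Fin s → ℤ) j + 2 * m ≤ B := fun j => by
      have := hb j
      push_cast at this
      simp only [Pi.add_apply]
      omega
    have p1 := hpair k (k + N) le_rfl (by omega)
    have p2 := hpair (k + N) (k + N + 1) (by omega) (by omega)
    have p3 := hpair k (k + N + 1) le_rfl (by omega)
    have f2 : HFin (dd (tt P θ m) l) (tw m l (UU P θ u (k + N)) b)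
        (tw m l (UU P θ u (k + N + 1)) b) := fun n => by
      rw [hstep]
      exact ne_top_of_le_ne_top (ENat.sum_ne_top.2 fun _ _ => hp.fin _) (hh_tw_le n)
    rw [Nat.cast_succ, ← add_assoc]
    refine ⟨HFin.mid p1 p2 p3 i1 f2, fun n hn => ?_, ?_⟩
    · have h1 := ENat.toNat_le_toNat (hh_mid_le p1 p2 p3 n) (WithTop.add_ne_top.2 ⟨f2 n, i1 n⟩)
      rw [ENat.toNat_add (f2 n) (i1 n)] at h1
      have h2 := hp.hh l hnd hl B m _ hr n (by
        convert hn N (Nat.lt_succ_self N) using 4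
        simp [add_assoc])
      rw [← hstep, Fintype.card_fin] at h2
      have h3 := i2 n fun r hr => hn r (Nat.lt_succ_of_lt hr)
      refine (mul_le_mul_of_nonneg_right (Nat.cast_le.2 h1) (by positivity)).trans ?_
      push_cast
      linarith
    · have h2 := hp.chi l hnd hl B m _ hr
      rw [← chi_congr hstep, Fintype.card_fin] at h2
      rw [chi_add p1 p2 p3 i1 f2, Finset.sum_range_succ]
      push_cast
      rw [add_mul (N : ℝ), one_mul]
      refine le_trans ?_ (add_le_add i3 h2)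
      rw [← add_mul]
      refine mul_le_mul_of_nonneg_right (le_trans (le_of_eq ?_) (abs_add_le _ _)) (by positivity)
      congr 1
      simp only [Pi.add_apply, Int.cast_add, Int.cast_natCast, add_assoc]
      ring

variable {J : Type} [Fintype J] [DecidableEq J] {i : J → ℕ} {g : Matrix J J P}

section Tot
variable {M : Type*} [AddCommGroup M] [Module P M] {δ : M →ₗ[P] M}

omit [DecidableEq J] in
theorem MainA_act_act (g h : Matrix J J P) (v : J → M) : act g (act h v) = act (g * h) v := by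
  funext a
  simp only [act_apply, Matrix.mul_apply, Finset.smul_sum, Finset.sum_smul, smul_smul]
  exact Finset.sum_comm

omit [DecidableEq J] in
theorem MainA_act_ent {g : Matrix J J P} (hg : Ent g q) (hq : ∀ r ∈ q, ∀ v : M, r • v = 0)
    (v : J → M) : act g v = 0 := by
  funext a
  rw [act_apply]
  exact Finset.sum_eq_zero fun c _ => hq _ (hg a c) _

omit [DecidableEq J] in
theorem MainA_anti {h : Matrix J J P} (hh : ∀ a c, h a c ≠ 0 → (-1 : P) ^ i a + (-1) ^ i c = 0)
    (v : J → M) : tot g i δ (act h v) + act h (tot g i δ v) = act (g * h + h * g) v := by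
  funext a
  have e1 : tot g i δ v = act g v + fun c => ((-1 : P) ^ i c) • δ (v c) := rfl
  have e2 : act (g * h + h * g) v a = act (g * h) v a + act (h * g) v a := by
    simp only [act_apply, Matrix.add_apply, add_smul, Finset.sum_add_distrib]
  rw [Pi.add_apply, tot_apply, ← act_apply, MainA_act_act, e1, map_add, MainA_act_act, e2,
    Pi.add_apply, add_assoc, add_left_comm (_ • _), act_apply h, act_apply h, map_sum,
    Finset.smul_sum, ← Finset.sum_add_distrib, Finset.sum_eq_zero, add_zero]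
  intro c _
  by_cases h0 : h a c = 0
  · simp [h0]
  · rw [map_smul, smul_comm, ← smul_add, ← add_smul, hh a c h0, zero_smul, smul_zero]

theorem MainA_homotopy {h : Matrix J J P} {r : P} (hh : Deg' i h)
    (he : Ent (g * h + h * g - r • (1 : Matrix J J P)) q) (hq : ∀ r ∈ q, ∀ v : M, r • v = 0)
    (v : J → M) : tot g i δ (act h v) + act h (tot g i δ v) = r • v := by
  rw [MainA_anti fun a c h0 => by rw [hh a c h0, pow_succ]; ring]
  have h1 := MainA_act_ent he hq v
  funext a
  have h2 := congrFun h1 a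
  simp only [act_apply, Matrix.sub_apply, sub_smul, Finset.sum_sub_distrib, Matrix.smul_apply,
    Matrix.one_apply, smul_eq_mul, mul_ite, mul_one, mul_zero, ite_smul, zero_smul,
    Finset.sum_ite_eq, Finset.mem_univ, if_true, Pi.zero_apply, sub_eq_zero] at h2
  rw [act_apply, h2, Pi.smul_apply]

omit [DecidableEq J] in
theorem MainA_tot_tot (hd : Deg i g) (hsq : Ent (g * g) q) (hq : ∀ r ∈ q, ∀ v : M, r • v = 0)
    (hδ : ∀ v, δ (δ v) = 0) (v : J → M) : tot g i δ (tot g i δ v) = 0 := by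
  funext a
  have h1 := congrFun (MainA_act_ent hsq hq v) a
  rw [← MainA_act_act] at h1
  have e1 : tot g i δ v = act g v + fun c => ((-1 : P) ^ i c) • δ (v c) := rfl
  rw [tot_apply, ← act_apply, e1, map_add, Pi.add_apply, h1, Pi.add_apply, map_add, map_smul, hδ,
    smul_zero, add_zero, Pi.zero_apply, zero_add, act_apply, act_apply, map_sum, Finset.smul_sum,
    ← Finset.sum_add_distrib]
  refine Finset.sum_eq_zero fun c _ => ?_
  by_cases h0 : g a c = 0
  · simp [h0]
  · rw [map_smul, smul_comm ((-1 : P) ^ i a), ← smul_add, ← add_smul, ← hd a c h0, pow_succ,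
      mul_neg_one, neg_add_cancel, zero_smul, smul_zero]

end Tot

/-- cycles deep in the filtration are boundaries -/
theorem SplitData.ghost_YY [IsNoetherianRing P] (h : SplitData q x Λ θ u) :
    ∃ β : ℕ, ∀ {J : Type} [Fintype J] [DecidableEq J] (i : J → ℕ) (g : Matrix J J P) (ν M m : ℕ)
      (l : List (Fin s)), (∀ j, j ∈ l) → l.Nodup → Deg i g → (∀ a, i a ≤ s + 1) →
      Ent g (q ⊔ Ideal.span (Set.range x) ^ ν) → Ent (g * g) q → (∀ t, Null i g q (x t ^ M)) →
      ∀ (b : Fin s → ℤ) (k n : ℤ), (∀ j, (β : ℤ) + (s + 1) * ν ≤ b j + m + k) →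
      ∀ z ∈ YY P θ u i ν m l b (k + (M * (s + 1) ^ (2 * s + 2) : ℕ)) n,
        tot g i (dd (tt P θ m) l) z = 0 →
        ∃ w ∈ YY P θ u i ν m l b k (n - 1), z = tot g i (dd (tt P θ m) l) w := by
  obtain ⟨b0, hb0⟩ := mon_sv (P := P) θ
  refine ⟨max b0 s, ?_⟩
  intro J _ _ i g ν M m l hl hnd hd hi hent hsq hnull b k n hadm z hz hDz
  have hlen : l.length = s := by rw [Piece_length hnd hl, Fintype.card_fin]
  by_cases hn : (s : ℤ) < n
  · refine ⟨0, Submodule.zero_mem _, ?_⟩
    rw [map_zero]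
    funext a
    have := mem_prof.1 hz a
    rwa [tw_eq_bot (Or.inr (by omega)), Submodule.mem_bot] at this
  have hq : ∀ r ∈ q, ∀ v : Ix l → Λ, r • v = 0 := fun r hr v => by
    funext e
    rw [Pi.smul_apply, Algebra.smul_def, h.kill r hr, zero_mul, Pi.zero_apply]
  have hδ : ∀ (c : Λ) (v : Ix l → Λ), dd (tt P θ m) l (c • v) = c • dd (tt P θ m) l v :=
    fun c v => dd_comm (LinearMap.mulLeft P c) (fun j y => mul_left_comm _ _ _) l v
  have hτ : ∀ (c : Λ) (v : J → Ix l → Λ),
      tot g i (dd (tt P θ m) l) (c • v) = c • tot g i (dd (tt P θ m) l) v := by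
    intro c v
    funext a
    simp only [tot_apply, Pi.smul_apply, hδ, smul_add, Finset.smul_sum, smul_comm c]
  have hdeg : ∀ (b : Fin s → ℤ) (k : ℤ), (∀ j, ((max b0 s : ℕ) : ℤ) + (s + 1) * ν - m ≤ b j + k) →
      ∀ (a : J) (e : Ix l) (j : Fin s),
        ((max b0 s : ℕ) : ℤ) ≤ (b + sh m l e) j + (k - (i a : ℤ) * ν) := by
    intro b k hb a e j
    have h1 := hb j
    have h2 := sh_ge (m := m) e (hl j)
    have h3 : (i a : ℤ) * ν ≤ (s + 1) * ν :=
      mul_le_mul_of_nonneg_right (by exact_mod_cast hi a) (Int.natCast_nonneg ν)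
    rw [Pi.add_apply]
    omega
  refine ghost (tot g i (dd (tt P θ m) l)) (fun j => θ j ^ (s + (s + 1) * M))
    (YY P θ u i ν m l) (s + (s + 1) * M) M (((max b0 s : ℕ) : ℤ) + (s + 1) * ν - m) (-(s + 1))
    (MainA_tot_tot hd hsq hq (dd_dd (tt_comm θ m) l)) (fun j => hτ _) ?_ ?_ ?_ ?_ ?_ ?_ ?_ ?_
    (2 * s + 2) b k n (by push_cast; omega) (fun j => by have := hadm j; omega) z
    (by rwa [Fintype.card_fin]) hDz
  · intro b k n v hv
    refine mem_prof.2 fun a => ?_
    rw [tot_apply]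
    refine Submodule.add_mem _ (Submodule.sum_mem _ fun c _ => ?_) (Submodule.smul_mem _ _ ?_)
    · by_cases h0 : g a c = 0
      · rw [h0, zero_smul]; exact Submodule.zero_mem _
      have h1 : (i c : ℤ) = i a + 1 := by exact_mod_cast (hd a c h0).symm
      refine mem_tw.2 fun e => ⟨fun he => ?_, fun he => ?_⟩
      · have := h.smul_UU (hent a c) ((MainA_mem.1 hv c e).1 (by omega))
        rwa [show k - (i c : ℤ) * ν + ν = k - (i a : ℤ) * ν by rw [h1]; ring] at this
      · rw [Pi.smul_apply, (MainA_mem.1 hv c e).2 (by omega), smul_zero]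
    · rw [add_right_comm]
      exact tw_st (twOk_UU _ m l) (mem_prof.1 hv a)
  · intro b k n hn
    rw [eq_bot_iff]
    intro v hv
    rw [Submodule.mem_bot]
    funext a
    have := mem_prof.1 hv a
    have h1 := hi a
    rwa [tw_eq_bot (Or.inl (by omega)), Submodule.mem_bot] at this
  · intro b b' k n hb v hv
    exact MainA_mem.2 fun a e => ⟨fun he => MainA_mono (add_le_add hb le_rfl)
      ((MainA_mem.1 hv a e).1 he), (MainA_mem.1 hv a e).2⟩
  · intro b k n j v hv
    refine MainA_mem.2 fun a e => ⟨fun he => ?_, fun he => ?_⟩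
    · rw [add_right_comm]
      exact MainA_pow ((MainA_mem.1 hv a e).1 he) j _
    · change _ * v a e = 0
      rw [(MainA_mem.1 hv a e).2 he, mul_zero]
  · intro b k n hb v hv
    refine MainA_mem.2 fun a e => ⟨fun he => h.UU_le (by omega) (fun j => ?_)
      ((MainA_mem.1 hv a e).1 he), (MainA_mem.1 hv a e).2⟩
    have := hdeg b k hb a e j
    omega
  · intro b k n j hb y hy
    have key : ∀ (a : J) (e : Ix l), ∃ y1 y2 : Λ,
        (((dg l e : ℤ) = n + i a → y1 ∈ UU P θ u (k - (i a : ℤ) * ν)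
          (b + Pi.single j ((s + (s + 1) * M : ℕ) : ℤ) + sh m l e)) ∧
          ((dg l e : ℤ) ≠ n + i a → y1 = 0)) ∧
        (((dg l e : ℤ) = n + i a → y2 ∈ UU P θ u (k - (i a : ℤ) * ν)
          (b + Pi.single j ((s + (s + 1) * M : ℕ) : ℤ) + sh m l e)) ∧
          ((dg l e : ℤ) ≠ n + i a → y2 = 0)) ∧
        y a e = θ j ^ (s + (s + 1) * M) * y1 - y2 := by
      intro a e
      by_cases he : (dg l e : ℤ) = n + i a
      · have h1 := (MainA_mem.1 hy a e).1 he
        rw [add_right_comm] at h1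
        obtain ⟨y1, h2, y2, h3, h4⟩ := MainA_surj (by have := hdeg b k hb a e j; omega) _ h1
        rw [add_right_comm] at h2 h3
        exact ⟨y1, y2, ⟨fun _ => h2, fun h => absurd he h⟩, ⟨fun _ => h3, fun h => absurd he h⟩, h4⟩
      · exact ⟨0, 0, ⟨fun h => absurd h he, fun _ => rfl⟩, ⟨fun h => absurd h he, fun _ => rfl⟩,
          by simp [(MainA_mem.1 hy a e).2 he]⟩
    choose y1 y2 h1 h2 h3 using key
    exact ⟨y1, MainA_mem.2 h1, y2, MainA_mem.2 h2, funext fun a => funext fun e => h3 a e⟩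
  · intro b k n j hb y hy hy'
    refine MainA_mem.2 fun a e => ⟨fun he => ?_, (MainA_mem.1 hy a e).2⟩
    have h1 := (MainA_mem.1 hy a e).1 he
    have h2 : θ j ^ (s + (s + 1) * M) * y a e ∈ _ := (MainA_mem.1 hy' a e).1 he
    rw [add_right_comm, mem_UU, add_right_comm] at h1 h2
    rw [mul_left_comm] at h2
    refine mem_UU.2 (hb0 _ (fun j' => ?_) j _ _ h1 h2)
    have := hdeg b k hb a e j'
    rw [Pi.add_apply]
    omega
  · intro b k n ε hb z hz hDz
    obtain ⟨G, hG, eG⟩ := h.kill_pow M (y := ∏ j ∈ ε, θ j ^ (s + (s + 1) * M))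
      (Submodule.subset_span ⟨fun j => if j ∈ ε then s + (s + 1) * M else 0, fun j => by
        dsimp only
        split_ifs
        · push_cast; exact le_rfl
        · positivity, by simp [Finset.prod_ite_mem]⟩)
    choose H hH hH' using hnull
    let v : Fin (s + 1) → J → Ix l → Λ := fun t => (G t * ((u ^ (-(M : ℤ)) : Λˣ) : Λ)) • z
    have hv : ∀ t, v t ∈ YY P θ u i ν m l (b + fun _ => ((s + (s + 1) * M : ℕ) : ℤ)) k n := by
      intro t
      refine MainA_mem.2 fun a e => ⟨fun he => ?_, fun he => ?_⟩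
      · have h1 := mon_mul (hG t) (mem_UU.1 ((MainA_mem.1 hz a e).1 he))
        rw [mem_UU]
        refine mon_mono (fun j => ?_) (by
          convert h1 using 1
          change _ * (_ * z a e) = _
          rw [show -(k + M - (i a : ℤ) * ν) = -(k - (i a : ℤ) * ν) + -(M : ℤ) by ring, zpow_add,
            Units.val_mul]
          ring)
        simp only [Pi.add_apply]
        push_cast
        linarith
      · change _ * z a e = 0
        rw [(MainA_mem.1 hz a e).2 he, mul_zero]
    refine ⟨∑ t, act (H t) (v t), Submodule.sum_mem _ fun t _ => mem_prof.2 fun a => ?_, ?_⟩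
    · rw [act_apply]
      refine Submodule.sum_mem _ fun c _ => ?_
      by_cases h0 : H t a c = 0
      · rw [h0, zero_smul]; exact Submodule.zero_mem _
      have h1 : (i a : ℤ) = i c + 1 := by exact_mod_cast hH t a c h0
      refine Submodule.smul_mem _ _ (mem_tw.2 fun e => ⟨fun he => h.UU_le ?_ (fun j => ?_)
        ((MainA_mem.1 (hv t) c e).1 (by omega)), fun he => (MainA_mem.1 (hv t) c e).2 (by omega)⟩)
      · rw [h1, add_mul]; omega
      · have := hdeg b k hb a e j
        simp only [Pi.add_apply] at this ⊢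
        omega
    · rw [map_sum]
      have h1 : ∀ t, tot g i (dd (tt P θ m) l) (act (H t) (v t)) = x t ^ M • v t := fun t => by
        rw [← MainA_homotopy (hH t) (hH' t) hq (v t), hτ, hDz, smul_zero, map_zero, add_zero]
      simp only [h1, v, ← smul_assoc, ← smul_mul_assoc]
      rw [← Finset.sum_smul, ← Finset.sum_mul, ← eG, mul_right_comm, ← Units.val_pow_eq_pow_val,
        ← Units.val_mul, ← zpow_natCast, ← zpow_add, add_neg_cancel, zpow_zero, Units.val_one,
        one_mul]

end Vale.Agent.P202
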