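import Vale.Agent.P202.MatA

/-! Matrix complexes and their tensor products. -/

namespace Vale.Agent.P202

open IsLocalRing

variable {R : Type*} [CommRing R] {M : Type*} [AddCommGroup M] [Module R M]
  {M' : Type*} [AddCommGroup M'] [Module R M'] {J : Type*} [Fintype J]

variable {g : Matrix J J R} {i : J → ℕ}

variable [DecidableEq J]

theorem Null.mono {q q' : Ideal R} {r : R} (h : Null i g q r) (hq : q ≤ q') : Null i g q' r := by
  obtain ⟨h, h1, h2⟩ := h
  exact ⟨h, h1, fun a b => hq (h2 a b)⟩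

theorem Null.mul_left {q : Ideal R} {r : R} (h : Null i g q r) (s : R) : Null i g q (s * r) := by
  obtain ⟨h, h1, h2⟩ := h
  refine ⟨s • h, fun a b hab => h1 a b fun e => hab (by simp [e]), fun a b => ?_⟩
  have e : g * s • h + s • h * g - (s * r) • (1 : Matrix J J R) =
      s • (g * h + h * g - r • (1 : Matrix J J R)) := by
    simp only [Matrix.mul_smul, Matrix.smul_mul, smul_sub, smul_add, mul_smul]
  rw [e, Matrix.smul_apply, smul_eq_mul]
  exact q.mul_mem_left _ (h2 a b)

theorem Null.map {S : Type*} [CommRing S] (f : R →+* S) {q : Ideal R} {r : R}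
    (h : Null i g q r) : Null i (g.map f) (q.map f) (f r) := by
  obtain ⟨h, h1, h2⟩ := h
  refine ⟨h.map f, fun a b hab => h1 a b fun e => hab (by simp [e]), fun a b => ?_⟩
  have e : (g.map f * h.map f + h.map f * g.map f - f r • (1 : Matrix J J S)) a b =
      f ((g * h + h * g - r • (1 : Matrix J J R)) a b) := by
    simp only [Matrix.sub_apply, Matrix.add_apply, Matrix.mul_apply, Matrix.map_apply,
      Matrix.smul_apply, Matrix.one_apply, smul_eq_mul, map_sub, map_add, map_sum, map_mul]
    split_ifs <;> simp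
  rw [e]
  exact Ideal.mem_map_of_mem f (h2 a b)

omit [DecidableEq J] in
theorem mat_act_mul (g h : Matrix J J R) (v : J → M) : act (g * h) v = act g (act h v) := by
  funext a
  simp only [act_apply, Finset.smul_sum, smul_smul, Matrix.mul_apply, Finset.sum_smul]
  exact Finset.sum_comm

omit [DecidableEq J] in
theorem mat_act_mem {E : Matrix J J R} {A B : Submodule R M} {n m : ℤ}
    (hE : ∀ a b, E a b ≠ 0 → m + i a = n + i b) (hAB : ∀ a b, ∀ x ∈ A, E a b • x ∈ B)
    {v : J → M} (hv : v ∈ pf i (fun _ => A) n) : act E v ∈ pf i (fun _ => B) m := by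
  rw [mem_pf] at hv ⊢
  intro a
  rw [act_apply]
  refine ⟨fun h => sum_mem fun b _ => ?_, fun h => Finset.sum_eq_zero fun b _ => ?_⟩
  · by_cases h0 : E a b = 0
    · simp [h0]
    · exact hAB a b _ ((hv b).1 (hE a b h0 ▸ h))
  · by_cases h0 : E a b = 0
    · simp [h0]
    · rw [(hv b).2 (hE a b h0 ▸ h), smul_zero]

theorem mat_null_smul {q : Ideal R} (hd : Deg i g) {r : R} (hn : Null i g q r)
    {A A' : Submodule R M} (hq : q • A ≤ A') (n : ℤ) {v : J → M}
    (hv : v ∈ cyc (act g) (pf i fun _ => A) (pf i fun _ => A') n) :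
    r • v ∈ bnd (act g) (pf i fun _ => A) (pf i fun _ => A') n := by
  obtain ⟨h, h1, h2⟩ := hn
  have hdeg : ∀ a b, (g * h + h * g - r • (1 : Matrix J J R)) a b ≠ 0 → n + i a = n + i b := by
    intro a b hab
    by_contra hne
    have hne' : i a ≠ i b := fun e => hne (by rw [e])
    refine hab ?_
    have e1 : (g * h) a b = 0 := by
      rw [Matrix.mul_apply]
      refine Finset.sum_eq_zero fun c _ => ?_
      by_contra hc
      have := hd a c (left_ne_zero_of_mul hc)
      have := h1 c b (right_ne_zero_of_mul hc)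
      omega
    have e2 : (h * g) a b = 0 := by
      rw [Matrix.mul_apply]
      refine Finset.sum_eq_zero fun c _ => ?_
      by_contra hc
      have := h1 a c (left_ne_zero_of_mul hc)
      have := hd c b (right_ne_zero_of_mul hc)
      omega
    have e3 : a ≠ b := fun e => hne' (by rw [e])
    simp [e1, e2, e3]
  have m1 := mat_act_mem hdeg (fun a b x hx => hq (Submodule.smul_mem_smul (h2 a b) hx)) hv.1
  have m2 : act h v ∈ pf i (fun _ => A) (n - 1) :=
    mat_act_mem (fun a b hab => by rw [h1 a b hab]; push_cast; ring)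
      (fun a b x hx => A.smul_mem _ hx) hv.1
  have m3 : act h (act g v) ∈ pf i (fun _ => A') n :=
    mat_act_mem (n := n + 1) (fun a b hab => by rw [h1 a b hab]; push_cast; ring)
      (fun a b x hx => A'.smul_mem _ hx) hv.2
  refine cx_mem_bnd.2 ⟨_, m2, ?_⟩
  have e : r • v - act g (act h v) =
      act h (act g v) - act (g * h + h * g - r • (1 : Matrix J J R)) v := by
    rw [← mat_act_mul, ← mat_act_mul]
    funext a
    simp [act_apply, sub_smul, add_smul, Finset.sum_sub_distrib, Finset.sum_add_distrib,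
      Matrix.one_apply]
    abel
  rw [e]
  exact sub_mem m3 m1

/-- finite length cohomology from null-homotopies -/
theorem hfin_pf_of_null [IsLocalRing R] [IsNoetherianRing R] {q : Ideal R} (hd : Deg i g)
    {ι : Type*} [Finite ι] (x : ι → R) (hx : Prim (q ⊔ Ideal.span (Set.range x)))
    (hn : ∀ t, ∃ c, Null i g q (x t ^ c)) {A A' : Submodule R M} (hA : A.FG) (hq : q • A ≤ A') :
    HFin (act g) (pf i fun _ => A) (pf i fun _ => A') := by
  intro n
  set Z := cyc (act g) (pf i fun _ => A) (pf i fun _ => A') n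
  set B := bnd (act g) (pf i fun _ => A) (pf i fun _ => A') n
  have hZ : Z.FG := by
    refine (Submodule.fg_pi (p := fun _ : J => A) fun _ => hA).of_le fun v hv a _ => ?_
    have := mem_pf.1 hv.1 a
    by_cases h0 : n + i a = 0
    · exact this.1 h0
    · rw [this.2 h0]; exact zero_mem _
  have hrad : maximalIdeal R ≤ (B.colon (Z : Set (J → M))).radical := by
    obtain ⟨c, hc⟩ := hx
    refine le_trans (fun y hy => (⟨c, hc (Ideal.pow_mem_pow hy c)⟩ :
      y ∈ (q ⊔ Ideal.span (Set.range x)).radical)) (Ideal.radical_le_radical_iff.2 (sup_le ?_ ?_))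
    · refine le_trans (fun r hr => Submodule.mem_colon.2 fun v hv => ?_) Ideal.le_radical
      refine Submodule.mem_sup_right (mem_pf.2 fun a => ⟨fun h0 => ?_, fun h0 => ?_⟩)
      · exact hq (Submodule.smul_mem_smul hr ((mem_pf.1 hv.1 a).1 h0))
      · rw [Pi.smul_apply, (mem_pf.1 hv.1 a).2 h0, smul_zero]
    · rw [Ideal.span_le]
      rintro _ ⟨t, rfl⟩
      obtain ⟨c, hc⟩ := hn t
      exact ⟨c, Submodule.mem_colon.2 fun v hv => mat_null_smul hd hc hq n hv⟩
  obtain ⟨N, hN⟩ := Ideal.exists_pow_le_of_le_radical_of_fg hrad (IsNoetherian.noetherian _)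
  exact rl_ne_top (n := N) hZ (Submodule.smul_le.2 fun r hr v hv =>
    Submodule.mem_colon.1 (hN hr) v hv)

omit [DecidableEq J] in
/-- additivity of the Euler characteristic along a cyclic step -/
theorem chiI_step (hd : Deg i g) {I : Ideal R} (hsq : Ent (g * g) I) (r : R)
    (f1 : ∀ n, hI i g (I.colon {r}) n ≠ ⊤) (f2 : ∀ n, hI i g (I ⊔ Ideal.span {r}) n ≠ ⊤) :
    chiI i g I = chiI i g (I.colon {r}) + chiI i g (I ⊔ Ideal.span {r}) := by
  have q1 : I • (⊤ : Ideal R) ≤ I := by simp
  have q2 : I ≤ I.colon {r} := fun x hx => by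
    rw [Submodule.mem_colon_singleton]; exact I.mul_mem_right _ hx
  have p1 := isPair_pf (A := (⊤ : Ideal R)) (A' := I ⊔ Ideal.span {r}) hd hsq le_top
    (q1.trans le_sup_left)
  have p2 := isPair_pf (A := I ⊔ Ideal.span {r}) (A' := I) hd hsq le_sup_left
    ((Submodule.smul_mono le_rfl le_top).trans q1)
  have p3 := isPair_pf (A := (⊤ : Ideal R)) (A' := I) hd hsq le_top q1
  have tr := hh_pf_transport (A := (⊤ : Ideal R)) (A' := I.colon {r}) (B := I ⊔ Ideal.span {r})
    (B' := I) hd hsq le_top (q1.trans q2) le_sup_left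
    ((Submodule.smul_mono le_rfl le_top).trans q1) (LinearMap.toSpanSingleton R R r)
    (fun x _ => Ideal.mem_sup_right (Ideal.mul_mem_left _ _ (Ideal.mem_span_singleton_self r)))
    (fun x _ => by rw [Submodule.mem_colon_singleton]; rfl) fun y hy => by
      obtain ⟨a, ha, b, hb, rfl⟩ := Submodule.mem_sup.1 hy
      obtain ⟨c, rfl⟩ := Ideal.mem_span_singleton'.1 hb
      exact ⟨c, trivial, by simpa using ha⟩
  rw [chiI, chi_add p1 p2 p3 f2 fun n => tr n ▸ f1 n, chi_congr tr]
  rfl

omit [DecidableEq J] in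
theorem chiI_top : chiI i g ⊤ = 0 := by
  exact chi_of_acyclic fun _ => hh_of_le le_rfl

/-- the alternating sum of the ranks vanishes if a non-nilpotent element is null-homotopic -/
theorem euler_zero {q : Ideal R} (hd : Deg i g) (hsq : Ent (g * g) q) {r : R}
    (hn : Null i g q r) (hr : r ∉ q.radical) : ∑ a, (-1 : ℤ) ^ i a = 0 := by
  rw [Ideal.radical_eq_sInf, Ideal.mem_sInf] at hr
  push Not at hr
  obtain ⟨p, ⟨hqp, hp⟩, hrp⟩ := hr
  let F := FractionRing (R ⧸ p)
  let f : R →+* F := (algebraMap (R ⧸ p) F).comp (Ideal.Quotient.mk p)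
  have hf : ∀ x, f x = 0 ↔ x ∈ p := fun x => by
    simp [f, Ideal.Quotient.eq_zero_iff_mem]
  have hq : q.map f ≤ ⊥ := Ideal.map_le_iff_le_comap.2 fun x hx => (hf x).2 (hqp hx)
  have h1 : Null i (g.map f) ⊥ 1 := by
    have := ((hn.map f).mono hq).mul_left (f r)⁻¹
    rwa [inv_mul_cancel₀ fun e => hrp ((hf r).1 e)] at this
  have hd' : Deg i (g.map f) := fun a b hab => hd a b fun e => hab (by simp [e])
  have hsq' : Ent (g.map f * g.map f) ⊥ := fun a b => by
    rw [← Matrix.map_mul]; exact hq (Ideal.mem_map_of_mem f (hsq a b))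
  have hl : rl (⊥ : Submodule F F) ⊤ = 1 := by rw [rl_bot]; simp
  have h2 := (chi_pf_of_finite (A := (⊤ : Submodule F F)) (A' := ⊥) hd' hsq' bot_le (by simp)
    (by rw [hl]; exact ENat.one_ne_top)).2
  rw [chi_of_acyclic fun n => rl_of_le fun v hv => by
    simpa using mat_null_smul hd' h1 (by simp) n hv, hl] at h2
  simpa using h2.symm

section Tens
variable {K : Type*} [Fintype K] [DecidableEq K] {k : K → ℕ} {κ : Matrix K K R}

omit [Fintype J] [Fintype K] in
theorem mat_tens_apply (x y : K × J) : tens k κ g x y =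
    (if x.2 = y.2 then κ x.1 y.1 else 0) + if x.1 = y.1 then (-1) ^ k x.1 * g x.2 y.2 else 0 := by
  simp [tens, Matrix.one_apply, Matrix.diagonal_apply]

omit [Fintype J] [Fintype K] in
theorem deg_tens (hk : Deg k κ) (hd : Deg i g) :
    Deg (fun x : K × J => k x.1 + i x.2) (tens k κ g) := by
  intro x y h
  rw [mat_tens_apply] at h
  by_cases h1 : κ x.1 y.1 ≠ 0 ∧ x.2 = y.2
  · have := hk _ _ h1.1
    simp only [h1.2]; omega
  · have h2 : (if x.2 = y.2 then κ x.1 y.1 else 0) = 0 := by
      split_ifs with h3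
      · by_contra h4; exact h1 ⟨h4, h3⟩
      · rfl
    rw [h2, zero_add] at h
    split_ifs at h with h3
    · have := hd _ _ (right_ne_zero_of_mul h)
      simp only [h3]; omega
    · exact absurd rfl h

omit [Fintype J] [Fintype K] in
theorem ent_tens {I : Ideal R} (hk : Ent κ I) (hg : Ent g I) : Ent (tens k κ g) I := by
  intro x y
  rw [mat_tens_apply]
  refine add_mem ?_ ?_ <;> split_ifs
  exacts [hk _ _, zero_mem _, I.mul_mem_left _ (hg _ _), zero_mem _]

omit [Fintype J] [DecidableEq J] in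
theorem mat_sign {h : Matrix K K R} (hk : ∀ a b, h a b ≠ 0 → k a + 1 = k b ∨ k a = k b + 1) :
    h * Matrix.diagonal (fun a => (-1 : R) ^ k a) =
      -(Matrix.diagonal (fun a => (-1 : R) ^ k a) * h) := by
  ext a b
  rw [Matrix.neg_apply, Matrix.mul_diagonal, Matrix.diagonal_mul]
  by_cases h0 : h a b = 0
  · simp [h0]
  · rcases hk a b h0 with e | e
    · rw [← e]; ring
    · rw [e]; ring

omit [Fintype J] [DecidableEq J] in
theorem mat_sign_sq : Matrix.diagonal (fun a => (-1 : R) ^ k a) *
    Matrix.diagonal (fun a => (-1 : R) ^ k a) = 1 := by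
  rw [Matrix.diagonal_mul_diagonal, ← Matrix.diagonal_one]
  congr 1
  funext a
  rw [← mul_pow]; simp

omit [Fintype J] [DecidableEq J] [Fintype K] [DecidableEq K] in
theorem mat_neg_kron (A : Matrix K K R) (B : Matrix J J R) :
    Matrix.kroneckerMap (· * ·) (-A) B = -Matrix.kroneckerMap (· * ·) A B := by
  ext x y; simp

theorem sq_tens {q : Ideal R} (hk : Deg k κ) (hκ : Ent (κ * κ) q) (hsq : Ent (g * g) q) :
    Ent (tens k κ g * tens k κ g) q := by
  have e : tens k κ g * tens k κ g = Matrix.kroneckerMap (· * ·) (κ * κ) (1 : Matrix J J R) +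
      Matrix.kroneckerMap (· * ·) (1 : Matrix K K R) (g * g) := by
    simp only [tens, add_mul, mul_add, ← Matrix.mul_kronecker_mul, mul_one, one_mul, mat_sign_sq,
      mat_sign fun a b h => Or.inl (hk a b h), mat_neg_kron]
    abel
  intro x y
  rw [e]
  exact add_mem (q.mul_mem_right _ (hκ _ _)) (q.mul_mem_left _ (hsq _ _))

theorem null_tens_left {q : Ideal R} {r : R} (h : Null k κ q r) :
    Null (fun x : K × J => k x.1 + i x.2) (tens k κ g) q r := by
  obtain ⟨h, h1, h2⟩ := h
  refine ⟨Matrix.kroneckerMap (· * ·) h (1 : Matrix J J R), fun x y hxy => ?_, fun x y => ?_⟩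
  · have := h1 _ _ (left_ne_zero_of_mul hxy)
    have h3 : x.2 = y.2 := by
      by_contra h3; exact right_ne_zero_of_mul hxy (Matrix.one_apply_ne h3)
    simp only [h3]; omega
  · have e : tens k κ g * Matrix.kroneckerMap (· * ·) h (1 : Matrix J J R) +
        Matrix.kroneckerMap (· * ·) h (1 : Matrix J J R) * tens k κ g =
        Matrix.kroneckerMap (· * ·) (κ * h + h * κ) (1 : Matrix J J R) := by
      simp only [tens, add_mul, mul_add, ← Matrix.mul_kronecker_mul, mul_one, one_mul,
        mat_sign fun a b h => Or.inr (h1 a b h), mat_neg_kron, Matrix.add_kronecker]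
      abel
    rw [e, ← Matrix.one_kronecker_one, Matrix.sub_apply, Matrix.smul_apply,
      Matrix.kroneckerMap_apply, Matrix.kroneckerMap_apply, smul_eq_mul, ← mul_assoc, ← sub_mul]
    exact q.mul_mem_right _ (h2 _ _)

theorem null_tens_right {q : Ideal R} {r : R} (hk : Deg k κ) (h : Null i g q r) :
    Null (fun x : K × J => k x.1 + i x.2) (tens k κ g) q r := by
  obtain ⟨h, h1, h2⟩ := h
  refine ⟨Matrix.kroneckerMap (· * ·) (Matrix.diagonal fun a => (-1 : R) ^ k a) h,
    fun x y hxy => ?_, fun x y => ?_⟩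
  · have := h1 _ _ (right_ne_zero_of_mul hxy)
    have h3 : x.1 = y.1 := by
      by_contra h3; exact left_ne_zero_of_mul hxy (Matrix.diagonal_apply_ne _ h3)
    simp only [h3]; omega
  · have e : tens k κ g * Matrix.kroneckerMap (· * ·) (Matrix.diagonal fun a => (-1 : R) ^ k a) h +
        Matrix.kroneckerMap (· * ·) (Matrix.diagonal fun a => (-1 : R) ^ k a) h * tens k κ g =
        Matrix.kroneckerMap (· * ·) (1 : Matrix K K R) (g * h + h * g) := by
      simp only [tens, add_mul, mul_add, ← Matrix.mul_kronecker_mul, mul_one, one_mul, mat_sign_sq,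
        mat_sign fun a b h => Or.inl (hk a b h), mat_neg_kron, Matrix.kronecker_add]
      abel
    rw [e, ← Matrix.one_kronecker_one, Matrix.sub_apply, Matrix.smul_apply,
      Matrix.kroneckerMap_apply, Matrix.kroneckerMap_apply, smul_eq_mul, mul_left_comm, ← mul_sub]
    exact q.mul_mem_left _ (h2 _ _)

/-- tensoring with a resolution -/
theorem hI_tens_res {J : Type} [Fintype J] [DecidableEq J] {i : J → ℕ} {g : Matrix J J R}
    {a0 : J} {q c : Ideal R} (h : IsRes i g a0 q c) (hk : Deg k κ) (hκ : κ * κ = 0) (n : ℤ) :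
    hI (fun x : K × J => k x.1 + i x.2) (tens k κ g) q n = hI k κ c n := by
  have q1 : q • (⊤ : Ideal R) ≤ q := by simp
  have p3 := isPair_pf (A := (⊤ : Ideal R)) (A' := q) h.deg h.sq le_top q1
  set T : ℤ → Submodule R (J → R) := pf i fun _ => ⊤ with hT
  set Q : ℤ → Submodule R (J → R) := pf i fun _ => q with hQ
  set W : ℤ → Submodule R (J → R) := pf i fun a => if a = a0 then c else ⊤ with hW
  have ia0 : i a0 = 0 := (h.zero a0).2 rfl
  have hrow : ∀ v : J → R, act g v a0 ∈ c := fun v => by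
    rw [act_apply]; exact sum_mem fun b _ => c.mul_mem_right _ (h.row b)
  have w1 : ∀ n, Q n ≤ W n := fun n v hv => mem_pf.2 fun a => ⟨fun h0 => by
    split_ifs; exacts [h.le ((mem_pf.1 hv a).1 h0), trivial], (mem_pf.1 hv a).2⟩
  have w2 : ∀ n, W n ≤ T n := fun n v hv => mem_pf.2 fun a => ⟨fun _ => trivial, (mem_pf.1 hv a).2⟩
  have w3 : ∀ n, ∀ v ∈ W n, act g v ∈ W (n + 1) := fun n v hv => mem_pf.2 fun a => ⟨fun h0 => by
    split_ifs with ha
    · rw [ha]; exact hrow v
    · trivial, (mem_pf.1 (p3.st n v (w2 n hv)) a).2⟩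
  have mk : ∀ {A B : ℤ → Submodule R (J → R)}, IsPair (act g) A B →
      TotOk κ k (act g) (fun _ => A) fun _ => B := fun hp =>
    ⟨hk, fun _ => hp, fun _ _ _ _ hx => Submodule.smul_mem _ _ hx,
      fun _ _ _ _ hx => Submodule.smul_mem _ _ hx, fun _ _ _ _ _ => by simp [hκ]⟩
  have t1 := mk (p3.upper w1 w2 w3)
  have t2 := mk (p3.lower w1 w2 w3)
  have t3 := mk p3
  have e1 := hh_eq_of_sub_acyclic t1.isPair t2.isPair t3.isPair (fun n =>
    le_antisymm ((t2.hh_le n).trans (Finset.sum_eq_zero fun a _ => h.exact _).le) zero_le) n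
  have hκ' : Ent (κ * κ) (⊥ : Ideal R) := fun a b => by simp [hκ]
  have e2 := hh_transport (δ' := (act κ : (K → R) →ₗ[R] (K → R))) (K := pf k fun _ => ⊤)
    (K' := pf k fun _ => c) t1.isPair ((LinearMap.proj a0 : (J → R) →ₗ[R] R).compLeft K) 0 1
    (fun n x hx => mem_pf.2 fun a => ⟨fun _ => trivial, fun h0 =>
      (mem_pf.1 (mem_prof.1 hx a) a0).2 (by simpa [ia0] using h0)⟩)
    (fun n x hx => ?_) (fun n y hy => ?_) (fun n x hx => ?_)
    (isPair_pf (A := (⊤ : Ideal R)) hk hκ' le_top (by simp)).st' n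
  rotate_left
  · rw [mem_pf, mem_prof]
    refine forall_congr' fun a => ?_
    have hx' := mem_pf.1 (mem_prof.1 hx a)
    rw [hW, mem_pf]
    constructor
    · intro h1 b
      refine ⟨fun h0 => ?_, (hx' b).2⟩
      split_ifs with hb
      · subst hb; exact h1.1 (by simpa [ia0] using h0)
      · trivial
    · intro h1
      have := h1 a0
      simpa [ia0] using this
  · refine ⟨fun a => Pi.single a0 (y a), mem_prof.2 fun a => mem_pf.2 fun b =>
      ⟨fun _ => trivial, fun h0 => ?_⟩, ?_⟩
    · by_cases hb : b = a0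
      · subst hb
        simpa using (mem_pf.1 hy a).2 (by simpa [ia0] using h0)
      · simp [hb]
    · have : y - (LinearMap.proj a0 : (J → R) →ₗ[R] R).compLeft K
          (fun a => Pi.single a0 (y a)) = 0 := by funext a; simp
      rw [this]; exact zero_mem _
  · refine mem_pf.2 fun a => ?_
    have e : (act κ ((LinearMap.proj a0 : (J → R) →ₗ[R] R).compLeft K x) -
        ((1 : Rˣ) : R) • (LinearMap.proj a0 : (J → R) →ₗ[R] R).compLeft K (tot κ k (act g) x)) a =
        -((-1) ^ k a * act g (x a) a0) := by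
      simp [act_apply (g := κ), tot_apply]
    rw [e]
    refine ⟨fun _ => neg_mem (c.mul_mem_left _ (hrow _)), fun h0 => ?_⟩
    rw [(mem_pf.1 (p3.st _ _ (mem_prof.1 hx a)) a0).2 (by
      simp only [ia0]; push_cast; intro h1; exact h0 (by linarith))]
    simp
  let φ : (K → J → R) →ₗ[R] (K × J → R) :=
    LinearMap.pi fun x => LinearMap.proj x.2 ∘ₗ LinearMap.proj x.1
  have key : ∀ (A : Ideal R) (n : ℤ) (x : K → J → R),
      φ x ∈ pf (fun x : K × J => k x.1 + i x.2) (fun _ => A) (n + 0) ↔
        x ∈ prof k (fun _ => pf i fun _ => A) n := by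
    intro A n x
    simp only [mem_prof, mem_pf, Prod.forall, add_zero, Nat.cast_add, add_assoc]
    rfl
  have e3 := hh_transport (δ' := (act (tens k κ g) : (K × J → R) →ₗ[R] (K × J → R)))
    (K := pf (fun x : K × J => k x.1 + i x.2) fun _ => ⊤)
    (K' := pf (fun x : K × J => k x.1 + i x.2) fun _ => q) t3.isPair φ 0 1
    (fun n x hx => (key ⊤ n x).2 hx) (fun n x _ => key q n x) (fun n y hy => ?_)
    (fun n x hx => ?_) (isPair_pf (A := (⊤ : Ideal R)) (deg_tens hk h.deg)
      (sq_tens hk (fun a b => by simp [hκ]) h.sq) le_top q1).st' n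
  · rw [add_zero] at e2 e3
    rw [hI, hI, e3, e2, e1]
  · have e : φ (fun a b => y (a, b)) = y := rfl
    exact ⟨fun a b => y (a, b), (key ⊤ n _).1 hy, by rw [e, sub_self]; exact zero_mem _⟩
  · have e : act (tens k κ g) (φ x) = φ (tot κ k (act g) x) := by
      funext y
      simp [act_apply, tot_apply, φ, mat_tens_apply, add_mul, Finset.sum_add_distrib,
        Fintype.sum_prod_type, Finset.mul_sum, mul_assoc]
    simp [e]

end Tens

end Vale.Agent.P202
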