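import Vale.Agent.P202.Cx

/-! Matrix complexes and their tensor products. -/

namespace Vale.Agent.P202

open IsLocalRing

variable {R : Type*} [CommRing R] {M : Type*} [AddCommGroup M] [Module R M]
  {M' : Type*} [AddCommGroup M'] [Module R M'] {J : Type*} [Fintype J]

theorem act_apply (g : Matrix J J R) (v : J → M) (a : J) : act g v a = ∑ b, g a b • v b := by
  simp [act, LinearMap.sum_apply]

theorem tot_apply (g : Matrix J J R) (i : J → ℕ) (δ : M →ₗ[R] M) (v : J → M) (a : J) :
    tot g i δ v a = ∑ b, g a b • v b + ((-1 : R) ^ i a) • δ (v a) := by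
  simp [tot, act_apply]

theorem tot_zero (g : Matrix J J R) (i : J → ℕ) : tot g i (0 : M →ₗ[R] M) = act g := by
  refine LinearMap.ext fun v => funext fun a => ?_
  simp [tot_apply, act_apply]

omit [Fintype J] in
theorem mem_prof {i : J → ℕ} {V : J → ℤ → Submodule R M} {n : ℤ} {v : J → M} :
    v ∈ prof i V n ↔ ∀ a, v a ∈ V a (n + i a) := by
  simp [prof, Submodule.mem_pi]

omit [Fintype J] in
theorem mem_pf {i : J → ℕ} {A : J → Submodule R M} {n : ℤ} {v : J → M} :
    v ∈ pf i A n ↔ ∀ a, (n + i a = 0 → v a ∈ A a) ∧ (n + i a ≠ 0 → v a = 0) := by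
  rw [pf, mem_prof]
  refine forall_congr' fun a => ?_
  by_cases h : n + i a = 0 <;> simp [conc, h]

theorem isPair_conc {A A' : Submodule R M} (h : A' ≤ A) : IsPair 0 (conc A) (conc A') := by
  refine ⟨fun n => ?_, fun n x _ => by simp, fun n x _ => by simp, fun n x _ => by simp, ?_⟩
  · unfold conc; split_ifs; exacts [h, le_rfl]
  · refine (Set.finite_singleton (0 : ℤ)).subset fun n hn => ?_
    by_contra h0
    have h1 : n ≠ 0 := h0
    exact hn (by simp [conc, h1])

theorem hh_conc (A A' : Submodule R M) (n : ℤ) :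
    hh 0 (conc A) (conc A') n = if n = 0 then rl A' A else 0 := by
  have e1 : bnd (0 : M →ₗ[R] M) (conc A) (conc A') n = conc A' n := by simp [bnd]
  have e2 : cyc (0 : M →ₗ[R] M) (conc A) (conc A') n = conc A n := by simp [cyc]
  rw [hh, e1, e2]
  unfold conc
  split_ifs
  exacts [rfl, rl_self _]

theorem chi_conc (A A' : Submodule R M) : chi 0 (conc A) (conc A') = ((rl A' A).toNat : ℤ) := by
  rw [chi, finsum_eq_single _ 0 fun n hn => by simp [hh_conc, hn]]
  simp [hh_conc]

/-- the data making `prof i V / prof i V'` a complex -/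
structure TotOk (g : Matrix J J R) (i : J → ℕ) (δ : M →ₗ[R] M) (V V' : J → ℤ → Submodule R M) :
    Prop where
  deg : Deg i g
  pair : ∀ a, IsPair δ (V a) (V' a)
  ent : ∀ a b n, ∀ x ∈ V b n, g a b • x ∈ V a n
  ent' : ∀ a b n, ∀ x ∈ V' b n, g a b • x ∈ V' a n
  sq : ∀ a c n, ∀ x ∈ V c n, (g * g) a c • x ∈ V' a n

variable {g : Matrix J J R} {i : J → ℕ} {δ : M →ₗ[R] M} {V V' : J → ℤ → Submodule R M}

theorem mata_st (hd : Deg i g) (hst : ∀ a n, ∀ x ∈ V a n, δ x ∈ V a (n + 1))
    (hent : ∀ a b n, ∀ x ∈ V b n, g a b • x ∈ V a n) (n : ℤ) (v : J → M) (hv : v ∈ prof i V n) :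
    tot g i δ v ∈ prof i V (n + 1) := by
  rw [mem_prof] at hv ⊢
  intro a
  rw [tot_apply]
  refine add_mem (sum_mem fun b _ => ?_) (Submodule.smul_mem _ _ ?_)
  · by_cases h0 : g a b = 0
    · simp [h0]
    · have e : n + 1 + i a = n + i b := by rw [← hd a b h0]; push_cast; ring
      rw [e]; exact hent a b _ _ (hv b)
  · have e : n + 1 + i a = n + i a + 1 := by ring
    rw [e]; exact hst a _ _ (hv a)

theorem mata_tot_tot (hd : Deg i g) (v : J → M) (a : J) :
    tot g i δ (tot g i δ v) a = ∑ c, (g * g) a c • v c + δ (δ (v a)) := by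
  have e1 : ∀ b, g a b • ((-1 : R) ^ i b) • δ (v b) = -(((-1 : R) ^ i a) • g a b • δ (v b)) := by
    intro b
    by_cases h0 : g a b = 0
    · simp [h0]
    · rw [← hd a b h0, pow_succ, smul_comm]; simp
  have e2 : ((-1 : R) ^ i a) • ((-1 : R) ^ i a) • δ (δ (v a)) = δ (δ (v a)) := by
    rw [smul_smul, ← mul_pow]; simp
  have e3 : ∑ b, g a b • ∑ c, g b c • v c = ∑ c, (g * g) a c • v c := by
    simp only [Finset.smul_sum, smul_smul, Matrix.mul_apply, Finset.sum_smul]
    exact Finset.sum_comm
  simp only [tot_apply, smul_add, Finset.sum_add_distrib, e1, map_add, map_sum, map_smul, e2, e3,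
    Finset.sum_neg_distrib, ← Finset.smul_sum]
  abel

theorem TotOk.isPair (h : TotOk g i δ V V') : IsPair (tot g i δ) (prof i V) (prof i V') := by
  refine ⟨fun n v hv => mem_prof.2 fun a => (h.pair a).le _ (mem_prof.1 hv a),
    mata_st h.deg (fun a => (h.pair a).st) h.ent, mata_st h.deg (fun a => (h.pair a).st') h.ent',
    fun n v hv => ?_, ?_⟩
  · rw [mem_prof] at hv ⊢
    intro a
    rw [mata_tot_tot h.deg]
    refine add_mem (sum_mem fun c _ => ?_) ?_
    · by_cases h0 : (g * g) a c = 0
      · simp [h0]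
      · rw [Matrix.mul_apply] at h0
        obtain ⟨b, -, hb⟩ := Finset.exists_ne_zero_of_sum_ne_zero h0
        have e : n + 1 + 1 + i a = n + i c := by
          rw [← h.deg b c (right_ne_zero_of_mul hb), ← h.deg a b (left_ne_zero_of_mul hb)]
          push_cast; ring
        rw [e]; exact h.sq a c _ _ (hv c)
    · have e : n + 1 + 1 + i a = n + i a + 1 + 1 := by ring
      rw [e]; exact (h.pair a).dd _ _ (hv a)
  · refine (Set.finite_iUnion fun a => ((h.pair a).bdd.preimage
      (f := fun n : ℤ => n + i a) (add_left_injective _).injOn)).subset fun n hn => ?_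
    by_contra hc
    simp only [Set.mem_iUnion, Set.mem_preimage, Set.mem_setOf_eq, not_exists, not_not] at hc
    exact hn fun v hv => mem_prof.2 fun a => hc a (mem_prof.1 hv a)

theorem mata_main (S : Finset J) : ∀ V : J → ℤ → Submodule R M, TotOk g i δ V V' →
    (∀ a ∉ S, V a = V' a) →
    (∀ n, hh (tot g i δ) (prof i V) (prof i V') n ≤ ∑ a ∈ S, hh δ (V a) (V' a) (n + i a)) ∧
    ((∀ a, HFin δ (V a) (V' a)) → HFin (tot g i δ) (prof i V) (prof i V') ∧
      chi (tot g i δ) (prof i V) (prof i V') = ∑ a ∈ S, (-1 : ℤ) ^ i a * chi δ (V a) (V' a)) := by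
  classical
  induction S using Finset.induction_on_max_value i with
  | empty =>
    intro V _ hS
    have e : V = V' := funext fun a => hS a (by simp)
    subst e
    have h0 : ∀ n, hh (tot g i δ) (prof i V) (prof i V) n = 0 := fun n => hh_of_le le_rfl
    exact ⟨fun n => by simp [h0], fun _ => ⟨fun n => by simp [h0], by simp [chi_of_acyclic h0]⟩⟩
  | insert a s has hmax ih =>
    intro V h hS
    let W : J → ℤ → Submodule R M := Function.update V a (V' a)
    have Wa : W a = V' a := Function.update_self ..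
    have Wb : ∀ b, b ≠ a → W b = V b := fun b hb => Function.update_of_ne hb ..
    have hWV : ∀ b n, W b n ≤ V b n := by
      intro b n
      by_cases hb : b = a
      · subst hb; rw [Wa]; exact (h.pair b).le n
      · rw [Wb b hb]
    have hV'W : ∀ b n, V' b n ≤ W b n := by
      intro b n
      by_cases hb : b = a
      · subst hb; rw [Wa]
      · rw [Wb b hb]; exact (h.pair b).le n
    have hWst : ∀ b n, ∀ x ∈ W b n, δ x ∈ W b (n + 1) := by
      intro b
      by_cases hb : b = a
      · subst hb; rw [Wa]; exact (h.pair b).st'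
      · rw [Wb b hb]; exact (h.pair b).st
    have hga : ∀ b n, ∀ x ∈ V b n, g a b • x ∈ V' a n := by
      intro b n x hx
      by_cases h0 : g a b = 0
      · simp [h0]
      · have e := h.deg a b h0
        have hb : b ∉ insert a s := by
          intro hb
          rcases Finset.mem_insert.1 hb with rfl | hb
          · omega
          · have := hmax b hb; omega
        rw [hS b hb] at hx
        exact h.ent' a b n x hx
    have hWent : ∀ c b n, ∀ x ∈ W b n, g c b • x ∈ W c n := by
      intro c b n x hx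
      by_cases hc : c = a
      · subst hc; rw [Wa]; exact hga b n x (hWV b n hx)
      · rw [Wb c hc]; exact h.ent c b n x (hWV b n hx)
    have t1 : TotOk g i δ V W :=
      ⟨h.deg, fun b => (h.pair b).upper (hV'W b) (hWV b) (hWst b), h.ent, hWent,
        fun c b n x hx => hV'W c n (h.sq c b n x hx)⟩
    have t2 : TotOk g i δ W V' :=
      ⟨h.deg, fun b => (h.pair b).lower (hV'W b) (hWV b) (hWst b), hWent, h.ent',
        fun c b n x hx => h.sq c b n x (hWV b n hx)⟩
    obtain ⟨ih1, ih2⟩ := ih W t2 fun b hb => by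
      by_cases hba : b = a
      · subst hba; exact Wa
      · rw [Wb b hba]; exact hS b (by simp [hba, hb])
    have hsW : ∀ b ∈ s, W b = V b := fun b hb => Wb b fun e => has (e ▸ hb)
    have tr : ∀ n, hh δ (V a) (V' a) (n + i a) = hh (tot g i δ) (prof i V) (prof i W) n := by
      refine hh_transport t1.isPair (LinearMap.proj a) (i a) ((-1) ^ i a)
        (fun n x hx => mem_prof.1 hx a) (fun n x hx => ?_) (fun n y hy => ?_) (fun n x hx => ?_)
        (h.pair a).st'
      · rw [mem_prof] at hx ⊢
        refine ⟨fun h1 b => ?_, fun h1 => by simpa [Wa] using h1 a⟩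
        by_cases hb : b = a
        · subst hb; rw [Wa]; exact h1
        · rw [Wb b hb]; exact hx b
      · refine ⟨Pi.single a y, mem_prof.2 fun b => ?_, by simp⟩
        by_cases hb : b = a
        · subst hb; simpa using hy
        · simp [hb]
      · have e2 : ((-1 : R) ^ i a) • ((-1 : R) ^ i a) • δ (x a) = δ (x a) := by
          rw [smul_smul, ← mul_pow]; simp
        simp only [LinearMap.proj_apply, tot_apply, Units.val_pow_eq_pow_val, Units.val_neg,
          Units.val_one, smul_add, e2, sub_add_cancel_right]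
        refine neg_mem (Submodule.smul_mem _ _ (sum_mem fun b _ => ?_))
        by_cases h0 : g a b = 0
        · simp [h0]
        · have e : n + i a + 1 = n + i b := by rw [← h.deg a b h0]; push_cast; ring
          rw [e]; exact hga b _ _ (mem_prof.1 hx b)
    refine ⟨fun n => ?_, fun hf => ?_⟩
    · refine (hh_mid_le t1.isPair t2.isPair h.isPair n).trans ?_
      rw [Finset.sum_insert has, add_comm, tr]
      refine add_le_add le_rfl ((ih1 n).trans (le_of_eq ?_))
      exact Finset.sum_congr rfl fun b hb => by rw [hsW b hb]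
    · have f1 : HFin (tot g i δ) (prof i V) (prof i W) := fun n => tr n ▸ hf a _
      obtain ⟨f2, c2⟩ := ih2 fun b => by
        by_cases hb : b = a
        · subst hb; rw [Wa]; exact fun n => by rw [hh_of_le le_rfl]; exact ENat.zero_ne_top
        · rw [Wb b hb]; exact hf b
      refine ⟨HFin.mid t1.isPair t2.isPair h.isPair f1 f2, ?_⟩
      rw [chi_add t1.isPair t2.isPair h.isPair f1 f2, c2, Finset.sum_insert has, add_comm,
        chi_of_shift (i a) tr, ← mul_assoc, Int.coe_negOnePow_natCast, ← mul_pow]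
      simp only [mul_neg, mul_one, neg_neg, one_pow, one_mul]
      congr 1
      exact Finset.sum_congr rfl fun b hb => by rw [hsW b hb]

theorem TotOk.hh_le (h : TotOk g i δ V V') (n : ℤ) :
    hh (tot g i δ) (prof i V) (prof i V') n ≤ ∑ a, hh δ (V a) (V' a) (n + i a) := by
  exact (mata_main Finset.univ V h (by simp)).1 n

theorem TotOk.chi_eq (h : TotOk g i δ V V') (hf : ∀ a, HFin δ (V a) (V' a)) :
    chi (tot g i δ) (prof i V) (prof i V') = ∑ a, (-1 : ℤ) ^ i a * chi δ (V a) (V' a) := by
  exact ((mata_main Finset.univ V h (by simp)).2 hf).2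

/-- pointwise transport -/
theorem TotOk.transport (h : TotOk g i δ V V') {δ' : M' →ₗ[R] M'} {K K' : J → ℤ → Submodule R M'}
    (h' : TotOk g i δ' K K') (φ : M →ₗ[R] M')
    (h1 : ∀ a n, ∀ x ∈ V a n, φ x ∈ K a n)
    (h2 : ∀ a n, ∀ x ∈ V a n, φ x ∈ K' a n ↔ x ∈ V' a n)
    (h3 : ∀ a n, ∀ y ∈ K a n, ∃ x ∈ V a n, y - φ x ∈ K' a n)
    (h4 : ∀ x, δ' (φ x) = φ (δ x)) (n : ℤ) :
    hh (tot g i δ') (prof i K) (prof i K') n = hh (tot g i δ) (prof i V) (prof i V') n := by
  have := hh_transport (δ' := tot g i δ') (K := prof i K) (K' := prof i K') h.isPair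
    (φ.compLeft J) 0 1 (fun n x hx => ?_) (fun n x hx => ?_) (fun n y hy => ?_)
    (fun n x hx => ?_) h'.isPair.st' n
  · simpa using this
  · rw [add_zero]; rw [mem_prof] at hx ⊢; exact fun a => h1 a _ _ (hx a)
  · rw [add_zero]; rw [mem_prof] at hx ⊢; rw [mem_prof]
    exact forall_congr' fun a => h2 a _ _ (hx a)
  · rw [add_zero] at hy ⊢
    choose x hx hxy using fun a => h3 a _ _ (mem_prof.1 hy a)
    exact ⟨x, mem_prof.2 hx, mem_prof.2 hxy⟩
  · have e : tot g i δ' (φ.compLeft J x) = φ.compLeft J (tot g i δ x) := by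
      funext a
      simp [tot_apply, h4]
    simp [e]

/-- constant coefficients in degree zero -/
theorem totOk_conc {q : Ideal R} (hd : Deg i g) (hsq : Ent (g * g) q) {A A' : Submodule R M}
    (hle : A' ≤ A) (hq : q • A ≤ A') :
    TotOk g i (0 : M →ₗ[R] M) (fun _ => conc A) (fun _ => conc A') := by
  refine ⟨hd, fun _ => isPair_conc hle, fun a b n x hx => Submodule.smul_mem _ _ hx,
    fun a b n x hx => Submodule.smul_mem _ _ hx, fun a c n x hx => ?_⟩
  unfold conc at hx ⊢
  split_ifs at hx ⊢
  · exact hq (Submodule.smul_mem_smul (hsq a c) hx)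
  · exact Submodule.smul_mem _ _ hx

theorem isPair_pf {q : Ideal R} (hd : Deg i g) (hsq : Ent (g * g) q) {A A' : Submodule R M}
    (hle : A' ≤ A) (hq : q • A ≤ A') :
    IsPair (act g) (pf i fun _ => A) (pf i fun _ => A') := by
  have := (totOk_conc hd hsq hle hq).isPair
  rwa [tot_zero] at this

/-- transport for constant coefficients -/
theorem hh_pf_transport {q : Ideal R} (hd : Deg i g) (hsq : Ent (g * g) q)
    {A A' : Submodule R M} {B B' : Submodule R M'} (hA : A' ≤ A) (hqA : q • A ≤ A')
    (hB : B' ≤ B) (hqB : q • B ≤ B') (φ : M →ₗ[R] M') (h1 : ∀ x ∈ A, φ x ∈ B)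
    (h2 : ∀ x ∈ A, φ x ∈ B' ↔ x ∈ A') (h3 : ∀ y ∈ B, ∃ x ∈ A, y - φ x ∈ B') (n : ℤ) :
    hh (act g) (pf i fun _ => B) (pf i fun _ => B') n =
      hh (act g) (pf i fun _ => A) (pf i fun _ => A') n := by
  have := (totOk_conc hd hsq hA hqA).transport (totOk_conc hd hsq hB hqB) φ
    (fun a n x hx => ?_) (fun a n x hx => ?_) (fun a n y hy => ?_) (fun x => by simp) n
  · rwa [tot_zero, tot_zero] at this
  · unfold conc at hx ⊢
    split_ifs at hx ⊢
    · exact h1 x hx
    · simp_all
  · unfold conc at hx ⊢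
    split_ifs at hx ⊢
    · exact h2 x hx
    · simp_all
  · unfold conc at hy ⊢
    split_ifs at hy ⊢
    · exact h3 y hy
    · exact ⟨0, by simp, by simpa using hy⟩

/-- constant coefficients of finite length -/
theorem chi_pf_of_finite {q : Ideal R} (hd : Deg i g) (hsq : Ent (g * g) q)
    {A A' : Submodule R M} (hle : A' ≤ A) (hq : q • A ≤ A') (hf : rl A' A ≠ ⊤) :
    HFin (act g) (pf i fun _ => A) (pf i fun _ => A') ∧
      chi (act g) (pf i fun _ => A) (pf i fun _ => A') =
        (∑ a, (-1 : ℤ) ^ i a) * ((rl A' A).toNat : ℤ) := by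
  have := (mata_main Finset.univ _ (totOk_conc hd hsq hle hq) (by simp)).2 fun a n => by
    rw [hh_conc]; split_ifs
    exacts [hf, ENat.zero_ne_top]
  rw [tot_zero] at this
  refine ⟨this.1, this.2.trans ?_⟩
  simp only [chi_conc, Finset.sum_mul]

end Vale.Agent.P202
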