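import Vale.Agent.P202.Tower

/-! The tower over a polynomial ring. -/

namespace Vale.Agent.P202

open IsLocalRing MvPolynomial

variable {R : Type*} [CommRing R] {σ : Type} [DecidableEq σ]

section Aux
variable {κ : Type*} [CommRing κ] [Algebra R κ]

omit [DecidableEq σ] in
theorem Model_tt (m : ℕ) (j : σ) (F : MvPolynomial σ κ) :
    tt R X m j F = monomial (Finsupp.single j m) 1 * F := by
  rw [← X_pow_eq_monomial]; rfl

omit [DecidableEq σ] in
theorem Model_mono {lo lo' hi hi' : σ → ℤ} (h : lo' ≤ lo) (h' : hi ≤ hi') :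
    box R κ lo hi ≤ box R κ lo' hi' := fun _ hF c hc j =>
  ⟨(h j).trans (hF c hc j).1, (hF c hc j).2.trans (h' j)⟩

theorem Model_mul {b b' : σ → ℤ} {F G : MvPolynomial σ κ} (hF : F ∈ box R κ 0 b)
    (hG : G ∈ box R κ 0 b') : F * G ∈ box R κ 0 (b + b') := by
  intro c hc j
  rw [coeff_mul] at hc
  obtain ⟨p, hp, h⟩ := Finset.exists_ne_zero_of_sum_ne_zero hc
  have h1 := (hF _ (left_ne_zero_of_mul h) j).2
  have h2 := (hG _ (right_ne_zero_of_mul h) j).2
  rw [← Finset.HasAntidiagonal.mem_antidiagonal.1 hp]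
  refine ⟨Int.natCast_nonneg _, ?_⟩
  simp only [Finsupp.add_apply, Pi.add_apply]
  omega

theorem Model_div {lo c : σ → ℤ} {j : σ} {m : ℕ} (hlo : lo j ≤ 0) {y : MvPolynomial σ κ}
    (hy : y ∈ box R κ lo (c + Pi.single j (2 * (m : ℤ)))) :
    y.divMonomial (Finsupp.single j m) ∈ box R κ lo (c + Pi.single j (m : ℤ)) := by
  intro d hd i
  have h1 := hy _ hd i
  by_cases e : i = j
  · subst e
    simp only [Finsupp.add_apply, Finsupp.single_eq_same, Pi.add_apply, Pi.single_eq_same] at h1 ⊢
    omega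
  · simpa [e] using h1

omit [DecidableEq σ] in
theorem Model_mod {j : σ} {m : ℕ} {y : MvPolynomial σ κ} {d : σ →₀ ℕ}
    (hd : coeff d (y.modMonomial (Finsupp.single j m)) ≠ 0) : coeff d y ≠ 0 ∧ d j < m := by
  by_cases h : Finsupp.single j m ≤ d
  · exact absurd (coeff_modMonomial_of_le y h) hd
  · rw [coeff_modMonomial_of_not_le y h] at hd
    exact ⟨hd, by simpa [Finsupp.single_le_iff] using h⟩

theorem Model_surj {lo c : σ → ℤ} {j : σ} {m : ℕ} (hlo : lo j ≤ 0) (hc : -1 ≤ c j) :
    SurjAt (tt R (X : σ → MvPolynomial σ κ) m) m (box R κ lo) j c := by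
  intro y hy
  refine ⟨_, Model_div hlo hy, -y.modMonomial (Finsupp.single j m),
    Submodule.neg_mem _ fun d hd i => ?_, ?_⟩
  · obtain ⟨h1, h2⟩ := Model_mod hd
    have h3 := hy _ h1 i
    by_cases e : i = j
    · subst e
      simp only [Pi.add_apply, Pi.single_eq_same] at h3 ⊢
      omega
    · simpa [e] using h3
  · rw [Model_tt, sub_neg_eq_add, divMonomial_add_modMonomial]

theorem Model_sv {lo c : σ → ℤ} {j : σ} {m : ℕ} :
    SvAt (tt R (X : σ → MvPolynomial σ κ) m) m (box R κ lo) j c := by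
  intro y hy hy' d hd i
  have h1 := hy d hd i
  by_cases e : i = j
  · subst e
    have h2 := hy' (Finsupp.single i m + d) (by rwa [Model_tt, coeff_monomial_mul, one_mul]) i
    simp only [Finsupp.add_apply, Finsupp.single_eq_same, Pi.add_apply, Pi.single_eq_same] at h1 h2
    omega
  · simpa [e] using h1

theorem Model_hs {lo c : σ → ℤ} {j : σ} {m : ℕ} (hlo : lo j ≤ 0) (hc : 0 ≤ c j + m)
    (_hc' : c j < 0) : ∀ y ∈ box R κ lo (c + Pi.single j (2 * (m : ℤ))),
      ∃ y1 ∈ box R κ lo (c + Pi.single j (m : ℤ)), ∃ y2 ∈ box R κ lo (c + Pi.single j (m : ℤ)),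
        y - (tt R (X : σ → MvPolynomial σ κ) m j y1 - y2) ∈
          box R κ (Function.update lo j (c j + m + 1)) (Function.update c j ((m : ℤ) - 1)) := by
  intro y hy
  refine ⟨_, Model_div hlo hy, -(y.modMonomial (Finsupp.single j m)).modMonomial
    (Finsupp.single j (c j + m + 1).toNat), Submodule.neg_mem _ fun d hd i => ?_, ?_⟩
  · obtain ⟨h1, h2⟩ := Model_mod hd
    obtain ⟨h1, -⟩ := Model_mod h1
    have h3 := hy _ h1 i
    by_cases e : i = j
    · subst e
      simp only [Pi.add_apply, Pi.single_eq_same] at h3 ⊢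
      omega
    · simpa [e] using h3
  · have e1 : y - (tt R (X : σ → MvPolynomial σ κ) m j (y.divMonomial (Finsupp.single j m)) -
        -(y.modMonomial (Finsupp.single j m)).modMonomial (Finsupp.single j (c j + m + 1).toNat)) =
        y.modMonomial (Finsupp.single j m) - (y.modMonomial (Finsupp.single j m)).modMonomial
          (Finsupp.single j (c j + m + 1).toNat) := by
      rw [Model_tt]
      nth_rw 1 [← divMonomial_add_modMonomial y (Finsupp.single j m)]
      ring
    rw [e1]
    intro d hd i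
    rw [coeff_sub] at hd
    by_cases h : Finsupp.single j (c j + m + 1).toNat ≤ d
    · rw [coeff_modMonomial_of_le _ h, sub_zero] at hd
      obtain ⟨h1, h2⟩ := Model_mod hd
      have h3 := hy _ h1 i
      have h4 := Finsupp.single_le_iff.1 h
      by_cases e : i = j
      · subst e
        simp only [Function.update_self]
        omega
      · simpa [e] using h3
    · rw [coeff_modMonomial_of_not_le _ h, sub_self] at hd
      exact absurd rfl hd

theorem Model_hi {lo c : σ → ℤ} {j : σ} {m : ℕ} (hc' : c j < 0) :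
    ∀ y1 ∈ box R κ lo (c + Pi.single j (m : ℤ)), ∀ y2 ∈ box R κ lo (c + Pi.single j (m : ℤ)),
      tt R (X : σ → MvPolynomial σ κ) m j y1 - y2 ∈
        box R κ (Function.update lo j (c j + m + 1)) (Function.update c j ((m : ℤ) - 1)) →
      y1 = 0 ∧ y2 = 0 := by
  intro y1 _ y2 hy2 h
  have h1 : y1 = 0 := by
    ext d
    by_contra hd
    have h2 : coeff (Finsupp.single j m + d) y2 = 0 := by
      by_contra h2
      have := (hy2 _ h2 j).2
      simp only [Finsupp.add_apply, Finsupp.single_eq_same, Pi.add_apply, Pi.single_eq_same] at this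
      omega
    have := (h (Finsupp.single j m + d) (by
      rwa [coeff_sub, h2, sub_zero, Model_tt, coeff_monomial_mul, one_mul]) j).2
    simp only [Finsupp.add_apply, Finsupp.single_eq_same, Function.update_self] at this
    omega
  refine ⟨h1, ?_⟩
  ext d
  by_contra hd
  have h2 := (hy2 d hd j).2
  have h3 := (h d (by rwa [h1, map_zero, zero_sub, coeff_neg, neg_ne_zero]) j).1
  simp only [Pi.add_apply, Pi.single_eq_same, Function.update_self] at h2 h3
  omega

end Aux

theorem Model_prod (s : Finset σ) (x y d : σ → ℝ) (K : ℝ)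
    (h : ∀ j, 0 ≤ y j ∧ y j ≤ x j ∧ x j ≤ K ∧ x j - y j ≤ d j) :
    ∏ j ∈ s, y j ≤ K ^ s.card ∧ ∏ j ∈ s, y j ≤ ∏ j ∈ s, x j ∧
      (∏ j ∈ s, x j - ∏ j ∈ s, y j) * K ≤ (∑ j ∈ s, d j) * K ^ s.card := by
  induction s using Finset.induction_on with
  | empty => simp
  | insert a s ha ih =>
    obtain ⟨i1, i2, i3⟩ := ih
    obtain ⟨h1, h2, h3, h4⟩ := h a
    have hY : 0 ≤ ∏ j ∈ s, y j := Finset.prod_nonneg fun j _ => (h j).1
    have hK : 0 ≤ K := h1.trans (h2.trans h3)
    rw [Finset.prod_insert ha, Finset.prod_insert ha, Finset.sum_insert ha,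
      Finset.card_insert_of_notMem ha, pow_succ']
    refine ⟨mul_le_mul (h2.trans h3) i1 hY hK, mul_le_mul h2 i2 hY (h1.trans h2), ?_⟩
    have e : (x a * ∏ j ∈ s, x j - y a * ∏ j ∈ s, y j) * K =
        x a * ((∏ j ∈ s, x j - ∏ j ∈ s, y j) * K) + (x a - y a) * (∏ j ∈ s, y j) * K := by ring
    have t1 : x a * ((∏ j ∈ s, x j - ∏ j ∈ s, y j) * K) ≤ K * ((∑ j ∈ s, d j) * K ^ s.card) :=
      mul_le_mul h3 i3 (mul_nonneg (sub_nonneg.2 i2) hK) hK
    have t2 : (x a - y a) * (∏ j ∈ s, y j) * K ≤ d a * K ^ s.card * K :=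
      mul_le_mul_of_nonneg_right (mul_le_mul h4 i1 hY ((sub_nonneg.2 h2).trans h4)) hK
    rw [e]
    nlinarith

theorem twOk_box (κ : Type*) [CommRing κ] [Algebra R κ] (m : ℕ) (l : List σ) (lo : σ → ℤ)
    (hlo : ∀ j ∈ l, lo j ≤ 0) :
    TwOk (tt R (X : σ → MvPolynomial σ κ) m) m l (box R κ lo) := by
  intro j _ b
  refine ⟨Model_mono le_rfl (le_add_of_nonneg_right (Pi.single_nonneg.2 (Int.natCast_nonneg m))),
    fun F hF c hc i => ?_⟩
  rw [Model_tt, coeff_monomial_mul'] at hc
  split_ifs at hc with h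
  · rw [one_mul] at hc
    have h1 := hF _ hc i
    have h2 := Finsupp.single_le_iff.1 h
    by_cases e : i = j
    · subst e
      simp only [Finsupp.coe_tsub, Pi.sub_apply, Finsupp.single_eq_same, Pi.add_apply,
        Pi.single_eq_same] at h1 ⊢
      omega
    · simpa [e] using h1
  · exact absurd rfl hc

/-- the cohomology of a line bundle on a product of projective lines is concentrated in one
degree -/
theorem model_exact (κ : Type*) [CommRing κ] [Algebra R κ] (m : ℕ) (l : List σ) (hl : l.Nodup)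
    (lo b : σ → ℤ) (hlo : ∀ j ∈ l, lo j ≤ 0) (hb : ∀ j ∈ l, 0 ≤ b j + m) (n : ℤ)
    (hn : n ≠ ((l.filter fun j => b j < 0).length : ℤ)) :
    TwExact (tt R (X : σ → MvPolynomial σ κ) m) m l (box R κ lo) b n := by
  have hc : ∀ (i j : σ) (x : MvPolynomial σ κ), tt R X m i (tt R X m j x) =
      tt R X m j (tt R X m i x) := fun i j x => mul_left_comm _ _ _
  induction l generalizing lo b n with
  | nil => exact twExact_nil (by simpa using hn)
  | cons j l ih =>
    obtain ⟨hj, hl'⟩ := List.nodup_cons.1 hl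
    have hsh : ∀ e : Ix l, (b + sh m l e) j = b j := fun e => by
      rw [Pi.add_apply, sh_of_not_mem e hj, add_zero]
    have hloj := hlo j List.mem_cons_self
    have hbj := hb j List.mem_cons_self
    by_cases h0 : b j < 0
    · have hne : ∀ i ∈ l, i ≠ j := fun i hi e => hj (e ▸ hi)
      have hlo' : ∀ i ∈ l, Function.update lo j (b j + m + 1) i ≤ 0 := fun i hi => by
        rw [Function.update_of_ne (hne i hi)]; exact hlo i (List.mem_cons_of_mem _ hi)
      have hsh' : ∀ e : Ix l, Function.update b j ((m : ℤ) - 1) + sh m l e =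
          Function.update (b + sh m l e) j ((m : ℤ) - 1) := fun e => by
        funext i
        by_cases h : i = j
        · subst h; simp [sh_of_not_mem e hj]
        · simp [h]
      refine TwExact.cons_coker (A' := box R κ (Function.update lo j (b j + m + 1)))
        (b' := Function.update b j ((m : ℤ) - 1)) (twOk_box κ m _ lo hlo)
        (twOk_box κ m _ _ hlo') (fun e => ?_) (fun e => ?_) (fun e => ?_) hc
        (ih hl' _ _ hlo' (fun i hi => ?_) _ ?_)
      · rw [hsh']
        refine Model_mono (fun i => ?_) fun i => ?_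
        · by_cases h : i = j
          · subst h; simp; omega
          · simp [h]
        · by_cases h : i = j
          · subst h
            have := hsh e
            simp only [Function.update_self, Pi.add_apply, Pi.single_eq_same] at this ⊢
            omega
          · simp [h]
      · rw [hsh', ← hsh e]
        exact Model_hs hloj (by rw [hsh]; omega) (by rw [hsh]; omega)
      · rw [hsh', ← hsh e]
        exact Model_hi (by rw [hsh]; omega)
      · rw [Function.update_of_ne (hne i hi)]; exact hb i (List.mem_cons_of_mem _ hi)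
      · have e1 : (l.filter fun i => Function.update b j ((m : ℤ) - 1) i < 0) =
            l.filter fun i => b i < 0 :=
          List.filter_congr fun i hi => by rw [Function.update_of_ne (hne i hi)]
        rw [e1]
        rw [List.filter_cons_of_pos (by simpa using h0), List.length_cons] at hn
        push_cast at hn
        omega
    · refine TwExact.cons_ker hc (twOk_box κ m _ lo hlo)
        (fun e => Model_surj hloj (by rw [hsh]; omega)) (fun e => Model_sv)
        (ih hl' lo b (fun i hi => hlo i (List.mem_cons_of_mem _ hi))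
          (fun i hi => hb i (List.mem_cons_of_mem _ hi)) n ?_)
      rwa [List.filter_cons_of_neg (by simpa using h0)] at hn

theorem rl_box [Fintype σ] [IsLocalRing R] (b : σ → ℤ) :
    rl ⊥ (box R (ResidueField R) 0 b) = ((∏ j, (b j + 1).toNat : ℕ) : ℕ∞) := by
  let ι := (j : σ) → Fin (b j + 1).toNat
  let av : ι → σ →₀ ℕ := fun a => Finsupp.equivFunOnFinite.symm fun j => (a j : ℕ)
  have hav : Function.Injective av := fun a a' h => funext fun j =>
    Fin.ext (DFunLike.congr_fun h j)
  let f : MvPolynomial σ (ResidueField R) →ₗ[R] (ι → ResidueField R) :=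
    LinearMap.pi fun a => (lcoeff (ResidueField R) (av a)).restrictScalars R
  have hf : ∀ F a, f F a = coeff (av a) F := fun _ _ => rfl
  have h1 : rl (⊥ : Submodule R (ι → ResidueField R)) ⊤ = rl ⊥ (box R (ResidueField R) 0 b) := by
    refine rl_eq_of_map f (fun _ _ => Submodule.mem_sup_left trivial) (fun y _ => ?_)
      fun F hF => ?_
    · refine ⟨∑ a, monomial (av a) (y a), Submodule.sum_mem _ fun a _ c hc j => ?_, ?_⟩
      · rw [coeff_monomial] at hc
        split_ifs at hc with e
        · subst e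
          have := (a j).2
          refine ⟨Int.natCast_nonneg _, ?_⟩
          change ((a j : ℕ) : ℤ) ≤ b j
          omega
        · exact absurd rfl hc
      · rw [Submodule.mem_bot, sub_eq_zero]
        funext a
        rw [hf, coeff_sum, Finset.sum_eq_single a, coeff_monomial, if_pos rfl]
        · intro a' _ e
          rw [coeff_monomial, if_neg (hav.ne e)]
        · simp
    · rw [Submodule.mem_bot, Submodule.mem_bot]
      refine ⟨fun h => ?_, fun h => by rw [h, map_zero]⟩
      ext c
      by_contra hc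
      have h2 := hF c hc
      let a : ι := fun j => ⟨c j, by have := (h2 j).2; omega⟩
      have e : av a = c := Finsupp.ext fun j => rfl
      exact hc (e ▸ congrFun h a)
  have h2 : Module.length R (ResidueField R) = 1 := by
    rw [← rl_maximal (R := R), rl_top]; rfl
  rw [← h1, rl_bot, Submodule.topEquiv.length_eq, Module.length_pi_of_fintype]
  simp [h2, ι]

/-- multiples of a nonzero polynomial -/
theorem rl_box_mul [Fintype σ] [IsLocalRing R] (F : MvPolynomial σ (ResidueField R)) (hF : F ≠ 0)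
    (b0 b : σ → ℤ) (hF0 : F ∈ box R (ResidueField R) 0 b0) :
    rl ((box R (ResidueField R) 0 (b - b0)).map (LinearMap.mulLeft R F))
        (box R (ResidueField R) 0 b) + ((∏ j, (b j - b0 j + 1).toNat : ℕ) : ℕ∞) =
      ((∏ j, (b j + 1).toNat : ℕ) : ℕ∞) := by
  have hle : (box R (ResidueField R) 0 (b - b0)).map (LinearMap.mulLeft R F) ≤
      box R (ResidueField R) 0 b := by
    rintro _ ⟨G, hG, rfl⟩
    simpa using Model_mul hF0 hG
  have h1 : rl ⊥ ((box R (ResidueField R) 0 (b - b0)).map (LinearMap.mulLeft R F)) =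
      rl ⊥ (box R (ResidueField R) 0 (b - b0)) := by
    refine rl_eq_of_map (LinearMap.mulLeft R F) (fun x hx => Submodule.mem_sup_left ⟨x, hx, rfl⟩)
      ?_ fun x _ => by simp [hF]
    rintro _ ⟨x, hx, rfl⟩
    exact ⟨x, hx, by simp⟩
  rw [← rl_box (R := R) b, rl_add bot_le hle, h1, rl_box, add_comm]
  rfl

theorem prod_sub_prod_le [Fintype σ] (b0 : σ → ℤ) (h0 : ∀ j, 0 ≤ b0 j) :
    ∃ C : ℝ, 0 ≤ C ∧ ∀ (B : ℕ) (b : σ → ℤ), (∀ j, 0 ≤ b j ∧ b j ≤ B) →
      (((∏ j, (b j + 1).toNat : ℕ) : ℝ) - ((∏ j, (b j - b0 j + 1).toNat : ℕ) : ℝ)) *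
        ((B : ℝ) + 1) ≤ C * ((B : ℝ) + 1) ^ Fintype.card σ := by
  refine ⟨∑ j, (b0 j : ℝ), Finset.sum_nonneg fun j _ => by exact_mod_cast h0 j, fun B b hb => ?_⟩
  push_cast
  refine (Model_prod Finset.univ _ _ (fun j => (b0 j : ℝ)) ((B : ℝ) + 1) fun j => ?_).2.2
  have h1 := hb j
  have h2 := h0 j
  refine ⟨Nat.cast_nonneg _, Nat.cast_le.2 (by omega), ?_, ?_⟩
  · exact_mod_cast (by omega : (b j + 1).toNat ≤ B + 1)
  · have h3 : (((b j + 1).toNat : ℕ) : ℤ) - ((b j - b0 j + 1).toNat : ℕ) ≤ b0 j := by omega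
    exact_mod_cast h3

end Vale.Agent.P202
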