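import Vale.Agent.P202.PSV
import Vale.Agent.P202.Env

/-! Finite levels of a prismatic envelope. -/

namespace Vale.Agent.P202

open IsLocalRing

universe v

theorem pl_cong {A B ι : Type*} [CommRing A] [CommRing B] (j0 : A →+* B) (Z : ι × ℕ → B)
    (η : ι × ℕ → A) (j : ℕ) (a : Ideal B) (ha : ∀ x : ι × ℕ, x.2 < j → Z x ∈ a)
    {β : MvPolynomial (ι × ℕ) A} (hβ : β ∈ MvPolynomial.supported A {x : ι × ℕ | x.2 < j}) :
    MvPolynomial.eval₂Hom j0 (fun x => Z x + j0 (η x)) β - j0 (MvPolynomial.eval η β) ∈ a := by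
  rw [← Ideal.Quotient.eq]
  refine MvPolynomial.hom_congr_vars
    (f₁ := (Ideal.Quotient.mk a).comp (MvPolynomial.eval₂Hom j0 (fun x => Z x + j0 (η x))))
    (f₂ := (Ideal.Quotient.mk a).comp (j0.comp (MvPolynomial.eval η))) (by ext; simp)
    (fun x hx _ => ?_) rfl
  have := ha x (MvPolynomial.mem_supported.1 hβ hx)
  simp [Ideal.Quotient.eq_zero_iff_mem.2 this]

theorem pl_rel {p : ℕ} [Fact p.Prime] {A B ι : Type*} [CommRing A] [IsLocalRing A] [CommRing B]
    (j0 : A →+* B) (Z : ι × ℕ → B) (η : ι × ℕ → A) (hp : (p : A) ∈ maximalIdeal A) {t : A}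
    (ht : t ∈ maximalIdeal A) (x : ι × ℕ) (a : Ideal B) (hm : (maximalIdeal A).map j0 ≤ a)
    (ha : ∀ x' : ι × ℕ, x'.2 < x.2 → Z x' ∈ a) {c : A} {β r : MvPolynomial (ι × ℕ) A}
    (hβ : β ∈ MvPolynomial.supported A {x' : ι × ℕ | x'.2 < x.2})
    (hr : r - (MvPolynomial.C c * MvPolynomial.X x ^ p + β) ∈
      Ideal.span {(p : MvPolynomial (ι × ℕ) A), MvPolynomial.C t})
    (hη : c * η x ^ p + MvPolynomial.eval η β ∈ maximalIdeal A) :
    MvPolynomial.eval₂Hom j0 (fun x => Z x + j0 (η x)) r - j0 c * Z x ^ p ∈ a := by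
  have hpa : (p : B) ∈ a := by rw [← map_natCast j0]; exact hm (Ideal.mem_map_of_mem _ hp)
  have h1 := pl_cong j0 Z η x.2 a ha hβ
  have h2 : MvPolynomial.eval₂Hom j0 (fun x => Z x + j0 (η x))
      (r - (MvPolynomial.C c * MvPolynomial.X x ^ p + β)) ∈ a := by
    obtain ⟨u, w, huw⟩ := Ideal.mem_span_pair.1 hr
    rw [← huw, map_add, map_mul, map_mul, map_natCast]
    refine add_mem (Ideal.mul_mem_left _ _ hpa) (Ideal.mul_mem_left _ _ ?_)
    rw [MvPolynomial.coe_eval₂Hom, MvPolynomial.eval₂_C]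
    exact hm (Ideal.mem_map_of_mem _ ht)
  have h3 := hm (Ideal.mem_map_of_mem j0 hη)
  obtain ⟨w, hw⟩ := exists_add_pow_prime_eq (Fact.out : p.Prime) (Z x) (j0 (η x))
  have h4 : j0 c * ((p : B) * Z x * j0 (η x) * w) ∈ a :=
    Ideal.mul_mem_left _ _ (Ideal.mul_mem_right _ _ (Ideal.mul_mem_right _ _
      (Ideal.mul_mem_right _ _ hpa)))
  rw [map_sub, map_add, map_mul, map_pow, MvPolynomial.eval₂Hom_C, MvPolynomial.eval₂Hom_X',
    hw] at h2
  rw [map_add, map_mul, map_pow] at h3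
  convert add_mem (add_mem (add_mem h1 h2) h3) h4 using 1
  ring

theorem exists_env {p : ℕ} [Fact p.Prime] {V : Type v} [CommRing V] [IsDomain V]
    [IsDiscreteValuationRing V] [IsAdicComplete (maximalIdeal V) V] (hV : PBase p V) {σ ι : Type}
    [Fintype σ] [Fintype ι]
    {φ : MvPowerSeries (Option (σ ⊕ ι)) V →+* MvPowerSeries (Option (σ ⊕ ι)) V}
    {δ : MvPowerSeries (Option (σ ⊕ ι)) V → MvPowerSeries (Option (σ ⊕ ι)) V} (h : IsDelta p φ δ)
    (hφ : φ (MvPowerSeries.X none) = MvPowerSeries.X none ^ p)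
    (F : ι → MvPowerSeries (Option (σ ⊕ ι)) V) (hF : ∀ i, F i ∈ maximalIdeal _)
    {φ' : MvPolynomial (ι × ℕ) (MvPowerSeries (Option (σ ⊕ ι)) V) →+*
      MvPolynomial (ι × ℕ) (MvPowerSeries (Option (σ ⊕ ι)) V)}
    {δ' : MvPolynomial (ι × ℕ) (MvPowerSeries (Option (σ ⊕ ι)) V) →
      MvPolynomial (ι × ℕ) (MvPowerSeries (Option (σ ⊕ ι)) V)} (h' : IsDelta p φ' δ')
    (hC : ∀ a, φ' (MvPolynomial.C a) = MvPolynomial.C (φ a))
    (hX : ∀ x : ι × ℕ, δ' (MvPolynomial.X x) = MvPolynomial.X (x.1, x.2 + 1)) (e : ℕ) :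
    ∃ (P : Type v) (_ : CommRing P) (_ : IsLocalRing P) (_ : IsNoetherianRing P)
      (χ : MvPolynomial (ι × ℕ) (MvPowerSeries (Option (σ ⊕ ι)) V) →+* P),
      IsCM P (Fintype.card σ + 1) ∧
      (∀ i, ∀ j ≤ e, χ (δ'^[j] (MvPolynomial.C ((p : MvPowerSeries (Option (σ ⊕ ι)) V) -
        MvPowerSeries.X none) * MvPolynomial.X (i, 0) - MvPolynomial.C (F i))) = 0) ∧
      χ (MvPolynomial.C (MvPowerSeries.X none)) ^ p ^ e = p ∧
      (maximalIdeal _).map (χ.comp MvPolynomial.C) ≤ maximalIdeal P ∧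
      Prim ((maximalIdeal _).map (χ.comp MvPolynomial.C)) := by
  classical
  have hpA : (p : MvPowerSeries (Option (σ ⊕ ι)) V) ∈ maximalIdeal _ := by
    rw [maximalIdeal_psV' hV.max]; exact Ideal.mem_sup_left (Ideal.subset_span rfl)
  have hXA : ∀ a, (MvPowerSeries.X a : MvPowerSeries (Option (σ ⊕ ι)) V) ∈ maximalIdeal _ :=
    fun a => by
      rw [maximalIdeal_psV' hV.max]; exact Ideal.mem_sup_right (Ideal.subset_span ⟨a, rfl⟩)
  have hXB : ∀ a, (MvPowerSeries.X a : MvPowerSeries (Option (σ ⊕ ι) ⊕ ι × Fin e) V) ∈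
      maximalIdeal _ := fun a => by
    rw [maximalIdeal_psV' hV.max]; exact Ideal.mem_sup_right (Ideal.subset_span ⟨a, rfl⟩)
  have hpB : (p : MvPowerSeries (Option (σ ⊕ ι) ⊕ ι × Fin e) V) ∈ maximalIdeal _ := by
    rw [maximalIdeal_psV' hV.max]; exact Ideal.mem_sup_left (Ideal.subset_span rfl)
  obtain ⟨j0, -, hj0⟩ := exists_ev (σ := Option (σ ⊕ ι))
    (maximalIdeal (MvPowerSeries (Option (σ ⊕ ι) ⊕ ι × Fin e) V)) MvPowerSeries.C
    (fun a => MvPowerSeries.X (Sum.inl a)) (fun a => hXB _)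
  have hm0 : (maximalIdeal _).map j0 ≤ maximalIdeal _ := by
    rw [maximalIdeal_psV' hV.max, Ideal.map_sup, Ideal.map_span, Ideal.map_span]
    refine sup_le (Ideal.span_le.2 ?_) (Ideal.span_le.2 ?_)
    · rintro _ ⟨_, rfl, rfl⟩
      rw [map_natCast]; exact hpB
    · rintro _ ⟨_, ⟨a, rfl⟩, rfl⟩
      rw [hj0]; exact hXB _
  choose c β hc hβ hrel using fun x : ι × ℕ =>
    env_struct h hpA (hXA none) hφ h' hC hX (F x.1) x.1 x.2
  obtain ⟨η, hη⟩ := env_solve (p := p) (MvPowerSeries.C (σ := Option (σ ⊕ ι)) (R := V)) hpA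
    (fun a => by
      obtain ⟨b, hb⟩ := hV.perf (MvPowerSeries.constantCoeff a)
      refine ⟨b, ?_⟩
      rw [maximalIdeal_psV]
      have := add_mem (Ideal.mem_sup_right (sub_C_mem V a))
        (Ideal.mem_sup_left (T := Ideal.span (Set.range MvPowerSeries.X)) (Ideal.mem_map_of_mem
          (MvPowerSeries.C (σ := Option (σ ⊕ ι)) (R := V)) hb))
      simpa using this) c hc β hβ
  obtain ⟨Z, hZ⟩ : ∃ Z : ι × ℕ → MvPowerSeries (Option (σ ⊕ ι) ⊕ ι × Fin e) V,
      Z = fun x => if h : x.2 < e then MvPowerSeries.X (Sum.inr (x.1, ⟨x.2, h⟩)) else 0 := ⟨_, rfl⟩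
  have hZm : ∀ x, Z x ∈ maximalIdeal _ := fun x => by
    rw [hZ]; dsimp only; split_ifs
    · exact hXB _
    · exact zero_mem _
  have key := fun (x : ι × ℕ) a hm ha => pl_rel j0 Z (fun x => MvPowerSeries.C (η x)) hpA
    (hXA none) x a hm ha (hβ x) (hrel x) (hη x)
  obtain ⟨χ0, hχ0⟩ : ∃ χ0, χ0 = MvPolynomial.eval₂Hom j0
    (fun x => Z x + j0 (MvPowerSeries.C (η x))) := ⟨_, rfl⟩
  rw [← hχ0] at key
  have hχC : ∀ a, χ0 (MvPolynomial.C a) = j0 a := fun a => by rw [hχ0]; simp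
  obtain ⟨r, hr⟩ : ∃ r : ι → ℕ → MvPowerSeries (Option (σ ⊕ ι) ⊕ ι × Fin e) V, ∀ i j, r i j =
      χ0 (δ'^[j] (MvPolynomial.C ((p : MvPowerSeries (Option (σ ⊕ ι)) V) -
        MvPowerSeries.X none) * MvPolynomial.X (i, 0) - MvPolynomial.C (F i))) := ⟨_, fun _ _ => rfl⟩
  simp only [← hr] at key
  have hrm : ∀ i j, r i j ∈ maximalIdeal _ := fun i j => by
    rcases j with _ | j
    · rw [hr, Function.iterate_zero, id, map_sub, map_mul, hχC, hχC]
      exact sub_mem (Ideal.mul_mem_right _ _ (hm0 (Ideal.mem_map_of_mem _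
        (sub_mem hpA (hXA none))))) (hm0 (Ideal.mem_map_of_mem _ (hF i)))
    · have := add_mem (key (i, j) _ hm0 fun x _ => hZm x) (Ideal.mul_mem_left _ (j0 (c (i, j)))
        (Ideal.pow_mem_of_mem _ (hZm (i, j)) p (Fact.out : p.Prime).pos))
      simpa using this
  obtain ⟨l, hl⟩ : ∃ l : List (MvPowerSeries (Option (σ ⊕ ι) ⊕ ι × Fin e) V),
      l = ((p : MvPowerSeries (Option (σ ⊕ ι) ⊕ ι × Fin e) V) -
        j0 (MvPowerSeries.X none) ^ p ^ e) ::
        (Finset.univ : Finset (ι × Fin (e + 1))).toList.map fun x => r x.1 x.2 := ⟨_, rfl⟩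
  have hlm : ∀ a ∈ l, a ∈ maximalIdeal _ := fun a ha => by
    rw [hl, List.mem_cons, List.mem_map] at ha
    rcases ha with rfl | ⟨x, -, rfl⟩
    · exact sub_mem hpB (Ideal.pow_mem_of_mem _ (hm0 (Ideal.mem_map_of_mem _ (hXA none))) _
        (pow_pos (Fact.out : p.Prime).pos _))
    · exact hrm _ _
  have hrl : ∀ i, ∀ j ≤ e, r i j ∈ Ideal.ofList l := fun i j hj => Ideal.subset_span (by
    rw [hl]
    exact List.mem_cons_of_mem _ (List.mem_map.2 ⟨(i, ⟨j, by omega⟩), by simp, rfl⟩))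
  have hle : Ideal.ofList l ≤ maximalIdeal _ := Ideal.span_le.2 hlm
  have : Nontrivial (_ ⧸ Ideal.ofList l) := Ideal.Quotient.nontrivial_iff.2
    fun h => (maximalIdeal.isMaximal _).ne_top (top_le_iff.1 (h ▸ hle))
  have := IsLocalRing.of_surjective' (Ideal.Quotient.mk (Ideal.ofList l))
    Ideal.Quotient.mk_surjective
  have hcomp : ((Ideal.Quotient.mk (Ideal.ofList l)).comp χ0).comp MvPolynomial.C =
      (Ideal.Quotient.mk (Ideal.ofList l)).comp j0 := RingHom.ext fun a => by simp [hχC]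
  refine ⟨_ ⧸ Ideal.ofList l, inferInstance, this, inferInstance,
    (Ideal.Quotient.mk (Ideal.ofList l)).comp χ0, IsCM.quot l ?_ hlm _
      Ideal.Quotient.mk_surjective Ideal.mk_ker, fun i j hj => ?_, ?_, ?_, ?_⟩
  · convert isCM_psV (σ := Option (σ ⊕ ι) ⊕ ι × Fin e) hV.max using 1
    rw [hl]
    simp only [List.length_cons, List.length_map, Finset.length_toList, Finset.card_univ,
      Fintype.card_prod, Fintype.card_fin, Fintype.card_sum, Fintype.card_option]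
    ring
  · rw [RingHom.comp_apply, ← hr, Ideal.Quotient.eq_zero_iff_mem]
    exact hrl i j hj
  · rw [RingHom.comp_apply, hχC, ← map_pow, ← map_natCast (Ideal.Quotient.mk (Ideal.ofList l)),
      eq_comm, Ideal.Quotient.eq]
    exact Ideal.subset_span (by rw [hl]; exact List.mem_cons_self)
  · rw [hcomp, ← Ideal.map_map, ← map_max_surj (π := Ideal.Quotient.mk (Ideal.ofList l))
      Ideal.Quotient.mk_surjective]
    exact Ideal.map_mono hm0
  · rw [hcomp, ← Ideal.map_map, prim_map_surj_iff Ideal.Quotient.mk_surjective, Ideal.mk_ker,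
      prim_iff_radical, Ideal.radical_eq_sInf, le_sInf_iff]
    rintro q ⟨hq, hq'⟩
    have hq1 : (maximalIdeal _).map j0 ≤ q := le_sup_right.trans hq
    have hZq : ∀ j, j < e → ∀ i, Z (i, j) ∈ q := fun j => by
      induction j using Nat.strong_induction_on with
      | _ j ih =>
        intro hj i
        have h1 := key (i, j) q hq1 fun x hx => ih x.2 hx (hx.trans hj) x.1
        have h2 := sub_mem (hq (Ideal.mem_sup_left (hrl i (j + 1) hj))) h1
        rw [sub_sub_cancel] at h2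
        exact hq'.mem_of_pow_mem p ((Ideal.unit_mul_mem_iff_mem _ ((hc (i, j)).map j0)).1 h2)
    rw [maximalIdeal_psV' hV.max]
    refine sup_le (Ideal.span_le.2 ?_) (Ideal.span_le.2 ?_)
    · rintro _ rfl
      rw [← map_natCast j0]
      exact hq1 (Ideal.mem_map_of_mem _ hpA)
    · rintro _ ⟨a | ⟨i, j⟩, rfl⟩
      · rw [← hj0]
        exact hq1 (Ideal.mem_map_of_mem _ (hXA a))
      · have := hZq j j.2 i
        rw [hZ] at this
        simpa using this

end Vale.Agent.P202
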