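import Vale.Agent.P202.Len

/-! Formal power series rings and complete local rings. -/

namespace Vale.Agent.P202

open IsLocalRing MvPowerSeries

variable {σ : Type} [Fintype σ]

omit [Fintype σ] in
theorem psa_mem_span_monomial {k : Type*} [CommRing k] {D : Set (σ →₀ ℕ)} (hD : D.Finite)
    {I : Ideal (MvPowerSeries σ k)} (hI : ∀ d ∈ D, monomial d (1 : k) ∈ I)
    {f : MvPowerSeries σ k} (hf : ∀ m, coeff m f ≠ 0 → ∃ d ∈ D, d ≤ m) : f ∈ I := by
  classical
  choose! c hc1 hc2 using hf
  let G : (σ →₀ ℕ) → MvPowerSeries σ k := fun d m => if c (d + m) = d then coeff (d + m) f else 0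
  have hG : ∀ d m, coeff m (G d) = if c (d + m) = d then coeff (d + m) f else 0 := fun _ _ => rfl
  have e : f = ∑ d ∈ hD.toFinset, monomial d (1 : k) * G d := by
    ext m
    rw [map_sum]
    by_cases h0 : coeff m f = 0
    · rw [h0]
      refine (Finset.sum_eq_zero fun d _ => ?_).symm
      rw [coeff_monomial_mul]
      split_ifs with h
      · rw [one_mul, hG]
        simp only [add_tsub_cancel_of_le h, h0, ite_self]
      · rfl
    · rw [Finset.sum_eq_single (c m)]
      · rw [coeff_monomial_mul, if_pos (hc2 m h0), one_mul, hG]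
        simp only [add_tsub_cancel_of_le (hc2 m h0), if_true]
      · intro d _ hd
        rw [coeff_monomial_mul]
        split_ifs with h
        · rw [one_mul, hG]
          simp only [add_tsub_cancel_of_le h, if_neg hd.symm]
        · rfl
      · intro h
        exact absurd (hD.mem_toFinset.2 (hc1 m h0)) h
  rw [e]
  exact sum_mem fun d hd => I.mul_mem_right _ (hI d (hD.mem_toFinset.1 hd))

theorem psa_mem_span_X_iff {k : Type*} [CommRing k] (s : Set σ) (f : MvPowerSeries σ k) :
    f ∈ Ideal.span ((X : σ → MvPowerSeries σ k) '' s) ↔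
      ∀ m : σ →₀ ℕ, (∀ i ∈ s, m i = 0) → coeff m f = 0 := by
  classical
  constructor
  · intro hf
    induction hf using Submodule.span_induction with
    | mem x hx =>
      obtain ⟨i, hi, rfl⟩ := hx
      intro m hm
      rw [coeff_X, if_neg]
      rintro rfl
      simpa using hm i hi
    | zero => simp
    | add x y _ _ hx hy => intro m hm; simp [hx m hm, hy m hm]
    | smul a x _ hx =>
      intro m hm
      rw [smul_eq_mul, coeff_mul]
      refine Finset.sum_eq_zero fun p hp => ?_
      rw [hx p.2 fun i hi => ?_, mul_zero]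
      have h1 := hm i hi
      rw [← Finset.HasAntidiagonal.mem_antidiagonal.1 hp, Finsupp.add_apply] at h1
      omega
  · intro hf
    refine psa_mem_span_monomial (D := (fun i => Finsupp.single i 1) '' s) (s.toFinite.image _)
      ?_ fun m hm => ?_
    · rintro _ ⟨i, hi, rfl⟩
      exact Ideal.subset_span ⟨i, hi, rfl⟩
    · by_contra hc
      refine hm (hf m fun i hi => ?_)
      by_contra h0
      exact hc ⟨_, ⟨i, hi, rfl⟩, Finsupp.single_le_iff.2 (by omega)⟩

theorem psa_mem_span_range {k : Type*} [CommRing k] (f : MvPowerSeries σ k) :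
    f ∈ Ideal.span (Set.range (X : σ → MvPowerSeries σ k)) ↔ constantCoeff f = 0 := by
  rw [← Set.image_univ, psa_mem_span_X_iff, ← coeff_zero_eq_constantCoeff_apply]
  exact ⟨fun h => h 0 (by simp), fun h m hm => by
    rwa [show m = 0 from Finsupp.ext fun i => hm i trivial]⟩

theorem psa_mem_pow_iff {k : Type*} [CommRing k] (N : ℕ) (f : MvPowerSeries σ k) :
    f ∈ Ideal.span (Set.range (X : σ → MvPowerSeries σ k)) ^ N ↔
      ∀ m : σ →₀ ℕ, m.degree < N → coeff m f = 0 := by
  classical
  constructor
  · intro hf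
    suffices h : (N : ℕ∞) ≤ f.order from fun m hm =>
      coeff_of_lt_order (lt_of_lt_of_le (by exact_mod_cast hm) h)
    induction N generalizing f with
    | zero => simp
    | succ N ih =>
      rw [pow_succ] at hf
      refine Submodule.mul_induction_on hf (fun a ha b hb => ?_) fun a b ha hb => ?_
      · refine le_trans ?_ le_order_mul
        push_cast
        exact add_le_add (ih a ha) (one_le_order_iff_constCoeff_eq_zero.2
          ((psa_mem_span_range b).1 hb))
      · exact (le_min ha hb).trans min_order_le_add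
  · intro hf
    refine psa_mem_span_monomial (D := {d | d.degree = N})
      ((Finsupp.finite_of_degree_le N).subset fun d hd => le_of_eq hd) (fun d hd => ?_)
      fun m hm => ?_
    · have h1 : MvPolynomial.monomial d (1 : k) ∈ MvPolynomial.idealOfVars σ k ^ N :=
        (MvPolynomial.mem_pow_idealOfVars_iff' ..).2 fun x hx => by
          rw [MvPolynomial.coeff_monomial, if_neg]
          rintro rfl
          exact absurd hd hx.ne
      have h2 := Ideal.mem_map_of_mem (MvPolynomial.coeToMvPowerSeries.ringHom) h1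
      rw [Ideal.map_pow, MvPolynomial.idealOfVars, Ideal.map_span, ← Set.range_comp] at h2
      have e : ⇑MvPolynomial.coeToMvPowerSeries.ringHom ∘ (MvPolynomial.X : σ → MvPolynomial σ k) =
          X := by funext i; simp
      rw [e] at h2
      simpa using h2
    · obtain ⟨d, hd1, hd2⟩ := Finsupp.exists_le_degree_eq m N (by
        by_contra h; exact hm (hf m (by omega)))
      exact ⟨d, hd2, hd1⟩

theorem maximalIdeal_ps (k : Type*) [Field k] :
    maximalIdeal (MvPowerSeries σ k) = Ideal.span (Set.range X) := by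
  ext f
  rw [psa_mem_span_range, mem_maximalIdeal, mem_nonunits_iff, isUnit_iff_constantCoeff]
  simp

instance complete_ps (k : Type*) [Field k] :
    IsAdicComplete (maximalIdeal (MvPowerSeries σ k)) (MvPowerSeries σ k) := by
  rw [maximalIdeal_ps]; infer_instance

/-- evaluation of power series in a complete ring -/
theorem exists_ev {k B : Type*} [CommRing k] [CommRing B] (b : Ideal B) [IsAdicComplete b B]
    (κ : k →+* B) (x : σ → B) (hx : ∀ i, x i ∈ b) :
    ∃ ψ : MvPowerSeries σ k →+* B, (∀ c, ψ (C c) = κ c) ∧ ∀ i, ψ (X i) = x i := by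
  have h1 : ∀ n, MvPolynomial.idealOfVars σ k ^ n ≤
      (b ^ n).comap (MvPolynomial.eval₂Hom κ x) := by
    intro n
    rw [← Ideal.map_le_iff_le_comap, Ideal.map_pow]
    refine Ideal.pow_right_mono ?_ n
    rw [MvPolynomial.idealOfVars, Ideal.map_span, Ideal.span_le]
    rintro _ ⟨_, ⟨i, rfl⟩, rfl⟩
    simpa using hx i
  let f : (n : ℕ) → MvPowerSeries σ k →+* B ⧸ b ^ n := fun n =>
    (Ideal.quotientMap (b ^ n) (MvPolynomial.eval₂Hom κ x) (h1 n)).comp
      (truncTotalAlgHom σ k n).toRingHom
  have hf : ∀ n p, f n p = Ideal.Quotient.mk _ (MvPolynomial.eval₂Hom κ x (truncTotal n p)) :=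
    fun n p => rfl
  have hc : ∀ {m n : ℕ} (hle : m ≤ n), (Ideal.Quotient.factorPow b hle).comp (f n) = f m := by
    intro m n hle
    ext p
    rw [RingHom.comp_apply, hf, hf]
    change Ideal.Quotient.mk _ _ = _
    rw [Ideal.Quotient.eq, ← map_sub]
    exact h1 m (truncTotal_sub_truncTotal_mem_pow_idealOfVars hle le_rfl p)
  have key : ∀ p : MvPolynomial σ k,
      IsAdicComplete.liftRingHom b f hc p = MvPolynomial.eval₂Hom κ x p := by
    refine congrFun (IsHausdorff.funext' b fun n p => ?_)
    rw [IsAdicComplete.mk_liftRingHom]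
    exact congrArg (Ideal.quotientMap (b ^ n) (MvPolynomial.eval₂Hom κ x) (h1 n))
      ((truncTotalAlgHom σ k n).commutes p)
  refine ⟨IsAdicComplete.liftRingHom b f hc, fun c => ?_, fun i => ?_⟩
  · simpa using key (MvPolynomial.C c)
  · simpa using key (MvPolynomial.X i)

theorem ev_unique {k B : Type*} [CommRing k] [CommRing B] (b : Ideal B) [IsHausdorff b B]
    (ψ ψ' : MvPowerSeries σ k →+* B) (hC : ∀ c, ψ (C c) = ψ' (C c))
    (hX : ∀ i, ψ (X i) = ψ' (X i)) (hb : ∀ i, ψ (X i) ∈ b) : ψ = ψ' := by
  have h1 : ψ.comp MvPolynomial.coeToMvPowerSeries.ringHom =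
      ψ'.comp MvPolynomial.coeToMvPowerSeries.ringHom :=
    MvPolynomial.ringHom_ext (fun c => by simpa using hC c) fun i => by simpa using hX i
  have h2 : ∀ (φ : MvPowerSeries σ k →+* B), (∀ i, φ (X i) ∈ b) → ∀ n f,
      φ f - φ (truncTotal n f) ∈ b ^ n := by
    intro φ hφ n f
    have h3 : f - truncTotal n f ∈ Ideal.span (Set.range (X : σ → MvPowerSeries σ k)) ^ n :=
      (psa_mem_pow_iff n _).2 fun m hm => by simp [coeff_truncTotal _ hm]
    have h4 := Ideal.mem_map_of_mem φ h3
    rw [Ideal.map_pow, map_sub] at h4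
    refine Ideal.pow_right_mono ?_ n h4
    rw [Ideal.map_span, Ideal.span_le]
    rintro _ ⟨_, ⟨i, rfl⟩, rfl⟩
    exact hφ i
  refine DFunLike.coe_injective (IsHausdorff.funext' b fun n f => ?_)
  have h5 : ψ (truncTotal n f) = ψ' (truncTotal n f) := RingHom.congr_fun h1 _
  rw [Ideal.Quotient.eq]
  have := sub_mem (h2 ψ hb n f) (h2 ψ' (fun i => hX i ▸ hb i) n f)
  rw [h5] at this
  simpa using this

/-- the leading form of a power series -/
theorem exists_form {k : Type*} [CommRing k] (f : MvPowerSeries σ k) (N : ℕ)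
    (hf : f ∈ Ideal.span (Set.range (X : σ → MvPowerSeries σ k)) ^ N) :
    ∃ p : MvPolynomial σ k, p.IsHomogeneous N ∧
      f - p ∈ Ideal.span (Set.range (X : σ → MvPowerSeries σ k)) ^ (N + 1) := by
  classical
  refine ⟨MvPolynomial.homogeneousComponent N (truncTotal (N + 1) f),
    MvPolynomial.homogeneousComponent_isHomogeneous _ _, (psa_mem_pow_iff _ _).2 fun m hm => ?_⟩
  rw [map_sub, MvPolynomial.coeff_coe, MvPolynomial.coeff_homogeneousComponent,
    coeff_truncTotal _ hm]
  split_ifs with h
  · simp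
  · rw [(psa_mem_pow_iff _ _).1 hf m (by omega), sub_zero]

/-- a nonzero power series has a nonzero leading form -/
theorem exists_form_ne_zero {k : Type*} [CommRing k] (f : MvPowerSeries σ k) (hf : f ≠ 0) :
    ∃ (N : ℕ) (p : MvPolynomial σ k), p ≠ 0 ∧ p.IsHomogeneous N ∧
      f - p ∈ Ideal.span (Set.range (X : σ → MvPowerSeries σ k)) ^ (N + 1) := by
  have h1 := ne_zero_iff_order_finite.1 hf
  obtain ⟨d, hd1, hd2⟩ := exists_coeff_ne_zero_and_order h1
  obtain ⟨p, hp1, hp2⟩ := exists_form f d.degree ((psa_mem_pow_iff _ _).2 fun m hm =>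
    coeff_of_lt_order (by rw [← hd2]; exact_mod_cast hm))
  refine ⟨_, p, ?_, hp1, hp2⟩
  rintro rfl
  exact hd1 (by simpa using (psa_mem_pow_iff _ _).1 hp2 d (by omega))

theorem mem_span_X_iff {k : Type*} [CommRing k] (s : Set σ) (f : MvPowerSeries σ k) :
    f ∈ Ideal.span ((X : σ → MvPowerSeries σ k) '' s) ↔
      ∀ m : σ →₀ ℕ, (∀ i ∈ s, m i = 0) → coeff m f = 0 := by
  exact psa_mem_span_X_iff s f

/-- distinct variables form a regular sequence modulo other variables -/
theorem regSeq_X {k : Type*} [CommRing k] (l : List σ) (hl : l.Nodup) (s : Set σ)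
    (hs : ∀ i ∈ l, i ∉ s) :
    RegSeq (Ideal.span ((X : σ → MvPowerSeries σ k) '' s)) (l.map X) := by
  classical
  induction l generalizing s with
  | nil => trivial
  | cons j l ih =>
    obtain ⟨hj, hl⟩ := List.nodup_cons.1 hl
    refine ⟨fun b hb => ?_, ?_⟩
    · rw [mem_span_X_iff] at hb ⊢
      intro m hm
      have := hb (Finsupp.single j 1 + m) fun i hi => by
        have : j ≠ i := fun e => hs j (by simp) (e ▸ hi)
        simp [hm i hi, this]
      rwa [X_def, coeff_add_monomial_mul, one_mul] at this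
    · rw [← Ideal.span_union, Set.union_singleton, ← Set.image_insert_eq]
      refine ih hl _ fun i hi h => ?_
      rcases h with rfl | h
      · exact hj hi
      · exact hs i (by simp [hi]) h

end Vale.Agent.P202
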