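import Vale.Agent.P202.Kos
import Vale.Agent.P202.PSa
import Vale.Agent.P202.PSc

/-! Formal power series rings and complete local rings. -/

namespace Vale.Agent.P202

open IsLocalRing MvPowerSeries

variable {σ : Type} [Fintype σ]

theorem PS_ofList_X (k : Type*) [Field k] :
    Ideal.ofList ((Finset.univ : Finset σ).toList.map (X : σ → MvPowerSeries σ k)) =
      maximalIdeal (MvPowerSeries σ k) := by
  rw [maximalIdeal_ps, Ideal.ofList]
  congr 1
  ext f
  simp

theorem lim_ps (k : Type*) [Field k] :
    Lim (Fintype.card σ) (fun N => cl (maximalIdeal (MvPowerSeries σ k) ^ N)) 1 := by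
  have hG : Gen (⊥ : Ideal (MvPowerSeries σ k)) 0 := ⟨Fin.elim0, by simp⟩
  have hreg := regSeq_X (k := k) (Finset.univ : Finset σ).toList (Finset.nodup_toList _) ∅
    (by simp)
  simp only [Set.image_empty, Ideal.span_empty] at hreg
  have h := lim_regSeq hG _ hreg (e := 1) (by
      rw [PS_ofList_X]; exact ⟨1, by simp⟩) (by
      rw [PS_ofList_X]
      unfold Lim
      refine tendsto_const_nhds.congr' ?_
      filter_upwards [Filter.eventually_ge_atTop 1] with N hN
      have : (⊥ : Ideal (MvPowerSeries σ k)) ^ N = ⊥ := by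
        rw [← Ideal.zero_eq_bot, zero_pow (by omega)]
      rw [this, bot_sup_eq, sup_bot_eq, cl, rl_maximal]
      simp)
  rw [PS_ofList_X] at h
  simpa using h

/-- the exponent attached to a residue vector -/
noncomputable def PS_av {q : ℕ} (a : σ → Fin q) : σ →₀ ℕ :=
  Finsupp.equivFunOnFinite.symm fun i => (a i : ℕ)

theorem PS_av_apply {q : ℕ} (a : σ → Fin q) (i : σ) : PS_av a i = a i := rfl

theorem PS_coeff_key (L : Type*) [Field L] (p : ℕ) [Fact p.Prime] [CharP L p]
    [CharP (MvPowerSeries σ L) p] (e : ℕ) (a b : σ → Fin (p ^ e)) (m : σ →₀ ℕ)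
    (h : MvPowerSeries σ L) [Decidable (a = b)] :
    coeff (p ^ e • m + PS_av a)
      (monomial (PS_av b) (1 : L) * iterateFrobenius (MvPowerSeries σ L) p e h) =
      if a = b then iterateFrobenius L p e (coeff m h) else 0 := by
  classical
  have hp : p ≠ 0 := (Fact.out : p.Prime).ne_zero
  have hφ : iterateFrobenius (MvPowerSeries σ L) p e h =
      map (iterateFrobenius L p e) (expand (p ^ e) (pow_ne_zero e hp) h) := by
    rw [map_iterateFrobenius_expand p hp, iterateFrobenius_def]
  rw [hφ, coeff_monomial_mul, one_mul, coeff_map]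
  split_ifs with h1 h2 h2
  · subst h2
    rw [add_tsub_cancel_right, coeff_expand_smul]
  · obtain ⟨i, hi⟩ := Function.ne_iff.1 h2
    rw [coeff_expand_of_not_dvd (i := i), map_zero]
    intro hd
    have h3 : (b i : ℕ) ≤ p ^ e * m i + a i := by simpa [PS_av_apply] using h1 i
    have h4 : p ^ e ∣ p ^ e * m i + a i - b i := by simpa [PS_av_apply] using hd
    have h5 : (b i : ℕ) ≡ p ^ e * m i + a i [MOD p ^ e] := (Nat.modEq_iff_dvd' h3).2 h4
    have h6 : (b i : ℕ) ≡ a i [MOD p ^ e] := by
      unfold Nat.ModEq at h5 ⊢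
      rwa [Nat.mul_add_mod] at h5
    exact hi (Fin.ext (Nat.ModEq.eq_of_lt_of_lt h6 (b i).2 (a i).2).symm)
  · subst h2
    exact absurd le_add_self h1
  · rfl

/-- Frobenius on a power series ring over a perfect field has a finite dual basis -/
theorem dual_frobenius (L : Type*) [Field L] (p : ℕ) [Fact p.Prime] [CharP L p] [PerfectRing L p]
    [CharP (MvPowerSeries σ L) p] (e : ℕ) :
    Dual (iterateFrobenius (MvPowerSeries σ L) p e) := by
  classical
  have hp : 0 < p ^ e := pow_pos (Fact.out : p.Prime).pos e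
  let dec : (σ → Fin (p ^ e)) → MvPowerSeries σ L →+ MvPowerSeries σ L := fun a =>
    { toFun := fun f m => (iterateFrobeniusEquiv L p e).symm (coeff (p ^ e • m + PS_av a) f)
      map_zero' := by
        funext m
        rw [map_zero, map_zero]; rfl
      map_add' := fun f g => by
        funext m
        rw [map_add, map_add]; rfl }
  have hdec : ∀ a f m, coeff m (dec a f) =
      (iterateFrobeniusEquiv L p e).symm (coeff (p ^ e • m + PS_av a) f) := fun _ _ _ => rfl
  have hsum : ∀ (h : (σ → Fin (p ^ e)) → MvPowerSeries σ L) a m,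
      coeff (p ^ e • m + PS_av a) (∑ b, monomial (PS_av b) (1 : L) *
        iterateFrobenius (MvPowerSeries σ L) p e (h b)) =
        iterateFrobenius L p e (coeff m (h a)) := by
    intro h a m
    rw [map_sum]
    simp only [PS_coeff_key]
    simp
  have h1 : ∀ f : MvPowerSeries σ L, f = ∑ a, monomial (PS_av a) (1 : L) *
      iterateFrobenius (MvPowerSeries σ L) p e (dec a f) := by
    intro f
    ext n
    let a : σ → Fin (p ^ e) := fun i => ⟨n i % p ^ e, Nat.mod_lt _ hp⟩
    let m : σ →₀ ℕ := Finsupp.equivFunOnFinite.symm fun i => n i / p ^ e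
    have hn : n = p ^ e • m + PS_av a := by
      ext i
      simp only [Finsupp.add_apply, Finsupp.smul_apply, smul_eq_mul, PS_av_apply]
      exact (Nat.div_add_mod _ _).symm
    rw [hn, hsum, hdec]
    exact ((iterateFrobeniusEquiv L p e).apply_symm_apply _).symm
  refine ⟨σ → Fin (p ^ e), inferInstance, fun a => monomial (PS_av a) 1, dec, h1, ?_⟩
  intro a g f
  have h2 : iterateFrobenius (MvPowerSeries σ L) p e g * f = ∑ b, monomial (PS_av b) (1 : L) *
      iterateFrobenius (MvPowerSeries σ L) p e (g * dec b f) := by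
    conv_lhs => rw [h1 f]
    rw [Finset.mul_sum]
    refine Finset.sum_congr rfl fun b _ => ?_
    rw [map_mul]; ring
  ext m
  rw [hdec, h2, hsum]
  exact (iterateFrobeniusEquiv L p e).symm_apply_apply _

/-- a ring map from a power series ring sending the variables to distinct variables is flat -/
theorem cp_ps {τ : Type} [Fintype τ] {k L : Type*} [Field k] [Field L]
    (ψ : MvPowerSeries σ k →+* MvPowerSeries τ L) (e : σ → τ) (he : Function.Injective e)
    (hψ : ∀ i, ψ (X i) = X (e i)) : CP ψ ⊥ ⊥ := by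
  refine CP.of_regSeq ?_ ((Finset.univ : Finset σ).toList.map X) ?_ ?_
  · rw [maximalIdeal_ps, maximalIdeal_ps, Ideal.map_span, Ideal.span_le]
    rintro _ ⟨_, ⟨i, rfl⟩, rfl⟩
    rw [hψ]
    exact Ideal.subset_span ⟨_, rfl⟩
  · rw [PS_ofList_X, bot_sup_eq]
  · have hreg := regSeq_X (k := L) ((Finset.univ : Finset σ).toList.map e)
      ((Finset.nodup_toList _).map he) ∅ (by simp)
    simp only [Set.image_empty, Ideal.span_empty] at hreg
    rw [Ideal.map_bot, bot_sup_eq, List.map_map]
    rw [List.map_map] at hreg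
    have : (ψ ∘ X : σ → MvPowerSeries τ L) = X ∘ e := funext hψ
    rw [this]; exact hreg

end Vale.Agent.P202
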