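import Vale.Agent.P202.DeltaX

/-! Integral dependence of rank one elements in a prismatic envelope. -/

namespace Vale.Agent.P202

open IsLocalRing

variable {p : ℕ} [Fact p.Prime]

theorem star_step {A B : Type*} [CommRing A] [IsLocalRing A] [CommRing B] {φ0 : A →+* A}
    {δ0 : A → A} (h0 : IsDelta p φ0 δ0) {φ : B →+* B} {δ : B → B} (h : IsDelta p φ δ)
    (f : A →+* B) (hf : ∀ a, φ (f a) = f (φ0 a)) (hp : (p : A) ∈ maximalIdeal A) {t : A}
    (ht : t ∈ maximalIdeal A) (hφ : φ0 t = t ^ p) {J : Ideal B} (hJ : ∀ x ∈ J, δ x ∈ J)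
    {x w : B} {Ψ : A} (hΨ : Ψ ∈ maximalIdeal A) (h1 : x - f ((p : A) - t) * w ∈ J)
    (h2 : δ x - w ^ p * f Ψ ∈ J) :
    ∃ (w' : B) (u : A), δ w = -f u * w' ∧ w ^ p - f ((p : A) - t ^ p) * w' ∈ J := by
  have u0 := h0.isUnit_delta_xi hp ht hφ
  have u1 : IsUnit (δ0 ((p : A) - t) - Ψ) := by
    by_contra e
    have := add_mem ((mem_maximalIdeal _).2 e) hΨ
    rw [sub_add_cancel] at this
    exact (mem_maximalIdeal _).1 this u0
  obtain ⟨v, hv⟩ := u1.exists_right_inv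
  have hv' := congrArg f hv
  rw [map_mul, map_sub, map_one] at hv'
  have h3 := h.sub_mem hJ h1
  rw [h.mul, hf, h0.map h f hf, map_sub φ0, map_natCast, hφ] at h3
  refine ⟨-f v * δ w, δ0 ((p : A) - t) - Ψ, ?_, ?_⟩
  · rw [map_sub]; linear_combination -δ w * hv'
  · have := Ideal.mul_mem_left _ (f v) (Ideal.sub_mem _ h2 h3)
    convert this using 1
    linear_combination -w ^ p * hv'

/-- a rank one element divisible by `p - t` is highly divisible by `t` modulo `p` -/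
theorem star_div {A B : Type*} [CommRing A] [IsLocalRing A] [CommRing B] {φ0 : A →+* A}
    {δ0 : A → A} (h0 : IsDelta p φ0 δ0) {φ : B →+* B} {δ : B → B} (h : IsDelta p φ δ)
    (f : A →+* B) (hf : ∀ a, φ (f a) = f (φ0 a)) (hp : (p : A) ∈ maximalIdeal A) {t : A}
    (ht : t ∈ maximalIdeal A) (hφ : φ0 t = t ^ p) {J : Ideal B} (hJ : ∀ x ∈ J, δ x ∈ J) {b : B}
    (hb : φ b = b ^ p) (hmem : b ∈ Ideal.span {f ((p : A) - t)} ⊔ J) (j : ℕ) :
    b ^ p ^ j ∈ Ideal.span {f t ^ ((j + 1) * p ^ j)} ⊔ (J ⊔ Ideal.span {(p : B)}) := by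
  have p0 := (Fact.out : p.Prime).pos
  have key : ∀ i : ℕ, ∃ (w w' c : B) (u : A), δ w = -f u * w' ∧
      w ^ p - f ((p : A) - t ^ p ^ (i + 1)) * w' ∈ J ∧
      b ^ p ^ i - c * f t ^ ((i + 1) * p ^ i) * w ∈ J ⊔ Ideal.span {(p : B)} := by
    intro i
    induction i with
    | zero =>
      obtain ⟨y, hy, z, hz, e⟩ := Submodule.mem_sup.1 hmem
      obtain ⟨w, rfl⟩ := Ideal.mem_span_singleton.1 hy
      have h1 : b - f ((p : A) - t) * w ∈ J := by rw [← e]; simpa using hz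
      obtain ⟨w', u, a1, a2⟩ := star_step h0 h f hf hp ht hφ hJ (Ψ := 0) (zero_mem _) h1
        (by simp [h.eq_zero hb])
      refine ⟨w, w', -1, u, a1, by simpa using a2, ?_⟩
      have : b ^ p ^ 0 - -1 * f t ^ ((0 + 1) * p ^ 0) * w = (b - f ((p : A) - t) * w) + p * w := by
        rw [map_sub, map_natCast]; ring
      rw [this]
      exact add_mem (Ideal.mem_sup_left h1) (Ideal.mem_sup_right
        (Ideal.mul_mem_right _ _ (Ideal.mem_span_singleton_self _)))
    | succ i ih =>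
      obtain ⟨w, w', c, u, a1, a2, a3⟩ := ih
      obtain ⟨w'', u', b1, b2⟩ := star_step h0 h f hf hp (t := t ^ p ^ (i + 1))
        (Ideal.pow_mem_of_mem _ ht _ (by positivity)) (by rw [map_pow, hφ, ← pow_mul, ← pow_mul, mul_comm])
        hJ (Ψ := ∑ k ∈ Finset.range p, (p.choose (k + 1) : A) * (p : A) ^ k * (-u) ^ (k + 1) *
          ((p : A) - t ^ p ^ (i + 1)) ^ (p - (k + 1))) (Ideal.sum_mem _ fun k _ => by
            refine Ideal.mul_mem_right _ _ (Ideal.mul_mem_right _ _ ?_)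
            rcases k with _ | k
            · simpa using hp
            · exact Ideal.mul_mem_left _ _ (Ideal.pow_mem_of_mem _ hp _ (Nat.succ_pos k))) a2 (by
            rw [h.delta_pow, map_sum, Finset.mul_sum, ← Finset.sum_sub_distrib]
            refine Ideal.sum_mem _ fun k hk => ?_
            have e : w' ^ p = w' ^ (k + 1) * w' ^ (p - (k + 1)) := by
              rw [← pow_add, Nat.add_sub_cancel' (Finset.mem_range.1 hk)]
            have := Ideal.mul_mem_left _ ((p.choose (k + 1) : B) * (p : B) ^ k * δ w ^ (k + 1))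
              (Ideal.mem_of_dvd _ (sub_dvd_pow_sub_pow _ _ (p - (k + 1))) a2)
            convert this using 1
            rw [e, a1]
            simp only [map_mul, map_pow, map_natCast, map_neg, mul_pow]
            ring)
      refine ⟨w', w'', -c ^ p, u', b1, by rwa [← pow_mul, ← pow_succ] at b2, ?_⟩
      have c1 := Ideal.mem_of_dvd _ (sub_dvd_pow_sub_pow _ _ p) a3
      have : b ^ p ^ (i + 1) - -c ^ p * f t ^ ((i + 1 + 1) * p ^ (i + 1)) * w' =
          ((b ^ p ^ i) ^ p - (c * f t ^ ((i + 1) * p ^ i) * w) ^ p) +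
          c ^ p * f t ^ ((i + 1) * p ^ (i + 1)) *
            ((w ^ p - f ((p : A) - t ^ p ^ (i + 1)) * w') + p * w') := by
        rw [map_sub, map_natCast, map_pow]; ring
      rw [this]
      exact add_mem c1 (Ideal.mul_mem_left _ _ (add_mem (Ideal.mem_sup_left a2) (Ideal.mem_sup_right
        (Ideal.mul_mem_right _ _ (Ideal.mem_span_singleton_self _)))))
  obtain ⟨w, -, c, -, -, -, a3⟩ := key j
  rw [← sub_add_cancel (b ^ p ^ j) (c * f t ^ ((j + 1) * p ^ j) * w)]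
  exact add_mem (Ideal.mem_sup_right a3) (Ideal.mem_sup_left (Ideal.mul_mem_right _ _
    (Ideal.mul_mem_left _ _ (Ideal.mem_span_singleton_self _))))

/-- clearing denominators in a chart of the blow-up -/
theorem star_homog {B : Type*} [CommRing B] (q W : Ideal B) (b : B) {κ : Type*} (fs : κ → B)
    (hfs : ∀ s, fs s ∈ W) (n : ℕ) (w : B) (hw : w ∈ W ^ (n + 1)) (σ ω : MvPolynomial κ B)
    (hσ : σ - 1 ∈ Ideal.span (Set.range (MvPolynomial.X : κ → MvPolynomial κ B)))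
    (h : σ * MvPolynomial.C b ^ (n + 1) - MvPolynomial.C w * ω ∈ q.map MvPolynomial.C ⊔
      Ideal.span (Set.range fun s => MvPolynomial.C b * MvPolynomial.X s - MvPolynomial.C (fs s))) :
    ∃ r : ℕ, b ^ (r + 1) ∈ q ⊔ W * (W ⊔ Ideal.span {b}) ^ r := by
  let L := Localization.Away (Ideal.Quotient.mk q b)
  let g : B →+* L := (algebraMap (B ⧸ q) L).comp (Ideal.Quotient.mk q)
  let bi : L := IsLocalization.Away.invSelf (S := L) (Ideal.Quotient.mk q b : B ⧸ q)
  have hb : g b * bi = 1 := IsLocalization.Away.mul_invSelf (S := L) (Ideal.Quotient.mk q b : B ⧸ q)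
  let ev : MvPolynomial κ B →+* L := MvPolynomial.eval₂Hom g fun s => g (fs s) * bi
  have eC : ∀ c, ev (MvPolynomial.C c) = g c := fun c => MvPolynomial.eval₂Hom_C _ _ c
  have eX : ∀ s, ev (MvPolynomial.X s) * g b = g (fs s) := fun s => by
    rw [MvPolynomial.eval₂Hom_X', mul_assoc, mul_comm bi, hb, mul_one]
  set V := W ⊔ Ideal.span {b} with hV
  have bV : ∀ k, b ^ k ∈ V ^ k := fun k =>
    Ideal.pow_mem_pow (Ideal.mem_sup_right (Ideal.mem_span_singleton_self b)) k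
  have mm : ∀ {r k : ℕ} {a c : B}, a ∈ V ^ r → c ∈ V ^ k → a * c ∈ V ^ (r + k) := fun ha hc => by
    rw [pow_add]; exact Ideal.mul_mem_mul ha hc
  have mw : ∀ {r k : ℕ} {a c : B}, a ∈ W * V ^ r → c ∈ V ^ k → a * c ∈ W * V ^ (r + k) :=
    fun ha hc => by rw [pow_add, ← mul_assoc]; exact Ideal.mul_mem_mul ha hc
  have Q0 : ∀ x, ∃ r, ∃ a ∈ V ^ r, ev x * g b ^ r = g a := fun x => by
    induction x using MvPolynomial.induction_on with
    | C c => exact ⟨0, c, by simp, by rw [eC, pow_zero, mul_one]⟩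
    | add x y hx hy =>
      obtain ⟨r, a, ha, e⟩ := hx
      obtain ⟨r', a', ha', e'⟩ := hy
      refine ⟨r + r', a * b ^ r' + a' * b ^ r, add_mem (mm ha (bV _))
        (add_comm r' r ▸ mm ha' (bV _)), ?_⟩
      simp only [map_add, map_mul, map_pow, ← e, ← e']; ring
    | mul_X x s hx =>
      obtain ⟨r, a, ha, e⟩ := hx
      refine ⟨r + 1, a * fs s, mm ha (by rw [pow_one]; exact Ideal.mem_sup_left (hfs s)), ?_⟩
      simp only [map_mul, ← e, ← eX]; ring
  have Q1 : ∀ x ∈ Ideal.span (Set.range (MvPolynomial.X : κ → MvPolynomial κ B)),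
      ∃ r, ∃ a ∈ W * V ^ r, ev x * g b ^ (r + 1) = g a := fun x hx => by
    induction hx using Submodule.span_induction with
    | mem x hx =>
      obtain ⟨s, rfl⟩ := hx
      exact ⟨0, fs s, by simpa using hfs s, by rw [zero_add, pow_one, eX]⟩
    | zero => exact ⟨0, 0, zero_mem _, by simp⟩
    | add x y _ _ hx hy =>
      obtain ⟨r, a, ha, e⟩ := hx
      obtain ⟨r', a', ha', e'⟩ := hy
      refine ⟨r + r', a * b ^ r' + a' * b ^ r, add_mem (mw ha (bV _))
        (add_comm r' r ▸ mw ha' (bV _)), ?_⟩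
      simp only [map_add, map_mul, map_pow, ← e, ← e']; ring
    | smul c x _ hx =>
      obtain ⟨r, a, ha, e⟩ := hx
      obtain ⟨r', a', ha', e'⟩ := Q0 c
      refine ⟨r + r', a * a', mw ha ha', ?_⟩
      simp only [smul_eq_mul, map_mul, ← e, ← e']; ring
  have hk : q.map MvPolynomial.C ⊔ Ideal.span (Set.range fun s =>
      MvPolynomial.C b * MvPolynomial.X s - MvPolynomial.C (fs s)) ≤ RingHom.ker ev := by
    refine sup_le (Ideal.map_le_iff_le_comap.2 fun x hx => ?_) (Ideal.span_le.2 ?_)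
    · rw [Ideal.mem_comap, RingHom.mem_ker, eC]
      show algebraMap (B ⧸ q) L (Ideal.Quotient.mk q x) = 0
      rw [Ideal.Quotient.eq_zero_iff_mem.2 hx, map_zero]
    · rintro _ ⟨s, rfl⟩
      show ev _ = 0
      rw [map_sub, map_mul, eC, eC, mul_comm, eX, sub_self]
  have h1 : ev _ = 0 := hk h
  obtain ⟨r0, a0, ha0, e0⟩ := Q0 ω
  obtain ⟨r1, a1, ha1, e1⟩ := Q1 _ hσ
  simp only [map_sub, map_mul, map_pow, map_one, eC] at h1 e1
  have h2 : algebraMap (B ⧸ q) L (Ideal.Quotient.mk q (b ^ (n + r0 + r1 + 2) +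
      a1 * b ^ (r0 + n + 1) - w * a0 * b ^ (r1 + 1))) = 0 := by
    show g _ = 0
    simp only [map_sub, map_add, map_mul, map_pow, ← e0, ← e1]
    linear_combination g b ^ (r0 + r1 + 1) * h1
  obtain ⟨⟨_, k, rfl⟩, hk⟩ := (IsLocalization.map_eq_zero_iff
    (Submonoid.powers (Ideal.Quotient.mk q b)) L _).1 h2
  simp only at hk
  rw [← map_pow, ← map_mul, Ideal.Quotient.eq_zero_iff_mem] at hk
  refine ⟨k + n + r0 + r1 + 1, ?_⟩
  have : b ^ (k + n + r0 + r1 + 1 + 1) = b ^ k * (b ^ (n + r0 + r1 + 2) +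
      a1 * b ^ (r0 + n + 1) - w * a0 * b ^ (r1 + 1)) +
      (w * a0 * b ^ (r1 + 1 + k) - a1 * b ^ (r0 + n + 1 + k)) := by ring
  rw [this]
  refine add_mem (Ideal.mem_sup_left hk) (Ideal.mem_sup_right (sub_mem ?_ ?_))
  · have w1 : w ∈ W * V ^ n := by
      rw [pow_succ'] at hw
      exact Ideal.mul_mono_right (Ideal.pow_right_mono le_sup_left n) hw
    have := mw (mw w1 ha0) (bV (r1 + 1 + k))
    rwa [show n + r0 + (r1 + 1 + k) = k + n + r0 + r1 + 1 by ring] at this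
  · have := mw ha1 (bV (r0 + n + 1 + k))
    rwa [show r1 + (r0 + n + 1 + k) = k + n + r0 + r1 + 1 by ring] at this

theorem star_ex {B : Type*} [CommRing B] (b : B) {κ : Type*} (fs : κ → B)
    (J1 : Ideal (MvPolynomial κ B))
    (hJ : ∀ s, MvPolynomial.C b * MvPolynomial.X s - MvPolynomial.C (fs s) ∈ J1) {x : B}
    (hx : x ∈ Ideal.span (Set.range fs)) :
    ∃ σ ∈ Ideal.span (Set.range (MvPolynomial.X : κ → MvPolynomial κ B)),
      MvPolynomial.C b * σ - MvPolynomial.C x ∈ J1 := by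
  induction hx using Submodule.span_induction with
  | mem x hx =>
    obtain ⟨s, rfl⟩ := hx
    exact ⟨_, Ideal.subset_span ⟨s, rfl⟩, hJ s⟩
  | zero => exact ⟨0, zero_mem _, by simp⟩
  | add x y _ _ hx hy =>
    obtain ⟨σ, a, a'⟩ := hx
    obtain ⟨σ', c, c'⟩ := hy
    refine ⟨σ + σ', add_mem a c, ?_⟩
    convert add_mem a' c' using 1
    rw [map_add]; ring
  | smul c x _ hx =>
    obtain ⟨σ, a, a'⟩ := hx
    refine ⟨MvPolynomial.C c * σ, Ideal.mul_mem_left _ _ a, ?_⟩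
    convert Ideal.mul_mem_left _ (MvPolynomial.C c) a' using 1
    rw [smul_eq_mul, map_mul]; ring

/-- localized version of `star_div` -/
theorem star_loc {A B : Type*} [CommRing A] [IsLocalRing A] [CommRing B] {φ0 : A →+* A}
    {δ0 : A → A} (h0 : IsDelta p φ0 δ0) {φ : B →+* B} {δ : B → B} (h : IsDelta p φ δ)
    (f : A →+* B) (hf : ∀ a, φ (f a) = f (φ0 a)) (hp : (p : A) ∈ maximalIdeal A) {t : A}
    (ht : t ∈ maximalIdeal A) (hφ : φ0 t = t ^ p) {J : Ideal B} (hJ : ∀ x ∈ J, δ x ∈ J) {b : B}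
    (hb : φ b = b ^ p) (I : Ideal B) (φI : ∀ x ∈ I, φ x ∈ I) {σ : B} (hσ : σ ∈ I)
    (hmem : b * (1 - σ) ∈ Ideal.span {f ((p : A) - t)} ⊔ J) (j : ℕ) :
    ∃ τ, τ - 1 ∈ I ∧
      τ * b ^ p ^ j ∈ Ideal.span {f t ^ ((j + 1) * p ^ j)} ⊔ (J ⊔ Ideal.span {(p : B)}) := by
  let S : Submonoid B := (⊥ : Submonoid (B ⧸ I)).comap (Ideal.Quotient.mk I)
  have mS : ∀ σ, σ ∈ S ↔ σ - 1 ∈ I := fun σ => by
    rw [← Ideal.Quotient.eq, map_one]; rfl
  obtain ⟨φ2, δ2, h2, hl⟩ := h.localization S (fun σ hσ => by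
    have : φ (σ - 1) ∈ I := φI _ ((mS σ).1 hσ)
    rwa [map_sub, map_one, ← mS] at this) (Localization S)
  have sJ2 : ∀ x ∈ J.map (algebraMap B (Localization S)),
      δ2 x ∈ J.map (algebraMap B (Localization S)) := h2.span_stable _ (by
    rintro _ ⟨x, hx, rfl⟩
    rw [h.map h2 _ hl]
    exact Ideal.mem_map_of_mem _ (hJ x hx))
  have u : IsUnit (algebraMap B (Localization S) (1 - σ)) :=
    IsLocalization.map_units (Localization S) (⟨1 - σ, (mS _).2 (by simpa using hσ)⟩ : S)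
  have m2 : algebraMap B (Localization S) b ∈
      Ideal.span {((algebraMap B (Localization S)).comp f) ((p : A) - t)} ⊔
      J.map (algebraMap B (Localization S)) := by
    refine (Ideal.mul_unit_mem_iff_mem _ u).1 ?_
    have := Ideal.mem_map_of_mem (algebraMap B (Localization S)) hmem
    rwa [Ideal.map_sup, Ideal.map_span, Set.image_singleton, map_mul] at this
  have m3 := star_div h0 h2 ((algebraMap B (Localization S)).comp f)
    (fun a => by simp only [RingHom.comp_apply]; rw [hl, hf]) hp ht hφ sJ2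
    (by rw [hl, hb, map_pow]) m2 j
  refine ((IsLocalization.algebraMap_mem_map_algebraMap_iff S (Localization S) _ _).1 ?_).imp
    fun τ hτ => ⟨(mS τ).1 hτ.1, hτ.2⟩
  rw [Ideal.map_sup, Ideal.map_sup, Ideal.map_span, Ideal.map_span, Set.image_singleton,
    Set.image_singleton, map_pow, map_pow, map_natCast]
  exact m3

theorem star_int {A B : Type*} [CommRing A] [IsLocalRing A] [CommRing B] {φ0 : A →+* A}
    {δ0 : A → A} (h0 : IsDelta p φ0 δ0) {φ : B →+* B} {δ : B → B} (h : IsDelta p φ δ)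
    (f : A →+* B) (hf : ∀ a, φ (f a) = f (φ0 a)) (hp : (p : A) ∈ maximalIdeal A) {t : A}
    (ht : t ∈ maximalIdeal A) (hφ : φ0 t = t ^ p) {J : Ideal B} (hJ : ∀ x ∈ J, δ x ∈ J) {b : B}
    (hb : φ b = b ^ p) {κ : Type*} (fs : κ → B) (hfs : ∀ s, φ (fs s) = fs s ^ p)
    (hmem : b ∈ Ideal.span (Set.range fs) ⊔ Ideal.span {f ((p : A) - t)} ⊔ J) (K : ℕ) :
    ∃ r : ℕ, b ^ (r + 1) ∈ (J ⊔ Ideal.span {(p : B)}) ⊔
      (Ideal.span (Set.range fs) ⊔ Ideal.span {f t ^ K}) *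
        ((Ideal.span (Set.range fs) ⊔ Ideal.span {f t ^ K}) ⊔ Ideal.span {b}) ^ r := by
  have p0 := (Fact.out : p.Prime).pos
  obtain ⟨φ1, δ1, h1, hC, hX⟩ := h.mvPolynomial (σ := κ) fun _ => 0
  have hX' : ∀ s, φ1 (MvPolynomial.X s) = MvPolynomial.X s ^ p := fun s => by
    rw [h1.eq, hX, mul_zero, add_zero]
  obtain ⟨J1, hJ1⟩ : ∃ J1 : Ideal (MvPolynomial κ B), J1 = Ideal.span (MvPolynomial.C '' (J : Set B) ∪
    Set.range fun s => MvPolynomial.C b * MvPolynomial.X s - MvPolynomial.C (fs s)) := ⟨_, rfl⟩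
  have mR : ∀ s, MvPolynomial.C b * MvPolynomial.X s - MvPolynomial.C (fs s) ∈ J1 := fun s =>
    hJ1 ▸ Ideal.subset_span (Or.inr ⟨s, rfl⟩)
  have mJ : ∀ x ∈ J, MvPolynomial.C x ∈ J1 := fun x hx =>
    hJ1 ▸ Ideal.subset_span (Or.inl ⟨x, hx, rfl⟩)
  have sJ1 : ∀ x ∈ J1, δ1 x ∈ J1 := by
    have := h1.span_stable (MvPolynomial.C '' (J : Set B) ∪
      Set.range fun s => MvPolynomial.C b * MvPolynomial.X s - MvPolynomial.C (fs s))
    rw [← hJ1] at this
    refine this ?_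
    rintro _ (⟨x, hx, rfl⟩ | ⟨s, rfl⟩)
    · rw [h.map h1 _ hC]
      exact mJ _ (hJ x hx)
    · refine (Ideal.span_singleton_le_iff_mem _).2 (mR s) (h1.rank_one_sub ?_ ?_)
      · rw [map_mul, hC, hb, hX', map_pow, mul_pow]
      · rw [hC, hfs, map_pow]
  have φI : Ideal.span (Set.range (MvPolynomial.X : κ → MvPolynomial κ B)) ≤
      (Ideal.span (Set.range (MvPolynomial.X : κ → MvPolynomial κ B))).comap φ1 :=
    Ideal.span_le.2 (by
      rintro _ ⟨s, rfl⟩
      rw [SetLike.mem_coe, Ideal.mem_comap, hX']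
      exact Ideal.pow_mem_of_mem _ (Ideal.subset_span (Set.mem_range_self s)) _ p0)
  obtain ⟨y, hy, z, hz, e⟩ := Submodule.mem_sup.1 hmem
  obtain ⟨x, hx, y1, hy1, rfl⟩ := Submodule.mem_sup.1 hy
  obtain ⟨c, rfl⟩ := Ideal.mem_span_singleton.1 hy1
  obtain ⟨σ, hσ, hσ'⟩ := star_ex b fs J1 mR hx
  obtain ⟨τ, hτ, m5⟩ := star_loc h0 h1 (MvPolynomial.C.comp f)
    (fun a => by simp only [RingHom.comp_apply]; rw [hC, hf]) hp ht hφ sJ1
    (b := MvPolynomial.C b) (by rw [hC, hb, map_pow]) _ φI hσ (by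
    have : MvPolynomial.C b * (1 - σ) = MvPolynomial.C (f ((p : A) - t)) * MvPolynomial.C c +
        (MvPolynomial.C z - (MvPolynomial.C b * σ - MvPolynomial.C x)) := by
      have := congrArg (MvPolynomial.C (σ := κ)) e
      rw [map_add, map_add, map_mul] at this
      linear_combination -this
    rw [this]
    exact add_mem (Ideal.mem_sup_left (Ideal.mul_mem_right _ _ (Ideal.mem_span_singleton_self _)))
      (Ideal.mem_sup_right (Ideal.sub_mem _ (mJ z hz) hσ'))) K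
  obtain ⟨y', hy', z', hz', e'⟩ := Submodule.mem_sup.1 m5
  obtain ⟨ω, rfl⟩ := Ideal.mem_span_singleton.1 hy'
  obtain ⟨n, hn⟩ : ∃ n, p ^ K = n + 1 := Nat.exists_eq_succ_of_ne_zero (by positivity)
  refine star_homog _ _ b fs (fun s => Ideal.mem_sup_left (Ideal.subset_span ⟨s, rfl⟩)) n
    (f t ^ ((K + 1) * p ^ K)) ?_ τ ω hτ ?_
  · rw [← hn, add_mul, pow_add, pow_mul]
    exact Ideal.mul_mem_right _ _ (Ideal.pow_mem_pow
      (Ideal.mem_sup_right (Ideal.mem_span_singleton_self _)) _)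
  · rw [← hn, ← e', map_pow, RingHom.comp_apply, add_sub_cancel_left]
    refine (sup_le ?_ ?_ : J1 ⊔ _ ≤ _) hz'
    · rw [hJ1, Ideal.span_le]
      rintro _ (⟨x, hx, rfl⟩ | hx)
      · exact Ideal.mem_sup_left (Ideal.mem_map_of_mem _ (Ideal.mem_sup_left hx))
      · exact Ideal.mem_sup_right (Ideal.subset_span hx)
    · rw [Ideal.span_singleton_le_iff_mem, ← map_natCast MvPolynomial.C]
      exact Ideal.mem_sup_left (Ideal.mem_map_of_mem _
        (Ideal.mem_sup_right (Ideal.mem_span_singleton_self _)))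

theorem star_red {P : Type*} [CommRing P] (q W : Ideal P) (β : P) (r : ℕ)
    (h : β ^ (r + 1) ∈ q ⊔ W * (W ⊔ Ideal.span {β}) ^ r) (N : ℕ) : β ^ (r + N) ∈ q ⊔ W ^ N := by
  set V := W ⊔ Ideal.span {β} with hV
  have h1 : ∀ m, V ^ (m + 1) ≤ W * V ^ m ⊔ Ideal.span {β} ^ (m + 1) := fun m => by
    induction m with
    | zero => simp [hV]
    | succ m ih =>
      rw [pow_succ' V]
      refine (Ideal.mul_mono_right ih).trans ?_
      rw [Ideal.mul_sup]
      refine sup_le (le_sup_of_le_left (le_of_eq (by ring))) ?_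
      rw [hV, Ideal.sup_mul]
      exact sup_le_sup (Ideal.mul_mono_right (Ideal.pow_right_mono le_sup_right _))
        (le_of_eq (by ring))
  have h2 : V ^ (r + 1) ≤ q ⊔ W * V ^ r := (h1 r).trans (sup_le le_sup_right (by
    rw [Ideal.span_singleton_pow, Ideal.span_singleton_le_iff_mem]; exact h))
  have h3 : ∀ N, V ^ (r + N) ≤ q ⊔ W ^ N * V ^ r := fun N => by
    induction N with
    | zero => simp
    | succ N ih =>
      rw [← add_assoc, pow_succ V]
      refine (Ideal.mul_mono_left ih).trans ?_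
      rw [Ideal.sup_mul, mul_assoc, ← pow_succ]
      refine sup_le (le_sup_of_le_left Ideal.mul_le_left) ((Ideal.mul_mono_right h2).trans ?_)
      rw [Ideal.mul_sup]
      exact sup_le_sup Ideal.mul_le_right (le_of_eq (by ring))
  exact (sup_le_sup_left Ideal.mul_le_left q) (h3 N
    (Ideal.pow_mem_pow (Ideal.mem_sup_right (Ideal.mem_span_singleton_self β)) _))

/-- raising a congruence modulo `p` to a large power -/
theorem star_pow (r ν a K : ℕ) : ∃ e0 : ℕ, ∀ e, e0 ≤ e → ∀ (P : Type*) [CommRing P] (β τ : P)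
    (F : Ideal P), τ ^ p ^ e = p →
    β ^ (r + 1) ∈ Ideal.span {(p : P)} ⊔ (F ⊔ Ideal.span {τ ^ (K * p ^ (ν + a + 1))}) *
      ((F ⊔ Ideal.span {τ ^ (K * p ^ (ν + a + 1))}) ⊔ Ideal.span {β}) ^ r →
    β ^ p ^ (e - ν) ∈ F ^ (p ^ (e - ν) - p ^ (e - ν - a)) ⊔ Ideal.span {(p : P) ^ K} := by
  refine ⟨ν + a + 1 + K + r, fun e he P _ β τ F hτ h => ?_⟩
  obtain ⟨d, rfl⟩ := Nat.exists_eq_add_of_le he
  have p2 := (Fact.out : p.Prime).two_le
  have e1 : ν + a + 1 + K + r + d - ν = (a + 1 + r + d) + K := by omega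
  have e2 : (a + 1 + r + d) + K - a = (r + d + K) + 1 := by omega
  rw [e1, e2]
  have l1 : r ≤ p ^ (r + d) :=
    (Nat.lt_pow_self (by omega)).le.trans (Nat.pow_le_pow_right (by omega) (Nat.le_add_right _ _))
  have l2 : p ^ (r + d) ≤ p ^ (a + 1 + r + d) := Nat.pow_le_pow_right (by omega) (by omega)
  obtain ⟨N, hN⟩ := Nat.exists_eq_add_of_le (l1.trans l2)
  have h1 := star_red _ _ β r h N
  rw [← hN] at h1
  obtain ⟨y, hy, z, hz, e⟩ := Submodule.mem_sup.1 h1
  have h2 : (p : P) ∣ β ^ p ^ (a + 1 + r + d) - z := by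
    rw [← e, add_sub_cancel_right]; exact Ideal.mem_span_singleton.1 hy
  have h3 := dvd_sub_pow_of_dvd_sub h2 K
  rw [← pow_mul, ← pow_add] at h3
  rw [← sub_add_cancel (β ^ p ^ (a + 1 + r + d + K)) (z ^ p ^ K)]
  refine add_mem (Ideal.mem_sup_right (Ideal.mem_span_singleton.2
    ((pow_dvd_pow _ (Nat.le_succ K)).trans h3))) ?_
  have h4 := Ideal.pow_mem_pow hz (p ^ K)
  rw [← pow_mul] at h4
  have l3 : p ^ (a + 1 + r + d + K) - p ^ (r + d + K + 1) + p ^ (r + d + K) ≤ N * p ^ K := by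
    have t1 : p ^ (r + d + K + 1) ≤ p ^ (a + 1 + r + d + K) :=
      Nat.pow_le_pow_right (by omega) (by omega)
    have t2 : p ^ (a + 1 + r + d + K) = r * p ^ K + N * p ^ K := by rw [pow_add, hN, add_mul]
    have t3 : r * p ^ K ≤ p ^ (r + d + K) := by
      rw [pow_add _ (r + d)]; exact Nat.mul_le_mul_right _ l1
    have t4 : 2 * p ^ (r + d + K) ≤ p ^ (r + d + K + 1) := by
      rw [pow_succ, mul_comm]; exact Nat.mul_le_mul_left _ p2
    omega
  have h5 := Ideal.sup_pow_add_le_pow_sup_pow (Ideal.pow_le_pow_right l3 h4)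
  rw [Ideal.span_singleton_pow, ← pow_mul, mul_assoc, ← pow_add, mul_comm K, pow_mul,
    show ν + a + 1 + (r + d + K) = ν + a + 1 + K + r + d by ring, hτ] at h5
  exact h5

end Vale.Agent.P202
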