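import Vale.Agent.P202.PL
import Vale.Agent.P202.Star
import Vale.Agent.P202.Small

/-! Cohen-Macaulay algebras over complete intersections with roots of the coordinates. -/

namespace Vale.Agent.P202

open IsLocalRing MvPowerSeries

universe v

theorem prism_arith {p k a ν f : ℕ} (hp : 2 ≤ p) (h : k * p ^ (a + 1) ≤ p ^ ν) :
    p ^ (ν + a + 1 + f) - p ^ (ν + a + 1 + f - a) ≤
      (p ^ ν - k) * (p ^ (ν + a + 1 + f - ν) - p ^ (ν + a + 1 + f - ν - (a + 1))) := by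
  have e1 : ν + a + 1 + f - a = ν + 1 + f := by omega
  have e2 : ν + a + 1 + f - ν = a + 1 + f := by omega
  have e3 : a + 1 + f - (a + 1) = f := by omega
  rw [e1, e2, e3]
  have h1 : 1 ≤ p ^ (a + 1) := Nat.one_le_pow _ _ (by omega)
  have h2 : k ≤ p ^ ν := le_trans (Nat.le_mul_of_pos_right _ h1) h
  have h3 : p ^ f ≤ p ^ (a + 1 + f) := Nat.pow_le_pow_right (by omega) (by omega)
  rw [tsub_le_iff_right]
  zify [h2, h3] at h hp ⊢
  have e4 : (p : ℤ) ^ (ν + a + 1 + f) = p ^ ν * p ^ (a + 1) * p ^ f := by ring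
  have e5 : (p : ℤ) ^ (a + 1 + f) = p ^ (a + 1) * p ^ f := by ring
  have e6 : (p : ℤ) ^ (ν + 1 + f) = p ^ ν * p * p ^ f := by ring
  rw [e4, e5, e6]
  have h4 : (0 : ℤ) ≤ p ^ f := by positivity
  have h5 : (0 : ℤ) ≤ p ^ ν := by positivity
  have h6 : (0 : ℤ) ≤ k := by positivity
  have h7 : (0 : ℤ) ≤ p ^ ν * p - p ^ ν - k * p ^ (a + 1) + k := by nlinarith
  nlinarith [mul_nonneg h7 h4]

theorem prism_fin {B ι : Type*} [CommRing B] (r : ι → ℕ → B) {x : B}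
    (hx : x ∈ Ideal.span (Set.range fun z : ι × ℕ => r z.1 z.2)) :
    ∃ j0 : ℕ, ∀ (P : Type*) [CommRing P] (χ : B →+* P), (∀ i, ∀ j ≤ j0, χ (r i j) = 0) → χ x = 0 := by
  induction hx using Submodule.span_induction with
  | mem x hx =>
    obtain ⟨z, rfl⟩ := hx
    exact ⟨z.2, fun P _ χ h => h _ _ le_rfl⟩
  | zero => exact ⟨0, fun P _ χ _ => map_zero χ⟩
  | add x y _ _ hx hy =>
    obtain ⟨a, ha⟩ := hx
    obtain ⟨b, hb⟩ := hy
    refine ⟨max a b, fun P _ χ h => ?_⟩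
    rw [map_add, ha P χ fun i j hj => h i j (hj.trans (le_max_left _ _)),
      hb P χ fun i j hj => h i j (hj.trans (le_max_right _ _)), add_zero]
  | smul c x _ hx =>
    obtain ⟨a, ha⟩ := hx
    exact ⟨a, fun P _ χ h => by rw [smul_eq_mul, map_mul, ha P χ h, mul_zero]⟩

/-- the star property for one element -/
theorem prism_star {p : ℕ} [Fact p.Prime] {A B : Type*} [CommRing A] [IsLocalRing A] [CommRing B]
    {φ0 : A →+* A} {δ0 : A → A} (h0 : IsDelta p φ0 δ0) {φ : B →+* B} {δ : B → B}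
    (h : IsDelta p φ δ) (f : A →+* B) (hf : ∀ a, φ (f a) = f (φ0 a))
    (hp : (p : A) ∈ maximalIdeal A) {t : A} (ht : t ∈ maximalIdeal A) (hφ : φ0 t = t ^ p)
    {ι : Type*} (ρ : ι → B) {τ : Type*} {w g : B} {x : τ → B} (hw : φ w = w ^ p)
    (hg : φ g = g ^ p) (hx : ∀ s, φ (x s) = x s ^ p) {k a ν : ℕ} (hk : 1 ≤ k)
    (hν : k * p ^ (a + 1) ≤ p ^ ν)
    (hmem : w ^ p ^ ν ∈ Ideal.span {g ^ (p ^ ν - 1)} * Ideal.span (Set.range x) ^ (p ^ ν - k) ⊔
      Ideal.span {f ((p : A) - t)} ⊔ Ideal.span (Set.range ρ)) (K : ℕ) :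
    ∃ e0 : ℕ, ∀ e, e0 ≤ e → ∀ (P : Type v) [CommRing P] (χ : B →+* P),
      (∀ i, ∀ j ≤ e, χ (δ^[j] (ρ i)) = 0) → χ (f t) ^ p ^ e = p →
      ∃ u ∈ Ideal.span (Set.range fun s => χ (x s)) ^ (p ^ e - p ^ (e - a)),
        χ w ^ p ^ e - χ g ^ (p ^ e - p ^ (e - a)) * u ∈ Ideal.span {(p : P) ^ K} := by
  have hp2 : 2 ≤ p := (Fact.out : p.Prime).two_le
  obtain ⟨fs, hfs⟩ : ∃ fs : (Fin (p ^ ν - k) → τ) → B,
      fs = fun γ => g ^ (p ^ ν - 1) * ∏ j, x (γ j) := ⟨_, rfl⟩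
  have hspan : Ideal.span {g ^ (p ^ ν - 1)} * Ideal.span (Set.range x) ^ (p ^ ν - k) =
      Ideal.span (Set.range fs) := by
    rw [span_range_pow, Ideal.span_mul_span', Set.singleton_mul, ← Set.range_comp, hfs]
    rfl
  obtain ⟨r, hr⟩ := star_int h0 h f hf hp ht hφ
    (J := Ideal.span (Set.range fun z : ι × ℕ => δ^[z.2] (ρ z.1)))
    (h.span_stable _ (by
      rintro _ ⟨z, rfl⟩
      exact Ideal.subset_span ⟨(z.1, z.2 + 1), (Function.iterate_succ_apply' _ _ _)⟩))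
    (b := w ^ p ^ ν) (by rw [map_pow, hw, ← pow_mul, ← pow_mul, mul_comm]) fs
    (fun s => by
      rw [hfs]
      simp only [map_mul, map_pow, map_prod, hg, hx, mul_pow, Finset.prod_pow]
      rw [← pow_mul, ← pow_mul, mul_comm p])
    (by
      rw [← hspan]
      refine SetLike.le_def.1 (sup_le_sup_left (Ideal.span_mono ?_) _) hmem
      rintro _ ⟨i, rfl⟩
      exact ⟨(i, 0), rfl⟩) (K * p ^ (ν + (a + 1) + 1))
  rw [sup_assoc] at hr
  obtain ⟨y, hy, z, hz, hyz⟩ := Submodule.mem_sup.1 hr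
  obtain ⟨j0, hj0⟩ := prism_fin.{_, _, v} (fun i j => δ^[j] (ρ i)) hy
  obtain ⟨e0, he0⟩ := star_pow.{v} (p := p) r ν (a + 1) K
  refine ⟨j0 + e0 + (ν + a + 1), fun e he P _ χ hχ hτ => ?_⟩
  have h1 := he0 e (by omega) P (χ w ^ p ^ ν) (χ (f t)) ((Ideal.span (Set.range fs)).map χ) hτ (by
    have h2 := Ideal.mem_map_of_mem χ hz
    have h3 : χ z = (χ w ^ p ^ ν) ^ (r + 1) := by
      rw [← map_pow, ← map_pow, ← hyz, map_add, hj0 P χ fun i j hj => hχ i j (by omega), zero_add]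
    rw [h3] at h2
    have h4 : ∀ b : B, (Ideal.span {b}).map χ = Ideal.span {χ b} := fun b => by
      rw [Ideal.map_span, Set.image_singleton]
    simpa only [Ideal.map_sup, Ideal.map_mul, Ideal.map_pow, h4, map_pow, map_natCast] using h2)
  rw [← pow_mul, ← pow_add, Nat.add_sub_cancel' (by omega), ← hspan, Ideal.map_mul, Ideal.map_pow,
    Ideal.map_span, Ideal.map_span, Set.image_singleton, mul_pow, Ideal.span_singleton_pow,
    ← Set.range_comp, map_pow, ← pow_mul, ← pow_mul] at h1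
  obtain ⟨y', hy', z', hz', hyz'⟩ := Submodule.mem_sup.1 h1
  obtain ⟨u, hu, rfl⟩ := Ideal.mem_span_singleton_mul.1 hy'
  obtain ⟨f', rfl⟩ : ∃ f', e = ν + a + 1 + f' := ⟨e - (ν + a + 1), by omega⟩
  have h4 := prism_arith (f := f') hp2 hν
  obtain ⟨c, hc⟩ := Nat.exists_eq_add_of_le (h4.trans (Nat.mul_le_mul_right _
    (Nat.sub_le_sub_left hk (p ^ ν))))
  refine ⟨χ g ^ c * u, Ideal.mul_mem_left _ _ (Ideal.pow_le_pow_right h4 hu), ?_⟩
  rw [← hyz', ← mul_assoc, ← pow_add, ← hc, add_sub_cancel_left]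
  exact hz'

theorem prism {p : ℕ} [Fact p.Prime] {V : Type v} [CommRing V] [IsDomain V]
    [IsDiscreteValuationRing V] [IsAdicComplete (maximalIdeal V) V] (hV : PBase p V) {σ ι : Type}
    [Fintype σ] [Fintype ι] (F : ι → MvPowerSeries (σ ⊕ ι) V) (hF : ∀ i, F i ∈ maximalIdeal _)
    (hprim : Prim (Ideal.span {(p : MvPowerSeries (σ ⊕ ι) V)} ⊔ Ideal.span (Set.range F) ⊔
      Ideal.span (Set.range fun j : σ => X (Sum.inl j))))
    {κ τ : Type} [Finite κ] (w : κ → σ ⊕ ι) (g : σ ⊕ ι) (x : κ → τ → σ ⊕ ι) (k : ℕ) (hk : 1 ≤ k)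
    (hst : ∀ α N, k ≤ N → (X (w α) : MvPowerSeries (σ ⊕ ι) V) ^ N ∈
      Ideal.span {X g ^ (N - 1)} * Ideal.span (Set.range fun t => X (x α t)) ^ (N - k) ⊔
        Ideal.span (Set.range F)) (a K e1 : ℕ) :
    ∃ e, e1 ≤ e ∧ ∃ (P : Type v) (_ : CommRing P) (_ : IsLocalRing P) (_ : IsNoetherianRing P)
      (ψ : MvPowerSeries (σ ⊕ ι) V →+* P) (ζ : σ ⊕ ι → P),
      IsCM P (Fintype.card σ + 1) ∧ (∀ i, ψ (F i) = 0) ∧ (∀ c, ζ c ^ p ^ e = ψ (X c)) ∧
      (maximalIdeal _).map ψ ≤ maximalIdeal P ∧ Prim ((maximalIdeal _).map ψ) ∧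
      ∀ α, ∃ u ∈ Ideal.span (Set.range fun t => ζ (x α t)) ^ (p ^ e - p ^ (e - a)),
        ζ (w α) ^ p ^ e - ζ g ^ (p ^ e - p ^ (e - a)) * u ∈ Ideal.span {(p : P) ^ K} := by
  have hp2 : 2 ≤ p := (Fact.out : p.Prime).two_le
  have hpA : (p : MvPowerSeries (Option (σ ⊕ ι)) V) ∈ maximalIdeal _ := by
    rw [maximalIdeal_psV' hV.max]; exact Ideal.mem_sup_left (Ideal.subset_span rfl)
  have hXA : ∀ a, (X a : MvPowerSeries (Option (σ ⊕ ι)) V) ∈ maximalIdeal _ := fun a => by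
    rw [maximalIdeal_psV' hV.max]; exact Ideal.mem_sup_right (Ideal.subset_span ⟨a, rfl⟩)
  obtain ⟨ρ0, -, hρ0⟩ := exists_ev (σ := σ ⊕ ι)
    (maximalIdeal (MvPowerSeries (Option (σ ⊕ ι)) V)) C (fun a => X (some a)) (fun a => hXA _)
  have hm0 : (maximalIdeal _).map ρ0 ≤ maximalIdeal _ := by
    rw [maximalIdeal_psV' hV.max, Ideal.map_sup, Ideal.map_span, Ideal.map_span]
    refine sup_le (Ideal.span_le.2 ?_) (Ideal.span_le.2 ?_)
    · rintro _ ⟨_, rfl, rfl⟩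
      rw [map_natCast]; exact hpA
    · rintro _ ⟨_, ⟨a, rfl⟩, rfl⟩
      rw [hρ0]; exact hXA _
  obtain ⟨φV, δV, hδV⟩ := hV.delta
  obtain ⟨φ, δ, h, -, hφ, -⟩ := hδV.mvPowerSeries (Option (σ ⊕ ι))
  obtain ⟨φ', δ', h', hC, hX⟩ := h.mvPolynomial
    (fun x : ι × ℕ => MvPolynomial.X (x.1, x.2 + 1))
  obtain ⟨ν, hν⟩ : ∃ ν, k * p ^ (a + 1) ≤ p ^ ν :=
    ⟨_, (Nat.lt_pow_self (show 1 < p by omega)).le⟩
  have hkν : k ≤ p ^ ν := le_trans (Nat.le_mul_of_pos_right _ (by positivity)) hν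
  have hCX : ∀ c, φ' (MvPolynomial.C (X c)) = MvPolynomial.C (X c) ^ p := fun c => by
    rw [hC, hφ, map_pow]
  have key := fun α => prism_star.{v} h h' MvPolynomial.C hC hpA (hXA none) (hφ none)
    (fun i => MvPolynomial.C ((p : MvPowerSeries (Option (σ ⊕ ι)) V) - X none) *
      MvPolynomial.X (i, 0) - MvPolynomial.C (ρ0 (F i)))
    (hCX (some (w α))) (hCX (some g)) (x := fun t => MvPolynomial.C (X (some (x α t))))
    (fun t => hCX _) hk hν (by
      have h1 := Ideal.mem_map_of_mem ((MvPolynomial.C (σ := ι × ℕ)).comp ρ0) (hst α _ hkν)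
      simp only [Ideal.map_sup, Ideal.map_mul, Ideal.map_pow, Ideal.map_span, Set.image_singleton,
        ← Set.range_comp, map_pow, RingHom.comp_apply, hρ0, Function.comp_def] at h1
      rw [sup_assoc]
      refine SetLike.le_def.1 (sup_le_sup_left (Ideal.span_le.2 ?_) _) h1
      rintro _ ⟨i, rfl⟩
      have := sub_mem (Ideal.mem_sup_left (Ideal.mul_mem_right (MvPolynomial.X (i, 0)) _
        (Ideal.mem_span_singleton_self (MvPolynomial.C (σ := ι × ℕ)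
          ((p : MvPowerSeries (Option (σ ⊕ ι)) V) - X none)))))
        (Ideal.mem_sup_right (Ideal.subset_span (Set.mem_range_self (f := fun i =>
          MvPolynomial.C ((p : MvPowerSeries (Option (σ ⊕ ι)) V) - X none) *
          MvPolynomial.X (i, 0) - MvPolynomial.C (ρ0 (F i))) i)))
      rwa [sub_sub_cancel] at this) K
  choose e0 he0 using key
  obtain ⟨M, hM⟩ := (Set.finite_range e0).bddAbove
  refine ⟨max e1 M, le_max_left _ _, ?_⟩
  generalize hE : max e1 M = e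
  have he : ∀ α, e0 α ≤ e := fun α => hE ▸ (hM ⟨α, rfl⟩).trans (le_max_right _ _)
  obtain ⟨P, _, _, _, χ, hcm, hχ, hτ, hmP, hpP⟩ := exists_env hV h (hφ none) (fun i => ρ0 (F i))
    (fun i => hm0 (Ideal.mem_map_of_mem _ (hF i))) h' hC hX e
  have hφe : ∀ (n : ℕ) c, (φ ^ n) (X c) = X c ^ p ^ n := fun n c => by
    induction n with
    | zero => simp
    | succ n ih => rw [pow_succ, RingHom.mul_def, RingHom.comp_apply, hφ, map_pow, ih, ← pow_mul,
        pow_succ]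
  have hCe : ∀ (n : ℕ) a, (φ' ^ n) (MvPolynomial.C a) = MvPolynomial.C ((φ ^ n) a) := fun n a => by
    induction n generalizing a with
    | zero => simp
    | succ n ih => rw [pow_succ, pow_succ, RingHom.mul_def, RingHom.mul_def, RingHom.comp_apply,
        RingHom.comp_apply, hC, ih]
  have hψ : ∀ c, χ (MvPolynomial.C (X (some c))) ^ p ^ e =
      ((χ.comp MvPolynomial.C).comp ((φ ^ e).comp ρ0)) (X c) := fun c => by
    simp only [RingHom.comp_apply, hρ0, hφe, map_pow]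
  have hpP' : (p : P) ∈ maximalIdeal P := by
    rw [← map_natCast (χ.comp MvPolynomial.C)]; exact hmP (Ideal.mem_map_of_mem _ hpA)
  refine ⟨P, inferInstance, inferInstance, inferInstance,
    (χ.comp MvPolynomial.C).comp ((φ ^ e).comp ρ0), fun c => χ (MvPolynomial.C (X (some c))), hcm,
    fun i => ?_, hψ, ?_, ?_, fun α => he0 α e (he α) P χ hχ hτ⟩
  · have h1 := h'.iterate_mem (MvPolynomial.C ((p : MvPowerSeries (Option (σ ⊕ ι)) V) - X none) *
      MvPolynomial.X (i, 0) - MvPolynomial.C (ρ0 (F i))) e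
    have h3 := (Ideal.span_le (I := RingHom.ker χ)).2 (by
      rintro _ ⟨j, rfl⟩
      exact hχ i j (by omega)) h1
    rw [← RingHom.coe_pow, RingHom.mem_ker, map_sub, map_mul, hCe, hCe, map_sub, map_sub, map_mul,
      map_natCast, hφe, map_sub, map_sub, map_natCast, map_natCast, map_pow, map_pow, hτ,
      sub_self, zero_mul, zero_sub, neg_eq_zero] at h3
    exact h3
  · rw [maximalIdeal_psV' hV.max, Ideal.map_sup, Ideal.map_span, Ideal.map_span]
    refine sup_le (Ideal.span_le.2 ?_) (Ideal.span_le.2 ?_)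
    · rintro _ ⟨_, rfl, rfl⟩
      rw [map_natCast]; exact hpP'
    · rintro _ ⟨_, ⟨c, rfl⟩, rfl⟩
      rw [← hψ]
      exact Ideal.pow_mem_of_mem _ (hmP (Ideal.mem_map_of_mem _ (hXA _))) _ (by positivity)
  · rw [prim_iff_radical] at hpP ⊢
    refine hpP.trans (Ideal.radical_le_radical_iff.2 ?_)
    have hp0 : (p : P) ∈ (maximalIdeal _).map
        ((χ.comp MvPolynomial.C).comp ((φ ^ e).comp ρ0)) := by
      rw [← map_natCast ((χ.comp MvPolynomial.C).comp ((φ ^ e).comp ρ0))]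
      refine Ideal.mem_map_of_mem _ ?_
      rw [maximalIdeal_psV' hV.max]; exact Ideal.mem_sup_left (Ideal.subset_span rfl)
    rw [maximalIdeal_psV' (σ := Option (σ ⊕ ι)) hV.max, Ideal.map_sup, Ideal.map_span,
      Ideal.map_span]
    refine sup_le (Ideal.span_le.2 ?_) (Ideal.span_le.2 ?_)
    · rintro _ ⟨_, rfl, rfl⟩
      rw [map_natCast]; exact Ideal.le_radical hp0
    · rintro _ ⟨_, ⟨_ | c, rfl⟩, rfl⟩
      · exact ⟨p ^ e, by rw [RingHom.comp_apply, hτ]; exact hp0⟩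
      · refine ⟨p ^ e, ?_⟩
        rw [RingHom.comp_apply, hψ]
        refine Ideal.mem_map_of_mem _ ?_
        rw [maximalIdeal_psV' hV.max]; exact Ideal.mem_sup_right (Ideal.subset_span ⟨c, rfl⟩)

end Vale.Agent.P202
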