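import Vale.Agent.P202.Prism

/-! The prismatic algebra over the splitting ring of a hypersurface. -/

namespace Vale.Agent.P202

open IsLocalRing

universe v

theorem prs_eval_mem {A B : Type*} [CommRing A] [CommRing B] (ρ : A →+* B) {K : Ideal B} {v : B}
    (hv : v ∈ K) {f : Polynomial A} (hf : ρ (f.coeff 0) ∈ K) : f.eval₂ ρ v ∈ K := by
  rw [← f.X_mul_divX_add, Polynomial.eval₂_add, Polynomial.eval₂_mul, Polynomial.eval₂_X,
    Polynomial.eval₂_C]
  exact add_mem (K.mul_mem_right _ hv) hf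

theorem prs_map_eq {A B C : Type*} [CommRing A] [CommRing B] [Nontrivial B] [CommRing C]
    (ρ : A →+* B) (χ : B →+* C) {F : Polynomial A} (hF : F.Monic) (v : Fin F.natDegree → B)
    (h : ∀ j < F.natDegree,
      χ ((∏ i, (Polynomial.X - Polynomial.C (v i)) - F.map ρ).coeff j) = 0) :
    F.map (χ.comp ρ) = ∏ i, (Polynomial.X - Polynomial.C (χ (v i))) := by
  have m1 : (∏ i, (Polynomial.X - Polynomial.C (v i))).Monic :=
    Polynomial.monic_prod_of_monic _ _ fun i _ => Polynomial.monic_X_sub_C _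
  have d1 : (∏ i, (Polynomial.X - Polynomial.C (v i))).natDegree = F.natDegree := by
    rw [Polynomial.natDegree_prod_of_monic _ _ fun i _ => Polynomial.monic_X_sub_C _]; simp
  have : (∏ i, (Polynomial.X - Polynomial.C (v i)) - F.map ρ).map χ = 0 := by
    ext j
    rw [Polynomial.coeff_map, Polynomial.coeff_zero]
    by_cases hj : j < F.natDegree
    · exact h j hj
    · rw [Polynomial.coeff_eq_zero_of_degree_lt, map_zero]
      refine (Polynomial.degree_sub_lt ?_ m1.ne_zero (m1.trans (hF.map ρ).symm)).trans_le ?_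
      · rw [Polynomial.degree_eq_natDegree m1.ne_zero,
          Polynomial.degree_eq_natDegree (hF.map ρ).ne_zero, d1, hF.natDegree_map]
      · rw [Polynomial.degree_eq_natDegree m1.ne_zero, d1]
        exact_mod_cast not_lt.1 hj
  rw [Polynomial.map_sub, sub_eq_zero, Polynomial.map_map, Polynomial.map_prod] at this
  simpa using this.symm

theorem prs_root {A C : Type*} [CommRing A] [CommRing C] {ψ : A →+* C} {F : Polynomial A} {n : ℕ}
    {v : Fin n → C} (h : F.map ψ = ∏ i, (Polynomial.X - Polynomial.C (v i))) (i : Fin n) :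
    F.eval₂ ψ (v i) = 0 := by
  rw [← Polynomial.eval_map, h, Polynomial.eval_prod]
  exact Finset.prod_eq_zero (Finset.mem_univ i) (by simp)

theorem prs_pow_mem {A B : Type*} [CommRing A] [CommRing B] (ρ : A →+* B) {K : Ideal B} {v : B}
    {F : Polynomial A} (hF : F.Monic) (hK : ∀ j < F.natDegree, ρ (F.coeff j) ∈ K)
    (h : F.eval₂ ρ v ∈ K) : v ^ F.natDegree ∈ K := by
  rw [Polynomial.eval₂_eq_sum_range, Finset.sum_range_succ, hF.coeff_natDegree, map_one,
    one_mul] at h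
  exact (Submodule.add_mem_iff_right _ (sum_mem fun j hj =>
    K.mul_mem_right _ (hK j (Finset.mem_range.1 hj)))).1 h

theorem prs_coeff_mem {B : Type*} [CommRing B] {K : Ideal B} {n : ℕ} {v : Fin n → B}
    (hv : ∀ i, v i ∈ K) {j : ℕ} (hj : j < n) :
    (∏ i, (Polynomial.X - Polynomial.C (v i))).coeff j ∈ K := by
  rw [← Ideal.Quotient.eq_zero_iff_mem, ← Polynomial.coeff_map, Polynomial.map_prod]
  simp [Ideal.Quotient.eq_zero_iff_mem.2 (hv _), Polynomial.coeff_X_pow, hj.ne]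

theorem prism_split {p : ℕ} [Fact p.Prime] {V : Type v} [CommRing V] [IsDomain V]
    [IsDiscreteValuationRing V] [IsAdicComplete (maximalIdeal V) V] (hV : PBase p V) {s : ℕ}
    (F : Polynomial (MvPowerSeries (Fin s) V)) (hF : F.Monic)
    (hFm : ∀ j < F.natDegree, F.coeff j ∈ maximalIdeal _) {g1 : MvPowerSeries (Fin s) V}
    (hg1 : g1 ∈ maximalIdeal _) {κ : Type} [Fintype κ]
    (f : κ → Polynomial (MvPowerSeries (Fin s) V)) (hf : ∀ α, (f α).coeff 0 ∈ maximalIdeal _)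
    (k : ℕ) (hk : 1 ≤ k)
    (hst : ∀ α N, k ≤ N → AdjoinRoot.mk F (f α) ^ N ∈
      Ideal.span {AdjoinRoot.of F g1 ^ (N - 1)} * Ideal.span (Set.range (Fin.cons (AdjoinRoot.root F)
        (fun j => AdjoinRoot.of F (MvPowerSeries.X j)) : Fin (s + 1) → AdjoinRoot F)) ^ (N - k))
    (a K e1 : ℕ) :
    ∃ e, e1 ≤ e ∧ ∃ (P : Type v) (_ : CommRing P) (_ : IsLocalRing P) (_ : IsNoetherianRing P)
      (ψ : MvPowerSeries (Fin s) V →+* P) (Y : Fin F.natDegree → P)
      (ζ : Fin F.natDegree → Fin (s + 1) → P) (ζg : P),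
      IsCM P (s + 1) ∧ (maximalIdeal _).map ψ ≤ maximalIdeal P ∧ Prim ((maximalIdeal _).map ψ) ∧
      F.map ψ = ∏ i, (Polynomial.X - Polynomial.C (Y i)) ∧ (∀ i, Y i ∈ maximalIdeal P) ∧
      (∀ i t, ζ i t ^ p ^ e =
        (Fin.cons (Y i) (fun j => ψ (MvPowerSeries.X j)) : Fin (s + 1) → P) t) ∧
      ζg ^ p ^ e = ψ g1 ∧
      ∀ i α, ∃ u ∈ Ideal.span (Set.range (ζ i)) ^ (p ^ e - p ^ (e - a)),
        (f α).eval₂ ψ (Y i) - ζg ^ (p ^ e - p ^ (e - a)) * u ∈ Ideal.span {(p : P) ^ K} := by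
  let ι := Fin F.natDegree ⊕ (Fin F.natDegree × κ) ⊕ Unit
  have mX : ∀ c, (MvPowerSeries.X c : MvPowerSeries (Fin s ⊕ ι) V) ∈ maximalIdeal _ := fun c => by
    rw [maximalIdeal_psV' hV.max]; exact Ideal.mem_sup_right (Ideal.subset_span ⟨c, rfl⟩)
  obtain ⟨ρ, -, hρ⟩ := exists_ev (σ := Fin s) (maximalIdeal (MvPowerSeries (Fin s ⊕ ι) V))
    MvPowerSeries.C (fun j => MvPowerSeries.X (Sum.inl j)) fun j => mX _
  have hρm : ∀ I : Ideal (MvPowerSeries (Fin s ⊕ ι) V), (p : MvPowerSeries (Fin s ⊕ ι) V) ∈ I →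
      (∀ j, MvPowerSeries.X (Sum.inl j) ∈ I) → ∀ a ∈ maximalIdeal _, ρ a ∈ I := fun I h1 h2 => by
    change _ ≤ I.comap ρ
    rw [maximalIdeal_psV' hV.max]
    refine sup_le ((Ideal.span_singleton_le_iff_mem _).2 ?_) (Ideal.span_le.2 ?_)
    · rwa [Ideal.mem_comap, map_natCast]
    · rintro _ ⟨j, rfl⟩
      rw [SetLike.mem_coe, Ideal.mem_comap, hρ]; exact h2 j
  have hρ1 := hρm (maximalIdeal _) (by
    rw [maximalIdeal_psV' hV.max]; exact Ideal.mem_sup_left (Ideal.mem_span_singleton_self _))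
    fun j => mX _
  let v : Fin F.natDegree → MvPowerSeries (Fin s ⊕ ι) V := fun i =>
    MvPowerSeries.X (Sum.inr (Sum.inl i))
  let G : ι → MvPowerSeries (Fin s ⊕ ι) V := Sum.elim
    (fun j => (∏ i, (Polynomial.X - Polynomial.C (v i)) - F.map ρ).coeff j) (Sum.elim
      (fun x => MvPowerSeries.X (Sum.inr (Sum.inr (Sum.inl x))) - (f x.2).eval₂ ρ (v x.1))
      fun x => MvPowerSeries.X (Sum.inr (Sum.inr (Sum.inr x))) - ρ g1)
  let x : Fin F.natDegree → Fin (s + 1) → Fin s ⊕ ι := fun i =>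
    Fin.cons (Sum.inr (Sum.inl i)) Sum.inl
  have key : ∀ {C : Type v} [CommRing C] (χ : MvPowerSeries (Fin s ⊕ ι) V →+* C),
      (∀ c, χ (G c) = 0) →
      F.map (χ.comp ρ) = ∏ i, (Polynomial.X - Polynomial.C (χ (v i))) ∧
      (∀ i α, χ (MvPowerSeries.X (Sum.inr (Sum.inr (Sum.inl (i, α))))) =
        (f α).eval₂ (χ.comp ρ) (χ (v i))) ∧
      χ (MvPowerSeries.X (Sum.inr (Sum.inr (Sum.inr ())))) = χ (ρ g1) ∧
      ∀ i t, χ (MvPowerSeries.X (x i t)) =
        (Fin.cons (χ (v i)) (fun j => χ (ρ (MvPowerSeries.X j))) : Fin (s + 1) → C) t := by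
    intro C _ χ h
    refine ⟨prs_map_eq ρ χ hF v fun j hj => h (Sum.inl ⟨j, hj⟩), fun i α => ?_, ?_, fun i t => ?_⟩
    · rw [← Polynomial.hom_eval₂, ← sub_eq_zero, ← map_sub]
      exact h (Sum.inr (Sum.inl (i, α)))
    · rw [← sub_eq_zero, ← map_sub]
      exact h (Sum.inr (Sum.inr ()))
    · refine Fin.cases rfl (fun j => ?_) t
      rw [Fin.cons_succ, hρ]; rfl
  have hprim : Prim (Ideal.span {(p : MvPowerSeries (Fin s ⊕ ι) V)} ⊔ Ideal.span (Set.range G) ⊔
      Ideal.span (Set.range fun j : Fin s => MvPowerSeries.X (Sum.inl j))) := by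
    rw [prim_iff_radical, maximalIdeal_psV' hV.max]
    refine sup_le ((le_sup_left.trans le_sup_left).trans Ideal.le_radical) ?_
    generalize hI : Ideal.span {(p : MvPowerSeries (Fin s ⊕ ι) V)} ⊔ Ideal.span (Set.range G) ⊔
      Ideal.span (Set.range fun j : Fin s => MvPowerSeries.X (Sum.inl j)) = I
    have hG : ∀ c, G c ∈ I := fun c => hI ▸
      Ideal.mem_sup_left (Ideal.mem_sup_right (Ideal.subset_span ⟨c, rfl⟩))
    have hX : ∀ j, MvPowerSeries.X (Sum.inl j) ∈ I := fun c => hI ▸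
      Ideal.mem_sup_right (Ideal.subset_span ⟨c, rfl⟩)
    have h1 := hρm I (hI ▸ Ideal.mem_sup_left (Ideal.mem_sup_left
      (Ideal.mem_span_singleton_self _))) hX
    have hv : ∀ i, v i ∈ I.radical := fun i => ⟨_, prs_pow_mem ρ hF (fun j hj => h1 _ (hFm j hj)) (by
      rw [← Ideal.Quotient.eq_zero_iff_mem, Polynomial.hom_eval₂]
      exact prs_root (key _ fun c => Ideal.Quotient.eq_zero_iff_mem.2 (hG c)).1 i)⟩
    rw [Ideal.span_le]
    rintro _ ⟨j | i | y | y, rfl⟩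
    · exact Ideal.le_radical (hX j)
    · exact hv i
    · simpa [G] using add_mem (Ideal.le_radical (hG (Sum.inr (Sum.inl y))))
        (prs_eval_mem ρ (hv y.1) (Ideal.le_radical (h1 _ (hf y.2))))
    · simpa [G] using Ideal.le_radical (add_mem (hG (Sum.inr (Sum.inr y))) (h1 _ hg1))
  obtain ⟨e, he, P, _, _, _, ψ, ζ, h1, h2, h3, h4, h5, h6⟩ := prism hV G (by
      rintro (j | y | y)
      · simp only [G, Sum.elim_inl]
        rw [Polynomial.coeff_sub, Polynomial.coeff_map]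
        exact sub_mem (prs_coeff_mem (fun i => mX _) j.2) (hρ1 _ (hFm j j.2))
      · exact sub_mem (mX _) (prs_eval_mem ρ (mX _) (hρ1 _ (hf y.2)))
      · exact sub_mem (mX _) (hρ1 _ hg1)) hprim (κ := Fin F.natDegree × κ)
    (fun y => Sum.inr (Sum.inr (Sum.inl y))) (Sum.inr (Sum.inr (Sum.inr ()))) (fun y => x y.1) k hk
    (by
      rintro ⟨i, α⟩ N hN
      obtain ⟨k1, k2, k3, k4⟩ := key (Ideal.Quotient.mk (Ideal.span (Set.range G))) fun c =>
        Ideal.Quotient.eq_zero_iff_mem.2 (Ideal.subset_span ⟨c, rfl⟩)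
      have := Ideal.mem_map_of_mem (AdjoinRoot.lift _ _ (prs_root k1 i)) (hst α N hN)
      rw [← Ideal.mem_quotient_iff_mem_sup]
      simp only [Ideal.map_mul, Ideal.map_pow, Ideal.map_span, Set.image_singleton, map_pow,
        ← Set.range_comp, AdjoinRoot.lift_mk, AdjoinRoot.lift_of] at this ⊢
      rw [k2, k3]
      convert this using 5
      · rfl
      funext t
      rw [Function.comp_apply, k4]
      refine Fin.cases ?_ (fun j => ?_) t <;> simp) a K e1
  obtain ⟨k1, k2, k3, k4⟩ := key ψ h2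
  refine ⟨e, he, P, _, _, ‹_›, ψ.comp ρ, fun i => ψ (v i), fun i t => ζ (x i t), ζ _,
    by simpa using h1, Ideal.map_le_iff_le_comap.2 fun a ha => h4 (Ideal.mem_map_of_mem ψ (hρ1 a ha)),
    ?_, k1, fun i => h4 (Ideal.mem_map_of_mem ψ (mX _)), fun i t => (h3 _).trans (k4 i t),
    (h3 _).trans k3, fun i α => ?_⟩
  · obtain ⟨c, hc⟩ := hprim
    refine (Prim.sup_pow (q := ⊥) (by rwa [bot_sup_eq]) c).mono (sup_le bot_le ?_)
    rw [← Ideal.map_pow, Ideal.map_le_iff_le_comap, maximalIdeal_psV' (σ := Fin s) hV.max]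
    refine hc.trans (sup_le (sup_le ((Ideal.span_singleton_le_iff_mem _).2 ?_) (Ideal.span_le.2 ?_))
      (Ideal.span_le.2 ?_))
    · have := Ideal.mem_map_of_mem (ψ.comp ρ) (Ideal.mem_sup_left (T := Ideal.span (Set.range
        MvPowerSeries.X)) (Ideal.mem_span_singleton_self (p : MvPowerSeries (Fin s) V)))
      rwa [Ideal.mem_comap, map_natCast, ← map_natCast (ψ.comp ρ)]
    · rintro _ ⟨c, rfl⟩
      rw [SetLike.mem_coe, Ideal.mem_comap, h2]; exact zero_mem _
    · rintro _ ⟨j, rfl⟩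
      rw [SetLike.mem_coe, Ideal.mem_comap]
      dsimp only
      rw [← hρ]
      exact Ideal.mem_map_of_mem (ψ.comp ρ) (Ideal.mem_sup_right (Ideal.subset_span ⟨j, rfl⟩))
  · rw [← k2, ← h3]
    exact h6 (i, α)

end Vale.Agent.P202
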