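import Vale.Agent.P202.Defs3

/-! The relative ghost lemma. -/

namespace Vale.Agent.P202

theorem rghost {P Λ M : Type*} [CommRing P] [CommRing Λ] [AddCommGroup M] [Module P M]
    [Module Λ M] [SMulCommClass P Λ M] {σ : Type} [Fintype σ] [DecidableEq σ] (D : M →ₗ[P] M)
    (τ : σ → Λ) (h : P) (V : (σ → ℤ) → ℤ → ℤ → Submodule P M) (μ N L : ℕ) (β n0 : ℤ)
    (hτ : ∀ j x, D (τ j • x) = τ j • D x)
    (hst : ∀ b k n, ∀ x ∈ V b k n, D x ∈ V b k (n + 1))
    (hdd : ∀ (b : σ → ℤ) (k n : ℤ), (∀ j, β ≤ b j + k) →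
      ∀ x ∈ V b k n, D (D x) ∈ V b (k + L) (n + 1 + 1))
    (hlow : ∀ b k n, n < n0 → V b k n = ⊥)
    (hb : ∀ b b' k n, b ≤ b' → V b k n ≤ V b' k n)
    (hT : ∀ b k n j, ∀ x ∈ V b k n, τ j • x ∈ V (b + Pi.single j (μ : ℤ)) k n)
    (hk : ∀ (b : σ → ℤ) (k n : ℤ), (∀ j, β ≤ b j + k) → V b (k + 1) n ≤ V b k n)
    (hsurj : ∀ (b : σ → ℤ) (k n : ℤ) (j : σ), (∀ j, β ≤ b j + k) →
      ∀ y ∈ V (b + Pi.single j (2 * (μ : ℤ))) k n,
      ∃ y1 ∈ V (b + Pi.single j (μ : ℤ)) k n, ∃ y2 ∈ V (b + Pi.single j (μ : ℤ)) k n,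
        y = τ j • y1 - y2)
    (hsv : ∀ (b : σ → ℤ) (k n : ℤ) (j : σ), (∀ j, β ≤ b j + k) →
      ∀ y ∈ V (b + Pi.single j (μ : ℤ)) k n,
      τ j • y ∈ V (b + Pi.single j (μ : ℤ)) k n → y ∈ V b k n)
    (hkill : ∀ (b : σ → ℤ) (k l n : ℤ) (ε : Finset σ), (∀ j, β ≤ b j + k) → k ≤ l → l ≤ k + L →
      ∀ z ∈ V b (k + N) n, D z ∈ V b (l + N) (n + 1) →
      ∃ w ∈ V (b + fun _ => (μ : ℤ)) k (n - 1),
        h • (∏ j ∈ ε, τ j) • z - D w ∈ V (b + fun _ => (μ : ℤ)) l n)
    (r : ℕ) (b : σ → ℤ) (k l n : ℤ) (hn : n < n0 + r) (hadm : ∀ j, β ≤ b j + k) (hkl : k ≤ l)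
    (hlk : l ≤ k + L) :
    ∀ z ∈ V b (k + (N * (Fintype.card σ + 1) ^ r : ℕ)) n,
      D z ∈ V b (l + (N * (Fintype.card σ + 1) ^ r : ℕ)) (n + 1) →
      ∃ w ∈ V b k (n - 1), h ^ (Fintype.card σ + 1) ^ r • z - D w ∈ V b l n := by
  have hmono0 : ∀ (b : σ → ℤ) (k n : ℤ), (∀ j, β ≤ b j + k) → ∀ a : ℕ,
      V b (k + a) n ≤ V b k n := by
    intro b k n hadm a
    induction a with
    | zero => simp
    | succ a ih =>
      refine le_trans ?_ ih
      rw [Nat.cast_succ, ← add_assoc]
      exact hk b (k + a) n fun j => by have := hadm j; omega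
  have hmono : ∀ (b : σ → ℤ) (k k' n : ℤ), (∀ j, β ≤ b j + k) → k ≤ k' →
      V b k' n ≤ V b k n := by
    intro b k k' n hadm hkk
    obtain ⟨a, rfl⟩ := Int.le.dest hkk
    exact hmono0 b k n hadm a
  induction r generalizing b k l n with
  | zero =>
    intro z hz _
    rw [hlow _ _ _ (by simpa using hn), Submodule.mem_bot] at hz
    exact ⟨0, Submodule.zero_mem _, by simp [hz]⟩
  | succ r ih =>
    set N' : ℕ := N * (Fintype.card σ + 1) ^ r with hN'
    set c' : ℕ := (Fintype.card σ + 1) ^ r with hc'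
    have key : ∀ S : Finset σ, ∀ (b : σ → ℤ) (k l : ℤ), (∀ j, β ≤ b j + k) → k ≤ l → l ≤ k + L →
        ∀ z ∈ V b (k + S.card * N' + N) n, D z ∈ V b (l + S.card * N' + N) (n + 1) →
        ∀ ε : Finset σ, Disjoint ε S →
        ∃ w ∈ V (b + fun j => if j ∈ S then 0 else (μ : ℤ)) k (n - 1),
          h ^ (1 + S.card * c') • (∏ j ∈ ε, τ j) • z - D w ∈
            V (b + fun j => if j ∈ S then 0 else (μ : ℤ)) l n := by
      intro S
      induction S using Finset.induction_on with
      | empty =>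
        intro b k l hadm hkl hlk z hz hDz ε _
        simpa using hkill b k l n ε hadm hkl hlk z (by simpa using hz) (by simpa using hDz)
      | insert j S hj ihS =>
        intro b k l hadm hkl hlk z hz hDz ε hε
        rw [Finset.disjoint_insert_right] at hε
        have hadm' : ∀ i, β ≤ b i + (k + N') := fun i => by have := hadm i; omega
        have hz' : z ∈ V b (k + N' + S.card * N' + N) n := by
          rw [Finset.card_insert_of_notMem hj] at hz
          convert hz using 2
          push_cast; ring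
        have hDz' : D z ∈ V b (l + N' + S.card * N' + N) (n + 1) := by
          rw [Finset.card_insert_of_notMem hj] at hDz
          convert hDz using 2
          push_cast; ring
        obtain ⟨w0, hw0, e0⟩ := ihS b (k + N') (l + N') hadm' (by omega) (by omega) z hz' hDz' ε hε.2
        obtain ⟨w1, hw1, e1⟩ := ihS b (k + N') (l + N') hadm' (by omega) (by omega) z hz' hDz'
          (insert j ε) (Finset.disjoint_insert_left.2 ⟨hj, hε.2⟩)
        set b' : σ → ℤ := b + fun i => if i ∈ insert j S then 0 else (μ : ℤ) with hb'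
        have eb : (b + fun i => if i ∈ S then 0 else (μ : ℤ)) = b' + Pi.single j (μ : ℤ) := by
          funext i
          by_cases e : i = j
          · subst e; simp [hb', hj]
          · simp [hb', e]
        have hbb' : ∀ i, b i ≤ b' i := fun i => by
          simp only [hb', Pi.add_apply]
          split_ifs <;> omega
        have ad1 : ∀ i, β ≤ b' i + k := fun i => by have := hadm i; have := hbb' i; omega
        have ad1' : ∀ i, β ≤ b' i + l := fun i => by have := ad1 i; omega
        have ad2 : ∀ c : ℤ, 0 ≤ c → ∀ i, β ≤ (b' + Pi.single j c : σ → ℤ) i + k := by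
          intro c hc i
          have := ad1 i
          by_cases e : i = j
          · subst e; simp; omega
          · simpa [e] using this
        have ad3 := ad2 _ (Int.natCast_nonneg μ)
        have ad3' : ∀ i, β ≤ (b' + Pi.single j (μ : ℤ) : σ → ℤ) i + l := fun i => by
          have := ad3 i; omega
        rw [eb] at hw0 hw1 e0 e1
        rw [Finset.prod_insert hε.1, mul_smul] at e1
        generalize (∏ j ∈ ε, τ j) • z = x at e0 e1 ⊢
        have e2 : b' + Pi.single j (μ : ℤ) + Pi.single j (μ : ℤ) =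
            b' + Pi.single j (2 * (μ : ℤ)) := by
          rw [add_assoc, ← Pi.single_add, two_mul]
        have hle2 : b' + Pi.single j (μ : ℤ) ≤ b' + Pi.single j (2 * (μ : ℤ)) := by
          rw [← e2]
          exact le_add_of_nonneg_right (Pi.single_nonneg.2 (Int.natCast_nonneg μ))
        have hc : τ j • w0 - w1 ∈ V (b' + Pi.single j (2 * (μ : ℤ))) (k + N') (n - 1) :=
          Submodule.sub_mem _ (e2 ▸ hT _ _ _ j w0 hw0) (hb _ _ _ _ hle2 hw1)
        obtain ⟨y, hy, ey⟩ := ih _ k l (n - 1) (by push_cast at hn; omega)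
          (ad2 _ (by positivity)) hkl hlk _ hc (by
            have e3 : D (τ j • w0 - w1) = (h ^ (1 + S.card * c') • τ j • x - D w1) -
                τ j • (h ^ (1 + S.card * c') • x - D w0) := by
              rw [map_sub, hτ, smul_sub, smul_comm]; abel
            rw [e3, sub_add_cancel]
            exact Submodule.sub_mem _ (hb _ _ _ _ hle2 e1) (e2 ▸ hT _ _ _ j _ e0))
        obtain ⟨y0, hy0, y1, hy1, rfl⟩ := hsurj b' k _ j ad1 y hy
        obtain ⟨v0, hv0, v1, hv1, ev⟩ := hsurj b' l _ j ad1' _ ey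
        have hD0 := hst _ _ _ y0 hy0
        have hD1 := hst _ _ _ y1 hy1
        have hD2 := hst _ _ _ v0 hv0
        have hD3 := hst _ _ _ v1 hv1
        have hE0 := hdd _ _ _ ad3 y0 hy0
        have hE1 := hdd _ _ _ ad3 y1 hy1
        rw [sub_add_cancel] at hD0 hD1 hD2 hD3 hE0 hE1
        rw [sub_add_cancel] at hE0 hE1
        have m1 := hmono _ k (k + N') (n - 1) ad3 (by omega)
        have m2 := hmono _ k l (n - 1) ad3 hkl
        have m3 := hmono _ l (l + N') n ad3' (by omega)
        have m4 := hmono _ l (k + L) n ad3' hlk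
        have e3 : τ j • (h ^ c' • w0 - D y0 - v0) = h ^ c' • w1 - D y1 - v1 := by
          rw [map_sub, hτ, smul_sub] at ev
          rw [smul_sub, smul_sub, ← smul_comm, eq_add_of_sub_eq (eq_add_of_sub_eq ev)]
          abel
        have e4 : h ^ (1 + (insert j S).card * c') = h ^ c' * h ^ (1 + S.card * c') := by
          rw [Finset.card_insert_of_notMem hj, ← pow_add]; congr 1; ring
        refine ⟨h ^ c' • w0 - D y0 - v0, hsv b' k _ j ad1 _ (Submodule.sub_mem _
          (Submodule.sub_mem _ (Submodule.smul_mem _ _ (m1 hw0)) hD0) (m2 hv0)) ?_,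
          hsv b' l _ j ad1' _ ?_ ?_⟩
        · rw [e3]
          exact Submodule.sub_mem _ (Submodule.sub_mem _ (Submodule.smul_mem _ _ (m1 hw1)) hD1)
            (m2 hv1)
        · have e5 : h ^ (1 + (insert j S).card * c') • x - D (h ^ c' • w0 - D y0 - v0) =
              h ^ c' • (h ^ (1 + S.card * c') • x - D w0) + D (D y0) + D v0 := by
            rw [e4, mul_smul, map_sub, map_sub, map_smul, smul_sub]; abel
          rw [e5]
          exact Submodule.add_mem _ (Submodule.add_mem _ (Submodule.smul_mem _ _ (m3 e0))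
            (m4 hE0)) hD2
        · have e5 : τ j • (h ^ (1 + (insert j S).card * c') • x - D (h ^ c' • w0 - D y0 - v0)) =
              h ^ c' • (h ^ (1 + S.card * c') • τ j • x - D w1) + D (D y1) + D v1 := by
            rw [smul_sub, ← hτ, e3, ← smul_comm, e4, mul_smul, map_sub, map_sub, map_smul, smul_sub]
            abel
          rw [e5]
          exact Submodule.add_mem _ (Submodule.add_mem _ (Submodule.smul_mem _ _ (m3 e1))
            (m4 hE1)) hD3
    intro z hz hDz
    have hpos : 0 < c' := by positivity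
    have hle : N ≤ N' := Nat.le_mul_of_pos_right _ hpos
    have h2 : (0 : ℤ) ≤ ((Finset.univ : Finset σ).card : ℤ) * N' := by positivity
    have eN : ((N * (Fintype.card σ + 1) ^ (r + 1) : ℕ) : ℤ) =
        (Finset.univ : Finset σ).card * N' + N' := by
      rw [pow_succ, ← mul_assoc, ← hN', Finset.card_univ]; push_cast; ring
    rw [eN] at hz hDz
    obtain ⟨w, hw, e⟩ := key Finset.univ b k l hadm hkl hlk z
      (hmono b _ _ n (fun j => by have := hadm j; omega) (by omega) hz)
      (hmono b _ _ _ (fun j => by have := hadm j; omega) (by omega) hDz) ∅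
      (Finset.disjoint_empty_left _)
    have eb : (b + fun j => if j ∈ (Finset.univ : Finset σ) then 0 else (μ : ℤ)) = b := by
      funext j; simp
    rw [eb] at hw e
    rw [Finset.prod_empty, one_smul, Finset.card_univ] at e
    refine ⟨h ^ (c' - 1) • w, Submodule.smul_mem _ _ hw, ?_⟩
    have e6 : (Fintype.card σ + 1) ^ (r + 1) = (c' - 1) + (1 + Fintype.card σ * c') := by
      rw [pow_succ, ← hc', mul_add, mul_comm]; omega
    rw [e6, pow_add, mul_smul, map_smul, ← smul_sub]
    exact Submodule.smul_mem _ _ e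

end Vale.Agent.P202
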