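import Vale.Agent.P202.Exact
import Vale.Agent.P202.RG
import Vale.Agent.P202.Small

/-! The filtered systems of the approximate main lemma. -/

namespace Vale.Agent.P202

open IsLocalRing

section
variable {P : Type*} [CommRing P] {Λ : Type*} [CommRing Λ] [Algebra P Λ] {s : ℕ}
  {θ : Fin s → Λ} {u : Λˣ} {J : Type} [Fintype J] {i : J → ℕ}

theorem ng_UU (B : ℕ) {k : ℤ} {b : Fin s → ℤ} (hb : ∀ j, b j + k ≤ B) :
    NG (UU P θ u k b) ((B + 1) ^ s) := by
  classical
  refine NG.map ?_ _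
  have e : mon P θ (b + fun _ => k) = Submodule.span P (Set.range fun α : Fin s → Fin (B + 1) =>
      if ∀ j, ((α j : ℕ) : ℤ) ≤ b j + k then ∏ j, θ j ^ (α j : ℕ) else 0) := by
    refine le_antisymm (Submodule.span_le.2 ?_) (Submodule.span_le.2 ?_)
    · rintro _ ⟨c, hc, rfl⟩
      refine Submodule.subset_span ⟨fun j => ⟨c j, ?_⟩, if_pos hc⟩
      have h1 : (c j : ℤ) ≤ b j + k := hc j
      have := hb j
      omega
    · rintro _ ⟨α, rfl⟩
      dsimp only
      split_ifs with h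
      · exact Submodule.subset_span ⟨fun j => α j, h, rfl⟩
      · exact zero_mem _
  rw [e]
  simpa using ng_span (R := P) fun α : Fin s → Fin (B + 1) =>
      if ∀ j, ((α j : ℕ) : ℤ) ≤ b j + k then ∏ j, θ j ^ (α j : ℕ) else 0

theorem ng_VV (B : ℕ) {k : ℤ} {b : Fin s → ℤ} (hb : ∀ j, b j + k ≤ B) (n : ℤ) :
    NG (VV P θ u i b k n) (Fintype.card J * (B + 1) ^ s) := by
  have := ng_pi (fun a => conc (UU P θ u k b) (n + i a)) (fun _ => (B + 1) ^ s) fun a => by
    unfold conc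
    split_ifs
    · exact ng_UU B hb
    · exact ng_bot.mono (Nat.zero_le _)
  rwa [Finset.sum_const, smul_eq_mul, Finset.card_univ] at this

theorem ng_YY (B ν m : ℕ) {l : List (Fin s)} (hl : l.Nodup) {k : ℤ} {b : Fin s → ℤ}
    (hb : ∀ j, b j + 2 * m + k ≤ B) (n : ℤ) :
    NG (YY P θ u i ν m l b k n) (Fintype.card J * (3 ^ s * (B + 1) ^ s)) := by
  have := ng_pi (fun a => tw m l (UU P θ u (k - (i a : ℤ) * ν)) b (n + i a))
    (fun _ => 3 ^ s * (B + 1) ^ s) fun a => (ng_pi _ (fun _ => (B + 1) ^ s) fun e => by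
      split_ifs
      · refine ng_UU B fun j => ?_
        have h1 := hb j
        have h2 := sh_le (m := m) hl e j
        have h3 : 0 ≤ (i a : ℤ) * ν := by positivity
        rw [Pi.add_apply]
        omega
      · exact ng_bot.mono (Nat.zero_le _)).mono (by
      rw [Finset.sum_const, smul_eq_mul, Finset.card_univ, card_Ix]
      exact Nat.mul_le_mul_right _ (Nat.pow_le_pow_right (by norm_num)
        (by simpa using hl.length_le_card)))
  rwa [Finset.sum_const, smul_eq_mul, Finset.card_univ] at this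

end

variable {P : Type*} [CommRing P] [IsLocalRing P] [IsNoetherianRing P] {Λ : Type*} [CommRing Λ]
  [Algebra P Λ] {s : ℕ} {y : Fin (s + 1) → P} {θ : Fin s → Λ} {u : Λˣ} {J : Type} [Fintype J]
  [DecidableEq J] {i : J → ℕ} {g : Matrix J J P} {r : P} {L M : ℕ}

theorem FiltSys.of_equiv {R : Type*} [CommRing R] {M M' : Type*} [AddCommGroup M] [Module R M]
    [AddCommGroup M'] [Module R M'] {D : M →ₗ[R] M} {D' : M' →ₗ[R] M'} {h : R} {b : Ideal R}
    {V : ℤ → ℤ → Submodule R M} {V' : ℤ → ℤ → Submodule R M'} {k0 n0 n1 : ℤ} {L N c : ℕ}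
    (H : FiltSys D' h b V' k0 n0 n1 L N c) (φ : M ≃ₗ[R] M') (hD : ∀ x, φ (D x) = D' (φ x))
    (hV : ∀ k n x, x ∈ V k n ↔ φ x ∈ V' k n) : FiltSys D h b V k0 n0 n1 L N c := by
  refine ⟨fun k k' n h1 h2 x hx => (hV _ _ _).2 (H.mono k k' n h1 h2 ((hV _ _ _).1 hx)),
    fun k n hn => eq_bot_iff.2 fun x hx => ?_, fun k n x hx => ?_, fun k n hk x hx => ?_,
    fun k n hk r hr x hx => ?_, fun k l n h1 h2 h3 z hz hz' => ?_⟩
  · rwa [hV, H.bot k n hn, Submodule.mem_bot, map_eq_zero_iff φ φ.injective] at hx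
  · rw [hV, hD]; exact H.st k n _ ((hV _ _ _).1 hx)
  · rw [hV, hD, hD]; exact H.dd k n hk _ ((hV _ _ _).1 hx)
  · rw [hV, map_smul]; exact H.deep k n hk r hr _ ((hV _ _ _).1 hx)
  · rw [hV, hD] at hz'
    obtain ⟨w, hw, hw'⟩ := H.rg k l n h1 h2 h3 _ ((hV _ _ _).1 hz) hz'
    obtain ⟨w, rfl⟩ := φ.surjective w
    exact ⟨w, (hV _ _ _).2 hw, by rwa [hV, map_sub, map_smul, hD]⟩

omit [IsNoetherianRing P] [DecidableEq J] in
theorem CMS.act_mem (h : CMS y Λ θ u) {E : Matrix J J P} {p ν m : ℕ}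
    (hE : Ent E (Ideal.span (Set.range y) ^ p)) {l : List (Fin s)} {b : Fin s → ℤ} {k k' n n' : ℤ}
    (hd : ∀ a c, E a c ≠ 0 → n' + i a = n + i c ∧ ∀ e,
      UU P θ u (k - (i c : ℤ) * ν + p) (b + sh m l e) ≤ UU P θ u (k' - (i a : ℤ) * ν) (b + sh m l e))
    {v : J → Ix l → Λ} (hv : v ∈ YY P θ u i ν m l b k n) :
    act E v ∈ YY P θ u i ν m l b k' n' := by
  refine mem_prof.2 fun a => ?_
  rw [act_apply]
  refine Submodule.sum_mem _ fun c _ => ?_
  by_cases h0 : E a c = 0
  · rw [h0, zero_smul]; exact Submodule.zero_mem _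
  obtain ⟨h1, h2⟩ := hd a c h0
  refine mem_tw.2 fun e => ⟨fun he => h2 e (h.split.smul_UU (Ideal.mem_sup_right (hE a c))
    ((MainA_mem.1 hv c e).1 (by omega))), fun he => ?_⟩
  rw [Pi.smul_apply, (MainA_mem.1 hv c e).2 (by omega), smul_zero]

theorem CMS.filtSys_gen (h : CMS y Λ θ u) (hA : Apx y r i g L M) {ν L' : ℕ}
    (hent : Ent g (Ideal.span (Set.range y) ^ ν)) (hL : L' + 2 * ν ≤ L) (m : ℕ)
    {l : List (Fin s)} (hlen : l.length ≤ s) (μ : ℤ) (hμ : ∀ e j, μ ≤ sh m l e j)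
    (b : Fin s → ℤ) (k0 : ℤ) (hb : ∀ j, (s : ℤ) + (s + 1) * ν - μ ≤ b j + k0) :
    FiltSys (tot g i (dd (tt P θ m) l)) r (Ideal.span (Set.range y) ^ L) (YY P θ u i ν m l b) k0
      (-((s : ℤ) + 1)) s L' (M * (s + 1) ^ (2 * s + 2)) ((s + 1) ^ (2 * s + 2)) := by
  have hd := hA.deg
  have hi := hA.le
  have hδ : ∀ (c : Λ) (v : Ix l → Λ), dd (tt P θ m) l (c • v) = c • dd (tt P θ m) l v :=
    fun c v => dd_comm (LinearMap.mulLeft P c) (fun j y => mul_left_comm _ _ _) l v
  have hτ : ∀ (c : Λ) (v : J → Ix l → Λ),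
      tot g i (dd (tt P θ m) l) (c • v) = c • tot g i (dd (tt P θ m) l) v := by
    intro c v
    funext a
    simp only [tot_apply, Pi.smul_apply, hδ, smul_add, Finset.smul_sum, smul_comm c]
  have hdeg : ∀ (b : Fin s → ℤ) (k : ℤ), (∀ j, (s : ℤ) + (s + 1) * ν - μ ≤ b j + k) →
      ∀ (a : J) (e : Ix l) (j : Fin s), (s : ℤ) ≤ (b + sh m l e) j + (k - (i a : ℤ) * ν) := by
    intro b k hb a e j
    have h1 := hb j
    have h2 := hμ e j
    have h3 : (i a : ℤ) * ν ≤ (s + 1) * ν :=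
      mul_le_mul_of_nonneg_right (by exact_mod_cast hi a) (Int.natCast_nonneg ν)
    rw [Pi.add_apply]
    omega
  have hst : ∀ b k n, ∀ v ∈ YY P θ u i ν m l b k n,
      tot g i (dd (tt P θ m) l) v ∈ YY P θ u i ν m l b k (n + 1) := by
    intro b k n v hv
    refine add_mem (h.act_mem hent (fun a c h0 => ?_) hv) (mem_prof.2 fun a => ?_)
    · have h1 : (i c : ℤ) = i a + 1 := by exact_mod_cast (hd a c h0).symm
      exact ⟨by omega, fun e => by rw [h1]; exact le_of_eq (by congr 1; ring)⟩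
    · rw [add_right_comm]
      exact Submodule.smul_mem _ _ (tw_st (twOk_UU _ m l) (mem_prof.1 hv a))
  have hdd : ∀ (b : Fin s → ℤ) (k n : ℤ), (∀ j, (s : ℤ) + (s + 1) * ν - μ ≤ b j + k) →
      ∀ v ∈ YY P θ u i ν m l b k n, tot g i (dd (tt P θ m) l) (tot g i (dd (tt P θ m) l) v) ∈
        YY P θ u i ν m l b (k + L') (n + 1 + 1) := by
    intro b k n hb v hv
    have e : tot g i (dd (tt P θ m) l) (tot g i (dd (tt P θ m) l) v) = act (g * g) v :=
      funext fun a => by rw [mata_tot_tot hd, dd_dd (tt_comm θ m), add_zero, act_apply]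
    rw [e]
    refine h.act_mem hA.sq (fun a c h0 => ?_) hv
    obtain ⟨d, -, h1⟩ := Finset.exists_ne_zero_of_sum_ne_zero h0
    have h2 := hd a d (left_ne_zero_of_mul h1)
    have h3 := hd d c (right_ne_zero_of_mul h1)
    have h4 : (i c : ℤ) = i a + 2 := by omega
    refine ⟨by omega, fun e => h.split.UU_le (by rw [h4, add_mul]; omega) fun j => ?_⟩
    have := hdeg b k hb a e j
    omega
  have hbot : ∀ b k n, n < -((s : ℤ) + 1) ∨ (s : ℤ) < n → YY P θ u i ν m l b k n = ⊥ := by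
    intro b k n hn
    rw [eq_bot_iff]
    intro v hv
    rw [Submodule.mem_bot]
    funext a
    have := mem_prof.1 hv a
    have h1 := hi a
    rwa [tw_eq_bot (by omega), Submodule.mem_bot] at this
  have hmono : ∀ (b : Fin s → ℤ) (k k' n : ℤ), (∀ j, (s : ℤ) + (s + 1) * ν - μ ≤ b j + k) →
      k ≤ k' → YY P θ u i ν m l b k' n ≤ YY P θ u i ν m l b k n := fun b k k' n hb hk v hv =>
    MainA_mem.2 fun a e => ⟨fun he => h.split.UU_le (by omega) (hdeg b k hb a e)
      ((MainA_mem.1 hv a e).1 he), (MainA_mem.1 hv a e).2⟩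
  have hb' : ∀ k, k0 ≤ k → ∀ j, (s : ℤ) + (s + 1) * ν - μ ≤ b j + k := fun k hk j => by
    have := hb j; omega
  refine ⟨fun k k' n h1 h2 => hmono b k k' n (hb' k h1) h2, hbot b, hst b,
    fun k n hk => hdd b k n (hb' k hk), fun k n hk c hc v hv => ?_,
    fun k k' n h1 h2 h3 z hz hDz => ?_⟩
  · refine MainA_mem.2 fun a e => ⟨fun he => h.split.UU_le (by omega) (fun j => ?_)
      (h.split.smul_UU (Ideal.mem_sup_right hc) ((MainA_mem.1 hv a e).1 he)), fun he => ?_⟩
    · have := hdeg b k (hb' k hk) a e j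
      omega
    · rw [Pi.smul_apply, Pi.smul_apply, (MainA_mem.1 hv a e).2 he, smul_zero]
  by_cases hn : (s : ℤ) < n
  · rw [hbot _ _ _ (Or.inr hn), Submodule.mem_bot] at hz
    exact ⟨0, zero_mem _, by simp [hz]⟩
  have key := rghost (tot g i (dd (tt P θ m) l)) (fun j => θ j ^ (s + (s + 1) * M)) r
    (YY P θ u i ν m l) (s + (s + 1) * M) M L' ((s : ℤ) + (s + 1) * ν - μ) (-(s + 1))
    (fun j => hτ _) hst hdd (fun b k n hn => hbot b k n (Or.inl hn)) ?_ ?_
    (fun b k n hb => hmono b k _ n hb (by omega)) ?_ ?_ ?_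
    (2 * s + 2) b k k' n (by push_cast; omega) (hb' k h1) h2 h3
  · rw [Fintype.card_fin] at key
    exact key z hz hDz
  · intro b b' k n hb v hv
    exact MainA_mem.2 fun a e => ⟨fun he => MainA_mono (add_le_add hb le_rfl)
      ((MainA_mem.1 hv a e).1 he), (MainA_mem.1 hv a e).2⟩
  · intro b k n j v hv
    refine MainA_mem.2 fun a e => ⟨fun he => ?_, fun he => ?_⟩
    · rw [add_right_comm]
      exact MainA_pow ((MainA_mem.1 hv a e).1 he) j _
    · change _ * v a e = 0
      rw [(MainA_mem.1 hv a e).2 he, mul_zero]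
  · intro b k n j hb y hy
    have key : ∀ (a : J) (e : Ix l), ∃ y1 y2 : Λ,
        (((dg l e : ℤ) = n + i a → y1 ∈ UU P θ u (k - (i a : ℤ) * ν)
          (b + Pi.single j ((s + (s + 1) * M : ℕ) : ℤ) + sh m l e)) ∧
          ((dg l e : ℤ) ≠ n + i a → y1 = 0)) ∧
        (((dg l e : ℤ) = n + i a → y2 ∈ UU P θ u (k - (i a : ℤ) * ν)
          (b + Pi.single j ((s + (s + 1) * M : ℕ) : ℤ) + sh m l e)) ∧
          ((dg l e : ℤ) ≠ n + i a → y2 = 0)) ∧
        y a e = θ j ^ (s + (s + 1) * M) * y1 - y2 := by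
      intro a e
      by_cases he : (dg l e : ℤ) = n + i a
      · have h1 := (MainA_mem.1 hy a e).1 he
        rw [add_right_comm] at h1
        obtain ⟨y1, h2, y2, h3, h4⟩ := MainA_surj (by have := hdeg b k hb a e j; omega) _ h1
        rw [add_right_comm] at h2 h3
        exact ⟨y1, y2, ⟨fun _ => h2, fun h => absurd he h⟩, ⟨fun _ => h3, fun h => absurd he h⟩, h4⟩
      · exact ⟨0, 0, ⟨fun h => absurd h he, fun _ => rfl⟩, ⟨fun h => absurd h he, fun _ => rfl⟩,
          by simp [(MainA_mem.1 hy a e).2 he]⟩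
    choose y1 y2 h1 h2 h3 using key
    exact ⟨y1, MainA_mem.2 h1, y2, MainA_mem.2 h2, funext fun a => funext fun e => h3 a e⟩
  · intro b k n j hb y hy hy'
    refine MainA_mem.2 fun a e => ⟨fun he => ?_, (MainA_mem.1 hy a e).2⟩
    have h1 := (MainA_mem.1 hy a e).1 he
    have h2 : θ j ^ (s + (s + 1) * M) * y a e ∈ _ := (MainA_mem.1 hy' a e).1 he
    rw [add_right_comm, mem_UU, add_right_comm] at h1 h2
    rw [mul_left_comm] at h2
    exact mem_UU.2 (h.sv (hdeg b k hb a e) j _ _ h1 h2)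
  · intro b k k' n ε hb h2 h3 z hz hDz
    obtain ⟨G, hG, eG⟩ := h.split.kill_pow M (y := ∏ j ∈ ε, θ j ^ (s + (s + 1) * M))
      (Submodule.subset_span ⟨fun j => if j ∈ ε then s + (s + 1) * M else 0, fun j => by
        dsimp only
        split_ifs
        · push_cast; exact le_rfl
        · positivity, by simp [Finset.prod_ite_mem]⟩)
    choose H hH hH' using hA.null
    have hv : ∀ t k n, ∀ z ∈ YY P θ u i ν m l b (k + M) n, (G t * ((u ^ (-(M : ℤ)) : Λˣ) : Λ)) • z ∈
        YY P θ u i ν m l (b + fun _ => ((s + (s + 1) * M : ℕ) : ℤ)) k n := by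
      intro t k n z hz
      refine MainA_mem.2 fun a e => ⟨fun he => ?_, fun he => ?_⟩
      · have h1 := mon_mul (hG t) (mem_UU.1 ((MainA_mem.1 hz a e).1 he))
        rw [mem_UU]
        refine mon_mono (fun j => ?_) (by
          convert h1 using 1
          change _ * (_ * z a e) = _
          rw [show -(k + M - (i a : ℤ) * ν) = -(k - (i a : ℤ) * ν) + -(M : ℤ) by ring, zpow_add,
            Units.val_mul]
          ring)
        simp only [Pi.add_apply]
        push_cast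
        linarith
      · change _ * z a e = 0
        rw [(MainA_mem.1 hz a e).2 he, mul_zero]
    have hb2 : ∀ k', k ≤ k' → ∀ j, (s : ℤ) + (s + 1) * ν - μ ≤
        (b + fun _ => ((s + (s + 1) * M : ℕ) : ℤ) : Fin s → ℤ) j + k' := fun k' hk j => by
      have := hb j
      simp only [Pi.add_apply]
      omega
    have hact : ∀ t k' n, k ≤ k' →
        ∀ v ∈ YY P θ u i ν m l (b + fun _ => ((s + (s + 1) * M : ℕ) : ℤ)) k' (n + 1),
        act (H t) v ∈ YY P θ u i ν m l (b + fun _ => ((s + (s + 1) * M : ℕ) : ℤ)) k' n :=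
      fun t k' n hk v hv => h.act_mem (p := 0) (fun _ _ => by simp) (fun a c h0 => by
        have h1 : (i a : ℤ) = i c + 1 := by exact_mod_cast hH t a c h0
        exact ⟨by omega, fun e => h.split.UU_le (by rw [h1, add_mul]; omega)
          (hdeg _ k' (hb2 k' hk) a e)⟩) hv
    let v : Fin (s + 1) → J → Ix l → Λ := fun t => (G t * ((u ^ (-(M : ℤ)) : Λˣ) : Λ)) • z
    refine ⟨∑ t, act (H t) (v t), Submodule.sum_mem _ fun t _ => hact t k _ le_rfl _
      (by rw [sub_add_cancel]; exact hv t k n z hz), ?_⟩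
    have e1 : (∏ j ∈ ε, θ j ^ (s + (s + 1) * M)) • z = ∑ t, y t ^ M • v t := by
      simp only [v, ← smul_assoc, ← smul_mul_assoc]
      rw [← Finset.sum_smul, ← Finset.sum_mul, ← eG, mul_right_comm, ← Units.val_pow_eq_pow_val,
        ← Units.val_mul, ← zpow_natCast, ← zpow_add, add_neg_cancel, zpow_zero, Units.val_one,
        one_mul]
    rw [e1, map_sum, Finset.smul_sum, ← Finset.sum_sub_distrib]
    refine Submodule.sum_mem _ fun t _ => ?_
    have e2 := MainA_anti (g := g) (i := i) (δ := dd (tt P θ m) l) (h := H t)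
      (fun a c h0 => by rw [hH t a c h0, pow_succ]; ring) (v t)
    have e3 : act (g * H t + H t * g - (r * y t ^ M) • (1 : Matrix J J P)) (v t) =
        act (g * H t + H t * g) (v t) - r • y t ^ M • v t := by
      funext a
      simp only [act_apply, Matrix.sub_apply, sub_smul, Finset.sum_sub_distrib, Matrix.smul_apply,
        Matrix.one_apply, smul_eq_mul, mul_ite, mul_one, mul_zero, ite_smul, zero_smul,
        Finset.sum_ite_eq, Finset.mem_univ, if_true, Pi.sub_apply, Pi.smul_apply, smul_smul]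
    have e4 : r • y t ^ M • v t - tot g i (dd (tt P θ m) l) (act (H t) (v t)) =
        act (H t) (tot g i (dd (tt P θ m) l) (v t)) -
          act (g * H t + H t * g - (r * y t ^ M) • (1 : Matrix J J P)) (v t) := by
      rw [e3, ← e2]; abel
    rw [e4, hτ]
    refine sub_mem (hact t k' n h2 _ (hv t k' _ _ hDz))
      (h.act_mem (hH' t) (fun a c h0 => ?_) (hv t k n z hz))
    have h1 : i a = i c := by
      by_contra e
      refine h0 ?_
      have n1 : a ≠ c := fun e' => e (by rw [e'])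
      rw [Matrix.sub_apply, Matrix.add_apply, Matrix.smul_apply, Matrix.one_apply_ne n1, smul_zero,
        sub_zero, Matrix.mul_apply, Matrix.mul_apply, Finset.sum_eq_zero, Finset.sum_eq_zero,
        add_zero]
      · intro d _
        by_contra e'
        have := hH t a d (left_ne_zero_of_mul e')
        have := hd d c (right_ne_zero_of_mul e')
        omega
      · intro d _
        by_contra e'
        have := hd a d (left_ne_zero_of_mul e')
        have := hH t d c (right_ne_zero_of_mul e')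
        omega
    exact ⟨by rw [h1], fun e => h.split.UU_le (by rw [h1]; omega) (hdeg _ k' (hb2 k' h2) a e)⟩

theorem CMS.filtSys_YY (h : CMS y Λ θ u) (hA : Apx y r i g L M) {ν L' : ℕ}
    (hent : Ent g (Ideal.span (Set.range y) ^ ν)) (hL : L' + 2 * ν ≤ L) (m : ℕ)
    {l : List (Fin s)} (hl : ∀ j, j ∈ l) (hnd : l.Nodup) (b : Fin s → ℤ) (k0 : ℤ)
    (hb : ∀ j, (s : ℤ) + (s + 1) * ν ≤ b j + m + k0) :
    FiltSys (tot g i (dd (tt P θ m) l)) r (Ideal.span (Set.range y) ^ L) (YY P θ u i ν m l b) k0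
      (-((s : ℤ) + 1)) s L' (M * (s + 1) ^ (2 * s + 2)) ((s + 1) ^ (2 * s + 2)) := by
  exact h.filtSys_gen hA hent hL m (by rw [Piece_length hnd hl, Fintype.card_fin]) m
    (fun e j => sh_ge e (hl j)) b k0 fun j => by have := hb j; omega

theorem CMS.filtSys_VV (h : CMS y Λ θ u) (hA : Apx y r i g L M) (b : Fin s → ℤ) (k0 : ℤ)
    (hb : ∀ j, (s : ℤ) ≤ b j + k0) :
    FiltSys (act g) r (Ideal.span (Set.range y) ^ L) (VV P θ u i b) k0
      (-((s : ℤ) + 1)) s L (M * (s + 1) ^ (2 * s + 2)) ((s + 1) ^ (2 * s + 2)) := by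
  refine (h.filtSys_gen hA (ν := 0) (L' := L) (fun _ _ => by simp) le_rfl 0 (l := []) (Nat.zero_le _)
    0 (fun _ _ => le_rfl) b k0 fun j => by simpa using hb j).of_equiv
    (LinearEquiv.piCongrRight fun _ => (LinearEquiv.funUnique Unit P Λ).symm) (fun x => ?_)
    fun k n x => ?_
  · funext a e
    change act g x a = tot g i 0 (fun a (_ : Unit) => x a) a e
    rw [tot_zero, act_apply, act_apply]
    exact (Finset.sum_apply (e : Unit) Finset.univ fun b => g a b • fun _ : Unit => x b).symm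
  · rw [VV, mem_pf, MainA_mem]
    refine forall_congr' fun a => ?_
    change _ ↔ ∀ e : Unit, (((0 : ℕ) : ℤ) = n + i a → x a ∈ UU P θ u (k - (i a : ℤ) * (0 : ℕ))
      (b + 0)) ∧ (((0 : ℕ) : ℤ) ≠ n + i a → x a = 0)
    simp [eq_comm (a := (0 : ℤ))]

end Vale.Agent.P202
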