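import Vale.Agent.P202.Cx
import Vale.Agent.P202.Defs2

/-! The tower of two-term complexes. -/

namespace Vale.Agent.P202

variable {R : Type*} [CommRing R] {M : Type*} [AddCommGroup M] [Module R M]
  {M' : Type*} [AddCommGroup M'] [Module R M'] {σ : Type} {t : σ → Module.End R M}

/-- a vector for `j :: l` from its three slices -/
def tv (j : σ) {l : List σ} (f g h : Ix l → M) : Ix (j :: l) → M :=
  fun x : Fin 3 × Ix l => ![f, g, h] x.1 x.2

omit [AddCommGroup M] in
theorem tv_cases {j : σ} {l : List σ} (v : Ix (j :: l) → M) : ∃ f g h, v = tv j f g h := by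
  refine ⟨fun e => v ((0 : Fin 3), e), fun e => v ((1 : Fin 3), e), fun e => v ((2 : Fin 3), e), ?_⟩
  funext ⟨c, e⟩
  fin_cases c <;> rfl

theorem tower_forall {j : σ} {l : List σ} {p : Ix (j :: l) → Prop} :
    (∀ x, p x) ↔ (∀ e, p ((0 : Fin 3), e)) ∧ (∀ e, p ((1 : Fin 3), e)) ∧
      ∀ e, p ((2 : Fin 3), e) := by
  refine ⟨fun h => ⟨fun _ => h _, fun _ => h _, fun _ => h _⟩, fun h ⟨c, e⟩ => ?_⟩
  fin_cases c
  exacts [h.1 e, h.2.1 e, h.2.2 e]

omit [AddCommGroup M] in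
theorem tv_inj {j : σ} {l : List σ} {f g h f' g' h' : Ix l → M} :
    tv j f g h = tv j f' g' h' ↔ f = f' ∧ g = g' ∧ h = h' := by
  simp only [funext_iff, tower_forall]
  rfl

theorem tv_zero {j : σ} {l : List σ} : tv j (0 : Ix l → M) 0 0 = 0 := by
  funext ⟨c, e⟩
  fin_cases c <;> rfl

theorem tv_add {j : σ} {l : List σ} (f g h f' g' h' : Ix l → M) :
    tv j f g h + tv j f' g' h' = tv j (f + f') (g + g') (h + h') := by
  funext ⟨c, e⟩
  fin_cases c <;> rfl

theorem tv_sub {j : σ} {l : List σ} (f g h f' g' h' : Ix l → M) :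
    tv j f g h - tv j f' g' h' = tv j (f - f') (g - g') (h - h') := by
  funext ⟨c, e⟩
  fin_cases c <;> rfl

theorem dd_tv {j : σ} {l : List σ} (f g h : Ix l → M) :
    dd t (j :: l) (tv j f g h) =
      tv j (dd t l f) (dd t l g) ((fun e => t j (f e)) - g - dd t l h) := by
  funext ⟨c, e⟩
  fin_cases c <;> rfl

theorem aug_cons {j : σ} {l : List σ} (x : M) :
    aug t (j :: l) x = tv j (aug t l x) (fun e => t j (aug t l x e)) 0 := by
  funext ⟨c, e⟩
  fin_cases c <;> rfl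

theorem tower_sum {β : Type*} [AddCommMonoid β] {j : σ} {l : List σ} (F : Ix (j :: l) → β) :
    ∑ x, F x = ∑ e, F ((0 : Fin 3), e) + ∑ e, F ((1 : Fin 3), e) + ∑ e, F ((2 : Fin 3), e) := by
  have := Fintype.sum_prod_type (α₁ := Fin 3) (α₂ := Ix l) F
  rw [Fin.sum_univ_three] at this
  exact this

theorem dd_comm {t' : σ → Module.End R M'} (φ : M →ₗ[R] M') (h : ∀ j x, φ (t j x) = t' j (φ x))
    (l : List σ) (v : Ix l → M) : dd t' l (fun e => φ (v e)) = fun e => φ (dd t l v e) := by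
  induction l with
  | nil => funext e; simp [dd]
  | cons j l ih =>
    obtain ⟨f, g, k, rfl⟩ := tv_cases v
    have e : ∀ f g k : Ix l → M, (fun e => φ (tv j f g k e)) =
        tv j (fun e => φ (f e)) (fun e => φ (g e)) fun e => φ (k e) := by
      intro f g k
      funext ⟨c, e⟩
      fin_cases c <;> rfl
    rw [dd_tv, e, e, dd_tv, ih, ih, ih, tv_inj]
    refine ⟨rfl, rfl, funext fun e => ?_⟩
    simp [h]

theorem dd_dd (hc : ∀ i j x, t i (t j x) = t j (t i x)) (l : List σ) (v : Ix l → M) :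
    dd t l (dd t l v) = 0 := by
  induction l with
  | nil => simp [dd]
  | cons j l ih =>
    obtain ⟨f, g, k, rfl⟩ := tv_cases v
    rw [dd_tv, dd_tv, ih, ih, map_sub, map_sub, ih, dd_comm (t j) (fun i x => hc j i x),
      ← tv_zero]
    simp

theorem dg_le (l : List σ) (e : Ix l) : dg l e ≤ l.length := by
  induction l with
  | nil => exact le_rfl
  | cons j l ih =>
    have := ih e.2
    simp only [dg, List.length_cons]
    split_ifs <;> omega

theorem card_Ix (l : List σ) : Fintype.card (Ix l) = 3 ^ l.length := by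
  induction l with
  | nil => rfl
  | cons j l ih =>
    have : Fintype.card (Ix (j :: l)) = Fintype.card (Fin 3 × Ix l) := rfl
    rw [this, Fintype.card_prod, ih, List.length_cons, pow_succ', Fintype.card_fin]

theorem aug_injective (l : List σ) : Function.Injective (aug t l) := by
  induction l with
  | nil => exact fun x y h => congrFun h ()
  | cons j l ih =>
    intro x y h
    rw [aug_cons, aug_cons, tv_inj] at h
    exact ih h.1

theorem dd_aug (hc : ∀ i j x, t i (t j x) = t j (t i x)) (l : List σ) (x : M) :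
    dd t l (aug t l x) = 0 := by
  induction l with
  | nil => simp [dd]
  | cons j l ih =>
    rw [aug_cons, dd_tv, dd_comm (t j) (fun i x => hc j i x), ih, ← tv_zero, tv_inj]
    exact ⟨rfl, funext fun e => by simp, by simp⟩

variable [DecidableEq σ] {m : ℕ} {l : List σ} {A A' : (σ → ℤ) → Submodule R M} {b b' : σ → ℤ}

theorem sh_nonneg (e : Ix l) (j : σ) : 0 ≤ sh m l e j := by
  induction l with
  | nil => exact le_rfl
  | cons i l ih =>
    have := ih e.2
    simp only [sh, Pi.add_apply, Pi.single_apply]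
    split_ifs <;> omega

theorem sh_of_not_mem (e : Ix l) {j : σ} (hj : j ∉ l) : sh m l e j = 0 := by
  induction l with
  | nil => rfl
  | cons i l ih =>
    rw [List.mem_cons, not_or] at hj
    simp [sh, ih e.2 hj.2, hj.1]

theorem sh_ge (e : Ix l) {j : σ} (hj : j ∈ l) : (m : ℤ) ≤ sh m l e j := by
  induction l with
  | nil => simp at hj
  | cons i l ih =>
    have h0 := sh_nonneg (m := m) e.2 j
    simp only [sh, Pi.add_apply, Pi.single_apply]
    by_cases h : j = i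
    · simp only [h, if_true] at h0 ⊢
      split_ifs <;> omega
    · have := ih e.2 ((List.mem_cons.1 hj).resolve_left h)
      simp only [h, if_false]
      omega

theorem sh_le (hl : l.Nodup) (e : Ix l) (j : σ) : sh m l e j ≤ 2 * m := by
  induction l with
  | nil => simp [sh]
  | cons i l ih =>
    obtain ⟨h1, h2⟩ := List.nodup_cons.1 hl
    simp only [sh, Pi.add_apply, Pi.single_apply]
    by_cases h : j = i
    · subst h
      rw [sh_of_not_mem e.2 h1]
      split_ifs <;> omega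
    · have := ih h2 e.2
      simp only [h, if_false]
      omega

theorem mem_tw {n : ℤ} {v : Ix l → M} : v ∈ tw m l A b n ↔
    ∀ e, ((dg l e : ℤ) = n → v e ∈ A (b + sh m l e)) ∧ ((dg l e : ℤ) ≠ n → v e = 0) := by
  rw [tw, Submodule.mem_pi]
  refine forall_congr' fun e => ?_
  by_cases h : (dg l e : ℤ) = n <;> simp [h]

theorem tw_map {B : (σ → ℤ) → Submodule R M'} (φ : M →ₗ[R] M')
    (h : ∀ e, ∀ x ∈ A (b + sh m l e), φ x ∈ B (b' + sh m l e)) {n : ℤ} {v : Ix l → M}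
    (hv : v ∈ tw m l A b n) : (fun e => φ (v e)) ∈ tw m l B b' n := by
  rw [mem_tw] at hv ⊢
  exact fun e => ⟨fun h0 => h e _ ((hv e).1 h0), fun h0 => by rw [(hv e).2 h0, map_zero]⟩

theorem tv_mem_tw {j : σ} {n : ℤ} {f g h : Ix l → M} : tv j f g h ∈ tw m (j :: l) A b n ↔
    f ∈ tw m l A (b + Pi.single j (m : ℤ)) n ∧ g ∈ tw m l A (b + Pi.single j (m : ℤ)) n ∧
      h ∈ tw m l A (b + Pi.single j (2 * (m : ℤ))) (n - 1) := by
  have e : ∀ (c : ℤ) (e : Ix l), b + Pi.single j c + sh m l e = b + (sh m l e + Pi.single j c) :=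
    fun c e => by abel
  have e2 : ∀ e : Ix l, (dg l e : ℤ) = n - 1 ↔ ((dg l e + 1 : ℕ) : ℤ) = n := fun e => by
    push_cast; omega
  simp only [mem_tw, tower_forall, e, ne_eq, e2]
  rfl

theorem tw_mono (h : ∀ e, A' (b' + sh m l e) ≤ A (b + sh m l e)) (n : ℤ) :
    tw m l A' b' n ≤ tw m l A b n := by
  exact fun _ hv => tw_map LinearMap.id h hv

theorem tw_bot (b : σ → ℤ) :
    tw m l (fun _ => (⊥ : Submodule R M)) b = fun _ => ⊥ := by
  funext n
  simp [tw]

theorem tw_eq_bot {n : ℤ} (hn : n < 0 ∨ (l.length : ℤ) < n) : tw m l A b n = ⊥ := by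
  rw [eq_bot_iff]
  intro v hv
  funext e
  have := dg_le l e
  exact (mem_tw.1 hv e).2 (by omega)

theorem TwOk.tail {j : σ} (h : TwOk t m (j :: l) A) : TwOk t m l A :=
  fun i hi => h i (List.mem_cons_of_mem _ hi)

theorem tower_up {j : σ} (hA : TwOk t m (j :: l) A) {n : ℤ} {v : Ix l → M}
    (hv : v ∈ tw m l A b n) : v ∈ tw m l A (b + Pi.single j (m : ℤ)) n ∧
      (fun e => t j (v e)) ∈ tw m l A (b + Pi.single j (m : ℤ)) n :=
  ⟨tw_mono (fun e => by rw [add_right_comm]; exact (hA j (by simp) _).1) n hv,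
    tw_map (t j) (fun e => by rw [add_right_comm b _ (sh m l e)]; exact (hA j (by simp) _).2) hv⟩

theorem tw_st (hA : TwOk t m l A) {n : ℤ} {v : Ix l → M} (hv : v ∈ tw m l A b n) :
    dd t l v ∈ tw m l A b (n + 1) := by
  induction l generalizing b n with
  | nil => simp [dd]
  | cons j l ih =>
    obtain ⟨f, g, k, rfl⟩ := tv_cases v
    obtain ⟨h1, h2, h3⟩ := tv_mem_tw.1 hv
    have e : b + Pi.single j (2 * (m : ℤ)) = b + Pi.single j (m : ℤ) + Pi.single j (m : ℤ) := by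
      rw [two_mul, Pi.single_add, add_assoc]
    rw [dd_tv, tv_mem_tw, add_sub_cancel_right]
    refine ⟨ih hA.tail h1, ih hA.tail h2, sub_mem (sub_mem ?_ ?_) ?_⟩
    · rw [e]; exact (tower_up hA h1).2
    · rw [e]; exact (tower_up hA h2).1
    · simpa using ih hA.tail h3

theorem tower_bdd (K : ℤ → Submodule R (Ix l → M)) : {n | ¬ tw m l A b n ≤ K n}.Finite := by
  refine (Set.finite_Icc (0 : ℤ) l.length).subset fun n hn => ?_
  by_contra h
  rw [Set.mem_Icc] at h
  exact hn (by rw [tw_eq_bot (by omega)]; exact bot_le)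

theorem isPair_tw (hc : ∀ i j x, t i (t j x) = t j (t i x)) (hA : TwOk t m l A)
    (hA' : TwOk t m l A') (h : ∀ e, A' (b + sh m l e) ≤ A (b + sh m l e)) :
    IsPair (dd t l) (tw m l A b) (tw m l A' b) := by
  exact ⟨tw_mono h, fun _ _ => tw_st hA, fun _ _ => tw_st hA',
    fun n x _ => by rw [dd_dd hc]; exact zero_mem _, tower_bdd _⟩

theorem rl_tw (n : ℤ) : rl (tw m l A' b n) (tw m l A b n) =
    ∑ e : Ix l, if (dg l e : ℤ) = n then rl (A' (b + sh m l e)) (A (b + sh m l e)) else 0 := by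
  rw [tw, tw, rl_pi]
  refine Finset.sum_congr rfl fun e _ => ?_
  split_ifs
  exacts [rfl, rl_self _]

theorem hh_tw_le (n : ℤ) : hh (dd t l) (tw m l A b) (tw m l A' b) n ≤
    ∑ e : Ix l, rl (A' (b + sh m l e)) (A (b + sh m l e)) := by
  refine (hh_le_rl n).trans ?_
  rw [rl_tw]
  refine Finset.sum_le_sum fun e _ => ?_
  split_ifs
  exacts [le_rfl, zero_le]

theorem chi_tw (hc : ∀ i j x, t i (t j x) = t j (t i x)) (hA : TwOk t m l A)
    (hA' : TwOk t m l A') (h : ∀ e, A' (b + sh m l e) ≤ A (b + sh m l e))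
    (hf : ∀ e, rl (A' (b + sh m l e)) (A (b + sh m l e)) ≠ ⊤) :
    chi (dd t l) (tw m l A b) (tw m l A' b) =
      ∑ e : Ix l, (-1 : ℤ) ^ dg l e * ((rl (A' (b + sh m l e)) (A (b + sh m l e))).toNat : ℤ) := by
  have hf' : ∀ (n : ℤ) (e : Ix l), (if (dg l e : ℤ) = n then
      rl (A' (b + sh m l e)) (A (b + sh m l e)) else 0) ≠ ⊤ := by
    intro n e
    split_ifs
    exacts [hf e, ENat.zero_ne_top]
  rw [chi_eq_terms (isPair_tw hc hA hA' h) fun n => by
    rw [rl_tw]; exact WithTop.sum_ne_top.2 fun e _ => hf' n e]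
  have e1 : ∀ n : ℤ, ((n.negOnePow : ℤˣ) : ℤ) * ((rl (tw m l A' b n) (tw m l A b n)).toNat : ℤ) =
      ∑ e : Ix l, if (dg l e : ℤ) = n then
        (-1 : ℤ) ^ dg l e * ((rl (A' (b + sh m l e)) (A (b + sh m l e))).toNat : ℤ) else 0 := by
    intro n
    rw [rl_tw, ENat.toNat_sum fun e _ => hf' n e, Nat.cast_sum, Finset.mul_sum]
    refine Finset.sum_congr rfl fun e _ => ?_
    split_ifs with h0
    · rw [← h0, Int.coe_negOnePow_natCast]
    · simp
  simp only [e1]
  rw [finsum_eq_sum_of_support_subset (s := Finset.univ.image fun e : Ix l => (dg l e : ℤ))]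
  · rw [Finset.sum_comm]
    refine Finset.sum_congr rfl fun e _ => ?_
    rw [Finset.sum_ite_eq, if_pos (Finset.mem_image_of_mem _ (Finset.mem_univ e))]
  · intro n hn
    obtain ⟨e, -, he⟩ := Finset.exists_ne_zero_of_sum_ne_zero hn
    refine Finset.mem_coe.2 (Finset.mem_image.2 ⟨e, Finset.mem_univ e, ?_⟩)
    by_contra h0
    exact he (if_neg h0)

theorem sum_sign_prod [Fintype σ] (hl : l.Nodup) (b : σ → ℤ) :
    ∑ e : Ix l, (-1 : ℝ) ^ dg l e * ∏ j, (((b + sh m l e) j : ℝ) + 1) = ∏ j, ((b j : ℝ) + 1) := by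
  clear hl
  induction l generalizing b with
  | nil =>
    have : ∀ F : Ix ([] : List σ) → ℝ, ∑ e, F e = F () := fun F => Fintype.sum_unique (ι := Unit) F
    rw [this]
    simp [dg, sh]
  | cons i l ih =>
    have e : ∀ (c : ℤ) (e : Ix l), b + (sh m l e + Pi.single i c) = b + Pi.single i c + sh m l e :=
      fun c e => by abel
    have e3 : ∀ c : ℤ, ∏ j, (((b + Pi.single i c : σ → ℤ) j : ℝ) + 1) =
        ((b i : ℝ) + c + 1) * ∏ j ∈ Finset.univ.erase i, ((b j : ℝ) + 1) := by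
      intro c
      rw [← Finset.mul_prod_erase _ _ (Finset.mem_univ i)]
      congr 1
      · simp
      · exact Finset.prod_congr rfl fun j hj => by simp [Finset.ne_of_mem_erase hj]
    have h1 := ih (b + Pi.single i (m : ℤ))
    have h2 := ih (b + Pi.single i (2 * (m : ℤ)))
    rw [tower_sum]
    have d0 : ∀ x : Ix l, dg (i :: l) ((0 : Fin 3), x) = dg l x := fun _ => rfl
    have d1 : ∀ x : Ix l, dg (i :: l) ((1 : Fin 3), x) = dg l x := fun _ => rfl
    have d2 : ∀ x : Ix l, dg (i :: l) ((2 : Fin 3), x) = dg l x + 1 := fun _ => rfl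
    have s0 : ∀ x : Ix l, sh m (i :: l) ((0 : Fin 3), x) = sh m l x + Pi.single i (m : ℤ) :=
      fun _ => rfl
    have s1 : ∀ x : Ix l, sh m (i :: l) ((1 : Fin 3), x) = sh m l x + Pi.single i (m : ℤ) :=
      fun _ => rfl
    have s2 : ∀ x : Ix l, sh m (i :: l) ((2 : Fin 3), x) = sh m l x + Pi.single i (2 * (m : ℤ)) :=
      fun _ => rfl
    simp only [d0, d1, d2, s0, s1, s2, e, pow_succ, mul_neg, mul_one, neg_mul, Finset.sum_neg_distrib]
    rw [h1, h2, e3, e3, ← Finset.mul_prod_erase _ _ (Finset.mem_univ i)]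
    push_cast; ring

/-- termwise transport -/
theorem hh_tw_transport {t' : σ → Module.End R M'} {B B' : (σ → ℤ) → Submodule R M'}
    (hc : ∀ i j x, t i (t j x) = t j (t i x)) (hA : TwOk t m l A) (hA' : TwOk t m l A')
    (hle : ∀ e, A' (b + sh m l e) ≤ A (b + sh m l e)) (hB' : TwOk t' m l B') (φ : M →ₗ[R] M')
    (hφ : ∀ j x, φ (t j x) = t' j (φ x))
    (h1 : ∀ e, ∀ x ∈ A (b + sh m l e), φ x ∈ B (b' + sh m l e))
    (h2 : ∀ e, ∀ x ∈ A (b + sh m l e), φ x ∈ B' (b' + sh m l e) ↔ x ∈ A' (b + sh m l e))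
    (h3 : ∀ e, ∀ y ∈ B (b' + sh m l e), ∃ x ∈ A (b + sh m l e), y - φ x ∈ B' (b' + sh m l e))
    (n : ℤ) :
    hh (dd t' l) (tw m l B b') (tw m l B' b') n = hh (dd t l) (tw m l A b) (tw m l A' b) n := by
  have := hh_transport (δ' := dd t' l) (K := tw m l B b') (K' := tw m l B' b')
    (isPair_tw hc hA hA' hle) (φ.compLeft (Ix l)) 0 1 (fun n x hx => ?_) (fun n x hx => ?_)
    (fun n y hy => ?_) (fun n x hx => ?_) (fun _ _ => tw_st hB') n
  · simpa using this
  · rw [add_zero]; exact tw_map φ h1 hx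
  · rw [add_zero, mem_tw, mem_tw]
    refine forall_congr' fun e => ?_
    have hx' := mem_tw.1 hx e
    by_cases h0 : (dg l e : ℤ) = n
    · simpa [h0] using h2 e _ (hx'.1 h0)
    · simp [h0, hx'.2 h0]
  · rw [add_zero] at hy ⊢
    have : ∀ e, ∃ x : M, (((dg l e : ℤ) = n → x ∈ A (b + sh m l e)) ∧ ((dg l e : ℤ) ≠ n → x = 0)) ∧
        (((dg l e : ℤ) = n → y e - φ x ∈ B' (b' + sh m l e)) ∧
          ((dg l e : ℤ) ≠ n → y e - φ x = 0)) := by
      intro e
      have hy' := mem_tw.1 hy e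
      by_cases h0 : (dg l e : ℤ) = n
      · obtain ⟨x, hx, hxy⟩ := h3 e _ (hy'.1 h0)
        exact ⟨x, by simp [h0, hx, hxy]⟩
      · exact ⟨0, by simp [h0, hy'.2 h0]⟩
    choose x hx hxy using this
    exact ⟨x, mem_tw.2 hx, mem_tw.2 hxy⟩
  · have e : dd t' l (φ.compLeft (Ix l) x) = φ.compLeft (Ix l) (dd t l x) := dd_comm φ hφ l x
    simp [e]

theorem TwExact.hh_eq {n : ℤ} (h : TwExact t m l A b n) :
    hh (dd t l) (tw m l A b) (tw m l (fun _ => ⊥) b) n = 0 := by
  rw [tw_bot, hh_eq_zero_iff]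
  intro x hx hd
  obtain ⟨y, hy, e⟩ := h x hx hd
  exact ⟨y, hy, by simp [← e]⟩

theorem twExact_nil {n : ℤ} (hn : n ≠ 0) : TwExact t m [] A b n := by
  intro v hv _
  rw [tw_eq_bot (by simp; omega)] at hv
  exact ⟨0, zero_mem _, by simpa using hv⟩

theorem tower_split {j : σ} {n : ℤ} {k : Ix l → M}
    (hk : k ∈ tw m l A (b + Pi.single j (2 * (m : ℤ))) n)
    (hs : ∀ e, ∀ y ∈ A (b + sh m l e + Pi.single j (2 * (m : ℤ))),
      ∃ y1 ∈ A (b + sh m l e + Pi.single j (m : ℤ)), ∃ y2 ∈ A (b + sh m l e + Pi.single j (m : ℤ)),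
        y - (t j y1 - y2) ∈ A' (b' + sh m l e)) :
    ∃ f ∈ tw m l A (b + Pi.single j (m : ℤ)) n, ∃ g ∈ tw m l A (b + Pi.single j (m : ℤ)) n,
      k - ((fun e => t j (f e)) - g) ∈ tw m l A' b' n := by
  have : ∀ e, ∃ x y : M, (((dg l e : ℤ) = n → x ∈ A (b + Pi.single j (m : ℤ) + sh m l e)) ∧
      ((dg l e : ℤ) ≠ n → x = 0)) ∧
      (((dg l e : ℤ) = n → y ∈ A (b + Pi.single j (m : ℤ) + sh m l e)) ∧
      ((dg l e : ℤ) ≠ n → y = 0)) ∧
      (((dg l e : ℤ) = n → k e - (t j x - y) ∈ A' (b' + sh m l e)) ∧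
        ((dg l e : ℤ) ≠ n → k e - (t j x - y) = 0)) := by
    intro e
    have hy' := mem_tw.1 hk e
    by_cases h0 : (dg l e : ℤ) = n
    · obtain ⟨x, hx, y, hy, hxy⟩ := hs e (k e) (by rw [add_right_comm]; exact hy'.1 h0)
      rw [add_right_comm] at hx hy
      exact ⟨x, y, by simp [h0, hx, hy, hxy]⟩
    · exact ⟨0, 0, by simp [h0, hy'.2 h0]⟩
  choose x y hx hy hxy using this
  exact ⟨x, mem_tw.2 hx, y, mem_tw.2 hy, mem_tw.2 hxy⟩

theorem tower_reduce (hc : ∀ i j x, t i (t j x) = t j (t i x)) {j : σ}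
    (hA : TwOk t m (j :: l) A) (hs : ∀ e, SurjAt t m A j (b + sh m l e))
    (hv : ∀ e, SvAt t m A j (b + sh m l e)) {n : ℤ} {v : Ix (j :: l) → M}
    (h1 : v ∈ tw m (j :: l) A b n) (h2 : dd t (j :: l) v = 0) :
    ∃ y ∈ tw m (j :: l) A b (n - 1), ∃ f ∈ tw m l A b n, dd t l f = 0 ∧
      v = dd t (j :: l) y + tv j f (fun e => t j (f e)) 0 := by
  obtain ⟨f, g, k, rfl⟩ := tv_cases v
  obtain ⟨hf, hg, hk⟩ := tv_mem_tw.1 h1
  obtain ⟨f', hf', g', hg', hk'⟩ := tower_split (t := t) (A' := fun _ => ⊥) (b' := b) hk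
    fun e y hy => by
      obtain ⟨y1, p1, y2, p2, e⟩ := hs e y hy
      exact ⟨y1, p1, y2, p2, by simp [e]⟩
  rw [tw_bot, Submodule.mem_bot, sub_eq_zero] at hk'
  rw [dd_tv, ← tv_zero, tv_inj] at h2
  have m1 : f - dd t l f' ∈ tw m l A (b + Pi.single j (m : ℤ)) n :=
    sub_mem hf (by simpa using tw_st hA.tail hf')
  have m2 : g - dd t l g' ∈ tw m l A (b + Pi.single j (m : ℤ)) n :=
    sub_mem hg (by simpa using tw_st hA.tail hg')
  have e1 : (fun e => t j ((f - dd t l f') e)) = g - dd t l g' := by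
    have h3 := h2.2.2
    rw [hk', map_sub, dd_comm (t j) (fun i x => hc j i x)] at h3
    funext e
    have h4 := congrFun h3 e
    simp only [Pi.sub_apply, Pi.zero_apply, map_sub] at h4 ⊢
    rw [← sub_eq_zero, ← h4]; abel
  refine ⟨tv j f' g' 0, tv_mem_tw.2 ⟨hf', hg', zero_mem _⟩, f - dd t l f', ?_, ?_, ?_⟩
  · rw [← e1] at m2
    rw [mem_tw] at m1 m2 ⊢
    refine fun e => ⟨fun h0 => hv e _ ?_ ?_, (m1 e).2⟩
    · rw [add_right_comm]; exact (m1 e).1 h0
    · rw [add_right_comm]; exact (m2 e).1 h0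
  · rw [map_sub, dd_dd hc, h2.1, sub_zero]
  · rw [e1, dd_tv, tv_add, hk']
    simp

omit [DecidableEq σ] in
theorem tower_dd_lift (hc : ∀ i j x, t i (t j x) = t j (t i x)) (j : σ) (y : Ix l → M) :
    dd t (j :: l) (tv j y (fun e => t j (y e)) 0) =
      tv j (dd t l y) (fun e => t j (dd t l y e)) 0 := by
  rw [dd_tv, dd_comm (t j) (fun i x => hc j i x)]
  simp

/-- the outer two-term complex is onto with kernel `A` -/
theorem TwExact.cons_ker (hc : ∀ i j x, t i (t j x) = t j (t i x)) {j : σ}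
    (hA : TwOk t m (j :: l) A) (hs : ∀ e, SurjAt t m A j (b + sh m l e))
    (hv : ∀ e, SvAt t m A j (b + sh m l e)) {n : ℤ} (h : TwExact t m l A b n) :
    TwExact t m (j :: l) A b n := by
  intro v h1 h2
  obtain ⟨y, hy, f, hf, hf0, e⟩ := tower_reduce hc hA hs hv h1 h2
  obtain ⟨z, hz, rfl⟩ := h f hf hf0
  refine ⟨y + tv j z (fun e => t j (z e)) 0, add_mem hy
    (tv_mem_tw.2 ⟨(tower_up hA hz).1, (tower_up hA hz).2, zero_mem _⟩), ?_⟩
  rw [map_add, tower_dd_lift hc, e]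

/-- the outer two-term complex is injective with complement `A'` -/
theorem TwExact.cons_coker {j : σ} (hA : TwOk t m (j :: l) A) (hA' : TwOk t m l A')
    (hle : ∀ e, A' (b' + sh m l e) ≤ A (b + sh m l e + Pi.single j (2 * (m : ℤ))))
    (hs : ∀ e, ∀ y ∈ A (b + sh m l e + Pi.single j (2 * (m : ℤ))),
      ∃ y1 ∈ A (b + sh m l e + Pi.single j (m : ℤ)), ∃ y2 ∈ A (b + sh m l e + Pi.single j (m : ℤ)),
        y - (t j y1 - y2) ∈ A' (b' + sh m l e))
    (hi : ∀ e, ∀ y1 ∈ A (b + sh m l e + Pi.single j (m : ℤ)),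
      ∀ y2 ∈ A (b + sh m l e + Pi.single j (m : ℤ)), t j y1 - y2 ∈ A' (b' + sh m l e) →
        y1 = 0 ∧ y2 = 0)
    (hc : ∀ i j x, t i (t j x) = t j (t i x)) {n : ℤ} (h : TwExact t m l A' b' (n - 1)) :
    TwExact t m (j :: l) A b n := by
  intro v h1 h2
  obtain ⟨f, g, k, rfl⟩ := tv_cases v
  obtain ⟨hf, hg, hk⟩ := tv_mem_tw.1 h1
  obtain ⟨f', hf', g', hg', hk'⟩ := tower_split hk hs
  rw [dd_tv, ← tv_zero, tv_inj] at h2
  have m1 : f - dd t l f' ∈ tw m l A (b + Pi.single j (m : ℤ)) n :=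
    sub_mem hf (by simpa using tw_st hA.tail hf')
  have m2 : g - dd t l g' ∈ tw m l A (b + Pi.single j (m : ℤ)) n :=
    sub_mem hg (by simpa using tw_st hA.tail hg')
  have m3 := tw_st hA' hk'
  have e1 : dd t l (k - ((fun e => t j (f' e)) - g')) =
      (fun e => t j ((f - dd t l f') e)) - (g - dd t l g') := by
    rw [map_sub, map_sub, dd_comm (t j) (fun i x => hc j i x)]
    funext e
    have h4 := congrFun h2.2.2 e
    simp only [Pi.sub_apply, Pi.zero_apply, map_sub] at h4 ⊢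
    rw [← sub_eq_zero, ← neg_eq_zero, ← h4]; abel
  rw [e1, sub_add_cancel] at m3
  have z : ∀ e, (f - dd t l f') e = 0 ∧ (g - dd t l g') e = 0 := by
    intro e
    by_cases h0 : (dg l e : ℤ) = n
    · refine hi e _ ?_ _ ?_ ((mem_tw.1 m3 e).1 h0)
      · rw [add_right_comm]; exact (mem_tw.1 m1 e).1 h0
      · rw [add_right_comm]; exact (mem_tw.1 m2 e).1 h0
    · exact ⟨(mem_tw.1 m1 e).2 h0, (mem_tw.1 m2 e).2 h0⟩
  have z1 : f - dd t l f' = 0 := funext fun e => (z e).1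
  have z2 : g - dd t l g' = 0 := funext fun e => (z e).2
  obtain ⟨y, hy, e2⟩ := h _ hk' (by rw [e1, z1, z2]; funext e; simp)
  refine ⟨tv j f' g' (-y), tv_mem_tw.2 ⟨hf', hg', neg_mem ?_⟩, ?_⟩
  · exact tw_mono (fun e => by rw [add_right_comm]; exact hle e) _ hy
  · rw [dd_tv, tv_inj, map_neg, ← e2]
    exact ⟨sub_eq_zero.1 z1, sub_eq_zero.1 z2, by abel⟩

theorem aug_mem (hA : TwOk t m l A) {x : M} (hx : x ∈ A b) : aug t l x ∈ tw m l A b 0 := by
  induction l with
  | nil => exact mem_tw.2 fun e => ⟨fun _ => by simpa [sh, aug] using hx, fun h => absurd rfl h⟩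
  | cons j l ih =>
    rw [aug_cons]
    exact tv_mem_tw.2 ⟨(tower_up hA (ih hA.tail)).1, (tower_up hA (ih hA.tail)).2, zero_mem _⟩

/-- the augmentation is a quasi-isomorphism -/
theorem aug_acyclic (hc : ∀ i j x, t i (t j x) = t j (t i x)) (hA : TwOk t m l A)
    (hs : ∀ j ∈ l, ∀ c, b ≤ c → SurjAt t m A j c) (hv : ∀ j ∈ l, ∀ c, b ≤ c → SvAt t m A j c) :
    IsPair (dd t l) (tw m l A b) (conc ((A b).map (aug t l))) ∧
      ∀ n, hh (dd t l) (tw m l A b) (conc ((A b).map (aug t l))) n = 0 := by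
  have key : ∀ n, ∀ v ∈ tw m l A b n, dd t l v = 0 →
      ∃ y ∈ tw m l A b (n - 1), v - dd t l y ∈ conc ((A b).map (aug t l)) n := by
    intro n
    induction l with
    | nil =>
      intro v h1 _
      refine ⟨0, zero_mem _, ?_⟩
      unfold conc
      split_ifs with h0
      · exact ⟨v (), by simpa [sh] using (mem_tw.1 h1 ()).1 h0.symm, by
          rw [map_zero, sub_zero]; rfl⟩
      · rw [tw_eq_bot (by simp; omega)] at h1
        simpa using h1
    | cons j l ih =>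
      intro v h1 h2
      have hb : ∀ e : Ix l, b ≤ b + sh m l e := fun e i => by simpa using sh_nonneg e i
      obtain ⟨y, hy, f, hf, hf0, e⟩ := tower_reduce hc hA (fun e => hs j (by simp) _ (hb e))
        (fun e => hv j (by simp) _ (hb e)) h1 h2
      obtain ⟨z, hz, hfz⟩ := ih hA.tail (fun i hi => hs i (List.mem_cons_of_mem _ hi))
        (fun i hi => hv i (List.mem_cons_of_mem _ hi)) f hf hf0
      refine ⟨y + tv j z (fun e => t j (z e)) 0, add_mem hy
        (tv_mem_tw.2 ⟨(tower_up hA hz).1, (tower_up hA hz).2, zero_mem _⟩), ?_⟩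
      have e2 : v - dd t (j :: l) (y + tv j z (fun e => t j (z e)) 0) =
          tv j (f - dd t l z) (fun e => t j ((f - dd t l z) e)) 0 := by
        rw [map_add, tower_dd_lift hc, e, add_sub_add_left_eq_sub, tv_sub, tv_inj]
        exact ⟨rfl, funext fun e => by simp, by simp⟩
      rw [e2]
      unfold conc at hfz ⊢
      split_ifs at hfz ⊢
      · obtain ⟨x, hx, e3⟩ := hfz
        exact ⟨x, hx, by rw [aug_cons, e3]⟩
      · rw [Submodule.mem_bot] at hfz ⊢
        rw [hfz, ← tv_zero, tv_inj]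
        exact ⟨rfl, funext fun e => by simp, rfl⟩
  refine ⟨⟨fun n => ?_, fun _ _ => tw_st hA, fun n x hx => ?_,
    fun n x _ => by rw [dd_dd hc]; exact zero_mem _, tower_bdd _⟩, fun n => ?_⟩
  · unfold conc
    split_ifs with h0
    · rintro _ ⟨x, hx, rfl⟩
      rw [h0]; exact aug_mem hA hx
    · exact bot_le
  · have : dd t l x = 0 := by
      unfold conc at hx
      split_ifs at hx
      · obtain ⟨y, -, rfl⟩ := hx
        exact dd_aug hc l y
      · rw [(Submodule.mem_bot R).1 hx, map_zero]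
    rw [this]; exact zero_mem _
  · refine hh_eq_zero_iff.2 fun x hx hd => key n x hx ?_
    unfold conc at hd
    split_ifs at hd with h0
    · rw [tw_eq_bot (by omega)] at hx
      rw [(Submodule.mem_bot R).1 hx, map_zero]
    · exact hd

end Vale.Agent.P202
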