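import Vale.Agent.P202.Approx

/-! Transfer of finite algebras to positive characteristic. -/

namespace Vale.Agent.P202

open MvPowerSeries

universe u

section Aux
open TensorProduct

theorem transfer_span {A R : Type u} [CommRing A] [AddCommGroup R] [Module A R] (s : Set R) {y : R}
    (hy : y ∈ Submodule.span A s) :
    ∃ T : Finset A, ∀ (Ω : Type u) [CommRing Ω] [Algebra Ω A] [Module Ω R] [IsScalarTower Ω A R],
      (∀ t ∈ T, t ∈ (algebraMap Ω A).range) → y ∈ Submodule.span Ω s := by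
  classical
  induction hy using Submodule.span_induction with
  | mem x hx => exact ⟨∅, fun Ω _ _ _ _ _ => Submodule.subset_span hx⟩
  | zero => exact ⟨∅, fun Ω _ _ _ _ _ => Submodule.zero_mem _⟩
  | add x y _ _ hx hy =>
    obtain ⟨T1, h1⟩ := hx
    obtain ⟨T2, h2⟩ := hy
    exact ⟨T1 ∪ T2, fun Ω _ _ _ _ h => Submodule.add_mem _
      (h1 Ω fun t ht => h t (Finset.mem_union_left _ ht))
      (h2 Ω fun t ht => h t (Finset.mem_union_right _ ht))⟩
  | smul a x _ hx =>
    obtain ⟨T, h1⟩ := hx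
    refine ⟨insert a T, fun Ω _ _ _ _ h => ?_⟩
    obtain ⟨a', rfl⟩ := h a (Finset.mem_insert_self _ _)
    rw [algebraMap_smul]
    exact Submodule.smul_mem _ _ (h1 Ω fun t ht => h t (Finset.mem_insert_of_mem ht))

theorem transfer_span_fin {A R : Type u} [CommRing A] [AddCommGroup R] [Module A R] (s : Set R)
    {Y : Set R} (hY : Y.Finite) (hy : ∀ y ∈ Y, y ∈ Submodule.span A s) :
    ∃ T : Finset A, ∀ (Ω : Type u) [CommRing Ω] [Algebra Ω A] [Module Ω R] [IsScalarTower Ω A R],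
      (∀ t ∈ T, t ∈ (algebraMap Ω A).range) → ∀ y ∈ Y, y ∈ Submodule.span Ω s := by
  classical
  choose T hT using fun y : Y => transfer_span s (hy y.1 y.2)
  have := hY.fintype
  exact ⟨Finset.univ.biUnion T, fun Ω _ _ _ _ h y hy => hT ⟨y, hy⟩ Ω fun t ht =>
    h t (Finset.mem_biUnion.2 ⟨_, Finset.mem_univ _, ht⟩)⟩

open Pointwise in
theorem transfer_sub {A R : Type u} [CommRing A] [CommRing R] [Algebra A R] {s : Set R}
    (hs : s.Finite) (htop : ∀ y, y ∈ Submodule.span A s) {Y : Set R} (hY : Y.Finite) :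
    ∃ T : Finset A, ∀ (Ω : Type u) [CommRing Ω] [Algebra Ω A] [Algebra Ω R] [IsScalarTower Ω A R],
      (∀ t ∈ T, t ∈ (algebraMap Ω A).range) →
      ∃ B : Subalgebra Ω R, (∀ y, y ∈ B ↔ y ∈ Submodule.span Ω s) ∧ ∀ y ∈ Y, y ∈ B := by
  obtain ⟨T, hT⟩ := transfer_span_fin s (((hs.mul hs).union hY).insert 1) fun y _ => htop y
  refine ⟨T, fun Ω _ _ _ _ h => ?_⟩
  have h1 := hT Ω h
  refine ⟨(Submodule.span Ω s).toSubalgebra (h1 1 (Set.mem_insert _ _)) fun x y hx hy => ?_,
    fun _ => Iff.rfl, fun y hy => h1 y (Or.inr (Or.inr hy))⟩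
  have := Submodule.mul_mem_mul hx hy
  rw [Submodule.span_mul_span] at this
  exact Submodule.span_le.2 (fun z hz => h1 z (Or.inr (Or.inl hz))) this

theorem transfer_insert {A R : Type*} [CommRing A] [CommRing R] [Algebra A R] (s : Set R) (y : R) :
    y ∈ Submodule.span A (insert 1 s) ↔ ∃ a : A, y - algebraMap A R a ∈ Submodule.span A s := by
  rw [Submodule.mem_span_insert]
  constructor
  · rintro ⟨a, z, hz, rfl⟩
    exact ⟨a, by rwa [Algebra.algebraMap_eq_smul_one, add_sub_cancel_left]⟩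
  · rintro ⟨a, h⟩
    exact ⟨a, _, h, by rw [Algebra.algebraMap_eq_smul_one, add_sub_cancel]⟩

theorem transfer_pull {Ω R : Type*} [CommRing Ω] [CommRing R] [Algebra Ω R] (B : Subalgebra Ω R)
    {ι : Type*} (x : ι → B) (y : B) (h : (y : R) ∈ Submodule.span Ω (Set.range fun i => (x i : R))) :
    y ∈ Submodule.span Ω (Set.range x) := by
  have e : (Set.range fun i => (x i : R)) = B.val.toLinearMap '' Set.range x := by
    rw [← Set.range_comp]; rfl
  rw [e, ← Submodule.map_span] at h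
  obtain ⟨z, hz, e2⟩ := h
  rwa [← Subtype.ext e2]

theorem transfer_bc {Ω A' B : Type*} [CommRing Ω] [CommRing A'] [CommRing B] [Algebra Ω A']
    [Algebra Ω B] {ι : Type*} (x : ι → B)
    (h : ∀ y : B, ∃ a : Ω, y - algebraMap Ω B a ∈ Submodule.span Ω (Set.range x))
    (y : A' ⊗[Ω] B) : ∃ a : A', y - algebraMap A' _ a ∈
      Submodule.span A' (Set.range fun i => (1 : A') ⊗ₜ[Ω] x i) := by
  rw [← transfer_insert]
  induction y using TensorProduct.induction_on with
  | zero => exact Submodule.zero_mem _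
  | add y z hy hz => exact Submodule.add_mem _ hy hz
  | tmul a y =>
    have h1 := (transfer_insert _ y).2 (h y)
    have e : a ⊗ₜ[Ω] y = a • ((1 : A') ⊗ₜ[Ω] y) := by rw [smul_tmul', smul_eq_mul, mul_one]
    rw [e]
    refine Submodule.smul_mem _ _ ?_
    clear e
    induction h1 using Submodule.span_induction with
    | mem z hz =>
      refine Submodule.subset_span ?_
      rcases hz with rfl | ⟨i, rfl⟩
      · exact Or.inl rfl
      · exact Or.inr ⟨i, rfl⟩
    | zero => rw [tmul_zero]; exact Submodule.zero_mem _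
    | add z z' _ _ hz hz' => rw [tmul_add]; exact Submodule.add_mem _ hz hz'
    | smul c z _ hz => rw [tmul_smul]; exact Submodule.smul_of_tower_mem _ _ hz

theorem transfer_li {Ω A' B : Type*} [CommRing Ω] [CommRing A'] [IsDomain A'] [AddCommGroup B]
    [Algebra Ω A'] [Module Ω B] {ρ : ℕ} (v : Fin ρ → B) (l : Fin ρ → B →ₗ[Ω] Ω) (γ : Ω)
    (hγ : algebraMap Ω A' γ ≠ 0) (h : ∀ k j, l k (v j) = if j = k then γ else 0) :
    LinearIndependent A' fun j => (1 : A') ⊗ₜ[Ω] v j := by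
  rw [Fintype.linearIndependent_iff]
  intro c hc k
  have := congrArg (fun z => AlgebraTensorModule.rid Ω A' A' ((l k).baseChange A' z)) hc
  simp only [map_sum, map_smul, LinearMap.baseChange_tmul, AlgebraTensorModule.rid_tmul, h,
    map_zero, ite_smul, zero_smul, smul_ite, smul_zero, Finset.sum_ite_eq', Finset.mem_univ,
    if_true] at this
  rw [← Algebra.algebraMap_eq_smul_one, smul_eq_mul] at this
  exact (mul_eq_zero.1 this).resolve_right hγ

theorem transfer_core (A : Type u) [CommRing A] (R S : Type u) [CommRing R]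
    [CommRing S] [Nontrivial S] [Algebra A R] [Algebra R S]
    [Module.Finite R S] [Module.Free R S] {ι κ : Type} [Finite ι] [Finite κ] (n : ι → R)
    (hn : ∀ y : R, ∃ a : A, y - algebraMap _ R a ∈ Submodule.span A (Set.range n))
    (w : κ → S) (hw : ∀ y : S, ∃ r : R, y - algebraMap R S r ∈ Submodule.span R (Set.range w))
    {ρ : ℕ} (v : Fin ρ → R) (hv : LinearIndependent A v) (g : A)
    (hgv : ∀ y : R, g • y ∈ Submodule.span A (Set.range v)) (TR : Finset R) (TS : Finset S) :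
    ∃ T : Finset A, ∀ (Ω A' : Type u) [CommRing Ω] [CommRing A'] [IsDomain A'] (j : Ω →+* A)
      (τ : Ω →+* A'), Function.Injective j → (∀ t ∈ T, t ∈ j.range) → ∀ γ, j γ = g → τ γ ≠ 0 →
    ∃ (R' S' : Type u) (_ : CommRing R') (_ : CommRing S') (_ : Algebra A' R')
      (_ : Algebra R' S') (_ : Module.Finite A' R')
      (_ : Module.Finite R' S') (_ : Module.Free R' S') (ΩR ΩS : Type u) (_ : CommRing ΩR)
      (_ : CommRing ΩS) (jR : ΩR →+* R) (jS : ΩS →+* S) (τR : ΩR →+* R') (τS : ΩS →+* S')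
      (α : ΩR →+* ΩS),
      Function.Injective jR ∧ Function.Injective jS ∧
      (∀ x, jS (α x) = algebraMap R S (jR x)) ∧ (∀ x, τS (α x) = algebraMap R' S' (τR x)) ∧
      (∀ t ∈ TR, t ∈ jR.range) ∧ (∀ t ∈ TS, t ∈ jS.range) ∧
      (∀ ξ0, ∃ ξ, jR ξ = algebraMap _ R (j ξ0) ∧ τR ξ = algebraMap _ R' (τ ξ0)) ∧
      (∃ n' : ι → ΩR, (∀ a, jR (n' a) = n a) ∧ ∀ y : R', ∃ a : A',
        y - algebraMap _ R' a ∈ Submodule.span A' (Set.range fun a => τR (n' a))) ∧
      (∃ w' : κ → ΩS, (∀ a, jS (w' a) = w a) ∧ ∀ y : S', ∃ r : R',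
        y - algebraMap R' S' r ∈ Submodule.span R' (Set.range fun a => τS (w' a))) ∧
      (∃ v' : Fin ρ → R', LinearIndependent A' v') ∧ (Nontrivial R' → Nontrivial S') := by
  classical
  let b := Module.Free.chooseBasis R S
  obtain ⟨T1, hT1⟩ := transfer_sub (A := R) (Set.finite_range b)
    (fun y => by rw [b.span_eq]; trivial) (TS.finite_toSet.union (Set.finite_range w))
  obtain ⟨T2, hT2⟩ := transfer_span_fin (A := R) (insert 1 (Set.range w)) (Set.finite_range b)
    fun y _ => (transfer_insert _ y).2 (hw y)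
  have hsf : (insert 1 (Set.range n) : Set R).Finite := (Set.finite_range n).insert 1
  obtain ⟨T3, hT3⟩ := transfer_sub (A := A) hsf (fun y => (transfer_insert _ y).2 (hn y))
    ((TR ∪ T1 ∪ T2).finite_toSet.union (Set.finite_range v))
  let l0 : R →ₗ[A] (Fin ρ →₀ A) :=
    hv.repr ∘ₗ LinearMap.codRestrict _ (g • (LinearMap.id : R →ₗ[A] R)) hgv
  have hl0 : ∀ k j, l0 (v j) k = if j = k then g else 0 := by
    intro k j
    have : l0 (v j) = Finsupp.single j g := by
      refine hv.repr_eq ?_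
      simp [Finsupp.linearCombination_single]
    rw [this, Finsupp.single_apply]
  refine ⟨T3 ∪ (hsf.toFinset ×ˢ (Finset.univ : Finset (Fin ρ))).image fun p => l0 p.1 p.2,
    fun Ω A' _ _ _ j τ hj hT γ hγ hτ => ?_⟩
  let : Algebra Ω A := j.toAlgebra
  let : Algebra Ω A' := τ.toAlgebra
  let : Algebra Ω R := ((algebraMap A R).comp j).toAlgebra
  have : IsScalarTower Ω A R := IsScalarTower.of_algebraMap_eq' rfl
  obtain ⟨B, hB, hBY⟩ := hT3 Ω fun t ht => hT t (Finset.mem_union_left _ ht)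
  have hB1 : ∀ t ∈ TR ∪ T1 ∪ T2, t ∈ (algebraMap B R).range := fun t ht =>
    ⟨⟨t, hBY t (Or.inl ht)⟩, rfl⟩
  obtain ⟨B2, hB2, hB2Y⟩ := hT1 B fun t ht =>
    hB1 t (Finset.mem_union_left _ (Finset.mem_union_right _ ht))
  have hb := hT2 B fun t ht => hB1 t (Finset.mem_union_right _ ht)
  let : Algebra B (A' ⊗[Ω] B) := Algebra.TensorProduct.rightAlgebra
  let n' : ι → B := fun a => ⟨n a, (hB _).2 (Submodule.subset_span (Or.inr ⟨a, rfl⟩))⟩
  let w' : κ → B2 := fun a => ⟨w a, hB2Y _ (Or.inr ⟨a, rfl⟩)⟩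
  let b' : Module.Free.ChooseBasisIndex R S → B2 := fun a =>
    ⟨b a, (hB2 _).2 (Submodule.subset_span ⟨a, rfl⟩)⟩
  have hn' : ∀ y : B, ∃ a : Ω, y - algebraMap Ω B a ∈ Submodule.span Ω (Set.range n') := by
    intro y
    obtain ⟨a, ha⟩ := (transfer_insert _ _).1 ((hB y).1 y.2)
    exact ⟨a, transfer_pull B n' _ ha⟩
  have hw' : ∀ y : B2, ∃ a : B, y - algebraMap B B2 a ∈ Submodule.span B (Set.range w') := by
    intro y
    obtain ⟨a, ha⟩ := (transfer_insert _ _).1 (Submodule.span_le.2 hb ((hB2 y).1 y.2))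
    exact ⟨a, transfer_pull B2 w' _ ha⟩
  have : Module.Finite Ω B := by
    refine ⟨Submodule.fg_def.2 ⟨insert 1 (Set.range n'), (Set.finite_range n').insert 1, ?_⟩⟩
    exact eq_top_iff.2 fun y _ => (transfer_insert _ y).2 (hn' y)
  have hli : LinearIndependent B b' := by
    refine LinearIndependent.of_comp B2.val.toLinearMap ?_
    exact b.linearIndependent.restrict_scalars fun x y h => Subtype.ext (by
      simpa [Subalgebra.smul_def] using h)
  let b2 := Module.Basis.mk hli fun y _ => transfer_pull B2 b' y ((hB2 y).1 y.2)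
  have : Module.Free B B2 := Module.Free.of_basis b2
  have : Module.Finite B B2 := Module.Finite.of_basis b2
  refine ⟨A' ⊗[Ω] B, (A' ⊗[Ω] B) ⊗[B] B2, inferInstance, inferInstance, inferInstance,
    inferInstance, inferInstance, inferInstance, inferInstance, B, B2, inferInstance,
    inferInstance, B.val.toRingHom, B2.val.toRingHom,
    (Algebra.TensorProduct.includeRight : B →ₐ[Ω] A' ⊗[Ω] B).toRingHom,
    (Algebra.TensorProduct.includeRight : B2 →ₐ[B] (A' ⊗[Ω] B) ⊗[B] B2).toRingHom,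
    algebraMap B B2, Subtype.val_injective, Subtype.val_injective, fun _ => rfl, fun x => ?_,
    fun t ht => hB1 t (Finset.mem_union_left _ (Finset.mem_union_left _ ht)),
    fun t ht => ⟨⟨t, hB2Y t (Or.inl ht)⟩, rfl⟩, fun ξ0 => ⟨algebraMap Ω B ξ0, rfl, ?_⟩,
    ⟨n', fun _ => rfl, transfer_bc n' hn'⟩, ⟨w', fun _ => rfl, transfer_bc w' hw'⟩, ?_, ?_⟩
  · exact (Algebra.TensorProduct.includeRight : B2 →ₐ[B] (A' ⊗[Ω] B) ⊗[B] B2).commutes x
  · exact (Algebra.TensorProduct.includeRight : B →ₐ[Ω] A' ⊗[Ω] B).commutes ξ0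
  · let l1 : Fin ρ → B →ₗ[Ω] A := fun k =>
      ((Finsupp.lapply k ∘ₗ l0).restrictScalars Ω) ∘ₗ B.val.toLinearMap
    have h1 : ∀ k (y : B), l1 k y ∈ LinearMap.range (Algebra.linearMap Ω A) := by
      intro k y
      refine (Submodule.span_le (p := (LinearMap.range (Algebra.linearMap Ω A)).comap
        ((Finsupp.lapply k ∘ₗ l0).restrictScalars Ω))).2 (fun z hz => ?_) ((hB y).1 y.2)
      exact hT _ (Finset.mem_union_right _ (Finset.mem_image.2
        ⟨(z, k), Finset.mem_product.2 ⟨hsf.mem_toFinset.2 hz, Finset.mem_univ _⟩, rfl⟩))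
    refine ⟨_, transfer_li (fun j => (⟨v j, hBY _ (Or.inr ⟨j, rfl⟩)⟩ : B))
      (fun k => (l1 k).codRestrictOfInjective (Algebra.linearMap Ω A) hj (h1 k)) γ hτ
      fun k i => hj ?_⟩
    refine (LinearMap.codRestrictOfInjective_comp_apply (l1 k) (Algebra.linearMap Ω A) hj (h1 k)
      _).trans ((hl0 k i).trans ?_)
    split_ifs
    · exact hγ.symm
    · exact (map_zero j).symm
  · intro _
    obtain ⟨i⟩ := b.index_nonempty
    exact ⟨_, 0, (Algebra.TensorProduct.basis (A' ⊗[Ω] B) b2).ne_zero i⟩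

end Aux

theorem transfer (L : Type u) [Field L] [CharZero L] (d : ℕ) (R S : Type u) [CommRing R]
    [CommRing S] [Nontrivial S] [Algebra (MvPowerSeries (Fin d) L) R] [Algebra R S]
    [Module.Finite R S] [Module.Free R S] {ι κ : Type} [Finite ι] [Finite κ] (n : ι → R)
    (hn : ∀ y : R, ∃ a : MvPowerSeries (Fin d) L,
      y - algebraMap _ R a ∈ Submodule.span (MvPowerSeries (Fin d) L) (Set.range n))
    (w : κ → S) (hw : ∀ y : S, ∃ r : R, y - algebraMap R S r ∈ Submodule.span R (Set.range w))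
    {ρ : ℕ} (v : Fin ρ → R) (hv : LinearIndependent (MvPowerSeries (Fin d) L) v)
    (g : MvPowerSeries (Fin d) L) (hg : g ≠ 0)
    (hgv : ∀ y : R, g • y ∈ Submodule.span (MvPowerSeries (Fin d) L) (Set.range v))
    (TR : Finset R) (TS : Finset S) :
    ∃ (p : ℕ) (_ : Fact p.Prime) (K : Type u) (_ : Field K) (_ : CharP K p) (R' S' : Type u)
      (_ : CommRing R') (_ : CommRing S') (_ : Algebra (MvPowerSeries (Fin d) K) R')
      (_ : Algebra R' S') (_ : Module.Finite (MvPowerSeries (Fin d) K) R')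
      (_ : Module.Finite R' S') (_ : Module.Free R' S') (ΩR ΩS : Type u) (_ : CommRing ΩR)
      (_ : CommRing ΩS) (jR : ΩR →+* R) (jS : ΩS →+* S) (τR : ΩR →+* R') (τS : ΩS →+* S')
      (α : ΩR →+* ΩS),
      Function.Injective jR ∧ Function.Injective jS ∧
      (∀ x, jS (α x) = algebraMap R S (jR x)) ∧ (∀ x, τS (α x) = algebraMap R' S' (τR x)) ∧
      (∀ t ∈ TR, t ∈ jR.range) ∧ (∀ t ∈ TS, t ∈ jS.range) ∧
      (∀ i, ∃ ξ, jR ξ = algebraMap _ R (X i : MvPowerSeries (Fin d) L) ∧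
        τR ξ = algebraMap _ R' (X i : MvPowerSeries (Fin d) K)) ∧
      (∃ n' : ι → ΩR, (∀ a, jR (n' a) = n a) ∧ ∀ y : R', ∃ a : MvPowerSeries (Fin d) K,
        y - algebraMap _ R' a ∈
          Submodule.span (MvPowerSeries (Fin d) K) (Set.range fun a => τR (n' a))) ∧
      (∃ w' : κ → ΩS, (∀ a, jS (w' a) = w a) ∧ ∀ y : S', ∃ r : R',
        y - algebraMap R' S' r ∈ Submodule.span R' (Set.range fun a => τS (w' a))) ∧
      (∃ v' : Fin ρ → R', LinearIndependent (MvPowerSeries (Fin d) K) v') ∧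
      (Nontrivial R' → Nontrivial S') := by
  obtain ⟨T, hT⟩ := transfer_core _ R S n hn w hw v hv g hgv TR TS
  obtain ⟨p, hp, K, hK, hc, Ω, hΩ, j, τ, hj, h1, h2, γ, h3, h4⟩ := approx L d T g hg
  have : IsDomain (MvPowerSeries (Fin d) K) := NoZeroDivisors.to_isDomain _
  obtain ⟨R', S', i1, i2, i3, i4, i5, i6, i7, ΩR, ΩS, i8, i9, jR, jS, τR, τS, α, a1, a2, a3, a4,
    a5, a6, a7, a8⟩ := hT Ω _ j τ hj h1 γ h3 h4
  refine ⟨p, hp, K, hK, hc, R', S', i1, i2, i3, i4, i5, i6, i7, ΩR, ΩS, i8, i9, jR, jS, τR, τS, α,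
    a1, a2, a3, a4, a5, a6, fun i => ?_, a8⟩
  obtain ⟨ξ0, e1, e2⟩ := h2 i
  rw [← e1, ← e2]
  exact a7 ξ0

end Vale.Agent.P202
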