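import Vale.Agent.P202.App
import Vale.Agent.P202.AML

/-! The approximate main lemma applied to a twisted algebra. -/

namespace Vale.Agent.P202

open IsLocalRing

universe v w

theorem prim_sup_pw {A : Type*} [CommRing A] [IsLocalRing A] [IsNoetherianRing A] {q : Ideal A}
    {ι : Type*} (w : ι → A) (h : Prim (q ⊔ Ideal.span (Set.range w))) (a : ι → ℕ) :
    Prim (q ⊔ pw w a) := by
  rw [prim_iff_radical] at h ⊢
  refine h.trans ?_
  rw [Ideal.radical_le_radical_iff]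
  refine sup_le (le_sup_left.trans Ideal.le_radical) (Ideal.span_le.2 ?_)
  rintro _ ⟨t, rfl⟩
  exact ⟨a t, Ideal.mem_sup_right (Ideal.subset_span ⟨t, rfl⟩)⟩

theorem upA_toNat {a b c : ℕ∞} {k : ℕ} (h : a ≤ b + k * c) (hb : b ≠ ⊤) (hc : c ≠ ⊤) :
    (a.toNat : ℝ) ≤ b.toNat + k * c.toNat := by
  lift b to ℕ using hb
  lift c to ℕ using hc
  have h1 : a ≤ ((b + k * c : ℕ) : ℕ∞) := by exact_mod_cast h
  have h2 := ENat.toNat_le_toNat h1 (ENat.natCast_ne_top _)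
  simp only [ENat.toNat_natCast] at h2 ⊢
  exact_mod_cast h2

section
variable {R P Q : Type*} [CommRing R] [IsLocalRing R] [CommRing P] [IsLocalRing P]
  [CommRing Q] [Algebra P Q] {s : ℕ} {x : Fin (s + 1) → R} {j : R →+* Q}
  {y : Fin (s + 1) → P} {h : P} {D : Ideal Q} {n K μ L : ℕ}

theorem TwData.root_pow (hT : TwData x j y h D n K μ L) (t : Fin (s + 1)) (c : ℕ) :
    j (x t ^ c) - algebraMap P Q (y t) ^ (K * c) ∈ D := by
  rw [map_pow, pow_mul, ← neg_sub]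
  exact D.neg_mem (D.mem_of_dvd (sub_dvd_pow_sub_pow _ _ c) (hT.root t))

theorem TwData.pw_le (hT : TwData x j y h D n K μ L) (hx : ∀ t, x t ∈ maximalIdeal R)
    {q : Ideal R} {c : ℕ} (hq : maximalIdeal R ^ c ≤ q) :
    (pw y fun _ => K * c).map (algebraMap P Q) ≤ q.map j ⊔ D := by
  rw [pw, Ideal.map_span, Ideal.span_le]
  rintro _ ⟨_, ⟨t, rfl⟩, rfl⟩
  have := sub_mem (Ideal.mem_sup_left (Ideal.mem_map_of_mem j (hq (Ideal.pow_mem_pow (hx t) c))))
    (Ideal.mem_sup_right (hT.root_pow t c))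
  rwa [sub_sub_cancel, ← map_pow] at this

theorem TwData.null (hT : TwData x j y h D n K μ L) {J : Type*} [Fintype J] [DecidableEq J]
    {i : J → ℕ} {G : Matrix J J R} {t : Fin (s + 1)} {c : ℕ} (hn : Null i G ⊥ (x t ^ c)) :
    Null i (G.map j) D (algebraMap P Q (y t) ^ (K * c)) :=
  ((hn.map j).mono (by simp)).congr (hT.root_pow t c)

theorem TwData.fin_pow [IsNoetherianRing P] (hT : TwData x j y h D n K μ L) (k : ℕ) :
    rl (Ideal.span (Set.range y) ^ k) (⊤ : Ideal P) ≠ ⊤ := by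
  have := Prim.sup_pow (q := ⊥) (W := Ideal.span (Set.range y))
    (by rw [bot_sup_eq]; exact hT.prim) k
  rw [bot_sup_eq] at this
  exact rl_ne_top_of_prim this

end

theorem upA_sq {R Q : Type*} [CommRing R] [CommRing Q] (j : R →+* Q) (D : Ideal Q) {J : Type*}
    [Fintype J] {G : Matrix J J R} (h : Ent (G * G) ⊥) : Ent (G.map j * G.map j) D := fun a b => by
  rw [← Matrix.map_mul, Matrix.map_apply, (Submodule.mem_bot R).1 (h a b), map_zero]
  exact zero_mem _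

theorem TwData.rl_ne_top {R P Q : Type*} [CommRing R] [IsLocalRing R] [CommRing P] [IsLocalRing P]
    [IsNoetherianRing P] [CommRing Q] [Algebra P Q] {s : ℕ} {x : Fin (s + 1) → R} {j : R →+* Q}
    {y : Fin (s + 1) → P} {h : P} {D : Ideal Q} {n K μ L : ℕ} (hT : TwData x j y h D n K μ L)
    (hx : ∀ t, x t ∈ maximalIdeal R) {q : Ideal R} (hq : Prim q) :
    rl ((q.map j ⊔ D).restrictScalars P) ⊤ ≠ ⊤ := by
  obtain ⟨c, hc⟩ := hq
  have h1 := hT.ng.rl_le (b := pw y fun _ => K * c) (O := (q.map j ⊔ D).restrictScalars P)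
    (Submodule.smul_le.2 fun r hr a _ => by
      rw [Submodule.restrictScalars_mem, Algebra.smul_def]
      exact Ideal.mul_mem_right _ _ (hT.pw_le hx hc (Ideal.mem_map_of_mem _ hr)))
  have h2 := prim_sup_pw (q := ⊥) y (by rw [bot_sup_eq]; exact hT.prim) fun _ => K * c
  rw [bot_sup_eq] at h2
  exact ne_top_of_le_ne_top (WithTop.mul_ne_top (ENat.natCast_ne_top _) (rl_ne_top_of_prim h2)) h1

theorem twist_aml {R : Type*} [CommRing R] [IsLocalRing R] {s d v : ℕ} (hsd : v + d ≤ s + 1)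
    {ι : Type} [Fintype ι] [DecidableEq ι] {i : ι → ℕ} {g : Matrix ι ι R} {a0 : ι} {J : Ideal R}
    (hres : IsRes i g a0 ⊥ J) (hi : ∀ a, i a ≤ v) (hg : Ent g (maximalIdeal R)) (z : Fin d → R)
    (hz : ∀ t, z t ∈ maximalIdeal R) (hp : Prim (J ⊔ Ideal.span (Set.range z))) {r0 : R}
    (hr0 : r0 ∈ maximalIdeal R) (hr0' : ¬ IsNilpotent r0) (x : Fin (s + 1) → R)
    (hx : ∀ t, x t ∈ maximalIdeal R) :
    ∃ C1 : ℝ, ∀ n K : ℕ, s ≤ n → 1 ≤ n → ∃ (L0 : ℕ) (C : ℝ), 0 ≤ C ∧ ∀ L, L0 ≤ L →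
      ∀ (P : Type v) (Q : Type w) [CommRing P] [IsLocalRing P] [IsNoetherianRing P] [CommRing Q]
        [Algebra P Q] (j : R →+* Q) (y : Fin (s + 1) → P) (h : P) (D : Ideal Q) (μ : ℕ),
        TwData x j y h D n K μ L →
        cl (Ideal.span (Set.range y)) * ((n : ℝ) ^ (s + 1) - C1 * (n : ℝ) ^ s) ≤
          (rl (((J ⊔ Ideal.span (Set.range z)).map j ⊔ D).restrictScalars P) ⊤).toNat +
            C * cl (Ideal.span (Set.range y) ^ L ⊔ Ideal.span {h}) := by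
  obtain ⟨c, hc⟩ := id hp
  obtain ⟨κ, _, _, k, G, b0, hd, hsq, hk, hb0, hG, hrow, hnull⟩ := hres.exists_cx hi hg z hz
  obtain ⟨C1, hC1⟩ := aml.{v} s κ
  refine ⟨C1, fun n K hsn hn => ?_⟩
  obtain ⟨L0, C2, hC2, hL⟩ := hC1 n (K * c) hsn hn
  refine ⟨L0, 2 + 2 * C2, by positivity, fun L hL0 P Q _ _ _ _ _ j y h D μ hT => ?_⟩
  have heul := euler_zero hd hsq (hnull _ (hc (Ideal.pow_mem_pow hr0 c))) (by
    rintro ⟨m, hm⟩
    exact hr0' ⟨c * m, by rw [pow_mul]; exact hm⟩)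
  obtain ⟨g', hA, hent, hg'⟩ := hT.ap.lift (hd.map j) (fun b => (hk b).trans hsd) (upA_sq j D hsq)
    (fun t => hT.null (hnull _ (hc (Ideal.pow_mem_pow (hx t) c)))) _ fun a b => hT.ent _ (hG a b)
  have h1 := hL L hL0 k b0 hb0 heul P y (h ^ 2) g' hT.cm hT.mem hT.prim hA hent
  have hfin : rl (Ideal.span (Set.range y) ^ L ⊔ Ideal.span {h}) (⊤ : Ideal P) ≠ ⊤ :=
    ne_top_of_le_ne_top (hT.fin_pow L) (rl_mono le_sup_left le_rfl)
  have h2 := hT.ap.rl_row_le (g' b0) (G.map j b0) (hg' b0) (hT.fin_pow L)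
  have e : Ideal.span (Set.range (G.map j b0)) = (J ⊔ Ideal.span (Set.range z)).map j := by
    rw [← hrow, Ideal.map_span, ← Set.range_comp]; rfl
  rw [e] at h2
  have h3 := upA_toNat (k := 2) h2 (hT.rl_ne_top hx hp) hfin
  have h4 := upA_toNat (b := 0) (k := 2) ((rl_sup_pow_le (Ideal.span (Set.range y) ^ L) h 2).trans
    (zero_add _).ge) ENat.zero_ne_top hfin
  have h5 := mul_le_mul_of_nonneg_left h4 hC2
  simp only [cl] at h1 ⊢
  simp only [ENat.toNat_zero, Nat.cast_zero, zero_add, Nat.cast_ofNat] at h3 h5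
  linarith

end Vale.Agent.P202
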