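import Vale.Agent.P202.ZeroA

/-! The core inequality in characteristic zero. -/

namespace Vale.Agent.P202

open IsLocalRing

universe u v

theorem Zero_const {σ L : Type*} [Field L] {f : MvPowerSeries σ L} :
    f ∈ maximalIdeal (MvPowerSeries σ L) ↔ MvPowerSeries.constantCoeff f = 0 := by
  rw [mem_maximalIdeal, mem_nonunits_iff, MvPowerSeries.isUnit_iff_constantCoeff,
    isUnit_iff_ne_zero, not_not]

open MvPowerSeries in
theorem Zero_base {k : Type u} [Field k] [CharZero k] (L : Type v) [Field L] {σ : Type}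
    [Fintype σ] {S : Type v} [CommRing S] [IsLocalRing S] [IsNoetherianRing S]
    [IsAdicComplete (maximalIdeal S) S] (t : MvPowerSeries σ k →+* S)
    {I : Ideal (MvPowerSeries σ k)} (hI : I ≠ ⊤) (htI : ∀ a ∈ I, t a = 0) (hcp : CP t I ⊥)
    (htX : ∀ i, t (X i) ∈ maximalIdeal S) (π : S →+* L) (hπ : Function.Surjective π)
    (hfib : Prim ((maximalIdeal (MvPowerSeries σ k)).map t)) :
    ∃ (R' : Type v) (_ : CommRing R') (_ : IsLocalRing R') (_ : IsNoetherianRing R')
      (_ : IsAdicComplete (maximalIdeal R') R') (_ : Algebra R' S) (_ : Module.Finite R' S)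
      (_ : Module.Free R' S) (κ : L →+* R'), (∀ y : R', ∃ c, y - κ c ∈ maximalIdeal R') ∧
      (∀ y : S, ∃ r : R', y - algebraMap R' S r ∈ maximalIdeal S) ∧
      (maximalIdeal R').map (algebraMap R' S) = (maximalIdeal (MvPowerSeries σ k)).map t ∧
      (∀ N : ℕ, cl (maximalIdeal R' ^ N) = cl (I ⊔ maximalIdeal (MvPowerSeries σ k) ^ N)) ∧
      ∀ (d : ℕ) (W : Ideal (MvPowerSeries σ k)), Gen W d → W ≤ maximalIdeal _ → Prim (I ⊔ W) →
        ∃ W0 : Ideal R', Gen W0 d ∧ W0 ≤ maximalIdeal R' ∧ Prim W0 := by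
  letI : Algebra k S := (t.comp C).toAlgebra
  letI : Algebra k L := (π.comp (t.comp C)).toAlgebra
  haveI := formallySmooth_charZero k L
  obtain ⟨s, hs⟩ := exists_lift_of_formallySmooth (F := k) (⟨π, fun _ => rfl⟩ : S →ₐ[k] L) hπ
    (AlgHom.id k L)
  have hs' : ∀ c, π (s c) = c := fun c => AlgHom.congr_fun hs c
  obtain ⟨t', hC, hX⟩ := exists_ev (maximalIdeal S) s.toRingHom (fun i => t (X i)) htX
  let ψ : MvPowerSeries σ k →+* MvPowerSeries σ L := MvPowerSeries.map (algebraMap k L)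
  have hψ : ∀ i, ψ (X i) = X i := fun i => MvPowerSeries.map_X _ _
  have hcpψ : CP ψ ⊥ ⊥ := cp_ps ψ id Function.injective_id hψ
  have hmψ : (maximalIdeal (MvPowerSeries σ k)).map ψ = maximalIdeal _ := by
    rw [maximalIdeal_ps, maximalIdeal_ps, Ideal.map_span, ← Set.range_comp]
    congr 2
    exact funext hψ
  have ht : t'.comp ψ = t := by
    refine ev_unique (maximalIdeal S) _ _ (fun c => ?_) (fun i => ?_) fun i => ?_
    · rw [RingHom.comp_apply, MvPowerSeries.map_C, hC]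
      exact s.commutes c
    · rw [RingHom.comp_apply, hψ, hX]
    · rw [RingHom.comp_apply, hψ, hX]; exact htX i
  let I' : Ideal (MvPowerSeries σ L) := I.map ψ
  have hI' : I' ≠ ⊤ := ne_top_of_le_ne_top (maximalIdeal.isMaximal _).ne_top
    (hmψ ▸ Ideal.map_mono (le_maximalIdeal hI))
  have hker : ∀ a ∈ I', t' a = 0 := fun a ha => by
    have : I' ≤ RingHom.ker t' := Ideal.map_le_iff_le_comap.2 fun b hb => by
      rw [Ideal.mem_comap, RingHom.mem_ker, ← RingHom.comp_apply, ht]; exact htI b hb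
    exact this ha
  haveI : Nontrivial (MvPowerSeries σ L ⧸ I') := Ideal.Quotient.nontrivial_iff.2 hI'
  haveI : IsLocalRing (MvPowerSeries σ L ⧸ I') :=
    IsLocalRing.of_surjective' (Ideal.Quotient.mk I') Ideal.Quotient.mk_surjective
  haveI hco := complete_of_surjective (Ideal.Quotient.mk I') Ideal.Quotient.mk_surjective
  have hmk := map_max_surj (π := Ideal.Quotient.mk I') Ideal.Quotient.mk_surjective
  letI : Algebra (MvPowerSeries σ L ⧸ I') S := (Ideal.Quotient.lift I' t' hker).toAlgebra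
  have halg : (algebraMap (MvPowerSeries σ L ⧸ I') S).comp (Ideal.Quotient.mk I') = t' :=
    Ideal.Quotient.lift_comp_mk I' t' hker
  have hmap : ∀ N : ℕ, (maximalIdeal (MvPowerSeries σ L ⧸ I') ^ N).map (algebraMap _ S) =
      (maximalIdeal (MvPowerSeries σ k) ^ N).map t := fun N => by
    rw [← hmk, ← hmψ, ← Ideal.map_pow, ← Ideal.map_pow, Ideal.map_map, Ideal.map_map, halg, ht]
  have hmap1 := hmap 1
  rw [pow_one, pow_one] at hmap1
  have hloc : (maximalIdeal (MvPowerSeries σ k)).map t ≤ maximalIdeal S := by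
    rw [maximalIdeal_ps, Ideal.map_span, Ideal.span_le]
    rintro _ ⟨_, ⟨i, rfl⟩, rfl⟩
    exact htX i
  have hres : ∀ y : S, ∃ r : MvPowerSeries σ L ⧸ I', y - algebraMap _ S r ∈ maximalIdeal S := by
    intro y
    refine ⟨Ideal.Quotient.mk I' (C (π y)), le_maximalIdeal (RingHom.ker_ne_top π) ?_⟩
    rw [← RingHom.comp_apply, halg, hC, RingHom.mem_ker, map_sub]
    exact sub_eq_zero.2 (hs' _).symm
  have hfin : Module.Finite (MvPowerSeries σ L ⧸ I') S := by
    haveI := finite_of_prim (A := MvPowerSeries σ L ⧸ I') (P := S) (by rwa [hmap1]) hres ⊥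
      (by rwa [hmap1, bot_sup_eq])
    exact Module.Finite.equiv (AlgEquiv.quotientBot (MvPowerSeries σ L ⧸ I') S).toLinearEquiv
  have hpI : ∀ N : ℕ, rl (I ⊔ maximalIdeal (MvPowerSeries σ k) ^ N) (⊤ : Ideal _) ≠ ⊤ :=
    fun N => rl_ne_top_of_prim ⟨N, le_sup_right⟩
  have hlen : ∀ N : ℕ, rl (maximalIdeal (MvPowerSeries σ L ⧸ I') ^ N) (⊤ : Ideal _) =
      rl (I ⊔ maximalIdeal (MvPowerSeries σ k) ^ N) (⊤ : Ideal _) := fun N => by
    have h1 := hcpψ.rl_map bot_le (hpI N)
    rw [sup_bot_eq, sup_bot_eq, hmψ, rl_maximal, mul_one] at h1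
    rw [← h1, ← rl_comap_of_surjective (Ideal.Quotient.mk I') Ideal.Quotient.mk_surjective, ← hmk,
      ← Ideal.map_pow, Ideal.comap_map_of_surjective _ Ideal.Quotient.mk_surjective,
      ← RingHom.ker_eq_comap_bot, Ideal.mk_ker, Ideal.map_sup, Ideal.map_pow, hmψ, sup_comm]
  have hμ := rl_ne_top_of_prim hfib
  have hrl : ∀ N : ℕ, rl ((maximalIdeal (MvPowerSeries σ k) ^ N).map t) (⊤ : Ideal S) =
      rl (I ⊔ maximalIdeal (MvPowerSeries σ k) ^ N) (⊤ : Ideal _) *
        rl ((maximalIdeal (MvPowerSeries σ k)).map t) (⊤ : Ideal S) := fun N => by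
    have h1 := hcp.rl_map le_sup_left (hpI N)
    have h2 : I.map t = ⊥ := (Ideal.map_eq_bot_iff_le_ker t).2 fun a ha => htI a ha
    rwa [sup_bot_eq, sup_bot_eq, Ideal.map_sup, h2, bot_sup_eq] at h1
  have hfree : Module.Free (MvPowerSeries σ L ⧸ I') S := by
    refine free_of_rl S (rl ((maximalIdeal (MvPowerSeries σ k)).map t) (⊤ : Ideal S)).toNat ?_
      fun N => ?_
    · rw [Ideal.smul_top_eq_map, hmap1, rl_restrict_eq (by rwa [hmap1]) hres hμ,
        ENat.coe_toNat hμ]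
    · rw [Ideal.smul_top_eq_map, hmap, rl_restrict_eq (by rwa [hmap1]) hres, ENat.coe_toNat hμ,
        hrl, hlen, mul_comm]
      rw [hrl]
      exact WithTop.mul_ne_top (hpI N) hμ
  refine ⟨MvPowerSeries σ L ⧸ I', inferInstance, inferInstance, inferInstance, hco, inferInstance,
    hfin, hfree, (Ideal.Quotient.mk I').comp C, fun y => ?_, hres, hmap1,
    fun N => by rw [cl, hlen, cl], fun d W h1 h2 h3 => ⟨(W.map ψ).map (Ideal.Quotient.mk I'),
      (h1.map _).map _, ?_, ?_⟩⟩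
  · obtain ⟨f, rfl⟩ := Ideal.Quotient.mk_surjective y
    refine ⟨constantCoeff f, ?_⟩
    rw [RingHom.comp_apply, ← map_sub, ← hmk]
    exact Ideal.mem_map_of_mem _ (Zero_const.2 (by simp))
  · rw [← hmk, ← hmψ]
    exact Ideal.map_mono (Ideal.map_mono h2)
  · rw [prim_map_surj_iff Ideal.Quotient.mk_surjective, Ideal.mk_ker, ← Ideal.map_sup]
    have := Prim.map (ι := ψ) (c := ⊥) ⟨1, by rw [hmψ]; simp⟩ h3
    rwa [bot_sup_eq] at this

theorem core_zero (R : Type u) (S : Type v) [CommRing R] [IsLocalRing R] [IsNoetherianRing R]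
    [CommRing S] [IsLocalRing S] [IsNoetherianRing S] [Algebra R S]
    [IsLocalHom (algebraMap R S)] [Module.Flat R S] (h0 : ∀ n : ℕ, n ≠ 0 → IsUnit (n : R))
    (hfib : Prim ((maximalIdeal R).map (algebraMap R S))) {d : ℕ} {W0 : Ideal R} (hW : Gen W0 d)
    (hWm : W0 ≤ maximalIdeal R) (hWp : Prim W0) {Z : Ideal S} (hZ : Gen Z d)
    (hZm : Z ≤ maximalIdeal S) (hZp : Prim Z) {eR eS : ℝ}
    (hR : Lim d (fun N => cl (maximalIdeal R ^ N)) eR) (hS : Lim d (fun N => cl (Z ^ N)) eS) :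
    eR ≤ eS := by
  obtain ⟨v, xs, hx⟩ := exists_gen (maximalIdeal R)
  obtain ⟨v', ys, hy⟩ := exists_gen (maximalIdeal S)
  obtain ⟨L, iL, iL', I, J, ι, t, hI, hJ, hιx, hιy, hcp, htX, htI, hcpt, hcl, hsop⟩ :=
    setup R S (Or.inr h0) xs hx.symm ys hy.symm
  haveI : Nontrivial (MvPowerSeries (Fin v ⊕ Fin v') L ⧸ J) := Ideal.Quotient.nontrivial_iff.2 hJ
  haveI : IsLocalRing (MvPowerSeries (Fin v ⊕ Fin v') L ⧸ J) :=
    IsLocalRing.of_surjective' (Ideal.Quotient.mk J) Ideal.Quotient.mk_surjective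
  haveI := complete_of_surjective (Ideal.Quotient.mk J) Ideal.Quotient.mk_surjective
  have hmk := map_max_surj (π := Ideal.Quotient.mk J) Ideal.Quotient.mk_surjective
  have hXm : ∀ i, Ideal.Quotient.mk J (MvPowerSeries.X i) ∈ maximalIdeal _ := fun i => by
    rw [← hmk, maximalIdeal_ps]
    exact Ideal.mem_map_of_mem _ (Ideal.subset_span ⟨i, rfl⟩)
  have hmS : (maximalIdeal S).map ι = maximalIdeal _ := by
    refine le_antisymm ?_ ?_
    · rw [hy, Ideal.map_span, Ideal.span_le]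
      rintro _ ⟨_, ⟨j, rfl⟩, rfl⟩
      rw [hιy]; exact hXm _
    · rw [← hmk, maximalIdeal_ps, Ideal.map_span, Ideal.span_le]
      rintro _ ⟨_, ⟨i | j, rfl⟩, rfl⟩
      · rw [← hιx]
        exact Ideal.mem_map_of_mem _ (map_nonunit _ _ (hx ▸ Ideal.subset_span ⟨i, rfl⟩))
      · rw [← hιy]
        exact Ideal.mem_map_of_mem _ (hy ▸ Ideal.subset_span ⟨j, rfl⟩)
  have hprimS : ∀ a : Ideal S, Prim a → Prim (a.map ι) := fun a ha => by
    have := Prim.map (ι := ι) (c := ⊥) ⟨1, by rw [hmS]; simp⟩ ha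
    rwa [bot_sup_eq] at this
  have hmD : (maximalIdeal (MvPowerSeries (Fin v) (ResidueField R))).map t =
      ((maximalIdeal R).map (algebraMap R S)).map ι := by
    refine Eq.trans ?_ (congrArg (fun a => (Ideal.map (algebraMap R S) a).map ι) hx.symm)
    rw [maximalIdeal_ps, Ideal.map_span, Ideal.map_span, Ideal.map_span, ← Set.range_comp,
      ← Set.range_comp, ← Set.range_comp]
    congr 2
    funext i
    exact (htX i).trans (hιx i).symm
  haveI : CharZero (ResidueField R) := charZero_of_inj_zero fun n hn => by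
    by_contra h
    exact ((h0 n h).map (residue R)).ne_zero (by rwa [map_natCast])
  let π : MvPowerSeries (Fin v ⊕ Fin v') L ⧸ J →+* L :=
    Ideal.Quotient.lift J MvPowerSeries.constantCoeff fun a ha =>
      Zero_const.1 (le_maximalIdeal hJ ha)
  haveI : CharZero L := (π.comp (t.comp MvPowerSeries.C)).charZero_iff
    (RingHom.injective _) |>.1 inferInstance
  have hfib1 : Prim ((maximalIdeal (MvPowerSeries (Fin v) (ResidueField R))).map t) := by
    rw [hmD]; exact hprimS _ hfib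
  obtain ⟨R', _, _, _, _, _, _, _, κ, hκ, hres, hmap, hlen, hsop'⟩ :=
    Zero_base L t hI htI hcpt (fun i => by rw [htX]; exact hXm _) π
      (fun c => ⟨Ideal.Quotient.mk J (MvPowerSeries.C c), by simp [π]⟩) hfib1
  obtain ⟨W', h1, h2, h3⟩ := hsop d W0 hW hWm hWp
  obtain ⟨W1, g1, g2, g3⟩ := hsop' d W' h1 h2 h3
  haveI : Infinite (ResidueField R') :=
    Infinite.of_injective _ ((residue R').comp κ).injective
  obtain ⟨v1, hv1⟩ := exists_gen (maximalIdeal R')
  obtain ⟨W, -, ⟨x, rfl⟩, -, -, hred⟩ := red_of_prim (q := ⊥) hv1 le_rfl ⟨1, by simp⟩ g1 g2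
    (by rwa [bot_sup_eq])
  obtain ⟨β, hβC, hβX⟩ := exists_ev (maximalIdeal R') κ x
    fun i => hred.1 (Ideal.subset_span ⟨i, rfl⟩)
  letI : Algebra (MvPowerSeries (Fin d) L) R' := β.toAlgebra
  have hβ : (maximalIdeal (MvPowerSeries (Fin d) L)).map (algebraMap _ R') =
      Ideal.span (Set.range x) := by
    rw [maximalIdeal_ps, Ideal.map_span, ← Set.range_comp]
    congr 2
    exact funext hβX
  have hresR : ∀ y : R', ∃ a : MvPowerSeries (Fin d) L,
      y - algebraMap _ R' a ∈ maximalIdeal R' := fun y => by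
    obtain ⟨c, hc⟩ := hκ y
    exact ⟨MvPowerSeries.C c, by rw [← hβC] at hc; exact hc⟩
  haveI : Module.Finite (MvPowerSeries (Fin d) L) R' := by
    haveI := finite_of_prim (A := MvPowerSeries (Fin d) L) (P := R') (by rw [hβ]; exact hred.1)
      hresR ⊥ (by rw [hβ]; exact hred.prim ⟨1, by simp⟩)
    exact Module.Finite.equiv (AlgEquiv.quotientBot (MvPowerSeries (Fin d) L) R').toLinearEquiv
  refine core_zero_fin L d R' (MvPowerSeries (Fin v ⊕ Fin v') L ⧸ J) hresR (by rwa [hβ]) hres ?_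
    (by rwa [hmap]) (hZ.map ι) (hmS ▸ Ideal.map_mono hZm) (hprimS Z hZp) ?_ ?_
  · rw [hmap, hmD, ← hmS]
    exact Ideal.map_mono (Ideal.map_le_iff_le_comap.2 fun a ha => map_nonunit _ a ha)
  · simpa only [hlen, hcl] using hR
  · refine hS.congr' (Filter.Eventually.of_forall fun N => ?_)
    rw [← Ideal.map_pow, cl_map_unram hcp hmS]
    have := Prim.sup_pow (q := ⊥) (W := Z) (by rwa [bot_sup_eq]) N
    rwa [bot_sup_eq] at this

end Vale.Agent.P202
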