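import Vale.Agent.P202.Transfer
import Vale.Agent.P202.Cnt
import Vale.Agent.P202.Rank
import Vale.Agent.P202.Dim
import Vale.Agent.P202.CoreP

/-! The core inequality in characteristic zero, finite free case. -/

namespace Vale.Agent.P202

open IsLocalRing

universe u

theorem zeroA_gens {A B : Type*} [CommRing A] [CommRing B] [IsLocalRing A] [IsLocalRing B]
    [Algebra A B] [Module.Finite A B]
    (hres : ∀ y : B, ∃ a : A, y - algebraMap A B a ∈ maximalIdeal B)
    (hm : (maximalIdeal A).map (algebraMap A B) ≤ maximalIdeal B) :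
    ∃ (t : ℕ) (n : Fin t → B),
      (∀ y : B, ∃ a : A, y - algebraMap A B a ∈ Submodule.span A (Set.range n)) ∧
      (maximalIdeal A).map (algebraMap A B) ⊔ Ideal.span (Set.range n) = maximalIdeal B := by
  obtain ⟨t, s, hs⟩ := Module.Finite.exists_fin (R := A) (M := B)
  choose a ha using fun i => hres (s i)
  have h1 : ∀ y : B, ∃ c : A, y - algebraMap A B c ∈
      Submodule.span A (Set.range fun i => s i - algebraMap A B (a i)) := by
    intro y
    obtain ⟨c, rfl⟩ := (Submodule.mem_span_range_iff_exists_fun A).1 (hs ▸ Submodule.mem_top :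
      y ∈ Submodule.span A (Set.range s))
    refine ⟨∑ i, c i * a i, (Submodule.mem_span_range_iff_exists_fun A).2 ⟨c, ?_⟩⟩
    simp [smul_sub, Algebra.smul_def, mul_sub]
  have h2 : Ideal.span (Set.range fun i => s i - algebraMap A B (a i)) ≤ maximalIdeal B :=
    Ideal.span_le.2 (by rintro _ ⟨i, rfl⟩; exact ha i)
  refine ⟨t, _, h1, le_antisymm (sup_le hm h2) fun y hy => ?_⟩
  obtain ⟨c, hc⟩ := h1 y
  have h3 := Submodule.span_le_restrictScalars A B _ hc
  have h4 : c ∈ maximalIdeal A := by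
    by_contra h
    have hu : IsUnit c := by simpa using h
    have : algebraMap A B c ∈ maximalIdeal B := by
      simpa using (maximalIdeal B).sub_mem hy (h2 h3)
    exact (mem_maximalIdeal _).1 this (hu.map _)
  rw [show y = algebraMap A B c + (y - algebraMap A B c) by ring]
  exact Submodule.add_mem_sup (Ideal.mem_map_of_mem _ h4) h3

theorem zeroA_span_sum {B : Type*} [CommRing B] {ι κ : Type*} (x : ι → B) (n : κ → B) :
    Ideal.span (Set.range (Sum.elim x n)) = Ideal.span (Set.range x) ⊔ Ideal.span (Set.range n) := by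
  rw [Set.Sum.elim_range, Ideal.span_union]

theorem zeroA_map_span {A B : Type*} [CommRing A] [CommRing B] (f : A →+* B) {ι : Type*}
    (x : ι → A) : (Ideal.span (Set.range x)).map f = Ideal.span (Set.range fun i => f (x i)) := by
  rw [Ideal.map_span, ← Set.range_comp]; rfl

theorem zeroA_aeval {B : Type*} [CommRing B] {ι κ : Type*} (a : ι → B) (e : κ → ι) :
    (Ideal.span (Set.range fun k => (MvPolynomial.X (e k) : MvPolynomial ι ℤ))).map
      (MvPolynomial.aeval a).toRingHom = Ideal.span (Set.range fun k => a (e k)) := by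
  rw [zeroA_map_span]; simp

theorem zeroA_max (K : Type*) [Field K] (d : ℕ) (R : Type*) [CommRing R]
    [Algebra (MvPowerSeries (Fin d) K) R] :
    (maximalIdeal (MvPowerSeries (Fin d) K)).map (algebraMap _ R) = Ideal.span (Set.range
      fun i => algebraMap (MvPowerSeries (Fin d) K) R (MvPowerSeries.X i)) := by
  rw [maximalIdeal_ps, zeroA_map_span]

theorem core_zero_fin (L : Type u) [Field L] [CharZero L] (d : ℕ) (R S : Type u) [CommRing R]
    [IsLocalRing R] [IsNoetherianRing R] [CommRing S] [IsLocalRing S] [IsNoetherianRing S]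
    [Algebra (MvPowerSeries (Fin d) L) R] [Module.Finite (MvPowerSeries (Fin d) L) R]
    [Algebra R S] [Module.Finite R S] [Module.Free R S]
    (hresR : ∀ y : R, ∃ a : MvPowerSeries (Fin d) L, y - algebraMap _ R a ∈ maximalIdeal R)
    (hred : IsRed ⊥ ((maximalIdeal (MvPowerSeries (Fin d) L)).map (algebraMap _ R))
      (maximalIdeal R))
    (hresS : ∀ y : S, ∃ r : R, y - algebraMap R S r ∈ maximalIdeal S)
    (hloc : (maximalIdeal R).map (algebraMap R S) ≤ maximalIdeal S)
    (hfib : Prim ((maximalIdeal R).map (algebraMap R S))) {Z : Ideal S} (hZ : Gen Z d)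
    (hZm : Z ≤ maximalIdeal S) (hZp : Prim Z) {eR eS : ℝ}
    (hR : Lim d (fun N => cl (maximalIdeal R ^ N)) eR) (hS : Lim d (fun N => cl (Z ^ N)) eS) :
    eR ≤ eS := by
  classical
  have : IsDomain (MvPowerSeries (Fin d) L) := NoZeroDivisors.to_isDomain _
  obtain ⟨ρ, v, g, hg, hv, hgv⟩ := exists_rank (A := MvPowerSeries (Fin d) L) R
  have hpR : Prim (⊥ ⊔ maximalIdeal R) := ⟨1, by simp⟩
  have h1 : eR ≤ ρ := by
    obtain ⟨t, s, hs⟩ := Module.Finite.exists_fin (R := MvPowerSeries (Fin d) L) (M := R)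
    have := (lim_red_iff hred hpR).2 (by simpa using hR)
    simp only [bot_sup_eq] at this
    simpa using lim_ub ⟨_, maximalIdeal_ps L⟩ s v hg
      (fun N y => ⟨y, hs ▸ Submodule.mem_top, by simp⟩) (fun a => hgv _) this
  refine h1.trans ?_
  rcases Nat.eq_zero_or_pos ρ with h0 | hρ
  · rw [h0, Nat.cast_zero]; exact hS.nonneg_cl
  obtain ⟨t, n, hn, hmR⟩ := zeroA_gens hresR hred.1
  obtain ⟨s, w, hw, hmS⟩ := zeroA_gens hresS hloc
  obtain ⟨z, rfl⟩ := hZ
  let aR : Fin d ⊕ Fin t → R :=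
    Sum.elim (fun i => algebraMap (MvPowerSeries (Fin d) L) R (MvPowerSeries.X i)) n
  let η : (Fin d ⊕ Fin t) ⊕ Fin s → S := Sum.elim (fun i => algebraMap R S (aR i)) w
  have haR : Ideal.span (Set.range aR) = maximalIdeal R := by
    rw [zeroA_span_sum, ← zeroA_max, hmR]
  have hη : Ideal.span (Set.range η) = maximalIdeal S := by
    rw [zeroA_span_sum, ← zeroA_map_span, haR, hmS]
  obtain ⟨-, r, hr⟩ := hred
  obtain ⟨c, hc⟩ := hfib
  obtain ⟨T1, c1⟩ := cert_le.{u, u} aR (Ideal.span (Set.range fun k => MvPolynomial.X (id k)) ^ (r + 1))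
    (Ideal.span (Set.range fun k => MvPolynomial.X (Sum.inl k)) *
      Ideal.span (Set.range fun k => MvPolynomial.X (id k)) ^ r) (by
      rw [Ideal.map_mul, Ideal.map_pow, Ideal.map_pow, zeroA_aeval, zeroA_aeval]
      rw [bot_sup_eq, zeroA_max, ← haR] at hr
      exact hr)
  obtain ⟨T2, c2⟩ := cert_le.{u, u} η (Ideal.span (Set.range fun k => MvPolynomial.X (id k)) ^ c)
    (Ideal.span (Set.range fun k => MvPolynomial.X (Sum.inl k))) (by
      rw [Ideal.map_pow, zeroA_aeval, zeroA_aeval]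
      rw [← hη, ← haR, zeroA_map_span] at hc
      exact hc)
  obtain ⟨T3, c3⟩ := cnt_cert.{u, u} z (fun i => hZm (Ideal.subset_span ⟨i, rfl⟩)) hZp hS η hη
  obtain ⟨p, _, K, _, _, R', S', _, _, _, _, _, _, _, ΩR, ΩS, _, _, jR, jS, τR, τS, α, iR, iS, e1,
    e2, mR, mS, hξ, ⟨n', hn1, hn2⟩, ⟨w', hw1, hw2⟩, ⟨v', hv'⟩, hnt⟩ :=
    transfer L d R S n hn w hw v hv g hg hgv T1 (T2 ∪ T3 ∪ Finset.univ.image z)
  choose ξ hξ1 hξ2 using hξ
  choose z' hz' using fun i => mS (z i) (by simp)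
  have ntR : Nontrivial R' := ⟨⟨v' ⟨0, hρ⟩, 0, hv'.ne_zero _⟩⟩
  have ntS := hnt ntR
  have nR : IsNoetherianRing R' := IsNoetherianRing.of_finite (MvPowerSeries (Fin d) K) R'
  have nS : IsNoetherianRing S' := IsNoetherianRing.of_finite R' S'
  let aR' : Fin d ⊕ Fin t → ΩR := Sum.elim ξ n'
  let η' : (Fin d ⊕ Fin t) ⊕ Fin s → ΩS := Sum.elim (fun i => α (aR' i)) w'
  have l1 : ∀ i, jR (aR' i) = aR i := by rintro (i | i); exacts [hξ1 i, hn1 i]
  have l2 : ∀ i, jS (η' i) = η i := by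
    rintro (i | i)
    · exact (e1 _).trans (congrArg _ (l1 i))
    · exact hw1 i
  have d1 := c1 ΩR jR iR mR aR' l1 R' τR
  have d2 := c2 ΩS jS iS (fun t ht => mS t (by simp [ht])) η' l2 S' τS
  rw [Ideal.map_mul, Ideal.map_pow, Ideal.map_pow, zeroA_aeval, zeroA_aeval] at d1
  rw [Ideal.map_pow, zeroA_aeval, zeroA_aeval] at d2
  simp only [id] at d1 d2
  have eW : Ideal.span (Set.range fun k => τR (aR' (Sum.inl k))) =
      (maximalIdeal (MvPowerSeries (Fin d) K)).map (algebraMap _ R') := by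
    rw [zeroA_max]; exact congrArg (fun f => Ideal.span (Set.range f)) (funext hξ2)
  have lW : (maximalIdeal (MvPowerSeries (Fin d) K)).map (algebraMap _ R') ≤
      Ideal.span (Set.range fun k => τR (aR' k)) := by
    rw [← eW]; exact Ideal.span_mono (by rintro _ ⟨k, rfl⟩; exact ⟨_, rfl⟩)
  rw [eW] at d1
  have hres' : ∀ y : R', ∃ a : MvPowerSeries (Fin d) K,
      y - algebraMap _ R' a ∈ Ideal.span (Set.range fun k => τR (aR' k)) := by
    intro y
    obtain ⟨a, ha⟩ := hn2 y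
    have hb := Submodule.span_le_restrictScalars (MvPowerSeries (Fin d) K) R' _ ha
    exact ⟨a, Ideal.span_mono (by rintro _ ⟨k, rfl⟩; exact ⟨Sum.inr k, rfl⟩) hb⟩
  obtain ⟨_, mR'⟩ := isLocal_of_finite (A := MvPowerSeries (Fin d) K) _ hres' lW
    fun y hy => ⟨r + 1, Ideal.mul_le_left (d1 (Ideal.pow_mem_pow hy _))⟩
  have eV : Ideal.span (Set.range fun k => τS (η' (Sum.inl k))) =
      (maximalIdeal R').map (algebraMap R' S') := by
    rw [mR', zeroA_map_span]
    exact congrArg (fun f => Ideal.span (Set.range f)) (funext fun k => e2 _)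
  have lV : (maximalIdeal R').map (algebraMap R' S') ≤
      Ideal.span (Set.range fun k => τS (η' k)) := by
    rw [← eV]; exact Ideal.span_mono (by rintro _ ⟨k, rfl⟩; exact ⟨_, rfl⟩)
  rw [eV] at d2
  obtain ⟨_, mS'⟩ := isLocal_of_finite (A := R') (Ideal.span (Set.range fun k => τS (η' k)))
    (fun y => by
      obtain ⟨a, ha⟩ := hw2 y
      have hb := Submodule.span_le_restrictScalars R' S' _ ha
      exact ⟨a, Ideal.span_mono (by rintro _ ⟨k, rfl⟩; exact ⟨Sum.inr k, rfl⟩) hb⟩) lV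
    fun y hy => ⟨c, d2 (Ideal.pow_mem_pow hy _)⟩
  obtain ⟨f1, f2, f3⟩ := c3 ΩS jS iS (fun t ht => mS t (by simp [ht])) η' z' l2 hz' S' τS mS'.symm
  rw [← mR'] at d1 lW hres'
  rw [← mS'] at d2 lV
  have : IsLocalHom (algebraMap R' S') := ⟨fun a ha => by
    by_contra h
    exact (mem_maximalIdeal _).1 (lV (Ideal.mem_map_of_mem _ ((mem_maximalIdeal _).2 h))) ha⟩
  have : CharP R' p := charP_of_injective_ringHom
    ((algebraMap (MvPowerSeries (Fin d) K) R').comp MvPowerSeries.C).injective p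
  have gW : Gen ((maximalIdeal (MvPowerSeries (Fin d) K)).map (algebraMap _ R')) d :=
    ⟨_, zeroA_max K d R'⟩
  have pW : Prim ((maximalIdeal (MvPowerSeries (Fin d) K)).map (algebraMap _ R')) :=
    ⟨r + 1, d1.trans Ideal.mul_le_left⟩
  obtain ⟨e1', he1⟩ := exists_lim (I := ⊥) gW (pW.mono le_sup_right)
  obtain ⟨e2', he2⟩ := exists_lim (I := ⊥) ⟨_, rfl⟩ (f2.mono le_sup_right)
  have he3 := (lim_red_iff ⟨lW, r, d1.trans le_sup_right⟩ ⟨1, by simp⟩).1 he1
  simp only [bot_sup_eq] at he1 he2 he3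
  have g1 := lim_lb (by simpa using lim_ps (σ := Fin d) K) lW hres' v' hv' he1
  have g2 := core_p R' S' p ⟨c, d2⟩ gW lW pW ⟨_, rfl⟩ f1 f2 he3 he2
  rw [Fintype.card_fin] at g1
  exact g1.trans (g2.trans (f3 _ he2))

end Vale.Agent.P202
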